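import Vale.Agent.P150.EntB

/-! Defective tensorization of entropy, and the continuation bound. -/

open MeasureTheory ProbabilityTheory Matrix Filter Topology
open scoped ENNReal NNReal

namespace Vale.Agent.P150

variable {n : ℕ}

variable {W f : Cube n → ℝ} {ε : ℝ}

namespace Ate

lemma pe_nonneg (hW : ∀ x, 0 < W x) (B : ℕ → Mat n) (l k : ℕ) (θ : Vec n)
    {φ : Cube n → Vec n → ℝ} (h : ∀ x θ', 0 ≤ φ x θ') : 0 ≤ pe W ε B l k θ φ := by
  have h1 := pe_mono (ε := ε) hW B l k θ (φ := fun _ _ => 0) h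
  rwa [pe_const hW] at h1

lemma ex_le {π : Cube n → ℝ} (hπ : IsP π) {Λ : ℝ} (h : ∀ x, f x ≤ Λ) : ex π f ≤ Λ := by
  calc ex π f ≤ ∑ x, π x * Λ :=
        Finset.sum_le_sum fun x _ => mul_le_mul_of_nonneg_left (h x) (hπ.1 x).le
    _ = Λ := by rw [← Finset.sum_mul, hπ.2, one_mul]

lemma cov_div_le {π : Cube n → ℝ} (hπ : IsP π) (hf : ∀ x, 0 < f x) :
    vn (cov π f) ^ 2 / ex π f ≤ 4 * n * ex π f := by
  have h0 := ex_pos hπ hf
  rw [div_le_iff₀ h0]
  have h1 := pow_le_pow_left₀ (vn_nonneg _) (vn_cov_le hπ hf) 2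
  rw [mul_pow, Real.sq_sqrt (Nat.cast_nonneg n)] at h1
  linarith

/-- The averaged one-step inequality. -/
lemma pe_step (hW : ∀ x, 0 < W x) (B : ℕ → Mat n) {l : ℕ} (hB : opn (B l) ≤ 3) (hε : 0 < ε)
    (hεn : ε * n ≤ 1 / 6) (hf : ∀ x, 0 < f x) (g : Vec n → ℝ)
    (hg : ∀ θ, vn (cov (tilt (wts W ε B l) θ) f) ^ 2 / ex (tilt (wts W ε B l) θ) f ≤ g θ) :
    pe W ε B 0 l 0 (fun _ θ => ent (tilt (wts W ε B l) θ) f) ≤
      pe W ε B 0 (l + 1) 0 (fun _ θ => ent (tilt (wts W ε B (l + 1)) θ) f) +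
        36 * ε ^ 2 * pe W ε B 0 l 0 (fun _ => g) + 10 ^ 4 * (ε * n) ^ 4 * ex (tilt W 0) f := by
  have h1 := pe_ex (ε := ε) hW B 0 l 0 f
  rw [zero_add] at h1
  have h2 : ex (tilt W 0) f =
      pe W ε B 0 l 0 (fun _ θ' => ex (tilt (wts W ε B l) θ') f) := h1.symm
  rw [pe_last hW, h2, ← pe_mul, ← pe_mul, ← pe_add, ← pe_add, zero_add]
  refine pe_mono hW B 0 l 0 fun _ θ => (ent_step (wts_pos hW B l) hf hB hε hεn θ).trans ?_
  have h3 := mul_le_mul_of_nonneg_left (hg θ) (show 0 ≤ 36 * ε ^ 2 by positivity)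
  rw [← mul_div_assoc] at h3
  exact add_le_add (add_le_add le_rfl h3) le_rfl

lemma back {u b : ℕ → ℝ} {t : ℝ} (ht0 : 0 ≤ t) (ht : t ≤ 1 / 2) (N : ℕ)
    (hu : ∀ l, 0 ≤ u l) (hb : ∀ l, 0 ≤ b l) (h : ∀ l < N, u l ≤ u (l + 1) + t * u l + b l) :
    u 0 ≤ Real.exp (2 * t * N) * (u N + ∑ l ∈ Finset.range N, b l) := by
  induction N with
  | zero => simp
  | succ N ih =>
    have h1 := ih fun l hl => h l (hl.trans N.lt_succ_self)
    have h2 := h N N.lt_succ_self
    have h3 : 1 + 2 * t ≤ Real.exp (2 * t) := by linarith [Real.add_one_le_exp (2 * t)]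
    have h4 : 0 ≤ ∑ l ∈ Finset.range N, b l := Finset.sum_nonneg fun l _ => hb l
    have h5 : u N ≤ (1 + 2 * t) * (u (N + 1) + b N) := by
      have h6 : u N ≤ (1 + 2 * t) * ((1 - t) * u N) := by
        nlinarith [mul_nonneg (mul_nonneg ht0 (hu N)) (show 0 ≤ 1 - 2 * t by linarith)]
      exact h6.trans (mul_le_mul_of_nonneg_left (by linarith) (by linarith))
    have h6 : u N + ∑ l ∈ Finset.range N, b l ≤
        Real.exp (2 * t) * (u (N + 1) + ∑ l ∈ Finset.range (N + 1), b l) := by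
      rw [Finset.sum_range_succ]
      refine le_trans ?_ (mul_le_mul_of_nonneg_right h3 (by linarith [hu (N + 1), hb N]))
      nlinarith [mul_nonneg ht0 h4]
    refine h1.trans ((mul_le_mul_of_nonneg_left h6 (Real.exp_pos _).le).trans (le_of_eq ?_))
    rw [← mul_assoc, ← Real.exp_add]
    congr 2
    push_cast
    ring

lemma forw {a : ℕ → ℝ} {s b : ℝ} (hs : 0 ≤ s) (hb : 0 ≤ b) (h0 : a 0 ≤ 0) (N : ℕ)
    (h : ∀ l < N, a (l + 1) ≤ (1 + s) * a l + b) : a N ≤ Real.exp (s * N) * (N * b) := by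
  induction N with
  | zero => simpa using h0
  | succ N ih =>
    have h1 := ih fun l hl => h l (hl.trans N.lt_succ_self)
    have h2 := h N N.lt_succ_self
    have h3 : 1 + s ≤ Real.exp s := by linarith [Real.add_one_le_exp s]
    have h4 : 1 ≤ Real.exp (s * N) := Real.one_le_exp (by positivity)
    have h5 : Real.exp (s * ((N + 1 : ℕ) : ℝ)) = Real.exp s * Real.exp (s * N) := by
      rw [← Real.exp_add]; congr 1; push_cast; ring
    have h6 : (1 + s) * a N ≤ Real.exp s * (Real.exp (s * N) * (N * b)) :=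
      (mul_le_mul_of_nonneg_left h1 (by linarith)).trans
        (mul_le_mul_of_nonneg_right h3 (by positivity))
    have h7 : 1 ≤ Real.exp s * Real.exp (s * N) := one_le_mul_of_one_le_of_one_le (by linarith) h4
    rw [h5]
    push_cast
    nlinarith [mul_le_mul_of_nonneg_right h7 hb]

lemma young {x : ℝ} (hx : 0 < x) (y : ℝ) : x * y ≤ x * Real.log x - x + Real.exp y := by
  have h1 := Real.add_one_le_exp (y - Real.log x)
  rw [Real.exp_sub, Real.exp_log hx, le_div_iff₀ hx] at h1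
  nlinarith

end Ate

open Ate

/-- With `u l = pe W ε B 0 l 0 (ent (tilt (wts l) θ) f)`: `ent_step`, `ent_stab` on `E l`, `vn_cov_le`
off `E l`, and `pe_last` give `(1 - A ε²) u l ≤ u (l+1) + 144 ε² n Λ P(¬ E l) + 2 * 10^4 (ε n)^4`;
finish with `ent_term`, `pe_dir` and `(1 - t)⁻¹ ≤ exp (2 t)` for `t ≤ 1/2`. -/
theorem ate (hW : ∀ x, 0 < W x) (B : ℕ → Mat n) (hB : ∀ l, opn (B l) ≤ 3) (N : ℕ) (hε : 0 < ε)
    (hεn : ε * n ≤ 1 / 6) {K δ ζ Λ c : ℝ} (hK : 0 < K) (hδ : 0 < δ)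
    (hA : 72 * max K (2 / δ) * ε ^ 2 ≤ 1 / 2) (E : ℕ → Vec n → Prop)
    (hE : ∀ l < N, ∀ θ, E l θ → ∀ a : Vec n, vn a ≤ δ * √(n : ℝ) →
      ∀ u, vr (tilt (wts W ε B l) (θ + a)) u ≤ K * (u ⬝ᵥ u))
    (hζ : ∑ l ∈ Finset.range N, pe W ε B 0 l 0 (fun _ θ => ind (¬ E l θ)) ≤ ζ)
    (hT : ∀ x, |Real.log (wts W ε B N x) - c| ≤ 1) (hf : ∀ x, 0 < f x) (hΛ : ∀ x, f x ≤ Λ)
    (h2 : ex (tilt W 0) f ≤ 2) :
    ent (tilt W 0) f ≤ Real.exp (144 * max K (2 / δ) * (N * ε ^ 2)) *
      (Real.exp 4 * dir (tilt W 0) f + 144 * ε ^ 2 * n * Λ * ζ + 2 * 10 ^ 4 * N * (ε * n) ^ 4) := by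
  have hΛ0 : 0 < Λ := (hf fun _ => true).trans_le (hΛ _)
  have hA0 : 0 < max K (2 / δ) := hK.trans_le (le_max_left _ _)
  have hP := fun l θ => tilt_isP (wts_pos (ε := ε) hW B l) θ
  have hb := back (u := fun l => pe W ε B 0 l 0 (fun _ θ => ent (tilt (wts W ε B l) θ) f))
    (b := fun l => 144 * ε ^ 2 * n * Λ * pe W ε B 0 l 0 (fun _ θ => ind (¬ E l θ)) +
      2 * 10 ^ 4 * (ε * n) ^ 4) (t := 72 * max K (2 / δ) * ε ^ 2) (by positivity) hA N
    (fun l => pe_nonneg hW B 0 l 0 fun _ θ => ent_nonneg (hP l θ) hf)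
    (fun l => add_nonneg (mul_nonneg (by positivity)
      (pe_nonneg hW B 0 l 0 fun _ θ => ind_nonneg _)) (by positivity)) fun l hl => by
      have h3 := pe_step hW B (hB l) hε hεn hf (fun θ => 2 * max K (2 / δ) *
        ent (tilt (wts W ε B l) θ) f + 4 * n * Λ * ind (¬ E l θ)) fun θ => by
          have h4 := ent_nonneg (hP l θ) hf
          by_cases h : E l θ
          · rw [ind_neg (not_not.2 h), mul_zero, add_zero, div_le_iff₀ (ex_pos (hP l θ) hf)]
            exact (ent_stab (wts_pos hW B l) hf hK hδ θ (hE l hl θ h)).trans (le_of_eq (by ring))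
          · rw [ind_pos h, mul_one]
            have h5 := cov_div_le (hP l θ) hf
            have h6 := mul_le_mul_of_nonneg_left (ex_le (hP l θ) hΛ)
              (show (0 : ℝ) ≤ 4 * n by positivity)
            have h7 : 0 ≤ 2 * max K (2 / δ) * ent (tilt (wts W ε B l) θ) f := by positivity
            linarith
      rw [pe_add, pe_mul, pe_mul] at h3
      have h4 := mul_le_mul_of_nonneg_left h2 (show (0 : ℝ) ≤ 10 ^ 4 * (ε * n) ^ 4 by positivity)
      linarith
  have h0 : pe W ε B 0 0 0 (fun _ θ => ent (tilt (wts W ε B 0) θ) f) = ent (tilt W 0) f :=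
    pe_const (ε := ε) hW B 0 0 0 _
  have hN : pe W ε B 0 N 0 (fun _ θ => ent (tilt (wts W ε B N) θ) f) ≤
      Real.exp 4 * dir (tilt W 0) f := by
    refine (pe_mono hW B 0 N 0 fun _ θ => ent_term (wts_pos hW B N) hT θ hf).trans ?_
    rw [pe_mul]
    have h3 := pe_dir (ε := ε) hW hf B 0 N 0
    rw [zero_add] at h3
    exact mul_le_mul_of_nonneg_left h3 (Real.exp_pos _).le
  simp only [h0] at hb
  rw [Finset.sum_add_distrib, ← Finset.mul_sum, Finset.sum_const, Finset.card_range,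
    nsmul_eq_mul] at hb
  refine hb.trans ?_
  rw [show 2 * (72 * max K (2 / δ) * ε ^ 2) * N = 144 * max K (2 / δ) * (N * ε ^ 2) by ring]
  refine mul_le_mul_of_nonneg_left ?_ (Real.exp_pos _).le
  have h3 := mul_le_mul_of_nonneg_left hζ (show (0 : ℝ) ≤ 144 * ε ^ 2 * n * Λ by positivity)
  linarith

/-- Let `F l θ = ex (tilt (wts l) θ) f`, `a l = ent (tilt W 0) f - pe 0 l 0 (ent (tilt (wts l) θ) f)`,
which equals `pe 0 l 0 (F l * log (F l))` by `pe_cond`. The pointwise inequality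
`F * L * ind ≤ F log F - F + exp (L * ind)` with `L = c n` gives `c n * pe (F * ind (¬ G)) ≤ a l + 1`,
so `a (l+1) ≤ a l + 36 ε² (η n + C dir + 4 (a l + 1)/c) + 10^4 (ε n)^4`; discrete Gronwall. -/
theorem cont_ent (hn : 0 < n) (hW : ∀ x, 0 < W x) (B : ℕ → Mat n) (hB : ∀ l, opn (B l) ≤ 3)
    (N : ℕ) (hε : 0 < ε) (hεn : ε * n ≤ 1 / 6) {c η C : ℝ} (hc : 0 < c) (hη : 0 ≤ η) (hC : 0 ≤ C)
    (G : ℕ → Vec n → Prop)
    (hG : ∀ l < N, pe W ε B 0 l 0 (fun _ θ => ind (¬ G l θ)) ≤ Real.exp (-(c * n)))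
    (hf : ∀ x, 0 < f x) (h1 : ex (tilt W 0) f = 1)
    (hcov : ∀ l < N, ∀ θ, G l θ → vn (cov (tilt (wts W ε B l) θ) f) ^ 2 ≤
      ex (tilt (wts W ε B l) θ) f *
        (η * n * ex (tilt (wts W ε B l) θ) f + C * dir (tilt (wts W ε B l) θ) f)) :
    ent (tilt W 0) f ≤ pe W ε B 0 N 0 (fun _ θ => ent (tilt (wts W ε B N) θ) f) +
      Real.exp (144 * (N * ε ^ 2) / c) *
        (36 * (N * ε ^ 2) * (η * n + C * dir (tilt W 0) f + 4 / c) + 10 ^ 4 * N * (ε * n) ^ 4) := by
  have hn' : (0 : ℝ) < n := Nat.cast_pos.2 hn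
  have hP := fun l θ => tilt_isP (wts_pos (ε := ε) hW B l) θ
  have hd := dir_nonneg (tilt_isP hW 0) hf
  have hex : ∀ (l : ℕ) (g : Cube n → ℝ), pe W ε B 0 l 0
      (fun _ θ => ex (tilt (wts W ε B l) θ) g) = ex (tilt W 0) g := fun l g => by
    have h3 := pe_ex (ε := ε) hW B 0 l 0 g
    rwa [zero_add] at h3
  have ha : ∀ l, pe W ε B 0 l 0 (fun _ θ => ex (tilt (wts W ε B l) θ) f *
      Real.log (ex (tilt (wts W ε B l) θ) f)) =
      ent (tilt W 0) f - pe W ε B 0 l 0 (fun _ θ => ent (tilt (wts W ε B l) θ) f) := fun l => by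
    have h3 := hex l fun x => f x * Real.log (f x)
    have h4 : ent (tilt W 0) f = ex (tilt W 0) fun x => f x * Real.log (f x) := by
      rw [ent, h1]; simp [ex]
    rw [eq_sub_iff_add_eq, ← pe_add, h4, ← h3]
    congr 1
    funext _ θ
    simp [ent, ex]
  have hb := forw
    (a := fun l => ent (tilt W 0) f - pe W ε B 0 l 0 (fun _ θ => ent (tilt (wts W ε B l) θ) f))
    (s := 144 * ε ^ 2 / c) (b := 36 * ε ^ 2 * (η * n + C * dir (tilt W 0) f + 4 / c) +
      10 ^ 4 * (ε * n) ^ 4) (by positivity) (by positivity)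
    (sub_eq_zero.2 (pe_const (ε := ε) hW B 0 0 0 _).symm).le N fun l hl => by
      have h3 := pe_step hW B (hB l) hε hεn hf (fun θ => η * n * ex (tilt (wts W ε B l) θ) f +
        C * dir (tilt (wts W ε B l) θ) f +
        4 / c * (c * n * (ex (tilt (wts W ε B l) θ) f * ind (¬ G l θ)))) fun θ => by
          have h4 := dir_nonneg (hP l θ) hf
          have h5 := ex_pos (hP l θ) hf
          by_cases h : G l θ
          · rw [ind_neg (not_not.2 h), mul_zero, mul_zero, mul_zero, add_zero, div_le_iff₀ h5]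
            exact (hcov l hl θ h).trans (le_of_eq (by ring))
          · rw [ind_pos h, mul_one]
            have h6 := cov_div_le (hP l θ) hf
            have h7 : 4 / c * (c * n * ex (tilt (wts W ε B l) θ) f) =
                4 * n * ex (tilt (wts W ε B l) θ) f := by field_simp
            have h8 : 0 ≤ η * n * ex (tilt (wts W ε B l) θ) f +
                C * dir (tilt (wts W ε B l) θ) f := by positivity
            linarith
      rw [pe_add, pe_add, pe_mul, pe_mul, pe_mul, hex, h1] at h3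
      have h4 := pe_dir (ε := ε) hW hf B 0 l 0
      rw [zero_add] at h4
      have h5 : pe W ε B 0 l 0
          (fun _ θ => c * n * (ex (tilt (wts W ε B l) θ) f * ind (¬ G l θ))) ≤
          pe W ε B 0 l 0 (fun _ θ => ex (tilt (wts W ε B l) θ) f *
            Real.log (ex (tilt (wts W ε B l) θ) f) + -1 * ex (tilt (wts W ε B l) θ) f +
            (1 + Real.exp (c * n) * ind (¬ G l θ))) := by
        refine pe_mono hW B 0 l 0 fun _ θ => ?_
        have h5 := ex_pos (hP l θ) hf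
        by_cases h : G l θ
        · rw [ind_neg (not_not.2 h)]
          have := young h5 0
          rw [Real.exp_zero] at this
          linarith
        · rw [ind_pos h]
          have := young h5 (c * n)
          linarith
      rw [pe_add, pe_add, pe_add, pe_mul _ _ _ _ (-1), pe_mul _ _ _ _ (Real.exp _), ha, hex, h1,
        pe_const hW] at h5
      have h6 := mul_le_mul_of_nonneg_left (hG l hl) (Real.exp_pos (c * n)).le
      rw [← Real.exp_add, add_neg_cancel, Real.exp_zero] at h6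
      have h7 := mul_le_mul_of_nonneg_left h4 hC
      have h8 := mul_le_mul_of_nonneg_left (show pe W ε B 0 l 0
          (fun _ θ => c * n * (ex (tilt (wts W ε B l) θ) f * ind (¬ G l θ))) ≤ ent (tilt W 0) f -
          pe W ε B 0 l 0 (fun _ θ => ent (tilt (wts W ε B l) θ) f) + 1 by linarith)
        (show 0 ≤ 4 / c by positivity)
      have h9 := mul_le_mul_of_nonneg_left (add_le_add h7 h8)
        (show 0 ≤ 36 * ε ^ 2 by positivity)
      have h10 : dir (tilt (wts W ε B 0) 0) f = dir (tilt W 0) f := rfl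
      rw [h10] at h9
      rw [show 144 * ε ^ 2 / c = 36 * ε ^ 2 * (4 / c) by ring]
      linarith
  rw [show 144 * ε ^ 2 / c * N = 144 * (N * ε ^ 2) / c by ring] at hb
  rw [← sub_le_iff_le_add']
  exact hb.trans (le_of_eq (by ring))

end Vale.Agent.P150
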