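import Vale.Agent.P150.Defs

open MeasureTheory ProbabilityTheory Matrix Filter Topology
open scoped ENNReal NNReal

namespace Vale.Agent.P150

abbrev Vec (n : ℕ) := Fin n → ℝ
abbrev Mat (n : ℕ) := Matrix (Fin n) (Fin n) ℝ

/-- Euclidean norm. -/
noncomputable def vn {ι : Type} [Fintype ι] (u : ι → ℝ) : ℝ := √(∑ i, u i ^ 2)

/-- Operator norm. -/
noncomputable def opn {n : ℕ} (A : Mat n) : ℝ :=
  ‖Matrix.toEuclideanCLM (n := Fin n) (𝕜 := ℝ) A‖

/-- Frobenius norm. -/
noncomputable def fro {n : ℕ} (A : Mat n) : ℝ := vn fun p : Fin n × Fin n => A p.1 p.2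

/-- Spin vector. -/
def sv {n : ℕ} (x : Cube n) : Vec n := fun i => sp (x i)

/-- Average over sites. -/
noncomputable def avg {n : ℕ} (u : Vec n) : ℝ := (∑ i, u i) / n

/-- Standard Gaussian vector. -/
noncomputable def gp (ι : Type) [Fintype ι] : Measure (ι → ℝ) :=
  Measure.pi fun _ => gaussianReal 0 1

instance (ι : Type) [Fintype ι] : IsProbabilityMeasure (gp ι) := by
  unfold gp; infer_instance

/-- The GOE matrix built from an i.i.d. array. -/
noncomputable def goe {n : ℕ} (β : ℝ) (X : Fin n × Fin n → ℝ) : Mat n :=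
  Matrix.of fun i j => β / √(2 * (n : ℝ)) * (X (i, j) + X (j, i))

/-- The matrix with its diagonal removed. -/
def od {n : ℕ} (J : Mat n) : Mat n := Matrix.of fun i j => if i = j then 0 else J i j

/-- Properties of the GOE matrix holding with probability tending to one. -/
def WHP (β : ℝ) (P : ∀ n : ℕ, Mat n → Prop) : Prop :=
  Tendsto (fun n : ℕ => gp (Fin n × Fin n) {X | ¬ P n (goe β X)}) atTop (𝓝 0)

/-- Centred Gaussian density of variance `v`. -/
noncomputable def phi (v t : ℝ) : ℝ := Real.exp (-t ^ 2 / (2 * v)) / √(2 * Real.pi * v)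

section Vn
variable {ι : Type} [Fintype ι]

theorem vn_eq_norm (u : ι → ℝ) : vn u = ‖(WithLp.toLp 2 u : EuclideanSpace ℝ ι)‖ := by
  rw [EuclideanSpace.norm_eq]; simp [vn]

theorem vn_nonneg (u : ι → ℝ) : 0 ≤ vn u := Real.sqrt_nonneg _

theorem vn_sq (u : ι → ℝ) : vn u ^ 2 = ∑ i, u i ^ 2 :=
  Real.sq_sqrt (Finset.sum_nonneg fun _ _ => sq_nonneg _)

theorem dot_self (u : ι → ℝ) : u ⬝ᵥ u = vn u ^ 2 := by
  rw [vn_sq]; simp [dotProduct, sq]

theorem vn_zero : vn (0 : ι → ℝ) = 0 := by simp [vn]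

theorem vn_add_le (u v : ι → ℝ) : vn (u + v) ≤ vn u + vn v := by
  simp only [vn_eq_norm, WithLp.toLp_add]; exact norm_add_le _ _

theorem vn_neg (u : ι → ℝ) : vn (-u) = vn u := by simp [vn]

theorem vn_sub_le (u v : ι → ℝ) : vn (u - v) ≤ vn u + vn v := by
  rw [sub_eq_add_neg, ← vn_neg v]; exact vn_add_le _ _

theorem vn_sub_comm (u v : ι → ℝ) : vn (u - v) = vn (v - u) := by
  rw [← vn_neg, neg_sub]

theorem vn_triangle (u v w : ι → ℝ) : vn (u - w) ≤ vn (u - v) + vn (v - w) := by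
  have := vn_add_le (u - v) (v - w); rwa [sub_add_sub_cancel] at this

theorem vn_smul (c : ℝ) (u : ι → ℝ) : vn (c • u) = |c| * vn u := by
  simp only [vn_eq_norm, WithLp.toLp_smul, norm_smul, Real.norm_eq_abs]

theorem vn_sum_le {κ : Type} (s : Finset κ) (u : κ → ι → ℝ) :
    vn (∑ k ∈ s, u k) ≤ ∑ k ∈ s, vn (u k) := by
  classical
  induction s using Finset.induction_on with
  | empty => simp [vn_zero]
  | insert a s ha ih =>
    rw [Finset.sum_insert ha, Finset.sum_insert ha]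
    exact (vn_add_le _ _).trans (by linarith)

theorem abs_dot_le (u v : ι → ℝ) : |u ⬝ᵥ v| ≤ vn u * vn v := by
  refine abs_le_of_sq_le_sq' ?_ (mul_nonneg (vn_nonneg _) (vn_nonneg _)) |> abs_le.2
  rw [mul_pow, vn_sq, vn_sq]
  exact Finset.sum_mul_sq_le_sq_mul_sq _ _ _

theorem dot_le (u v : ι → ℝ) : u ⬝ᵥ v ≤ vn u * vn v := (le_abs_self _).trans (abs_dot_le u v)

theorem vn_le_of_sq_le {u : ι → ℝ} {c : ℝ} (hc : 0 ≤ c) (h : ∑ i, u i ^ 2 ≤ c ^ 2) : vn u ≤ c :=
  Real.sqrt_le_iff.2 ⟨hc, h⟩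

theorem vn_mono {u v : ι → ℝ} (h : ∀ i, |u i| ≤ |v i|) : vn u ≤ vn v :=
  Real.sqrt_le_sqrt (Finset.sum_le_sum fun i _ => sq_le_sq.2 (h i))

theorem abs_le_vn (u : ι → ℝ) (i : ι) : |u i| ≤ vn u :=
  Real.abs_le_sqrt (Finset.single_le_sum (f := fun i => u i ^ 2) (fun _ _ => sq_nonneg _)
    (Finset.mem_univ i))

theorem vn_mul_le {a u : ι → ℝ} {c : ℝ} (hc : 0 ≤ c) (h : ∀ i, |a i| ≤ c) :
    vn (fun i => a i * u i) ≤ c * vn u := by
  have := vn_smul c u
  rw [abs_of_nonneg hc] at this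
  rw [← this]
  refine vn_mono fun i => ?_
  rw [Pi.smul_apply, smul_eq_mul, abs_mul, abs_mul, abs_of_nonneg hc]
  exact mul_le_mul_of_nonneg_right (h i) (abs_nonneg _)

theorem vn_eq_zero {u : ι → ℝ} (h : vn u = 0) : u = 0 := by
  funext i
  have := abs_le_vn u i
  rw [h] at this
  exact abs_nonpos_iff.1 this

theorem continuous_vn : Continuous (vn : (ι → ℝ) → ℝ) := by
  unfold vn; fun_prop

end Vn

variable {n : ℕ}

theorem vn_le_sqrt {u : Vec n} {c : ℝ} (hc : 0 ≤ c) (h : ∀ i, |u i| ≤ c) :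
    vn u ≤ c * √(n : ℝ) := by
  refine vn_le_of_sq_le (by positivity) ?_
  rw [mul_pow, Real.sq_sqrt (Nat.cast_nonneg n)]
  calc ∑ i, u i ^ 2 ≤ ∑ _i : Fin n, c ^ 2 :=
        Finset.sum_le_sum fun i _ => by rw [← sq_abs]; exact pow_le_pow_left₀ (abs_nonneg _) (h i) 2
    _ = c ^ 2 * n := by simp [mul_comm]

theorem sum_abs_le (u : Vec n) : ∑ i, |u i| ≤ √(n : ℝ) * vn u := by
  have h := dot_le (fun _ : Fin n => (1 : ℝ)) (fun i => |u i|)
  have h1 : vn (fun _ : Fin n => (1 : ℝ)) = √(n : ℝ) := by simp [vn]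
  have h2 : vn (fun i => |u i|) = vn u := by simp [vn]
  simpa [dotProduct, h1, h2] using h

theorem sp_sq (b : Bool) : sp b ^ 2 = 1 := by cases b <;> simp [sp]

theorem abs_sp (b : Bool) : |sp b| = 1 := by cases b <;> simp [sp]

theorem vn_sv (x : Cube n) : vn (sv x) = √(n : ℝ) := by simp [vn, sv, sp_sq]

theorem opn_nonneg (A : Mat n) : 0 ≤ opn A := norm_nonneg _

theorem vn_mulVec_le (A : Mat n) (u : Vec n) : vn (A *ᵥ u) ≤ opn A * vn u := by
  rw [vn_eq_norm, vn_eq_norm, ← Matrix.toEuclideanCLM_toLp (𝕜 := ℝ)]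
  exact ContinuousLinearMap.le_opNorm _ _

theorem opn_le {A : Mat n} {c : ℝ} (hc : 0 ≤ c) (h : ∀ u, vn (A *ᵥ u) ≤ c * vn u) :
    opn A ≤ c := by
  refine ContinuousLinearMap.opNorm_le_bound _ hc fun u => ?_
  have := h u.ofLp
  rwa [vn_eq_norm, vn_eq_norm, ← Matrix.toEuclideanCLM_toLp (𝕜 := ℝ)] at this

theorem opn_add_le (A B : Mat n) : opn (A + B) ≤ opn A + opn B := by
  simp only [opn, map_add]; exact norm_add_le _ _

theorem opn_neg (A : Mat n) : opn (-A) = opn A := by simp only [opn, map_neg, norm_neg]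

theorem opn_sub_le (A B : Mat n) : opn (A - B) ≤ opn A + opn B := by
  simp only [opn, map_sub]; exact norm_sub_le _ _

theorem opn_smul (c : ℝ) (A : Mat n) : opn (c • A) = |c| * opn A := by
  simp only [opn, map_smul, norm_smul, Real.norm_eq_abs]

theorem opn_mul_le (A B : Mat n) : opn (A * B) ≤ opn A * opn B := by
  simp only [opn, map_mul]; exact norm_mul_le _ _

theorem opn_zero : opn (0 : Mat n) = 0 := by simp [opn]

theorem opn_transpose (A : Mat n) : opn Aᵀ = opn A := by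
  have h : Aᵀ = star A := by ext i j; simp
  rw [h, opn, map_star, ContinuousLinearMap.star_eq_adjoint, LinearIsometryEquiv.norm_map, opn]

theorem opn_diagonal_le {d : Vec n} {c : ℝ} (hc : 0 ≤ c) (h : ∀ i, |d i| ≤ c) :
    opn (diagonal d) ≤ c :=
  opn_le hc fun u => by
    have : diagonal d *ᵥ u = fun i => d i * u i := by funext i; simp [mulVec_diagonal]
    rw [this]; exact vn_mul_le hc h

theorem opn_one_le : opn (1 : Mat n) ≤ 1 := by
  rw [← diagonal_one]; exact opn_diagonal_le zero_le_one fun _ => by simp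

theorem abs_dot_mulVec_le (A : Mat n) (u v : Vec n) : |u ⬝ᵥ A *ᵥ v| ≤ opn A * vn u * vn v := by
  refine (abs_dot_le _ _).trans ?_
  nlinarith [vn_mulVec_le A v, vn_nonneg u]

theorem vn_col_le (A : Mat n) (j : Fin n) : vn (fun i => A i j) ≤ opn A := by
  have h := vn_mulVec_le A (Pi.single j 1)
  have h1 : vn (Pi.single j 1 : Vec n) = 1 := by
    simp [vn, Pi.single_apply]
  have h2 : A *ᵥ Pi.single j 1 = fun i => A i j := by funext i; simp
  rwa [h1, h2, mul_one] at h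

theorem vn_row_le (A : Mat n) (i : Fin n) : vn (fun j => A i j) ≤ opn A := by
  rw [← opn_transpose]; exact vn_col_le Aᵀ i

theorem abs_entry_le (A : Mat n) (i j : Fin n) : |A i j| ≤ opn A :=
  (abs_le_vn (fun i => A i j) i).trans (vn_col_le A j)

theorem opn_vecMulVec_le (u v : Vec n) : opn (vecMulVec u v) ≤ vn u * vn v :=
  opn_le (mul_nonneg (vn_nonneg _) (vn_nonneg _)) fun w => by
    have : vecMulVec u v *ᵥ w = (v ⬝ᵥ w) • u := by
      funext i; simp [vecMulVec, mulVec, dotProduct, Finset.mul_sum, mul_comm, mul_left_comm]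
    rw [this, vn_smul]
    nlinarith [abs_dot_le v w, vn_nonneg u]

theorem fro_nonneg (A : Mat n) : 0 ≤ fro A := vn_nonneg _

theorem fro_sq (A : Mat n) : fro A ^ 2 = ∑ i, ∑ j, A i j ^ 2 := by
  rw [fro, vn_sq, Fintype.sum_prod_type]

theorem fro_add_le (A B : Mat n) : fro (A + B) ≤ fro A + fro B := vn_add_le _ _

theorem fro_neg (A : Mat n) : fro (-A) = fro A := vn_neg _

theorem fro_sub_le (A B : Mat n) : fro (A - B) ≤ fro A + fro B := vn_sub_le _ _

theorem fro_sub_comm (A B : Mat n) : fro (A - B) = fro (B - A) := vn_sub_comm _ _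

theorem fro_smul (c : ℝ) (A : Mat n) : fro (c • A) = |c| * fro A := vn_smul c _

theorem fro_zero : fro (0 : Mat n) = 0 := vn_zero

theorem fro_transpose (A : Mat n) : fro Aᵀ = fro A := by
  refine (sq_eq_sq₀ (fro_nonneg _) (fro_nonneg _)).1 ?_
  rw [fro_sq, fro_sq, Finset.sum_comm]; rfl

theorem fro_le_of_col {A : Mat n} {c : Vec n} (h : ∀ j, vn (fun i => A i j) ≤ c j) :
    fro A ≤ vn c := by
  refine (sq_le_sq₀ (fro_nonneg _) (vn_nonneg _)).1 ?_
  rw [fro_sq, vn_sq, Finset.sum_comm]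
  refine Finset.sum_le_sum fun j _ => ?_
  rw [← vn_sq (fun i => A i j)]
  exact pow_le_pow_left₀ (vn_nonneg _) (h j) 2

theorem fro_eq_col (A : Mat n) : fro A = vn fun j => vn fun i => A i j := by
  refine (sq_eq_sq₀ (fro_nonneg _) (vn_nonneg _)).1 ?_
  rw [fro_sq, vn_sq, Finset.sum_comm]
  exact Finset.sum_congr rfl fun j _ => (vn_sq (fun i => A i j)).symm

theorem fro_mul_le_left (A B : Mat n) : fro (A * B) ≤ opn A * fro B := by
  have h := vn_smul (opn A) (fun j => vn fun i => B i j)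
  rw [abs_of_nonneg (opn_nonneg A), ← fro_eq_col] at h
  rw [← h]
  exact fro_le_of_col fun j => vn_mulVec_le A (fun i => B i j)

theorem fro_mul_le_right (A B : Mat n) : fro (A * B) ≤ fro A * opn B := by
  rw [← fro_transpose, transpose_mul, mul_comm, ← fro_transpose A, ← opn_transpose B]
  exact fro_mul_le_left _ _

theorem fro_le_opn (A : Mat n) : fro A ≤ opn A * √(n : ℝ) :=
  (fro_le_of_col (c := fun _ => opn A) (vn_col_le A)).trans
    (vn_le_sqrt (opn_nonneg A) fun _ => (abs_of_nonneg (opn_nonneg A)).le)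

theorem opn_le_fro (A : Mat n) : opn A ≤ fro A :=
  opn_le (fro_nonneg A) fun u => by
    refine vn_le_of_sq_le (mul_nonneg (fro_nonneg _) (vn_nonneg _)) ?_
    rw [mul_pow, fro_sq, vn_sq, Finset.sum_mul]
    exact Finset.sum_le_sum fun i _ =>
      Finset.sum_mul_sq_le_sq_mul_sq Finset.univ (fun j => A i j) u

theorem vn_diag_le (A : Mat n) : vn (fun i => A i i) ≤ fro A := by
  refine vn_le_of_sq_le (fro_nonneg _) ?_
  rw [fro_sq]
  exact Finset.sum_le_sum fun i _ =>
    Finset.single_le_sum (f := fun j => A i j ^ 2) (fun _ _ => sq_nonneg _) (Finset.mem_univ i)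

theorem fro_diagonal (d : Vec n) : fro (diagonal d) = vn d := by
  refine (sq_eq_sq₀ (fro_nonneg _) (vn_nonneg _)).1 ?_
  rw [fro_sq, vn_sq]
  refine Finset.sum_congr rfl fun i _ => ?_
  rw [Finset.sum_eq_single i (fun j _ hj => by simp [diagonal_apply_ne' _ hj]) (by simp)]
  simp

theorem fro_vecMulVec (u v : Vec n) : fro (vecMulVec u v) = vn u * vn v := by
  refine (sq_eq_sq₀ (fro_nonneg _) (mul_nonneg (vn_nonneg _) (vn_nonneg _))).1 ?_
  rw [fro_sq, mul_pow, vn_sq, vn_sq, Finset.sum_mul_sum]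
  simp [vecMulVec, mul_pow]

theorem abs_sum_mul_le_fro (A B : Mat n) : |∑ i, ∑ j, A i j * B i j| ≤ fro A * fro B := by
  have := abs_dot_le (fun p : Fin n × Fin n => A p.1 p.2) (fun p => B p.1 p.2)
  rwa [dotProduct, Fintype.sum_prod_type] at this

theorem abs_trace_le (A : Mat n) : |A.trace| ≤ √(n : ℝ) * fro A :=
  (Finset.abs_sum_le_sum_abs _ _).trans ((sum_abs_le fun i => A i i).trans
    (mul_le_mul_of_nonneg_left (vn_diag_le A) (Real.sqrt_nonneg _)))

theorem abs_trace_le_opn (A : Mat n) : |A.trace| ≤ n * opn A := by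
  refine (Finset.abs_sum_le_sum_abs _ _).trans ?_
  calc ∑ i, |A.diag i| ≤ ∑ _i : Fin n, opn A := Finset.sum_le_sum fun i _ => abs_entry_le A i i
    _ = n * opn A := by simp

theorem abs_trace_mul_le (A B : Mat n) : |(A * B).trace| ≤ fro A * fro B := by
  have := abs_sum_mul_le_fro A Bᵀ
  rw [fro_transpose] at this
  simpa [Matrix.trace, Matrix.mul_apply] using this

/-- Schur test. -/
theorem opn_le_schur {A : Mat n} {c : ℝ} (hc : 0 ≤ c) (h1 : ∀ i, ∑ j, |A i j| ≤ c)
    (h2 : ∀ j, ∑ i, |A i j| ≤ c) : opn A ≤ c :=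
  opn_le hc fun u => by
    refine vn_le_of_sq_le (mul_nonneg hc (vn_nonneg _)) ?_
    have h3 : ∀ i, (A *ᵥ u) i ^ 2 ≤ c * ∑ j, |A i j| * u j ^ 2 := fun i => by
      have h4 := Finset.sum_sq_le_sum_mul_sum_of_sq_le_mul (Finset.univ : Finset (Fin n))
        (r := fun j => A i j * u j) (f := fun j => |A i j|) (g := fun j => |A i j| * u j ^ 2)
        (fun _ _ => abs_nonneg _) (fun _ _ => by positivity)
        (fun j _ => by rw [mul_pow, ← mul_assoc, abs_mul_abs_self, sq (A i j)])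
      refine h4.trans (mul_le_mul_of_nonneg_right (h1 i) ?_)
      exact Finset.sum_nonneg fun _ _ => by positivity
    calc ∑ i, (A *ᵥ u) i ^ 2 ≤ ∑ i, c * ∑ j, |A i j| * u j ^ 2 := Finset.sum_le_sum fun i _ => h3 i
      _ = c * ∑ j, (∑ i, |A i j|) * u j ^ 2 := by
          rw [← Finset.mul_sum, Finset.sum_comm]; simp [Finset.sum_mul]
      _ ≤ c * ∑ j, c * u j ^ 2 := mul_le_mul_of_nonneg_left
          (Finset.sum_le_sum fun j _ => mul_le_mul_of_nonneg_right (h2 j) (sq_nonneg _)) hc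
      _ = (c * vn u) ^ 2 := by rw [← Finset.mul_sum, mul_pow, vn_sq]; ring

/-- For a symmetric matrix the quadratic form controls the operator norm. -/
theorem opn_le_of_symm {A : Mat n} (hA : A.IsSymm) {c : ℝ} (hc : 0 ≤ c)
    (h : ∀ u, |u ⬝ᵥ A *ᵥ u| ≤ c * (u ⬝ᵥ u)) : opn A ≤ c := by
  have key : ∀ u v : Vec n, 2 * (v ⬝ᵥ A *ᵥ u) ≤ c * (u ⬝ᵥ u + v ⬝ᵥ v) := fun u v => by
    have hs : u ⬝ᵥ A *ᵥ v = v ⬝ᵥ A *ᵥ u := by
      rw [dotProduct_mulVec, ← mulVec_transpose, hA.eq, dotProduct_comm]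
    have h1 := (abs_le.1 (h (u + v))).2
    have h2 := (abs_le.1 (h (u - v))).1
    simp only [mulVec_add, mulVec_sub, add_dotProduct, dotProduct_add, sub_dotProduct,
      dotProduct_sub, hs] at h1 h2
    nlinarith
  refine opn_le hc fun u => ?_
  by_cases h0 : vn (A *ᵥ u) = 0
  · rw [h0]; exact mul_nonneg hc (vn_nonneg _)
  have hp : 0 < vn (A *ᵥ u) := lt_of_le_of_ne (vn_nonneg _) (Ne.symm h0)
  have h1 := key u ((vn u / vn (A *ᵥ u)) • (A *ᵥ u))
  rw [smul_dotProduct, smul_dotProduct, dotProduct_smul, dot_self, dot_self] at h1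
  simp only [smul_eq_mul] at h1
  have e1 : vn u / vn (A *ᵥ u) * vn (A *ᵥ u) ^ 2 = vn u * vn (A *ᵥ u) := by field_simp
  have e2 : vn u / vn (A *ᵥ u) * (vn u * vn (A *ᵥ u)) = vn u ^ 2 := by field_simp
  rw [e1, e2] at h1
  rcases (vn_nonneg u).eq_or_lt with hu | hu
  · have : u = 0 := vn_eq_zero hu.symm
    simp [this, vn_zero] at h0
  · nlinarith

theorem continuous_opn : Continuous (opn : Mat n → ℝ) := by
  refine continuous_iff_continuousAt.2 fun A => ?_
  have h1 : Continuous fun B : Mat n => fro (B - A) := by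
    unfold fro
    exact continuous_vn.comp (continuous_pi fun p => by fun_prop)
  have h2 : Tendsto (fun B : Mat n => fro (B - A)) (𝓝 A) (𝓝 0) := by
    have := h1.tendsto A
    simpa [fro_zero] using this
  rw [ContinuousAt, tendsto_iff_norm_sub_tendsto_zero]
  refine squeeze_zero (fun _ => norm_nonneg _) (fun B => ?_) h2
  refine le_trans ?_ (opn_le_fro _)
  simp only [opn, map_sub]
  exact abs_norm_sub_norm_le _ _

theorem goe_symm (β : ℝ) (X : Fin n × Fin n → ℝ) : (goe β X).IsSymm := by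
  ext i j; simp [goe, add_comm]

theorem continuous_goe (β : ℝ) : Continuous (goe β : (Fin n × Fin n → ℝ) → Mat n) := by
  refine continuous_matrix fun i j => ?_
  simp only [goe, of_apply]; fun_prop

theorem fro_goe_sub_le (β : ℝ) (X Y : Fin n × Fin n → ℝ) :
    fro (goe β X - goe β Y) ≤ 2 * |β| / √(2 * (n : ℝ)) * vn (X - Y) := by
  set Z : Mat n := Matrix.of fun i j => (X - Y) (i, j) with hZ
  have h1 : goe β X - goe β Y = (β / √(2 * (n : ℝ))) • (Z + Zᵀ) := by
    ext i j; simp [goe, hZ]; ring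
  have h2 : fro Z = vn (X - Y) := rfl
  rw [h1, fro_smul, abs_div, abs_of_nonneg (Real.sqrt_nonneg _)]
  have h3 := fro_add_le Z Zᵀ
  rw [fro_transpose, h2] at h3
  calc _ ≤ |β| / √(2 * (n : ℝ)) * (vn (X - Y) + vn (X - Y)) :=
        mul_le_mul_of_nonneg_left h3 (by positivity)
    _ = _ := by ring

theorem od_symm {J : Mat n} (h : J.IsSymm) : (od J).IsSymm := by
  ext i j; simp [od, eq_comm, h.apply]

theorem od_eq (J : Mat n) : od J = J - diagonal fun i => J i i := by
  ext i j; by_cases h : i = j <;> simp [od, h]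

theorem opn_od_le (J : Mat n) : opn (od J) ≤ 2 * opn J := by
  rw [od_eq]
  have := opn_diagonal_le (d := fun i => J i i) (opn_nonneg J) fun i => abs_entry_le J i i
  linarith [opn_sub_le J (diagonal fun i => J i i)]

theorem WHP.and {β : ℝ} {P Q : ∀ n : ℕ, Mat n → Prop} (hP : WHP β P) (hQ : WHP β Q) :
    WHP β fun n J => P n J ∧ Q n J := by
  have h := hP.add hQ
  rw [add_zero] at h
  refine tendsto_of_tendsto_of_tendsto_of_le_of_le tendsto_const_nhds h (fun _ => zero_le)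
    fun n => le_trans (measure_mono fun X hX => ?_) (measure_union_le _ _)
  by_contra hc
  simp only [Set.mem_union, Set.mem_ofPred_eq, not_or, not_not] at hc
  exact hX hc

theorem WHP.mono {β : ℝ} {P Q : ∀ n : ℕ, Mat n → Prop} (hP : WHP β P)
    (h : ∀ᶠ n : ℕ in atTop, ∀ J : Mat n, J.IsSymm → P n J → Q n J) : WHP β Q := by
  refine tendsto_of_tendsto_of_tendsto_of_le_of_le' tendsto_const_nhds hP
    (Eventually.of_forall fun _ => zero_le) ?_
  filter_upwards [h] with n hn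
  exact measure_mono fun X hX hp => hX (hn _ (goe_symm β X) hp)

theorem WHP.of_le {β : ℝ} {P : ∀ n : ℕ, Mat n → Prop} {a : ℕ → ℝ} (ha : Tendsto a atTop (𝓝 0))
    (h : ∀ᶠ n : ℕ in atTop, gp (Fin n × Fin n) {X | ¬ P n (goe β X)} ≤ ENNReal.ofReal (a n)) :
    WHP β P := by
  have h1 := ENNReal.tendsto_ofReal ha
  rw [ENNReal.ofReal_zero] at h1
  exact tendsto_of_tendsto_of_tendsto_of_le_of_le' tendsto_const_nhds h1
    (Eventually.of_forall fun _ => zero_le) h

theorem phi_pos {v : ℝ} (hv : 0 < v) (t : ℝ) : 0 < phi v t := by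
  unfold phi; have := Real.pi_pos; positivity

theorem phi_nonneg (v t : ℝ) : 0 ≤ phi v t := by unfold phi; positivity

theorem continuous_phi (v : ℝ) : Continuous (phi v) := by unfold phi; fun_prop

end Vale.Agent.P150
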