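import Vale.Agent.P150.TapTaylor

/-! Discrete calculus on the cube and Stein kernels. -/

open MeasureTheory ProbabilityTheory Matrix Filter Topology
open scoped ENNReal NNReal

namespace Vale.Agent.P150

variable {n : ℕ}

/-- `g` at the two values of coordinate `r`, in terms of `g x` and the discrete derivative. -/
theorem update_eq (g : Cube n → ℝ) (x : Cube n) (r : Fin n) (b : Bool) :
    g (Function.update x r b) = g x + (sp b - sp (x r)) * grad g x r := by
  have hx : g x = g (Function.update x r (x r)) := by rw [Function.update_eq_self]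
  rw [hx]
  unfold grad
  generalize x r = c
  cases b <;> cases c <;> simp [sp] <;> ring

theorem grad_mul (g g' : Cube n → ℝ) (x : Cube n) (r : Fin n) :
    grad (fun z => g z * g' z) x r =
      g x * grad g' x r + g' x * grad g x r - 2 * sp (x r) * grad g x r * grad g' x r := by
  have e : grad (fun z => g z * g' z) x r =
      (g (Function.update x r true) * g' (Function.update x r true) -
        g (Function.update x r false) * g' (Function.update x r false)) / 2 := rfl
  have e1 : sp true = 1 := by simp [sp]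
  have e2 : sp false = -1 := by simp [sp]
  rw [e, update_eq g, update_eq g', update_eq g, update_eq g', e1, e2]
  ring

theorem jac_add (G G' : Cube n → Vec n) (x : Cube n) :
    jac (fun z => G z + G' z) x = jac G x + jac G' x := by
  ext j r
  simp only [jac, grad, of_apply, Matrix.add_apply, Pi.add_apply]
  ring

theorem jac_sub (G G' : Cube n → Vec n) (x : Cube n) :
    jac (fun z => G z - G' z) x = jac G x - jac G' x := by
  ext j r
  simp only [jac, grad, of_apply, Matrix.sub_apply, Pi.sub_apply]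
  ring

theorem jac_const (y : Vec n) (x : Cube n) : jac (fun _ => y) x = 0 := by
  ext j r
  simp [jac, grad]

theorem jac_mulVec (J : Mat n) (G : Cube n → Vec n) (x : Cube n) :
    jac (fun z => J *ᵥ G z) x = J * jac G x := by
  ext j r
  simp only [jac, grad, of_apply, Matrix.mul_apply, mulVec, dotProduct]
  rw [← Finset.sum_sub_distrib, Finset.sum_div]
  exact Finset.sum_congr rfl fun k _ => by ring

theorem jac_sv (x : Cube n) : jac (sv : Cube n → Vec n) x = 1 := by
  ext j r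
  simp only [jac, grad, of_apply, sv]
  by_cases h : j = r
  · subst h
    simp [sp]
  · simp [Function.update_of_ne h, one_apply_ne h]

/-- A matrix dominated entrywise by squares of entries of `A` (Schur test). -/
theorem opn_le_of_sq {A R : Mat n} {C : ℝ} (hC : 0 ≤ C) (h : ∀ j r, |R j r| ≤ C * A j r ^ 2) :
    opn R ≤ C * opn A ^ 2 := by
  refine opn_le_schur (by positivity) (fun i => ?_) (fun j => ?_)
  · refine (Finset.sum_le_sum fun r _ => h i r).trans ?_
    rw [← Finset.mul_sum, ← vn_sq]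
    exact mul_le_mul_of_nonneg_left (pow_le_pow_left₀ (vn_nonneg _) (vn_row_le A i) 2) hC
  · refine (Finset.sum_le_sum fun i _ => h i j).trans ?_
    rw [← Finset.mul_sum, ← vn_sq (fun i => A i j)]
    exact mul_le_mul_of_nonneg_left (pow_le_pow_left₀ (vn_nonneg _) (vn_col_le A j) 2) hC

/-- Chain rule for `tanh`. -/
theorem jac_mag (H : Cube n → Vec n) (x : Cube n) (j r : Fin n) :
    |jac (fun z => mag (H z)) x j r - dd (H x) j * jac H x j r| ≤ 2 * jac H x j r ^ 2 := by
  have e : jac (fun z => mag (H z)) x j r =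
      (Real.tanh (H (Function.update x r true) j) -
        Real.tanh (H (Function.update x r false) j)) / 2 := rfl
  have e0 : jac H x j r = grad (fun z => H z j) x r := rfl
  have e1 : sp true = 1 := by simp [sp]
  have e2 : sp false = -1 := by simp [sp]
  have u1 := update_eq (fun z => H z j) x r true
  have u2 := update_eq (fun z => H z j) x r false
  have hs := sp_sq (x r)
  rw [e1, ← e0] at u1
  rw [e2, ← e0] at u2
  rw [e, u1, u2]
  have t1 := abs_le.1 (tanh_taylor (H x j) ((1 - sp (x r)) * jac H x j r)).1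
  have t2 := abs_le.1 (tanh_taylor (H x j) ((-1 - sp (x r)) * jac H x j r)).1
  have k : ((1 - sp (x r)) * jac H x j r) ^ 2 + ((-1 - sp (x r)) * jac H x j r) ^ 2 =
      4 * jac H x j r ^ 2 := by
    linear_combination (2 * jac H x j r ^ 2) * hs
  simp only [dd]
  rw [abs_le]
  constructor <;> nlinarith [t1.1, t1.2, t2.1, t2.2]

variable {ν : Cube n → ℝ} {V V' : Cube n → Vec n} {A A' : Cube n → Mat n} {η η' : ℝ}

theorem abs_ex_le {a b : Cube n → ℝ} (hν : ∀ x, 0 ≤ ν x) (h : ∀ x, |a x| ≤ b x) :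
    |∑ x, ν x * a x| ≤ ∑ x, ν x * b x :=
  (Finset.abs_sum_le_sum_abs _ _).trans (Finset.sum_le_sum fun x _ => by
    rw [abs_mul, abs_of_nonneg (hν x)]; exact mul_le_mul_of_nonneg_left (h x) (hν x))

theorem abs_ex_le_const {a : Cube n → ℝ} {c : ℝ} (hν : ∀ x, 0 ≤ ν x) (h1 : ∑ x, ν x = 1)
    (h : ∀ x, |a x| ≤ c) : |∑ x, ν x * a x| ≤ c :=
  (abs_ex_le (b := fun _ => c) hν h).trans (by rw [← Finset.sum_mul, h1, one_mul])

theorem ex_le_of_sq {a : Cube n → ℝ} {c : ℝ} (hν : ∀ x, 0 ≤ ν x) (h1 : ∑ x, ν x = 1) (hc : 0 ≤ c)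
    (h : ∑ x, ν x * a x ^ 2 ≤ c ^ 2) : ∑ x, ν x * a x ≤ c := by
  generalize hm : ∑ x, ν x * a x = m
  have h2 : 0 ≤ ∑ x, ν x * (a x - m) ^ 2 :=
    Finset.sum_nonneg fun x _ => mul_nonneg (hν x) (sq_nonneg _)
  have h3 : ∑ x, ν x * (a x - m) ^ 2 =
      ∑ x, ν x * a x ^ 2 - 2 * m * ∑ x, ν x * a x + m ^ 2 * ∑ x, ν x := by
    rw [Finset.mul_sum, Finset.mul_sum, ← Finset.sum_sub_distrib, ← Finset.sum_add_distrib]
    exact Finset.sum_congr rfl fun x _ => by ring
  rw [h3, hm, h1] at h2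
  exact (abs_le_of_sq_le_sq' (by linarith) hc).2

theorem Ker.mono (h : Ker ν V A η) (hη : η ≤ η') : Ker ν V A η' := by
  intro G K hK h1 h2
  exact (h G K hK h1 h2).trans
    (mul_le_mul_of_nonneg_right (mul_le_mul_of_nonneg_right hη hK) (Nat.cast_nonneg n))

theorem Ker.add (h : Ker ν V A η) (h' : Ker ν V' A' η') :
    Ker ν (fun x => V x + V' x) (fun x => A x + A' x) (η + η') := by
  intro G K hK h1 h2
  have e : ∑ x, ν x * ((V x + V' x) ⬝ᵥ G x - ∑ j, ∑ r, (A x + A' x) j r * jac G x j r) =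
      ∑ x, ν x * (V x ⬝ᵥ G x - ∑ j, ∑ r, A x j r * jac G x j r) +
      ∑ x, ν x * (V' x ⬝ᵥ G x - ∑ j, ∑ r, A' x j r * jac G x j r) := by
    rw [← Finset.sum_add_distrib]
    refine Finset.sum_congr rfl fun x _ => ?_
    simp only [add_dotProduct, Matrix.add_apply, add_mul, Finset.sum_add_distrib]
    ring
  rw [e]
  refine (abs_add_le _ _).trans ?_
  have := h G K hK h1 h2
  have := h' G K hK h1 h2
  linarith

theorem Ker.sub (h : Ker ν V A η) (h' : Ker ν V' A' η') :
    Ker ν (fun x => V x - V' x) (fun x => A x - A' x) (η + η') := by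
  intro G K hK h1 h2
  have e : ∑ x, ν x * ((V x - V' x) ⬝ᵥ G x - ∑ j, ∑ r, (A x - A' x) j r * jac G x j r) =
      ∑ x, ν x * (V x ⬝ᵥ G x - ∑ j, ∑ r, A x j r * jac G x j r) -
      ∑ x, ν x * (V' x ⬝ᵥ G x - ∑ j, ∑ r, A' x j r * jac G x j r) := by
    rw [← Finset.sum_sub_distrib]
    refine Finset.sum_congr rfl fun x _ => ?_
    simp only [sub_dotProduct, Matrix.sub_apply, sub_mul, Finset.sum_sub_distrib]
    ring
  rw [e]
  refine (abs_sub _ _).trans ?_
  have := h G K hK h1 h2
  have := h' G K hK h1 h2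
  linarith

theorem Ker.mulVec (h : Ker ν V A η) {J : Mat n} (hJ : J.IsSymm) {K : ℝ} (hK : opn J ≤ K)
    (hη : 0 ≤ η) : Ker ν (fun x => J *ᵥ V x) (fun x => J * A x) (η * K) := by
  intro G L hL h1 h2
  have hK0 : 0 ≤ K := (opn_nonneg J).trans hK
  have key := h (fun x => J *ᵥ G x) (K * L) (mul_nonneg hK0 hL)
    (fun x => (vn_mulVec_le J _).trans (by
      rw [mul_assoc]; exact mul_le_mul hK (h1 x) (vn_nonneg _) hK0))
    (fun x => by
      rw [jac_mulVec, mul_assoc]
      exact (fro_mul_le_left _ _).trans (mul_le_mul hK (h2 x) (fro_nonneg _) hK0))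
  have e : ∀ x, (J *ᵥ V x) ⬝ᵥ G x - ∑ j, ∑ r, (J * A x) j r * jac G x j r =
      V x ⬝ᵥ J *ᵥ G x - ∑ j, ∑ r, A x j r * jac (fun x => J *ᵥ G x) x j r := fun x => by
    have e1 : (J *ᵥ V x) ⬝ᵥ G x = V x ⬝ᵥ J *ᵥ G x := by
      rw [dotProduct_mulVec, ← mulVec_transpose, hJ.eq]
    have e2 : ∑ j, ∑ r, (J * A x) j r * jac G x j r =
        ∑ j, ∑ r, A x j r * (J * jac G x) j r := by
      simp only [Matrix.mul_apply, Finset.sum_mul, Finset.mul_sum]
      rw [Finset.sum_comm, Finset.sum_comm (f := fun j r => ∑ k, A x j r * (J j k * jac G x k r))]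
      refine Finset.sum_congr rfl fun r _ => ?_
      rw [Finset.sum_comm]
      refine Finset.sum_congr rfl fun k _ => Finset.sum_congr rfl fun j _ => ?_
      rw [hJ.apply k j]
      ring
    rw [e1, e2, jac_mulVec]
  simp only [e]
  refine key.trans (le_of_eq ?_)
  ring

theorem ker_small (hν : ∀ x, 0 ≤ ν x) (h1 : ∑ x, ν x = 1) (hη : 0 ≤ η)
    (h : ∑ x, ν x * vn (V x) ^ 2 ≤ η ^ 2 * n) : Ker ν V (fun _ => 0) η := by
  intro G K hK h2 _
  have hs : 0 ≤ √(n : ℝ) := Real.sqrt_nonneg _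
  have hn : √(n : ℝ) ^ 2 = n := Real.sq_sqrt (Nat.cast_nonneg n)
  have h3 : ∑ x, ν x * vn (V x) ≤ η * √(n : ℝ) :=
    ex_le_of_sq hν h1 (mul_nonneg hη hs) (by rw [mul_pow, hn]; exact h)
  refine (abs_ex_le (b := fun x => vn (V x) * (K * √(n : ℝ))) hν fun x => ?_).trans ?_
  · simp only [Matrix.zero_apply, zero_mul, Finset.sum_const_zero, sub_zero]
    exact (abs_dot_le _ _).trans (mul_le_mul_of_nonneg_left (h2 x) (vn_nonneg _))
  · simp only [← mul_assoc]
    rw [← Finset.sum_mul, ← Finset.sum_mul]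
    calc (∑ x, ν x * vn (V x)) * K * √(n : ℝ) ≤ η * √(n : ℝ) * K * √(n : ℝ) := by gcongr
      _ = η * K * n := by linear_combination (η * K) * hn

/-- Base case. Write `G_l = Ḡ_l + x_l ∂_l G_l`; then `ξ_l G_l - D_l ∂_l G_l = ξ_l (Ḡ_l - t_l ∂_l G_l)`
and the last factor does not depend on `x_l` (the diagonal of `J` vanishes). -/
theorem ker_base (hν : ∀ x, 0 ≤ ν x) (h1 : ∑ x, ν x = 1) {J : Mat n} (hJ : ∀ i, J i i = 0)
    {y : Vec n} {ω : ℝ} (hω : 0 ≤ ω) (h : DLR ν J y ω) :
    Ker ν (fun x => sv x - mag (y + J *ᵥ sv x)) (fun x => diagonal (dd (y + J *ᵥ sv x)))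
      (3 * √ω) := by
  intro G K hK h2 h3
  have hs : 0 ≤ √(n : ℝ) := Real.sqrt_nonneg _
  have hn : √(n : ℝ) ^ 2 = n := Real.sq_sqrt (Nat.cast_nonneg n)
  let g : Cube n → Vec n := fun x l =>
    G x l - (sp (x l) + mag (y + J *ᵥ sv x) l) * jac G x l l
  have hg : ∀ x i b, g (Function.update x i b) i = g x i := fun x i b => by
    have e1 : jac G (Function.update x i b) i i = jac G x i i := by
      simp only [jac, grad, of_apply, Function.update_idem]
    have e2 : mag (y + J *ᵥ sv (Function.update x i b)) i = mag (y + J *ᵥ sv x) i := by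
      simp only [mag, Pi.add_apply, mulVec, dotProduct]
      congr 2
      refine Finset.sum_congr rfl fun k _ => ?_
      by_cases hk : k = i
      · rw [hk, hJ, zero_mul, zero_mul]
      · simp only [sv, Function.update_of_ne hk]
    have e3 := update_eq (fun z => G z i) x i b
    have e4 : grad (fun z => G z i) x i = jac G x i i := rfl
    simp only [g, e1, e2, Function.update_self]
    rw [e3, e4]
    ring
  have e : ∀ x, (sv x - mag (y + J *ᵥ sv x)) ⬝ᵥ G x -
      ∑ j, ∑ r, diagonal (dd (y + J *ᵥ sv x)) j r * jac G x j r =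
      (sv x - mag (y + J *ᵥ sv x)) ⬝ᵥ g x := fun x => by
    simp only [dotProduct, ← Finset.sum_sub_distrib]
    refine Finset.sum_congr rfl fun j _ => ?_
    rw [Finset.sum_eq_single j (fun r _ hr => by rw [diagonal_apply_ne' _ hr, zero_mul])
      (fun hj => absurd (Finset.mem_univ j) hj), diagonal_apply_eq]
    simp only [g, Pi.sub_apply, dd, mag, sv]
    linear_combination (jac G x j j) * sp_sq (x j)
  have hb : ∀ x, vn (g x) ≤ 3 * K * √(n : ℝ) := fun x => by
    have a1 : vn (fun l => (sp (x l) + mag (y + J *ᵥ sv x) l) * jac G x l l) ≤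
        2 * vn fun l => jac G x l l :=
      vn_mul_le zero_le_two fun l => (abs_add_le _ _).trans (by
        have := abs_mag_le (y + J *ᵥ sv x) l
        rw [abs_sp]; linarith)
    have a2 := (vn_diag_le (jac G x)).trans (h3 x)
    have a3 := vn_sub_le (G x) fun l => (sp (x l) + mag (y + J *ᵥ sv x) l) * jac G x l l
    have a4 := h2 x
    have a5 : g x = G x - fun l => (sp (x l) + mag (y + J *ᵥ sv x) l) * jac G x l l := rfl
    rw [a5]
    linarith
  have hc : ∑ x, ν x * (g x ⬝ᵥ g x) ≤ (3 * K * √(n : ℝ)) ^ 2 := by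
    refine (le_abs_self _).trans (abs_ex_le_const hν h1 fun x => ?_)
    rw [dot_self, abs_of_nonneg (sq_nonneg _)]
    exact pow_le_pow_left₀ (vn_nonneg _) (hb x) 2
  simp only [e]
  refine abs_le_of_sq_le_sq ((h g hg).trans ?_) (by positivity)
  refine (mul_le_mul_of_nonneg_left hc (by positivity)).trans (le_of_eq ?_)
  rw [mul_pow, mul_pow, mul_pow, mul_pow, mul_pow, hn, Real.sq_sqrt hω]
  ring

theorem jac_mul (φ G : Cube n → Vec n) (x : Cube n) (j r : Fin n) :
    jac (fun z => φ z * G z) x j r = φ x j * jac G x j r + G x j * jac φ x j r -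
      2 * sp (x r) * jac φ x j r * jac G x j r :=
  grad_mul (fun z => φ z j) (fun z => G z j) x r

theorem fro_jac_mul_le {φ G : Cube n → Vec n} {x : Cube n} {K L : ℝ} (hK : 0 ≤ K)
    (hφ : ∀ j, |φ x j| ≤ K) (hj : opn (jac φ x) ≤ K) (h2 : vn (G x) ≤ L)
    (h3 : fro (jac G x) ≤ L) : fro (jac (fun z => φ z * G z) x) ≤ 4 * K * L := by
  have a0 : jac (fun z => φ z * G z) x = diagonal (φ x) * jac G x + diagonal (G x) * jac φ x -
      Matrix.of fun j r => 2 * sp (x r) * jac φ x j r * jac G x j r := by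
    ext j r
    simp [jac_mul]
  have a1 : fro (diagonal (φ x) * jac G x) ≤ K * L :=
    (fro_mul_le_left _ _).trans (mul_le_mul (opn_diagonal_le hK hφ) h3 (fro_nonneg _) hK)
  have a2 : fro (diagonal (G x) * jac φ x) ≤ L * K := by
    refine (fro_mul_le_right _ _).trans ?_
    rw [fro_diagonal]
    exact mul_le_mul h2 hj (opn_nonneg _) ((vn_nonneg _).trans h2)
  have a3 : fro (Matrix.of fun j r => 2 * sp (x r) * jac φ x j r * jac G x j r) ≤
      2 * K * fro (jac G x) :=
    vn_mul_le (a := fun p : Fin n × Fin n => 2 * sp (x p.2) * jac φ x p.1 p.2) (by positivity)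
      fun p => by
        rw [abs_mul, abs_mul, abs_two, abs_sp, mul_one]
        exact mul_le_mul_of_nonneg_left ((abs_entry_le _ _ _).trans hj) zero_le_two
  have a4 := mul_le_mul_of_nonneg_left h3 (by positivity : 0 ≤ 2 * K)
  have a5 := fro_add_le (diagonal (φ x) * jac G x) (diagonal (G x) * jac φ x)
  rw [a0]
  refine (fro_sub_le _ _).trans ?_
  linarith

theorem fro_had_le {B F : Mat n} {K t : ℝ} (hK : 0 ≤ K) (ht : 0 ≤ t) (hB : opn B ≤ K)
    (h4 : ∑ j, ∑ r, F j r ^ 4 ≤ t ^ 4 * n) :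
    fro (Matrix.of fun j r => B j r * F j r) ≤ K * t * √(n : ℝ) := by
  have hs : 0 ≤ √(n : ℝ) := Real.sqrt_nonneg _
  have hn : √(n : ℝ) ^ 2 = n := Real.sq_sqrt (Nat.cast_nonneg n)
  have a1 : fro (Matrix.of fun j r => B j r * B j r) ≤ K * fro B :=
    vn_mul_le (a := fun p : Fin n × Fin n => B p.1 p.2) hK
      fun p => (abs_entry_le _ _ _).trans hB
  have a2 := a1.trans (mul_le_mul_of_nonneg_left
    ((fro_le_opn B).trans (mul_le_mul_of_nonneg_right hB hs)) hK)
  have a3 : fro (Matrix.of fun j r => F j r ^ 2) ≤ t ^ 2 * √(n : ℝ) := by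
    refine (abs_le_of_sq_le_sq' ?_ (by positivity)).2
    rw [fro_sq, mul_pow, hn]
    simp only [of_apply, ← pow_mul]
    exact h4
  have a4 := (le_abs_self _).trans ((abs_sum_mul_le_fro _ _).trans
    (mul_le_mul a2 a3 (fro_nonneg _) (by positivity)))
  refine (abs_le_of_sq_le_sq' ?_ (by positivity)).2
  rw [fro_sq]
  refine le_of_eq_of_le ?_ (a4.trans (le_of_eq (by ring)))
  exact Finset.sum_congr rfl fun j _ => Finset.sum_congr rfl fun r _ => by
    simp only [of_apply]; ring

/-- Multiplication by a bounded function with a thin Jacobian: test `V` against `φ * G`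
(`grad_mul`), whose Jacobian has `fro ≤ 4 K K_G sqrt n`; the third term of the product rule is at
most `2 (∑ A² (jac φ)²)^{1/2} K_G sqrt n ≤ 2 K t K_G n`. -/
theorem Ker.mul (hν : ∀ x, 0 ≤ ν x) (h1 : ∑ x, ν x = 1) (h : Ker ν V A η) (hη : 0 ≤ η)
    {φ : Cube n → Vec n} {K t : ℝ} (hK : 1 ≤ K) (ht : 0 ≤ t) (hφ : ∀ x j, |φ x j| ≤ K)
    (hj : ∀ x, opn (jac φ x) ≤ K) (h4 : ∀ x, ∑ j, ∑ r, jac φ x j r ^ 4 ≤ t ^ 4 * n)
    (hA : ∀ x, opn (A x) ≤ K) :
    Ker ν (fun x => φ x * V x - fun j => (A x * (jac φ x)ᵀ) j j)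
      (fun x => diagonal (φ x) * A x) (4 * K * η + 2 * K * t) := by
  intro G L hL h2 h3
  have hK0 : 0 ≤ K := zero_le_one.trans hK
  have hs : 0 ≤ √(n : ℝ) := Real.sqrt_nonneg _
  have hn : √(n : ℝ) ^ 2 = n := Real.sq_sqrt (Nat.cast_nonneg n)
  have key := h (fun x => φ x * G x) (4 * K * L) (by positivity)
    (fun x => (vn_mul_le hK0 (hφ x)).trans (by
      have := mul_le_mul_of_nonneg_left (h2 x) hK0
      have : 0 ≤ K * (L * √(n : ℝ)) := by positivity
      linarith))
    (fun x => (fro_jac_mul_le hK0 (hφ x) (hj x) (h2 x) (h3 x)).trans (le_of_eq (by ring)))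
  have e : ∀ x, (φ x * V x - fun j => (A x * (jac φ x)ᵀ) j j) ⬝ᵥ G x -
      ∑ j, ∑ r, (diagonal (φ x) * A x) j r * jac G x j r =
      (V x ⬝ᵥ (φ x * G x) - ∑ j, ∑ r, A x j r * jac (fun x => φ x * G x) x j r) -
        2 * ∑ j, ∑ r, (sp (x r) * (A x j r * jac φ x j r)) * jac G x j r := fun x => by
    simp only [dotProduct, Finset.mul_sum, ← Finset.sum_sub_distrib]
    refine Finset.sum_congr rfl fun j _ => ?_
    simp only [jac_mul, diagonal_mul, Pi.sub_apply, Pi.mul_apply]
    rw [Matrix.mul_apply, sub_mul, Finset.sum_mul, sub_sub, sub_sub, ← Finset.sum_add_distrib,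
      ← Finset.sum_add_distrib]
    congr 1
    · ring
    · exact Finset.sum_congr rfl fun r _ => by rw [transpose_apply]; ring
  have hb : ∀ x, |2 * ∑ j, ∑ r, (sp (x r) * (A x j r * jac φ x j r)) * jac G x j r| ≤
      2 * K * t * L * n := fun x => by
    have a1 := abs_sum_mul_le_fro (Matrix.of fun j r => sp (x r) * (A x j r * jac φ x j r))
      (jac G x)
    have a2 : fro (Matrix.of fun j r => sp (x r) * (A x j r * jac φ x j r)) ≤
        K * t * √(n : ℝ) :=
      (vn_mono fun p => by rw [of_apply, of_apply, abs_mul, abs_sp, one_mul]).trans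
        (fro_had_le hK0 ht (hA x) (h4 x))
    have a3 := mul_le_mul a2 (h3 x) (fro_nonneg _) (by positivity)
    simp only [of_apply] at a1
    rw [abs_mul, abs_two]
    have a4 : K * t * √(n : ℝ) * (L * √(n : ℝ)) = K * t * L * n := by
      linear_combination (K * t * L) * hn
    linarith
  have hc := abs_ex_le_const hν h1 hb
  simp only [e, mul_sub (ν _), Finset.sum_sub_distrib] at key ⊢
  refine (abs_sub _ _).trans ?_
  linarith

/-- Multiplication by a macroscopic scalar (from `Ker.mul` and `ker_small`). -/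
theorem Ker.smul (hν : ∀ x, 0 ≤ ν x) (h1 : ∑ x, ν x = 1) (h : Ker ν V A η) (hη : 0 ≤ η)
    {b : Cube n → ℝ} {K t : ℝ} (hK : 1 ≤ K) (ht : 0 < t) (htn : 1 ≤ t ^ 2 * n)
    (hb : ∀ x, |b x| ≤ K) (hj : ∀ x, vn (grad b x) * √(n : ℝ) ≤ K) (hA : ∀ x, opn (A x) ≤ K) :
    Ker ν (fun x => b x • V x) (fun x => b x • A x) (4 * K * η + 3 * K ^ 2 * t) := by
  have hK0 : 0 ≤ K := zero_le_one.trans hK
  have hs : 0 ≤ √(n : ℝ) := Real.sqrt_nonneg _
  have hn : √(n : ℝ) ^ 2 = n := Real.sq_sqrt (Nat.cast_nonneg n)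
  have hn1 : (1 : ℝ) ≤ n := by
    rcases Nat.eq_zero_or_pos n with rfl | h0
    · norm_num at htn
    · exact_mod_cast h0
  have ht1 : 1 ≤ t * √(n : ℝ) := by
    refine abs_le_of_sq_le_sq' ?_ (by positivity) |>.2
    rw [mul_pow, hn, one_pow]
    exact htn
  have hg : ∀ x, vn (grad b x) ≤ K * t := fun x => by
    have a1 := mul_le_mul_of_nonneg_left ht1 (vn_nonneg (grad b x))
    have a2 := mul_le_mul_of_nonneg_left (hj x) ht.le
    nlinarith
  have ej : ∀ x, jac (fun z (_ : Fin n) => b z) x = vecMulVec (fun _ => 1) (grad b x) := fun x => by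
    ext j r
    simp [jac, vecMulVec_apply]
  have k1 := Ker.mul hν h1 h hη (φ := fun z _ => b z) (t := K * t) hK (by positivity)
    (fun x _ => hb x)
    (fun x => by
      rw [ej]
      refine (opn_vecMulVec_le _ _).trans ?_
      have a1 : vn (fun _ : Fin n => (1 : ℝ)) ≤ 1 * √(n : ℝ) :=
        vn_le_sqrt zero_le_one fun _ => by simp
      have a2 := mul_le_mul_of_nonneg_right a1 (vn_nonneg (grad b x))
      have := hj x
      linarith)
    (fun x => by
      have a1 : ∑ r, grad b x r ^ 4 ≤ (K * t) ^ 4 := by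
        calc ∑ r, grad b x r ^ 4 ≤ ∑ r, (K * t) ^ 2 * grad b x r ^ 2 := by
              refine Finset.sum_le_sum fun r _ => ?_
              have := sq_le_sq' (abs_le.1 ((abs_le_vn _ r).trans (hg x))).1
                (abs_le.1 ((abs_le_vn _ r).trans (hg x))).2
              nlinarith [sq_nonneg (grad b x r)]
          _ = (K * t) ^ 2 * vn (grad b x) ^ 2 := by rw [← Finset.mul_sum, vn_sq]
          _ ≤ (K * t) ^ 2 * (K * t) ^ 2 :=
              mul_le_mul_of_nonneg_left (pow_le_pow_left₀ (vn_nonneg _) (hg x) 2) (sq_nonneg _)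
          _ = _ := by ring
      simp only [ej, vecMulVec_apply, one_mul, Finset.sum_const, Finset.card_univ,
        Fintype.card_fin, nsmul_eq_mul]
      rw [mul_comm]
      exact mul_le_mul_of_nonneg_right a1 (Nat.cast_nonneg n))
    hA
  have k2 : Ker ν (fun x => A x *ᵥ grad b x) (fun _ => 0) (K ^ 2 * t) := by
    refine ker_small hν h1 (by positivity) ((le_abs_self _).trans (abs_ex_le_const hν h1 fun x => ?_))
    have a1 := (vn_mulVec_le (A x) (grad b x)).trans (mul_le_mul (hA x) (hg x) (vn_nonneg _) hK0)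
    have a2 := pow_le_pow_left₀ (vn_nonneg _) a1 2
    rw [abs_of_nonneg (sq_nonneg _)]
    have a3 : (K ^ 2 * t) ^ 2 * 1 ≤ (K ^ 2 * t) ^ 2 * n :=
      mul_le_mul_of_nonneg_left hn1 (sq_nonneg _)
    nlinarith
  have k3 := k1.add k2
  have e1 : (fun x => b x • V x) = fun x => ((fun _ : Fin n => b x) * V x -
      fun j => (A x * (jac (fun z (_ : Fin n) => b z) x)ᵀ) j j) + A x *ᵥ grad b x := by
    funext x j
    simp [ej, Matrix.mul_apply, vecMulVec_apply, Matrix.mulVec, dotProduct]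
  have e2 : (fun x => b x • A x) = fun x => diagonal (fun _ : Fin n => b x) * A x + 0 := by
    funext x
    ext j r
    simp
  rw [e1, e2]
  exact k3.mono (le_of_eq (by ring))

/-- Testing against a vector function times a scalar whose one-flip variation is `O(n^{-1/2})`. -/
theorem Ker.test (hν : ∀ x, 0 ≤ ν x) (h1 : ∑ x, ν x = 1) (h : Ker ν V A η) (hη : 0 ≤ η)
    {w : Cube n → ℝ} {g : Cube n → Vec n} {K : ℝ} (hK : 1 ≤ K) (hw : ∀ x, |w x| ≤ K)
    (hw' : ∀ x r, |grad w x r| * √(n : ℝ) ≤ K) (hg : ∀ x j, |g x j| ≤ K)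
    (hg' : ∀ x, opn (jac g x) ≤ K) (hA : ∀ x, opn (A x) ≤ K) :
    |∑ x, ν x * (w x * (V x ⬝ᵥ g x - ∑ j, ∑ r, A x j r * jac g x j r))| ≤
      4 * K ^ 2 * η * n + 3 * K ^ 3 * √(n : ℝ) := by
  have hK0 : 0 ≤ K := zero_le_one.trans hK
  have hs : 0 ≤ √(n : ℝ) := Real.sqrt_nonneg _
  have hw1 : ∀ x, vn (grad w x) ≤ K := fun x => by
    rcases Nat.eq_zero_or_pos n with rfl | h0
    · simpa [vn] using hK0
    · have hp : 0 < √(n : ℝ) := Real.sqrt_pos.2 (by exact_mod_cast h0)
      have := vn_le_sqrt (div_nonneg hK0 hs) fun r => (le_div_iff₀ hp).2 (hw' x r)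
      rwa [div_mul_cancel₀ _ hp.ne'] at this
  have hg1 : ∀ x, vn (g x) ≤ K * √(n : ℝ) := fun x => vn_le_sqrt hK0 (hg x)
  have hg2 : ∀ x, fro (jac g x) ≤ K * √(n : ℝ) := fun x =>
    (fro_le_opn _).trans (mul_le_mul_of_nonneg_right (hg' x) hs)
  have ej : ∀ x j r, jac (fun z => w z • g z) x j r =
      w x * jac g x j r + g x j * grad w x r - 2 * sp (x r) * grad w x r * jac g x j r :=
    fun x j r => grad_mul w (fun z => g z j) x r
  have hKK : 0 ≤ K * (K * √(n : ℝ)) := by positivity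
  have key := h (fun z => w z • g z) (4 * K ^ 2) (by positivity)
    (fun x => by
      rw [vn_smul]
      have := mul_le_mul (hw x) (hg1 x) (vn_nonneg _) hK0
      nlinarith)
    (fun x => by
      have a0 : jac (fun z => w z • g z) x = w x • jac g x + vecMulVec (g x) (grad w x) -
          Matrix.of fun j r => 2 * sp (x r) * grad w x r * jac g x j r := by
        ext j r
        simp [ej, vecMulVec_apply]
      have a1 : fro (w x • jac g x) ≤ K * (K * √(n : ℝ)) := by
        rw [fro_smul]; exact mul_le_mul (hw x) (hg2 x) (fro_nonneg _) hK0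
      have a2 : fro (vecMulVec (g x) (grad w x)) ≤ K * √(n : ℝ) * K := by
        rw [fro_vecMulVec]; exact mul_le_mul (hg1 x) (hw1 x) (vn_nonneg _) (by positivity)
      have a3 : fro (Matrix.of fun j r => 2 * sp (x r) * grad w x r * jac g x j r) ≤
          2 * K * fro (jac g x) :=
        vn_mul_le (a := fun p : Fin n × Fin n => 2 * sp (x p.2) * grad w x p.2) (by positivity)
          fun p => by
            rw [abs_mul, abs_mul, abs_two, abs_sp, mul_one]
            exact mul_le_mul_of_nonneg_left ((abs_le_vn _ _).trans (hw1 x)) zero_le_two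
      have a4 := mul_le_mul_of_nonneg_left (hg2 x) (by positivity : 0 ≤ 2 * K)
      have a5 := fro_add_le (w x • jac g x) (vecMulVec (g x) (grad w x))
      rw [a0]
      refine (fro_sub_le _ _).trans ?_
      nlinarith)
  have e : ∀ x, w x * (V x ⬝ᵥ g x - ∑ j, ∑ r, A x j r * jac g x j r) =
      (V x ⬝ᵥ (w x • g x) - ∑ j, ∑ r, A x j r * jac (fun z => w z • g z) x j r) +
        (g x ⬝ᵥ A x *ᵥ grad w x -
          2 * ∑ r, sp (x r) * grad w x r * ((fun j => A x j r) ⬝ᵥ fun j => jac g x j r)) :=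
    fun x => by
    have b1 : ∑ j, ∑ r, A x j r * jac (fun z => w z • g z) x j r =
        w x * ∑ j, ∑ r, A x j r * jac g x j r + g x ⬝ᵥ A x *ᵥ grad w x -
          2 * ∑ r, sp (x r) * grad w x r * ((fun j => A x j r) ⬝ᵥ fun j => jac g x j r) := by
      simp only [ej, dotProduct, Matrix.mulVec, Finset.mul_sum]
      rw [Finset.sum_comm (f := fun r j => 2 * (sp (x r) * grad w x r * (A x j r * jac g x j r)))]
      simp only [← Finset.sum_add_distrib, ← Finset.sum_sub_distrib]
      exact Finset.sum_congr rfl fun j _ => Finset.sum_congr rfl fun r _ => by ring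
    rw [b1, dotProduct_smul, smul_eq_mul]
    ring
  have hb : ∀ x, |g x ⬝ᵥ A x *ᵥ grad w x -
      2 * ∑ r, sp (x r) * grad w x r * ((fun j => A x j r) ⬝ᵥ fun j => jac g x j r)| ≤
      3 * K ^ 3 * √(n : ℝ) := fun x => by
    have a1 : |g x ⬝ᵥ A x *ᵥ grad w x| ≤ K * (K * √(n : ℝ)) * K :=
      (abs_dot_mulVec_le _ _ _).trans (mul_le_mul (mul_le_mul (hA x) (hg1 x) (vn_nonneg _) hK0)
        (hw1 x) (vn_nonneg _) hKK)
    have a2 : |∑ r, sp (x r) * grad w x r * ((fun j => A x j r) ⬝ᵥ fun j => jac g x j r)| ≤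
        ∑ r, |grad w x r| * (K * K) := by
      refine (Finset.abs_sum_le_sum_abs _ _).trans (Finset.sum_le_sum fun r _ => ?_)
      rw [abs_mul, abs_mul, abs_sp, one_mul]
      refine mul_le_mul_of_nonneg_left ((abs_dot_le _ _).trans ?_) (abs_nonneg _)
      exact mul_le_mul ((vn_col_le _ r).trans (hA x)) ((vn_col_le _ r).trans (hg' x))
        (vn_nonneg _) hK0
    have a3 := mul_le_mul_of_nonneg_right
      ((sum_abs_le (grad w x)).trans (mul_le_mul_of_nonneg_left (hw1 x) hs)) (mul_nonneg hK0 hK0)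
    rw [← Finset.sum_mul] at a2
    refine (abs_sub _ _).trans ?_
    rw [abs_mul, abs_two]
    nlinarith
  have hc := abs_ex_le_const hν h1 hb
  simp only [e, mul_add (ν _), Finset.sum_add_distrib]
  refine (abs_add_le _ _).trans ?_
  linarith

/-- Testing against constants. -/
theorem Ker.mean (h : Ker ν V A η) (hη : 0 ≤ η) :
    vn (∑ x, ν x • V x) ≤ η * √(n : ℝ) := by
  rcases Nat.eq_zero_or_pos n with rfl | h0
  · simp [vn]
  have hp : 0 < √(n : ℝ) := Real.sqrt_pos.2 (by exact_mod_cast h0)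
  have hn : √(n : ℝ) ^ 2 = n := Real.sq_sqrt (Nat.cast_nonneg n)
  generalize hm : ∑ x, ν x • V x = m
  have h1 := vn_nonneg m
  have key := h (fun _ => m) (vn m / √(n : ℝ)) (by positivity)
    (fun _ => (div_mul_cancel₀ _ hp.ne').ge) (fun x => by rw [jac_const, fro_zero]; positivity)
  have e : ∑ x, ν x * (V x ⬝ᵥ m - ∑ j, ∑ r, A x j r * jac (fun _ => m) x j r) = vn m ^ 2 := by
    rw [← dot_self]
    nth_rewrite 3 [← hm]
    rw [sum_dotProduct]
    refine Finset.sum_congr rfl fun x _ => ?_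
    simp [jac_const]
  have e2 : η * (vn m / √(n : ℝ)) * n = vn m * (η * √(n : ℝ)) := by
    field_simp
    linear_combination (-(η * vn m)) * hn
  rw [e, e2, abs_of_nonneg (sq_nonneg _), sq] at key
  rcases h1.eq_or_lt with h2 | h2
  · rw [← h2]; positivity
  · exact le_of_mul_le_mul_left key h2

end Vale.Agent.P150
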