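import Vale.Agent.P150.LLCav

/-! TAP map: Lipschitz bound, derivative, local existence and uniqueness. -/

open MeasureTheory ProbabilityTheory Matrix Filter Topology
open scoped ENNReal NNReal

namespace Vale.Agent.P150

variable {n : ℕ}

theorem abs_ons_sub_le {β : ℝ} (hβ : β ^ 2 ≤ 1) {m m' : Vec n} (hm : vn m ≤ √(n : ℝ))
    (hm' : vn m' ≤ √(n : ℝ)) : |ons β m - ons β m'| * √(n : ℝ) ≤ 2 * vn (m - m') := by
  rcases Nat.eq_zero_or_pos n with rfl | hn
  · simpa using vn_nonneg (m - m')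
  have hn' : (0 : ℝ) < n := by exact_mod_cast hn
  have hs : √(n : ℝ) * √(n : ℝ) = n := Real.mul_self_sqrt hn'.le
  have h1 := vn_triangle m m' 0
  have h2 := vn_triangle m' m 0
  rw [sub_zero, sub_zero] at h1 h2
  rw [vn_sub_comm m' m] at h2
  have e : ons β m - ons β m' = β ^ 2 * ((vn m' - vn m) * (vn m' + vn m) / n) := by
    simp only [ons, dot_self]; ring
  have h3 : |vn m' - vn m| ≤ vn (m - m') := abs_le.2 ⟨by linarith, by linarith⟩
  have h4 : 0 ≤ vn m' + vn m := add_nonneg (vn_nonneg _) (vn_nonneg _)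
  have h5 : |vn m' - vn m| * (vn m' + vn m) ≤ vn (m - m') * (2 * √(n : ℝ)) :=
    mul_le_mul h3 (by linarith) h4 (vn_nonneg _)
  rw [e, abs_mul, abs_div, abs_mul, abs_of_nonneg h4, abs_of_pos hn', abs_of_nonneg (sq_nonneg β)]
  calc _ ≤ 1 * (vn (m - m') * (2 * √(n : ℝ)) / n) * √(n : ℝ) := by gcongr
    _ = 2 * vn (m - m') * (√(n : ℝ) * √(n : ℝ)) / n := by ring
    _ = _ := by rw [hs]; field_simp

theorem ons_mem {β : ℝ} (hβ : β ^ 2 ≤ 1) {m : Vec n} (hm : vn m ≤ √(n : ℝ)) :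
    0 ≤ ons β m ∧ ons β m ≤ β ^ 2 := by
  have h1 : m ⬝ᵥ m ≤ n := by
    rw [dot_self, ← Real.sq_sqrt (Nat.cast_nonneg n)]
    exact pow_le_pow_left₀ (vn_nonneg _) hm 2
  have h2 : 0 ≤ m ⬝ᵥ m / n := by rw [dot_self]; positivity
  have h3 : m ⬝ᵥ m / n ≤ 1 := div_le_one_of_le₀ h1 (Nat.cast_nonneg n)
  unfold ons
  constructor <;> nlinarith [sq_nonneg β]

theorem vn_kJ_le {κ : ℝ} {J : Mat n} (hJ3 : opn J ≤ 3) (hκ : κ ∈ Set.Icc (0 : ℝ) 1) (u : Vec n) :
    vn (κ • J *ᵥ u) ≤ 3 * vn u := by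
  rw [vn_smul, abs_of_nonneg hκ.1]
  exact (mul_le_of_le_one_left (vn_nonneg _) hκ.2).trans ((vn_mulVec_le J u).trans
    (mul_le_mul_of_nonneg_right hJ3 (vn_nonneg _)))

theorem vn_kons_le {β κ : ℝ} (hβ : β ^ 2 ≤ 1) (hκ : κ ∈ Set.Icc (0 : ℝ) 1) (H u : Vec n) :
    vn ((κ ^ 2 * ons β (mag H)) • u) ≤ vn u := by
  have h := ons_mem hβ (vn_mag_le H)
  rw [vn_smul, abs_of_nonneg (mul_nonneg (sq_nonneg κ) h.1)]
  exact mul_le_of_le_one_left (vn_nonneg _)
    (mul_le_one₀ (pow_le_one₀ hκ.1 hκ.2) h.1 (h.2.trans hβ))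

theorem tap_lip {β κ : ℝ} {J : Mat n} (hβ : β ^ 2 ≤ 1) (hJ3 : opn J ≤ 3)
    (hκ : κ ∈ Set.Icc (0 : ℝ) 1) (H H' : Vec n) :
    vn (tap β κ J H - tap β κ J H') ≤ 7 * vn (H - H') := by
  have e : tap β κ J H - tap β κ J H' = (H - H') - κ • J *ᵥ (mag H - mag H') +
      ((κ ^ 2 * ons β (mag H)) • (mag H - mag H') +
        (κ ^ 2 * (ons β (mag H) - ons β (mag H'))) • mag H') := by
    simp only [tap, mulVec_sub]
    module
  have h0 := vn_mag_sub_le H H'
  have h1 := (vn_kJ_le hJ3 hκ (mag H - mag H'))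
  have h2 := vn_kons_le hβ hκ H (mag H - mag H')
  have h3 : vn ((κ ^ 2 * (ons β (mag H) - ons β (mag H'))) • mag H') ≤ 2 * vn (mag H - mag H') := by
    rw [vn_smul, abs_mul, abs_of_nonneg (sq_nonneg κ)]
    refine le_trans ?_ (abs_ons_sub_le hβ (vn_mag_le H) (vn_mag_le H'))
    refine mul_le_mul (mul_le_of_le_one_left (abs_nonneg _) (pow_le_one₀ hκ.1 hκ.2))
      (vn_mag_le H') (vn_nonneg _) (abs_nonneg _)
  rw [e]
  refine (vn_add_le _ _).trans ((add_le_add (vn_sub_le _ _) (vn_add_le _ _)).trans ?_)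
  linarith

theorem vn_tap_sub_le {β κ : ℝ} {J : Mat n} (hβ : β ^ 2 ≤ 1) (hJ3 : opn J ≤ 3)
    (hκ : κ ∈ Set.Icc (0 : ℝ) 1) (H : Vec n) : vn (tap β κ J H - H) ≤ 4 * √(n : ℝ) := by
  have e : tap β κ J H - H = (κ ^ 2 * ons β (mag H)) • mag H - κ • J *ᵥ mag H := by
    simp only [tap]
    module
  rw [e]
  linarith [vn_sub_le ((κ ^ 2 * ons β (mag H)) • mag H) (κ • J *ᵥ mag H), vn_kJ_le hJ3 hκ (mag H),
    vn_kons_le hβ hκ H (mag H), vn_mag_le H]

theorem jt_mulVec (hn : 0 < n) (β κ : ℝ) (J : Mat n) (H v : Vec n) :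
    jt β κ J H *ᵥ v = v - κ • J *ᵥ (dd H * v) + (κ ^ 2 * ons β (mag H)) • (dd H * v)
      - (2 * κ ^ 2 * β ^ 2 / n * (mag H ⬝ᵥ (dd H * v))) • mag H := by
  have e1 : diagonal (dd H) *ᵥ v = dd H * v := funext fun i => mulVec_diagonal _ _ i
  have e2 : vecMulVec (mag H) (mag H * dd H) *ᵥ v = (mag H ⬝ᵥ (dd H * v)) • mag H := by
    funext i
    simp only [mulVec, dotProduct, vecMulVec_apply, Pi.mul_apply, Pi.smul_apply, smul_eq_mul,
      Finset.sum_mul]
    exact Finset.sum_congr rfl fun j _ => by ring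
  rw [jt, lmat, sub_mulVec, sub_mulVec, one_mulVec, ← mulVec_mulVec, e1, sub_mulVec, smul_mulVec,
    smul_mulVec, smul_mulVec, one_mulVec, e2, ons_mag hn]
  module

theorem hasDerivAt_tap_comp (hn : 0 < n) (β κ : ℝ) (J : Mat n) {γ : ℝ → Vec n} {v : Vec n}
    {t : ℝ} (h : HasDerivAt γ v t) :
    HasDerivAt (fun t => tap β κ J (γ t)) (jt β κ J (γ t) *ᵥ v) t := by
  have h1 : ∀ i, HasDerivAt (fun t => mag (γ t) i) ((dd (γ t) * v) i) t := fun i =>
    (hasDerivAt_tanh (γ t i)).comp t (hasDerivAt_pi.1 h i)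
  have h2 : HasDerivAt (fun t => mag (γ t)) (dd (γ t) * v) t := hasDerivAt_pi.2 h1
  have h3 : HasDerivAt (fun t => J *ᵥ mag (γ t)) (J *ᵥ (dd (γ t) * v)) t :=
    hasDerivAt_pi.2 fun i =>
      HasDerivAt.fun_sum (u := Finset.univ) fun j _ => (h1 j).const_mul (J i j)
  have h4 : HasDerivAt (fun t => mag (γ t) ⬝ᵥ mag (γ t)) (2 * (mag (γ t) ⬝ᵥ (dd (γ t) * v))) t := by
    refine (HasDerivAt.fun_sum (u := Finset.univ) fun j _ => (h1 j).fun_mul (h1 j)).congr_deriv ?_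
    rw [dotProduct, Finset.mul_sum]
    exact Finset.sum_congr rfl fun j _ => by ring
  have h5 : HasDerivAt (fun t => κ ^ 2 * ons β (mag (γ t)))
      (κ ^ 2 * (β ^ 2 * -(2 * (mag (γ t) ⬝ᵥ (dd (γ t) * v)) / n))) t :=
    (((h4.div_const (n : ℝ)).const_sub 1).const_mul (β ^ 2)).const_mul (κ ^ 2)
  refine ((h.fun_sub (h3.fun_const_smul κ)).fun_add (h5.fun_smul h2)).congr_deriv ?_
  rw [jt_mulVec hn]
  module

theorem dot_jt (hn : 0 < n) (β κ : ℝ) (J : Mat n) (H v : Vec n) :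
    (dd H * v) ⬝ᵥ jt β κ J H *ᵥ v = hess β κ J H (dd H * v) := by
  have e : (dd H * v) ⬝ᵥ v = ∑ i, Real.cosh (H i) ^ 2 * (dd H * v) i ^ 2 := by
    refine Finset.sum_congr rfl fun i _ => ?_
    rw [Pi.mul_apply]
    linear_combination (-(dd H i * v i ^ 2)) * cosh_sq_mul_dd H i
  rw [jt_mulVec hn, hess, dotProduct_sub, dotProduct_add, dotProduct_sub, dotProduct_smul,
    dotProduct_smul, dotProduct_smul, e, dotProduct_comm (dd H * v) (mag H)]
  simp only [smul_eq_mul]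
  ring

theorem jt_lower (hn : 0 < n) {β κ c : ℝ} {J : Mat n} {H : Vec n} (hc : 0 < c)
    (h : ∀ u, c * (u ⬝ᵥ u) ≤ hess β κ J H u) (v : Vec n) :
    c * vn (dd H * v) ≤ vn (jt β κ J H *ᵥ v) := by
  have h1 := h (dd H * v)
  rw [← dot_jt hn, dot_self] at h1
  have h2 := h1.trans (dot_le _ _)
  rcases (vn_nonneg (dd H * v)).eq_or_lt with h0 | h0
  · rw [← h0, mul_zero]
    exact vn_nonneg _
  · refine le_of_mul_le_mul_left ?_ h0
    nlinarith

theorem jt_upper (hn : 0 < n) {β κ : ℝ} {J : Mat n} (hβ : β ^ 2 ≤ 1) (hJ3 : opn J ≤ 3)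
    (hκ : κ ∈ Set.Icc (0 : ℝ) 1) (H v : Vec n) :
    vn v ≤ vn (jt β κ J H *ᵥ v) + 6 * vn (dd H * v) := by
  have hn' : (0 : ℝ) < n := by exact_mod_cast hn
  have e : v = jt β κ J H *ᵥ v + (κ • J *ᵥ (dd H * v) - (κ ^ 2 * ons β (mag H)) • (dd H * v)
      + (2 * κ ^ 2 * β ^ 2 / n * (mag H ⬝ᵥ (dd H * v))) • mag H) := by
    rw [jt_mulVec hn]
    module
  have h1 := vn_kJ_le hJ3 hκ (dd H * v)
  have h2 := vn_kons_le hβ hκ H (dd H * v)
  have h3 : vn ((2 * κ ^ 2 * β ^ 2 / n * (mag H ⬝ᵥ (dd H * v))) • mag H) ≤ 2 * vn (dd H * v) := by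
    have a1 := abs_dot_le (mag H) (dd H * v)
    have a2 := vn_mag_le H
    have a3 : κ ^ 2 ≤ 1 := pow_le_one₀ hκ.1 hκ.2
    have a4 := vn_nonneg (dd H * v)
    have a5 := vn_nonneg (mag H)
    rw [vn_smul, abs_mul, abs_of_nonneg (by positivity)]
    calc _ ≤ 2 * 1 * 1 / n * (√(n : ℝ) * vn (dd H * v)) * √(n : ℝ) := by
          gcongr
          exact a1.trans (by gcongr)
      _ = 2 * vn (dd H * v) * (√(n : ℝ) * √(n : ℝ)) / n := by ring
      _ = _ := by rw [Real.mul_self_sqrt hn'.le]; field_simp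
  conv_lhs => rw [e]
  refine (vn_add_le _ _).trans (add_le_add le_rfl ((vn_add_le _ _).trans
    ((add_le_add (vn_sub_le _ _) le_rfl).trans ?_)))
  linarith

theorem continuous_tap (β κ : ℝ) (J : Mat n) : Continuous (tap β κ J) := by
  have := continuous_mag (n := n)
  unfold tap ons
  fun_prop

theorem hasDerivAt_artanh {x : ℝ} (hx : x ∈ Set.Ioo (-1 : ℝ) 1) :
    HasDerivAt Real.artanh (1 - x ^ 2)⁻¹ x := by
  have h1 : 0 < 1 + x := by linarith [hx.1]
  have h2 : 0 < 1 - x := by linarith [hx.2]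
  have h3 := ((((hasDerivAt_id x).const_add 1).fun_div ((hasDerivAt_id x).const_sub 1)
    h2.ne').log (div_pos h1 h2).ne').const_mul (1 / 2)
  refine (h3.congr_of_eventuallyEq ?_).congr_deriv ?_
  · filter_upwards [Icc_mem_nhds hx.1 hx.2] with y hy
    exact Real.artanh_eq_half_log hy
  · have : 1 - x ^ 2 = (1 + x) * (1 - x) := by ring
    simp only [id, this]
    field_simp
    ring

theorem hasDerivAt_tap (hn : 0 < n) (β κ : ℝ) (J : Mat n) (H v : Vec n) :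
    HasDerivAt (fun t : ℝ => tap β κ J (H + t • v)) (jt β κ J H *ᵥ v) 0 := by
  have h : HasDerivAt (fun t : ℝ => H + t • v) v 0 := by
    simpa using ((hasDerivAt_id (0 : ℝ)).smul_const v).const_add H
  simpa using hasDerivAt_tap_comp hn β κ J h

/-- `hess H u = u ⬝ (jt * diagonal (cosh²)) u`; so `χ̃ = diagonal (dd H) * jt⁻¹` has norm `≤ 1/c`
and `jt⁻¹ = 1 + (lmat + rank one) χ̃`. -/
theorem jt_inv (hn : 0 < n) {β κ c : ℝ} {J : Mat n} {H : Vec n} (hβ : β ^ 2 ≤ 1) (hJ : J.IsSymm)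
    (hJ3 : opn J ≤ 3) (hκ : κ ∈ Set.Icc (0 : ℝ) 1) (hc : 0 < c) (hc1 : c ≤ 1)
    (h : ∀ u, c * (u ⬝ᵥ u) ≤ hess β κ J H u) :
    IsUnit (jt β κ J H).det ∧ opn (jt β κ J H)⁻¹ ≤ 7 / c ∧
      opn (diagonal (dd H) * (jt β κ J H)⁻¹) ≤ 1 / c ∧
      (diagonal (dd H) * (jt β κ J H)⁻¹).IsSymm := by
  have h1 := jt_lower hn hc h
  have h2 := jt_upper hn hβ hJ3 hκ H
  have hu : IsUnit (jt β κ J H).det := by
    rw [← Matrix.isUnit_iff_isUnit_det, ← Matrix.mulVec_injective_iff_isUnit]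
    intro v w hvw
    have e : jt β κ J H *ᵥ (v - w) = 0 := by rw [mulVec_sub, hvw, sub_self]
    have a1 := h1 (v - w)
    have a2 := h2 (v - w)
    rw [e, vn_zero] at a1 a2
    have a3 : vn (dd H * (v - w)) ≤ 0 := nonpos_of_mul_nonpos_right a1 hc |> fun h => h
    exact sub_eq_zero.1 (vn_eq_zero (le_antisymm (by linarith) (vn_nonneg _)))
  have h3 : ∀ w, jt β κ J H *ᵥ ((jt β κ J H)⁻¹ *ᵥ w) = w := fun w => by
    rw [mulVec_mulVec, mul_nonsing_inv _ hu, one_mulVec]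
  have h4 : ∀ w, vn (dd H * ((jt β κ J H)⁻¹ *ᵥ w)) ≤ 1 / c * vn w := fun w => by
    have := h1 ((jt β κ J H)⁻¹ *ᵥ w)
    rw [h3] at this
    rw [one_div, inv_mul_eq_div, le_div_iff₀ hc, mul_comm]
    exact this
  refine ⟨hu, opn_le (by positivity) fun w => ?_, opn_le (by positivity) fun w => ?_, ?_⟩
  · have a1 := h2 ((jt β κ J H)⁻¹ *ᵥ w)
    rw [h3] at a1
    have a2 : vn w ≤ 1 / c * vn w :=
      le_mul_of_one_le_left (vn_nonneg _) (one_le_one_div hc hc1)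
    have a3 := h4 w
    have : 7 / c * vn w = 7 * (1 / c * vn w) := by ring
    linarith
  · rw [← mulVec_mulVec]
    have : diagonal (dd H) *ᵥ ((jt β κ J H)⁻¹ *ᵥ w) = dd H * ((jt β κ J H)⁻¹ *ᵥ w) :=
      funext fun i => mulVec_diagonal _ _ i
    rw [this]
    exact h4 w
  · have hDC : diagonal (dd H) * diagonal (fun i => Real.cosh (H i) ^ 2) = 1 := by
      rw [diagonal_mul_diagonal, ← diagonal_one]
      congr 1
      funext i
      rw [mul_comm, cosh_sq_mul_dd]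
    have e : jt β κ J H * diagonal (fun i => Real.cosh (H i) ^ 2)
        = diagonal (fun i => Real.cosh (H i) ^ 2) - lmat β κ J (dd H)
          - (2 * κ ^ 2 * β ^ 2 / n) • vecMulVec (mag H) (mag H) := by
      have e1 : vecMulVec (mag H) (mag H * dd H) = vecMulVec (mag H) (mag H) * diagonal (dd H) := by
        ext i j
        simp [vecMulVec_apply, mul_assoc]
      rw [jt, e1, Matrix.sub_mul, Matrix.sub_mul, Matrix.smul_mul, Matrix.mul_assoc,
        Matrix.mul_assoc, hDC, Matrix.one_mul, Matrix.mul_one, Matrix.mul_one]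
    have hs : (jt β κ J H * diagonal (fun i => Real.cosh (H i) ^ 2)).IsSymm := by
      rw [e, lmat]
      refine ((isSymm_diagonal _).sub ((hJ.smul κ).sub (isSymm_one.smul _))).sub
        (IsSymm.smul ?_ _)
      ext i j
      simp [vecMulVec_apply, mul_comm]
    have := hs.inv
    rwa [Matrix.mul_inv_rev, inv_eq_left_inv hDC] at this

/-- Local existence. Minimize the continuous function `vn (tap H - θ) + (c/14) vn (H - H₁)` over the
compact ball of radius slightly above `14 r / c`; at a minimizer with nonzero residual `w`, moving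
in the direction `-jt⁻¹ w` decreases the function. -/
theorem tap_exists (hn : 0 < n) {β κ c ρ : ℝ} {J : Mat n} {θ H₁ : Vec n} (hβ : β ^ 2 ≤ 1)
    (hJ : J.IsSymm) (hJ3 : opn J ≤ 3) (hκ : κ ∈ Set.Icc (0 : ℝ) 1) (hc : 0 < c) (hc1 : c ≤ 1)
    (h : HP β κ J c ρ θ) (hr : 100 / c * vn (tap β κ J H₁ - θ) < ρ * √(n : ℝ)) :
    ∃ H, tap β κ J H = θ ∧ vn (H - H₁) ≤ 14 / c * vn (tap β κ J H₁ - θ) := by
  set r := vn (tap β κ J H₁ - θ) with hrdef
  have hr0 : 0 ≤ r := vn_nonneg _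
  rcases hr0.eq_or_lt with h0 | h0
  · exact ⟨H₁, sub_eq_zero.1 (vn_eq_zero h0.symm), by rw [sub_self, vn_zero, ← h0, mul_zero]⟩
  have hcont : Continuous fun H => vn (tap β κ J H - θ) + c / 14 * vn (H - H₁) :=
    (continuous_vn.comp ((continuous_tap β κ J).sub continuous_const)).add
      (continuous_const.mul (continuous_vn.comp (continuous_id.sub continuous_const)))
  have hK : IsCompact {H : Vec n | vn (H - H₁) ≤ 15 / c * r} := by
    refine (isCompact_closedBall H₁ (15 / c * r)).of_isClosed_subset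
      (isClosed_le (continuous_vn.comp (continuous_id.sub continuous_const)) continuous_const)
      fun H hH => ?_
    rw [Metric.mem_closedBall, dist_pi_le_iff (by positivity)]
    exact fun i => (abs_le_vn (H - H₁) i).trans hH
  obtain ⟨H, -, hmin⟩ := hK.exists_isMinOn ⟨H₁, by
    show vn (H₁ - H₁) ≤ _
    rw [sub_self, vn_zero]; positivity⟩ hcont.continuousOn
  have a1 : vn (tap β κ J H - θ) + c / 14 * vn (H - H₁) ≤ r + c / 14 * vn (H₁ - H₁) :=
    hmin (show vn (H₁ - H₁) ≤ _ by rw [sub_self, vn_zero]; positivity)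
  rw [sub_self, vn_zero, mul_zero, add_zero] at a1
  have a2 : vn (H - H₁) ≤ 14 / c * r := by
    rw [div_mul_eq_mul_div, le_div_iff₀ hc]
    linarith [vn_nonneg (tap β κ J H - θ)]
  refine ⟨H, ?_, a2⟩
  by_contra hne
  set w := tap β κ J H - θ with hw
  have hw0 : 0 < vn w := (vn_nonneg w).lt_of_ne fun e => hne (sub_eq_zero.1 (vn_eq_zero e.symm))
  have a3 : vn w < ρ * √(n : ℝ) := by
    have b1 : 0 ≤ c / 14 * vn (H - H₁) := mul_nonneg (by positivity) (vn_nonneg _)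
    have b2 : r ≤ 100 / c * r := le_mul_of_one_le_left hr0 (by rw [le_div_iff₀ hc]; linarith)
    linarith
  obtain ⟨hu, hop, -, -⟩ := jt_inv hn hβ hJ hJ3 hκ hc hc1 (h H a3)
  set v := -((jt β κ J H)⁻¹ *ᵥ w) with hv
  have a4 : jt β κ J H *ᵥ v = -w := by
    rw [hv, mulVec_neg, mulVec_mulVec, mul_nonsing_inv _ hu, one_mulVec]
  have a5 : vn v ≤ 7 / c * vn w := by
    rw [hv, vn_neg]
    exact (vn_mulVec_le _ _).trans (mul_le_mul_of_nonneg_right hop hw0.le)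
  have hd := (hasDerivAt_tap hn β κ J H v).tendsto_slope_zero_right
  rw [a4] at hd
  have a6 : ∀ᶠ t : ℝ in 𝓝[>] 0,
      vn (t⁻¹ • (tap β κ J (H + (0 + t) • v) - tap β κ J (H + (0 : ℝ) • v)) + w) < vn w / 4 := by
    have := (continuous_vn.tendsto _).comp (hd.add_const w)
    rw [neg_add_cancel, vn_zero] at this
    exact this.eventually (gt_mem_nhds (by positivity))
  have a7 : ∀ᶠ t : ℝ in 𝓝[>] 0, t * vn v < 1 / c * r := by
    have : Tendsto (fun t : ℝ => t * vn v) (𝓝 0) (𝓝 (0 * vn v)) := tendsto_id.mul_const _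
    rw [zero_mul] at this
    exact nhdsWithin_le_nhds (this.eventually (gt_mem_nhds (by positivity)))
  have a8 : ∀ᶠ t : ℝ in 𝓝[>] 0, t ∈ Set.Ioo (0 : ℝ) 1 := Ioo_mem_nhdsGT one_pos
  obtain ⟨t, b1, b2, b3, b4⟩ := (a6.and (a7.and a8)).exists
  rw [zero_add, zero_smul, add_zero] at b1
  have b5 : vn (H + t • v - H₁) ≤ vn (H - H₁) + t * vn v := by
    have := vn_add_le (H - H₁) (t • v)
    rw [vn_smul, abs_of_pos b3] at this
    rwa [add_sub_right_comm]
  have b6 : vn (tap β κ J (H + t • v) - θ) ≤ (1 - t) * vn w + t * (vn w / 4) := by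
    have e : tap β κ J (H + t • v) - θ
        = (1 - t) • w + t • (t⁻¹ • (tap β κ J (H + t • v) - tap β κ J H) + w) := by
      rw [smul_add, smul_smul, mul_inv_cancel₀ b3.ne', hw]
      module
    rw [e]
    refine (vn_add_le _ _).trans ?_
    rw [vn_smul, vn_smul, abs_of_pos b3, abs_of_pos (by linarith)]
    gcongr
  have b7 : vn w + c / 14 * vn (H - H₁)
      ≤ vn (tap β κ J (H + t • v) - θ) + c / 14 * vn (H + t • v - H₁) :=
    hmin (show vn (H + t • v - H₁) ≤ 15 / c * r by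
      have : 15 / c * r = 14 / c * r + 1 / c * r := by ring
      linarith)
  have b8 : c / 14 * (t * vn v) ≤ t * (vn w / 2) := by
    calc c / 14 * (t * vn v) ≤ c / 14 * (t * (7 / c * vn w)) := by gcongr
      _ = _ := by field_simp; ring
  have b9 := mul_le_mul_of_nonneg_left b5 (show 0 ≤ c / 14 by positivity)
  nlinarith [mul_pos b3 hw0]

/-- Local uniqueness. Along `M t = (1-t) mag H₁ + t mag H₂`, `H t = artanh (M t)` lies between `H₁`
and `H₂` coordinatewise, so it is an approximate solution, and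
`t ↦ (mag H₂ - mag H₁) ⬝ tap (H t)` has derivative `hess (H t) (mag H₂ - mag H₁)`. -/
theorem tap_unique (hn : 0 < n) {β κ c ρ : ℝ} {J : Mat n} {θ H₁ H₂ : Vec n} (hβ : β ^ 2 ≤ 1)
    (hJ3 : opn J ≤ 3) (hκ : κ ∈ Set.Icc (0 : ℝ) 1) (hc : 0 < c)
    (h : HP β κ J c ρ θ) (h1 : tap β κ J H₁ = θ) (h2 : tap β κ J H₂ = θ)
    (hr : 7 * vn (H₁ - H₂) < ρ * √(n : ℝ)) : H₁ = H₂ := by
  set δ := mag H₂ - mag H₁ with hδ
  let M : ℝ → Vec n := fun t => mag H₁ + t • δ
  let γ : ℝ → Vec n := fun t i => Real.artanh (M t i)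
  have hb : ∀ (H : Vec n) i, mag H i ∈ Set.Ioo (-1 : ℝ) 1 := fun H i =>
    abs_lt.1 (Real.abs_tanh_lt_one _)
  have hM : ∀ t ∈ Set.Icc (0 : ℝ) 1, ∀ i, M t i ∈ Set.uIcc (mag H₁ i) (mag H₂ i) := by
    intro t ht i
    rw [← segment_eq_uIcc, segment_eq_image']
    exact ⟨t, ht, rfl⟩
  have hM' : ∀ t ∈ Set.Icc (0 : ℝ) 1, ∀ i, M t i ∈ Set.Ioo (-1 : ℝ) 1 := fun t ht i =>
    Set.ordConnected_Ioo.uIcc_subset (hb H₁ i) (hb H₂ i) (hM t ht i)
  have hmag : ∀ t ∈ Set.Icc (0 : ℝ) 1, mag (γ t) = M t := fun t ht =>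
    funext fun i => Real.tanh_artanh (hM' t ht i)
  have hγ : ∀ t ∈ Set.Icc (0 : ℝ) 1,
      HasDerivAt γ (fun i => Real.cosh (γ t i) ^ 2 * δ i) t := by
    intro t ht
    refine hasDerivAt_pi.2 fun i => ?_
    have a1 : HasDerivAt (fun t : ℝ => M t i) (δ i) t := by
      simpa [M] using ((hasDerivAt_id t).mul_const (δ i)).const_add (mag H₁ i)
    refine ((hasDerivAt_artanh (hM' t ht i)).comp t a1).congr_deriv ?_
    have a2 := cosh_sq_mul_dd (γ t) i
    have a3 : dd (γ t) i = 1 - M t i ^ 2 := by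
      rw [← hmag t ht]; rfl
    rw [a3] at a2
    rw [eq_inv_of_mul_eq_one_left a2]
  have hnear : ∀ t ∈ Set.Icc (0 : ℝ) 1, vn (tap β κ J (γ t) - θ) < ρ * √(n : ℝ) := by
    intro t ht
    rw [← h1]
    refine (tap_lip hβ hJ3 hκ _ _).trans_lt (lt_of_le_of_lt ?_ hr)
    rw [vn_sub_comm H₁ H₂]
    refine mul_le_mul_of_nonneg_left (vn_mono fun i => ?_) (by norm_num)
    refine Set.abs_sub_left_of_mem_uIcc ?_
    have a1 := hM' t ht i
    have a2 := hb H₁ i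
    have a3 := hb H₂ i
    have e1 : Real.artanh (mag H₁ i) = H₁ i := Real.artanh_tanh _
    have e2 : Real.artanh (mag H₂ i) = H₂ i := Real.artanh_tanh _
    rw [← e1, ← e2]
    rcases Set.mem_uIcc.1 (hM t ht i) with a4 | a4
    · exact Set.mem_uIcc.2 (Or.inl ⟨Real.artanh_le_artanh a2.1 a1.2 a4.1,
        Real.artanh_le_artanh a1.1 a3.2 a4.2⟩)
    · exact Set.mem_uIcc.2 (Or.inr ⟨Real.artanh_le_artanh a3.1 a1.2 a4.1,
        Real.artanh_le_artanh a1.1 a2.2 a4.2⟩)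
  have hf : ∀ t ∈ Set.Icc (0 : ℝ) 1,
      HasDerivAt (fun t => δ ⬝ᵥ tap β κ J (γ t)) (hess β κ J (γ t) δ) t := by
    intro t ht
    have a1 := hasDerivAt_pi.1 (hasDerivAt_tap_comp hn β κ J (hγ t ht))
    have a2 : dd (γ t) * (fun i => Real.cosh (γ t i) ^ 2 * δ i) = δ := by
      funext i
      rw [Pi.mul_apply, ← mul_assoc, mul_comm (dd (γ t) i), cosh_sq_mul_dd, one_mul]
    have a3 := dot_jt hn β κ J (γ t) fun i => Real.cosh (γ t i) ^ 2 * δ i
    rw [a2] at a3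
    rw [← a3]
    exact HasDerivAt.fun_sum fun i _ => (a1 i).const_mul (δ i)
  have e0 : γ 0 = H₁ := funext fun i => by simp [γ, M, mag, Real.artanh_tanh]
  have e1 : γ 1 = H₂ := funext fun i => by simp [γ, M, hδ, mag, Real.artanh_tanh]
  obtain ⟨t, ht, h0⟩ := exists_hasDerivAt_eq_zero (f := fun t => δ ⬝ᵥ tap β κ J (γ t))
    (f' := fun t => hess β κ J (γ t) δ) one_pos
    (fun t ht => (hf t ht).continuousAt.continuousWithinAt) (by simp only [e0, e1, h1, h2])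
    fun t ht => hf t (Set.Ioo_subset_Icc_self ht)
  have a1 := h _ (hnear t (Set.Ioo_subset_Icc_self ht)) δ
  rw [h0, dot_self] at a1
  have a2 : vn δ ^ 2 ≤ 0 := nonpos_of_mul_nonpos_right a1 hc |> fun h => h
  have a3 : δ = 0 := vn_eq_zero (pow_eq_zero_iff two_ne_zero |>.1 (le_antisymm a2 (sq_nonneg _)))
  funext i
  exact Real.tanh_injective (congrFun (sub_eq_zero.1 a3) i).symm

end Vale.Agent.P150
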