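import Vale.Agent.P150.Objs

/-! Algebra of Wick words (deterministic). -/

open MeasureTheory ProbabilityTheory Matrix Filter Topology
open scoped ENNReal NNReal

namespace Vale.Agent.P150

variable {n : ℕ}

namespace WickAlg

theorem mul_avg (u : Vec n) : (n : ℝ) * avg u = ∑ i, u i := by
  rcases Nat.eq_zero_or_pos n with h | h
  · subst h
    simp
  · have : (n : ℝ) ≠ 0 := by positivity
    unfold avg
    field_simp

theorem abs_avg_le {u : Vec n} {c : ℝ} (hc : 0 ≤ c) (h : ∀ i, |u i| ≤ c) : |avg u| ≤ c := by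
  rcases Nat.eq_zero_or_pos n with hn | hn
  · subst hn
    simpa [avg] using hc
  · have h0 : (0 : ℝ) < n := by positivity
    rw [avg, abs_div, abs_of_pos h0, div_le_iff₀ h0]
    refine (Finset.abs_sum_le_sum_abs _ _).trans ?_
    refine (Finset.sum_le_sum fun i _ => h i).trans (le_of_eq ?_)
    simp [mul_comm]

theorem avg_sub (u v : Vec n) : avg u - avg v = avg (u - v) := by
  simp [avg, Finset.sum_sub_distrib, sub_div]

theorem avg_smul (c : ℝ) (u : Vec n) : avg (c • u) = c * avg u := by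
  simp [avg, ← Finset.mul_sum, mul_div_assoc]

theorem abs_coef_le {β c : ℝ} (hβ : β ^ 2 ≤ 1) {u : Vec n} (hc : 0 ≤ c) (h : ∀ i, |u i| ≤ c) :
    |β ^ 2 * avg u| ≤ c := by
  rw [abs_mul, abs_of_nonneg (sq_nonneg β)]
  exact (mul_le_of_le_one_left (abs_nonneg _) hβ).trans (abs_avg_le hc h)

theorem opn_mul_le' {A B : Mat n} {a b : ℝ} (hA : opn A ≤ a) (hB : opn B ≤ b) :
    opn (A * B) ≤ a * b :=
  (opn_mul_le A B).trans (mul_le_mul hA hB (opn_nonneg _) ((opn_nonneg _).trans hA))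

theorem opn_smul_le' {A : Mat n} {c a b : ℝ} (hc : |c| ≤ a) (hA : opn A ≤ b) :
    opn (c • A) ≤ a * b := by
  rw [opn_smul]
  exact mul_le_mul hc hA (opn_nonneg _) ((abs_nonneg _).trans hc)

theorem fro_mul_le' {A B : Mat n} {a b : ℝ} (hA : opn A ≤ a) (hB : fro B ≤ b) :
    fro (A * B) ≤ a * b :=
  (fro_mul_le_left A B).trans (mul_le_mul hA hB (fro_nonneg _) ((opn_nonneg _).trans hA))

theorem fro_smul_le' {A : Mat n} {c a b : ℝ} (hc : |c| ≤ a) (hA : fro A ≤ b) :
    fro (c • A) ≤ a * b := by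
  rw [fro_smul]
  exact mul_le_mul hc hA (fro_nonneg _) ((abs_nonneg _).trans hc)

theorem diag_one : diagonal (1 : Vec n) = 1 := diagonal_one

end WickAlg

open WickAlg

theorem wick_head (β : ℝ) (J : Mat n) (E F : Vec n) (r : List (Vec n)) :
    diagonal E * wick β J (F :: r) = wick β J ((E * F) :: r) := by
  have h : diagonal E * diagonal F = diagonal (E * F) := diagonal_mul_diagonal E F
  cases r with
  | nil => exact h
  | cons G r =>
    simp only [wick]
    rw [mul_sub, Matrix.mul_smul, ← h]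
    simp only [Matrix.mul_assoc]

theorem mul_wick (β : ℝ) (J : Mat n) (F : Vec n) (r : List (Vec n)) :
    J * wick β J (F :: r) = wick β J (1 :: F :: r) + (β ^ 2 * avg F) • wick β J r := by
  simp only [wick, diag_one, one_mul, sub_add_cancel]

theorem opn_wick_le {β : ℝ} (hβ : β ^ 2 ≤ 1) (J : Mat n) (l : List (Vec n))
    (hl : ∀ E ∈ l, ∀ i, |E i| ≤ 1) : opn (wick β J l) ≤ (1 + opn J) ^ l.length := by
  have hx := opn_nonneg J
  induction l using List.twoStepInduction with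
  | nil => simp [wick, opn_zero]
  | singleton E =>
    have := opn_diagonal_le zero_le_one (hl E (by simp))
    simp only [wick, List.length_singleton, pow_one]
    linarith
  | cons_cons E F r ih1 ih2 =>
    have hE := opn_diagonal_le zero_le_one (hl E (by simp))
    have h1 := ih1 fun G hG => hl G (by simp [hG])
    have h2 := ih2 F fun G hG => hl G (List.mem_cons_of_mem _ hG)
    have h3 := opn_mul_le' (opn_mul_le' hE (le_refl (opn J))) h2
    have h4 := opn_smul_le' (abs_coef_le hβ zero_le_one (hl F (by simp))) (opn_mul_le' hE h1)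
    simp only [wick, List.length_cons] at h3 ⊢
    refine (opn_sub_le _ _).trans ((add_le_add h3 h4).trans ?_)
    have h5 : 0 ≤ (1 + opn J) ^ r.length := by positivity
    simp only [pow_succ]
    nlinarith [mul_nonneg hx h5]

theorem WickAlg.opn_wick7 {β : ℝ} (hβ : β ^ 2 ≤ 1) {J : Mat n} (hJ : opn J ≤ 6)
    (l : List (Vec n)) (hl : ∀ E ∈ l, ∀ i, |E i| ≤ 1) : opn (wick β J l) ≤ 7 ^ l.length :=
  (opn_wick_le hβ J l hl).trans
    (pow_le_pow_left₀ (by linarith [opn_nonneg J]) (by linarith) _)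

theorem WickAlg.opn_wick14 {β : ℝ} (hβ : β ^ 2 ≤ 1) {J : Mat n} (hJ : opn J ≤ 6)
    (l : List (Vec n)) (hl : ∀ E ∈ l, ∀ i, |E i| ≤ 1) : opn (wick β J l) ≤ 14 ^ l.length :=
  (opn_wick7 hβ hJ l hl).trans (pow_le_pow_left₀ (by norm_num) (by norm_num) _)

theorem fro_wick_sub_le {β : ℝ} (hβ : β ^ 2 ≤ 1) {J J' : Mat n} (hJ : opn J ≤ 6) (hJ' : opn J' ≤ 6)
    (l : List (Vec n)) (hl : ∀ E ∈ l, ∀ i, |E i| ≤ 1) :
    fro (wick β J l - wick β J' l) ≤ 14 ^ l.length * fro (J - J') := by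
  have hf := fro_nonneg (J - J')
  induction l using List.twoStepInduction with
  | nil => simp [wick, fro_zero, hf]
  | singleton E => simp [wick, fro_zero, hf]
  | cons_cons E F r ih1 ih2 =>
    have hE := opn_diagonal_le zero_le_one (hl E (by simp))
    have h1 := ih1 fun G hG => hl G (by simp [hG])
    have h2 := ih2 F fun G hG => hl G (List.mem_cons_of_mem _ hG)
    have h3 := opn_wick14 hβ hJ (F :: r) fun G hG => hl G (List.mem_cons_of_mem _ hG)
    have e : wick β J (E :: F :: r) - wick β J' (E :: F :: r) =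
        diagonal E * ((J - J') * wick β J (F :: r)) +
          diagonal E * J' * (wick β J (F :: r) - wick β J' (F :: r)) -
          (β ^ 2 * avg F) • (diagonal E * (wick β J r - wick β J' r)) := by
      simp only [wick, mul_sub, sub_mul, smul_sub, Matrix.mul_assoc]
      abel
    have h4 : fro ((J - J') * wick β J (F :: r)) ≤ fro (J - J') * 14 ^ (F :: r).length :=
      (fro_mul_le_right _ _).trans (mul_le_mul_of_nonneg_left h3 hf)
    have h5 := fro_mul_le' hE h4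
    have h6 := fro_mul_le' (opn_mul_le' hE hJ') h2
    have h7 := fro_smul_le' (abs_coef_le hβ zero_le_one (hl F (by simp))) (fro_mul_le' hE h1)
    rw [e]
    refine (fro_sub_le _ _).trans ((add_le_add ((fro_add_le _ _).trans (add_le_add h5 h6))
      h7).trans ?_)
    have h8 : 0 ≤ (14 : ℝ) ^ r.length * fro (J - J') := by positivity
    simp only [List.length_cons, pow_succ]
    nlinarith

theorem opn_wick_sub_le {β e : ℝ} (hβ : β ^ 2 ≤ 1) {J : Mat n} (hJ : opn J ≤ 6) (he : 0 ≤ e)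
    (l l' : List (Vec n))
    (h : List.Forall₂ (fun E E' => ∀ i, |E i| ≤ 1 ∧ |E' i| ≤ 1 ∧ |E i - E' i| ≤ e) l l') :
    opn (wick β J l - wick β J l') ≤ 14 ^ l.length * e := by
  induction l using List.twoStepInduction generalizing l' with
  | nil =>
    cases h
    simpa [wick, opn_zero] using he
  | singleton E =>
    rcases h with _ | ⟨hE, hr⟩
    cases hr
    rename_i E'
    have : opn (diagonal (E - E')) ≤ e := opn_diagonal_le he fun i => (hE i).2.2
    simp only [wick, diagonal_sub, List.length_singleton, pow_one]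
    exact this.trans (by linarith)
  | cons_cons E F r ih1 ih2 =>
    rcases h with _ | ⟨hE, hr⟩
    have h2 := ih2 F _ hr
    rcases hr with _ | ⟨hF, hr⟩
    rename_i E' F' r'
    have h1 := ih1 r' hr
    have hb : ∀ G ∈ r, ∀ i, |G i| ≤ 1 := by
      clear h1 h2 ih1 ih2
      induction hr with
      | nil => simp
      | cons a _ ih =>
        intro G hG
        rcases List.mem_cons.1 hG with rfl | hG
        · exact fun i => (a i).1
        · exact ih G hG
    have hb' : ∀ G ∈ F :: r, ∀ i, |G i| ≤ 1 := fun G hG => by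
      rcases List.mem_cons.1 hG with rfl | hG
      · exact fun i => (hF i).1
      · exact hb G hG
    have d1 : opn (diagonal E) ≤ 1 := opn_diagonal_le zero_le_one fun i => (hE i).1
    have d2 : opn (diagonal E') ≤ 1 := opn_diagonal_le zero_le_one fun i => (hE i).2.1
    have d3 : opn (diagonal E - diagonal E') ≤ e := by
      rw [diagonal_sub]
      exact opn_diagonal_le he fun i => (hE i).2.2
    have c1 : |β ^ 2 * avg F'| ≤ 1 := abs_coef_le hβ zero_le_one fun i => (hF i).2.1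
    have c2 : |β ^ 2 * avg F - β ^ 2 * avg F'| ≤ e := by
      rw [← mul_sub, avg_sub]
      exact abs_coef_le hβ he fun i => (hF i).2.2
    have w1 := opn_wick7 hβ hJ _ hb'
    have w2 := opn_wick14 hβ hJ _ hb
    have w3 : (7 : ℝ) ^ r.length ≤ 14 ^ r.length := pow_le_pow_left₀ (by norm_num) (by norm_num) _
    have e0 : wick β J (E :: F :: r) - wick β J (E' :: F' :: r') =
        (diagonal E - diagonal E') * J * wick β J (F :: r) +
          diagonal E' * J * (wick β J (F :: r) - wick β J (F' :: r')) -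
          ((β ^ 2 * avg F - β ^ 2 * avg F') • (diagonal E * wick β J r) +
            (β ^ 2 * avg F') • ((diagonal E - diagonal E') * wick β J r) +
            (β ^ 2 * avg F') • (diagonal E' * (wick β J r - wick β J r'))) := by
      simp only [wick, mul_sub, sub_mul, smul_sub, sub_smul]
      abel
    have a1 := opn_mul_le' (opn_mul_le' d3 hJ) w1
    have a2 := opn_mul_le' (opn_mul_le' d2 hJ) h2
    have a3 := opn_smul_le' c2 (opn_mul_le' d1 w2)
    have a4 := opn_smul_le' c1 (opn_mul_le' d3 w2)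
    have a5 := opn_smul_le' c1 (opn_mul_le' d2 h1)
    rw [e0]
    refine (opn_sub_le _ _).trans ((add_le_add ((opn_add_le _ _).trans (add_le_add a1 a2))
      ((opn_add_le _ _).trans (add_le_add ((opn_add_le _ _).trans (add_le_add a3 a4))
        a5))).trans ?_)
    have h8 : 0 ≤ (14 : ℝ) ^ r.length * e := by positivity
    have h9 := mul_le_mul_of_nonneg_right w3 he
    simp only [List.length_cons, pow_succ]
    nlinarith

namespace WickAlg

theorem kA_succ (J : Mat n) (D P : ℕ → Vec n) (b s : ℕ → ℝ) (k : ℕ) :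
    kA J D P b s (k + 1) = diagonal (P k) * kY J D P b s k := by
  cases k <;> rfl

theorem pow_le_succ {C₀ : ℝ} (hC : 1 ≤ C₀) (k : ℕ) : (8 * C₀) ^ k ≤ (8 * C₀) ^ (k + 1) :=
  pow_le_pow_right₀ (by linarith) (Nat.le_succ k)

theorem opn_kAY {C₀ : ℝ} (hC : 1 ≤ C₀) {J : Mat n} {D P : ℕ → Vec n} {b s : ℕ → ℝ}
    (hJ : opn J ≤ 6) (hD : ∀ j i, |D j i| ≤ 1) (hP : ∀ j i, |P j i| ≤ C₀) (hb : ∀ j, |b j| ≤ 1)
    (hs : ∀ j, |s j| ≤ 1) (k : ℕ) :
    opn (kA J D P b s k) ≤ (8 * C₀) ^ k ∧ opn (kY J D P b s k) ≤ 8 * (8 * C₀) ^ k := by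
  induction k with
  | zero =>
    have h := opn_diagonal_le zero_le_one (hD 0)
    refine ⟨by simpa [kA] using h, (opn_add_le _ _).trans ?_⟩
    have h1 := opn_mul_le' hJ h
    have h2 := opn_smul_le' (hs 0) h
    simp only [pow_zero]
    linarith
  | succ k ih =>
    have h : opn (kA J D P b s (k + 1)) ≤ (8 * C₀) ^ (k + 1) := by
      rw [kA_succ]
      refine (opn_mul_le' (opn_diagonal_le (by linarith) (hP k)) ih.2).trans (le_of_eq ?_)
      ring
    refine ⟨h, (opn_add_le _ _).trans ?_⟩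
    have h1 := opn_mul_le' hJ h
    have h2 := opn_smul_le' (hs (k + 1)) h
    have h3 := opn_smul_le' (hb (k + 1)) ih.1
    have h4 := opn_sub_le (J * kA J D P b s (k + 1)) (b (k + 1) • kA J D P b s k)
    have h5 := pow_le_succ hC k
    linarith

theorem abs_kV {C₀ β : ℝ} (hC : 1 ≤ C₀) (hβ : β ^ 2 ≤ 1) {D P : ℕ → Vec n}
    (hD : ∀ j i, |D j i| ≤ 1) (hP : ∀ j i, |P j i| ≤ C₀) (k : ℕ) :
    |kV β D P k| ≤ (8 * C₀) ^ k := by
  induction k with
  | zero => simpa [kV] using abs_coef_le hβ zero_le_one (hD 0)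
  | succ k ih =>
    have h : |β ^ 2 * avg (P k * D k)| ≤ 8 * C₀ := abs_coef_le hβ (by linarith) fun i => by
      rw [Pi.mul_apply, abs_mul]
      have := mul_le_mul (hP k i) (hD k i) (abs_nonneg _) (by linarith)
      linarith
    rw [kV, abs_mul, pow_succ' (8 * C₀)]
    exact mul_le_mul h ih (abs_nonneg _) (by linarith)

end WickAlg

theorem kern_bound (k : ℕ) {C₀ : ℝ} (hC : 1 ≤ C₀) : ∃ K : ℝ, 1 ≤ K ∧
    ∀ (n : ℕ) (β : ℝ) (J : Mat n) (D P : ℕ → Vec n) (b s : ℕ → ℝ), β ^ 2 ≤ 1 → opn J ≤ 6 →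
      (∀ j i, |D j i| ≤ 1) → (∀ j i, |P j i| ≤ C₀) → (∀ j, |b j| ≤ 1) → (∀ j, |s j| ≤ 1) →
      opn (kA J D P b s k) ≤ K ∧ opn (kY J D P b s k) ≤ K ∧ |kV β D P k| ≤ K := by
  have h0 : 1 ≤ (8 * C₀) ^ k := one_le_pow₀ (by linarith)
  refine ⟨8 * (8 * C₀) ^ k, by linarith, fun n β J D P b s hβ hJ hD hP hb hs => ?_⟩
  have h1 := opn_kAY hC hJ hD hP hb hs k
  have h2 := abs_kV hC hβ hD hP k
  exact ⟨by linarith [h1.1], h1.2, by linarith⟩

namespace WickAlg

/-- Left multiplication by `A` lowers the degree of a Wick word by at most `d`. -/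
def Low (β : ℝ) (J : Mat n) (L : ℕ) (t : ℝ) (A : Mat n) (d : ℕ) (c : ℝ) : Prop :=
  ∀ l : List (Vec n), d + 2 ≤ l.length → l.length + d ≤ L → (∀ E ∈ l, ∀ i, |E i| ≤ 1) →
    |(A * wick β J l).trace| ≤ c * t

variable {β t : ℝ} {J A B : Mat n} {L d d' : ℕ} {c c' : ℝ}

theorem Low.mono (h : Low β J L t A d c) (ht : 0 ≤ t) (hd : d ≤ d') (hc : c ≤ c') :
    Low β J L t A d' c' := fun l h1 h2 h3 =>
  (h l (by omega) (by omega) h3).trans (mul_le_mul_of_nonneg_right hc ht)

theorem Low.add (h : Low β J L t A d c) (h' : Low β J L t B d c') :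
    Low β J L t (A + B) d (c + c') := fun l h1 h2 h3 => by
  rw [add_mul, trace_add, add_mul]
  exact (abs_add_le _ _).trans (add_le_add (h l h1 h2 h3) (h' l h1 h2 h3))

theorem Low.smul (h : Low β J L t A d c) {a : ℝ} (ha : |a| ≤ 1) :
    Low β J L t (a • A) d c := fun l h1 h2 h3 => by
  rw [Matrix.smul_mul, trace_smul, smul_eq_mul, abs_mul]
  exact (mul_le_of_le_one_left (abs_nonneg _) ha).trans (h l h1 h2 h3)

theorem wick_smul (a : ℝ) (E : Vec n) (r : List (Vec n)) :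
    wick β J ((a • E) :: r) = a • wick β J (E :: r) := by
  have h : a • E = (fun _ => a) * E := rfl
  rw [h, ← wick_head, ← smul_one_eq_diagonal, Matrix.smul_mul, one_mul]

theorem bd_cons {E : Vec n} {r : List (Vec n)} (hE : ∀ i, |E i| ≤ 1)
    (hr : ∀ F ∈ r, ∀ i, |F i| ≤ 1) : ∀ F ∈ E :: r, ∀ i, |F i| ≤ 1 := fun F hF => by
  rcases List.mem_cons.1 hF with rfl | hF
  · exact hE
  · exact hr F hF

theorem abs_scale {M : ℝ} (hM : 0 < M) {Φ : Vec n} (h : ∀ i, |Φ i| ≤ M) (i : Fin n) :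
    |(M⁻¹ • Φ) i| ≤ 1 := by
  rw [Pi.smul_apply, smul_eq_mul, abs_mul, abs_of_pos (inv_pos.2 hM), inv_mul_le_iff₀ hM, mul_one]
  exact h i

theorem abs_mul_bd {M : ℝ} {Φ E : Vec n} (h : ∀ i, |Φ i| ≤ M) (hE : ∀ i, |E i| ≤ 1) (i : Fin n) :
    |(Φ * E) i| ≤ M := by
  rw [Pi.mul_apply, abs_mul]
  exact (mul_le_of_le_one_right (abs_nonneg _) (hE i)).trans (h i)

theorem Low.diag (h : Low β J L t A d c) {M : ℝ} (hM : 0 < M) {Φ : Vec n} (hΦ : ∀ i, |Φ i| ≤ M) :
    Low β J L t (A * diagonal Φ) d (M * c) := fun l h1 h2 h3 => by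
  obtain _ | ⟨E, r⟩ := l
  · simp at h1
  have h4 := h ((M⁻¹ • (Φ * E)) :: r) h1 h2
    (bd_cons (abs_scale hM (abs_mul_bd hΦ (h3 E (by simp)))) fun F hF => h3 F (by simp [hF]))
  rw [wick_smul, Matrix.mul_smul, trace_smul, smul_eq_mul, abs_mul, abs_of_pos (inv_pos.2 hM),
    inv_mul_le_iff₀ hM] at h4
  rw [Matrix.mul_assoc, wick_head, mul_assoc]
  exact h4

theorem bd_one (i : Fin n) : |(1 : Vec n) i| ≤ 1 := by simp

theorem Low.mulJ (h : Low β J L t A d c) (hβ : β ^ 2 ≤ 1) :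
    Low β J L t (A * J) (d + 1) (2 * c) := fun l h1 h2 h3 => by
  obtain _ | ⟨E, r⟩ := l
  · simp at h1
  simp only [List.length_cons] at h1 h2
  have h4 := h (1 :: E :: r) (by simp only [List.length_cons]; omega)
    (by simp only [List.length_cons]; omega) (bd_cons bd_one h3)
  have h5 := (h.smul (abs_coef_le hβ zero_le_one (h3 E (by simp)))) r (by omega) (by omega)
    fun F hF => h3 F (by simp [hF])
  rw [Matrix.mul_assoc, mul_wick, mul_add, trace_add, Matrix.mul_smul, ← Matrix.smul_mul]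
  exact (abs_add_le _ _).trans (by linarith)

theorem length_kL (D : ℕ → Vec n) (k : ℕ) : (kL D k).length = k + 1 := by
  induction k with
  | zero => rfl
  | succ k ih => rw [kL, List.length_cons, ih]

theorem bd_kL {D : ℕ → Vec n} (hD : ∀ j i, |D j i| ≤ 1) (k : ℕ) :
    ∀ F ∈ kL D k, ∀ i, |F i| ≤ 1 := by
  induction k with
  | zero => exact bd_cons bd_one (by simp)
  | succ k ih => exact bd_cons (hD k) ih

section

variable {C₀ : ℝ} {D P : ℕ → Vec n} {b s : ℕ → ℝ}

theorem low_kAY (hC : 1 ≤ C₀) (hβ : β ^ 2 ≤ 1) (hJ : J.IsSymm) (hD : ∀ j i, |D j i| ≤ 1)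
    (hP : ∀ j i, |P j i| ≤ C₀) (hb : ∀ j, |b j| ≤ 1) (hs : ∀ j, |s j| ≤ 1) (ht : 0 ≤ t)
    (h1 : Low β J L t 1 0 1) (k : ℕ) :
    Low β J L t (kA J D P b s k)ᵀ k ((8 * C₀) ^ k) ∧
      ∃ R, (kY J D P b s k)ᵀ = (kA J D P b s k)ᵀ * J + R ∧ Low β J L t R k (2 * (8 * C₀) ^ k) := by
  induction k with
  | zero =>
    have h : Low β J L t (diagonal (D 0)) 0 1 := by simpa using h1.diag one_pos (hD 0)
    refine ⟨by simpa [kA] using h, s 0 • diagonal (D 0), ?_,
      (h.smul (hs 0)).mono ht le_rfl (by simp)⟩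
    simp [kY, kA, transpose_add, transpose_mul, hJ.eq]
  | succ k ih =>
    obtain ⟨hA, R, hR, hR'⟩ := ih
    have h0 : 0 ≤ (8 * C₀) ^ k := by positivity
    have h : Low β J L t (kA J D P b s (k + 1))ᵀ (k + 1) ((8 * C₀) ^ (k + 1)) := by
      rw [kA_succ, transpose_mul, diagonal_transpose, hR]
      refine (((hA.mulJ hβ).add (hR'.mono ht (Nat.le_succ k) le_rfl)).diag (by linarith)
        (hP k)).mono ht le_rfl ?_
      rw [pow_succ]
      nlinarith
    refine ⟨h, (-b (k + 1)) • (kA J D P b s k)ᵀ + s (k + 1) • (kA J D P b s (k + 1))ᵀ, ?_,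
      (((hA.mono ht (Nat.le_succ k) (pow_le_succ hC k)).smul (by rw [abs_neg]; exact hb _)).add
        (h.smul (hs _))).mono ht le_rfl (by linarith)⟩
    simp only [kY, transpose_add, transpose_sub, transpose_mul, transpose_smul, hJ.eq, neg_smul]
    abel

theorem low_kY (hC : 1 ≤ C₀) (hβ : β ^ 2 ≤ 1) (hJ : J.IsSymm) (hD : ∀ j i, |D j i| ≤ 1)
    (hP : ∀ j i, |P j i| ≤ C₀) (hb : ∀ j, |b j| ≤ 1) (hs : ∀ j, |s j| ≤ 1) (ht : 0 ≤ t)
    (h1 : Low β J L t 1 0 1) (k : ℕ) :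
    Low β J L t (kY J D P b s k)ᵀ (k + 1) (4 * (8 * C₀) ^ k) := by
  obtain ⟨hA, R, hR, hR'⟩ := low_kAY hC hβ hJ hD hP hb hs ht h1 k
  rw [hR]
  exact ((hA.mulJ hβ).add (hR'.mono ht (Nat.le_succ k) le_rfl)).mono ht le_rfl (by linarith)

theorem main_step (hC : 1 ≤ C₀) (hβ : β ^ 2 ≤ 1) (hJ : J.IsSymm) (hD : ∀ j i, |D j i| ≤ 1)
    (hP : ∀ j i, |P j i| ≤ C₀) (hb : ∀ j, |b j| ≤ 1) (hs : ∀ j, |s j| ≤ 1) (ht : 0 ≤ t)
    (h1 : Low β J L t 1 0 1) (k : ℕ) (hk : 2 * k + 4 ≤ L)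
    (h : |β ^ 2 * ((kA J D P b s k)ᵀ * wick β J (kL D k)).trace - n * kV β D P k| ≤
      (8 * C₀) ^ k * t) {Φ : Vec n} (hΦ : ∀ i, |Φ i| ≤ 1) :
    |((kY J D P b s k)ᵀ * wick β J (Φ :: kL D k)).trace - avg Φ * (n * kV β D P k)| ≤
      4 * (8 * C₀) ^ k * t := by
  obtain ⟨hA, R, hR, hR'⟩ := low_kAY hC hβ hJ hD hP hb hs ht h1 k
  have hl := length_kL D k
  have hb1 := bd_cons hΦ (bd_kL hD k)
  have a1 := hA (1 :: Φ :: kL D k) (by simp only [List.length_cons]; omega)
    (by simp only [List.length_cons]; omega) (bd_cons bd_one hb1)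
  have a2 := hR' (Φ :: kL D k) (by simp only [List.length_cons]; omega)
    (by simp only [List.length_cons]; omega) hb1
  have a3 : |avg Φ * (β ^ 2 * ((kA J D P b s k)ᵀ * wick β J (kL D k)).trace - n * kV β D P k)| ≤
      (8 * C₀) ^ k * t := by
    rw [abs_mul]
    exact (mul_le_of_le_one_left (abs_nonneg _) (abs_avg_le zero_le_one hΦ)).trans h
  rw [hR, add_mul, Matrix.mul_assoc, mul_wick, mul_add, Matrix.mul_smul, trace_add, trace_add,
    trace_smul, smul_eq_mul]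
  rw [abs_le] at a1 a2 a3 ⊢
  constructor <;> nlinarith [a1.1, a1.2, a2.1, a2.2, a3.1, a3.2]

theorem main_A (hC : 1 ≤ C₀) (hβ : β ^ 2 ≤ 1) (hJ : J.IsSymm) (hD : ∀ j i, |D j i| ≤ 1)
    (hP : ∀ j i, |P j i| ≤ C₀) (hb : ∀ j, |b j| ≤ 1) (hs : ∀ j, |s j| ≤ 1) (ht : 0 ≤ t)
    (h1 : Low β J L t 1 0 1) (k : ℕ) (hk : 2 * k + 4 ≤ L) :
    |β ^ 2 * ((kA J D P b s k)ᵀ * wick β J (kL D k)).trace - n * kV β D P k| ≤
      (8 * C₀) ^ k * t := by
  induction k with
  | zero =>
    have e : ((kA J D P b s 0)ᵀ * wick β J (kL D 0)).trace = n * avg (D 0) := by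
      rw [mul_avg]
      simp [kA, kL, wick]
    rw [e, kV]
    have : β ^ 2 * (n * avg (D 0)) - n * (β ^ 2 * avg (D 0)) = 0 := by ring
    rw [this]
    simpa using ht
  | succ k ih =>
    have hC0 : 0 < C₀ := by linarith
    have a := main_step hC hβ hJ hD hP hb hs ht h1 k (by omega) (ih (by omega))
      (abs_scale hC0 (abs_mul_bd (hP k) (hD k)))
    rw [wick_smul, Matrix.mul_smul, trace_smul, smul_eq_mul, avg_smul, mul_assoc, ← mul_sub,
      abs_mul, abs_of_pos (inv_pos.2 hC0), inv_mul_le_iff₀ hC0] at a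
    rw [kA_succ, transpose_mul, diagonal_transpose, kL, Matrix.mul_assoc, wick_head, kV]
    have e : ∀ x y z : ℝ, β ^ 2 * x - n * (β ^ 2 * y * z) = β ^ 2 * (x - y * (n * z)) := by
      intros
      ring
    rw [e, abs_mul, abs_of_nonneg (sq_nonneg β)]
    refine (mul_le_of_le_one_left (abs_nonneg _) hβ).trans (a.trans ?_)
    have h0 : 0 ≤ C₀ * ((8 * C₀) ^ k * t) := by positivity
    rw [pow_succ]
    nlinarith

end

theorem sum_diag (Y N : Mat n) (Φ : Vec n) :
    ∑ j, Φ j * (Y * Nᵀ) j j = (Yᵀ * (diagonal Φ * N)).trace := by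
  simp only [Matrix.trace, Matrix.diag, Matrix.mul_apply, transpose_apply, Finset.mul_sum]
  rw [Finset.sum_comm]
  refine Finset.sum_congr rfl fun i _ => ?_
  rw [← Finset.sum_congr rfl fun j _ => Finset.mul_sum Finset.univ _ (Y j i)]
  refine Finset.sum_congr rfl fun j _ => ?_
  rw [← Matrix.mul_apply, diagonal_mul]
  ring

theorem vn_le_of_test {v : Vec n} {M a η : ℝ} (hM : 0 < M) (hη : 0 ≤ η) (hv : ∀ j, |v j| ≤ M)
    (h : ∀ Φ : Vec n, (∀ i, |Φ i| ≤ 1) → ∑ j, Φ j * v j ≤ a * n) (ha : M * a ≤ η ^ 2) :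
    vn v ≤ η * √(n : ℝ) := by
  refine vn_le_of_sq_le (by positivity) ?_
  have h1 := h (M⁻¹ • v) (abs_scale hM hv)
  have h2 : ∑ j, (M⁻¹ • v) j * v j = M⁻¹ * ∑ j, v j ^ 2 := by
    rw [Finset.mul_sum]
    exact Finset.sum_congr rfl fun j _ => by simp [sq, mul_assoc]
  rw [h2, inv_mul_le_iff₀ hM] at h1
  rw [mul_pow, Real.sq_sqrt (Nat.cast_nonneg n)]
  nlinarith [mul_le_mul_of_nonneg_right ha (Nat.cast_nonneg (α := ℝ) n)]

end WickAlg

/-- Orthogonality of Wick words. Call a matrix a combination of degrees in `[lo, hi]` and weight `C`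
if it is `∑ c_t • wick l_t` with lists of entries bounded by `1`, of lengths in `[lo+1, hi+1]`, and
`∑ |c_t| ≤ C`. By `wick_head` and `mul_wick`, left multiplication by a bounded diagonal keeps the
degrees and left multiplication by `J` moves them by at most one. `(kA k)ᵀ` moves degrees by at most
`k`, `(kY k)ᵀ` by at most `k+1`. By `W1` (with `π = id`) combinations of degrees `≥ 1` have trace
`o(n)`. For a diagonal `Φ` bounded by one,
`∑ j, Φ j * (Y * Nᵀ) j j = trace (Yᵀ * diagonal Φ * N)`, which is `o(n)` for the first claim; for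
the second, `(kY k)ᵀ = (kA k)ᵀ J + lower`, `J Φ wick (1 :: kL k) = wick (1 :: Φ :: kL k) +
β² avg Φ • wick (kL k)`, and `(kA (k+1))ᵀ wick (kL (k+1)) = (kY k)ᵀ (P k * D k) wick (1 :: kL k)`,
so the normalized trace is `avg Φ * kV k + o(1)` by induction. Finally take `Φ` proportional to the
vector to be bounded. -/
theorem wick_orth (k : ℕ) {C₀ η : ℝ} (hC : 1 ≤ C₀) (hη : 0 < η) : ∃ ω : ℝ, 0 < ω ∧
    ∀ (n : ℕ) (β : ℝ) (J : Mat n) (D P : ℕ → Vec n) (b s : ℕ → ℝ), β ^ 2 ≤ 1 → J.IsSymm →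
      opn J ≤ 6 → (∀ j i, |D j i| ≤ 1) → (∀ j i, |P j i| ≤ C₀) → (∀ j, |b j| ≤ 1) →
      (∀ j, |s j| ≤ 1) → W1 β J ω →
      vn (fun j => (kY J D P b s k * (wick β J (1 :: kL D (k + 1)))ᵀ) j j) ≤ η * √(n : ℝ) ∧
      vn (fun j => (kY J D P b s k * (wick β J (1 :: kL D k))ᵀ) j j - kV β D P k) ≤
        η * √(n : ℝ) := by
  set a : ℝ := (8 * C₀) ^ k with ha
  have ha1 : 1 ≤ a := one_le_pow₀ (by linarith)
  set M : ℝ := 8 * a * 14 ^ (k + 3) + a with hM
  have hM0 : 0 < M := by positivity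
  refine ⟨min (1 / (2 * k + 4)) (η ^ 2 / (M * (4 * a))), by positivity,
    fun n β J D P b s hβ hJ hJ6 hD hP hb hs hW => ?_⟩
  set ω := min (1 / (2 * (k : ℝ) + 4)) (η ^ 2 / (M * (4 * a))) with hω
  have hω0 : 0 < ω := by positivity
  have hω1 : 2 * (k : ℝ) + 4 ≤ 1 / ω := by
    rw [le_div_iff₀ hω0, mul_comm, ← le_div_iff₀ (by positivity)]
    exact min_le_left _ _
  have hω2 : M * (4 * a * ω) ≤ η ^ 2 := by
    rw [← mul_assoc, mul_comm, ← le_div_iff₀ (by positivity)]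
    exact min_le_right _ _
  have ht : 0 ≤ ω * n := by positivity
  have h1 : Low β J (2 * k + 4) (ω * n) 1 0 1 := fun l l1 l2 l3 => by
    rw [one_mul, one_mul]
    refine (Finset.abs_sum_le_sum_abs _ _).trans (hW l l1 (le_trans ?_ hω1) l3 id)
    exact_mod_cast l2
  have hY := (opn_kAY hC hJ6 hD hP hb hs k).2
  have hV := abs_kV hC hβ hD hP k
  have hent : ∀ m, m ≤ k + 1 → ∀ j,
      |(kY J D P b s k * (wick β J (1 :: kL D m))ᵀ) j j| ≤ 8 * a * 14 ^ (k + 3) := by
    intro m hm j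
    refine (abs_entry_le _ _ _).trans (opn_mul_le' hY ?_)
    rw [opn_transpose]
    refine (opn_wick14 hβ hJ6 _ (bd_cons bd_one (bd_kL hD m))).trans
      (pow_le_pow_right₀ (by norm_num) ?_)
    rw [List.length_cons, length_kL]
    omega
  constructor
  · refine vn_le_of_test hM0 hη.le (fun j => (hent _ le_rfl j).trans (by linarith))
      (fun Φ hΦ => ?_) hω2
    rw [sum_diag, wick_head, mul_one, mul_assoc]
    refine (le_abs_self _).trans (low_kY hC hβ hJ hD hP hb hs ht h1 k _ ?_ ?_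
      (bd_cons hΦ (bd_kL hD _))) <;> (simp only [List.length_cons, length_kL]; omega)
  · refine vn_le_of_test hM0 hη.le
      (fun j => (abs_sub _ _).trans (add_le_add (hent _ (Nat.le_succ k) j) hV))
      (fun Φ hΦ => ?_) hω2
    have h2 := main_step hC hβ hJ hD hP hb hs ht h1 k le_rfl
      (main_A hC hβ hJ hD hP hb hs ht h1 k le_rfl) hΦ
    simp only [mul_sub, Finset.sum_sub_distrib]
    rw [sum_diag, wick_head, mul_one, ← Finset.sum_mul, ← mul_avg, mul_assoc (4 * a)]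
    refine le_trans (le_of_eq ?_) ((le_abs_self _).trans h2)
    ring

end Vale.Agent.P150
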