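import Vale.Agent.P150.BpCalc
import Vale.Agent.P150.WickAlg
import Vale.Agent.P150.TapA

/-! Jacobians of the belief propagation iterates. -/

open MeasureTheory ProbabilityTheory Matrix Filter Topology
open scoped ENNReal NNReal

namespace Vale.Agent.P150

variable {n : ℕ}

namespace BpJac

open WickAlg

lemma vn_le_mul_sqrt (u : Vec n) : vn u ≤ vn u * √(n : ℝ) := by
  rcases Nat.eq_zero_or_pos n with rfl | hn
  · simp [vn]
  · exact le_mul_of_one_le_right (vn_nonneg _) (Real.one_le_sqrt.2 (by exact_mod_cast hn))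

lemma vn_bpM (β : ℝ) (J : Mat n) (y : Vec n) (x : Cube n) (k : ℕ) :
    vn (bpM β J y x k) ≤ √(n : ℝ) := by
  cases k with
  | zero => exact (vn_sv x).le
  | succ k => rw [bpM_succ]; exact vn_mag_le _

lemma abs_dd_le (H : Vec n) (i : Fin n) : |dd H i| ≤ 1 := by
  rw [abs_of_pos (dom_dd H i).1]
  exact (dom_dd H i).2

lemma vn_two_sp (x : Cube n) (u : Vec n) : vn (fun r => 2 * sp (x r) * u r) ≤ 2 * vn u :=
  vn_mul_le (a := fun r => 2 * sp (x r)) (by norm_num) fun r => by simp [abs_mul, abs_sp]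

lemma jac_smul (b : Cube n → ℝ) (m : Cube n → Vec n) (x : Cube n) :
    jac (fun z => b z • m z) x = b x • jac m x + vecMulVec (m x) (grad b x) -
      jac m x * diagonal fun r => 2 * sp (x r) * grad b x r := by
  ext j r
  have h := grad_mul b (fun z => m z j) x r
  simp only [jac, of_apply, Pi.smul_apply, smul_eq_mul, Matrix.sub_apply, Matrix.add_apply,
    Matrix.smul_apply, vecMulVec_apply, mul_diagonal]
  rw [h]
  ring

lemma grad_ons {β K : ℝ} (hβ : β ^ 2 ≤ 1) {M : Cube n → Vec n} {x : Cube n}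
    (hM : vn (M x) ≤ √(n : ℝ)) (hK : opn (jac M x) ≤ K) :
    vn (grad (fun z => ons β (M z)) x) * √(n : ℝ) ≤ 2 * K + 2 * K ^ 2 := by
  have hK0 : 0 ≤ K := (opn_nonneg _).trans hK
  rcases Nat.eq_zero_or_pos n with rfl | hn
  · simp only [Nat.cast_zero, Real.sqrt_zero, mul_zero]
    positivity
  have hn' : (0 : ℝ) < n := Nat.cast_pos.2 hn
  have h1 : grad (fun z => ons β (M z)) x = (-(β ^ 2 / n)) • ((2 : ℝ) • (jac M x)ᵀ *ᵥ M x -
      fun r => 2 * sp (x r) * vn (fun j => jac M x j r) ^ 2) := by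
    funext r
    have a1 : grad (fun z => ons β (M z)) x r =
        -(β ^ 2 / n) * ∑ j, grad (fun z => M z j * M z j) x r := by
      simp only [grad, ons, dotProduct]
      rw [← Finset.sum_div, Finset.sum_sub_distrib]
      ring
    rw [a1]
    simp only [grad_mul, Pi.smul_apply, Pi.sub_apply, smul_eq_mul, vn_sq, mulVec, dotProduct,
      transpose_apply, jac, of_apply, Finset.mul_sum, ← Finset.sum_sub_distrib]
    exact Finset.sum_congr rfl fun j _ => by ring
  have h2 : vn ((2 : ℝ) • (jac M x)ᵀ *ᵥ M x) ≤ 2 * K * √(n : ℝ) := by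
    rw [vn_smul, abs_two, mul_assoc]
    refine mul_le_mul_of_nonneg_left ((vn_mulVec_le _ _).trans ?_) (by norm_num)
    rw [opn_transpose]
    exact mul_le_mul hK hM (vn_nonneg _) hK0
  have h3 : vn (fun r => 2 * sp (x r) * vn (fun j => jac M x j r) ^ 2) ≤
      2 * K ^ 2 * √(n : ℝ) := by
    refine (vn_two_sp x _).trans ?_
    rw [mul_assoc]
    refine mul_le_mul_of_nonneg_left (vn_le_sqrt (by positivity) fun r => ?_) (by norm_num)
    rw [abs_of_nonneg (by positivity)]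
    exact pow_le_pow_left₀ (vn_nonneg _) ((vn_col_le _ r).trans hK) 2
  have h4 := (vn_sub_le _ _).trans (add_le_add h2 h3)
  rw [h1, vn_smul, abs_neg, abs_of_nonneg (by positivity)]
  calc _ ≤ 1 / n * (2 * K * √(n : ℝ) + 2 * K ^ 2 * √(n : ℝ)) * √(n : ℝ) := by
        gcongr
        exact vn_nonneg _
    _ = (2 * K + 2 * K ^ 2) * (√(n : ℝ) * √(n : ℝ) / n) := by ring
    _ = _ := by rw [Real.mul_self_sqrt hn'.le, div_self hn'.ne', mul_one]

lemma jac_H_zero (β : ℝ) (J : Mat n) (y : Vec n) (x : Cube n) :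
    jac (fun z => bpH β J y z 0) x = J := by
  simp only [bpH]
  rw [jac_add, jac_const, jac_mulVec, jac_sv, zero_add, mul_one]

lemma jac_H_succ (β : ℝ) (J : Mat n) (y : Vec n) (x : Cube n) (k : ℕ) :
    jac (fun z => bpH β J y z (k + 1)) x = J * jac (fun z => bpM β J y z (k + 1)) x -
      (ons β (bpM β J y x (k + 1)) • jac (fun z => bpM β J y z k) x +
        (vecMulVec (bpM β J y x k) (grad (fun z => ons β (bpM β J y z (k + 1))) x) -
        jac (fun z => bpM β J y z k) x * diagonal fun r =>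
          2 * sp (x r) * grad (fun z => ons β (bpM β J y z (k + 1))) x r)) := by
  simp only [bpH]
  rw [jac_sub, jac_add, jac_const, jac_mulVec, jac_smul, zero_add, add_sub_assoc]

lemma fro_rest {m g : Vec n} {A : Mat n} {K L : ℝ} (x : Cube n) (hm : vn m ≤ √(n : ℝ))
    (hA : opn A ≤ K) (hg : vn g * √(n : ℝ) ≤ L) :
    fro (vecMulVec m g - A * diagonal fun r => 2 * sp (x r) * g r) ≤ L + K * (2 * L) := by
  refine (fro_sub_le _ _).trans (add_le_add ?_ (fro_mul_le' hA ?_))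
  · rw [fro_vecMulVec, mul_comm]
    exact (mul_le_mul_of_nonneg_left hm (vn_nonneg _)).trans hg
  · rw [fro_diagonal]
    have := vn_two_sp x g
    have := vn_le_mul_sqrt g
    linarith

lemma abs_ons_le {β : ℝ} (hβ : β ^ 2 ≤ 1) {m : Vec n} (hm : vn m ≤ √(n : ℝ)) :
    |ons β m| ≤ 1 := by
  rw [abs_of_nonneg (ons_mem hβ hm).1]
  exact (ons_mem hβ hm).2.trans hβ

lemma mag_err (H : Cube n → Vec n) (x : Cube n) (j r : Fin n) :
    |(jac (fun z => mag (H z)) x - diagonal (dd (H x)) * jac H x) j r| ≤ 2 * jac H x j r ^ 2 := by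
  rw [Matrix.sub_apply, diagonal_mul]
  exact jac_mag H x j r

lemma thin {A N : Mat n} {K ω e : ℝ} (hA : opn A ≤ K) (hN : opn N ≤ K)
    (hR : fro (A - N) ≤ e * √(n : ℝ)) (h : ∀ π : Fin n → Fin n, ∑ r, |N (π r) r| ≤ ω * n) :
    ∑ j, ∑ r, A j r ^ 4 ≤ (2 * K ^ 3 * ω + 2 * K ^ 2 * e ^ 2) * n := by
  have hK : 0 ≤ K := (opn_nonneg _).trans hA
  have hπ : ∀ r : Fin n, ∃ p, ∀ j, |N j r| ≤ |N p r| := fun r => by
    obtain ⟨p, -, hp⟩ := Finset.exists_max_image Finset.univ (fun j => |N j r|)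
      ⟨r, Finset.mem_univ _⟩
    exact ⟨p, fun j => hp j (Finset.mem_univ _)⟩
  choose π hπ using hπ
  have h1 : ∀ j r, A j r ^ 4 ≤ 2 * K * |N (π r) r| * A j r ^ 2 + 2 * K ^ 2 * (A - N) j r ^ 2 := by
    intro j r
    have a1 : A j r ^ 2 ≤ K ^ 2 := by
      rw [← sq_abs]
      exact pow_le_pow_left₀ (abs_nonneg _) ((abs_entry_le A j r).trans hA) 2
    have a2 : N j r ^ 2 ≤ K * |N (π r) r| := by
      rw [← sq_abs, sq]
      exact mul_le_mul ((abs_entry_le N j r).trans hN) (hπ r j) (abs_nonneg _) hK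
    have a3 : A j r ^ 2 ≤ 2 * N j r ^ 2 + 2 * (A j r - N j r) ^ 2 := by
      nlinarith [sq_nonneg (A j r - 2 * N j r)]
    have a4 := mul_le_mul_of_nonneg_left a3 (sq_nonneg (A j r))
    have a5 := mul_le_mul_of_nonneg_left a2 (sq_nonneg (A j r))
    have a6 := mul_le_mul_of_nonneg_left a1 (sq_nonneg (A j r - N j r))
    rw [Matrix.sub_apply]
    nlinarith
  have h2 : ∑ j, ∑ r, 2 * K * |N (π r) r| * A j r ^ 2 ≤ 2 * K ^ 3 * (ω * n) := by
    rw [Finset.sum_comm]
    refine le_trans (Finset.sum_le_sum fun r _ => ?_) ((Finset.mul_sum _ _ _).symm.trans_le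
      (mul_le_mul_of_nonneg_left (h π) (by positivity : 0 ≤ 2 * K ^ 3)))
    rw [← Finset.mul_sum, ← vn_sq]
    have a1 := pow_le_pow_left₀ (vn_nonneg _) ((vn_col_le A r).trans hA) 2
    have a2 := mul_le_mul_of_nonneg_left a1 (by positivity : 0 ≤ 2 * K * |N (π r) r|)
    linarith
  have h3 : ∑ j, ∑ r, 2 * K ^ 2 * (A - N) j r ^ 2 ≤ 2 * K ^ 2 * (e ^ 2 * n) := by
    simp only [← Finset.mul_sum]
    rw [← fro_sq]
    refine mul_le_mul_of_nonneg_left ((pow_le_pow_left₀ (fro_nonneg _) hR 2).trans_eq ?_)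
      (by positivity)
    rw [mul_pow, Real.sq_sqrt (Nat.cast_nonneg n)]
  calc _ ≤ ∑ j, ∑ r, (2 * K * |N (π r) r| * A j r ^ 2 + 2 * K ^ 2 * (A - N) j r ^ 2) :=
        Finset.sum_le_sum fun j _ => Finset.sum_le_sum fun r _ => h1 j r
    _ ≤ _ := by
        simp only [Finset.sum_add_distrib]
        linarith

lemma length_kL (D : ℕ → Vec n) : ∀ k, (kL D k).length = k + 1
  | 0 => rfl
  | k + 1 => by simp [kL, length_kL D k]

lemma bdd_kL {D : ℕ → Vec n} (h : ∀ j i, |D j i| ≤ 1) : ∀ k, ∀ E ∈ 1 :: kL D k, ∀ i, |E i| ≤ 1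
  | 0 => by simp [kL]
  | k + 1 => by
    have := bdd_kL h k
    simp only [kL, List.mem_cons, forall_eq_or_imp] at this ⊢
    exact ⟨this.1, h k, this.2⟩

lemma ev_small {c e : ℝ} (he : 0 < e) : ∀ᶠ ω in 𝓝[>] (0 : ℝ), c * ω ≤ e := by
  have h : Tendsto (fun ω : ℝ => c * ω) (𝓝 0) (𝓝 (c * 0)) :=
    (continuous_const.mul continuous_id).tendsto 0
  rw [mul_zero] at h
  exact (h.eventually (eventually_le_nhds he)).filter_mono nhdsWithin_le_nhds

end BpJac

open BpJac WickAlg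

/-- Induction on `k` with `jac_mag`, `opn_le_of_sq`, `grad_mul`; the Jacobian of
`ons (m_{k+1}) • m_k` is `ons • jac m_k + m_k (grad ons)ᵀ -` a term of the same size, and
`grad (m ⬝ m) r = 2 (m ⬝ column r) - 2 x_r |column r|²`. -/
theorem bp_bound (k : ℕ) : ∃ K : ℝ, 1 ≤ K ∧
    ∀ (n : ℕ) (β : ℝ) (J : Mat n) (y : Vec n) (x : Cube n), β ^ 2 ≤ 1 → opn J ≤ 6 →
      opn (jac (fun z => bpH β J y z k) x) ≤ K ∧ opn (jac (fun z => bpM β J y z k) x) ≤ K ∧
      vn (grad (fun z => ons β (bpM β J y z k)) x) * √(n : ℝ) ≤ K := by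
  induction k with
  | zero =>
    refine ⟨6, by norm_num, fun n β J y x hβ hJ => ?_⟩
    have h1 : opn (jac (fun z => bpM β J y z 0) x) ≤ 1 := by
      simp only [bpM]
      rw [jac_sv]
      exact opn_one_le
    refine ⟨by rwa [jac_H_zero], h1.trans (by norm_num),
      (grad_ons hβ (vn_bpM β J y x 0) h1).trans (by norm_num)⟩
  | succ k ih =>
    obtain ⟨K, hK, h⟩ := ih
    obtain ⟨K₁, hK₁, e₁⟩ : ∃ K₁ : ℝ, 1 ≤ K₁ ∧ K₁ = 1 * K + 2 * K ^ 2 := ⟨_, by nlinarith, rfl⟩
    obtain ⟨K₂, hK₂, e₂⟩ : ∃ K₂ : ℝ, 1 ≤ K₂ ∧ K₂ = 2 * K₁ + 2 * K₁ ^ 2 := ⟨_, by nlinarith, rfl⟩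
    have hKK : 0 ≤ K * (2 * K₂) := by positivity
    refine ⟨6 * K₁ + (1 * K + (K₂ + K * (2 * K₂))), by linarith, fun n β J y x hβ hJ => ?_⟩
    obtain ⟨h1, h2, -⟩ := h n β J y x hβ hJ
    have h3 : opn (jac (fun z => bpM β J y z (k + 1)) x) ≤ K₁ := by
      simp only [bpM_succ]
      have a1 := opn_le_of_sq (by norm_num) (mag_err (fun z => bpH β J y z k) x)
      have a2 := opn_mul_le' (opn_diagonal_le zero_le_one (abs_dd_le (bpH β J y x k))) h1
      have a3 := pow_le_pow_left₀ (opn_nonneg _) h1 2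
      have a4 := opn_add_le (diagonal (dd (bpH β J y x k)) * jac (fun z => bpH β J y z k) x)
        (jac (fun z => mag (bpH β J y z k)) x -
          diagonal (dd (bpH β J y x k)) * jac (fun z => bpH β J y z k) x)
      rw [add_sub_cancel] at a4
      linarith
    have h4 := (grad_ons hβ (vn_bpM β J y x (k + 1)) h3).trans_eq e₂.symm
    refine ⟨?_, by linarith, by linarith⟩
    rw [jac_H_succ]
    exact (opn_sub_le _ _).trans (add_le_add (opn_mul_le' hJ h3) ((opn_add_le _ _).trans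
      (add_le_add (opn_smul_le' (abs_ons_le hβ (vn_bpM β J y x _)) h2)
        ((opn_le_fro _).trans (fro_rest x (vn_bpM β J y x k) h2 h4)))))

namespace BpJac

/-- A property of the data for all small `ω`. -/
def Ev (P : ∀ n : ℕ, ℝ → Mat n → Vec n → Cube n → Prop) : Prop :=
  ∀ᶠ ω : ℝ in 𝓝[>] (0 : ℝ), ∀ (n : ℕ) (β : ℝ) (J : Mat n) (y : Vec n) (x : Cube n), β ^ 2 ≤ 1 →
    opn J ≤ 6 → 1 ≤ ω * n → W1 β J ω → P n β J y x

/-- Closeness of the Jacobians to Wick words. -/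
def Cl (k : ℕ) (η : ℝ) (n : ℕ) (β : ℝ) (J : Mat n) (y : Vec n) (x : Cube n) : Prop :=
  fro (jac (fun z => bpH β J y z k) x - wick β J (1 :: kL (fun j => dd (bpH β J y x j)) k)) ≤
      η * √(n : ℝ) ∧
    fro (jac (fun z => bpM β J y z k) x - wick β J (kL (fun j => dd (bpH β J y x j)) k)) ≤
      η * √(n : ℝ)

lemma thin_of (k : ℕ) (h : ∀ η, 0 < η → Ev (Cl k η)) {η : ℝ} (hη : 0 < η) :
    Ev fun n β J y x => ∑ j, ∑ r, jac (fun z => bpH β J y z k) x j r ^ 4 ≤ η * n := by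
  obtain ⟨K₀, hK₀, hb⟩ := bp_bound k
  obtain ⟨K, hK, hK1, hK2⟩ : ∃ K : ℝ, 0 < K ∧ K₀ ≤ K ∧ 7 ^ (k + 2) ≤ K :=
    ⟨max K₀ (7 ^ (k + 2)), lt_max_of_lt_right (by positivity), le_max_left _ _, le_max_right _ _⟩
  filter_upwards [h (√η / (2 * K)) (by positivity), self_mem_nhdsWithin,
    ev_small (c := 2 * K ^ 3) (half_pos hη), ev_small (c := (k + 2 : ℕ)) one_pos]
    with ω h1 h2 h3 h4 n β J y x hβ hJ hn hW
  have hl := bdd_kL (D := fun j => dd (bpH β J y x j)) (fun j => abs_dd_le _) k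
  have hlen : (1 :: kL (fun j => dd (bpH β J y x j)) k).length = k + 2 := by
    rw [List.length_cons, length_kL]
  have h5 := hW _ (by omega) (by rw [hlen, le_div_iff₀ h2]; exact h4) hl
  have h6 := opn_wick_le hβ J _ hl
  rw [hlen] at h6
  have h7 := thin ((hb n β J y x hβ hJ).1.trans hK1) (h6.trans
    ((pow_le_pow_left₀ (by linarith [opn_nonneg J]) (by linarith) _).trans hK2))
    (h1 n β J y x hβ hJ hn hW).1 h5
  refine h7.trans (mul_le_mul_of_nonneg_right ?_ (Nat.cast_nonneg n))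
  have h8 : 2 * K ^ 2 * (√η / (2 * K)) ^ 2 = η / 2 := by
    rw [div_pow, Real.sq_sqrt hη.le]
    field_simp
  linarith

lemma close (k : ℕ) : ∀ η, 0 < η → Ev (Cl k η) := by
  induction k with
  | zero =>
    refine fun η hη => Eventually.of_forall fun ω n β J y x _ _ _ _ => ⟨?_, ?_⟩
    · rw [jac_H_zero]
      simp only [kL, wick, diag_one, one_mul, mul_one, smul_zero, sub_zero, sub_self, fro_zero]
      positivity
    · simp only [bpM]
      rw [jac_sv]
      simp only [kL, wick, diag_one, sub_self, fro_zero]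
      positivity
  | succ k ih =>
    intro η hη
    obtain ⟨e, he, rfl⟩ : ∃ e : ℝ, 0 < e ∧ η = 20 * e := ⟨η / 20, by positivity, by ring⟩
    obtain ⟨K, hK, hb⟩ := bp_bound k
    obtain ⟨L, hL, hb'⟩ := bp_bound (k + 1)
    filter_upwards [ih e he, thin_of k ih (pow_pos he 2),
      ev_small (c := (L + K * (2 * L)) ^ 2) (pow_pos he 2)]
      with ω h1 h2 h3 n β J y x hβ hJ hn hW
    obtain ⟨h4, h5⟩ := h1 n β J y x hβ hJ hn hW
    have h6 := h2 n β J y x hβ hJ hn hW
    have hn0 : 0 < n := by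
      rcases Nat.eq_zero_or_pos n with rfl | h
      · norm_num at hn
      · exact h
    have hs := Real.sqrt_nonneg (n : ℝ)
    have hs2 := Real.sq_sqrt (Nat.cast_nonneg (α := ℝ) n)
    have h7 : L + K * (2 * L) ≤ e * √(n : ℝ) := by
      refine le_of_sq_le_sq ?_ (by positivity)
      rw [mul_pow, hs2]
      have a1 := mul_le_mul_of_nonneg_left hn (sq_nonneg (L + K * (2 * L)))
      have a2 := mul_le_mul_of_nonneg_right h3 (Nat.cast_nonneg (α := ℝ) n)
      linarith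
    have h8 : fro (jac (fun z => bpM β J y z (k + 1)) x -
        wick β J (kL (fun j => dd (bpH β J y x j)) (k + 1))) ≤ 3 * e * √(n : ℝ) := by
      have a1 : fro (jac (fun z => mag (bpH β J y z k)) x -
          diagonal (dd (bpH β J y x k)) * jac (fun z => bpH β J y z k) x) ≤
          2 * e * √(n : ℝ) := by
        refine le_of_sq_le_sq ?_ (by positivity)
        rw [fro_sq, mul_pow, mul_pow, hs2, mul_assoc]
        refine le_trans ?_ (mul_le_mul_of_nonneg_left h6 (by norm_num))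
        simp only [Finset.mul_sum]
        refine Finset.sum_le_sum fun j _ => Finset.sum_le_sum fun r _ => ?_
        rw [← sq_abs]
        refine (pow_le_pow_left₀ (abs_nonneg _) (mag_err _ x j r) 2).trans_eq ?_
        ring
      have a2 := fro_mul_le' (opn_diagonal_le zero_le_one (abs_dd_le (bpH β J y x k))) h4
      have a3 := (fro_add_le _ _).trans (add_le_add a1 a2)
      rw [mul_sub, sub_add_sub_cancel, wick_head, mul_one] at a3
      simp only [bpM_succ, kL]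
      linarith
    refine ⟨?_, h8.trans (by nlinarith)⟩
    have h9 := (fro_rest x (vn_bpM β J y x k) (hb n β J y x hβ hJ).2.1
      (hb' n β J y x hβ hJ).2.2).trans h7
    have h10 := fro_mul_le' hJ h8
    have h11 := fro_smul_le' (abs_ons_le hβ (vn_bpM β J y x (k + 1))) h5
    have h12 := (fro_sub_le _ _).trans (add_le_add h10 ((fro_add_le _ _).trans
      (add_le_add h11 h9)))
    refine le_trans (le_of_eq ?_) (h12.trans (by nlinarith))
    congr 1
    rw [jac_H_succ, mul_sub, smul_sub]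
    simp only [kL]
    rw [mul_wick, bpM_succ β J y x k, ons_mag hn0]
    abel

end BpJac

/-- The Jacobians are close to Wick words in Frobenius norm, and thin. Thinness of a Wick word `N`:
`∑ N⁴ ≤ K³ ∑_r max_j |N j r| ≤ K³ ω n` by `W1`; a perturbation `R` with bounded entries has
`∑ R⁴ ≤ K² fro R ^ 2`. Use `wick_head`, `ons_mag`, `bpM_succ`. -/
theorem bp_jac (k : ℕ) {η : ℝ} (hη : 0 < η) : ∃ ω : ℝ, 0 < ω ∧
    ∀ (n : ℕ) (β : ℝ) (J : Mat n) (y : Vec n) (x : Cube n), β ^ 2 ≤ 1 → opn J ≤ 6 → 1 ≤ ω * n →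
      W1 β J ω →
      fro (jac (fun z => bpH β J y z k) x - wick β J (1 :: kL (fun j => dd (bpH β J y x j)) k)) ≤
        η * √(n : ℝ) ∧
      fro (jac (fun z => bpM β J y z k) x - wick β J (kL (fun j => dd (bpH β J y x j)) k)) ≤
        η * √(n : ℝ) ∧
      ∑ j, ∑ r, jac (fun z => bpH β J y z k) x j r ^ 4 ≤ η * n := by
  have h := ((close k η hη).and (thin_of k (close k) hη)).and self_mem_nhdsWithin
  obtain ⟨ω, ⟨h1, h2⟩, h3⟩ := h.exists
  exact ⟨ω, h3, fun n β J y x hβ hJ hn hW => ⟨(h1 n β J y x hβ hJ hn hW).1,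
    (h1 n β J y x hβ hJ hn hW).2, h2 n β J y x hβ hJ hn hW⟩⟩

end Vale.Agent.P150
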