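import Vale.Agent.P150.BpMainAux2

/-! Approximate DLR equations give approximate TAP solutions. -/

open MeasureTheory ProbabilityTheory Matrix Filter Topology
open scoped ENNReal NNReal

namespace Vale.Agent.P150

namespace BpMain

open LLAlg

variable (S : Stein)

def KerA (k : ℕ) : Prop := Sm fun c η => Ker c.ν (c.dl k) (c.A S k) η

def KerY (k : ℕ) : Prop := Sm fun c η => Ker c.ν (c.U k) (c.Y S k) η

def SV (k : ℕ) : Prop := Sm fun c η => ∑ x, c.ν x * (c.s x k - c.V S k x) ^ 2 ≤ η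

theorem kerA_zero : KerA S 0 := by
  refine Sm.of_mul (L := 3) (by norm_num) fun e he => ?_
  filter_upwards [ev_ok (pow_pos he 2)] with c hc
  have h := ker_base c.hν c.h1 c.h0 (by positivity) hc.2.2
  rw [Real.sqrt_sq he.le] at h
  exact h

theorem sv_zero : SV S 0 := fun η hη => Eventually.of_forall fun c => by
  simp only [c.s_zero _ S, sub_self]
  simpa using hη.le

variable {S}

theorem kerY_zero (h : KerA S 0) : KerY S 0 := by
  obtain ⟨K, hK, h1, h2⟩ := ((eventually_ge_atTop 1).and ((bs 0).and (bAYV S 0))).exists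
  refine Sm.of_mul (L := 6 + 4 * K + 3 * K ^ 2) (by positivity) fun e he => ?_
  filter_upwards [h e he, ev_n (pow_pos he 2)] with c hc hn
  have a1 := hc.mulVec c.hs c.hJ he.le
  have a2 := hc.smul c.hν c.h1 he.le hK he hn (fun x => (c.abs_s x 0).trans hK) (h1 c)
    fun x => (h2 c x).1
  rw [show c.U 0 = _ from funext fun x => c.U_zero x]
  exact (a1.add a2).mono (le_of_eq (by ring))

theorem kerY_succ {k : ℕ} (h : KerA S k) (h' : KerA S (k + 1)) : KerY S (k + 1) := by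
  obtain ⟨K, hK, h1, h2, h3, h4⟩ := ((eventually_ge_atTop 1).and ((bs (k + 1)).and
    ((bb (k + 1)).and ((bAYV S k).and (bAYV S (k + 1)))))).exists
  refine Sm.of_mul (L := 6 + 8 * K + 6 * K ^ 2) (by positivity) fun e he => ?_
  filter_upwards [h e he, h' e he, ev_n (pow_pos he 2)] with c hc hc' hn
  have a1 := hc'.mulVec c.hs c.hJ he.le
  have a2 := hc.smul c.hν c.h1 he.le hK he hn (fun x => (c.abs_b x (k + 1)).trans hK) (h2 c)
    fun x => (h3 c x).1
  have a3 := hc'.smul c.hν c.h1 he.le hK he hn (fun x => (c.abs_s x (k + 1)).trans hK) (h1 c)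
    fun x => (h4 c x).1
  rw [show c.U (k + 1) = _ from funext fun x => c.U_succ x k]
  exact ((a1.sub a2).add a3).mono (le_of_eq (by ring))

theorem kerA_succ {k : ℕ} (h : KerY S k) (h' : SV S k) : KerA S (k + 1) := by
  obtain ⟨K, hK, hCK, h1, h2, h3⟩ := ((eventually_ge_atTop 1).and ((eventually_ge_atTop S.C).and
    ((approx S k).and ((bP S k).and (bAYV S k))))).exists
  have hC := S.one_le
  refine Sm.of_mul (L := 4 * K + 2 * K * (9 * S.C * K ^ 2) + 2 * (11 * S.C * K ^ 3 + S.C))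
    (by positivity) fun e he => ?_
  have he2 := pow_pos he 2
  have he4 := pow_pos he 4
  filter_upwards [h e he, h' _ he2, ev_n he, ev_n he2, ev_n he4, ev_jac k he, ev_jac (k + 1) he,
    ev_jac k he2, ev_jac (k + 1) he2, ev_jac k he4, ev_jac (k + 1) he4, ev_orth S k he]
    with c hc hv n1 n2 n4 j1 j1' j2 j2' j4 j4' ho
  have a1 := hc.mul c.hν c.h1 he.le (φ := fun z => c.ev S.f z k) (t := 9 * S.C * K ^ 2 * e) hK
    (by positivity) (fun x j => (c.abs_P x S k j).trans hCK) (h2 c)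
    (fun x => (h1 c x).thin n4 (j4 x).2.2 (j4' x).2.2) fun x => (h3 c x).2.1
  have a2 := ker_small (V := fun x j => (c.Y S k x * (jac (fun z => c.ev S.f z k) x)ᵀ) j j -
      c.ev S.fu x k j * c.s x k) c.hν c.h1 (η := 2 * (11 * S.C * K ^ 3 + S.C) * e)
    (by positivity) (by
      have hn : (0 : ℝ) ≤ c.n := Nat.cast_nonneg _
      have key : ∀ x, vn (fun j => (c.Y S k x * (jac (fun z => c.ev S.f z k) x)ᵀ) j j -
          c.ev S.fu x k j * c.s x k) ^ 2 ≤ 2 * (11 * S.C * K ^ 3 * e) ^ 2 * c.n +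
          2 * S.C ^ 2 * c.n * (c.s x k - c.V S k x) ^ 2 := fun x => by
        have b1 := (h1 c x).diag he.le n2 n1 (j2 x).2.2 (j2' x).2.2 (h3 c x).2.1 (j1 x).1
          (j1' x).1 (ho x).2 (ho x).1
        have b2 := vn_mul_le' (a := fun _ => c.V S k x - c.s x k) (abs_nonneg _)
          (fun _ => le_rfl) (vn_le_sqrt (by linarith) (h1 c x).hp)
        have b3 := vn_le_add (f := fun j => (c.Y S k x * (jac (fun z => c.ev S.f z k) x)ᵀ) j j -
          c.ev S.fu x k j * c.s x k) (fun j => by ring) b1 b2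
        have b4 := pow_le_pow_left₀ (vn_nonneg _) b3 2
        refine b4.trans ?_
        rw [← sq_abs (c.s x k - c.V S k x), abs_sub_comm (c.s x k)]
        have b5 := Real.sq_sqrt hn
        generalize √(c.n : ℝ) = r at *
        rw [← b5]
        nlinarith [sq_nonneg (11 * S.C * K ^ 3 * e * r - |c.V S k x - c.s x k| * (S.C * r))]
      refine (Finset.sum_le_sum fun x _ => mul_le_mul_of_nonneg_left (key x) (c.hν x)).trans ?_
      simp only [mul_add, Finset.sum_add_distrib, ← Finset.sum_mul, c.h1, mul_left_comm (c.ν _),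
        ← Finset.mul_sum]
      have b1 := mul_le_mul_of_nonneg_left hv (by positivity : 0 ≤ 2 * S.C ^ 2 * (c.n : ℝ))
      have b2 : 0 ≤ (11 * S.C * K ^ 3 * e) ^ 2 * (c.n : ℝ) := by positivity
      have b3 : 0 ≤ S.C ^ 2 * e ^ 2 * (c.n : ℝ) := by positivity
      have b4 : 0 ≤ 11 * S.C * K ^ 3 * S.C * e ^ 2 * (c.n : ℝ) := by positivity
      linarith)
  have a3 := a1.add a2
  have e1 : c.dl (k + 1) = fun x => (c.ev S.f x k * c.U k x -
      fun j => (c.Y S k x * (jac (fun z => c.ev S.f z k) x)ᵀ) j j) +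
      fun j => (c.Y S k x * (jac (fun z => c.ev S.f z k) x)ᵀ) j j - c.ev S.fu x k j * c.s x k := by
    funext x j
    rw [c.dl_succ x S k j]
    simp only [Pi.add_apply, Pi.sub_apply, Pi.mul_apply]
    ring
  have e2 : c.A S (k + 1) = fun x => diagonal (c.ev S.f x k) * c.Y S k x + 0 := by
    funext x
    rw [add_zero]
    exact WickAlg.kA_succ _ _ _ _ _ k
  rw [e1, e2]
  exact a3.mono (le_of_eq (by ring))

variable (S)

theorem pair_succ (k : ℕ) : Sm fun c η => ∀ x,
    |∑ j, ∑ l, c.A S (k + 1) x j l * jac (c.M (k + 1)) x j l -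
      c.n * (avg (c.ev S.f x k * c.D x k) * c.V S k x)| ≤ η * c.n ∧
    |∑ j, ∑ l, c.A S (k + 1) x j l * jac (c.M (k + 2)) x j l| ≤ η * c.n := by
  obtain ⟨K, hK, h1⟩ := ((eventually_ge_atTop 1).and (bAYV S k)).exists
  have hC := S.one_le
  refine Sm.of_mul (L := S.C * (K + 1)) (by positivity) fun e he => ?_
  filter_upwards [ev_jac (k + 1) he, ev_jac (k + 2) he, ev_orth S k he] with c j1 j2 ho x
  have e2 : c.A S (k + 1) x = diagonal (c.ev S.f x k) * c.Y S k x := WickAlg.kA_succ _ _ _ _ _ k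
  rw [e2]
  refine ⟨pair_bound (by linarith) (c.abs_P x S k) (c.abs_D x k) (h1 c x).2.1
    (by rw [c.D_mul_W]; exact (j1 x).2.1) (ho x).2, ?_⟩
  have := pair_bound (V := 0) (N := jac (c.M (k + 2)) x) (by linarith) (c.abs_P x S k)
    (c.abs_D x (k + 1)) (h1 c x).2.1 (by rw [c.D_mul_W]; exact (j2 x).2.1)
    (by simpa using (ho x).1)
  simpa using this

theorem pair_next (k : ℕ) : Sm fun c η => ∀ x,
    |∑ j, ∑ l, c.A S k x j l * jac (c.M (k + 1)) x j l| ≤ η * c.n := by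
  cases k with
  | succ k => exact fun η hη => (pair_succ S k η hη).mono fun c hc x => (hc x).2
  | zero =>
    refine Sm.of_mul (L := 2) (by norm_num) fun e he => ?_
    filter_upwards [ev_jac 1 he] with c j1 x
    have h0 : (fun j => ((1 : Mat c.n) * (c.W 0 x)ᵀ) j j - 0) = 0 := by
      funext j
      simp [Ctx.W, kL, wick, c.h0]
    have := pair_bound (V := 0) (N := jac (c.M 1) x) (Y := 1) (W := c.W 0 x) (t := e) zero_le_one
      (c.abs_D x 0) (c.abs_D x 0) opn_one_le (by rw [c.D_mul_W]; exact (j1 x).2.1)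
      (by rw [h0, vn_zero]; positivity)
    rw [Matrix.mul_one, mul_zero, mul_zero, sub_zero] at this
    exact this.trans (le_of_eq (by ring))

variable {S}

theorem sv_succ {k : ℕ} (h : KerA S (k + 1)) : SV S (k + 1) := by
  obtain ⟨K₀, hK, h1, h2, h3, h4, h5⟩ := ((eventually_ge_atTop 1).and ((bs (k + 1)).and
    ((bgV S (k + 1)).and ((bAYV S (k + 1)).and ((bM (k + 1)).and (bM (k + 2))))))).exists
  obtain ⟨K, hKd⟩ : ∃ K, K = 2 * K₀ := ⟨_, rfl⟩
  have hK1 : 1 ≤ K := by linarith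
  refine Sm.of_mul (L := 4 * K ^ 2 + 3 * K ^ 3 + 2 * K) (by positivity) fun e he => ?_
  filter_upwards [h e he, ev_sqrt he, pair_succ S k e he] with c hc hs hp
  have hn : (0 : ℝ) < c.n := by have := c.hn; positivity
  have hw : ∀ x, |c.s x (k + 1) - c.V S (k + 1) x| ≤ K := fun x =>
    (abs_sub _ _).trans (by linarith [c.abs_s x (k + 1), (h3 c x).2.2])
  have a1 := hc.test c.hν c.h1 he.le (w := fun x => c.s x (k + 1) - c.V S (k + 1) x)
    (g := fun x => c.M (k + 1) x + c.M (k + 2) x) hK1 hw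
    (fun x r => by
      rw [grad_sub, Pi.sub_apply]
      have b1 := mul_le_mul_of_nonneg_right
        ((abs_sub (grad (fun z => c.s z (k + 1)) x r) (grad (c.V S (k + 1)) x r)).trans
          (add_le_add (abs_le_vn _ r) le_rfl)) (Real.sqrt_nonneg (c.n : ℝ))
      refine le_trans b1 ?_
      linarith [h1 c x, h2 c x r])
    (fun x j => (abs_add_le _ _).trans
      (by linarith [c.abs_M x (k + 1) j, c.abs_M x (k + 2) j]))
    (fun x => by
      rw [jac_add]
      exact (opn_add_le _ _).trans (by linarith [h4 c x, h5 c x]))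
    (fun x => by linarith [(h3 c x).1])
  have hβ0 := sq_nonneg c.β
  have key : ∀ x, c.n * (c.s x (k + 1) - c.V S (k + 1) x) ^ 2 ≤
      c.β ^ 2 * ((c.s x (k + 1) - c.V S (k + 1) x) *
        (c.dl (k + 1) x ⬝ᵥ (c.M (k + 1) x + c.M (k + 2) x) - ∑ j, ∑ r, c.A S (k + 1) x j r *
          jac (fun x => c.M (k + 1) x + c.M (k + 2) x) x j r)) + K * (2 * (e * c.n)) := fun x => by
    have b1 := c.dot_eq x (k + 1)
    have b2 : c.V S (k + 1) x = c.β ^ 2 * avg (c.ev S.f x k * c.D x k) * c.V S k x := rfl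
    have b3 : ∑ j, ∑ r, c.A S (k + 1) x j r * jac (fun x => c.M (k + 1) x + c.M (k + 2) x) x j r =
        ∑ j, ∑ r, c.A S (k + 1) x j r * jac (c.M (k + 1)) x j r +
          ∑ j, ∑ r, c.A S (k + 1) x j r * jac (c.M (k + 2)) x j r := by
      rw [jac_add]
      simp only [Matrix.add_apply, mul_add, Finset.sum_add_distrib]
    have b4 := abs_mul_le (show |c.β ^ 2| ≤ 1 by rw [abs_of_nonneg hβ0]; exact c.hβ)
      ((abs_add_le _ _).trans (add_le_add (hp x).1 (hp x).2))
    have b5 := (abs_le.1 (abs_mul_le (hw x) b4)).2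
    rw [b3]
    generalize ∑ j, ∑ r, c.A S (k + 1) x j r * jac (c.M (k + 1)) x j r = T1 at *
    generalize ∑ j, ∑ r, c.A S (k + 1) x j r * jac (c.M (k + 2)) x j r = T2 at *
    have b6 : c.β ^ 2 * ((c.s x (k + 1) - c.V S (k + 1) x) *
        (c.dl (k + 1) x ⬝ᵥ (c.M (k + 1) x + c.M (k + 2) x) - (T1 + T2))) =
        c.n * (c.s x (k + 1) - c.V S (k + 1) x) ^ 2 - (c.s x (k + 1) - c.V S (k + 1) x) *
          (c.β ^ 2 * (T1 - c.n * (avg (c.ev S.f x k * c.D x k) * c.V S k x) + T2)) := by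
      linear_combination (c.s x (k + 1) - c.V S (k + 1) x) * b1 +
        (c.s x (k + 1) - c.V S (k + 1) x) * c.n * b2
    linarith
  have a2 := Finset.sum_le_sum (s := Finset.univ) fun x _ =>
    mul_le_mul_of_nonneg_left (key x) (c.hν x)
  simp only [mul_add (c.ν _), Finset.sum_add_distrib, ← Finset.sum_mul, c.h1,
    mul_left_comm (c.ν _) (c.n : ℝ), mul_left_comm (c.ν _) (c.β ^ 2), ← Finset.mul_sum] at a2
  have a3 := (le_abs_self _).trans (abs_mul_le
    (show |c.β ^ 2| ≤ 1 by rw [abs_of_nonneg hβ0]; exact c.hβ) a1)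
  have a4 := mul_le_mul_of_nonneg_left hs (by positivity : 0 ≤ 3 * K ^ 3)
  refine le_of_mul_le_mul_left ?_ hn
  linarith

variable (S)

theorem all (k : ℕ) : KerA S k ∧ KerY S k ∧ SV S k := by
  induction k with
  | zero => exact ⟨kerA_zero S, kerY_zero (kerA_zero S), sv_zero S⟩
  | succ k ih =>
    have h := kerA_succ ih.2.1 ih.2.2
    exact ⟨h, kerY_succ ih.1 h, sv_succ h⟩

theorem final (k : ℕ) : Sm fun c η =>
    |∑ x, c.ν x * (c.dl k x ⬝ᵥ c.M (k + 1) x)| ≤ η * c.n ∧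
      vn (∑ x, c.ν x • c.dl k x) ≤ η * √(c.n : ℝ) := by
  obtain ⟨S⟩ := nonempty_stein
  obtain ⟨K, hK, h1, h2⟩ := ((eventually_ge_atTop 1).and ((bAYV S k).and (bM (k + 1)))).exists
  have hL : 1 ≤ 4 * K ^ 2 + 3 * K ^ 3 + 1 := by
    have : 0 ≤ 4 * K ^ 2 + 3 * K ^ 3 := by positivity
    linarith
  refine Sm.of_mul (L := 4 * K ^ 2 + 3 * K ^ 3 + 1) (by positivity) fun e he => ?_
  filter_upwards [(all S k).1 e he, ev_sqrt he, pair_next S k e he] with c hc hs hp
  refine ⟨?_, (hc.mean he.le).trans (mul_le_mul_of_nonneg_right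
    (le_mul_of_one_le_left he.le hL) (Real.sqrt_nonneg _))⟩
  have a1 := hc.test c.hν c.h1 he.le (w := fun _ => 1) (g := c.M (k + 1)) hK
    (fun _ => by simpa using hK) (fun x r => by rw [grad_const]; simp; linarith)
    (fun x j => (c.abs_M x (k + 1) j).trans hK) (h2 c) fun x => (h1 c x).1
  have a2 : |∑ x, c.ν x * ∑ j, ∑ l, c.A S k x j l * jac (c.M (k + 1)) x j l| ≤ e * c.n := by
    refine (Finset.abs_sum_le_sum_abs _ _).trans ?_
    calc _ ≤ ∑ x, c.ν x * (e * c.n) := Finset.sum_le_sum fun x _ => by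
          rw [abs_mul, abs_of_nonneg (c.hν x)]
          exact mul_le_mul_of_nonneg_left (hp x) (c.hν x)
      _ = _ := by rw [← Finset.sum_mul, c.h1, one_mul]
  simp only [one_mul, mul_sub, Finset.sum_sub_distrib] at a1
  have a3 := abs_add_le _ _ |>.trans (add_le_add a1 a2)
  rw [sub_add_cancel] at a3
  have a4 := mul_le_mul_of_nonneg_left hs (by positivity : 0 ≤ 3 * K ^ 3)
  linarith

end BpMain

/-- Fix `φ` from `exists_stein`. For `x` put `D j = dd (bpH j)`, `b j = ons (bpM j)` (`b 0 = 0`),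
`s j = b (j+1) - b j`, `P j i = φ (bpH j i) (bpH (j+1) i) (s j)`, `δ j = bpM j - bpM (j+1)`,
`A j = kA J D P b s j`, `Y j = kY …`, `V j = kV β D P j`. Prove by strong induction on `k`: for every
`η > 0` there is `ω > 0` such that under the hypotheses `Ker ν (δ k) (A k) η` and
`∑ ν (s k - V k)² ≤ η`. Base: `ker_base`, `s 0 = V 0`. Step: `U = J δ_k - b_k δ_{k-1} + s_k δ_k`
has kernel `Y k` (`Ker.mulVec`, `Ker.smul`, `bp_bound`, `kern_bound`) and equals
`bpH k - bpH (k+1) - s_k bpM (k+1)`, so `δ (k+1) = P k * U - s_k φu`. The Jacobian of `P k` is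
`diagonal φu * jac (bpH k) + diagonal φw * jac (bpH (k+1))` up to `o(sqrt n)` in `fro`, bounded and
thin; by `bp_jac`, `wick_orth`, `diag (Y (jac P)ᵀ) = φu * V k + o(sqrt n)`; apply `Ker.mul`,
`ker_small`. For the scalar claim use `Ker.test` with `w = s (k+1) - V (k+1)` and
`g = bpM (k+1) + bpM (k+2)`: `β² δ ⬝ g = n s (k+1)`, and the kernel term is `n V (k+1) / β²` up to
`o(n)` (multiply by `β²`). The second claim below is `Ker.test` with `w = 1`, the third `Ker.mean`. -/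
theorem bp_orth (k : ℕ) {η : ℝ} (hη : 0 < η) : ∃ ω : ℝ, 0 < ω ∧
    ∀ (n : ℕ) (β : ℝ) (J : Mat n) (y : Vec n) (ν : Cube n → ℝ), β ^ 2 ≤ 1 → J.IsSymm →
      (∀ i, J i i = 0) → opn J ≤ 6 → 1 ≤ ω * n → W1 β J ω → (∀ x, 0 ≤ ν x) → ∑ x, ν x = 1 →
      DLR ν J y ω →
      |∑ x, ν x * ((bpM β J y x k - bpM β J y x (k + 1)) ⬝ᵥ bpM β J y x (k + 1))| ≤ η * n ∧
      vn (∑ x, ν x • (bpM β J y x k - bpM β J y x (k + 1))) ≤ η * √(n : ℝ) := by
  obtain ⟨ω, h0, h⟩ := BpMain.final k η hη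
  refine ⟨ω, h0, fun n β J y ν hβ hs hd hJ hn hW hν h1 hD => ?_⟩
  have hn0 : 0 < n := by
    rcases Nat.eq_zero_or_pos n with h | h
    · subst h
      norm_num at hn
    · exact h
  exact h ⟨n, β, J, y, ν, hn0, hβ, hs, hd, hJ, hν, h1⟩ ⟨hn, hW, hD⟩

end Vale.Agent.P150
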