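import Vale.Agent.P150.Objs

/-! The solution of the one-site Stein equation. -/

open MeasureTheory ProbabilityTheory Matrix Filter Topology
open scoped ENNReal NNReal

namespace Vale.Agent.P150

variable {n : ℕ}

namespace BpPhi

/-- Bounds on a value, a perturbed value and a first-order increment. -/
structure T2 (K r x x' dx : ℝ) : Prop where
  h0 : |x| ≤ K
  h1 : |x'| ≤ K
  h2 : |dx| ≤ K * r
  h3 : |x' - x| ≤ K * r
  h4 : |x' - x - dx| ≤ K * r ^ 2

lemma abs_mul_le {a b A B : ℝ} (ha : |a| ≤ A) (hb : |b| ≤ B) : |a * b| ≤ A * B := by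
  rw [abs_mul]
  exact mul_le_mul ha hb (abs_nonneg _) ((abs_nonneg _).trans ha)

lemma T2.mul {K L r x x' dx y y' dy : ℝ} (hr : 0 ≤ r) (h : T2 K r x x' dx) (g : T2 L r y y' dy) :
    T2 (3 * (K * L)) r (x * y) (x' * y') (dx * y + x * dy) := by
  have hKL : 0 ≤ K * L := mul_nonneg ((abs_nonneg _).trans h.h0) ((abs_nonneg _).trans g.h0)
  have hr' := mul_nonneg hKL hr
  refine ⟨(abs_mul_le h.h0 g.h0).trans (by linarith), (abs_mul_le h.h1 g.h1).trans (by linarith),
    (abs_add_le _ _).trans ?_, ?_, ?_⟩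
  · linarith [abs_mul_le h.h2 g.h0, abs_mul_le h.h0 g.h2]
  · have e : x' * y' - x * y = (x' - x) * y' + x * (y' - y) := by ring
    rw [e]
    refine (abs_add_le _ _).trans ?_
    linarith [abs_mul_le h.h3 g.h1, abs_mul_le h.h0 g.h3]
  · have e : x' * y' - x * y - (dx * y + x * dy) =
        (x' - x - dx) * y' + dx * (y' - y) + x * (y' - y - dy) := by ring
    rw [e]
    refine (abs_add_three _ _ _).trans ?_
    linarith [abs_mul_le h.h4 g.h1, abs_mul_le h.h2 g.h3, abs_mul_le h.h0 g.h4]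

lemma T2.of_deriv {f f' f'' : ℝ → ℝ} (h1 : ∀ y, HasDerivAt f (f' y) y)
    (h2 : ∀ y, HasDerivAt f' (f'' y) y) {K r x x' : ℝ}
    (hb : ∀ y ∈ Set.uIcc x x', |f y| ≤ K ∧ |f' y| ≤ K ∧ |f'' y| ≤ K) (hr : |x' - x| ≤ r) :
    T2 K r (f x) (f x') (f' x * (x' - x)) := by
  have hx := Set.left_mem_uIcc (a := x) (b := x')
  have hx' := Set.right_mem_uIcc (a := x) (b := x')
  have hK : 0 ≤ K := (abs_nonneg _).trans (hb x hx).1
  have a1 : |f x' - f x| ≤ K * |x' - x| :=
    (convex_uIcc x x').norm_image_sub_le_of_norm_hasDerivWithin_le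
      (fun y _ => (h1 y).hasDerivWithinAt) (fun y hy => (hb y hy).2.1) hx hx'
  have a2 : ∀ y ∈ Set.uIcc x x', |f' y - f' x| ≤ K * r := fun y hy =>
    le_trans ((convex_uIcc x x').norm_image_sub_le_of_norm_hasDerivWithin_le
      (fun y _ => (h2 y).hasDerivWithinAt) (fun y hy => (hb y hy).2.2) hx hy)
      (mul_le_mul_of_nonneg_left ((Set.abs_sub_left_of_mem_uIcc hy).trans hr) hK)
  have a3 : |f x' - f' x * x' - (f x - f' x * x)| ≤ K * r * |x' - x| :=
    (convex_uIcc x x').norm_image_sub_le_of_norm_hasDerivWithin_le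
      (f := fun y => f y - f' x * y) (f' := fun y => f' y - f' x)
      (fun y _ => ((h1 y).sub ((hasDerivAt_id y).const_mul (f' x))).hasDerivWithinAt.congr_deriv
        (by rw [mul_one])) a2 hx hx'
  refine ⟨(hb x hx).1, (hb x' hx').1, abs_mul_le (hb x hx).2.1 hr,
    a1.trans (mul_le_mul_of_nonneg_left hr hK), ?_⟩
  have e : f x' - f x - f' x * (x' - x) = f x' - f' x * x' - (f x - f' x * x) := by ring
  rw [e, sq, ← mul_assoc]
  exact a3.trans (mul_le_mul_of_nonneg_left hr (mul_nonneg hK ((abs_nonneg _).trans hr)))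

noncomputable def ps (t u : ℝ) : ℝ := Real.exp (t * u) / Real.cosh u

noncomputable def ps1 (t u : ℝ) : ℝ := (t - Real.tanh u) * ps t u

noncomputable def ps2 (t u : ℝ) : ℝ := ((t - Real.tanh u) ^ 2 - (1 - Real.tanh u ^ 2)) * ps t u

noncomputable def ee (t σ : ℝ) : ℝ := Real.exp ((1 - t ^ 2) / 2 * σ) / 2

noncomputable def ee1 (t σ : ℝ) : ℝ := (1 - t ^ 2) / 2 * ee t σ

lemma hd_ps (t u : ℝ) : HasDerivAt (ps t) (ps1 t u) u := by
  have h := ((hasDerivAt_id u).const_mul t).exp.div (Real.hasDerivAt_cosh u) (Real.cosh_pos u).ne'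
  refine h.congr_deriv ?_
  have := Real.cosh_pos u
  simp only [ps1, ps, Real.tanh_eq_sinh_div_cosh, id]
  field_simp

lemma hd_ps1 (t u : ℝ) : HasDerivAt (ps1 t) (ps2 t u) u := by
  refine (((hasDerivAt_tanh u).const_sub t).mul (hd_ps t u)).congr_deriv ?_
  simp only [ps1, ps2]
  ring

lemma hd_ee (t σ : ℝ) : HasDerivAt (ee t) (ee1 t σ) σ := by
  refine ((((hasDerivAt_id σ).const_mul ((1 - t ^ 2) / 2)).exp).div_const 2).congr_deriv ?_
  simp only [ee1, ee, id]
  ring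

lemma ps_le {t : ℝ} (ht : |t| ≤ 1) (u : ℝ) : |ps t u| ≤ 10 ∧ |ps1 t u| ≤ 10 ∧ |ps2 t u| ≤ 10 := by
  have hc := Real.cosh_pos u
  have h : |ps t u| ≤ 2 := by
    rw [ps, abs_of_pos (div_pos (Real.exp_pos _) hc), div_le_iff₀ hc, ← Real.cosh_abs,
      Real.cosh_eq]
    have h1 : t * u ≤ |u| := (le_abs_self _).trans (by simpa using abs_mul_le ht (le_refl |u|))
    linarith [Real.exp_le_exp.2 h1, Real.exp_pos (-|u|)]
  have h2 := abs_lt.1 (Real.abs_tanh_lt_one u)
  have h3 := abs_le.1 ht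
  refine ⟨by linarith, (abs_mul_le (A := 5) (abs_le.2 ⟨by linarith, by linarith⟩) h).trans
    (by norm_num), (abs_mul_le (A := 5) (abs_le.2 ⟨?_, ?_⟩) h).trans (by norm_num)⟩
  · nlinarith [sq_nonneg (t - Real.tanh u), sq_nonneg (Real.tanh u)]
  · nlinarith

lemma ee_le {t σ : ℝ} (ht : |t| ≤ 1) (hσ : |σ| ≤ 1) :
    |ee t σ| ≤ 10 ∧ |ee1 t σ| ≤ 10 ∧ |(1 - t ^ 2) / 2 * ee1 t σ| ≤ 10 := by
  have h3 := abs_le.1 ht
  have h1 : |(1 - t ^ 2) / 2| ≤ 1 := abs_le.2 ⟨by nlinarith, by nlinarith⟩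
  have h : |ee t σ| ≤ 10 := by
    rw [ee, abs_of_pos (by positivity)]
    have h2 : (1 - t ^ 2) / 2 * σ ≤ 1 := (le_abs_self _).trans (by simpa using abs_mul_le h1 hσ)
    linarith [Real.exp_le_exp.2 h2, Real.exp_one_lt_d9]
  have h' : |ee1 t σ| ≤ 10 := (abs_mul_le h1 h).trans (by norm_num)
  exact ⟨h, h', (abs_mul_le h1 h').trans (by norm_num)⟩

lemma int_le {f : ℝ → ℝ} {K : ℝ} (h : ∀ t, |t| ≤ 1 → |f t| ≤ K) :
    |∫ t in (-1 : ℝ)..1, f t| ≤ K * 2 := by
  have := intervalIntegral.norm_integral_le_of_norm_le_const (a := -1) (b := 1) (f := f) (C := K)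
    fun t ht => h t (by
      rw [Set.uIoc_of_le (by norm_num)] at ht
      exact abs_le.2 ⟨ht.1.le, ht.2⟩)
  norm_num at this
  exact this

lemma abs_mul3 {a b c : ℝ} (ha : |a| ≤ 10) (hb : |b| ≤ 10) (hc : |c| ≤ 10) : |a * b * c| ≤ 9000 :=
  (abs_mul_le (abs_mul_le ha hb) hc).trans (by norm_num)

end BpPhi

open BpPhi in
/-- Take `φ u w σ = ∫ t in 0..1, cosh (t (u-w)) exp ((1-t²) σ/2) / (cosh u cosh w)`; define the
partial derivatives as integrals of the partial derivatives of the integrand, prove the Taylor bound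
pointwise in `t` (use `cosh (t (u-w)) ≤ 2 cosh u cosh w`), and get the identity from the fundamental
theorem of calculus for `t ↦ sinh (t (u-w)) exp ((1-t²) σ/2)` and
`tanh u - tanh w = sinh (u-w) / (cosh u cosh w)`. -/
theorem exists_stein : ∃ (φ φu φw φs : ℝ → ℝ → ℝ → ℝ) (C : ℝ), 1 ≤ C ∧
    (∀ u w σ, |σ| ≤ 1 → |φ u w σ| ≤ C ∧ |φu u w σ| ≤ C ∧ |φw u w σ| ≤ C ∧ |φs u w σ| ≤ C) ∧
    (∀ u w σ, Real.tanh u - Real.tanh w = (u - w - σ * Real.tanh u) * φ u w σ - σ * φu u w σ) ∧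
    ∀ u w σ u' w' σ', |σ| ≤ 1 → |σ'| ≤ 1 →
      |φ u' w' σ' - φ u w σ - (φu u w σ * (u' - u) + φw u w σ * (w' - w) + φs u w σ * (σ' - σ))| ≤
        C * ((u' - u) ^ 2 + (w' - w) ^ 2 + (σ' - σ) ^ 2) := by
  have c0 : ∀ u, Continuous fun t => ps t u := fun u => by unfold ps; fun_prop
  have c1 : ∀ u, Continuous fun t => ps1 t u := fun u =>
    (continuous_id.sub continuous_const).mul (c0 u)
  have c2 : ∀ u, Continuous fun t => BpPhi.ee t u := fun u => by unfold BpPhi.ee; fun_prop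
  have c3 : ∀ u, Continuous fun t => ee1 t u := fun u => Continuous.mul (by fun_prop) (c2 u)
  have i0 := fun u w σ =>
    (((c0 u).mul ((c0 w).comp continuous_neg)).mul (c2 σ)).intervalIntegrable (μ := volume) (-1) 1
  have i1 := fun u w σ =>
    (((c1 u).mul ((c0 w).comp continuous_neg)).mul (c2 σ)).intervalIntegrable (μ := volume) (-1) 1
  have i2 := fun u w σ =>
    (((c0 u).mul ((c1 w).comp continuous_neg)).mul (c2 σ)).intervalIntegrable (μ := volume) (-1) 1
  have i3 := fun u w σ =>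
    (((c0 u).mul ((c0 w).comp continuous_neg)).mul (c3 σ)).intervalIntegrable (μ := volume) (-1) 1
  simp only [Function.comp_def, Pi.mul_def] at i0 i1 i2 i3
  have hn : ∀ t : ℝ, |t| ≤ 1 → |-t| ≤ 1 := fun t ht => by rwa [abs_neg]
  refine ⟨fun u w σ => ∫ t in (-1 : ℝ)..1, ps t u * ps (-t) w * BpPhi.ee t σ,
    fun u w σ => ∫ t in (-1 : ℝ)..1, ps1 t u * ps (-t) w * BpPhi.ee t σ,
    fun u w σ => ∫ t in (-1 : ℝ)..1, ps t u * ps1 (-t) w * BpPhi.ee t σ,
    fun u w σ => ∫ t in (-1 : ℝ)..1, ps t u * ps (-t) w * ee1 t σ, 9000 * 2, by norm_num,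
    fun u w σ hσ => ⟨
      int_le fun t ht => abs_mul3 (ps_le ht u).1 (ps_le (hn t ht) w).1 (ee_le ht hσ).1,
      int_le fun t ht => abs_mul3 (ps_le ht u).2.1 (ps_le (hn t ht) w).1 (ee_le ht hσ).1,
      int_le fun t ht => abs_mul3 (ps_le ht u).1 (ps_le (hn t ht) w).2.1 (ee_le ht hσ).1,
      int_le fun t ht => abs_mul3 (ps_le ht u).1 (ps_le (hn t ht) w).1 (ee_le ht hσ).2.1⟩,
    fun u w σ => ?_, fun u w σ u' w' σ' hσ hσ' => ?_⟩
  · have hu := Real.cosh_pos u
    have hw := Real.cosh_pos w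
    have hd : ∀ t, HasDerivAt (fun t => ps t u * ps (-t) w * BpPhi.ee t σ)
        ((u - w - σ * Real.tanh u) * (ps t u * ps (-t) w * BpPhi.ee t σ) -
          σ * (ps1 t u * ps (-t) w * BpPhi.ee t σ)) t := fun t => by
      have a1 := ((hasDerivAt_id t).mul_const u).exp.div_const (Real.cosh u)
      have a2 := ((hasDerivAt_id t).neg.mul_const w).exp.div_const (Real.cosh w)
      have a3 := ((((hasDerivAt_pow 2 t).const_sub 1).div_const 2).mul_const σ).exp.div_const 2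
      refine ((a1.mul a2).mul a3).congr_deriv ?_
      simp only [ps1, ps, BpPhi.ee, id, Pi.mul_apply, Pi.neg_apply]
      push_cast
      ring
    beta_reduce
    rw [← intervalIntegral.integral_const_mul, ← intervalIntegral.integral_const_mul,
      ← intervalIntegral.integral_sub ((i0 u w σ).const_mul _) ((i1 u w σ).const_mul _),
      intervalIntegral.integral_eq_sub_of_hasDerivAt (fun t _ => hd t)
        (((i0 u w σ).const_mul _).sub ((i1 u w σ).const_mul _))]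
    simp only [ps, BpPhi.ee, Real.tanh_eq_sinh_div_cosh, one_mul, neg_neg, neg_mul, one_pow,
      even_two, Even.neg_pow, sub_self, zero_div, zero_mul, Real.exp_zero]
    rw [← Real.cosh_add_sinh, ← Real.cosh_add_sinh w, ← Real.cosh_sub_sinh, ← Real.cosh_sub_sinh]
    field_simp
    ring
  · set r := √((u' - u) ^ 2 + (w' - w) ^ 2 + (σ' - σ) ^ 2) with hr
    have hr0 : 0 ≤ r := Real.sqrt_nonneg _
    have r1 : |u' - u| ≤ r := Real.abs_le_sqrt (by nlinarith [sq_nonneg (w' - w), sq_nonneg (σ' - σ)])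
    have r2 : |w' - w| ≤ r := Real.abs_le_sqrt (by nlinarith [sq_nonneg (u' - u), sq_nonneg (σ' - σ)])
    have r3 : |σ' - σ| ≤ r := Real.abs_le_sqrt (by nlinarith [sq_nonneg (w' - w), sq_nonneg (u' - u)])
    have r4 : r ^ 2 = (u' - u) ^ 2 + (w' - w) ^ 2 + (σ' - σ) ^ 2 := Real.sq_sqrt (by positivity)
    beta_reduce
    rw [← intervalIntegral.integral_mul_const, ← intervalIntegral.integral_mul_const,
      ← intervalIntegral.integral_mul_const,
      ← intervalIntegral.integral_add ((i1 u w σ).mul_const _) ((i2 u w σ).mul_const _),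
      ← intervalIntegral.integral_add (((i1 u w σ).mul_const _).add ((i2 u w σ).mul_const _))
        ((i3 u w σ).mul_const _),
      ← intervalIntegral.integral_sub (i0 u' w' σ') (i0 u w σ),
      ← intervalIntegral.integral_sub ((i0 u' w' σ').sub (i0 u w σ))
        ((((i1 u w σ).mul_const _).add ((i2 u w σ).mul_const _)).add ((i3 u w σ).mul_const _)),
      ← r4, mul_right_comm]
    refine int_le fun t ht => ?_
    have b1 := T2.of_deriv (hd_ps t) (hd_ps1 t) (fun y _ => ps_le ht y) r1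
    have b2 := T2.of_deriv (hd_ps (-t)) (hd_ps1 (-t)) (fun y _ => ps_le (hn t ht) y) r2
    have b3 := T2.of_deriv (hd_ee t) (fun y => (hd_ee t y).const_mul ((1 - t ^ 2) / 2))
      (fun y hy => ee_le ht (abs_le.2 (Set.uIcc_subset_Icc (abs_le.1 hσ) (abs_le.1 hσ') hy))) r3
    refine le_trans (le_of_eq ?_) (((b1.mul hr0 b2).mul hr0 b3).h4.trans (le_of_eq (by ring)))
    congr 1
    ring

end Vale.Agent.P150
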