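import Vale.Agent.P150.LLCav

/-! From the Schwinger-Dyson errors to the local law; determinant bound. -/

open MeasureTheory ProbabilityTheory Matrix Filter Topology
open scoped ENNReal NNReal

namespace Vale.Agent.P150

variable {n : ℕ}

namespace LLAlg

theorem avg_add (u v : Vec n) : avg (fun i => u i + v i) = avg u + avg v := by
  simp only [avg, Finset.sum_add_distrib, add_div]

theorem avg_sub (u v : Vec n) : avg (fun i => u i - v i) = avg u - avg v := by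
  simp only [avg, Finset.sum_sub_distrib, sub_div]

theorem avg_mul (c : ℝ) (u : Vec n) : avg (fun i => c * u i) = c * avg u := by
  simp only [avg, ← Finset.mul_sum, mul_div_assoc]

theorem avg_const (hn : 0 < n) (c : ℝ) : avg (fun _ : Fin n => c) = c := by
  have : (n : ℝ) ≠ 0 := by positivity
  simp only [avg, Finset.sum_const, Finset.card_univ, Fintype.card_fin, nsmul_eq_mul]
  field_simp

theorem avg_mono {u v : Vec n} (h : ∀ i, u i ≤ v i) : avg u ≤ avg v :=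
  div_le_div_of_nonneg_right (Finset.sum_le_sum fun i _ => h i) (Nat.cast_nonneg n)

theorem avg_nonneg {u : Vec n} (h : ∀ i, 0 ≤ u i) : 0 ≤ avg u :=
  div_nonneg (Finset.sum_nonneg fun i _ => h i) (Nat.cast_nonneg n)

theorem avg_dom (hn : 0 < n) {D : Vec n} (hD : Dom D) : 0 ≤ avg D ∧ avg D ≤ 1 :=
  ⟨avg_nonneg fun i => (hD i).1.le, (avg_mono fun i => (hD i).2).trans (avg_const hn 1).le⟩

theorem tr_eq (A : Mat n) : tr A = avg fun i => A i i := rfl

theorem abs_avg_le (hn : 0 < n) (u : Vec n) : |avg u| ≤ vn u / √(n : ℝ) := by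
  have h0 : (0 : ℝ) < n := by positivity
  have h1 : 0 < √(n : ℝ) := Real.sqrt_pos.2 h0
  have h2 : √(n : ℝ) * √(n : ℝ) = n := Real.mul_self_sqrt h0.le
  have h3 := (Finset.abs_sum_le_sum_abs u Finset.univ).trans (sum_abs_le u)
  rw [avg, abs_div, abs_of_pos h0, div_le_div_iff₀ h0 h1]
  calc |∑ i, u i| * √(n : ℝ) ≤ √(n : ℝ) * vn u * √(n : ℝ) :=
        mul_le_mul_of_nonneg_right h3 h1.le
    _ = vn u * (√(n : ℝ) * √(n : ℝ)) := by ring
    _ = vn u * n := by rw [h2]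

theorem vn_mul_le' {a e : Vec n} {M C : ℝ} (hM : 0 ≤ M) (ha : ∀ i, |a i| ≤ M) (he : vn e ≤ C) :
    vn (fun i => a i * e i) ≤ M * C :=
  (vn_mul_le hM ha).trans (mul_le_mul_of_nonneg_left he hM)

theorem abs_avg_mul_le (hn : 0 < n) {a e : Vec n} {M C : ℝ} (hM : 0 ≤ M) (ha : ∀ i, |a i| ≤ M)
    (he : vn e ≤ C) : |avg fun i => a i * e i| ≤ M * C / √(n : ℝ) :=
  (abs_avg_le hn _).trans
    (div_le_div_of_nonneg_right (vn_mul_le' hM ha he) (Real.sqrt_nonneg _))

theorem vn_small (hn : 0 < n) {γ g M : ℝ} {z : Vec n} (hγ : |γ| ≤ g / √(n : ℝ)) (hM : 0 ≤ M)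
    (hz : ∀ i, |z i| ≤ M) : vn (fun i => γ * z i) ≤ g * M := by
  have h1 : 0 < √(n : ℝ) := Real.sqrt_pos.2 (by positivity)
  have h2 := (abs_nonneg γ).trans hγ
  have h := vn_le_sqrt (u := fun i => γ * z i) (c := g / √(n : ℝ) * M) (mul_nonneg h2 hM)
    fun i => by rw [abs_mul]; exact mul_le_mul hγ (hz i) (abs_nonneg _) h2
  refine h.trans (le_of_eq ?_)
  field_simp

theorem vn_le_add {f a b : Vec n} {A B : ℝ} (h : ∀ i, f i = a i + b i) (ha : vn a ≤ A)
    (hb : vn b ≤ B) : vn f ≤ A + B := by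
  have : f = a + b := funext h
  rw [this]
  exact (vn_add_le a b).trans (add_le_add ha hb)

theorem abs_tr_le (hn : 0 < n) (A : Mat n) : |tr A| ≤ opn A := by
  have h0 : (0 : ℝ) < n := by positivity
  rw [tr, abs_div, abs_of_pos h0, div_le_iff₀ h0, mul_comm]
  exact abs_trace_le_opn A

theorem abs_mul_le {a b A B : ℝ} (ha : |a| ≤ A) (hb : |b| ≤ B) : |a * b| ≤ A * B := by
  rw [abs_mul]
  exact mul_le_mul ha hb (abs_nonneg _) ((abs_nonneg _).trans ha)

/-- The self-consistent equation forces `γ = O(n^{-1/2})`. -/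
theorem gamma_bound (hn : 0 < n) {β K C s κ γ u : ℝ} {D y w eA eB : Vec n} (hβ : β ^ 2 < 1)
    (hK : 0 ≤ K) (hC : 0 ≤ C) (hκ0 : 0 ≤ κ) (hκ1 : κ ≤ 1) (hs0 : 0 ≤ s) (hs : s ≤ β ^ 2)
    (hD : Dom D) (hy : ∀ i, |y i| ≤ K) (hw0 : ∀ i, 0 ≤ w i) (hw : ∀ i, |w i| ≤ K * K)
    (hγ : γ = s * (avg (fun i => D i * y i) - avg D)) (hu : u = avg fun i => D i ^ 2 * w i)
    (h1 : ∀ i, (1 - γ * D i) * y i = 1 + κ * D i * eA i)
    (h2 : ∀ i, (1 - γ * D i) * w i = y i * (1 + s * u) + κ * eB i)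
    (hA : vn eA ≤ C) (hB : vn eB ≤ C) (hε : (K * K + K) * C / √(n : ℝ) ≤ (1 - β ^ 2) / 2) :
    |γ| ≤ 4 * C / (1 - β ^ 2) / √(n : ℝ) := by
  have hD1 : ∀ i, |D i| ≤ 1 := fun i => by rw [abs_of_pos (hD i).1]; exact (hD i).2
  have hκ : |κ| ≤ 1 := by rwa [abs_of_nonneg hκ0]
  have hκD : ∀ i, |κ * D i * D i| ≤ 1 := fun i => by
    simpa using abs_mul_le (abs_mul_le hκ (hD1 i)) (hD1 i)
  set q := avg fun i => D i ^ 2 * y i ^ 2 with hq
  set p := avg fun i => D i ^ 2 * y i with hp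
  have e1 : u + avg (fun i => (κ * D i * D i * (D i * w i)) * eA i) =
      (1 + s * u) * q + avg (fun i => (κ * D i * D i * y i) * eB i) := by
    conv_lhs => rw [hu]
    rw [hq, ← avg_mul, ← avg_add, ← avg_add]
    congr 1
    funext i
    linear_combination (D i ^ 2 * y i) * h2 i - (D i ^ 2 * w i) * h1 i
  have b1 := abs_avg_mul_le hn (a := fun i => κ * D i * D i * (D i * w i)) (M := K * K)
    (mul_nonneg hK hK) (fun i => by simpa using abs_mul_le (hκD i) (abs_mul_le (hD1 i) (hw i))) hA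
  have b2 := abs_avg_mul_le hn (a := fun i => κ * D i * D i * y i) (M := K) hK
    (fun i => by simpa using abs_mul_le (hκD i) (hy i)) hB
  set ε := (K * K + K) * C / √(n : ℝ) with hεd
  have hε0 : 0 ≤ ε := by positivity
  have hε1 : ε = K * K * C / √(n : ℝ) + K * C / √(n : ℝ) := by rw [hεd]; ring
  have hu0 : 0 ≤ u := hu ▸ avg_nonneg fun i => mul_nonneg (sq_nonneg _) (hw0 i)
  have hsu : 0 ≤ s * u := mul_nonneg hs0 hu0
  have e2 : (1 + s * u) * q ≤ u + ε := by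
    linarith [(abs_le.1 b1).2, (abs_le.1 b2).1]
  have e3 : s * q ≤ 1 + ε := by
    have : (1 + s * u) * (s * q) ≤ (1 + s * u) * (1 + ε) := by
      have h3 := mul_le_mul_of_nonneg_left e2 hs0
      have h4 : s * ε ≤ ε := mul_le_of_le_one_left hε0 (by linarith)
      nlinarith [mul_nonneg hsu hε0]
    exact le_of_mul_le_mul_left this (by linarith)
  have e4 : 2 * p ≤ q + 1 := by
    rw [hp, hq, ← avg_mul, ← avg_const hn 1, ← avg_add]
    refine avg_mono fun i => ?_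
    have h3 : D i ^ 2 ≤ 1 := by nlinarith [(hD i).1, (hD i).2]
    nlinarith [sq_nonneg (D i * y i - D i)]
  have e5 : (1 - β ^ 2) / 4 ≤ 1 - s * p := by
    have := mul_le_mul_of_nonneg_left e4 hs0
    nlinarith
  have e6 : avg (fun i => D i * y i) - γ * p = avg D + avg fun i => (κ * D i * D i) * eA i := by
    rw [hp, ← avg_mul, ← avg_sub, ← avg_add]
    congr 1
    funext i
    linear_combination D i * h1 i
  have b3 := abs_avg_mul_le hn (a := fun i => κ * D i * D i) (M := 1) zero_le_one hκD hA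
  have e7 : γ * (1 - s * p) = s * avg fun i => (κ * D i * D i) * eA i := by
    linear_combination hγ + s * e6
  have hs1 : |s| ≤ 1 := by rw [abs_of_nonneg hs0]; linarith
  have e8 : |γ| * (1 - s * p) ≤ C / √(n : ℝ) := by
    rw [← abs_of_nonneg (a := 1 - s * p) (by linarith), ← abs_mul, e7]
    simpa using abs_mul_le hs1 b3
  have hb : 0 < 1 - β ^ 2 := by linarith
  have e9 : |γ| * ((1 - β ^ 2) / 4) ≤ C / √(n : ℝ) :=
    (mul_le_mul_of_nonneg_left e5 (abs_nonneg γ)).trans e8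
  calc |γ| = |γ| * ((1 - β ^ 2) / 4) * (4 / (1 - β ^ 2)) := by field_simp
    _ ≤ C / √(n : ℝ) * (4 / (1 - β ^ 2)) := mul_le_mul_of_nonneg_right e9 (by positivity)
    _ = _ := by field_simp

/-- The constant of the local law. -/
noncomputable def cst (β K C : ℝ) : ℝ :=
  (C + 4 * C / (1 - β ^ 2) * K) * (3 + 2 * K + 3 * (K * K)) +
    4 * C / (1 - β ^ 2) * (3 * (K * K)) + 2 * C

theorem ll_scalar (hn : 0 < n) {β K C κ γ t u r z : ℝ} {D y w v eA eB eC : Vec n}
    (hβ : β ^ 2 < 1) (hK : 0 ≤ K) (hC : 0 ≤ C) (hκ0 : 0 ≤ κ) (hκ1 : κ ≤ 1) (hD : Dom D)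
    (hy : ∀ i, |y i| ≤ K) (hw0 : ∀ i, 0 ≤ w i) (hw : ∀ i, |w i| ≤ K * K)
    (hv : ∀ i, |v i| ≤ 3 * (K * K)) (ht : |t| ≤ K) (hu : |u| ≤ K * K) (hr : |r| ≤ 3 * (K * K))
    (td : t = avg fun i => D i * y i) (ud : u = avg fun i => D i ^ 2 * w i)
    (zd : z = avg (fun i => D i * eA i) + κ * β ^ 2 * t * t)
    (hγ : γ = κ ^ 2 * β ^ 2 * (t - avg D))
    (h1 : ∀ i, (1 - γ * D i) * y i = 1 + κ * D i * eA i)
    (h2 : ∀ i, (1 - γ * D i) * w i = y i * (1 + κ ^ 2 * β ^ 2 * u) + κ * eB i)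
    (h3 : ∀ i, (1 - γ * D i) * v i = eA i + κ * eC i +
      y i * (2 * (κ * β ^ 2) * t + κ ^ 2 * β ^ 2 * r))
    (hA : vn eA ≤ C) (hB : vn eB ≤ C) (hC' : vn eC ≤ C)
    (hε : (K * K + K) * C / √(n : ℝ) ≤ (1 - β ^ 2) / 2) :
    vn (fun i => w i - (1 + κ ^ 2 * β ^ 2 * u)) ≤ cst β K C ∧
    vn (fun i => v i - (2 * κ * β ^ 2 * avg D + κ ^ 2 * β ^ 2 * r)) ≤ cst β K C ∧
    |t - avg D| ≤ cst β K C / √(n : ℝ) ∧
    |z - κ * β ^ 2 * avg D ^ 2| ≤ cst β K C / √(n : ℝ) := by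
  have hD1 : ∀ i, |D i| ≤ 1 := fun i => by rw [abs_of_pos (hD i).1]; exact (hD i).2
  have hκ : |κ| ≤ 1 := by rwa [abs_of_nonneg hκ0]
  have hβ' : |β ^ 2| ≤ 1 := by rw [abs_of_nonneg (sq_nonneg β)]; exact hβ.le
  have hκβ : |κ * β ^ 2| ≤ 1 := by simpa using abs_mul_le hκ hβ'
  have hκ2 : κ ^ 2 ≤ 1 := by nlinarith
  have hs : κ ^ 2 * β ^ 2 ≤ β ^ 2 := mul_le_of_le_one_left (sq_nonneg β) hκ2
  have hs0 : 0 ≤ κ ^ 2 * β ^ 2 := by positivity
  have hs1 : |κ ^ 2 * β ^ 2| ≤ 1 := by rw [abs_of_nonneg hs0]; linarith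
  obtain ⟨hd0, hd1⟩ := avg_dom hn hD
  have hg := gamma_bound hn hβ hK hC hκ0 hκ1 hs0 hs hD hy hw0 hw (by rw [hγ, td]) ud h1 h2
    hA hB hε
  obtain ⟨g, hgd⟩ : ∃ g, g = 4 * C / (1 - β ^ 2) := ⟨_, rfl⟩
  obtain ⟨c, hc⟩ : ∃ c, c = C + g * K := ⟨_, rfl⟩
  have hg0 : 0 ≤ g := hgd ▸ div_nonneg (by positivity) (by linarith)
  have hc0 : 0 ≤ c := by rw [hc]; positivity
  have hKK : 0 ≤ K * K := by positivity
  have hcst : cst β K C = c * (3 + 2 * K + 3 * (K * K)) + g * (3 * (K * K)) + 2 * C := by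
    rw [hc, hgd, cst]
  rw [← hgd] at hg
  have v1 : vn (fun i => y i - 1) ≤ 1 * C + g * K :=
    vn_le_add (a := fun i => (κ * D i) * eA i) (b := fun i => γ * (D i * y i))
      (fun i => by linear_combination h1 i)
      (vn_mul_le' zero_le_one (fun i => by simpa using abs_mul_le hκ (hD1 i)) hA)
      (vn_small hn hg hK fun i => by simpa using abs_mul_le (hD1 i) (hy i))
  rw [one_mul, ← hc] at v1
  have v2 : |t - avg D| ≤ c / √(n : ℝ) := by
    have := abs_avg_mul_le hn zero_le_one hD1 v1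
    rw [one_mul] at this
    rw [td, ← avg_sub]
    convert this using 3
    funext i
    ring
  have hcK := mul_nonneg hc0 hK
  have hcKK := mul_nonneg hc0 hKK
  have hgKK := mul_nonneg hg0 hKK
  have hCc : C ≤ c := by rw [hc]; linarith [mul_nonneg hg0 hK]
  rw [hcst]
  refine ⟨?_, ?_, ?_, ?_⟩
  · have a1 : |1 + κ ^ 2 * β ^ 2 * u| ≤ 1 + K * K :=
      (abs_add_le _ _).trans (by simpa using abs_mul_le hs1 hu)
    have := vn_le_add (f := fun i => w i - (1 + κ ^ 2 * β ^ 2 * u))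
      (b := fun i => κ * eB i) (fun i => by linear_combination h2 i)
      (vn_le_add (f := fun i => γ * (D i * w i) + (1 + κ ^ 2 * β ^ 2 * u) * (y i - 1))
        (fun _ => rfl)
        (vn_small hn hg hKK fun i => by simpa using abs_mul_le (hD1 i) (hw i))
        (vn_mul_le' (by positivity) (fun _ => a1) v1))
      (vn_mul_le' zero_le_one (fun _ => hκ) hB)
    linarith
  · have a1 : |2 * (κ * β ^ 2) * t + κ ^ 2 * β ^ 2 * r| ≤ 2 * K + 3 * (K * K) := by
      refine (abs_add_le _ _).trans (add_le_add ?_ (by simpa using abs_mul_le hs1 hr))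
      have := abs_mul_le hκβ ht
      rw [mul_assoc, abs_mul, abs_two]
      linarith
    have a2 : ∀ _i : Fin n, |2 * (κ * β ^ 2)| ≤ 2 := fun _ => by
      rw [abs_mul, abs_two]; linarith
    have := vn_le_add (f := fun i => v i - (2 * κ * β ^ 2 * avg D + κ ^ 2 * β ^ 2 * r))
      (fun i => by linear_combination h3 i)
      (vn_le_add (f := fun i => γ * (D i * v i) +
          (2 * (κ * β ^ 2) * t + κ ^ 2 * β ^ 2 * r) * (y i - 1)) (fun _ => rfl)
        (vn_small hn hg (M := 3 * (K * K)) (by positivity)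
          fun i => by simpa using abs_mul_le (hD1 i) (hv i))
        (vn_mul_le' (by positivity) (fun _ => a1) v1))
      (vn_le_add (f := fun i => (eA i + κ * eC i) + (t - avg D) * (2 * (κ * β ^ 2)))
        (fun _ => rfl)
        (vn_le_add (f := fun i => eA i + κ * eC i) (fun _ => rfl) hA
          (vn_mul_le' zero_le_one (fun _ => hκ) hC'))
        (vn_small hn v2 zero_le_two a2))
    linarith
  · refine v2.trans (div_le_div_of_nonneg_right ?_ (Real.sqrt_nonneg _))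
    linarith
  · have a2 := abs_avg_mul_le hn zero_le_one hD1 hA
    have a3 : |t + avg D| ≤ K + 1 :=
      (abs_add_le _ _).trans (add_le_add ht (by rwa [abs_of_nonneg hd0]))
    have a4 := abs_mul_le hκβ (abs_mul_le v2 a3)
    have a5 : z - κ * β ^ 2 * avg D ^ 2 =
        avg (fun i => D i * eA i) + κ * β ^ 2 * ((t - avg D) * (t + avg D)) := by
      rw [zd]; ring
    rw [a5]
    refine ((abs_add_le _ _).trans (add_le_add a2 a4)).trans ?_
    have a6 : 1 * C / √(n : ℝ) + 1 * (c / √(n : ℝ) * (K + 1)) = (C + c * (K + 1)) / √(n : ℝ) := by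
      ring
    rw [a6]
    refine div_le_div_of_nonneg_right ?_ (Real.sqrt_nonneg _)
    linarith

theorem ll_core (hn : 0 < n) {β K C κ : ℝ} {J Y X : Mat n} {D eA eB eC : Vec n} (hβ : β ^ 2 < 1)
    (hK : 0 ≤ K) (hC : 0 ≤ C) (hκ0 : 0 ≤ κ) (hκ1 : κ ≤ 1) (hD : Dom D) (hJ : opn J ≤ 3)
    (hYK : opn Y ≤ K) (hX : X = diagonal D * Y) (hX' : X = Yᵀ * diagonal D)
    (hY : Y = 1 + (κ • J - (κ ^ 2 * β ^ 2 * avg D) • (1 : Mat n)) * X)
    (dA : ∀ i, eA i = (J * Yᵀ) i i - κ * β ^ 2 * tr X * Y i i)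
    (dB : ∀ i, eB i = (J * X * 1 * Yᵀ) i i - β ^ 2 * (κ * tr X * (X * 1 * Yᵀ) i i +
      0 * tr X * Y i i + κ * tr (X * 1 * X) * Y i i))
    (dC : ∀ i, eC i = (J * X * J * Yᵀ) i i - β ^ 2 * (κ * tr X * (X * J * Yᵀ) i i +
      1 * tr X * Y i i + κ * tr (X * J * X) * Y i i))
    (hA : vn eA ≤ C) (hB : vn eB ≤ C) (hC' : vn eC ≤ C)
    (hε : (K * K + K) * C / √(n : ℝ) ≤ (1 - β ^ 2) / 2) :
    vn (fun i => (Y * Yᵀ) i i - (1 + κ ^ 2 * β ^ 2 * tr (X * X))) ≤ cst β K C ∧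
    vn (fun i => (Y * J * Yᵀ) i i -
      (2 * κ * β ^ 2 * avg D + κ ^ 2 * β ^ 2 * tr (X * J * X))) ≤ cst β K C ∧
    |tr X - avg D| ≤ cst β K C / √(n : ℝ) ∧
    |tr (J * X) - κ * β ^ 2 * avg D ^ 2| ≤ cst β K C / √(n : ℝ) := by
  have hD1 : ∀ i, |D i| ≤ 1 := fun i => by rw [abs_of_pos (hD i).1]; exact (hD i).2
  have hXK : opn X ≤ K := by
    rw [hX]
    refine (opn_mul_le _ _).trans ?_
    have := mul_le_mul (opn_diagonal_le zero_le_one hD1) hYK (opn_nonneg _) zero_le_one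
    rwa [one_mul] at this
  have hYT : opn Yᵀ ≤ K := by rwa [opn_transpose]
  have n2 : ∀ {A B : Mat n}, opn A ≤ K → opn B ≤ K → opn (A * B) ≤ K * K := fun hA hB =>
    (opn_mul_le _ _).trans (mul_le_mul hA hB (opn_nonneg _) hK)
  have n3 : ∀ {A B : Mat n}, opn A ≤ K → opn B ≤ K → opn (A * J * B) ≤ 3 * (K * K) :=
    fun {A B} hA hB => by
      have h1 : opn (A * J) ≤ K * 3 := (opn_mul_le _ _).trans (mul_le_mul hA hJ (opn_nonneg _) hK)
      have h2 := (opn_mul_le (A * J) B).trans (mul_le_mul h1 hB (opn_nonneg _) (by positivity))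
      linarith
  have hw0 : ∀ i, 0 ≤ (Y * Yᵀ) i i := fun i => by
    rw [Matrix.mul_apply]
    exact Finset.sum_nonneg fun j _ => mul_self_nonneg (Y i j)
  have xd : ∀ i, X i i = D i * Y i i := fun i => by rw [hX, diagonal_mul]
  have jx : ∀ i, (J * X) i i = (J * Yᵀ) i i * D i := fun i => by
    rw [hX', ← Matrix.mul_assoc, mul_diagonal]
  have xs : ∀ (S : Mat n) i, (X * S * Yᵀ) i i = D i * (Y * S * Yᵀ) i i := fun S i => by
    rw [hX, Matrix.mul_assoc, Matrix.mul_assoc, diagonal_mul, Matrix.mul_assoc]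
  have yd : ∀ i, Y i i = 1 + κ * (J * X) i i - κ ^ 2 * β ^ 2 * avg D * X i i := fun i => by
    have := congrFun (congrFun hY i) i
    rw [Matrix.sub_mul, Matrix.smul_mul, Matrix.smul_mul, Matrix.one_mul] at this
    simpa [add_sub_assoc] using this
  have ys : ∀ (S : Mat n) i, (Y * S * Yᵀ) i i = (S * Yᵀ) i i + κ * (J * X * S * Yᵀ) i i -
      κ ^ 2 * β ^ 2 * avg D * (X * S * Yᵀ) i i := fun S i => by
    have h1 : Y * S * Yᵀ =
        (1 + (κ • J - (κ ^ 2 * β ^ 2 * avg D) • (1 : Mat n)) * X) * S * Yᵀ := by rw [← hY]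
    have := congrFun (congrFun h1 i) i
    simp only [Matrix.sub_mul, Matrix.add_mul, Matrix.smul_mul, Matrix.one_mul] at this
    simpa [add_sub_assoc] using this
  have td : tr X = avg fun i => D i * Y i i := by rw [tr_eq]; exact congrArg avg (funext xd)
  have ud : tr (X * X) = avg fun i => D i ^ 2 * (Y * Yᵀ) i i := by
    rw [tr_eq]
    refine congrArg avg (funext fun i => ?_)
    have h1 : X * X = diagonal D * (Y * Yᵀ) * diagonal D := by
      calc X * X = (diagonal D * Y) * (Yᵀ * diagonal D) := by rw [← hX, ← hX']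
        _ = _ := by simp only [Matrix.mul_assoc]
    rw [h1, mul_diagonal, diagonal_mul]
    ring
  have zd : tr (J * X) = avg (fun i => D i * eA i) + κ * β ^ 2 * tr X * tr X := by
    have : avg (fun i => D i * eA i) + κ * β ^ 2 * tr X * avg (fun i => D i * Y i i) =
        tr (J * X) := by
      rw [← avg_mul, ← avg_add, tr_eq (J * X)]
      refine congrArg avg (funext fun i => ?_)
      rw [jx i, dA i]
      ring
    rw [← this, ← td]
  refine ll_scalar hn (y := fun i => Y i i) (w := fun i => (Y * Yᵀ) i i)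
    (v := fun i => (Y * J * Yᵀ) i i) hβ hK hC hκ0 hκ1 hD
    (fun i => (abs_entry_le Y i i).trans hYK) hw0
    (fun i => (abs_entry_le _ i i).trans (n2 hYK hYT))
    (fun i => (abs_entry_le _ i i).trans (n3 hYK hYT)) ((abs_tr_le hn X).trans hXK)
    ((abs_tr_le hn _).trans (n2 hXK hXK)) ((abs_tr_le hn _).trans (n3 hXK hXK)) td ud zd rfl
    (fun i => ?_) (fun i => ?_) (fun i => ?_) hA hB hC' hε
  · have a1 := yd i
    rw [jx i, xd i] at a1
    rw [dA i]
    linear_combination a1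
  · have a1 := ys 1 i
    have a2 := xs 1 i
    have a3 := dB i
    simp only [Matrix.mul_one, Matrix.one_mul, transpose_apply] at a1 a2 a3
    rw [a2] at a1 a3
    rw [a3]
    linear_combination a1
  · have a1 := ys J i
    have a3 := dC i
    rw [xs J i] at a1 a3
    rw [a3, dA i]
    linear_combination a1

theorem vn_slice_le (e : Fin 3 × Fin n → ℝ) (t : Fin 3) : vn (fun i => e (t, i)) ≤ vn e := by
  refine Real.sqrt_le_sqrt ?_
  rw [Fintype.sum_prod_type]
  exact Finset.single_le_sum (f := fun s => ∑ i, e (s, i) ^ 2)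
    (fun _ _ => Finset.sum_nonneg fun _ _ => sq_nonneg _) (Finset.mem_univ t)

theorem eventually_div_sqrt_le (a : ℝ) {b : ℝ} (hb : 0 < b) :
    ∀ᶠ n : ℕ in atTop, a / √(n : ℝ) ≤ b := by
  have h : Tendsto (fun n : ℕ => a / √(n : ℝ)) atTop (𝓝 0) :=
    Tendsto.div_atTop tendsto_const_nhds
      (Real.tendsto_sqrt_atTop.comp tendsto_natCast_atTop_atTop)
  exact h.eventually (eventually_le_nhds hb)

end LLAlg

open LLAlg

/-- Put `γ = κ² β² (tr χ - avg D)`. From `ymat_eq`: `(1 - γ D_i) Y_ii = 1 + κ D_i eA_i` and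
`(1 - γ D_i) (Y Yᵀ)_ii = Y_ii (1 + κ² β² tr χ²) + κ eB_i`. Multiplying the second identity by
`D_i² Y_ii` and averaging gives `κ² β² avg (χ_ii²) ≤ 1 + O(n^{-1/2})`, hence
`κ² β² avg (D_i χ_ii) < 1`. Averaging `D_i` times the first identity:
`γ (1 - κ² β² avg (D_i χ_ii)) = O(n^{-1/2})`. So `γ = O(n^{-1/2})`, `Y_ii = 1` up to `O(1)` in `vn`,
and `Y S Yᵀ = S Yᵀ + κ J χ S Yᵀ - b χ S Yᵀ` gives the rest; `(J χ)_ii = D_i (J Yᵀ)_ii`. -/
theorem ll_alg {β K C : ℝ} (hβ : 0 < β) (hβ1 : β < 1) (hK : 1 ≤ K) (hC : 0 < C) :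
    ∃ C' : ℝ, 0 < C' ∧ ∀ᶠ n : ℕ in atTop, ∀ J : Mat n, J.IsSymm → opn J ≤ 3 →
      LLraw β J K C → LLaw β J K C' := by
  have hb : β ^ 2 < 1 := by nlinarith
  have hb' : 0 < 1 - β ^ 2 := by linarith
  have hK0 : 0 ≤ K := by linarith
  refine ⟨cst β K C, by unfold cst; positivity, ?_⟩
  filter_upwards [eventually_div_sqrt_le ((K * K + K) * C) (half_pos hb'), eventually_gt_atTop 0]
    with n hε hn J hJ hJ3 h κ hκ D hD hadm
  have he := h κ hκ D hD hadm
  refine ll_core hn hb hK0 hC.le hκ.1 hκ.2 hD hJ3 hadm.2 rfl ?_ (ymat_eq hadm)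
    (eA := eA β κ J D) (eB := eB β κ J D 0 1) (eC := eB β κ J D 1 J) (fun _ => rfl)
    (fun _ => rfl) (fun _ => rfl) ((vn_slice_le _ 0).trans he) ((vn_slice_le _ 1).trans he)
    ((vn_slice_le _ 2).trans he) hε
  have := (xmat_symm hJ hadm).eq
  rw [← this, xmat, transpose_mul, diagonal_transpose]

open scoped MatrixOrder in
/-- Concavity of `log det`. -/
theorem logdet_le {A B : Mat n} (hA : A.PosDef) (hB : B.PosDef) :
    Real.log B.det ≤ Real.log A.det + (A⁻¹ * (B - A)).trace := by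
  obtain ⟨P, hP⟩ := CStarAlgebra.nonneg_iff_eq_star_mul_self.mp hA.inv.posSemidef.nonneg
  have hM : (P * B * Pᴴ).PosSemidef := hB.posSemidef.mul_mul_conjTranspose_same P
  have hP' : A⁻¹ = Pᴴ * P := hP
  have hAd := hA.det_pos
  have hBd := hB.det_pos
  have hdet : (P * B * Pᴴ).det = B.det / A.det := by
    have h1 : (Pᴴ * P).det = (A.det)⁻¹ := by
      rw [← hP', Matrix.det_nonsing_inv, Ring.inverse_eq_inv]
    rw [det_mul] at h1
    rw [det_mul, det_mul, div_eq_mul_inv, ← h1]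
    ring
  have htr : (P * B * Pᴴ).trace = (A⁻¹ * (B - A)).trace + n := by
    rw [trace_mul_cycle, ← hP', Matrix.mul_sub, trace_sub,
      Matrix.nonsing_inv_mul A (isUnit_iff_ne_zero.2 hAd.ne'), trace_one]
    simp
  have h1 := hM.1.det_eq_prod_eigenvalues
  have h2 := hM.1.trace_eq_sum_eigenvalues
  simp only [RCLike.ofReal_real_eq_id, id] at h1 h2
  have hne : ∀ i ∈ Finset.univ, hM.1.eigenvalues i ≠ 0 := by
    rw [← Finset.prod_ne_zero_iff, ← h1, hdet]
    positivity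
  have h3 : Real.log (B.det / A.det) ≤ (A⁻¹ * (B - A)).trace := by
    rw [← hdet, h1, Real.log_prod hne]
    calc ∑ i, Real.log (hM.1.eigenvalues i) ≤ ∑ i, (hM.1.eigenvalues i - 1) :=
          Finset.sum_le_sum fun i hi => Real.log_le_sub_one_of_pos
            (lt_of_le_of_ne (hM.eigenvalues_nonneg i) (hne i hi).symm)
      _ = _ := by
          rw [Finset.sum_sub_distrib, ← h2, htr]
          simp
  rw [Real.log_div hBd.ne' hAd.ne'] at h3
  linarith

namespace LLAlg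

/-- The interpolating matrices. -/
noncomputable def amat (β κ : ℝ) (J : Mat n) (D : Vec n) : Mat n :=
  diagonal (fun i => 1 / D i) - lmat β κ J D

theorem amat_posDef {β c κ : ℝ} {J : Mat n} {D : Vec n} (hJ : J.IsSymm) (hc : 0 < c)
    (h : PosK β κ J c D) : (amat β κ J D).PosDef := by
  refine Matrix.PosDef.of_dotProduct_mulVec_pos ?_ fun u hu => ?_
  · ext i j
    by_cases hij : i = j
    · subst hij; simp
    · simp [amat, lmat, hij, Ne.symm hij, hJ.apply i j]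
  · have h1 : u ⬝ᵥ diagonal (fun i => 1 / D i) *ᵥ u = ∑ i, u i ^ 2 / D i := by
      simp only [dotProduct, mulVec_diagonal]
      exact Finset.sum_congr rfl fun i _ => by ring
    have h2 : 0 < u ⬝ᵥ u := by
      rw [dot_self]
      exact pow_pos (lt_of_le_of_ne (vn_nonneg u) fun h0 => hu (vn_eq_zero h0.symm)) 2
    have h3 := h u
    simp only [amat, lmat, star_trivial, sub_mulVec, smul_mulVec, one_mulVec, dotProduct_sub,
      dotProduct_smul, smul_eq_mul, h1]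
    nlinarith [mul_pos hc h2]

theorem step {β c C κ h : ℝ} {J : Mat n} {D : Vec n} (hn : 0 < n) (hβ : β ^ 2 ≤ 1) (hc : 0 < c)
    (hc1 : c ≤ 1 - β ^ 2) (hJ : J.IsSymm) (hJ3 : opn J ≤ 3) (hD : Dom D)
    (hL : LLaw β J (5 / c) C) (hP : PosK β 1 J c D) (hκ : 0 ≤ κ) (hh : 0 ≤ h) (h1 : κ + h ≤ 1) :
    Real.log (amat β (κ + h) J D).det ≤ Real.log (amat β κ J D).det +
      n * (β ^ 2 * avg D ^ 2 * (((κ + h) ^ 2 - κ ^ 2) / 2) + h ^ 2 / 2 +
        3 * h * (|C| / √(n : ℝ))) := by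
  have hκI : κ ∈ Set.Icc (0 : ℝ) 1 := ⟨hκ, by linarith⟩
  have p0 := posK_of_one hD hc1 hP hκI
  have p1 := posK_of_one hD hc1 hP (κ := κ + h) ⟨by linarith, h1⟩
  obtain ⟨hadm, -, hinv⟩ := adm_of_posK hβ hJ hJ3 hD hc (by nlinarith [sq_nonneg β]) hκI p0
  obtain ⟨-, -, l1, l2⟩ := hL κ hκI D hD hadm
  have hle := logdet_le (amat_posDef hJ hc p0) (amat_posDef hJ hc p1)
  have hi : (amat β κ J D)⁻¹ = xmat β κ J D := Matrix.inv_eq_right_inv hinv
  have hdiff : amat β (κ + h) J D - amat β κ J D =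
      (((κ + h) ^ 2 - κ ^ 2) * β ^ 2 * avg D) • (1 : Mat n) - h • J := by
    simp only [amat, lmat]
    module
  have hn0 : (0 : ℝ) < n := by positivity
  have htr : ((amat β κ J D)⁻¹ * (amat β (κ + h) J D - amat β κ J D)).trace =
      n * ((((κ + h) ^ 2 - κ ^ 2) * β ^ 2 * avg D) * tr (xmat β κ J D) -
        h * tr (J * xmat β κ J D)) := by
    rw [hi, hdiff, Matrix.mul_sub, Matrix.mul_smul, Matrix.mul_smul, Matrix.mul_one, trace_sub,
      trace_smul, trace_smul, trace_mul_comm]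
    simp only [tr, smul_eq_mul]
    field_simp
  rw [htr] at hle
  refine hle.trans (add_le_add le_rfl (mul_le_mul_of_nonneg_left ?_ hn0.le))
  obtain ⟨hd0, hd1⟩ := avg_dom hn hD
  have hCe : C / √(n : ℝ) ≤ |C| / √(n : ℝ) :=
    div_le_div_of_nonneg_right (le_abs_self C) (Real.sqrt_nonneg _)
  set e := |C| / √(n : ℝ)
  have he0 : 0 ≤ e := by positivity
  have m1 : tr (xmat β κ J D) ≤ avg D + e := by linarith [(abs_le.1 l1).2]
  have m2 : κ * β ^ 2 * avg D ^ 2 - e ≤ tr (J * xmat β κ J D) := by linarith [(abs_le.1 l2).1]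
  have hbd : β ^ 2 * avg D ≤ 1 := mul_le_one₀ hβ hd0 hd1
  have hbd2 : β ^ 2 * avg D ^ 2 ≤ 1 := mul_le_one₀ hβ (by positivity) (by nlinarith)
  have k0 : 0 ≤ (κ + h) ^ 2 - κ ^ 2 := by nlinarith
  have k1 : (κ + h) ^ 2 - κ ^ 2 ≤ 2 * h := by nlinarith
  have k2 : 0 ≤ ((κ + h) ^ 2 - κ ^ 2) * β ^ 2 * avg D := by positivity
  have k3 : ((κ + h) ^ 2 - κ ^ 2) * β ^ 2 * avg D ≤ 2 * h := by
    rw [mul_assoc]
    exact (mul_le_of_le_one_right k0 hbd).trans k1
  have k4 := mul_le_mul_of_nonneg_left m1 k2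
  have k5 := mul_le_mul_of_nonneg_left m2 hh
  have k6 := mul_le_mul_of_nonneg_right k3 he0
  have k7 := mul_le_mul_of_nonneg_right hbd2 (sq_nonneg h)
  nlinarith

end LLAlg

/-- Interpolate `A κ = diagonal (1/D) - lmat β κ J D` along `κ = j/L`, using `logdet_le`,
`posK_of_one`, `adm_of_posK` and the last two parts of `LLaw`; note
`1 - lmat * diagonal D = A * diagonal D` and `det (A 0) det (diagonal D) = 1`. -/
theorem det_bound {β c C δ : ℝ} (hβ : 0 < β) (hβ1 : β < 1) (hc : 0 < c) (hc1 : c ≤ 1 - β ^ 2)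
    (hδ : 0 < δ) : ∀ᶠ n : ℕ in atTop, ∀ (J : Mat n) (D : Vec n), J.IsSymm → opn J ≤ 3 → Dom D →
      LLaw β J (5 / c) C → PosK β 1 J c D →
      Real.exp (-(n * (β ^ 2 * avg D ^ 2 / 2 + δ))) ≤ |(ymat β 1 J D).det| := by
  have hb : β ^ 2 ≤ 1 := pow_le_one₀ hβ.le hβ1.le
  obtain ⟨L, hL⟩ := exists_nat_gt (1 / δ)
  have hL0 : (0 : ℝ) < L := lt_trans (by positivity) hL
  have hLδ : 1 / (L : ℝ) ≤ δ := by
    rw [div_lt_iff₀ hδ] at hL
    rw [div_le_iff₀ hL0]
    linarith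
  filter_upwards [eventually_div_sqrt_le |C| (b := δ / 6) (by positivity), eventually_gt_atTop 0]
    with n he hn J D hJ hJ3 hD hLL hP
  set e := |C| / √(n : ℝ)
  have key : ∀ j : ℕ, j ≤ L → Real.log (amat β (j / L) J D).det ≤ Real.log (amat β 0 J D).det +
      n * (β ^ 2 * avg D ^ 2 * (((j : ℝ) / L) ^ 2 / 2) + j * ((1 / L) ^ 2 / 2 + 3 * (1 / L) * e)) := by
    intro j
    induction j with
    | zero => intro _; simp
    | succ j ih =>
      intro hj
      have e1 : ((j + 1 : ℕ) : ℝ) / L = j / L + 1 / L := by push_cast; ring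
      have h1 : (j : ℝ) / L + 1 / L ≤ 1 := by
        rw [← e1, div_le_one hL0]
        exact_mod_cast hj
      have h2 := step hn hb hc hc1 hJ hJ3 hD hLL hP (κ := j / L) (h := 1 / L) (by positivity)
        (by positivity) h1
      have h3 := ih (by omega)
      rw [e1]
      push_cast
      nlinarith
  have k1 := key L le_rfl
  rw [div_self hL0.ne'] at k1
  have hn0 : (0 : ℝ) < n := by positivity
  have k2 : (L : ℝ) * ((1 / L) ^ 2 / 2 + 3 * (1 / L) * e) ≤ δ := by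
    have : (L : ℝ) * ((1 / L) ^ 2 / 2 + 3 * (1 / L) * e) = 1 / L / 2 + 3 * e := by field_simp
    rw [this]
    linarith
  have k3 : Real.log (amat β 1 J D).det ≤ Real.log (amat β 0 J D).det +
      n * (β ^ 2 * avg D ^ 2 / 2 + δ) :=
    k1.trans (add_le_add le_rfl (mul_le_mul_of_nonneg_left (by linarith) hn0.le))
  have p1 := (amat_posDef hJ hc hP).det_pos
  have p0 := (amat_posDef hJ hc (posK_of_one hD hc1 hP ⟨le_rfl, zero_le_one⟩)).det_pos
  have hdd : diagonal (fun i => 1 / D i) * diagonal D = (1 : Mat n) := by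
    rw [diagonal_mul_diagonal, ← diagonal_one]
    congr 1
    funext i
    exact one_div_mul_cancel (hD i).1.ne'
  have a0 : (amat β 0 J D).det * (diagonal D).det = 1 := by
    rw [← det_mul]
    simp only [amat, lmat, zero_smul, ne_eq, OfNat.ofNat_ne_zero, not_false_eq_true, zero_pow,
      zero_mul, sub_zero, hdd, det_one]
  have a1 : (ymat β 1 J D).det = (amat β 0 J D).det / (amat β 1 J D).det := by
    have : 1 - lmat β 1 J D * diagonal D = amat β 1 J D * diagonal D := by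
      rw [amat, Matrix.sub_mul, hdd]
    rw [ymat, Matrix.det_nonsing_inv, Ring.inverse_eq_inv, this, det_mul,
      eq_inv_of_mul_eq_one_left a0]
    field_simp
  rw [a1, abs_of_pos (div_pos p0 p1), ← Real.exp_log (div_pos p0 p1), Real.exp_le_exp,
    Real.log_div p0.ne' p1.ne']
  linarith

end Vale.Agent.P150
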