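import Vale.Agent.P150.BpJac
import Vale.Agent.P150.BpPhi
import Vale.Agent.P150.LLAlg

/-! Deterministic estimates for the main induction on belief propagation iterates. -/

open MeasureTheory ProbabilityTheory Matrix Filter Topology
open scoped ENNReal NNReal

namespace Vale.Agent.P150

variable {n : ℕ}

namespace BpMain

open LLAlg

/-- A solution of the one-site Stein equation. -/
structure Stein where
  f : ℝ → ℝ → ℝ → ℝ
  fu : ℝ → ℝ → ℝ → ℝ
  fw : ℝ → ℝ → ℝ → ℝ
  fs : ℝ → ℝ → ℝ → ℝ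
  C : ℝ
  one_le : 1 ≤ C
  bd : ∀ u w σ, |σ| ≤ 1 → |f u w σ| ≤ C ∧ |fu u w σ| ≤ C ∧ |fw u w σ| ≤ C ∧ |fs u w σ| ≤ C
  eq : ∀ u w σ, Real.tanh u - Real.tanh w = (u - w - σ * Real.tanh u) * f u w σ - σ * fu u w σ
  tay : ∀ u w σ u' w' σ', |σ| ≤ 1 → |σ'| ≤ 1 →
    |f u' w' σ' - f u w σ - (fu u w σ * (u' - u) + fw u w σ * (w' - w) + fs u w σ * (σ' - σ))| ≤
      C * ((u' - u) ^ 2 + (w' - w) ^ 2 + (σ' - σ) ^ 2)

theorem nonempty_stein : Nonempty Stein := by
  obtain ⟨f, fu, fw, fs, C, h1, h2, h3, h4⟩ := exists_stein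
  exact ⟨⟨f, fu, fw, fs, C, h1, h2, h3, h4⟩⟩

theorem grad_sub (f g : Cube n → ℝ) (x : Cube n) :
    grad (fun z => f z - g z) x = grad f x - grad g x := by
  funext r
  simp only [grad, Pi.sub_apply]
  ring

theorem grad_const (a : ℝ) (x : Cube n) (r : Fin n) : grad (fun _ => a) x r = 0 := by
  simp [grad]

theorem abs_grad_mul_le {f g : Cube n → ℝ} {M N : ℝ} (hf : ∀ z, |f z| ≤ M) (hg : ∀ z, |g z| ≤ N)
    (x : Cube n) (r : Fin n) :
    |grad (fun z => f z * g z) x r| ≤ M * |grad g x r| + N * |grad f x r| := by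
  have e : grad (fun z => f z * g z) x r =
      f (Function.update x r true) * grad g x r + g (Function.update x r false) * grad f x r := by
    simp only [grad]
    ring
  rw [e]
  exact (abs_add_le _ _).trans (add_le_add (abs_mul_le (hf _) le_rfl) (abs_mul_le (hg _) le_rfl))

theorem grad_avg (G : Cube n → Vec n) (x : Cube n) (r : Fin n) :
    grad (fun z => avg (G z)) x r = avg fun i => jac G x i r := by
  have : (fun i => jac G x i r) = fun i =>
      (1 / 2) * (G (Function.update x r true) i - G (Function.update x r false) i) := by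
    funext i
    simp only [jac, grad, of_apply]
    ring
  rw [this, avg_mul, avg_sub, grad]
  ring

theorem grad_phi (S : Stein) (u w σ : Cube n → ℝ) (hσ : ∀ z, |σ z| ≤ 1) (x : Cube n) (r : Fin n) :
    |grad (fun z => S.f (u z) (w z) (σ z)) x r - (S.fu (u x) (w x) (σ x) * grad u x r +
      S.fw (u x) (w x) (σ x) * grad w x r + S.fs (u x) (w x) (σ x) * grad σ x r)| ≤
      2 * S.C * (grad u x r ^ 2 + grad w x r ^ 2 + grad σ x r ^ 2) := by
  have h := fun b => S.tay (u x) (w x) (σ x) (u (Function.update x r b)) (w (Function.update x r b))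
    (σ (Function.update x r b)) (hσ _) (hσ _)
  have d : ∀ (g : Cube n → ℝ) (b : Bool),
      g (Function.update x r b) - g x = (sp b - sp (x r)) * grad g x r := fun g b => by
    rw [update_eq g x r b]; ring
  have h1 := h true
  have h2 := h false
  rw [d u, d w, d σ] at h1 h2
  have s1 : sp true = 1 := by simp [sp]
  have s2 : sp false = -1 := by simp [sp]
  have s3 := sp_sq (x r)
  rw [s1] at h1
  rw [s2] at h2
  have e : grad (fun z => S.f (u z) (w z) (σ z)) x r =
      (S.f (u (Function.update x r true)) (w (Function.update x r true))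
        (σ (Function.update x r true)) - S.f (u (Function.update x r false))
        (w (Function.update x r false)) (σ (Function.update x r false))) / 2 := rfl
  rw [e]
  generalize S.f (u (Function.update x r true)) (w (Function.update x r true))
    (σ (Function.update x r true)) = p at *
  generalize S.f (u (Function.update x r false)) (w (Function.update x r false))
    (σ (Function.update x r false)) = q at *
  generalize grad u x r = a at *
  generalize grad w x r = b at *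
  generalize grad σ x r = c at *
  generalize sp (x r) = s at *
  have e1 : S.C * (((1 - s) * a) ^ 2 + ((1 - s) * b) ^ 2 + ((1 - s) * c) ^ 2) +
      S.C * (((-1 - s) * a) ^ 2 + ((-1 - s) * b) ^ 2 + ((-1 - s) * c) ^ 2) =
      4 * S.C * (a ^ 2 + b ^ 2 + c ^ 2) := by
    linear_combination (2 * S.C * (a ^ 2 + b ^ 2 + c ^ 2)) * s3
  rw [abs_le] at h1 h2 ⊢
  constructor <;> linarith [h1.1, h1.2, h2.1, h2.2]

/-- `N` is `p A + q B + r gᵀ` up to second order. -/
structure Approx (N A B : Mat n) (g p q r : Vec n) (C K : ℝ) : Prop where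
  hn : 0 < n
  hC : 1 ≤ C
  hK : 1 ≤ K
  hp : ∀ j, |p j| ≤ C
  hq : ∀ j, |q j| ≤ C
  hr : ∀ j, |r j| ≤ C
  hA : opn A ≤ K
  hB : opn B ≤ K
  hg : vn g * √(n : ℝ) ≤ K
  err : ∀ j l, |N j l - (p j * A j l + q j * B j l + r j * g l)| ≤
    2 * C * (A j l ^ 2 + B j l ^ 2 + g l ^ 2)

theorem one_le_sqrt (hn : 0 < n) : 1 ≤ √(n : ℝ) :=
  Real.one_le_sqrt.2 (by exact_mod_cast hn)

theorem sqrt_mul_self' (n : ℕ) : √(n : ℝ) * √(n : ℝ) = n := Real.mul_self_sqrt (Nat.cast_nonneg n)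

namespace Approx

variable {N A B : Mat n} {g p q r : Vec n} {C K : ℝ}

theorem g_sq (h : Approx N A B g p q r C K) : vn g ^ 2 * n ≤ K ^ 2 := by
  have h1 := pow_le_pow_left₀ (mul_nonneg (vn_nonneg g) (Real.sqrt_nonneg _)) h.hg 2
  rwa [mul_pow, Real.sq_sqrt (Nat.cast_nonneg n)] at h1

theorem vn_g (h : Approx N A B g p q r C K) : vn g ≤ K :=
  (le_mul_of_one_le_right (vn_nonneg g) (one_le_sqrt h.hn)).trans h.hg

theorem opn_err (h : Approx N A B g p q r C K) :
    opn (N - (diagonal p * A + diagonal q * B + vecMulVec r g)) ≤ 6 * C * K ^ 2 := by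
  have hC := h.hC
  have hK := h.hK
  have e : ∀ j l, |(N - (diagonal p * A + diagonal q * B + vecMulVec r g)) j l| ≤
      2 * C * (A j l ^ 2 + B j l ^ 2 + g l ^ 2) := fun j l => by
    simpa [vecMulVec_apply] using h.err j l
  have sq : ∀ {u : Vec n}, vn u ≤ K → ∑ i, u i ^ 2 ≤ K ^ 2 := fun hu => by
    rw [← vn_sq]; exact pow_le_pow_left₀ (vn_nonneg _) hu 2
  refine opn_le_schur (by positivity) (fun j => ?_) (fun l => ?_)
  · refine (Finset.sum_le_sum fun l _ => e j l).trans ?_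
    rw [← Finset.mul_sum, Finset.sum_add_distrib, Finset.sum_add_distrib]
    have h1 := sq ((vn_row_le A j).trans h.hA)
    have h2 := sq ((vn_row_le B j).trans h.hB)
    have h3 := sq h.vn_g
    nlinarith
  · refine (Finset.sum_le_sum fun j _ => e j l).trans ?_
    rw [← Finset.mul_sum, Finset.sum_add_distrib, Finset.sum_add_distrib]
    have h1 := sq ((vn_col_le A l).trans h.hA)
    have h2 := sq ((vn_col_le B l).trans h.hB)
    have h3 : ∑ _j : Fin n, g l ^ 2 ≤ K ^ 2 := by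
      have h4 : g l ^ 2 ≤ vn g ^ 2 := by
        rw [← sq_abs]; exact pow_le_pow_left₀ (abs_nonneg _) (abs_le_vn g l) 2
      have h5 := mul_le_mul_of_nonneg_right h4 (Nat.cast_nonneg (α := ℝ) n)
      simp only [Finset.sum_const, Finset.card_univ, Fintype.card_fin, nsmul_eq_mul]
      linarith [h.g_sq]
    nlinarith

theorem opn_le (h : Approx N A B g p q r C K) : opn N ≤ 9 * C * K ^ 2 := by
  have hC := h.hC
  have hK := h.hK
  have h0 : (0 : ℝ) ≤ C := by linarith
  have e : N = (N - (diagonal p * A + diagonal q * B + vecMulVec r g)) +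
      (diagonal p * A + diagonal q * B + vecMulVec r g) := by abel
  have h1 := WickAlg.opn_mul_le' (opn_diagonal_le h0 h.hp) h.hA
  have h2 := WickAlg.opn_mul_le' (opn_diagonal_le h0 h.hq) h.hB
  have h3 : opn (vecMulVec r g) ≤ C * K := by
    refine (opn_vecMulVec_le r g).trans ?_
    have := mul_le_mul_of_nonneg_right (vn_le_sqrt h0 h.hr) (vn_nonneg g)
    have h4 := mul_le_mul_of_nonneg_left h.hg h0
    linarith
  have h4 := opn_add_le (diagonal p * A) (diagonal q * B)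
  have h5 := opn_add_le (diagonal p * A + diagonal q * B) (vecMulVec r g)
  have h6 := opn_add_le (N - (diagonal p * A + diagonal q * B + vecMulVec r g))
    (diagonal p * A + diagonal q * B + vecMulVec r g)
  rw [← e] at h6
  have h7 : C * K ≤ C * K ^ 2 := mul_le_mul_of_nonneg_left (by nlinarith) h0
  linarith [h.opn_err]

theorem quart (h : Approx N A B g p q r C K) {e : ℝ} (he : 1 ≤ e * n)
    (hA : ∑ j, ∑ l, A j l ^ 4 ≤ e * n) (hB : ∑ j, ∑ l, B j l ^ 4 ≤ e * n) :
    ∑ j, ∑ l, (A j l ^ 4 + B j l ^ 4 + g l ^ 4) ≤ 3 * K ^ 4 * (e * n) := by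
  have hn : (1 : ℝ) ≤ n := by exact_mod_cast h.hn
  have hK4 : 1 ≤ K ^ 4 := one_le_pow₀ h.hK
  have h1 : ∑ l, g l ^ 4 ≤ (vn g ^ 2) ^ 2 := by
    rw [sq (vn g ^ 2)]
    conv_rhs => rw [vn_sq, Finset.sum_mul]
    refine Finset.sum_le_sum fun l _ => ?_
    have h4 : g l ^ 2 ≤ vn g ^ 2 := by
      rw [← sq_abs]; exact pow_le_pow_left₀ (abs_nonneg _) (abs_le_vn g l) 2
    rw [vn_sq] at h4
    calc g l ^ 4 = g l ^ 2 * g l ^ 2 := by ring
      _ ≤ _ := mul_le_mul_of_nonneg_left h4 (sq_nonneg _)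
  have h2 : (n : ℝ) * (vn g ^ 2) ^ 2 ≤ K ^ 4 := by
    have h3 := pow_le_pow_left₀ (by positivity) h.g_sq 2
    have h4 : (n : ℝ) * (vn g ^ 2) ^ 2 ≤ (vn g ^ 2 * n) ^ 2 := by
      rw [mul_pow, mul_comm]
      exact mul_le_mul_of_nonneg_left (by nlinarith) (by positivity)
    calc _ ≤ _ := h4
      _ ≤ _ := h3
      _ = K ^ 4 := by ring
  simp only [Finset.sum_add_distrib, Finset.sum_const, Finset.card_univ, Fintype.card_fin,
    nsmul_eq_mul]
  have h3 := mul_le_mul_of_nonneg_left h1 (Nat.cast_nonneg (α := ℝ) n)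
  have h4 : e * n ≤ K ^ 4 * (e * n) := le_mul_of_one_le_left (by linarith) hK4
  have h5 : K ^ 4 ≤ K ^ 4 * (e * n) := le_mul_of_one_le_right (by linarith) he
  linarith

theorem thin (h : Approx N A B g p q r C K) {t : ℝ} (he : 1 ≤ t ^ 4 * n)
    (hA : ∑ j, ∑ l, A j l ^ 4 ≤ t ^ 4 * n) (hB : ∑ j, ∑ l, B j l ^ 4 ≤ t ^ 4 * n) :
    ∑ j, ∑ l, N j l ^ 4 ≤ (9 * C * K ^ 2 * t) ^ 4 * n := by
  have hC := h.hC
  have hK := h.hK
  have h0 : (0 : ℝ) ≤ C := by linarith
  have key : ∀ j l, N j l ^ 4 ≤ (3 * C * K) ^ 4 * 27 * (A j l ^ 4 + B j l ^ 4 + g l ^ 4) := by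
    intro j l
    have a1 := (abs_entry_le A j l).trans h.hA
    have a2 := (abs_entry_le B j l).trans h.hB
    have a3 := (abs_le_vn g l).trans h.vn_g
    have b1 := abs_mul_le (h.hp j) (le_refl |A j l|)
    have b2 := abs_mul_le (h.hq j) (le_refl |B j l|)
    have b3 := abs_mul_le (h.hr j) (le_refl |g l|)
    have c1 := h.err j l
    have c2 := abs_add_le (p j * A j l + q j * B j l) (r j * g l)
    have c3 := abs_add_le (p j * A j l) (q j * B j l)
    have c4 := abs_add_le (N j l - (p j * A j l + q j * B j l + r j * g l))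
      (p j * A j l + q j * B j l + r j * g l)
    rw [sub_add_cancel] at c4
    rw [← sq_abs (A j l), ← sq_abs (B j l), ← sq_abs (g l)] at c1
    have e4 : ∀ z : ℝ, z ^ 4 = |z| ^ 4 := fun z => by
      rw [← abs_pow]; exact (abs_of_nonneg (by positivity)).symm
    rw [e4 (N j l), e4 (A j l), e4 (B j l), e4 (g l)]
    have n1 := abs_nonneg (A j l)
    have n2 := abs_nonneg (B j l)
    have n3 := abs_nonneg (g l)
    generalize |A j l| = a at *
    generalize |B j l| = b at *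
    generalize |g l| = c at *
    have d1 : a ^ 2 + b ^ 2 + c ^ 2 ≤ K * (a + b + c) := by nlinarith
    have d2 : a + b + c ≤ K * (a + b + c) := le_mul_of_one_le_left (by linarith) hK
    have d3 : |N j l| ≤ 3 * C * K * (a + b + c) := by
      have := mul_le_mul_of_nonneg_left d1 h0
      have := mul_le_mul_of_nonneg_left d2 h0
      linarith
    have d4 : (a + b + c) ^ 2 ≤ 3 * (a ^ 2 + b ^ 2 + c ^ 2) := by
      nlinarith [sq_nonneg (a - b), sq_nonneg (b - c), sq_nonneg (a - c)]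
    have d5 : (a ^ 2 + b ^ 2 + c ^ 2) ^ 2 ≤ 3 * (a ^ 4 + b ^ 4 + c ^ 4) := by
      nlinarith [sq_nonneg (a ^ 2 - b ^ 2), sq_nonneg (b ^ 2 - c ^ 2), sq_nonneg (a ^ 2 - c ^ 2)]
    have d6 : (a + b + c) ^ 4 ≤ 27 * (a ^ 4 + b ^ 4 + c ^ 4) := by
      have := pow_le_pow_left₀ (sq_nonneg _) d4 2
      nlinarith
    calc |N j l| ^ 4 ≤ (3 * C * K * (a + b + c)) ^ 4 := pow_le_pow_left₀ (abs_nonneg _) d3 4
      _ = (3 * C * K) ^ 4 * (a + b + c) ^ 4 := by ring
      _ ≤ (3 * C * K) ^ 4 * (27 * (a ^ 4 + b ^ 4 + c ^ 4)) :=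
          mul_le_mul_of_nonneg_left d6 (by positivity)
      _ = _ := by ring
  refine (Finset.sum_le_sum fun j _ => Finset.sum_le_sum fun l _ => key j l).trans ?_
  simp only [← Finset.mul_sum]
  refine (mul_le_mul_of_nonneg_left (h.quart he hA hB) (by positivity)).trans (le_of_eq ?_)
  ring

theorem fro_err (h : Approx N A B g p q r C K) {t : ℝ} (ht : 0 ≤ t) (he : 1 ≤ t ^ 2 * n)
    (hA : ∑ j, ∑ l, A j l ^ 4 ≤ t ^ 2 * n) (hB : ∑ j, ∑ l, B j l ^ 4 ≤ t ^ 2 * n) :
    fro (N - (diagonal p * A + diagonal q * B + vecMulVec r g)) ≤ 6 * C * K ^ 2 * t * √(n : ℝ) := by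
  have hC := h.hC
  have hK := h.hK
  refine (sq_le_sq₀ (fro_nonneg _) (by positivity)).1 ?_
  have key : ∀ j l, (N - (diagonal p * A + diagonal q * B + vecMulVec r g)) j l ^ 2 ≤
      12 * C ^ 2 * (A j l ^ 4 + B j l ^ 4 + g l ^ 4) := fun j l => by
    have e : |(N - (diagonal p * A + diagonal q * B + vecMulVec r g)) j l| ≤
        2 * C * (A j l ^ 2 + B j l ^ 2 + g l ^ 2) := by simpa [vecMulVec_apply] using h.err j l
    have e2 := pow_le_pow_left₀ (abs_nonneg _) e 2
    rw [sq_abs] at e2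
    refine e2.trans ?_
    generalize A j l = a
    generalize B j l = b
    generalize g l = c
    have d5 : (a ^ 2 + b ^ 2 + c ^ 2) ^ 2 ≤ 3 * (a ^ 4 + b ^ 4 + c ^ 4) := by
      nlinarith [sq_nonneg (a ^ 2 - b ^ 2), sq_nonneg (b ^ 2 - c ^ 2), sq_nonneg (a ^ 2 - c ^ 2)]
    have := mul_le_mul_of_nonneg_left d5 (sq_nonneg C)
    linarith [mul_pow (2 * C) (a ^ 2 + b ^ 2 + c ^ 2) 2, mul_pow 2 C 2]
  rw [fro_sq]
  refine (Finset.sum_le_sum fun j _ => Finset.sum_le_sum fun l _ => key j l).trans ?_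
  simp only [← Finset.mul_sum]
  refine (mul_le_mul_of_nonneg_left (h.quart he hA hB) (by positivity)).trans (le_of_eq ?_)
  rw [mul_pow, Real.sq_sqrt (Nat.cast_nonneg n)]
  ring

theorem vn_diag_mul {Y R : Mat n} {K a : ℝ} (hY : opn Y ≤ K) (hR : fro R ≤ a) :
    vn (fun j => (Y * Rᵀ) j j) ≤ K * a :=
  (vn_diag_le _).trans (WickAlg.fro_mul_le' hY (by rwa [fro_transpose]))

theorem diag (h : Approx N A B g p q r C K) {t V : ℝ} {Y W W' : Mat n} (ht : 0 ≤ t)
    (he : 1 ≤ t ^ 2 * n) (he' : 1 ≤ t * n) (hA : ∑ j, ∑ l, A j l ^ 4 ≤ t ^ 2 * n)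
    (hB : ∑ j, ∑ l, B j l ^ 4 ≤ t ^ 2 * n) (hY : opn Y ≤ K) (hW : fro (A - W) ≤ t * √(n : ℝ))
    (hW' : fro (B - W') ≤ t * √(n : ℝ)) (h1 : vn (fun j => (Y * Wᵀ) j j - V) ≤ t * √(n : ℝ))
    (h2 : vn (fun j => (Y * W'ᵀ) j j) ≤ t * √(n : ℝ)) :
    vn (fun j => (Y * Nᵀ) j j - p j * V) ≤ 11 * C * K ^ 3 * t * √(n : ℝ) := by
  have hC := h.hC
  have hK := h.hK
  have h0 : (0 : ℝ) ≤ C := by linarith
  have hg : vn g ≤ K * (t * √(n : ℝ)) := by
    have hs := one_le_sqrt h.hn
    refine le_of_mul_le_mul_right (h.hg.trans ?_) (by linarith : 0 < √(n : ℝ))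
    rw [mul_assoc, mul_assoc, sqrt_mul_self']
    exact le_mul_of_one_le_right (by linarith) he'
  have b1 := vn_mul_le' h0 h.hp h1
  have b2 := vn_mul_le' h0 h.hp (vn_diag_mul hY hW)
  have b3 := vn_mul_le' h0 h.hq h2
  have b4 := vn_mul_le' h0 h.hq (vn_diag_mul hY hW')
  have b5 := vn_mul_le' h0 h.hr ((vn_mulVec_le Y g).trans
    (mul_le_mul hY hg (vn_nonneg _) (by linarith)))
  have b6 := vn_diag_mul hY (h.fro_err ht he hA hB)
  have := vn_le_add (f := fun j => (Y * Nᵀ) j j - p j * V) (fun j => ?_)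
    (vn_le_add (fun _ => rfl) (vn_le_add (fun _ => rfl) b1 b2) (vn_le_add (fun _ => rfl) b3 b4))
    (vn_le_add (fun _ => rfl) b5 b6)
  · refine this.trans ?_
    have k1 : C * (t * √(n : ℝ)) * 1 ≤ C * (t * √(n : ℝ)) * K ^ 3 :=
      mul_le_mul_of_nonneg_left (one_le_pow₀ hK) (by positivity)
    have k2 : C * (t * √(n : ℝ)) * K ^ 1 ≤ C * (t * √(n : ℝ)) * K ^ 3 :=
      mul_le_mul_of_nonneg_left (pow_le_pow_right₀ hK (by norm_num)) (by positivity)
    have k3 : C * (t * √(n : ℝ)) * K ^ 2 ≤ C * (t * √(n : ℝ)) * K ^ 3 :=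
      mul_le_mul_of_nonneg_left (pow_le_pow_right₀ hK (by norm_num)) (by positivity)
    linarith
  · simp only [Matrix.mul_apply (M := Y), transpose_apply, Matrix.sub_apply, Matrix.add_apply,
      diagonal_mul, vecMulVec_apply, mulVec, dotProduct, mul_sub, Finset.mul_sum, Finset.sum_sub_distrib,
      mul_add, Finset.sum_add_distrib]
    have c1 : ∀ (a : ℝ) (M : Mat n), ∑ i, Y j i * (a * M j i) = ∑ i, a * (Y j i * M j i) :=
      fun a M => Finset.sum_congr rfl fun i _ => by ring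
    have c2 : ∑ i, Y j i * (r j * g i) = ∑ i, r j * (Y j i * g i) :=
      Finset.sum_congr rfl fun i _ => by ring
    rw [c1, c1, c2]
    ring

end Approx

/-- The pairing of a kernel `diagonal P * Y` with a matrix close to `diagonal D * W`. -/
theorem pair_bound {P D : Vec n} {Y W N : Mat n} {C K t V : ℝ} (hC : 0 ≤ C)
    (hP : ∀ j, |P j| ≤ C) (hD : ∀ j, |D j| ≤ 1) (hY : opn Y ≤ K)
    (hN : fro (N - diagonal D * W) ≤ t * √(n : ℝ))
    (hW : vn (fun j => (Y * Wᵀ) j j - V) ≤ t * √(n : ℝ)) :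
    |∑ j, ∑ l, (diagonal P * Y) j l * N j l - n * (avg (P * D) * V)| ≤ C * (K + 1) * t * n := by
  have b1 := vn_mul_le' hC hP (Approx.vn_diag_mul hY hN)
  have b2 := vn_mul_le' (a := fun j => P j * D j) hC
    (fun j => by simpa using abs_mul_le (hP j) (hD j)) hW
  have b3 := vn_le_add (fun _ => rfl) b1 b2
  have e : ∑ j, ∑ l, (diagonal P * Y) j l * N j l - n * (avg (P * D) * V) =
      ∑ j, (P j * (Y * (N - diagonal D * W)ᵀ) j j + P j * D j * ((Y * Wᵀ) j j - V)) := by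
    rw [← mul_assoc, WickAlg.mul_avg, Finset.sum_mul, ← Finset.sum_sub_distrib]
    refine Finset.sum_congr rfl fun j _ => ?_
    simp only [Matrix.mul_apply (M := Y), transpose_apply, Matrix.sub_apply, diagonal_mul,
      Pi.mul_apply, mul_sub, Finset.mul_sum, Finset.sum_sub_distrib]
    have c1 : ∑ i, P j * (Y j i * (D j * W j i)) = ∑ i, P j * D j * (Y j i * W j i) :=
      Finset.sum_congr rfl fun i _ => by ring
    have c2 : ∑ i, P j * Y j i * N j i = ∑ i, P j * (Y j i * N j i) :=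
      Finset.sum_congr rfl fun i _ => by ring
    rw [c1, c2]
    ring
  rw [e]
  refine ((Finset.abs_sum_le_sum_abs _ _).trans (sum_abs_le _)).trans ?_
  refine (mul_le_mul_of_nonneg_left b3 (Real.sqrt_nonneg _)).trans (le_of_eq ?_)
  linear_combination (C * (K + 1) * t) * sqrt_mul_self' n

end BpMain

end Vale.Agent.P150
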