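import Vale.Agent.P150.BpMainAux

/-! Uniform bounds for the objects of the main induction. -/

open MeasureTheory ProbabilityTheory Matrix Filter Topology
open scoped ENNReal NNReal

namespace Vale.Agent.P150

namespace BpMain

open LLAlg

/-- The data of the problem. -/
structure Ctx where
  n : ℕ
  β : ℝ
  J : Mat n
  y : Vec n
  ν : Cube n → ℝ
  hn : 0 < n
  hβ : β ^ 2 ≤ 1
  hs : J.IsSymm
  h0 : ∀ i, J i i = 0
  hJ : opn J ≤ 6
  hν : ∀ x, 0 ≤ ν x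
  h1 : ∑ x, ν x = 1

namespace Ctx

def Ok (c : Ctx) (ω : ℝ) : Prop := 1 ≤ ω * c.n ∧ W1 c.β c.J ω ∧ DLR c.ν c.J c.y ω

theorem Ok.mono {c : Ctx} {ω ω' : ℝ} (h : c.Ok ω) (h0 : 0 < ω) (h1 : ω ≤ ω') : c.Ok ω' := by
  have hn : ω * c.n ≤ ω' * c.n := mul_le_mul_of_nonneg_right h1 (Nat.cast_nonneg _)
  refine ⟨h.1.trans hn, fun l l1 l2 l3 π => (h.2.1 l l1 (l2.trans ?_) l3 π).trans hn,
    fun g hg => (h.2.2 g hg).trans (mul_le_mul_of_nonneg_right hn ?_)⟩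
  · exact one_div_le_one_div_of_le h0 h1
  · exact Finset.sum_nonneg fun x _ => mul_nonneg (c.hν x) (by rw [dot_self]; positivity)

noncomputable abbrev M (c : Ctx) (k : ℕ) (x : Cube c.n) : Vec c.n := bpM c.β c.J c.y x k

noncomputable abbrev H (c : Ctx) (k : ℕ) (x : Cube c.n) : Vec c.n := bpH c.β c.J c.y x k

noncomputable abbrev D (c : Ctx) (x : Cube c.n) (j : ℕ) : Vec c.n := dd (bpH c.β c.J c.y x j)

noncomputable abbrev b (c : Ctx) (x : Cube c.n) (j : ℕ) : ℝ := ons c.β (bpM c.β c.J c.y x j)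

noncomputable def s (c : Ctx) (x : Cube c.n) (j : ℕ) : ℝ := c.b x (j + 1) - c.b x j

noncomputable def dl (c : Ctx) (k : ℕ) (x : Cube c.n) : Vec c.n := c.M k x - c.M (k + 1) x

noncomputable def U (c : Ctx) (k : ℕ) (x : Cube c.n) : Vec c.n :=
  c.H k x - c.H (k + 1) x - c.s x k • c.M (k + 1) x

noncomputable def ev (c : Ctx) (f : ℝ → ℝ → ℝ → ℝ) (x : Cube c.n) (j : ℕ) : Vec c.n :=
  fun i => f (c.H j x i) (c.H (j + 1) x i) (c.s x j)

noncomputable def A (c : Ctx) (S : Stein) (k : ℕ) (x : Cube c.n) : Mat c.n :=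
  kA c.J (c.D x) (c.ev S.f x) (c.b x) (c.s x) k

noncomputable def Y (c : Ctx) (S : Stein) (k : ℕ) (x : Cube c.n) : Mat c.n :=
  kY c.J (c.D x) (c.ev S.f x) (c.b x) (c.s x) k

noncomputable def V (c : Ctx) (S : Stein) (k : ℕ) (x : Cube c.n) : ℝ :=
  kV c.β (c.D x) (c.ev S.f x) k

noncomputable def W (c : Ctx) (k : ℕ) (x : Cube c.n) : Mat c.n := wick c.β c.J (1 :: kL (c.D x) k)

variable (c : Ctx) (x : Cube c.n)

theorem abs_M (k : ℕ) (i : Fin c.n) : |c.M k x i| ≤ 1 := by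
  cases k with
  | zero => exact (abs_sp _).le
  | succ k =>
    rw [M, bpM_succ]
    exact abs_mag_le _ i

theorem b_mem (k : ℕ) : 0 ≤ c.b x k ∧ c.b x k ≤ 1 := by
  have h := ons_mem c.hβ (m := c.M k x) (by simpa using vn_le_sqrt zero_le_one (c.abs_M x k))
  exact ⟨h.1, h.2.trans c.hβ⟩

theorem abs_b (k : ℕ) : |c.b x k| ≤ 1 := by
  rw [abs_of_nonneg (c.b_mem x k).1]
  exact (c.b_mem x k).2

theorem abs_s (k : ℕ) : |c.s x k| ≤ 1 := by
  have h1 := c.b_mem x k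
  have h2 := c.b_mem x (k + 1)
  rw [s, abs_le]
  constructor <;> linarith [h1.1, h1.2, h2.1, h2.2]

theorem abs_D (k : ℕ) (i : Fin c.n) : |c.D x k i| ≤ 1 := by
  have h := dom_dd (c.H k x) i
  rw [abs_of_pos h.1]
  exact h.2

theorem abs_P (S : Stein) (k : ℕ) (i : Fin c.n) : |c.ev S.f x k i| ≤ S.C :=
  (S.bd _ _ _ (c.abs_s x k)).1

theorem b_zero : c.b x 0 = 0 := by
  have h : (c.n : ℝ) ≠ 0 := by have := c.hn; positivity
  change c.β ^ 2 * (1 - sv x ⬝ᵥ sv x / c.n) = 0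
  rw [dot_self, vn_sv, Real.sq_sqrt (Nat.cast_nonneg _), div_self h, sub_self, mul_zero]

theorem U_zero : c.U 0 x = c.J *ᵥ c.dl 0 x + c.s x 0 • c.dl 0 x := by
  have h : c.s x 0 = c.b x 1 := by rw [s, b_zero, sub_zero]
  change (c.y + c.J *ᵥ c.M 0 x) - (c.y + c.J *ᵥ c.M 1 x - c.b x 1 • c.M 0 x) -
    c.s x 0 • c.M 1 x = c.J *ᵥ (c.M 0 x - c.M 1 x) + c.s x 0 • (c.M 0 x - c.M 1 x)
  rw [h, mulVec_sub]
  module

theorem U_succ (k : ℕ) : c.U (k + 1) x =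
    c.J *ᵥ c.dl (k + 1) x - c.b x (k + 1) • c.dl k x + c.s x (k + 1) • c.dl (k + 1) x := by
  change (c.y + c.J *ᵥ c.M (k + 1) x - c.b x (k + 1) • c.M k x) -
    (c.y + c.J *ᵥ c.M (k + 2) x - c.b x (k + 2) • c.M (k + 1) x) -
    (c.b x (k + 2) - c.b x (k + 1)) • c.M (k + 2) x =
    c.J *ᵥ (c.M (k + 1) x - c.M (k + 2) x) - c.b x (k + 1) • (c.M k x - c.M (k + 1) x) +
      (c.b x (k + 2) - c.b x (k + 1)) • (c.M (k + 1) x - c.M (k + 2) x)
  rw [mulVec_sub]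
  module

theorem dl_succ (S : Stein) (k : ℕ) (i : Fin c.n) :
    c.dl (k + 1) x i = c.ev S.f x k i * c.U k x i - c.ev S.fu x k i * c.s x k := by
  have h := S.eq (c.H k x i) (c.H (k + 1) x i) (c.s x k)
  simp only [dl, U, ev, M, bpM_succ, Pi.sub_apply, Pi.smul_apply, smul_eq_mul, mag]
  linear_combination h

theorem s_zero (S : Stein) : c.s x 0 = c.V S 0 x := by
  rw [s, b_zero, sub_zero, b, bpM_succ, ons_mag c.hn]
  rfl

theorem dot_eq (k : ℕ) :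
    c.β ^ 2 * (c.dl k x ⬝ᵥ (c.M k x + c.M (k + 1) x)) = c.n * c.s x k := by
  have h : (c.n : ℝ) ≠ 0 := by have := c.hn; positivity
  simp only [dl, s, b, ons, sub_dotProduct, dotProduct_add]
  rw [dotProduct_comm (c.M (k + 1) x) (c.M k x)]
  field_simp
  ring

theorem D_mul_W (k : ℕ) :
    diagonal (c.D x k) * c.W k x = wick c.β c.J (kL (c.D x) (k + 1)) := by
  rw [W, wick_head, mul_one]
  rfl

theorem col_D (j : ℕ) (r : Fin c.n) :
    vn (fun i => jac (fun z => c.D z j) x i r) ≤ 2 * opn (jac (c.M (j + 1)) x) := by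
  refine le_trans (vn_mono (v := fun i => 2 * jac (c.M (j + 1)) x i r) fun i => ?_)
    (vn_mul_le' zero_le_two (fun _ => by simp) (vn_col_le _ r))
  have e : (fun z => c.D z j i) = fun z => 1 - c.M (j + 1) z i * c.M (j + 1) z i := by
    funext z
    simp only [M, bpM_succ, dd, mag]
    ring
  have h := abs_grad_mul_le (fun z => c.abs_M z (j + 1) i) (fun z => c.abs_M z (j + 1) i) x r
  change |grad (fun z => c.D z j i) x r| ≤ |2 * grad (fun z => c.M (j + 1) z i) x r|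
  rw [e, grad_sub, Pi.sub_apply, grad_const, zero_sub, abs_neg, abs_mul, abs_two]
  linarith

theorem col_PD (S : Stein) (j : ℕ) (r : Fin c.n) :
    vn (fun i => jac (fun z => c.ev S.f z j * c.D z j) x i r) ≤
      S.C * (2 * opn (jac (c.M (j + 1)) x)) + opn (jac (fun z => c.ev S.f z j) x) := by
  have h0 : 0 ≤ S.C := by linarith [S.one_le]
  have h1 : vn (fun i => |jac (fun z => c.D z j) x i r|) ≤ 2 * opn (jac (c.M (j + 1)) x) :=
    (vn_mono fun i => by rw [abs_abs]).trans (c.col_D x j r)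
  have h2 : vn (fun i => |jac (fun z => c.ev S.f z j) x i r|) ≤
      opn (jac (fun z => c.ev S.f z j) x) :=
    (vn_mono fun i => by rw [abs_abs]).trans (vn_col_le _ r)
  refine le_trans (vn_mono fun i => ?_) (vn_le_add (fun _ => rfl)
    (vn_mul_le' (a := fun _ => S.C) h0 (fun _ => (abs_of_nonneg h0).le) h1) h2)
  have h := abs_grad_mul_le (fun z => c.abs_P z S j i) (fun z => c.abs_D z j i) x r
  rw [one_mul] at h
  exact h.trans (le_abs_self _)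

theorem lip_avg (G : Cube c.n → Vec c.n) (r : Fin c.n) :
    |grad (fun z => c.β ^ 2 * avg (G z)) x r| * √(c.n : ℝ) ≤ vn fun i => jac G x i r := by
  have hs := one_le_sqrt c.hn
  have e : grad (fun z => c.β ^ 2 * avg (G z)) x r = c.β ^ 2 * grad (fun z => avg (G z)) x r := by
    simp only [grad]
    ring
  have h := abs_mul_le (show |c.β ^ 2| ≤ 1 by rw [abs_of_nonneg (sq_nonneg _)]; exact c.hβ)
    (abs_avg_le c.hn fun i => jac G x i r)
  rw [e, grad_avg, ← le_div_iff₀ (by linarith)]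
  rwa [one_mul] at h

end Ctx

theorem evK {p : ℝ → Prop} (hm : ∀ K K', K ≤ K' → p K → p K') (h : ∃ K, p K) :
    ∀ᶠ K in atTop, p K := by
  obtain ⟨K, hK⟩ := h
  filter_upwards [eventually_ge_atTop K] with K' h using hm _ _ h hK

theorem evK' {q : ∀ c : Ctx, Cube c.n → ℝ} {K₀ : ℝ} (h : ∀ c x, q c x ≤ K₀) :
    ∀ᶠ K in atTop, ∀ c x, q c x ≤ K :=
  evK (fun _ _ h hp c x => (hp c x).trans h) ⟨K₀, h⟩

theorem bH (k : ℕ) : ∀ᶠ K in atTop, ∀ (c : Ctx) x, opn (jac (c.H k) x) ≤ K := by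
  obtain ⟨K, -, h⟩ := bp_bound k
  exact evK' fun c x => (h c.n c.β c.J c.y x c.hβ c.hJ).1

theorem bM (k : ℕ) : ∀ᶠ K in atTop, ∀ (c : Ctx) x, opn (jac (c.M k) x) ≤ K := by
  obtain ⟨K, -, h⟩ := bp_bound k
  exact evK' fun c x => (h c.n c.β c.J c.y x c.hβ c.hJ).2.1

theorem bb (k : ℕ) :
    ∀ᶠ K in atTop, ∀ (c : Ctx) x, vn (grad (fun z => c.b z k) x) * √(c.n : ℝ) ≤ K := by
  obtain ⟨K, -, h⟩ := bp_bound k
  exact evK' fun c x => (h c.n c.β c.J c.y x c.hβ c.hJ).2.2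

theorem bs (k : ℕ) :
    ∀ᶠ K in atTop, ∀ (c : Ctx) x, vn (grad (fun z => c.s z k) x) * √(c.n : ℝ) ≤ K := by
  obtain ⟨K, h1, h2⟩ := ((bb k).and (bb (k + 1))).exists
  refine evK' (K₀ := K + K) fun c x => ?_
  have h := mul_le_mul_of_nonneg_right
    (vn_sub_le (grad (fun z => c.b z (k + 1)) x) (grad (fun z => c.b z k) x))
    (Real.sqrt_nonneg (c.n : ℝ))
  rw [← grad_sub] at h
  refine le_trans h ?_
  linarith [h1 c x, h2 c x]

theorem bAYV (S : Stein) (k : ℕ) : ∀ᶠ K in atTop, ∀ (c : Ctx) x,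
    opn (c.A S k x) ≤ K ∧ opn (c.Y S k x) ≤ K ∧ |c.V S k x| ≤ K := by
  obtain ⟨K, -, h⟩ := kern_bound k S.one_le
  exact evK (fun _ _ h hp c x => ⟨(hp c x).1.trans h, (hp c x).2.1.trans h, (hp c x).2.2.trans h⟩)
    ⟨K, fun c x => h c.n c.β c.J _ _ _ _ c.hβ c.hJ (c.abs_D x) (c.abs_P x S) (c.abs_b x)
      (c.abs_s x)⟩

theorem approx (S : Stein) (k : ℕ) : ∀ᶠ K in atTop, ∀ (c : Ctx) x,
    Approx (jac (fun z => c.ev S.f z k) x) (jac (c.H k) x) (jac (c.H (k + 1)) x)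
      (grad (fun z => c.s z k) x) (c.ev S.fu x k) (c.ev S.fw x k) (c.ev S.fs x k) S.C K := by
  filter_upwards [bH k, bH (k + 1), bs k, eventually_ge_atTop 1] with K h1 h2 h3 h4 c x
  exact ⟨c.hn, S.one_le, h4, fun _ => (S.bd _ _ _ (c.abs_s x k)).2.1,
    fun _ => (S.bd _ _ _ (c.abs_s x k)).2.2.1, fun _ => (S.bd _ _ _ (c.abs_s x k)).2.2.2,
    h1 c x, h2 c x, h3 c x, fun j l => grad_phi S (fun z => c.H k z j) (fun z => c.H (k + 1) z j)
      (fun z => c.s z k) (fun z => c.abs_s z k) x l⟩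

theorem bP (S : Stein) (k : ℕ) :
    ∀ᶠ K in atTop, ∀ (c : Ctx) x, opn (jac (fun z => c.ev S.f z k) x) ≤ K := by
  obtain ⟨K, h⟩ := (approx S k).exists
  exact evK' fun c x => (h c x).opn_le

theorem bgV (S : Stein) (k : ℕ) :
    ∀ᶠ K in atTop, ∀ (c : Ctx) x r, |grad (c.V S k) x r| * √(c.n : ℝ) ≤ K := by
  refine evK (fun _ _ h hp c x r => (hp c x r).trans h) ?_
  induction k with
  | zero =>
    obtain ⟨K, h⟩ := (bM 1).exists
    refine ⟨2 * K, fun c x r => ?_⟩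
    have h1 := (c.lip_avg x (fun z => c.D z 0) r).trans (c.col_D x 0 r)
    refine le_trans h1 ?_
    linarith [h c x]
  | succ k ih =>
    obtain ⟨K', ih⟩ := ih
    obtain ⟨K, h1, h2, h3, h4⟩ :=
      ((bM (k + 1)).and ((bP S k).and ((bAYV S k).and (eventually_ge_atTop 0)))).exists
    have h0 : 0 ≤ S.C := by linarith [S.one_le]
    refine ⟨S.C * K' + K * (S.C * (2 * K) + K), fun c x r => ?_⟩
    have a1 := abs_grad_mul_le (f := fun z => c.β ^ 2 * avg (c.ev S.f z k * c.D z k))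
      (g := c.V S k) (M := S.C) (fun z => WickAlg.abs_coef_le c.hβ h0 fun i => by
        simpa using abs_mul_le (c.abs_P z S k i) (c.abs_D z k i)) (fun z => (h3 c z).2.2) x r
    have a2 := (c.lip_avg x (fun z => c.ev S.f z k * c.D z k) r).trans (c.col_PD x S k r)
    have a3 := mul_le_mul_of_nonneg_right a1 (Real.sqrt_nonneg (c.n : ℝ))
    have a4 := mul_le_mul_of_nonneg_left (ih c x r) h0
    have a5 := mul_le_mul_of_nonneg_left (h1 c x) h0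
    have a6 : |grad (fun z => c.β ^ 2 * avg (c.ev S.f z k * c.D z k)) x r| * √(c.n : ℝ) ≤
        S.C * (2 * K) + K := by linarith [h2 c x]
    have a7 := mul_le_mul_of_nonneg_left a6 h4
    refine le_trans a3 ?_
    linarith

/-- The filter of data satisfying the hypotheses with small `ω`. -/
def sF : Filter Ctx where
  sets := {s | ∃ ω, 0 < ω ∧ ∀ c : Ctx, c.Ok ω → c ∈ s}
  univ_sets := ⟨1, one_pos, fun _ _ => trivial⟩
  sets_of_superset := fun ⟨ω, h0, h⟩ hs => ⟨ω, h0, fun c hc => hs (h c hc)⟩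
  inter_sets := fun ⟨ω, h0, h⟩ ⟨ω', h0', h'⟩ => ⟨min ω ω', lt_min h0 h0', fun c hc =>
    ⟨h c (hc.mono (lt_min h0 h0') (min_le_left _ _)),
      h' c (hc.mono (lt_min h0 h0') (min_le_right _ _))⟩⟩

theorem ev_ok {ω : ℝ} (h : 0 < ω) : ∀ᶠ c in sF, c.Ok ω := ⟨ω, h, fun _ hc => hc⟩

theorem ev_n {ω : ℝ} (h : 0 < ω) : ∀ᶠ c in sF, 1 ≤ ω * c.n := (ev_ok h).mono fun _ hc => hc.1

theorem ev_sqrt {e : ℝ} (h : 0 < e) : ∀ᶠ c in sF, √(c.n : ℝ) ≤ e * c.n := by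
  filter_upwards [ev_n (pow_pos h 2)] with c hc
  refine Real.sqrt_le_iff.2 ⟨by positivity, ?_⟩
  have := mul_le_mul_of_nonneg_right hc (Nat.cast_nonneg (α := ℝ) c.n)
  linarith [mul_pow e c.n 2]

theorem ev_jac (k : ℕ) {e : ℝ} (h : 0 < e) : ∀ᶠ c in sF, ∀ x,
    fro (jac (c.H k) x - c.W k x) ≤ e * √(c.n : ℝ) ∧
    fro (jac (c.M k) x - wick c.β c.J (kL (c.D x) k)) ≤ e * √(c.n : ℝ) ∧
    ∑ j, ∑ r, jac (c.H k) x j r ^ 4 ≤ e * c.n := by
  obtain ⟨ω, h0, hω⟩ := bp_jac k h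
  filter_upwards [ev_ok h0] with c hc x using hω c.n c.β c.J c.y x c.hβ c.hJ hc.1 hc.2.1

theorem ev_orth (S : Stein) (k : ℕ) {e : ℝ} (h : 0 < e) : ∀ᶠ c in sF, ∀ x,
    vn (fun j => (c.Y S k x * (c.W (k + 1) x)ᵀ) j j) ≤ e * √(c.n : ℝ) ∧
    vn (fun j => (c.Y S k x * (c.W k x)ᵀ) j j - c.V S k x) ≤ e * √(c.n : ℝ) := by
  obtain ⟨ω, h0, hω⟩ := wick_orth k S.one_le h
  filter_upwards [ev_ok h0] with c hc x using hω c.n c.β c.J _ _ _ _ c.hβ c.hs c.hJ (c.abs_D x)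
    (c.abs_P x S) (c.abs_b x) (c.abs_s x) hc.2.1

/-- The property holds with an arbitrarily small error. -/
def Sm (p : Ctx → ℝ → Prop) : Prop := ∀ η, 0 < η → ∀ᶠ c in sF, p c η

theorem Sm.of_mul {p : Ctx → ℝ → Prop} {L : ℝ} (hL : 0 < L)
    (h : ∀ e, 0 < e → ∀ᶠ c in sF, p c (L * e)) : Sm p := fun η hη => by
  have := h (η / L) (div_pos hη hL)
  rwa [mul_div_cancel₀ _ hL.ne'] at this

end BpMain

end Vale.Agent.P150
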