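import Vale.Agent.P150.Loc

/-! Backward stability estimate giving the covariance bound. -/

open MeasureTheory ProbabilityTheory Matrix Filter Topology
open scoped ENNReal NNReal

namespace Vale.Agent.P150

variable {n : ℕ}

variable {W : Cube n → ℝ} {ε : ℝ}

namespace Bsde

section
variable {S : Type} [Fintype S] {p : S → ℝ}

lemma sum_dot (p : S → ℝ) (v : Vec n) (y : S → Vec n) :
    ∑ s, p s * (v ⬝ᵥ y s) = v ⬝ᵥ ∑ s, p s • y s := by
  rw [dotProduct_sum]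
  exact Finset.sum_congr rfl fun s _ => by rw [dotProduct_smul, smul_eq_mul]

lemma var_vec (hp1 : ∑ s, p s = 1) (y : S → Vec n) :
    ∑ s, p s * vn (y s - ∑ t, p t • y t) ^ 2 =
      ∑ s, p s * vn (y s) ^ 2 - vn (∑ t, p t • y t) ^ 2 := by
  obtain ⟨b, hb⟩ : ∃ b, b = ∑ t, p t • y t := ⟨_, rfl⟩
  have h1 : ∀ s, p s * vn (y s - b) ^ 2 =
      p s * vn (y s) ^ 2 - 2 * (p s * (b ⬝ᵥ y s)) + p s * vn b ^ 2 := fun s => by
    simp only [← dot_self, sub_dotProduct, dotProduct_sub, dotProduct_comm (y s) b]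
    ring
  rw [← hb]
  simp only [h1, Finset.sum_add_distrib, Finset.sum_sub_distrib, ← Finset.mul_sum,
    ← Finset.sum_mul, hp1, sum_dot, ← hb, dot_self]
  ring

lemma var_le (hp1 : ∑ s, p s = 1) (y : S → ℝ) :
    ∑ s, p s * (y s - ∑ t, p t * y t) ^ 2 ≤ ∑ s, p s * y s ^ 2 := by
  obtain ⟨b, hb⟩ : ∃ b, b = ∑ t, p t * y t := ⟨_, rfl⟩
  have h1 : ∀ s, p s * (y s - b) ^ 2 = p s * y s ^ 2 - 2 * b * (p s * y s) + p s * b ^ 2 :=
    fun s => by ring
  rw [← hb]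
  simp only [h1, Finset.sum_add_distrib, Finset.sum_sub_distrib, ← Finset.mul_sum,
    ← Finset.sum_mul, hp1, ← hb]
  nlinarith [sq_nonneg b]

lemma scalar {η a d : ℝ} (h0 : 0 ≤ η) (h1 : η ≤ 1 / 10) (hd : 0 ≤ d)
    (h : d ≤ a + η * (1 + d)) : d ^ 2 ≤ (1 + 4 * η) * (a ^ 2 + η) := by
  have h2 : (d * (1 - η)) ^ 2 ≤ (a + η) ^ 2 :=
    pow_le_pow_left₀ (mul_nonneg hd (by linarith)) (by linarith) 2
  have h3 : (a + η) ^ 2 ≤ (1 + η) * (a ^ 2 + η) := by nlinarith [mul_nonneg h0 (sq_nonneg (a - 1))]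
  have h4 : 1 + η ≤ (1 + 4 * η) * (1 - η) ^ 2 := by
    nlinarith [mul_nonneg h0 (sub_nonneg.2 h1), mul_nonneg h0 (sq_nonneg η)]
  have h5 : 0 < (1 - η) ^ 2 := pow_pos (by linarith) 2
  refine le_of_mul_le_mul_right ?_ h5
  have h6 := mul_le_mul_of_nonneg_right h4 (add_nonneg (sq_nonneg a) h0)
  nlinarith

lemma step (hp0 : ∀ s, 0 ≤ p s) (hp1 : ∑ s, p s = 1) (m' Mh : S → Vec n) {m M u : Vec n}
    (hu : u ⬝ᵥ u = 1) (hm : ∑ s, p s • m' s = m) {η : ℝ} (h0 : 0 ≤ η) (h1 : η ≤ 1 / 10)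
    (h2 : vn (∑ s, p s • Mh s - M) ≤ η * (1 + vn (m - M)))
    (h3 : ∑ s, p s * (u ⬝ᵥ (Mh s - M)) ^ 2 ≤ η) :
    ∑ s, p s * (u ⬝ᵥ (m' s - m)) ^ 2 + 2 * vn (m - M) ^ 2 ≤
      (2 + 8 * η) * ∑ s, p s * vn (m' s - Mh s) ^ 2 + 5 * η := by
  have hb : ∑ s, p s • (m' s - Mh s) = m - ∑ s, p s • Mh s := by
    simp only [smul_sub, Finset.sum_sub_distrib, hm]
  have hv := var_vec hp1 fun s => m' s - Mh s
  have hw := var_le hp1 fun s => u ⬝ᵥ (Mh s - M)
  have hc : ∑ s, p s • (Mh s - M) = ∑ s, p s • Mh s - M := by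
    simp only [smul_sub, Finset.sum_sub_distrib, ← Finset.sum_smul, hp1, one_smul]
  rw [sum_dot, hc] at hw
  rw [hb] at hv
  generalize ∑ s, p s • Mh s = b at *
  have hvu : vn u ^ 2 = 1 := by rw [← dot_self, hu]
  have h4 : ∀ s, p s * (u ⬝ᵥ (m' s - m)) ^ 2 ≤ 2 * (p s * vn (m' s - Mh s - (m - b)) ^ 2) +
      2 * (p s * (u ⬝ᵥ (Mh s - M) - u ⬝ᵥ (b - M)) ^ 2) := fun s => by
    have e : u ⬝ᵥ (m' s - m) =
        u ⬝ᵥ (m' s - Mh s - (m - b)) + (u ⬝ᵥ (Mh s - M) - u ⬝ᵥ (b - M)) := by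
      simp only [dotProduct_sub]; ring
    have h5 : (u ⬝ᵥ (m' s - Mh s - (m - b))) ^ 2 ≤ vn (m' s - Mh s - (m - b)) ^ 2 := by
      have := pow_le_pow_left₀ (abs_nonneg _) (abs_dot_le u (m' s - Mh s - (m - b))) 2
      rwa [sq_abs, mul_pow, hvu, one_mul] at this
    rw [e]
    generalize u ⬝ᵥ (m' s - Mh s - (m - b)) = x at *
    generalize u ⬝ᵥ (Mh s - M) - u ⬝ᵥ (b - M) = y at *
    nlinarith [mul_nonneg (hp0 s) (sq_nonneg (x - y)), mul_le_mul_of_nonneg_left h5 (hp0 s)]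
  have h5 := Finset.sum_le_sum fun s (_ : s ∈ Finset.univ) => h4 s
  rw [Finset.sum_add_distrib, ← Finset.mul_sum, ← Finset.mul_sum, hv] at h5
  have h6 : 0 ≤ ∑ s, p s * vn (m' s - Mh s - (m - b)) ^ 2 :=
    Finset.sum_nonneg fun s _ => mul_nonneg (hp0 s) (sq_nonneg _)
  have h7 := scalar h0 h1 (vn_nonneg (m - M)) ((vn_triangle m b M).trans (add_le_add le_rfl h2))
  rw [hv] at h6
  nlinarith [mul_le_mul_of_nonneg_left (sub_nonneg.1 h6) h0, mul_le_mul_of_nonneg_left h1 h0]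

end

lemma good {η V d e : ℝ} (h0 : 0 ≤ η) (h1 : η ≤ 1 / 10) (hV : 0 ≤ V) (he0 : 0 ≤ e)
    (he : e ≤ d + η) : V + (2 + 8 * η) * e ^ 2 ≤ (1 + 20 * η) * (V + 2 * d ^ 2) + 4 * η := by
  have h2 : e ^ 2 ≤ (d + η) ^ 2 := pow_le_pow_left₀ he0 he 2
  have h3 : (d + η) ^ 2 ≤ (1 + η) * (d ^ 2 + η) := by nlinarith [mul_nonneg h0 (sq_nonneg (d - 1))]
  have h4 := mul_le_mul_of_nonneg_left (h2.trans h3) (by linarith : 0 ≤ 2 + 8 * η)
  have h5 : (2 + 8 * η) * (1 + η) ≤ 2 + 11 * η := by nlinarith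
  have h6 := mul_le_mul_of_nonneg_right h5 (add_nonneg (sq_nonneg d) h0)
  nlinarith [mul_nonneg h0 hV, mul_nonneg h0 (sq_nonneg d), mul_le_mul_of_nonneg_left h1 h0]

lemma vr_nonneg {π : Cube n → ℝ} (hπ : IsP π) (u : Vec n) : 0 ≤ vr π u :=
  Finset.sum_nonneg fun x _ => mul_nonneg (hπ.1 x).le (sq_nonneg _)

lemma vr_smul (π : Cube n → ℝ) (r : ℝ) (u : Vec n) : vr π (r • u) = r ^ 2 * vr π u := by
  simp only [vr, smul_dotProduct, smul_eq_mul, Finset.mul_sum]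
  exact Finset.sum_congr rfl fun x _ => by ring

lemma pe_ind_nonneg (hW : ∀ x, 0 < W x) (B : ℕ → Mat n) (l k : ℕ) (θ : Vec n)
    (P : Vec n → Prop) : 0 ≤ pe W ε B l k θ fun _ θ' => ind (P θ') :=
  (pe_const hW B l k θ 0).symm.trans_le (pe_mono hW B l k θ fun _ _ => ind_nonneg _)

lemma pe_ind_zero (hW : ∀ x, 0 < W x) (B : ℕ → Mat n) (l : ℕ) (θ : Vec n) (P : Vec n → Prop) :
    (pe W ε B l 0 θ fun _ θ' => ind (P θ')) = ind (P θ) := by
  rw [pe_zero, ← Finset.sum_mul, (tilt_isP (wts_pos hW B l) θ).2, one_mul]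

end Bsde

open Bsde

/-- Fix a vector `u` with `u ⬝ u = 1` and let `R l θ = vr (tilt (wts l) θ) u + 2 |mean - M l θ|²`.
With `e' s = mean' s - Mh s`: `vr_step`, `mean_step` and `mean' - mean = (e' - E e') + (Mh - E Mh)`
give `vr ≤ E vr' + 2 E |e' - E e'|² + 2 C ε²`, while `|mean - M| ≤ |E e'| + C ε² (1 + |mean - M|)`.
Hence `R l ≤ (1 + 20 C ε²) E (R (l+1) * ind G) + 20 C ε² + 40 n P(¬ G (l+1))`; backward induction
using `pe_first`. -/
theorem bsde (hn : 0 < n) (hW : ∀ x, 0 < W x) (B : ℕ → Mat n) (N : ℕ) {C : ℝ} (hC : 1 ≤ C)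
    (hε : C * ε ^ 2 ≤ 1 / 10) (G : ℕ → Vec n → Prop) (M : ℕ → Vec n → Vec n)
    (hstep : ∀ l < N, ∀ θ, G l θ → ∃ Mh : Cube n → Vec n, (∀ s, vn (Mh s) ≤ 2 * √(n : ℝ)) ∧
      (∀ s, G (l + 1) (stp ε (B l) θ s) → vn (Mh s - M (l + 1) (stp ε (B l) θ s)) ≤ ε ^ 2) ∧
      vn (∑ s, lp (wts W ε B l) ε (B l) θ s • Mh s - M l θ) ≤
        C * ε ^ 2 * (1 + vn (mean (tilt (wts W ε B l) θ) - M l θ)) ∧
      ∀ u : Vec n, ∑ s, lp (wts W ε B l) ε (B l) θ s * (u ⬝ᵥ (Mh s - M l θ)) ^ 2 ≤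
        C * ε ^ 2 * (u ⬝ᵥ u))
    (hT : ∀ θ, G N θ → vn (mean (tilt (wts W ε B N) θ) - M N θ) ≤ C ∧
      ∀ u, vr (tilt (wts W ε B N) θ) u ≤ C * (u ⬝ᵥ u))
    (l : ℕ) (hl : l ≤ N) (θ : Vec n) (hθ : G l θ) (u : Vec n) :
    vr (tilt (wts W ε B l) θ) u ≤ Real.exp (20 * C * (N * ε ^ 2)) *
      (3 * C ^ 2 + 20 * C * (N * ε ^ 2) + 40 * n *
        ∑ k ∈ Finset.range (N - l + 1), pe W ε B l k θ fun _ θ' => ind (¬ G (l + k) θ')) *
      (u ⬝ᵥ u) := by
  have hC0 : 0 ≤ C := by linarith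
  obtain ⟨η, hη⟩ : ∃ η, η = C * ε ^ 2 := ⟨_, rfl⟩
  have h0 : 0 ≤ η := by rw [hη]; positivity
  have hεη : ε ^ 2 ≤ η := by rw [hη]; exact le_mul_of_one_le_left (sq_nonneg _) hC
  have hn' : (0 : ℝ) ≤ n := Nat.cast_nonneg n
  rw [← hη] at hε hstep
  have hP : ∀ l j θ, 0 ≤ ∑ k ∈ Finset.range (j + 1),
      pe W ε B l k θ fun _ θ' => ind (¬ G (l + k) θ') := fun l j θ =>
    Finset.sum_nonneg fun k _ => pe_ind_nonneg hW B l k θ _
  have key : ∀ u : Vec n, u ⬝ᵥ u = 1 → ∀ j l, l + j = N → ∀ θ, G l θ →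
      vr (tilt (wts W ε B l) θ) u + 2 * vn (mean (tilt (wts W ε B l) θ) - M l θ) ^ 2 ≤
        (1 + 20 * η) ^ j * (3 * C ^ 2 + 20 * η * j + 40 * n *
          ∑ k ∈ Finset.range (j + 1), pe W ε B l k θ fun _ θ' => ind (¬ G (l + k) θ')) := by
    intro u hu j
    induction j with
    | zero =>
      rintro l rfl θ hθ
      have h1 := (hT θ hθ).2 u
      have h2 := pow_le_pow_left₀ (vn_nonneg _) (hT θ hθ).1 2
      have h3 := mul_nonneg hn' (hP l 0 θ)
      rw [hu] at h1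
      simp only [add_zero l] at h1 h2
      simp only [pow_zero, one_mul, Nat.cast_zero, mul_zero, add_zero]
      nlinarith
    | succ j ih =>
      intro l hlj θ hθ
      obtain ⟨Mh, hM1, hM2, hM3, hM4⟩ := hstep l (by omega) θ hθ
      have hWl := wts_pos (ε := ε) hW B l
      have hp := lp_isP (ε := ε) hWl (B l) θ
      have h1 := step (fun s => (hp.1 s).le) hp.2
        (fun s => mean (tilt (wts W ε B (l + 1)) (stp ε (B l) θ s))) Mh hu
        (mean_step hWl (B l) θ) h0 hε hM3 (by simpa only [hu, mul_one] using hM4 u)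
      have hq : 1 ≤ (1 + 20 * η) ^ (j + 1) := one_le_pow₀ (by linarith)
      have h2 : ∀ s, vr (tilt (wts W ε B (l + 1)) (stp ε (B l) θ s)) u + (2 + 8 * η) *
          vn (mean (tilt (wts W ε B (l + 1)) (stp ε (B l) θ s)) - Mh s) ^ 2 ≤
          (1 + 20 * η) ^ (j + 1) * (3 * C ^ 2 + 20 * η * j + 40 * n *
            ∑ k ∈ Finset.range (j + 1), pe W ε B (l + 1) k (stp ε (B l) θ s)
              fun _ θ' => ind (¬ G (l + 1 + k) θ')) + 4 * η := by
        intro s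
        have hπ := tilt_isP (wts_pos (ε := ε) hW B (l + 1)) (stp ε (B l) θ s)
        by_cases hG : G (l + 1) (stp ε (B l) θ s)
        · have h3 := vn_triangle (mean (tilt (wts W ε B (l + 1)) (stp ε (B l) θ s)))
            (M (l + 1) (stp ε (B l) θ s)) (Mh s)
          rw [vn_sub_comm (M _ _)] at h3
          refine (good h0 hε (vr_nonneg hπ u) (vn_nonneg _)
            (h3.trans (add_le_add le_rfl ((hM2 s hG).trans hεη)))).trans (add_le_add ?_ le_rfl)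
          rw [pow_succ' (1 + 20 * η) j, mul_assoc (1 + 20 * η)]
          exact mul_le_mul_of_nonneg_left (ih (l + 1) (by omega) _ hG) (by linarith)
        · have h3 := vr_le hπ u
          have h4 := pow_le_pow_left₀ (vn_nonneg _)
            ((vn_sub_le _ _).trans (add_le_add (vn_mean_le hπ) (hM1 s))) 2
          have h5 : (√(n : ℝ) + 2 * √(n : ℝ)) ^ 2 = 9 * n := by
            rw [← one_add_mul, mul_pow, Real.sq_sqrt hn']; norm_num
          have h6 : 1 ≤ ∑ k ∈ Finset.range (j + 1), pe W ε B (l + 1) k (stp ε (B l) θ s)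
              fun _ θ' => ind (¬ G (l + 1 + k) θ') := by
            refine le_trans (le_of_eq ?_) (Finset.single_le_sum
              (f := fun k => pe W ε B (l + 1) k (stp ε (B l) θ s)
                fun _ θ' => ind (¬ G (l + 1 + k) θ'))
              (fun k _ => pe_ind_nonneg hW B _ k _ _) (Finset.mem_range.2 j.succ_pos))
            simp only [pe_ind_zero hW]
            exact (ind_pos hG).symm
          rw [hu, mul_one] at h3
          rw [h5] at h4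
          have h7 := mul_le_mul_of_nonneg_left h6 (by positivity : (0 : ℝ) ≤ 40 * n)
          have h8 := mul_le_mul (by linarith : 2 + 8 * η ≤ 3) h4 (sq_nonneg _) (by norm_num)
          have h9 : 0 ≤ 3 * C ^ 2 + 20 * η * j := by positivity
          refine le_trans ?_ (add_le_add (le_mul_of_one_le_left (by linarith) hq) le_rfl)
          linarith
      have h3 := Finset.sum_le_sum fun s (_ : s ∈ Finset.univ) =>
        mul_le_mul_of_nonneg_left (h2 s) (hp.1 s).le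
      have h4 : ∑ s, lp (wts W ε B l) ε (B l) θ s * ∑ k ∈ Finset.range (j + 1),
          pe W ε B (l + 1) k (stp ε (B l) θ s) (fun _ θ' => ind (¬ G (l + 1 + k) θ')) ≤
          ∑ k ∈ Finset.range (j + 1 + 1), pe W ε B l k θ fun _ θ' => ind (¬ G (l + k) θ') := by
        rw [Finset.sum_range_succ' _ (j + 1)]
        simp only [pe_first hW, Finset.mul_sum]
        rw [Finset.sum_comm]
        simp only [add_assoc l 1, add_comm 1]
        exact le_add_of_nonneg_right (pe_ind_nonneg hW B _ _ _ _)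
      have e : ∀ (a b c : ℝ) (f : Cube n → ℝ), ∑ s, lp (wts W ε B l) ε (B l) θ s *
          (a * (b + c * f s) + 4 * η) =
          a * (b + c * ∑ s, lp (wts W ε B l) ε (B l) θ s * f s) + 4 * η := fun a b c f => by
        have : ∀ s, lp (wts W ε B l) ε (B l) θ s * (a * (b + c * f s) + 4 * η) =
            lp (wts W ε B l) ε (B l) θ s * (a * b + 4 * η) +
              a * c * (lp (wts W ε B l) ε (B l) θ s * f s) := fun s => by ring
        simp only [this, Finset.sum_add_distrib, ← Finset.sum_mul, ← Finset.mul_sum, hp.2]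
        ring
      rw [e] at h3
      simp only [mul_add (lp _ _ _ _ _), Finset.sum_add_distrib, mul_left_comm (lp _ _ _ _ _),
        ← Finset.mul_sum] at h3
      have h5 := vr_step (ε := ε) hWl (B l) θ u
      simp only [mul_add (lp _ _ _ _ _), Finset.sum_add_distrib] at h5
      have h6 := mul_le_mul_of_nonneg_left h4
        (by positivity : (0 : ℝ) ≤ (1 + 20 * η) ^ (j + 1) * (40 * n))
      have h7 := mul_le_mul_of_nonneg_right hq h0
      change _ = ∑ s, _ * vr (tilt (wts W ε B (l + 1)) _) u +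
        ∑ s, _ * (u ⬝ᵥ (mean (tilt (wts W ε B (l + 1)) _) - _)) ^ 2 at h5
      push_cast
      nlinarith
  have hfin : ∀ u : Vec n, u ⬝ᵥ u = 1 → vr (tilt (wts W ε B l) θ) u ≤
      Real.exp (20 * C * (N * ε ^ 2)) * (3 * C ^ 2 + 20 * C * (N * ε ^ 2) + 40 * n *
        ∑ k ∈ Finset.range (N - l + 1), pe W ε B l k θ fun _ θ' => ind (¬ G (l + k) θ')) := by
    intro u hu
    have h1 := key u hu (N - l) l (by omega) θ hθ
    have h2 : 20 * η * (N - l : ℕ) ≤ 20 * C * (N * ε ^ 2) := by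
      have : ((N - l : ℕ) : ℝ) ≤ N := by exact_mod_cast Nat.sub_le N l
      calc _ ≤ 20 * η * N := mul_le_mul_of_nonneg_left this (by positivity)
        _ = _ := by rw [hη]; ring
    have h3 : (1 + 20 * η) ^ (N - l) ≤ Real.exp (20 * C * (N * ε ^ 2)) := by
      refine (pow_le_pow_left₀ (by positivity) (by linarith [Real.add_one_le_exp (20 * η)] :
        1 + 20 * η ≤ Real.exp (20 * η)) _).trans ?_
      rw [← Real.exp_nat_mul]
      exact Real.exp_le_exp.2 (by linarith)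
    have h4 := mul_nonneg (by positivity : (0 : ℝ) ≤ 40 * n) (hP l (N - l) θ)
    refine le_trans (le_add_of_nonneg_right (by positivity)) (h1.trans
      (mul_le_mul h3 (by linarith) (add_nonneg (by positivity) h4) (Real.exp_pos _).le))
  rcases (vn_nonneg u).eq_or_lt with hu | hu
  · rw [vn_eq_zero hu.symm]
    simp [vr]
  have h1 := hfin ((vn u)⁻¹ • u) (by
    rw [smul_dotProduct, dotProduct_smul, dot_self, smul_eq_mul, smul_eq_mul]
    field_simp)
  rw [vr_smul, inv_pow, inv_mul_le_iff₀ (pow_pos hu 2)] at h1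
  rw [dot_self, mul_comm]
  exact h1

end Vale.Agent.P150
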