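import Vale.Agent.P150.TapA

/-! Good fields: stability, propagation, strong fields. -/

open MeasureTheory ProbabilityTheory Matrix Filter Topology
open scoped ENNReal NNReal

namespace Vale.Agent.P150

variable {n : ℕ}

theorem HP.mono {β κ c c' ρ ρ' : ℝ} {J : Mat n} {θ θ' : Vec n} (h : HP β κ J c ρ θ) (hc : c' ≤ c)
    (hρ : vn (θ' - θ) ≤ (ρ - ρ') * √(n : ℝ)) : HP β κ J c' ρ' θ' := by
  intro H hH u
  have h1 := vn_triangle (tap β κ J H) θ' θ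
  have h2 : 0 ≤ u ⬝ᵥ u := by rw [dot_self]; positivity
  exact (mul_le_mul_of_nonneg_right hc h2).trans (h H (by linarith) u)

/-- Every approximate solution is close to the exact one. -/
theorem good_close (hn : 0 < n) {β κ c ρ : ℝ} {J : Mat n} {θ H₀ : Vec n} (hβ : β ^ 2 ≤ 1)
    (hJ : J.IsSymm) (hJ3 : opn J ≤ 3) (hκ : κ ∈ Set.Icc (0 : ℝ) 1) (hc : 0 < c) (hc1 : c ≤ 1)
    (hρ : 0 < ρ) (hρ1 : ρ ≤ 1) (h : Good β κ J c ρ θ) (h0 : tap β κ J H₀ = θ) (H : Vec n) :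
    vn (mag H - mag H₀) ≤ 200 / (c * ρ) * vn (tap β κ J H - θ) := by
  have hr := vn_nonneg (tap β κ J H - θ)
  by_cases hs : 100 / c * vn (tap β κ J H - θ) < ρ * √(n : ℝ)
  · obtain ⟨H₁, h1, h2⟩ := tap_exists hn hβ hJ hJ3 hκ hc hc1 h.1 hs
    rw [h.2.unique h1 h0, vn_sub_comm] at h2
    refine (vn_mag_sub_le H H₀).trans (h2.trans (mul_le_mul_of_nonneg_right ?_ hr))
    rw [div_le_div_iff₀ hc (by positivity)]
    nlinarith
  · have h1 := vn_sub_le (mag H) (mag H₀)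
    have h2 := vn_mag_le H
    have h3 := vn_mag_le H₀
    have h4 : 200 / (c * ρ) * vn (tap β κ J H - θ) =
        2 * (100 / c * vn (tap β κ J H - θ)) / ρ := by field_simp; ring
    rw [h4, le_div_iff₀ hρ]
    nlinarith [not_lt.1 hs]

/-- Propagation of uniqueness to a nearby field. -/
theorem good_prop (hn : 0 < n) {β κ c ρ ρ' : ℝ} {J : Mat n} {θ θ' : Vec n} (hβ : β ^ 2 ≤ 1)
    (hJ : J.IsSymm) (hJ3 : opn J ≤ 3) (hκ : κ ∈ Set.Icc (0 : ℝ) 1) (hc : 0 < c) (hc1 : c ≤ 1)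
    (hρ : 0 < ρ) (hρ' : ρ / 2 ≤ ρ') (h : Good β κ J c ρ θ) (h' : HP β κ J c ρ' θ')
    (hd : vn (θ' - θ) ≤ c * ρ / 1000 * √(n : ℝ)) : Good β κ J c ρ' θ' := by
  have hs : 0 < √(n : ℝ) := Real.sqrt_pos.2 (by exact_mod_cast hn)
  have hb : ∀ t : ℝ, 0 ≤ t → t / c * vn (θ' - θ) ≤ t / 1000 * (ρ * √(n : ℝ)) := fun t ht => by
    refine (mul_le_mul_of_nonneg_left hd (by positivity)).trans (le_of_eq ?_)
    field_simp
  have hp : 0 < ρ * √(n : ℝ) := by positivity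
  have hp' : ρ / 2 * √(n : ℝ) ≤ ρ' * √(n : ℝ) := mul_le_mul_of_nonneg_right hρ' hs.le
  obtain ⟨H₀, h0, hu⟩ := h.2
  have key : ∀ H', tap β κ J H' = θ' → vn (H₀ - H') ≤ 14 / 1000 * (ρ * √(n : ℝ)) := by
    intro H' hH'
    obtain ⟨H₁, h1, h2⟩ := tap_exists (H₁ := H') hn hβ hJ hJ3 hκ hc hc1 h.1 (by
      rw [hH']; linarith [hb 100 (by norm_num)])
    rw [hu H₁ h1, hH'] at h2
    exact h2.trans (hb 14 (by norm_num))
  obtain ⟨H₁, h1, -⟩ := tap_exists (H₁ := H₀) hn hβ hJ hJ3 hκ hc hc1 h' (by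
    rw [h0, vn_sub_comm]; linarith [hb 100 (by norm_num)])
  refine ⟨h', H₁, h1, fun H₂ h2 => tap_unique hn hβ hJ3 hκ hc h' h2 h1 ?_⟩
  have h3 := vn_triangle H₂ H₀ H₁
  have h4 := key H₂ h2
  rw [vn_sub_comm] at h4
  linarith [key H₁ h1]

theorem good_shift (hn : 0 < n) {β κ c ρ : ℝ} {J : Mat n} {θ l : Vec n} (hβ : β ^ 2 ≤ 1)
    (hJ : J.IsSymm) (hJ3 : opn J ≤ 3) (hκ : κ ∈ Set.Icc (0 : ℝ) 1) (hc : 0 < c) (hc1 : c ≤ 1)
    (hρ : 0 < ρ) (h : Good β κ J c ρ θ) (hd : vn l ≤ c * ρ / 1000 * √(n : ℝ)) :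
    Good β κ J c (ρ / 2) (θ + l) := by
  have e : θ + l - θ = l := add_sub_cancel_left θ l
  refine good_prop hn hβ hJ hJ3 hκ hc hc1 hρ le_rfl h (h.1.mono le_rfl ?_) (by rwa [e])
  rw [e]
  refine hd.trans (mul_le_mul_of_nonneg_right ?_ (Real.sqrt_nonneg _))
  nlinarith

theorem cosh_sq_ge {x : ℝ} (hx : 13 ≤ |x|) : 44 ≤ Real.cosh x ^ 2 := by
  rw [← Real.cosh_abs]
  have h1 := Real.add_one_le_exp |x|
  have h2 := Real.exp_pos (-|x|)
  have h3 : 7 ≤ Real.cosh |x| := by rw [Real.cosh_eq]; linarith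
  nlinarith

/-- The Hessian is positive when `cosh (H i) ^ 2 ≥ 44` off a small set. -/
theorem hess_strong (hn : 0 < n) {α β κ : ℝ} {J : Mat n} {H : Vec n} (hα1 : α ≤ 1 / 100)
    (hβ : β ^ 2 ≤ 1) (hJ3 : opn J ≤ 3) (hκ : κ ∈ Set.Icc (0 : ℝ) 1) (hS : SubN J α)
    (S : Finset (Fin n)) (hcard : (S.card : ℝ) ≤ α * n)
    (hH : ∀ i, i ∉ S → 44 ≤ Real.cosh (H i) ^ 2) (u : Vec n) :
    1 / 4 * (u ⬝ᵥ u) ≤ hess β κ J H u := by
  have hn' : (0 : ℝ) < n := by exact_mod_cast hn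
  set a : Vec n := fun i => if i ∈ S then u i else 0 with ha
  set b : Vec n := fun i => if i ∈ S then 0 else u i with hb
  have hu : u = a + b := by
    funext i; by_cases h : i ∈ S <;> simp [ha, hb, h]
  have hA := vn_nonneg a
  have hB := vn_nonneg b
  have h1 : u ⬝ᵥ u = vn a ^ 2 + vn b ^ 2 := by
    rw [dot_self, vn_sq, vn_sq, vn_sq, ← Finset.sum_add_distrib]
    refine Finset.sum_congr rfl fun i _ => ?_
    by_cases h : i ∈ S <;> simp [ha, hb, h]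
  have h2 : vn a ^ 2 + 44 * vn b ^ 2 ≤ ∑ i, Real.cosh (H i) ^ 2 * u i ^ 2 := by
    rw [vn_sq, vn_sq, Finset.mul_sum, ← Finset.sum_add_distrib]
    refine Finset.sum_le_sum fun i _ => ?_
    have h3 := sq_nonneg (u i)
    by_cases h : i ∈ S
    · have := Real.one_le_cosh (H i)
      simp only [ha, hb, h, if_true]
      nlinarith [mul_nonneg h3 (show 0 ≤ Real.cosh (H i) ^ 2 - 1 by nlinarith)]
    · have := hH i h
      simp only [ha, hb, h, if_false]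
      nlinarith
  have h3 : u ⬝ᵥ J *ᵥ u ≤ 1 / 2 * vn a ^ 2 + 39 * vn b ^ 2 := by
    have e1 : a ⬝ᵥ J *ᵥ a ≤ 1 / 4 * (a ⬝ᵥ a) := by
      refine hS a (le_trans ?_ hcard)
      refine Nat.cast_le.2 (Finset.card_le_card fun i hi => ?_)
      by_contra h
      simp [ha, h] at hi
    have e2 : ∀ x y : Vec n, x ⬝ᵥ J *ᵥ y ≤ 3 * (vn x * vn y) := fun x y => by
      refine (le_abs_self _).trans ((abs_dot_mulVec_le J x y).trans ?_)
      rw [mul_assoc]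
      exact mul_le_mul_of_nonneg_right hJ3 (mul_nonneg (vn_nonneg _) (vn_nonneg _))
    have e3 : u ⬝ᵥ J *ᵥ u = a ⬝ᵥ J *ᵥ a + a ⬝ᵥ J *ᵥ b + b ⬝ᵥ J *ᵥ a + b ⬝ᵥ J *ᵥ b := by
      rw [hu]; simp only [mulVec_add, add_dotProduct, dotProduct_add]; ring
    rw [dot_self] at e1
    nlinarith [e2 a b, e2 b a, e2 b b, sq_nonneg (vn a - 12 * vn b)]
  have h4 : (mag H ⬝ᵥ u) ^ 2 ≤ (2 * α * vn a ^ 2 + 2 * vn b ^ 2) * n := by
    set m : Vec n := fun i => if i ∈ S then mag H i else 0 with hm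
    have e1 : mag H ⬝ᵥ a = m ⬝ᵥ a := by
      refine Finset.sum_congr rfl fun i _ => ?_
      by_cases h : i ∈ S <;> simp [ha, hm, h]
    have e2 : vn m ^ 2 ≤ α * n := by
      refine le_trans ?_ hcard
      rw [vn_sq]
      calc ∑ i, m i ^ 2 ≤ ∑ i, if i ∈ S then (1 : ℝ) else 0 := by
            refine Finset.sum_le_sum fun i _ => ?_
            by_cases h : i ∈ S
            · simp only [hm, h, if_true]
              exact (sq_le_one_iff_abs_le_one _).2 (abs_mag_le H i)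
            · simp [hm, h]
        _ = S.card := by simp
    have e3 : (m ⬝ᵥ a) ^ 2 ≤ α * n * vn a ^ 2 := by
      refine le_trans ?_ (mul_le_mul_of_nonneg_right e2 (sq_nonneg _))
      rw [← mul_pow, ← sq_abs]
      exact pow_le_pow_left₀ (abs_nonneg _) (abs_dot_le m a) 2
    have e4 : (mag H ⬝ᵥ b) ^ 2 ≤ n * vn b ^ 2 := by
      have e5 : vn (mag H) ^ 2 ≤ n := by
        have := pow_le_pow_left₀ (vn_nonneg _) (vn_mag_le H) 2
        rwa [Real.sq_sqrt hn'.le] at this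
      refine le_trans ?_ (mul_le_mul_of_nonneg_right e5 (sq_nonneg _))
      rw [← mul_pow, ← sq_abs]
      exact pow_le_pow_left₀ (abs_nonneg _) (abs_dot_le _ b) 2
    have e6 : mag H ⬝ᵥ u = m ⬝ᵥ a + mag H ⬝ᵥ b := by rw [← e1, ← dotProduct_add, ← hu]
    rw [e6]
    nlinarith [sq_nonneg (m ⬝ᵥ a - mag H ⬝ᵥ b)]
  have h5 : 0 ≤ κ ^ 2 * ons β (mag H) * (u ⬝ᵥ u) := by
    have := (ons_mem hβ (vn_mag_le H)).1
    rw [h1]; positivity
  have h6 : κ * (u ⬝ᵥ J *ᵥ u) ≤ 1 / 2 * vn a ^ 2 + 39 * vn b ^ 2 := by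
    refine (mul_le_mul_of_nonneg_left h3 hκ.1).trans ?_
    exact mul_le_of_le_one_left (by positivity) hκ.2
  have h7 : 2 * κ ^ 2 * β ^ 2 * (mag H ⬝ᵥ u) ^ 2 / n ≤ 4 * α * vn a ^ 2 + 4 * vn b ^ 2 := by
    rw [div_le_iff₀ hn']
    have e1 : κ ^ 2 * β ^ 2 ≤ 1 :=
      mul_le_one₀ (pow_le_one₀ hκ.1 hκ.2) (sq_nonneg _) hβ
    nlinarith [mul_le_mul_of_nonneg_right e1 (sq_nonneg (mag H ⬝ᵥ u))]
  unfold hess
  rw [h1] at h5 ⊢
  nlinarith [mul_le_mul_of_nonneg_right hα1 (sq_nonneg (vn a)), sq_nonneg (vn a),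
    sq_nonneg (vn b)]

theorem hp_strong (hn : 0 < n) {α β κ : ℝ} {J : Mat n} {θ : Vec n} (hα : 0 < α)
    (hα1 : α ≤ 1 / 100) (hβ : β ^ 2 ≤ 1) (hJ3 : opn J ≤ 3) (hκ : κ ∈ Set.Icc (0 : ℝ) 1)
    (hS : SubN J α) (hw : weak (10000 / α) θ ≤ α / 2 * n) : HP β κ J (1 / 4) 2000 θ := by
  intro H hH u
  have hn' : (0 : ℝ) < n := by exact_mod_cast hn
  set R : ℝ := 10000 / α with hR
  have hRα : R * α = 10000 := by rw [hR]; field_simp
  have hR0 : 0 < R := by positivity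
  have hR1 : 1000000 ≤ R := by nlinarith
  have h1 : vn (H - θ) ≤ 2004 * √(n : ℝ) := by
    have e1 := vn_triangle H (tap β κ J H) θ
    have e2 := vn_tap_sub_le hβ hJ3 hκ H
    rw [vn_sub_comm] at e2
    linarith
  have h2 : ∑ i, (H - θ) i ^ 2 ≤ 2004 ^ 2 * n := by
    have := pow_le_pow_left₀ (vn_nonneg _) h1 2
    rwa [mul_pow, Real.sq_sqrt hn'.le, vn_sq] at this
  set T : Finset (Fin n) := Finset.univ.filter fun i => R / 2 ≤ |(H - θ) i| with hT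
  have h3 : (T.card : ℝ) * (R / 2) ^ 2 ≤ 2004 ^ 2 * n := by
    refine le_trans ?_ h2
    calc (T.card : ℝ) * (R / 2) ^ 2 = ∑ _i ∈ T, (R / 2) ^ 2 := by simp
      _ ≤ ∑ i ∈ T, (H - θ) i ^ 2 := Finset.sum_le_sum fun i hi => by
          rw [← sq_abs ((H - θ) i)]
          exact pow_le_pow_left₀ (by positivity) (Finset.mem_filter.1 hi).2 2
      _ ≤ _ := Finset.sum_le_sum_of_subset_of_nonneg (Finset.subset_univ _)
          fun _ _ _ => sq_nonneg _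
  have h4 : (T.card : ℝ) ≤ α / 2 * n := by
    by_contra h
    have e1 : α / 2 * n * (R / 2) ^ 2 < T.card * (R / 2) ^ 2 :=
      mul_lt_mul_of_pos_right (not_le.1 h) (by positivity)
    have e2 : α / 2 * n * (R / 2) ^ 2 = 1250 * R * n := by
      linear_combination (R * n / 8) * hRα
    nlinarith
  refine hess_strong hn hα1 hβ hJ3 hκ hS ((Finset.univ.filter fun i => |θ i| < R) ∪ T) ?_
    (fun i hi => cosh_sq_ge ?_) u
  · have e1 : ((((Finset.univ.filter fun i => |θ i| < R) ∪ T).card : ℕ) : ℝ) ≤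
        weak R θ + T.card := by
      unfold weak
      exact_mod_cast Finset.card_union_le _ _
    linarith
  · simp only [hT, Finset.mem_union, Finset.mem_filter, Finset.mem_univ, true_and, not_or,
      not_lt, not_le, Pi.sub_apply] at hi
    have e1 := abs_sub_abs_le_abs_sub (θ i) (H i)
    rw [abs_sub_comm] at e1
    linarith [hi.1, hi.2]

/-- Strong fields. If the residual is below `2000 sqrt n` then `|H - θ| ≤ 2004 sqrt n`, so off a set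
`S` of at most `α n` sites `|H i| ≥ R/2` and `cosh (H i) ^ 2 ≥ 44`. Split `u = u_S + u'`:
`u ⬝ J u ≤ (1/4) |u_S|² + 6 |u_S| |u'| + 3 |u'|² ≤ (1/2) |u_S|² + 39 |u'|²` and
`2 (M ⬝ u)²/n ≤ 4 α |u_S|² + 4 |u'|²`. So `HP (1/4) 2000` holds; existence from `H₁ = θ` and
uniqueness follow from `tap_exists`, `tap_unique`, `vn_tap_sub_le`. -/
theorem good_strong {α : ℝ} (hα : 0 < α) (hα1 : α ≤ 1 / 100) : ∃ R : ℝ, 0 < R ∧
    ∀ (n : ℕ) (β κ c ρ : ℝ) (J : Mat n) (θ : Vec n), 0 < n → β ^ 2 ≤ 1 → J.IsSymm → opn J ≤ 3 →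
      κ ∈ Set.Icc (0 : ℝ) 1 → c ≤ 1 / 4 → ρ ≤ 1 → SubN J α → weak R θ ≤ α / 2 * n →
      Good β κ J c ρ θ := by
  refine ⟨10000 / α, by positivity, fun n β κ c ρ J θ hn hβ hJ hJ3 hκ hc hρ hS hw => ?_⟩
  have hs : 0 < √(n : ℝ) := Real.sqrt_pos.2 (by exact_mod_cast hn)
  have h := hp_strong hn hα hα1 hβ hJ3 hκ hS hw
  obtain ⟨H₁, h1, -⟩ := tap_exists (H₁ := θ) hn hβ hJ hJ3 hκ (by norm_num) (by norm_num) h (by
    linarith [vn_tap_sub_le hβ hJ3 hκ θ])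
  refine ⟨h.mono hc ?_, H₁, h1, fun H₂ h2 => tap_unique hn hβ hJ3 hκ (by norm_num) h h2 h1 ?_⟩
  · rw [sub_self, vn_zero]
    exact mul_nonneg (by linarith) hs.le
  · have e1 := vn_tap_sub_le hβ hJ3 hκ H₁
    have e2 := vn_tap_sub_le hβ hJ3 hκ H₂
    rw [h1] at e1
    rw [h2, vn_sub_comm] at e2
    linarith [vn_triangle H₂ θ H₁]

end Vale.Agent.P150
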