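import Vale.Agent.P150.EntA
import Vale.Agent.P150.TapB

/-! Strong fields along the localization, terminal estimates. -/

open MeasureTheory ProbabilityTheory Matrix Filter Topology
open scoped ENNReal NNReal

namespace Vale.Agent.P150

variable {n : ℕ}

variable {ε : ℝ}

namespace Strong

lemma le_cosh (t : ℝ) : 1 + t ^ 2 / 2 ≤ Real.cosh t := by
  have h1 := Real.cosh_two_mul (t / 2)
  have h2 := Real.cosh_sq (t / 2)
  have h3 : |t / 2| ≤ |Real.sinh (t / 2)| := by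
    rw [Real.abs_sinh]
    exact Real.self_le_sinh_iff.2 (abs_nonneg _)
  have h4 := sq_le_sq.2 h3
  rw [show 2 * (t / 2) = t by ring] at h1
  nlinarith

lemma log_cosh_le (t : ℝ) : Real.log (Real.cosh t) ≤ t ^ 2 / 2 :=
  (Real.log_le_iff_le_exp (Real.cosh_pos t)).2 (Real.cosh_le_exp_half_sq t)

lemma le_log_cosh (t : ℝ) : t ^ 2 / 2 - t ^ 4 ≤ Real.log (Real.cosh t) := by
  have h0 : 0 < 1 + t ^ 2 / 2 := by positivity
  refine le_trans ?_ ((Real.one_sub_inv_le_log_of_pos h0).trans (Real.log_le_log h0 (le_cosh t)))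
  have h1 : (1 + t ^ 2 / 2)⁻¹ ≤ 1 - t ^ 2 / 2 + t ^ 4 := by
    rw [inv_eq_one_div, div_le_iff₀ h0]
    nlinarith [sq_nonneg (t ^ 2), sq_nonneg (t ^ 3)]
  linarith

lemma factor_le (a b : ℝ) :
    Real.cosh a + Real.tanh b * Real.sinh a ≤ Real.exp (a ^ 2 + b ^ 2 / 2) := by
  have h1 : ∀ t, Real.tanh t ^ 2 ≤ t ^ 2 := fun t =>
    sq_le_sq.2 (by simpa using abs_tanh_sub_le t 0)
  have h2 : Real.sinh a = Real.tanh a * Real.cosh a := by
    rw [Real.tanh_eq_sinh_div_cosh, div_mul_cancel₀ _ (Real.cosh_pos a).ne']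
  have h3 : 1 + Real.tanh b * Real.tanh a ≤ Real.exp (a ^ 2 / 2 + b ^ 2 / 2) := by
    nlinarith [Real.add_one_le_exp (a ^ 2 / 2 + b ^ 2 / 2), h1 a, h1 b,
      sq_nonneg (Real.tanh a - Real.tanh b)]
  calc _ = Real.cosh a * (1 + Real.tanh b * Real.tanh a) := by rw [h2]; ring
    _ ≤ Real.cosh a * Real.exp (a ^ 2 / 2 + b ^ 2 / 2) :=
        mul_le_mul_of_nonneg_left h3 (Real.cosh_pos a).le
    _ ≤ Real.exp (a ^ 2 / 2) * Real.exp (a ^ 2 / 2 + b ^ 2 / 2) :=
        mul_le_mul_of_nonneg_right (Real.cosh_le_exp_half_sq a) (Real.exp_pos _).le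
    _ = _ := by rw [← Real.exp_add]; ring_nf

lemma factor_nonneg (a b : ℝ) : 0 ≤ Real.cosh a + Real.tanh b * Real.sinh a := by
  have h2 : Real.sinh a = Real.tanh a * Real.cosh a := by
    rw [Real.tanh_eq_sinh_div_cosh, div_mul_cancel₀ _ (Real.cosh_pos a).ne']
  have h3 : 0 ≤ 1 + Real.tanh b * Real.tanh a := by
    nlinarith [Real.tanh_sq_lt_one a, Real.tanh_sq_lt_one b, sq_nonneg (Real.tanh a + Real.tanh b)]
  calc _ ≤ Real.cosh a * (1 + Real.tanh b * Real.tanh a) := mul_nonneg (Real.cosh_pos a).le h3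
    _ = _ := by rw [h2]; ring

lemma factor_eq (ε : ℝ) (b : Bool) :
    Real.cosh (ε * -sp b) + Real.tanh (ε * sp b) * Real.sinh (ε * -sp b) = (Real.cosh ε)⁻¹ := by
  have h := Real.cosh_pos ε
  have h2 := Real.cosh_sq ε
  cases b <;> simp only [sp, Real.tanh_eq_sinh_div_cosh] <;> simp <;> field_simp <;> linarith

/-- Joint exponential moments along the first stage. -/
lemma fw_sites (x : Cube n) (S : Finset (Fin n)) (N : ℕ) :
    fw ε (fun _ => 1) x (fun θ => ∏ i ∈ S, Real.exp (-(sp (x i) * θ i))) N 0 0 =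
      ∏ _i ∈ S, (Real.cosh ε)⁻¹ ^ N := by
  have h := fw_exp (ε := ε) (fun _ => 1) x (fun i => if i ∈ S then -sp (x i) else 0) N 0 0
  have e : (fun θ : Vec n => Real.exp ((fun i => if i ∈ S then -sp (x i) else 0) ⬝ᵥ θ)) =
      fun θ => ∏ i ∈ S, Real.exp (-(sp (x i) * θ i)) := by
    funext θ
    rw [← Real.exp_sum]
    simp [dotProduct]
  rw [e] at h
  rw [h, dotProduct_zero, Real.exp_zero, one_mul, Finset.prod_const, Finset.card_range,
    Finset.prod_pow]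
  congr 1
  rw [← Finset.prod_ite_mem_eq S]
  refine Finset.prod_congr rfl fun q _ => ?_
  simp only [transpose_one, one_mulVec, sv]
  split_ifs
  · exact factor_eq ε _
  · simp

lemma fw_prod (x : Cube n) (K : ℝ) (N : ℕ) :
    fw ε (fun _ => 1) x (fun θ => ∏ i, (1 + K * Real.exp (-(sp (x i) * θ i)))) N 0 0 =
      (1 + K * (Real.cosh ε)⁻¹ ^ N) ^ n := by
  have e : (1 + K * (Real.cosh ε)⁻¹ ^ N) ^ n = ∏ _i : Fin n, (1 + K * (Real.cosh ε)⁻¹ ^ N) := by
    simp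
  simp only [e, Finset.prod_one_add, Finset.prod_mul_distrib]
  rw [fw_sum]
  exact Finset.sum_congr rfl fun S _ => by rw [fw_mul, fw_sites]

lemma vn_sq_le {B : Mat n} (hB : opn B ≤ 3) (x : Cube n) : ∑ q, (Bᵀ *ᵥ sv x) q ^ 2 ≤ 9 * n := by
  have h := vn_mulVec_le Bᵀ (sv x)
  rw [opn_transpose, vn_sv] at h
  have h2 := pow_le_pow_left₀ (vn_nonneg _)
    (h.trans (mul_le_mul_of_nonneg_right hB (Real.sqrt_nonneg _))) 2
  rw [vn_sq, mul_pow, Real.sq_sqrt (Nat.cast_nonneg n)] at h2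
  linarith

lemma card_cube : (Fintype.card (Cube n) : ℝ) ≤ Real.exp n := by
  have h : (2 : ℝ) ≤ Real.exp 1 := by linarith [Real.add_one_le_exp 1]
  have h2 := pow_le_pow_left₀ (by norm_num) h n
  rw [← Real.exp_nat_mul, mul_one] at h2
  simpa using h2

/-- Exponential moment of the increments along the second stage. -/
lemma fw_abs {B : Mat n} (hB : opn B ≤ 3) (x : Cube n) (N j : ℕ) (hj : j * ε ^ 2 ≤ 1) :
    fw ε (stB N B) x (fun θ => Real.exp (∑ i, |θ i|)) j N 0 ≤ Real.exp (15 * n) := by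
  have h1 : ∀ θ : Vec n, Real.exp (∑ i, |θ i|) ≤ ∑ σ : Cube n, Real.exp (sv σ ⬝ᵥ θ) := by
    intro θ
    refine le_trans (le_of_eq ?_) (Finset.single_le_sum (f := fun σ : Cube n =>
      Real.exp (sv σ ⬝ᵥ θ)) (fun _ _ => (Real.exp_pos _).le)
        (Finset.mem_univ fun i => decide (0 ≤ θ i)))
    congr 1
    refine Finset.sum_congr rfl fun i _ => ?_
    by_cases h : 0 ≤ θ i
    · simp [sv, sp, h, abs_of_nonneg h]
    · simp [sv, sp, h, abs_of_neg (not_le.1 h)]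
  refine (fw_mono _ x h1 j N 0).trans ?_
  rw [fw_sum]
  have h2 : ∀ σ : Cube n,
      fw ε (stB N B) x (fun θ => Real.exp (sv σ ⬝ᵥ θ)) j N 0 ≤ Real.exp (14 * n) := by
    intro σ
    have hb : ∀ k, stB N B (N + k) = B := fun k => if_neg (by omega)
    rw [fw_exp, dotProduct_zero, Real.exp_zero, one_mul]
    simp only [hb]
    rw [Finset.prod_const, Finset.card_range]
    refine (pow_le_pow_left₀ (Finset.prod_nonneg fun _ _ => factor_nonneg _ _)
      (Finset.prod_le_prod (fun _ _ => factor_nonneg _ _) fun _ _ => factor_le _ _) j).trans ?_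
    rw [← Real.exp_sum, ← Real.exp_nat_mul, Real.exp_le_exp]
    simp only [mul_pow, Finset.sum_add_distrib, ← Finset.sum_div, ← Finset.mul_sum]
    have h3 := vn_sq_le hB σ
    have h4 := vn_sq_le hB x
    have h5 : (0 : ℝ) ≤ n := Nat.cast_nonneg n
    have h6 : (0 : ℝ) ≤ j * ε ^ 2 := by positivity
    calc _ = j * ε ^ 2 * (∑ q, (Bᵀ *ᵥ sv σ) q ^ 2 + (∑ q, (Bᵀ *ᵥ sv x) q ^ 2) / 2) := by ring
      _ ≤ j * ε ^ 2 * (14 * n) := mul_le_mul_of_nonneg_left (by linarith) h6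
      _ ≤ _ := by nlinarith
  refine (Finset.sum_le_sum fun σ _ => h2 σ).trans ?_
  rw [Finset.sum_const, Finset.card_univ, nsmul_eq_mul,
    show 15 * (n : ℝ) = n + 14 * n by ring, Real.exp_add]
  exact mul_le_mul_of_nonneg_right card_cube (Real.exp_pos _).le

lemma ind_le_exp {P : Prop} {t : ℝ} (h : P → 0 ≤ t) : ind P ≤ Real.exp t := by
  by_cases hP : P
  · rw [ind_pos hP]
    exact Real.one_le_exp (h hP)
  · rw [ind_neg hP]
    exact (Real.exp_pos _).le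

lemma weak_split {R R' α : ℝ} (hR : R ≤ R') (hR' : 0 < R') (x : Cube n) (θ Δ : Vec n) :
    ind (α * n < weak R (Δ + θ)) ≤
      Real.exp (-(α * n / 4)) * ∏ i, (1 + Real.exp (2 * R') * Real.exp (-(sp (x i) * θ i))) +
        Real.exp (-(R' * α * n / 2)) * Real.exp (∑ i, |Δ i|) := by
  obtain ⟨A, hA⟩ : ∃ A : ℝ, A = ∑ i, if sp (x i) * θ i < 2 * R' then (1 : ℝ) else 0 := ⟨_, rfl⟩
  have h1 : Real.exp (A / 2) ≤ ∏ i, (1 + Real.exp (2 * R') * Real.exp (-(sp (x i) * θ i))) := by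
    rw [hA, Finset.sum_div, Real.exp_sum]
    refine Finset.prod_le_prod (fun _ _ => (Real.exp_pos _).le) fun i _ => ?_
    rw [← Real.exp_add]
    split_ifs with h
    · have h2 : Real.exp (1 / 2) ≤ 2 := by
        have := Real.add_one_le_exp (-(1 / 2))
        rw [Real.exp_neg, le_inv_comm₀ (by norm_num) (Real.exp_pos _)] at this
        linarith
      linarith [Real.one_le_exp (by linarith : 0 ≤ 2 * R' + -(sp (x i) * θ i))]
    · simpa using (Real.exp_pos _).le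
  have h2 : R' * weak R (Δ + θ) ≤ R' * A + ∑ i, |Δ i| := by
    rw [weak, Finset.card_filter, hA, Nat.cast_sum, Finset.mul_sum, Finset.mul_sum,
      ← Finset.sum_add_distrib]
    refine Finset.sum_le_sum fun i _ => ?_
    have h3 := abs_nonneg (Δ i)
    have h4 : sp (x i) * θ i ≤ |(Δ + θ) i| + |Δ i| := by
      have h5 := abs_sub ((Δ + θ) i) (Δ i)
      rw [Pi.add_apply, add_sub_cancel_left] at h5
      have h6 := le_abs_self (sp (x i) * θ i)
      rw [abs_mul, abs_sp, one_mul] at h6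
      exact h6.trans h5
    split_ifs <;> push_cast <;> linarith
  have p1 := mul_le_mul_of_nonneg_left h1 (Real.exp_pos (-(α * n / 4))).le
  rw [← Real.exp_add] at p1
  rw [← Real.exp_add]
  by_cases hc : α * n / 2 ≤ A
  · linarith [ind_le_one (α * n < weak R (Δ + θ)), Real.exp_pos (-(R' * α * n / 2) + ∑ i, |Δ i|),
      Real.one_le_exp (by linarith : 0 ≤ -(α * n / 4) + A / 2)]
  · have := ind_le_exp (P := α * n < weak R (Δ + θ)) (t := -(R' * α * n / 2) + ∑ i, |Δ i|)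
      fun h => by nlinarith [mul_lt_mul_of_pos_left h hR', mul_lt_mul_of_pos_left (not_le.1 hc) hR']
    linarith [Real.exp_pos (-(α * n / 4) + A / 2)]

lemma neg_log_tilt (J : Mat n) (θ : Vec n) (x : Cube n) :
    -Real.log (tilt (wJ J) θ x) = Real.log (∑ y : Cube n, Real.exp
      ((sv y ⬝ᵥ J *ᵥ sv y - sv x ⬝ᵥ J *ᵥ sv x) / 2 + θ ⬝ᵥ (sv y - sv x))) := by
  rw [← Real.log_inv, tilt, inv_div, Finset.sum_div]
  congr 1
  refine Finset.sum_congr rfl fun y _ => ?_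
  rw [wJ, wJ, ← Real.exp_add, ← Real.exp_add, ← Real.exp_sub, dotProduct_sub]
  congr 1
  ring

lemma neg_log_tilt_bound {J : Mat n} (hJ : J.IsSymm) (hJ3 : opn J ≤ 3) {γ : ℝ} (hγ : 0 < γ)
    (θ : Vec n) (x : Cube n) : -Real.log (tilt (wJ J) θ x) ≤
      γ * n + 2 * Real.exp (9 / (2 * γ)) * ∑ i, Real.exp (-(sp (x i) * θ i)) := by
  rw [neg_log_tilt, Real.log_le_iff_le_exp (Finset.sum_pos (fun _ _ => Real.exp_pos _)
    Finset.univ_nonempty)]
  have h1 : ∀ y : Cube n, (sv y ⬝ᵥ J *ᵥ sv y - sv x ⬝ᵥ J *ᵥ sv x) / 2 + θ ⬝ᵥ (sv y - sv x) ≤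
      γ * n + ∑ i, (9 / (4 * γ) * (sp (y i) - sp (x i)) ^ 2 + θ i * (sp (y i) - sp (x i))) := by
    intro y
    have hs : sv y ⬝ᵥ J *ᵥ sv x = sv x ⬝ᵥ J *ᵥ sv y := by
      rw [dotProduct_mulVec, ← mulVec_transpose, hJ.eq, dotProduct_comm]
    have h2 := le_of_abs_le (abs_dot_mulVec_le J (sv y - sv x) (sv y + sv x))
    rw [mulVec_add, dotProduct_add, sub_dotProduct, sub_dotProduct, hs] at h2
    have h3 := vn_add_le (sv y) (sv x)
    rw [vn_sv, vn_sv] at h3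
    have h4 := pow_le_pow_left₀ (vn_nonneg _) h3 2
    rw [← two_mul, mul_pow, Real.sq_sqrt (Nat.cast_nonneg n)] at h4
    have h5 : ∑ i, (9 / (4 * γ) * (sp (y i) - sp (x i)) ^ 2 + θ i * (sp (y i) - sp (x i))) =
        9 / (4 * γ) * vn (sv y - sv x) ^ 2 + θ ⬝ᵥ (sv y - sv x) := by
      rw [Finset.sum_add_distrib, ← Finset.mul_sum, vn_sq]
      rfl
    rw [h5]
    have ha := vn_nonneg (sv y - sv x)
    have hb := vn_nonneg (sv y + sv x)
    generalize vn (sv y - sv x) = a at *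
    generalize vn (sv y + sv x) = b at *
    have h6 : 3 / 2 * a * b ≤ γ * b ^ 2 / 4 + 9 / (4 * γ) * a ^ 2 := by
      have : γ * b ^ 2 / 4 + 9 / (4 * γ) * a ^ 2 - 3 / 2 * a * b = (γ * b - 3 * a) ^ 2 / (4 * γ) := by
        field_simp
        ring
      have : 0 ≤ (γ * b - 3 * a) ^ 2 / (4 * γ) := by positivity
      linarith
    nlinarith [mul_le_mul_of_nonneg_right hJ3 (mul_nonneg ha hb)]
  refine (Finset.sum_le_sum fun y _ => Real.exp_le_exp.2 (h1 y)).trans ?_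
  simp only [Real.exp_add (γ * n), ← Finset.mul_sum]
  refine mul_le_mul_of_nonneg_left ?_ (Real.exp_pos _).le
  simp only [Real.exp_sum, Finset.mul_sum]
  rw [← Fintype.prod_sum fun i (b : Bool) =>
    Real.exp (9 / (4 * γ) * (sp b - sp (x i)) ^ 2 + θ i * (sp b - sp (x i)))]
  refine Finset.prod_le_prod (fun _ _ => Finset.sum_nonneg fun _ _ => (Real.exp_pos _).le)
    fun i _ => ?_
  have h7 : ∑ b : Bool, Real.exp (9 / (4 * γ) * (sp b - sp (x i)) ^ 2 + θ i * (sp b - sp (x i))) =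
      1 + (Real.exp (9 / (2 * γ)) * Real.exp (-(sp (x i) * θ i))) ^ 2 := by
    rw [← Real.exp_add, ← Real.exp_nat_mul, Fintype.sum_bool]
    cases x i
    · simp only [sp, Bool.false_eq_true, if_true, if_false, sub_self]
      rw [add_comm]
      congr 1
      · simp
      · congr 1
        push_cast
        ring
    · simp only [sp, Bool.false_eq_true, if_true, if_false, sub_self]
      congr 1
      · simp
      · congr 1
        push_cast
        ring
  rw [h7, mul_assoc]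
  have hz : 0 < Real.exp (9 / (2 * γ)) * Real.exp (-(sp (x i) * θ i)) := by positivity
  generalize Real.exp (9 / (2 * γ)) * Real.exp (-(sp (x i) * θ i)) = z at hz ⊢
  rw [two_mul, Real.exp_add]
  nlinarith [Real.add_one_le_exp z]

lemma log_wts {W : Cube n → ℝ} (hW : ∀ x, 0 < W x) (B : ℕ → Mat n) (x : Cube n) (l : ℕ) :
    Real.log (wts W ε B l x) = Real.log (W x) -
      ∑ j ∈ Finset.range l, ∑ k, Real.log (Real.cosh (ε * ((B j)ᵀ *ᵥ sv x) k)) := by
  induction l with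
  | zero => simp [wts]
  | succ l ih =>
    rw [wts, nxt, Real.log_mul (wts_pos hW B l x).ne'
      (Finset.prod_ne_zero_iff.2 fun _ _ => inv_ne_zero (Real.cosh_pos _).ne'), ih,
      Real.log_prod fun _ _ => inv_ne_zero (Real.cosh_pos _).ne', Finset.sum_range_succ]
    simp only [Real.log_inv, Finset.sum_neg_distrib]
    ring

end Strong

open Strong

/-- Choose `R' ≥ R` large, then `T`. First stage: `2 ^ card {i | x_i θ_i < 2 R'} ≤
∏ (1 + exp (2 R' - x_i θ_i))`; expand the product and use `fw_exp` (each factor gives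
`(cosh ε)⁻¹ ^ N ≤ 2 / T`). Second stage: `fw_comp`, `fw_shift`, and for the increment `Δ`,
`ind (card {|Δ_i| > R'} > α n / 2) ≤ exp (∑ |Δ_i| - R' α n / 2) ≤ ∑_σ exp (sv σ ⬝ Δ - R' α n / 2)`;
by `fw_exp`, `cosh a + tanh b sinh a ≤ exp (a²/2 + |a| |b|)` bounds each term by `exp (14 n)`. -/
theorem strong_prob {R α : ℝ} (hR : 0 < R) (hα : 0 < α) : ∃ T c : ℝ, 0 < T ∧ 0 < c ∧
    ∀ (n : ℕ) (ε : ℝ) (N j : ℕ) (B : Mat n) (x : Cube n), 0 < ε → T ≤ N * ε ^ 2 →
      j * ε ^ 2 ≤ 1 → opn B ≤ 3 →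
      fw ε (stB N B) x (fun θ => ind (α * n < weak R θ)) (N + j) 0 0 ≤
        2 * Real.exp (-(c * n)) := by
  obtain ⟨R', hR'⟩ : ∃ R', R' = R + 2 * (15 + α) / α := ⟨_, rfl⟩
  have h1 : R ≤ R' := by rw [hR']; exact le_add_of_nonneg_right (by positivity)
  have h2 : 15 + α ≤ R' * α / 2 := by
    rw [hR']
    field_simp
    nlinarith [mul_pos hR hα]
  obtain ⟨K, hK⟩ : ∃ K, K = Real.exp (2 * R') := ⟨_, rfl⟩
  have hK0 : 0 < K := hK ▸ Real.exp_pos _
  refine ⟨16 * K / α, α / 8, by positivity, by positivity, fun n ε N j B x _ hT hj hB => ?_⟩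
  have hn : (0 : ℝ) ≤ n := Nat.cast_nonneg n
  have h3 : ∀ θ : Vec n, fw ε (stB N B) x (fun θ => ind (α * n < weak R θ)) j (0 + N) θ ≤
      Real.exp (-(α * n / 4)) * ∏ i, (1 + K * Real.exp (-(sp (x i) * θ i))) +
        Real.exp (-(α / 8 * n)) := by
    intro θ
    rw [← zero_add θ, fw_shift, zero_add, zero_add, hK]
    refine (fw_mono _ x (weak_split h1 (hR.trans_le h1) x θ) j N 0).trans ?_
    rw [fw_add, fw_const, fw_mul]
    refine add_le_add le_rfl ((mul_le_mul_of_nonneg_left (fw_abs hB x N j hj)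
      (Real.exp_pos _).le).trans ?_)
    rw [← Real.exp_add, Real.exp_le_exp]
    nlinarith [mul_le_mul_of_nonneg_right h2 hn, mul_nonneg hα.le hn]
  rw [fw_comp]
  refine (fw_mono _ x h3 N 0 0).trans ?_
  rw [fw_add, fw_const, fw_mul, fw_congr (B := stB N B) (B' := fun _ => 1) x _ N 0
    (fun k hk => if_pos (by omega)), fw_prod, two_mul]
  refine add_le_add ?_ le_rfl
  have h4 : 8 * K / α ≤ Real.cosh ε ^ N := by
    have h5 := one_add_mul_le_pow (by nlinarith [sq_nonneg ε] : -2 ≤ ε ^ 2 / 2) N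
    have h6 := pow_le_pow_left₀ (by positivity) (le_cosh ε) N
    have h7 : 8 * K / α = 16 * K / α / 2 := by ring
    linarith
  have h8 : K * (Real.cosh ε)⁻¹ ^ N ≤ α / 8 := by
    rw [inv_pow, ← div_eq_mul_inv, div_le_iff₀ (pow_pos (Real.cosh_pos ε) N)]
    rw [div_le_iff₀ hα] at h4
    linarith
  have h9 : (1 + K * (Real.cosh ε)⁻¹ ^ N) ^ n ≤ Real.exp (n * (α / 8)) := by
    rw [Real.exp_nat_mul]
    have := Real.cosh_pos ε
    exact pow_le_pow_left₀ (by positivity) (by linarith [Real.add_one_le_exp (α / 8)]) n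
  refine (mul_le_mul_of_nonneg_left h9 (Real.exp_pos _).le).trans (le_of_eq ?_)
  rw [← Real.exp_add]
  ring_nf

/-- Use `ent_le_neg_log`, `pe_cond`, `tilt_wts_one`, the bound
`- log (tilt (wJ J) θ x) ≤ γ n + ∑ i, log (1 + exp (9/γ - 2 x_i θ_i))`,
`log (1 + z²) ≤ 2 z`, and `fw_exp`. -/
theorem term_ent {J : Mat n} (hJ : J.IsSymm) (hJ3 : opn J ≤ 3) {γ : ℝ} (hγ : 0 < γ) (N : ℕ)
    {f : Cube n → ℝ} (hf : ∀ x, 0 < f x) (h1 : ex (tilt (wJ J) 0) f = 1) :
    pe (wJ J) ε (fun _ => 1) 0 N 0 (fun _ θ => ent (tilt (wts (wJ J) ε (fun _ => 1) N) θ) f) ≤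
      γ * n + 2 * n * Real.exp (9 / (2 * γ)) * (Real.cosh ε)⁻¹ ^ N := by
  have hW := wJ_pos J
  have h2 := pe_mono (ε := ε) hW (fun _ => 1) 0 N 0
    (φ := fun _ θ => ent (tilt (wts (wJ J) ε (fun _ => 1) N) θ) f)
    (φ' := fun _ θ => ∑ x, tilt (wts (wJ J) ε (fun _ => 1) (0 + N)) θ x * (f x *
      (γ * n + 2 * Real.exp (9 / (2 * γ)) * ∑ i, Real.exp (-(sp (x i) * θ i))))) fun _ θ => by
      rw [zero_add, tilt_wts_one hW _ N (fun _ _ => rfl)]
      refine (ent_le_neg_log (tilt_isP hW θ) hf).trans (Finset.sum_le_sum fun x _ => ?_)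
      exact mul_le_mul_of_nonneg_left (mul_le_mul_of_nonneg_left
        (neg_log_tilt_bound hJ hJ3 hγ θ x) (hf x).le) ((tilt_isP hW θ).1 x).le
  rw [← pe_cond hW _ 0 N 0 fun x θ => f x *
    (γ * n + 2 * Real.exp (9 / (2 * γ)) * ∑ i, Real.exp (-(sp (x i) * θ i)))] at h2
  refine h2.trans (le_of_eq ?_)
  have h3 : ∀ (x : Cube n) (i : Fin n), fw ε (fun _ => 1) x
      (fun θ => Real.exp (-(sp (x i) * θ i))) N 0 0 = (Real.cosh ε)⁻¹ ^ N := fun x i => by
    simpa using fw_sites (ε := ε) x {i} N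
  simp only [pe, fw_mul, fw_add, fw_const, fw_sum, h3, wts, ← mul_assoc, ← Finset.sum_mul]
  rw [ex] at h1
  rw [h1]
  simp
  ring

/-- After the second stage the weight is almost constant: `0 ≤ t²/2 - log cosh t ≤ t⁴`. -/
theorem term_wts {J B : Mat n} (hB : opn B ≤ 3) (hBB : B * Bᵀ = (3 : ℝ) • (1 : Mat n) + J)
    (N N' : ℕ) (hN : N' * ε ^ 2 = 1) :
    ∃ c : ℝ, ∀ x, |Real.log (wts (wJ J) ε (stB N B) (N + N') x) - c| ≤ 81 * ε ^ 2 * n ^ 2 := by
  refine ⟨-(N * (n * Real.log (Real.cosh ε))) - 3 * n / 2, fun x => ?_⟩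
  have hb : ∀ k, stB N B (N + k) = B := fun k => if_neg (by omega)
  have h1 : ∑ j ∈ Finset.range N, ∑ k, Real.log (Real.cosh (ε * ((stB N B j)ᵀ *ᵥ sv x) k)) =
      N * (n * Real.log (Real.cosh ε)) := by
    rw [Finset.sum_congr rfl (g := fun _ => n * Real.log (Real.cosh ε)) fun j hj => ?_]
    · simp
    · rw [stB, if_pos (Finset.mem_range.1 hj), transpose_one, one_mulVec,
        Finset.sum_congr rfl (g := fun _ => Real.log (Real.cosh ε)) fun k _ => ?_]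
      · simp
      · rw [← Real.cosh_abs, abs_mul, sv, abs_sp, mul_one, Real.cosh_abs]
  have h2 : ∑ k, (Bᵀ *ᵥ sv x) k ^ 2 = 3 * n + sv x ⬝ᵥ J *ᵥ sv x := by
    rw [← vn_sq, ← dot_self, mulVec_transpose, ← dotProduct_mulVec, ← mulVec_transpose,
      mulVec_mulVec, hBB, add_mulVec, smul_mulVec, one_mulVec, dotProduct_add, dotProduct_smul,
      dot_self, vn_sv, Real.sq_sqrt (Nat.cast_nonneg n), smul_eq_mul]
  have h3 := vn_sq_le hB x
  rw [log_wts (wJ_pos J), Finset.sum_range_add, h1, wJ, Real.log_exp]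
  simp only [hb]
  rw [Finset.sum_const, Finset.card_range, nsmul_eq_mul]
  generalize Bᵀ *ᵥ sv x = w at h2 h3 ⊢
  have h4 : ∑ k, Real.log (Real.cosh (ε * w k)) ≤ ε ^ 2 * (∑ k, w k ^ 2) / 2 := by
    refine (Finset.sum_le_sum fun k _ => log_cosh_le _).trans (le_of_eq ?_)
    simp only [mul_pow, ← Finset.sum_div, ← Finset.mul_sum]
  have h5 : ε ^ 2 * (∑ k, w k ^ 2) / 2 - ε ^ 4 * ∑ k, (w k ^ 2) ^ 2 ≤
      ∑ k, Real.log (Real.cosh (ε * w k)) := by
    refine le_trans (le_of_eq ?_) (Finset.sum_le_sum fun k _ => le_log_cosh _)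
    simp only [mul_pow, Finset.sum_sub_distrib, ← Finset.sum_div, ← Finset.mul_sum, ← pow_mul]
  have h6 : ∑ k, (w k ^ 2) ^ 2 ≤ (9 * n) ^ 2 :=
    (Finset.sum_sq_le_sq_sum_of_nonneg fun _ _ => sq_nonneg _).trans
      (pow_le_pow_left₀ (Finset.sum_nonneg fun _ _ => sq_nonneg _) h3 2)
  have hN' : (0 : ℝ) ≤ N' := Nat.cast_nonneg N'
  have h7 := mul_le_mul_of_nonneg_left h4 hN'
  have h8 := mul_le_mul_of_nonneg_left h5 hN'
  have h9 := mul_le_mul_of_nonneg_left h6 (sq_nonneg ε)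
  generalize ∑ k, Real.log (Real.cosh (ε * w k)) = L at *
  generalize ∑ k, (w k ^ 2) ^ 2 = Q at *
  generalize ∑ k, w k ^ 2 = S at *
  have e1 : N' * (ε ^ 2 * S / 2) = S / 2 := by linear_combination S / 2 * hN
  have e2 : N' * (ε ^ 2 * S / 2 - ε ^ 4 * Q) = S / 2 - ε ^ 2 * Q := by
    linear_combination (S / 2 - ε ^ 2 * Q) * hN
  have e3 : 0 ≤ 81 * ε ^ 2 * (n : ℝ) ^ 2 := by positivity
  rw [abs_le]
  constructor <;> nlinarith

theorem exists_sqrt {J : Mat n} (hJ : J.IsSymm) (hJ3 : opn J ≤ 3) :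
    ∃ B : Mat n, opn B ≤ 3 ∧ B * Bᵀ = (3 : ℝ) • (1 : Mat n) + J := by
  have hq : ∀ u : Vec n, |u ⬝ᵥ J *ᵥ u| ≤ 3 * vn u ^ 2 := fun u =>
    (abs_dot_mulVec_le J u u).trans (by nlinarith [sq_nonneg (vn u)])
  have he : ∀ u : Vec n, u ⬝ᵥ ((3 : ℝ) • (1 : Mat n) + J) *ᵥ u = 3 * vn u ^ 2 + u ⬝ᵥ J *ᵥ u :=
    fun u => by
      rw [add_mulVec, smul_mulVec, one_mulVec, dotProduct_add, dotProduct_smul, dot_self,
        smul_eq_mul]
  have hP : ((3 : ℝ) • (1 : Mat n) + J).PosSemidef := by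
    refine PosSemidef.of_dotProduct_mulVec_nonneg ?_ fun u => ?_
    · rw [IsHermitian, conjTranspose_eq_transpose_of_trivial, transpose_add, transpose_smul,
        transpose_one, hJ.eq]
    · rw [star_trivial, he]
      linarith [(abs_le.1 (hq u)).1]
  open scoped MatrixOrder in
  obtain ⟨B, hB⟩ := CStarAlgebra.nonneg_iff_eq_mul_star_self.1 hP.nonneg
  rw [star_eq_conjTranspose, conjTranspose_eq_transpose_of_trivial] at hB
  refine ⟨B, ?_, hB.symm⟩
  rw [← opn_transpose]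
  refine opn_le (by norm_num) fun u => ?_
  refine (sq_le_sq₀ (vn_nonneg _) (mul_nonneg (by norm_num) (vn_nonneg _))).1 ?_
  rw [← dot_self, mulVec_transpose, ← dotProduct_mulVec, ← mulVec_transpose, mulVec_mulVec, ← hB,
    he]
  nlinarith [(abs_le.1 (hq u)).2, sq_nonneg (vn u)]

theorem neg_log_tilt_le {J : Mat n} (hJ3 : opn J ≤ 3) (x : Cube n) :
    -Real.log (tilt (wJ J) 0 x) ≤ 4 * n := by
  rw [neg_log_tilt, Real.log_le_iff_le_exp (Finset.sum_pos (fun _ _ => Real.exp_pos _)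
    Finset.univ_nonempty)]
  have hq : ∀ y : Cube n, |sv y ⬝ᵥ J *ᵥ sv y| ≤ 3 * n := fun y => by
    refine (abs_dot_mulVec_le J _ _).trans ?_
    rw [vn_sv, mul_assoc, Real.mul_self_sqrt (Nat.cast_nonneg n)]
    exact mul_le_mul_of_nonneg_right hJ3 (Nat.cast_nonneg n)
  refine (Finset.sum_le_sum (g := fun _ => Real.exp (3 * n)) fun y _ =>
    Real.exp_le_exp.2 ?_).trans ?_
  · rw [zero_dotProduct]
    linarith [(abs_le.1 (hq y)).2, (abs_le.1 (hq x)).1]
  · rw [Finset.sum_const, Finset.card_univ, nsmul_eq_mul,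
      show 4 * (n : ℝ) = n + 3 * n by ring, Real.exp_add]
    exact mul_le_mul_of_nonneg_right card_cube (Real.exp_pos _).le

/-- Backward propagation of goodness along the first stage: if `θ` is not good at time `l < N` but
satisfies `HP`, then by `good_prop` no successor is good. -/
theorem bad_le (hn : 0 < n) {β c ρ : ℝ} {J : Mat n} (hβ : β ^ 2 ≤ 1) (hJ : J.IsSymm)
    (hJ3 : opn J ≤ 3) (hc : 0 < c) (hc1 : c ≤ 1) (hρ : 0 < ρ) (hε : 0 < ε)
    (hε' : ε ≤ c * ρ / 1000) (x : Cube n) (N l : ℕ) (hl : l ≤ N) :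
    fw ε (fun _ => 1) x (fun θ => ind (¬ Good β 1 J c ρ θ)) l 0 0 ≤
      ∑ j ∈ Finset.range (N + 1), fw ε (fun _ => 1) x (fun θ => ind (¬ HP β 1 J c ρ θ)) j 0 0 +
        fw ε (fun _ => 1) x (fun θ => ind (¬ Good β 1 J c ρ θ)) N 0 0 := by
  have h0 : ∀ j, 0 ≤ fw ε (fun _ => 1) x (fun θ => ind (¬ HP β 1 J c ρ θ)) j 0 0 := fun j => by
    rw [← fw_const (ε := ε) (fun _ => 1) x 0 j 0 0]
    exact fw_mono _ x (fun _ => ind_nonneg _) j 0 0
  have h1 : ∀ j, fw ε (fun _ => 1) x (fun θ => ind (¬ Good β 1 J c ρ θ)) j 0 0 ≤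
      fw ε (fun _ => 1) x (fun θ => ind (¬ HP β 1 J c ρ θ)) j 0 0 +
        fw ε (fun _ => 1) x (fun θ => ind (¬ Good β 1 J c ρ θ)) (j + 1) 0 0 := by
    intro j
    rw [fw_comp, ← fw_add]
    refine fw_mono _ x (fun θ => ?_) j 0 0
    simp only [fw, tx]
    have h2 : 0 ≤ ∑ s, lab ε 1 x s * ind (¬ Good β 1 J c ρ (stp ε 1 θ s)) :=
      Finset.sum_nonneg fun s _ => mul_nonneg (lab_pos _ _ _).le (ind_nonneg _)
    by_cases hH : HP β 1 J c ρ θ
    · by_cases hG : Good β 1 J c ρ θ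
      · rw [ind_neg (not_not.2 hG)]
        exact add_nonneg (ind_nonneg _) h2
      · have h3 : ∀ s, ind (¬ Good β 1 J c ρ (stp ε 1 θ s)) = 1 := fun s => ind_pos fun h =>
          hG (good_prop hn hβ hJ hJ3 ⟨zero_le_one, le_rfl⟩ hc hc1 hρ (by linarith) h hH (by
            rw [stp, sub_add_cancel_left, vn_neg, one_mulVec, vn_smul, vn_sv, abs_of_pos hε]
            exact mul_le_mul_of_nonneg_right hε' (Real.sqrt_nonneg _)))
        simp only [h3, mul_one, sum_lab]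
        linarith [ind_le_one (¬ Good β 1 J c ρ θ), ind_nonneg (¬ HP β 1 J c ρ θ)]
    · rw [ind_pos hH]
      linarith [ind_le_one (¬ Good β 1 J c ρ θ)]
  rw [Finset.sum_range_succ]
  refine le_trans ?_ (add_le_add (le_add_of_nonneg_right (h0 N)) le_rfl)
  induction N, hl using Nat.le_induction with
  | base => exact le_add_of_nonneg_left (Finset.sum_nonneg fun j _ => h0 j)
  | succ N _ ih =>
    rw [Finset.sum_range_succ]
    linarith [h1 N]

end Vale.Agent.P150
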