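import Vale.Agent.P150.TapA

/-! The drift of the TAP magnetization along one localization step. -/

open MeasureTheory ProbabilityTheory Matrix Filter Topology
open scoped ENNReal NNReal

namespace Vale.Agent.P150

variable {n : ℕ}

/-- Second moments of a linear image of the label. -/
theorem tdr_mom (p : Cube n → ℝ) (A : Mat n) :
    ∑ s, p s • vecMulVec (A *ᵥ sv s) (A *ᵥ sv s) =
      A * (Matrix.of fun k k' => ∑ s, p s * (sp (s k) * sp (s k'))) * Aᵀ := by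
  have h : (Matrix.of fun k k' => ∑ s, p s * (sp (s k) * sp (s k')) : Mat n) =
      ∑ s, p s • vecMulVec (sv s) (sv s) := by
    ext k k'
    simp [Matrix.sum_apply, vecMulVec_apply, sv]
  rw [h, Finset.mul_sum, Finset.sum_mul]
  refine Finset.sum_congr rfl fun s _ => ?_
  rw [Matrix.mul_smul, Matrix.smul_mul, mul_vecMulVec, vecMulVec_mul, vecMul_transpose]

theorem tdr_quad (p : Cube n → ℝ) (w : Cube n → Vec n) (u : Vec n) :
    ∑ s, p s * (u ⬝ᵥ w s) ^ 2 = u ⬝ᵥ (∑ s, p s • vecMulVec (w s) (w s)) *ᵥ u := by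
  rw [sum_mulVec, dotProduct_sum]
  refine Finset.sum_congr rfl fun s _ => ?_
  rw [smul_mulVec, dotProduct_smul, vecMulVec_mulVec]
  simp only [smul_eq_mul, op_smul_eq_smul, dotProduct_smul]
  rw [dotProduct_comm (w s) u]; ring

theorem tdr_diag_mulVec (D w : Vec n) : diagonal D *ᵥ w = D * w := by
  funext i; simp [mulVec_diagonal]

/-- Average of the second-order correction. -/
theorem tdr_corr (β κ a ε : ℝ) (J : Mat n) (H : Vec n) (p : Cube n → ℝ) (hp : ∑ s, p s = 1)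
    (w : Cube n → Vec n) :
    ∑ s, p s • corr β κ a ε J H (w s) =
      -(mag H * fun i => (∑ s, p s • vecMulVec (w s) (w s)) i i) +
      (κ ^ 2 * β ^ 2 * tr (∑ s, p s • vecMulVec (dd H * w s) (dd H * w s))) • mag H +
      (2 * κ ^ 2 * β ^ 2 / n) • (∑ s, p s • vecMulVec (dd H * w s) (dd H * w s)) *ᵥ mag H +
      ε ^ 2 • (-(a • J *ᵥ mag H) + (2 * a * κ * ons β (mag H)) • mag H) := by
  simp only [corr, smul_add, Finset.sum_add_distrib]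
  rw [← Finset.sum_smul, ← Finset.sum_smul, hp, one_smul, one_smul]
  have h1 : ∑ s, p s • -(mag H * w s * w s) =
      -(mag H * fun i => (∑ s, p s • vecMulVec (w s) (w s)) i i) := by
    funext i
    simp only [Finset.sum_apply, Pi.smul_apply, Pi.neg_apply, Pi.mul_apply, smul_eq_mul,
      Matrix.sum_apply, Matrix.smul_apply, vecMulVec_apply, Finset.mul_sum,
      ← Finset.sum_neg_distrib]
    exact Finset.sum_congr rfl fun s _ => by ring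
  have h2 : ∑ s, p s • (κ ^ 2 * β ^ 2 * avg (dd H * w s * (dd H * w s))) • mag H =
      (κ ^ 2 * β ^ 2 * tr (∑ s, p s • vecMulVec (dd H * w s) (dd H * w s))) • mag H := by
    simp only [smul_smul]
    rw [← Finset.sum_smul]
    congr 1
    simp only [tr, trace_sum, trace_smul, smul_eq_mul, Finset.sum_div, Finset.mul_sum]
    refine Finset.sum_congr rfl fun s _ => ?_
    have : (vecMulVec (dd H * w s) (dd H * w s)).trace = ∑ i, (dd H * w s * (dd H * w s)) i := by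
      simp [Matrix.trace, vecMulVec_apply]
    rw [this, avg]; ring
  have h3 : ∑ s, p s • (2 * κ ^ 2 * β ^ 2 * avg (mag H * (dd H * w s))) • (dd H * w s) =
      (2 * κ ^ 2 * β ^ 2 / n) • (∑ s, p s • vecMulVec (dd H * w s) (dd H * w s)) *ᵥ mag H := by
    rw [sum_mulVec, Finset.smul_sum]
    refine Finset.sum_congr rfl fun s _ => ?_
    rw [smul_mulVec, vecMulVec_mulVec]
    simp only [op_smul_eq_smul, smul_smul]
    congr 1
    have : avg (mag H * (dd H * w s)) = ((dd H * w s) ⬝ᵥ mag H) / n := by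
      rw [dotProduct_comm]; simp [avg, dotProduct]
    rw [this]; ring
  rw [h1, h2, h3]

/-- Perturbation of a sandwiched matrix in Frobenius norm. -/
theorem tdr_pert {Y Y' S T : Mat n} {k f g : ℝ} (hY : opn Y ≤ k) (hY' : opn Y' ≤ k)
    (hf : fro (Y' - Y) ≤ f) (hS : opn S ≤ 9) (hg : fro (T - S) ≤ g) :
    fro (Y' * T * Y'ᵀ - Y * S * Yᵀ) ≤ k ^ 2 * g + 18 * k * f := by
  have hk : 0 ≤ k := (opn_nonneg _).trans hY
  have hf0 : 0 ≤ f := (fro_nonneg _).trans hf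
  have hg0 : 0 ≤ g := (fro_nonneg _).trans hg
  have e : Y' * T * Y'ᵀ - Y * S * Yᵀ =
      Y' * (T - S) * Y'ᵀ + ((Y' - Y) * S * Y'ᵀ + Y * (S * (Y' - Y)ᵀ)) := by
    simp only [transpose_sub, Matrix.mul_sub, Matrix.sub_mul, Matrix.mul_assoc]; abel
  have h1 : fro (Y' * (T - S) * Y'ᵀ) ≤ k * g * k := by
    refine (fro_mul_le_right _ _).trans ?_
    rw [opn_transpose]
    refine mul_le_mul ((fro_mul_le_left _ _).trans ?_) hY' (opn_nonneg _) (by positivity)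
    exact mul_le_mul hY' hg (fro_nonneg _) hk
  have h2 : fro ((Y' - Y) * S * Y'ᵀ) ≤ f * 9 * k := by
    refine (fro_mul_le_right _ _).trans ?_
    rw [opn_transpose]
    refine mul_le_mul ((fro_mul_le_right _ _).trans ?_) hY' (opn_nonneg _) (by positivity)
    exact mul_le_mul hf hS (opn_nonneg _) hf0
  have h3 : fro (Y * (S * (Y' - Y)ᵀ)) ≤ k * (9 * f) := by
    refine (fro_mul_le_left _ _).trans ?_
    refine mul_le_mul hY ((fro_mul_le_left _ _).trans ?_) (fro_nonneg _) hk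
    rw [fro_transpose]
    exact mul_le_mul hS hf (fro_nonneg _) (by norm_num)
  rw [e]
  have h4 := fro_add_le (Y' * (T - S) * Y'ᵀ) ((Y' - Y) * S * Y'ᵀ + Y * (S * (Y' - Y)ᵀ))
  have h5 := fro_add_le ((Y' - Y) * S * Y'ᵀ) (Y * (S * (Y' - Y)ᵀ))
  nlinarith

theorem tdr_vn_const (t : ℝ) : vn (fun _ : Fin n => t) ≤ |t| * √(n : ℝ) :=
  vn_le_sqrt (abs_nonneg t) fun _ => le_rfl

theorem tdr_tr (hn : 0 < n) (A : Mat n) : |tr A| * √(n : ℝ) ≤ fro A := by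
  have hn' : (0 : ℝ) < n := by exact_mod_cast hn
  have h := abs_trace_le A
  have hs : √(n : ℝ) * √(n : ℝ) = n := Real.mul_self_sqrt hn'.le
  have hs0 : 0 < √(n : ℝ) := Real.sqrt_pos.2 hn'
  rw [tr, abs_div, abs_of_pos hn', div_mul_eq_mul_div, div_le_iff₀ hn']
  calc |A.trace| * √(n : ℝ) ≤ √(n : ℝ) * fro A * √(n : ℝ) := mul_le_mul_of_nonneg_right h hs0.le
    _ = fro A * (√(n : ℝ) * √(n : ℝ)) := by ring
    _ = _ := by rw [hs]

theorem tdr_tr_sub (A B : Mat n) : tr (A - B) = tr A - tr B := by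
  simp [tr, trace_sub, sub_div]

theorem tdr_vn_mul (H u : Vec n) : vn (mag H * u) ≤ vn u := by
  have := vn_mul_le (a := mag H) (u := u) zero_le_one (abs_mag_le H)
  rwa [one_mul] at this

theorem tdr_k2 {β κ : ℝ} (hβ : β ^ 2 ≤ 1) (hκ : κ ∈ Set.Icc (0 : ℝ) 1) :
    0 ≤ κ ^ 2 * β ^ 2 ∧ κ ^ 2 * β ^ 2 ≤ 1 := by
  have h1 : κ ^ 2 ≤ 1 := pow_le_one₀ hκ.1 hκ.2
  exact ⟨by positivity, mul_le_one₀ h1 (sq_nonneg _) hβ⟩

/-- Resolvent identity: the rank-one term changes the inverse by `O(1)` in Frobenius norm. -/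
theorem tdr_res (hn : 0 < n) {β κ k : ℝ} {J : Mat n} {H : Vec n} (hβ : β ^ 2 ≤ 1)
    (hκ : κ ∈ Set.Icc (0 : ℝ) 1) (hA : Adm β κ J (dd H) k) (hu : IsUnit (jt β κ J H).det)
    (hk : opn (jt β κ J H)⁻¹ ≤ k) : fro ((jt β κ J H)⁻¹ - ymat β κ J (dd H)) ≤ 2 * k ^ 2 := by
  have hn' : (0 : ℝ) < n := by exact_mod_cast hn
  have hk0 : 0 ≤ k := (opn_nonneg _).trans hk
  obtain ⟨q0, q1⟩ := tdr_k2 hβ hκ
  have e := inv_sub_inv (A := jt β κ J H) (B := 1 - lmat β κ J (dd H) * diagonal (dd H))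
    (iff_of_true ((isUnit_iff_isUnit_det _).2 hu) ((isUnit_iff_isUnit_det _).2 hA.1))
  have e2 : 1 - lmat β κ J (dd H) * diagonal (dd H) - jt β κ J H =
      (2 * κ ^ 2 * β ^ 2 / n) • vecMulVec (mag H) (mag H * dd H) := by
    rw [jt]; abel
  have h1 : fro ((2 * κ ^ 2 * β ^ 2 / n) • vecMulVec (mag H) (mag H * dd H)) ≤ 2 := by
    rw [fro_smul, fro_vecMulVec, abs_of_nonneg (by positivity)]
    have h2 := vn_mag_le H
    have h3 : vn (mag H * dd H) ≤ √(n : ℝ) := by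
      refine (tdr_vn_mul H _).trans ?_
      have := vn_le_sqrt (u := dd H) zero_le_one fun i => by
        rw [abs_of_pos (dom_dd H i).1]; exact (dom_dd H i).2
      rwa [one_mul] at this
    have h4 : vn (mag H) * vn (mag H * dd H) ≤ n := by
      calc _ ≤ √(n : ℝ) * √(n : ℝ) := mul_le_mul h2 h3 (vn_nonneg _) (Real.sqrt_nonneg _)
        _ = n := Real.mul_self_sqrt hn'.le
    calc _ ≤ 2 * κ ^ 2 * β ^ 2 / n * n := mul_le_mul_of_nonneg_left h4 (by positivity)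
      _ = 2 * (κ ^ 2 * β ^ 2) := by field_simp
      _ ≤ 2 := by linarith
  rw [ymat, e, e2]
  refine (fro_mul_le_right _ _).trans ?_
  calc _ ≤ (k * 2) * k := by
        refine mul_le_mul ((fro_mul_le_left _ _).trans ?_) hA.2 (opn_nonneg _) (by positivity)
        exact mul_le_mul hk h1 (fro_nonneg _) hk0
    _ = _ := by ring

/-- The diagonal cancellation from the local law. -/
theorem tdr_ll (hn : 0 < n) {β κ a K C₀ : ℝ} {J : Mat n} {H : Vec n} (hJ : J.IsSymm)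
    (hκ : κ ∈ Set.Icc (0 : ℝ) 1) (ha : a = 0 ∨ a = 1) (hL : LLaw β J K C₀)
    (hA : Adm β κ J (dd H) K) :
    vn (fun i => 1 + 2 * a + 2 * a * κ * ons β (mag H) + κ ^ 2 * β ^ 2 *
      tr (xmat β κ J (dd H) * ((1 + 2 * a) • (1 : Mat n) + a • J) * (xmat β κ J (dd H))ᵀ) -
      (ymat β κ J (dd H) * ((1 + 2 * a) • (1 : Mat n) + a • J) * (ymat β κ J (dd H))ᵀ) i i) ≤
      4 * C₀ := by
  obtain ⟨h1, h2, -, -⟩ := hL κ hκ (dd H) (dom_dd H) hA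
  have hx := (xmat_symm hJ hA).eq
  rw [hx, ons_mag hn]
  set X := xmat β κ J (dd H)
  set Y := ymat β κ J (dd H)
  have e : (fun i => 1 + 2 * a + 2 * a * κ * (β ^ 2 * avg (dd H)) + κ ^ 2 * β ^ 2 *
      tr (X * ((1 + 2 * a) • (1 : Mat n) + a • J) * X) -
      (Y * ((1 + 2 * a) • (1 : Mat n) + a • J) * Yᵀ) i i) =
      -((1 + 2 * a) • (fun i => (Y * Yᵀ) i i - (1 + κ ^ 2 * β ^ 2 * tr (X * X))) +
        a • fun i => (Y * J * Yᵀ) i i -
          (2 * κ * β ^ 2 * avg (dd H) + κ ^ 2 * β ^ 2 * tr (X * J * X))) := by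
    funext i
    simp only [Matrix.mul_add, Matrix.add_mul, Matrix.mul_smul, Matrix.smul_mul, Matrix.mul_one,
      tr, trace_add, trace_smul, smul_eq_mul, Matrix.add_apply, Matrix.smul_apply, Pi.neg_apply,
      Pi.add_apply, Pi.smul_apply]
    ring
  rw [e, vn_neg]
  refine (vn_add_le _ _).trans ?_
  rw [vn_smul, vn_smul]
  have hC : 0 ≤ C₀ := (vn_nonneg _).trans h1
  rcases ha with rfl | rfl
  · norm_num; linarith
  · norm_num; linarith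

theorem tdr_mom2 (p : Cube n → ℝ) (ε : ℝ) (A B : Mat n) :
    ∑ s, p s • vecMulVec (A *ᵥ (ε • B *ᵥ sv s)) (A *ᵥ (ε • B *ᵥ sv s)) =
      ε ^ 2 • (A * (B * (Matrix.of fun k k' => ∑ s, p s * (sp (s k) * sp (s k'))) * Bᵀ) * Aᵀ) := by
  have h : ∀ s, A *ᵥ (ε • B *ᵥ sv s) = (ε • (A * B)) *ᵥ sv s := fun s => by
    rw [smul_mulVec, mulVec_smul, mulVec_mulVec]
  simp only [h]
  rw [tdr_mom]
  simp only [transpose_smul, transpose_mul, Matrix.smul_mul, Matrix.mul_smul, smul_smul,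
    Matrix.mul_assoc, sq]

theorem tdr_sand {A T : Mat n} {k t : ℝ} (hA : opn A ≤ k) (hT : opn T ≤ t) :
    opn (A * T * Aᵀ) ≤ k ^ 2 * t := by
  have hk : 0 ≤ k := (opn_nonneg _).trans hA
  have ht : 0 ≤ t := (opn_nonneg _).trans hT
  refine (opn_mul_le _ _).trans ?_
  rw [opn_transpose]
  calc _ ≤ (k * t) * k := by
        refine mul_le_mul ((opn_mul_le _ _).trans ?_) hA (opn_nonneg _) (by positivity)
        exact mul_le_mul hA hT (opn_nonneg _) hk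
    _ = _ := by ring

/-- The averaged increment. -/
theorem tdr_avg (β κ a ε : ℝ) (J B T : Mat n) (H m : Vec n) (p : Cube n → ℝ)
    (hB : B * Bᵀ = (1 + 2 * a) • (1 : Mat n) + a • J) (hp : ∑ s, p s = 1)
    (hT : T = B * (Matrix.of fun k k' => ∑ s, p s * (sp (s k) * sp (s k'))) * Bᵀ) :
    ∑ s, p s • mhat β κ a ε J H (ε • B *ᵥ sv s) - mag H =
      (diagonal (dd H) * (jt β κ J H)⁻¹) *ᵥ
        (ε ^ 2 • ((B * Bᵀ) *ᵥ (m - mag H) +
          (mag H * fun i => 1 + 2 * a + 2 * a * κ * ons β (mag H) + κ ^ 2 * β ^ 2 *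
            tr ((diagonal (dd H) * (jt β κ J H)⁻¹) * T * (diagonal (dd H) * (jt β κ J H)⁻¹)ᵀ) -
            ((jt β κ J H)⁻¹ * T * ((jt β κ J H)⁻¹)ᵀ) i i) +
          (2 * κ ^ 2 * β ^ 2 / n) • ((diagonal (dd H) * (jt β κ J H)⁻¹) * T *
            (diagonal (dd H) * (jt β κ J H)⁻¹)ᵀ) *ᵥ mag H) +
        ε • B *ᵥ (∑ s, p s • sv s - ε • Bᵀ *ᵥ m)) := by
  set Y := (jt β κ J H)⁻¹ with hY
  have hd : ∀ v, dd H * (Y *ᵥ v) = (diagonal (dd H) * Y) *ᵥ v := fun v => by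
    rw [← mulVec_mulVec, tdr_diag_mulVec]
  have h1 : ∑ s, p s • mhat β κ a ε J H (ε • B *ᵥ sv s) - mag H =
      (diagonal (dd H) * Y) *ᵥ (ε • B *ᵥ (∑ s, p s • sv s) +
        ∑ s, p s • corr β κ a ε J H (Y *ᵥ (ε • B *ᵥ sv s))) := by
    have h0 : ∀ s, mhat β κ a ε J H (ε • B *ᵥ sv s) = mag H + (diagonal (dd H) * Y) *ᵥ
        (ε • B *ᵥ sv s + corr β κ a ε J H (Y *ᵥ (ε • B *ᵥ sv s))) := fun s => by
      rw [mhat, ← hY, hd]
    have h3 : ε • B *ᵥ (∑ s, p s • sv s) = ∑ s, p s • ε • B *ᵥ sv s := by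
      rw [mulVec_sum, Finset.smul_sum]
      exact Finset.sum_congr rfl fun s _ => by rw [mulVec_smul, smul_comm]
    rw [h3, ← Finset.sum_add_distrib, mulVec_sum]
    simp only [h0, smul_add (p _) (mag H), Finset.sum_add_distrib]
    rw [← Finset.sum_smul, hp, one_smul, add_sub_cancel_left]
    exact Finset.sum_congr rfl fun s _ => by rw [← smul_add, mulVec_smul _ (p s)]
  rw [h1, tdr_corr _ _ _ _ _ _ _ hp]
  simp only [hd]
  rw [tdr_mom2, tdr_mom2, ← hT]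
  congr 1
  have h2 : B *ᵥ (Bᵀ *ᵥ m) = (1 + 2 * a) • m + a • J *ᵥ m := by
    rw [mulVec_mulVec, hB, add_mulVec, smul_mulVec, smul_mulVec, one_mulVec]
  rw [hB]
  funext i
  simp only [mulVec_sub, mulVec_smul, h2, add_mulVec, smul_mulVec, one_mulVec, tr, trace_smul,
    Pi.add_apply, Pi.sub_apply, Pi.smul_apply, Pi.neg_apply, Pi.mul_apply, smul_eq_mul,
    Matrix.smul_apply]
  ring

theorem tdr_eps (hn : 0 < n) {ε : ℝ} (hε : 0 < ε) (hεn : ε * n ^ 2 ≤ 1) :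
    ε * n ≤ 1 ∧ ε ^ 2 * n * √(n : ℝ) ≤ 1 ∧ ε ^ 2 * n ≤ 1 := by
  have hn1 : (1 : ℝ) ≤ n := by exact_mod_cast hn
  have hsn : √(n : ℝ) ≤ n := Real.sqrt_le_iff.2 ⟨by positivity, by nlinarith⟩
  have he1 : ε * n ≤ 1 := by nlinarith [mul_le_mul_of_nonneg_left hn1 (by positivity : 0 ≤ ε * n)]
  have he2 : (ε * n) ^ 2 ≤ 1 := pow_le_one₀ (by positivity) he1
  refine ⟨he1, ?_, ?_⟩
  · nlinarith [mul_le_mul_of_nonneg_left hsn (by positivity : 0 ≤ ε ^ 2 * n)]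
  · nlinarith [mul_le_mul_of_nonneg_left hn1 (by positivity : 0 ≤ ε ^ 2 * n)]

theorem tdr_main (hn : 0 < n) {β κ a ε k F G C₀ : ℝ} {B T X X' Y Y' : Mat n} {H m r : Vec n}
    (hk0 : 0 < k) (hF0 : 0 ≤ F) (hC : 0 < C₀)
    (hG : G = 9 + (4 * C₀ + 2 * F) + 2 * (k ^ 2 * 171) + 81) (hε : 0 < ε) (he1 : ε * n ≤ 1)
    (q0 : 0 ≤ κ ^ 2 * β ^ 2) (q1 : κ ^ 2 * β ^ 2 ≤ 1) (hS : opn (B * Bᵀ) ≤ 9) (hB3 : opn B ≤ 3)
    (hX'k : opn X' ≤ k) (hXT : opn (X' * T * X'ᵀ) ≤ k ^ 2 * 171)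
    (hμ : vn r ≤ 27 * ε ^ 3 * n ^ 2)
    (p1 : fro (Y' * T * Y'ᵀ - Y * (B * Bᵀ) * Yᵀ) ≤ F)
    (p2 : fro (X' * T * X'ᵀ - X * (B * Bᵀ) * Xᵀ) ≤ F)
    (hll : vn (fun i => 1 + 2 * a + 2 * a * κ * ons β (mag H) + κ ^ 2 * β ^ 2 *
      tr (X * (B * Bᵀ) * Xᵀ) - (Y * (B * Bᵀ) * Yᵀ) i i) ≤ 4 * C₀) :
    vn (X' *ᵥ (ε ^ 2 • ((B * Bᵀ) *ᵥ (m - mag H) +
          (mag H * fun i => 1 + 2 * a + 2 * a * κ * ons β (mag H) + κ ^ 2 * β ^ 2 *
            tr (X' * T * X'ᵀ) - (Y' * T * Y'ᵀ) i i) +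
          (2 * κ ^ 2 * β ^ 2 / n) • (X' * T * X'ᵀ) *ᵥ mag H) + ε • B *ᵥ r)) ≤
      (k * G + k ^ 2 * 171 + 1) * ε ^ 2 * (1 + vn (m - mag H)) := by
  have hG9 : 9 ≤ G := by rw [hG]; nlinarith [sq_nonneg k]
  have hn1 : (1 : ℝ) ≤ n := by exact_mod_cast hn
  have hsn : √(n : ℝ) ≤ n := Real.sqrt_le_iff.2 ⟨by positivity, by nlinarith⟩
  have he2 : (ε * n) ^ 2 ≤ 1 := pow_le_one₀ (by positivity) he1
  have t1 : vn ((B * Bᵀ) *ᵥ (m - mag H)) ≤ 9 * vn (m - mag H) :=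
    (vn_mulVec_le _ _).trans (mul_le_mul_of_nonneg_right hS (vn_nonneg _))
  have t2 : vn (mag H * fun i => 1 + 2 * a + 2 * a * κ * ons β (mag H) + κ ^ 2 * β ^ 2 *
      tr (X' * T * X'ᵀ) - (Y' * T * Y'ᵀ) i i) ≤ 4 * C₀ + 2 * F := by
    refine (tdr_vn_mul _ _).trans ?_
    have e : (fun i => 1 + 2 * a + 2 * a * κ * ons β (mag H) + κ ^ 2 * β ^ 2 *
        tr (X' * T * X'ᵀ) - (Y' * T * Y'ᵀ) i i) =
        (fun i => 1 + 2 * a + 2 * a * κ * ons β (mag H) + κ ^ 2 * β ^ 2 *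
          tr (X * (B * Bᵀ) * Xᵀ) - (Y * (B * Bᵀ) * Yᵀ) i i) +
        (((κ ^ 2 * β ^ 2) • fun _ : Fin n => tr (X' * T * X'ᵀ - X * (B * Bᵀ) * Xᵀ)) -
          fun i => (Y' * T * Y'ᵀ - Y * (B * Bᵀ) * Yᵀ) i i) := by
      funext i
      simp only [tdr_tr_sub, Pi.add_apply, Pi.sub_apply, Pi.smul_apply, smul_eq_mul,
        Matrix.sub_apply]
      ring
    rw [e]
    refine (vn_add_le _ _).trans (add_le_add hll ((vn_sub_le _ _).trans ?_))
    have u1 := (vn_diag_le _).trans p1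
    have u2 := ((tdr_vn_const _).trans (tdr_tr hn _)).trans p2
    rw [vn_smul, abs_of_nonneg q0]
    have u3 := mul_le_mul q1 u2 (vn_nonneg _) zero_le_one
    linarith
  have t3 : vn ((2 * κ ^ 2 * β ^ 2 / n) • (X' * T * X'ᵀ) *ᵥ mag H) ≤ 2 * (k ^ 2 * 171) := by
    rw [vn_smul, abs_of_nonneg (by positivity)]
    have u1 := (vn_mulVec_le (X' * T * X'ᵀ) (mag H)).trans
      (mul_le_mul hXT ((vn_mag_le H).trans hsn) (vn_nonneg _) (by positivity))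
    calc _ ≤ 2 * κ ^ 2 * β ^ 2 / n * (k ^ 2 * 171 * n) :=
          mul_le_mul_of_nonneg_left u1 (by positivity)
      _ = (κ ^ 2 * β ^ 2) * (2 * (k ^ 2 * 171)) := by field_simp
      _ ≤ 1 * (2 * (k ^ 2 * 171)) := mul_le_mul_of_nonneg_right q1 (by positivity)
      _ = _ := one_mul _
  have t4 : vn (ε • B *ᵥ r) ≤ ε ^ 2 * 81 := by
    rw [vn_smul, abs_of_pos hε]
    have u1 := (vn_mulVec_le B _).trans (mul_le_mul hB3 hμ (vn_nonneg _) (by norm_num))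
    calc _ ≤ ε * (3 * (27 * ε ^ 3 * n ^ 2)) := mul_le_mul_of_nonneg_left u1 hε.le
      _ = ε ^ 2 * 81 * (ε * n) ^ 2 := by ring
      _ ≤ ε ^ 2 * 81 * 1 := mul_le_mul_of_nonneg_left he2 (by positivity)
      _ = _ := mul_one _
  refine (vn_mulVec_le _ _).trans ?_
  have hv := vn_nonneg (m - mag H)
  have t5 := (vn_add_le _ _).trans (add_le_add ((vn_add_le _ _).trans (add_le_add t1 t2)) t3)
  have t6 := mul_le_mul_of_nonneg_left t5 (sq_nonneg ε)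
  rw [← abs_of_nonneg (sq_nonneg ε), ← vn_smul, abs_of_nonneg (sq_nonneg ε)] at t6
  have t7 := (vn_add_le _ _).trans (add_le_add t6 t4)
  refine (mul_le_mul hX'k t7 (vn_nonneg _) hk0.le).trans ?_
  have t8 : 9 * vn (m - mag H) + (4 * C₀ + 2 * F) + 2 * (k ^ 2 * 171) + 81 ≤
      G * (1 + vn (m - mag H)) := by
    nlinarith [mul_le_mul_of_nonneg_right hG9 hv]
  calc _ = k * ε ^ 2 * (9 * vn (m - mag H) + (4 * C₀ + 2 * F) + 2 * (k ^ 2 * 171) + 81) := by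
        ring
    _ ≤ k * ε ^ 2 * (G * (1 + vn (m - mag H))) := mul_le_mul_of_nonneg_left t8 (by positivity)
    _ = k * G * (ε ^ 2 * (1 + vn (m - mag H))) := by ring
    _ ≤ (k * G + k ^ 2 * 171 + 1) * (ε ^ 2 * (1 + vn (m - mag H))) :=
        mul_le_mul_of_nonneg_right (by nlinarith [sq_nonneg k]) (by positivity)
    _ = _ := by ring

/-- Let `Ỹ = jt⁻¹`, `χ̃ = diagonal (dd H) Ỹ`, `S = B Bᵀ = (1+2a) + a J`, `M = mag H`. Averaging
`mhat - M = χ̃ (z + corr (Ỹ z))`, `z = ε B s`, with the two moment bounds gives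
`ε² χ̃ (S (m - M) + M * (1 + 2a + 2 a κ ons + κ² β² tr (χ̃ S χ̃) - diag (Ỹ S Ỹᵀ)) +
2 κ² β² χ̃ S χ̃ M / n)` up to `O(ε⁴ n²)`. By the resolvent identity `Ỹ = Y + (Y M) wᵀ / n` with
`w = 2 κ² β² Ỹᵀ (M * dd H)`, `Y = ymat β κ J (dd H)` (`posK_of_hess`, `adm_of_posK`, `ons_mag`), the
diagonal and the trace change by `O(1)` in `vn`, and `LLaw` concludes. -/
theorem tap_drift {c C₀ : ℝ} (hc : 0 < c) (hc1 : c ≤ 1) (hC : 0 < C₀) : ∃ C : ℝ, 1 ≤ C ∧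
    ∀ (n : ℕ) (β κ a ε : ℝ) (J B : Mat n) (H m : Vec n) (p : Cube n → ℝ), 0 < n → β ^ 2 ≤ 1 →
      J.IsSymm → opn J ≤ 3 → κ ∈ Set.Icc (0 : ℝ) 1 → (a = 0 ∨ a = 1) → 0 < ε → ε * n ^ 2 ≤ 1 →
      LLaw β J (5 / c) C₀ → (∀ u, c * (u ⬝ᵥ u) ≤ hess β κ J H u) → opn B ≤ 3 →
      B * Bᵀ = (1 + 2 * a) • (1 : Mat n) + a • J → (∀ s, 0 ≤ p s) → ∑ s, p s = 1 →
      vn (∑ s, p s • sv s - ε • Bᵀ *ᵥ m) ≤ 27 * ε ^ 3 * n ^ 2 →
      opn ((Matrix.of fun k k' => ∑ s, p s * (sp (s k) * sp (s k'))) - 1) ≤ 18 * ε ^ 2 * n →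
      vn (∑ s, p s • mhat β κ a ε J H (ε • B *ᵥ sv s) - mag H) ≤
          C * ε ^ 2 * (1 + vn (m - mag H)) ∧
        ∀ u : Vec n, ∑ s, p s * (u ⬝ᵥ (dd H * ((jt β κ J H)⁻¹ *ᵥ (ε • B *ᵥ sv s)))) ^ 2 ≤
          C * ε ^ 2 * (u ⬝ᵥ u) := by
  obtain ⟨k, hk⟩ : ∃ k : ℝ, k = 7 / c := ⟨_, rfl⟩
  have hk0 : 0 < k := by rw [hk]; positivity
  have hk5 : 5 / c ≤ k := by rw [hk]; gcongr; norm_num
  have hk1 : 1 / c ≤ k := by rw [hk]; gcongr; norm_num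
  obtain ⟨F, hF⟩ : ∃ F : ℝ, F = k ^ 2 * 162 + 18 * k * (2 * k ^ 2) := ⟨_, rfl⟩
  have hF0 : 0 ≤ F := by rw [hF]; positivity
  obtain ⟨G, hG⟩ : ∃ G : ℝ, G = 9 + (4 * C₀ + 2 * F) + 2 * (k ^ 2 * 171) + 81 := ⟨_, rfl⟩
  have hG9 : 9 ≤ G := by rw [hG]; nlinarith [sq_nonneg k]
  refine ⟨k * G + k ^ 2 * 171 + 1, by nlinarith [sq_nonneg k], ?_⟩
  intro n β κ a ε J B H m p hn hβ hJ hJ3 hκ ha hε hεn hL hH hB3 hB _ hp hμ hSg
  obtain ⟨hu, hY', hX', -⟩ := jt_inv hn hβ hJ hJ3 hκ hc hc1 hH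
  obtain ⟨hA, hX, -⟩ := adm_of_posK hβ hJ hJ3 (dom_dd H) hc hc1 hκ (posK_of_hess hn hH)
  obtain ⟨q0, q1⟩ := tdr_k2 hβ hκ
  rw [← hk] at hY'
  have hX'k := hX'.trans hk1
  have hXk := hX.trans hk1
  have hYk := hA.2.trans hk5
  obtain ⟨he1, he3, he4⟩ := tdr_eps hn hε hεn
  obtain ⟨T, hT⟩ : ∃ T : Mat n,
    T = B * (Matrix.of fun k k' => ∑ s, p s * (sp (s k) * sp (s k'))) * Bᵀ := ⟨_, rfl⟩
  have hS : opn (B * Bᵀ) ≤ 9 := by
    have := tdr_sand hB3 (opn_one_le (n := n))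
    rw [Matrix.mul_one] at this
    linarith only [this]
  have hTS : opn (T - B * Bᵀ) ≤ 162 * (ε ^ 2 * n) := by
    have := tdr_sand hB3 hSg
    rw [Matrix.mul_sub, Matrix.sub_mul, Matrix.mul_one, ← hT] at this
    linarith only [this]
  have hT1 : opn T ≤ 171 := by
    have := opn_add_le (T - B * Bᵀ) (B * Bᵀ)
    rw [sub_add_cancel] at this
    linarith only [this, hTS, he4, hS]
  have hTf : fro (T - B * Bᵀ) ≤ 162 := by
    refine (fro_le_opn _).trans ?_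
    linarith only [mul_le_mul_of_nonneg_right hTS (Real.sqrt_nonneg (n : ℝ)), he3]
  have hres := tdr_res hn hβ hκ (⟨hA.1, hYk⟩ : Adm β κ J (dd H) k) hu hY'
  have hres2 : fro (diagonal (dd H) * (jt β κ J H)⁻¹ - xmat β κ J (dd H)) ≤ 2 * k ^ 2 := by
    rw [xmat, ← Matrix.mul_sub]
    refine (fro_mul_le_left _ _).trans ?_
    have h1 : opn (diagonal (dd H)) ≤ 1 := opn_diagonal_le zero_le_one fun i => by
      rw [abs_of_pos (dom_dd H i).1]; exact (dom_dd H i).2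
    have := mul_le_mul h1 hres (fro_nonneg _) zero_le_one
    rwa [one_mul] at this
  have p1 := tdr_pert hYk hY' hres hS hTf
  have p2 := tdr_pert hXk hX'k hres2 hS hTf
  rw [← hF] at p1 p2
  have hll := tdr_ll hn hJ hκ ha hL hA
  rw [← hB] at hll
  have hXT := tdr_sand hX'k hT1
  constructor
  · rw [tdr_avg β κ a ε J B T H m p hB hp hT]
    exact tdr_main hn hk0 hF0 hC hG hε he1 q0 q1 hS hB3 hX'k hXT hμ p1 p2 hll
  · intro u
    have hd : ∀ v, dd H * ((jt β κ J H)⁻¹ *ᵥ v) = (diagonal (dd H) * (jt β κ J H)⁻¹) *ᵥ v :=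
      fun v => by rw [← mulVec_mulVec, tdr_diag_mulVec]
    simp only [hd]
    rw [tdr_quad, tdr_mom2, ← hT, smul_mulVec, dotProduct_smul, smul_eq_mul, dot_self]
    have u1 := (le_abs_self _).trans (abs_dot_mulVec_le
      (diagonal (dd H) * (jt β κ J H)⁻¹ * T * (diagonal (dd H) * (jt β κ J H)⁻¹)ᵀ) u u)
    have u2 := mul_le_mul_of_nonneg_right hXT (sq_nonneg (vn u))
    have hkG : 0 ≤ k * G := by positivity
    calc _ ≤ ε ^ 2 * (k ^ 2 * 171 * vn u ^ 2) :=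
          mul_le_mul_of_nonneg_left (by linarith only [u1, u2]) (sq_nonneg ε)
      _ = k ^ 2 * 171 * (ε ^ 2 * vn u ^ 2) := by ring
      _ ≤ (k * G + k ^ 2 * 171 + 1) * (ε ^ 2 * vn u ^ 2) :=
          mul_le_mul_of_nonneg_right (by linarith only [hkG]) (by positivity)
      _ = _ := by ring

end Vale.Agent.P150
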