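import Vale.Agent.P150.TapA

/-! Second-order expansion of the TAP solution. -/

open MeasureTheory ProbabilityTheory Matrix Filter Topology
open scoped ENNReal NNReal

namespace Vale.Agent.P150

variable {n : ℕ}

theorem tt_mvt {φ φ' : ℝ → ℝ} (h : ∀ s, HasDerivAt φ (φ' s) s) (h0 : φ 0 = 0) {d C : ℝ}
    (hb : ∀ s, |s| ≤ |d| → |φ' s| ≤ C) : |φ d| ≤ C * |d| := by
  have := Convex.norm_image_sub_le_of_norm_hasDerivWithin_le (f := φ) (f' := φ')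
    (s := Set.Icc (-|d|) |d|) (C := C) (fun x _ => (h x).hasDerivWithinAt)
    (fun x hx => hb x (abs_le.2 hx)) (convex_Icc _ _) (x := 0) (y := d)
    ⟨by simp, abs_nonneg d⟩ ⟨neg_abs_le d, le_abs_self d⟩
  simpa [h0] using this

theorem tt_sq {φ φ' : ℝ → ℝ} (h : ∀ s, HasDerivAt φ (φ' s) s) (h0 : φ 0 = 0)
    (hb : ∀ s, |φ' s| ≤ 2 * |s|) (d : ℝ) : |φ d| ≤ d ^ 2 := by
  have key : ∀ σ : ℝ, |σ| = 1 → 0 ≤ d ^ 2 + σ * φ d := by
    intro σ hσ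
    have hd : ∀ s, HasDerivAt (fun s => s ^ 2 + σ * φ s) (2 * s + σ * φ' s) s := fun s => by
      simpa using (hasDerivAt_pow 2 s).fun_add ((h s).const_mul σ)
    have hb' : ∀ s, |σ * φ' s| ≤ 2 * |s| := fun s => by rw [abs_mul, hσ, one_mul]; exact hb s
    rcases lt_trichotomy d 0 with hd0 | rfl | hd0
    · obtain ⟨ξ, hξ, e⟩ := exists_hasDerivAt_eq_slope _ _ hd0
        (fun s _ => (hd s).continuousAt.continuousWithinAt) (fun s _ => hd s)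
      have h1 := (abs_le.1 (hb' ξ)).2
      rw [abs_of_neg hξ.2] at h1
      rw [eq_div_iff (by linarith), h0] at e
      nlinarith
    · simp [h0]
    · obtain ⟨ξ, hξ, e⟩ := exists_hasDerivAt_eq_slope _ _ hd0
        (fun s _ => (hd s).continuousAt.continuousWithinAt) (fun s _ => hd s)
      have h1 := (abs_le.1 (hb' ξ)).1
      rw [abs_of_pos hξ.1] at h1
      rw [eq_div_iff (by linarith), h0] at e
      nlinarith
  have h1 := key 1 abs_one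
  have h2 := key (-1) (by simp)
  exact abs_le.2 ⟨by linarith, by linarith⟩

theorem tanh_taylor (h d : ℝ) :
    |Real.tanh (h + d) - Real.tanh h - (1 - Real.tanh h ^ 2) * d| ≤ d ^ 2 ∧
    |Real.tanh (h + d) - Real.tanh h - (1 - Real.tanh h ^ 2) * d +
      Real.tanh h * (1 - Real.tanh h ^ 2) * d ^ 2| ≤ |d| ^ 3 := by
  have hT : ∀ s, HasDerivAt (fun s => Real.tanh (h + s)) (1 - Real.tanh (h + s) ^ 2) s :=
    fun s => (hasDerivAt_tanh (h + s)).comp_const_add h s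
  set t := Real.tanh h with ht
  have h1 : ∀ s, HasDerivAt (fun s => Real.tanh (h + s) - t - (1 - t ^ 2) * s)
      (t ^ 2 - Real.tanh (h + s) ^ 2) s := fun s =>
    (((hT s).sub_const t).fun_sub ((hasDerivAt_id' s).const_mul (1 - t ^ 2))).congr_deriv
      (by ring)
  constructor
  · refine tt_sq h1 (by simp [ht]) (fun s => ?_) d
    have e1 := abs_tanh_sub_le h (h + s)
    have e2 : |t + Real.tanh (h + s)| ≤ 2 := (abs_add_le _ _).trans (by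
      linarith [Real.abs_tanh_lt_one h, Real.abs_tanh_lt_one (h + s)])
    rw [sq_sub_sq, abs_mul]
    refine mul_le_mul e2 ?_ (abs_nonneg _) (by norm_num)
    simpa using e1
  · have h3 : ∀ s, HasDerivAt (fun s => 2 * t * (1 - t ^ 2) -
        2 * Real.tanh (h + s) * (1 - Real.tanh (h + s) ^ 2))
        ((1 - Real.tanh (h + s) ^ 2) * (6 * Real.tanh (h + s) ^ 2 - 2)) s := fun s =>
      ((((hT s).const_mul 2).fun_mul (((hT s).fun_pow 2).const_sub 1)).const_sub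
        (2 * t * (1 - t ^ 2))).congr_deriv (by push_cast; ring)
    have h2 : ∀ s, HasDerivAt (fun s => t ^ 2 - Real.tanh (h + s) ^ 2 + 2 * t * (1 - t ^ 2) * s)
        (2 * t * (1 - t ^ 2) - 2 * Real.tanh (h + s) * (1 - Real.tanh (h + s) ^ 2)) s := fun s =>
      ((((hT s).fun_pow 2).const_sub (t ^ 2)).fun_add
        ((hasDerivAt_id' s).const_mul (2 * t * (1 - t ^ 2)))).congr_deriv (by push_cast; ring)
    have h1' : ∀ s, HasDerivAt
        (fun s => Real.tanh (h + s) - t - (1 - t ^ 2) * s + t * (1 - t ^ 2) * s ^ 2)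
        (t ^ 2 - Real.tanh (h + s) ^ 2 + 2 * t * (1 - t ^ 2) * s) s := fun s =>
      ((h1 s).fun_add ((hasDerivAt_pow 2 s).const_mul (t * (1 - t ^ 2)))).congr_deriv
        (by push_cast; ring)
    have b3 : ∀ s, |2 * t * (1 - t ^ 2) - 2 * Real.tanh (h + s) * (1 - Real.tanh (h + s) ^ 2)| ≤
        2 * |s| := fun s => tt_mvt h3 (by simp [ht]) fun x _ => by
      have e1 := Real.tanh_sq_lt_one (h + x)
      have e2 := sq_nonneg (Real.tanh (h + x))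
      generalize Real.tanh (h + x) ^ 2 = u at e1 e2
      exact abs_le.2 ⟨by nlinarith, by nlinarith [sq_nonneg (u - 2 / 3)]⟩
    have b2 := tt_sq h2 (by simp [ht]) b3
    refine (tt_mvt (C := |d| ^ 2) h1' (by simp [ht]) fun x hx => (b2 x).trans ?_).trans
      (le_of_eq (by ring))
    rw [← sq_abs x]
    exact pow_le_pow_left₀ (abs_nonneg _) hx 2

theorem tt_mul (u u' : Vec n) : vn (u * u') ≤ vn u * vn u' :=
  vn_mul_le (vn_nonneg u) (abs_le_vn u)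

theorem tt_mag (H u : Vec n) : vn (mag H * u) ≤ vn u :=
  (vn_mul_le (u := u) zero_le_one (abs_mag_le H)).trans (one_mul _).le

theorem tt_dd (H u : Vec n) : vn (dd H * u) ≤ vn u := by
  have := vn_mul_le (a := dd H) (u := u) zero_le_one fun i => by
    rw [abs_of_pos (dom_dd H i).1]; exact (dom_dd H i).2
  exact this.trans (one_mul _).le

theorem tt_mag3 (H δ : Vec n) :
    vn (mag (H + δ) - mag H - dd H * δ + mag H * (dd H * (δ * δ))) ≤ vn δ ^ 3 := by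
  have h1 : vn (mag (H + δ) - mag H - dd H * δ + mag H * (dd H * (δ * δ))) ≤
      vn (δ * (δ * δ)) := by
    refine vn_mono fun i => ?_
    have := (tanh_taylor (H i) (δ i)).2
    simp only [Pi.add_apply, Pi.sub_apply, Pi.mul_apply, mag, dd, abs_mul]
    refine le_trans (le_of_eq (congrArg _ (by ring))) (this.trans (le_of_eq (by ring)))
  refine h1.trans ((tt_mul _ _).trans ?_)
  have := mul_le_mul_of_nonneg_left (tt_mul δ δ) (vn_nonneg δ)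
  linarith

/-- The third-order remainder of the magnetization. -/
theorem tt_rem {A s : ℝ} (hA : 1 ≤ A) (hs0 : 0 ≤ s) (hs1 : s ≤ 1) (H w y : Vec n)
    (hw : vn w ≤ A * s) (hy : vn y ≤ A * s ^ 2) :
    vn (mag (H + (w + y + mag H * (w * w))) - mag H - dd H * (w + y)) ≤ 35 * A ^ 6 * s ^ 3 := by
  set δ := w + y + mag H * (w * w) with hδ
  have hA2 : A ≤ A ^ 2 := by nlinarith
  have hs2 : s ^ 2 ≤ s := by nlinarith
  have e : mag (H + δ) - mag H - dd H * (w + y) =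
      (mag (H + δ) - mag H - dd H * δ + mag H * (dd H * (δ * δ))) -
        mag H * (dd H * ((δ - w) * (δ + w))) := by
    have : dd H * δ = dd H * (w + y) + mag H * (dd H * (w * w)) := by rw [hδ]; ring
    rw [this]; ring
  have h1 : vn (δ - w) ≤ 2 * A ^ 2 * s ^ 2 := by
    have e1 : δ - w = y + mag H * (w * w) := by rw [hδ]; ring
    have e2 := (tt_mag H (w * w)).trans ((tt_mul w w).trans
      (mul_self_le_mul_self (vn_nonneg w) hw))
    rw [e1]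
    nlinarith [vn_add_le y (mag H * (w * w)), mul_le_mul_of_nonneg_right hA2 (sq_nonneg s)]
  have hw' : vn w ≤ A ^ 2 * s := hw.trans (mul_le_mul_of_nonneg_right hA2 hs0)
  have h2 : vn δ ≤ 3 * A ^ 2 * s := by
    have e1 := vn_add_le (δ - w) w
    rw [sub_add_cancel] at e1
    nlinarith [mul_le_mul_of_nonneg_left hs2 (sq_nonneg A)]
  have h3 : vn (δ + w) ≤ 4 * A ^ 2 * s := by linarith [vn_add_le δ w]
  have h4 : vn (mag H * (dd H * ((δ - w) * (δ + w)))) ≤ 2 * A ^ 2 * s ^ 2 * (4 * A ^ 2 * s) :=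
    (tt_mag _ _).trans ((tt_dd _ _).trans ((tt_mul _ _).trans
      (mul_le_mul h1 h3 (vn_nonneg _) (by positivity))))
  have h5 := (tt_mag3 H δ).trans (pow_le_pow_left₀ (vn_nonneg _) h2 3)
  have h6 : A ^ 4 ≤ A ^ 6 := pow_le_pow_right₀ hA (by norm_num)
  rw [e]
  nlinarith [vn_sub_le (mag (H + δ) - mag H - dd H * δ + mag H * (dd H * (δ * δ)))
    (mag H * (dd H * ((δ - w) * (δ + w)))), mul_le_mul_of_nonneg_right h6 (pow_nonneg hs0 3)]

theorem tt_smul {c C U : ℝ} {u : Vec n} (hc : |c| ≤ C) (hu : vn u ≤ U) : vn (c • u) ≤ C * U := by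
  rw [vn_smul]
  exact mul_le_mul hc hu (vn_nonneg _) ((abs_nonneg _).trans hc)

theorem tt_avg (hn : 0 < n) {k x X U : ℝ} {u : Vec n} (hk0 : 0 ≤ k) (hk1 : k ≤ 1)
    (hx : |x| ≤ X * √(n : ℝ)) (hu : vn u ≤ U * √(n : ℝ)) : vn ((k / n * x) • u) ≤ X * U := by
  have hn' : (0 : ℝ) < n := by exact_mod_cast hn
  have h1 : |k / n * x| ≤ 1 / n * (X * √(n : ℝ)) := by
    rw [abs_mul, abs_of_nonneg (by positivity)]
    exact mul_le_mul (div_le_div_of_nonneg_right hk1 hn'.le) hx (abs_nonneg _) (by positivity)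
  refine (tt_smul h1 hu).trans (le_of_eq ?_)
  have h2 := Real.mul_self_sqrt hn'.le
  field_simp
  linear_combination (X * U) * h2

theorem tt_J {J : Mat n} (hJ3 : opn J ≤ 3) {u : Vec n} {U : ℝ} (hu : vn u ≤ U) :
    vn (J *ᵥ u) ≤ 3 * U :=
  (vn_mulVec_le J u).trans (mul_le_mul hJ3 hu (vn_nonneg _) (by norm_num))

theorem tt_dot {u v : Vec n} {U V : ℝ} (hu : vn u ≤ U) (hv : vn v ≤ V) : |u ⬝ᵥ v| ≤ U * V :=
  (abs_dot_le u v).trans (mul_le_mul hu hv (vn_nonneg _) ((vn_nonneg _).trans hu))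

theorem corr_eq (β κ a ε : ℝ) (J : Mat n) (H w : Vec n) : corr β κ a ε J H w =
    -(mag H * (w * w)) + (κ ^ 2 * β ^ 2 / n * ((dd H * w) ⬝ᵥ (dd H * w))) • mag H +
      (κ ^ 2 * β ^ 2 / n * (2 * (mag H ⬝ᵥ (dd H * w)))) • (dd H * w) +
      ε ^ 2 • (-(a • J *ᵥ mag H) + (2 * a * κ * ons β (mag H)) • mag H) := by
  have e : ∀ x y : Vec n, avg (x * y) = x ⬝ᵥ y / n := fun _ _ => rfl
  rw [corr, e, e, mul_assoc (mag H) w w]
  funext i
  simp only [Pi.add_apply, Pi.neg_apply, Pi.smul_apply, smul_eq_mul]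
  ring

theorem jt_mulVec2 (hn : 0 < n) (β κ : ℝ) (J : Mat n) (H v : Vec n) : jt β κ J H *ᵥ v =
    v - κ • J *ᵥ (dd H * v) + (κ ^ 2 * ons β (mag H)) • (dd H * v) -
      (κ ^ 2 * β ^ 2 / n * (2 * (mag H ⬝ᵥ (dd H * v)))) • mag H := by
  have e1 : diagonal (dd H) *ᵥ v = dd H * v := by funext i; simp [mulVec_diagonal]
  have e2 : vecMulVec (mag H) (mag H * dd H) *ᵥ v = (mag H ⬝ᵥ (dd H * v)) • mag H := by
    funext i
    simp [vecMulVec, mulVec, dotProduct, Finset.mul_sum, mul_comm, mul_left_comm, mul_assoc]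
  rw [jt, lmat, sub_mulVec, sub_mulVec, one_mulVec, ← mulVec_mulVec, e1, sub_mulVec, smul_mulVec,
    smul_mulVec, smul_mulVec, one_mulVec, e2, ons_mag hn]
  funext i
  simp only [Pi.add_apply, Pi.sub_apply, Pi.smul_apply, smul_eq_mul]
  ring

theorem tt_ka {β κ : ℝ} (hβ : β ^ 2 ≤ 1) (hκ : κ ∈ Set.Icc (0 : ℝ) 1) :
    0 ≤ κ ^ 2 * β ^ 2 ∧ κ ^ 2 * β ^ 2 ≤ 1 :=
  ⟨by positivity, mul_le_one₀ (pow_le_one₀ hκ.1 hκ.2) (sq_nonneg _) hβ⟩

theorem tt_ons {β : ℝ} (hβ : β ^ 2 ≤ 1) (H : Vec n) : |ons β (mag H)| ≤ 1 := by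
  have := ons_mem hβ (vn_mag_le H)
  exact abs_le.2 ⟨by linarith [this.1], this.2.trans hβ⟩

theorem vn_corr_le (hn : 0 < n) {β κ a ε W : ℝ} {J : Mat n} {H w : Vec n} (hβ : β ^ 2 ≤ 1)
    (hJ3 : opn J ≤ 3) (hκ : κ ∈ Set.Icc (0 : ℝ) 1) (ha : |a| ≤ 1) (hw : vn w ≤ W) :
    vn (corr β κ a ε J H w) ≤ 4 * W ^ 2 + 5 * (ε ^ 2 * √(n : ℝ)) := by
  have hr : 1 ≤ √(n : ℝ) := Real.one_le_sqrt.2 (by exact_mod_cast hn)
  have hW : 0 ≤ W := (vn_nonneg _).trans hw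
  have hq : vn (dd H * w) ≤ W := (tt_dd H w).trans hw
  have hM := vn_mag_le H
  obtain ⟨k0, k1⟩ := tt_ka hβ hκ
  have h1 : vn (-(mag H * (w * w))) ≤ W * W := by
    rw [vn_neg]
    exact (tt_mag _ _).trans ((tt_mul w w).trans (mul_self_le_mul_self (vn_nonneg w) hw))
  have h2 := tt_avg hn (X := W * W) (U := 1) k0 k1 ((tt_dot hq hq).trans
    (le_mul_of_one_le_right (by positivity) hr)) (hM.trans (one_mul _).ge)
  have h3 := tt_avg hn (x := 2 * (mag H ⬝ᵥ (dd H * w))) (X := 2 * W) (U := W) k0 k1 (by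
    rw [abs_mul, abs_two]; linarith [tt_dot hM hq]) (hq.trans (le_mul_of_one_le_right hW hr))
  have h4 : vn (-(a • J *ᵥ mag H)) ≤ 1 * (3 * √(n : ℝ)) := by
    rw [vn_neg]; exact tt_smul ha (tt_J hJ3 hM)
  have h5 : vn ((2 * a * κ * ons β (mag H)) • mag H) ≤ 2 * √(n : ℝ) := by
    refine tt_smul ?_ hM
    rw [abs_mul, abs_mul, abs_mul, abs_two, abs_of_nonneg hκ.1]
    have := mul_le_one₀ (mul_le_one₀ ha hκ.1 hκ.2) (abs_nonneg _) (tt_ons hβ H)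
    linarith
  have h6 := tt_smul (c := ε ^ 2) (abs_of_nonneg (sq_nonneg ε)).le
    ((vn_add_le _ _).trans (add_le_add h4 h5))
  rw [corr_eq]
  refine (vn_add_le _ _).trans ((add_le_add ((vn_add_le _ _).trans
    (add_le_add ((vn_add_le _ _).trans (add_le_add h1 h2)) h3)) h6).trans (le_of_eq (by ring)))

/-- The exact form of the residual. -/
theorem tt_identity (hn : 0 < n) (β κ a ε : ℝ) (J : Mat n) (H H' z v w Δ R q : Vec n)
    (hH' : H' = H + (v + mag H * (w * w))) (hv : jt β κ J H *ᵥ v = z + corr β κ a ε J H w)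
    (hΔ : Δ = mag H' - mag H) (hR : R = mag H' - mag H - dd H * v) (hq : q = dd H * w) :
    tap β (κ - a * ε ^ 2) J H' - (tap β κ J H + z) =
      (a * ε ^ 2) • J *ᵥ Δ - κ • J *ᵥ R + (κ ^ 2 * ons β (mag H)) • R -
      (κ ^ 2 * β ^ 2 / n * (2 * (mag H ⬝ᵥ R) + (Δ - q) ⬝ᵥ (Δ + q))) • mag H -
      (κ ^ 2 * β ^ 2 / n * (2 * (mag H ⬝ᵥ (Δ - q)))) • Δ -
      (κ ^ 2 * β ^ 2 / n * (2 * (mag H ⬝ᵥ q))) • (Δ - q) -
      (κ ^ 2 * β ^ 2 / n * (Δ ⬝ᵥ Δ)) • Δ -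
      (2 * a * κ * ε ^ 2 * (ons β (mag H') - ons β (mag H))) • mag H -
      (2 * a * κ * ε ^ 2 * ons β (mag H')) • Δ + (a ^ 2 * ε ^ 4 * ons β (mag H')) • mag H' := by
  have hz : z = jt β κ J H *ᵥ v - corr β κ a ε J H w := by rw [hv, add_sub_cancel_right]
  have hM' : mag H' = mag H + Δ := by rw [hΔ]; ring
  have hp : dd H * v = Δ - R := by rw [hΔ, hR]; ring
  have ho : ons β (mag H') =
      ons β (mag H) - β ^ 2 / n * (2 * (mag H ⬝ᵥ Δ) + Δ ⬝ᵥ Δ) := by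
    rw [hM']
    simp only [ons, add_dotProduct, dotProduct_add, dotProduct_comm Δ (mag H)]
    ring
  rw [hz, jt_mulVec2 hn, corr_eq, tap, tap, ho, hM', hp, ← hq, hH']
  simp only [mulVec_add, mulVec_sub, dotProduct_sub, sub_dotProduct, dotProduct_add,
    dotProduct_comm q Δ]
  funext i
  simp only [Pi.add_apply, Pi.sub_apply, Pi.neg_apply, Pi.smul_apply, smul_eq_mul]
  ring

theorem tt_final (hn : 0 < n) {β κ a ε B s : ℝ} {J : Mat n} {H H' z v w : Vec n}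
    (hβ : β ^ 2 ≤ 1) (hJ3 : opn J ≤ 3) (hκ : κ ∈ Set.Icc (0 : ℝ) 1) (ha : |a| ≤ 1)
    (hB : 1 ≤ B) (hs0 : 0 ≤ s) (hε2 : ε ^ 2 ≤ s ^ 2) (hε4 : ε ^ 4 * √(n : ℝ) ≤ s ^ 3)
    (hH' : H' = H + (v + mag H * (w * w))) (hv : jt β κ J H *ᵥ v = z + corr β κ a ε J H w)
    (hR : vn (mag H' - mag H - dd H * v) ≤ B * s ^ 3) (hΔ : vn (mag H' - mag H) ≤ B * s)
    (hq : vn (dd H * w) ≤ B * s) (hd : vn (mag H' - mag H - dd H * w) ≤ B * s ^ 2) :
    vn (tap β (κ - a * ε ^ 2) J H' - (tap β κ J H + z)) ≤ 23 * B ^ 3 * s ^ 3 := by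
  rw [tt_identity hn β κ a ε J H H' z v w _ _ _ hH' hv rfl rfl rfl]
  have ho := abs_ons_sub_le hβ (vn_mag_le H') (vn_mag_le H)
  have hM := vn_mag_le H
  have hM' := vn_mag_le H'
  have o1 := tt_ons hβ H
  have o2 := tt_ons hβ H'
  generalize ons β (mag H) = o at *
  generalize ons β (mag H') = o' at *
  generalize mag H' - mag H - dd H * v = R at *
  generalize mag H' - mag H = Δ at *
  generalize dd H * w = q at *
  generalize mag H = M at *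
  generalize mag H' = M' at *
  have hr : 1 ≤ √(n : ℝ) := Real.one_le_sqrt.2 (by exact_mod_cast hn)
  obtain ⟨k0, k1⟩ := tt_ka hβ hκ
  have up : ∀ {x X : ℝ}, 0 ≤ X → x ≤ X → x ≤ X * √(n : ℝ) := fun h0 h =>
    h.trans (le_mul_of_one_le_right h0 hr)
  have hB0 : 0 ≤ B := by linarith
  have hκ' : |κ| ≤ 1 := by rw [abs_of_nonneg hκ.1]; exact hκ.2
  have hε : |ε ^ 2| ≤ s ^ 2 := by rwa [abs_of_nonneg (sq_nonneg ε)]
  have c1 : |a * ε ^ 2| ≤ s ^ 2 := by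
    rw [abs_mul]; exact (mul_le_of_le_one_left (abs_nonneg _) ha).trans hε
  have c2 : |2 * a * κ * ε ^ 2| ≤ 2 * s ^ 2 := by
    have : 2 * a * κ * ε ^ 2 = 2 * (κ * (a * ε ^ 2)) := by ring
    rw [this, abs_mul, abs_mul, abs_two]
    linarith [mul_le_of_le_one_left (abs_nonneg (a * ε ^ 2)) hκ']
  have t1 := tt_smul c1 (tt_J hJ3 hΔ)
  have t2 := tt_smul hκ' (tt_J hJ3 hR)
  have t3 := tt_smul (c := κ ^ 2 * o) (C := 1) (by
    rw [abs_mul, abs_pow]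
    exact mul_le_one₀ (pow_le_one₀ (abs_nonneg _) hκ') (abs_nonneg _) o1) hR
  have t4 := tt_avg hn (x := 2 * (M ⬝ᵥ R) + (Δ - q) ⬝ᵥ (Δ + q))
    (X := 2 * (B * s ^ 3) + B * s ^ 2 * (B * s + B * s)) (U := 1) k0 k1 (by
      refine (abs_add_le _ _).trans ?_
      rw [abs_mul, abs_two]
      linarith [tt_dot hM hR, up (by positivity)
        (tt_dot hd ((vn_add_le Δ q).trans (add_le_add hΔ hq)))]) (hM.trans (one_mul _).ge)
  have t5 := tt_avg hn (x := 2 * (M ⬝ᵥ (Δ - q))) (X := 2 * (B * s ^ 2)) k0 k1 (by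
    rw [abs_mul, abs_two]; linarith [tt_dot hM hd]) (up (by positivity) hΔ)
  have t6 := tt_avg hn (x := 2 * (M ⬝ᵥ q)) (X := 2 * (B * s)) k0 k1 (by
    rw [abs_mul, abs_two]; linarith [tt_dot hM hq]) (up (by positivity) hd)
  have t7 := tt_avg hn k0 k1 (up (by positivity) (tt_dot hΔ hΔ)) (up (by positivity) hΔ)
  have t8 : vn ((2 * a * κ * ε ^ 2 * (o' - o)) • M) ≤ 2 * s ^ 2 * (2 * (B * s)) := by
    rw [mul_smul]
    exact tt_smul c2 ((tt_smul le_rfl hM).trans (by linarith))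
  have t9 := tt_smul (c := 2 * a * κ * ε ^ 2 * o') (C := 2 * s ^ 2) (by
    rw [abs_mul]; exact (mul_le_of_le_one_right (abs_nonneg _) o2).trans c2) hΔ
  have t10 := (tt_smul (c := a ^ 2 * ε ^ 4 * o') (C := ε ^ 4) (by
    rw [abs_mul, abs_mul, abs_pow, abs_of_nonneg (by positivity : 0 ≤ ε ^ 4)]
    exact (mul_le_of_le_one_right (by positivity) o2).trans
      (mul_le_of_le_one_left (by positivity) (pow_le_one₀ (abs_nonneg _) ha))) hM').trans hε4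
  have s1 := (vn_sub_le _ _).trans (add_le_add t1 t2)
  have s2 := (vn_add_le _ _).trans (add_le_add s1 t3)
  have s3 := (vn_sub_le _ _).trans (add_le_add s2 t4)
  have s4 := (vn_sub_le _ _).trans (add_le_add s3 t5)
  have s5 := (vn_sub_le _ _).trans (add_le_add s4 t6)
  have s6 := (vn_sub_le _ _).trans (add_le_add s5 t7)
  have s7 := (vn_sub_le _ _).trans (add_le_add s6 t8)
  have s8 := (vn_sub_le _ _).trans (add_le_add s7 t9)
  have s9 := (vn_add_le _ _).trans (add_le_add s8 t10)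
  refine s9.trans ?_
  have b0 : 1 ≤ B ^ 3 := one_le_pow₀ hB
  have b1 : B ≤ B ^ 3 := le_self_pow₀ hB (by norm_num)
  have b2 : B ^ 2 ≤ B ^ 3 := pow_le_pow_right₀ hB (by norm_num)
  have p3 := pow_nonneg hs0 3
  linarith [mul_le_mul_of_nonneg_right b0 p3, mul_le_mul_of_nonneg_right b1 p3,
    mul_le_mul_of_nonneg_right b2 p3]

theorem tt_core (hn : 0 < n) {β κ a ε A s : ℝ} {J : Mat n} {H z w y : Vec n}
    (hβ : β ^ 2 ≤ 1) (hJ3 : opn J ≤ 3) (hκ : κ ∈ Set.Icc (0 : ℝ) 1) (ha : |a| ≤ 1)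
    (hA : 1 ≤ A) (hs0 : 0 ≤ s) (hs1 : s ≤ 1) (hε2 : ε ^ 2 ≤ s ^ 2)
    (hε4 : ε ^ 4 * √(n : ℝ) ≤ s ^ 3) (hv : jt β κ J H *ᵥ (w + y) = z + corr β κ a ε J H w)
    (hw : vn w ≤ A * s) (hy : vn y ≤ A * s ^ 2) :
    ∃ H', vn (tap β (κ - a * ε ^ 2) J H' - (tap β κ J H + z)) ≤ 23 * (37 * A ^ 6) ^ 3 * s ^ 3 ∧
      vn (mag H' - mag H - dd H * (w + y)) ≤ 37 * A ^ 6 * s ^ 3 := by
  have a1 : A ≤ A ^ 6 := le_self_pow₀ hA (by norm_num)
  have s21 : s ^ 2 ≤ s := by nlinarith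
  have s32 : s ^ 3 ≤ s ^ 2 := pow_le_pow_of_le_one hs0 hs1 (by norm_num)
  have hR := tt_rem hA hs0 hs1 H w y hw hy
  obtain ⟨H', hH'⟩ : ∃ H', H' = H + (w + y + mag H * (w * w)) := ⟨_, rfl⟩
  rw [← hH'] at hR
  have p6 : 0 ≤ A ^ 6 := by positivity
  have hd : vn (mag H' - mag H - dd H * w) ≤ 36 * A ^ 6 * s ^ 2 := by
    have e : mag H' - mag H - dd H * w = (mag H' - mag H - dd H * (w + y)) + dd H * y := by ring
    rw [e]
    linarith [vn_add_le (mag H' - mag H - dd H * (w + y)) (dd H * y), tt_dd H y,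
      mul_le_mul_of_nonneg_left s32 p6, mul_le_mul_of_nonneg_right a1 (sq_nonneg s)]
  have hq : vn (dd H * w) ≤ A ^ 6 * s :=
    (tt_dd H w).trans (hw.trans (mul_le_mul_of_nonneg_right a1 hs0))
  have hΔ : vn (mag H' - mag H) ≤ 37 * A ^ 6 * s := by
    have e := vn_add_le (mag H' - mag H - dd H * w) (dd H * w)
    rw [sub_add_cancel] at e
    linarith [mul_le_mul_of_nonneg_left s21 p6]
  have hR' : vn (mag H' - mag H - dd H * (w + y)) ≤ 37 * A ^ 6 * s ^ 3 := by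
    linarith [mul_nonneg p6 (pow_nonneg hs0 3)]
  exact ⟨H', tt_final hn hβ hJ3 hκ ha (by linarith) hs0 hε2 hε4 hH' hv hR' hΔ
    (by linarith [mul_nonneg p6 hs0]) (by linarith [mul_nonneg p6 (sq_nonneg s)]), hR'⟩

theorem tt_scale {ε N : ℝ} (hN : 1 ≤ N) (hε : 0 < ε) (hεn : ε * N ≤ 1) :
    0 ≤ ε * √N ∧ ε * √N ≤ 1 ∧ (ε * √N) ^ 2 = ε ^ 2 * N ∧ (ε * √N) ^ 3 ≤ ε ^ 3 * N ^ 2 ∧
      ε ^ 2 ≤ (ε * √N) ^ 2 ∧ ε ^ 4 * √N ≤ (ε * √N) ^ 3 ∧ ε ^ 2 * √N ≤ (ε * √N) ^ 2 := by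
  have hr : 1 ≤ √N := Real.one_le_sqrt.2 hN
  have hrr : √N ^ 2 = N := Real.sq_sqrt (by linarith)
  have hrn : √N ≤ N := by nlinarith
  have hεs : ε ≤ ε * √N := le_mul_of_one_le_right hε.le hr
  have hs1 : ε * √N ≤ 1 := (mul_le_mul_of_nonneg_left hrn hε.le).trans hεn
  have hs2 : (ε * √N) ^ 2 = ε ^ 2 * N := by rw [mul_pow, hrr]
  refine ⟨by positivity, hs1, hs2, ?_, pow_le_pow_left₀ hε.le hεs 2, ?_, ?_⟩
  · have : (ε * √N) ^ 3 = ε ^ 3 * (N * √N) := by rw [pow_succ, hs2]; ring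
    rw [this, sq]
    exact mul_le_mul_of_nonneg_left (mul_le_mul_of_nonneg_left hrn (by linarith)) (by positivity)
  · have e : ε ^ 4 * √N = ε ^ 3 * (ε * √N) := by ring
    rw [e]
    exact (mul_le_of_le_one_right (by positivity) hs1).trans (pow_le_pow_left₀ hε.le hεs 3)
  · rw [hs2]; exact mul_le_mul_of_nonneg_left hrn (sq_nonneg ε)

/-- Let `Y = jt⁻¹`, `w = Y z`, `G = corr w`, `v = Y (z + G)`, `H' = H + v + mag H * w * w`. Then
`mag H' = mag H + dd H * v + O(ε³)`, and expanding `tap β (κ - a ε²) J H'` with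
`ons (M + Δ) = ons M - β² (2 M ⬝ Δ + Δ ⬝ Δ)/n` and `jt v = z + G` all second-order terms cancel.
Use `vn (u * u') ≤ vn u * vn u'`. -/
theorem tap_taylor {K : ℝ} (hK : 1 ≤ K) : ∃ C : ℝ, 1 ≤ C ∧
    ∀ (n : ℕ) (β κ a ε : ℝ) (J : Mat n) (H z : Vec n), 0 < n → β ^ 2 ≤ 1 → opn J ≤ 3 →
      κ ∈ Set.Icc (0 : ℝ) 1 → (a = 0 ∨ a = 1) → 0 < ε → ε * n ≤ 1 →
      IsUnit (jt β κ J H).det → opn (jt β κ J H)⁻¹ ≤ K → vn z ≤ 3 * ε * √(n : ℝ) →
      vn (mhat β κ a ε J H z - mag H - dd H * ((jt β κ J H)⁻¹ *ᵥ z)) ≤ C * ε ^ 2 * n ∧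
      ∃ H', vn (tap β (κ - a * ε ^ 2) J H' - (tap β κ J H + z)) ≤ C * ε ^ 3 * n ^ 2 ∧
        vn (mag H' - mhat β κ a ε J H z) ≤ C * ε ^ 3 * n ^ 2 := by
  obtain ⟨A, hA⟩ : ∃ A : ℝ, A = 41 * K ^ 3 := ⟨_, rfl⟩
  have k1 : K ≤ K ^ 3 := le_self_pow₀ hK (by norm_num)
  have hA1 : 1 ≤ A := by linarith
  have a1 : A ≤ A ^ 6 := le_self_pow₀ hA1 (by norm_num)
  have b1 : 37 * A ^ 6 ≤ (37 * A ^ 6) ^ 3 := le_self_pow₀ (by linarith) (by norm_num)
  obtain ⟨C, hC⟩ : ∃ C : ℝ, C = 23 * (37 * A ^ 6) ^ 3 := ⟨_, rfl⟩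
  have c1 : 37 * A ^ 6 ≤ C := by
    rw [hC]; exact b1.trans (le_mul_of_one_le_left (by positivity) (by norm_num))
  refine ⟨C, by linarith, fun n β κ a ε J H z hn hβ hJ3 hκ ha hε hεn hu hY hz => ?_⟩
  obtain ⟨hs0, hs1, hs2, hs3, e2, e4, e5⟩ := tt_scale (N := n) (by exact_mod_cast hn) hε hεn
  rw [mul_assoc] at hz
  generalize ε * √(n : ℝ) = s at hs0 hs1 hs2 hs3 e2 e4 e5 hz
  have ha' : |a| ≤ 1 := by rcases ha with rfl | rfl <;> simp
  have hYv : ∀ {u : Vec n} {U : ℝ}, vn u ≤ U → vn ((jt β κ J H)⁻¹ *ᵥ u) ≤ K * U := fun hu =>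
    (vn_mulVec_le _ _).trans (mul_le_mul hY hu (vn_nonneg _) (by linarith))
  have hYi : ∀ u : Vec n, jt β κ J H *ᵥ ((jt β κ J H)⁻¹ *ᵥ u) = u := fun u => by
    rw [mulVec_mulVec, mul_nonsing_inv _ hu, one_mulVec]
  have w1 := hYv hz
  have y1 := hYv (vn_corr_le (ε := ε) (H := H) hn hβ hJ3 hκ ha' w1)
  have hv : jt β κ J H *ᵥ ((jt β κ J H)⁻¹ *ᵥ z +
      (jt β κ J H)⁻¹ *ᵥ corr β κ a ε J H ((jt β κ J H)⁻¹ *ᵥ z)) =
      z + corr β κ a ε J H ((jt β κ J H)⁻¹ *ᵥ z) := by rw [mulVec_add, hYi, hYi]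
  rw [mhat, mulVec_add]
  generalize (jt β κ J H)⁻¹ *ᵥ z = w at w1 y1 hv ⊢
  generalize (jt β κ J H)⁻¹ *ᵥ corr β κ a ε J H w = y at y1 hv ⊢
  have w2 : vn w ≤ A * s := by
    rw [hA]
    linarith [mul_le_mul_of_nonneg_right k1 hs0,
      mul_nonneg (pow_nonneg (by linarith : 0 ≤ K) 3) hs0]
  have y2 : vn y ≤ A * s ^ 2 := by
    rw [hA]
    linarith [mul_le_mul_of_nonneg_right k1 (sq_nonneg s),
      mul_le_mul_of_nonneg_left e5 (by linarith : 0 ≤ K)]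
  obtain ⟨H', h1, h2⟩ := tt_core hn hβ hJ3 hκ ha' hA1 hs0 hs1 e2 e4 hv w2 y2
  have hC0 : 0 ≤ C := by linarith
  refine ⟨?_, H', ?_, ?_⟩
  · have e : mag H + dd H * (w + y) - mag H - dd H * w = dd H * y := by ring
    rw [e, mul_assoc, ← hs2]
    exact (tt_dd H y).trans (y2.trans (mul_le_mul_of_nonneg_right (by linarith) (sq_nonneg s)))
  · rw [mul_assoc]
    rw [← hC] at h1
    exact h1.trans (mul_le_mul_of_nonneg_left hs3 hC0)
  · rw [← sub_sub, mul_assoc]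
    exact h2.trans ((mul_le_mul_of_nonneg_right c1 (pow_nonneg hs0 3)).trans
      (mul_le_mul_of_nonneg_left hs3 hC0))

end Vale.Agent.P150
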