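import Vale.Agent.P150.TapB
import Vale.Agent.P150.TapTaylor
import Vale.Agent.P150.TapDrift

/-! One localization step for the TAP solution. -/

open MeasureTheory ProbabilityTheory Matrix Filter Topology
open scoped ENNReal NNReal

namespace Vale.Agent.P150

variable {n : ℕ}

namespace TapStepAux

lemma vn_z {ε : ℝ} (hε : 0 < ε) {B : Mat n} (hB : opn B ≤ 3) (s : Cube n) :
    vn (ε • B *ᵥ sv s) ≤ 3 * ε * √(n : ℝ) := by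
  rw [vn_smul, abs_of_pos hε]
  have h1 := vn_mulVec_le B (sv s)
  rw [vn_sv] at h1
  have h2 : opn B * √(n : ℝ) ≤ 3 * √(n : ℝ) := mul_le_mul_of_nonneg_right hB (Real.sqrt_nonneg _)
  calc _ ≤ ε * (3 * √(n : ℝ)) := mul_le_mul_of_nonneg_left (h1.trans h2) hε.le
    _ = _ := by ring

lemma part1 {M H w : Vec n} {q A B : ℝ} (hq : 1 ≤ q) (h1 : vn (M - mag H - dd H * w) ≤ A)
    (hA : 2 * A ≤ 1) (h2 : vn (mag H) ≤ q) (h3 : vn w ≤ B * q) (hB : 2 * B ≤ 1) :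
    vn M ≤ 2 * q := by
  have a1 := vn_mul_le (a := dd H) (u := w) zero_le_one
    fun i => abs_le.2 ⟨by linarith [(dom_dd H i).1], (dom_dd H i).2⟩
  rw [one_mul] at a1
  have a2 : vn (dd H * w) ≤ vn w := a1
  have e : M = (M - mag H - dd H * w) + (mag H + dd H * w) := by abel
  have h4 := vn_add_le (mag H) (dd H * w)
  have h5 := vn_add_le (M - mag H - dd H * w) (mag H + dd H * w)
  rw [← e] at h5
  have h6 : 2 * B * q ≤ 1 * q := mul_le_mul_of_nonneg_right hB (by linarith)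
  linarith

lemma part4 {x y u : Vec n} {A : ℝ} (h : vn (x - y) ≤ A) :
    (u ⬝ᵥ x) ^ 2 ≤ 2 * (u ⬝ᵥ y) ^ 2 + 2 * (A ^ 2 * (u ⬝ᵥ u)) := by
  have h2 := abs_dot_le u (x - y)
  have h4 := h2.trans (mul_le_mul_of_nonneg_left h (vn_nonneg u))
  have h5 := pow_le_pow_left₀ (abs_nonneg _) h4 2
  rw [sq_abs, dotProduct_sub, mul_pow, ← dot_self] at h5
  nlinarith [sq_nonneg (u ⬝ᵥ x - 2 * (u ⬝ᵥ y))]

lemma sum4 {p f g : Cube n → ℝ} {A B : ℝ} (hp : ∀ s, 0 ≤ p s) (hp1 : ∑ s, p s = 1)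
    (h : ∀ s, f s ≤ 2 * g s + 2 * A) (hg : ∑ s, p s * g s ≤ B) :
    ∑ s, p s * f s ≤ 2 * B + 2 * A := by
  calc _ ≤ ∑ s, p s * (2 * g s + 2 * A) :=
        Finset.sum_le_sum fun s _ => mul_le_mul_of_nonneg_left (h s) (hp s)
    _ = 2 * ∑ s, p s * g s + (∑ s, p s) * (2 * A) := by
        rw [Finset.mul_sum, Finset.sum_mul, ← Finset.sum_add_distrib]
        exact Finset.sum_congr rfl fun s _ => by ring
    _ ≤ _ := by rw [hp1]; linarith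

end TapStepAux

open TapStepAux in
/-- Take `Mh s = mhat β κ a ε J H (ε • B *ᵥ sv s)` and combine `jt_inv`, `tap_taylor`, `tap_drift`,
`good_close`. -/
theorem tap_step {c ρ C₀ : ℝ} (hc : 0 < c) (hc1 : c ≤ 1) (hρ : 0 < ρ) (hρ1 : ρ ≤ 1)
    (hC : 0 < C₀) : ∃ C : ℝ, 1 ≤ C ∧
    ∀ (n : ℕ) (β κ a ε : ℝ) (J B : Mat n) (H m : Vec n) (p : Cube n → ℝ), 0 < n → β ^ 2 ≤ 1 →
      J.IsSymm → opn J ≤ 3 → κ ∈ Set.Icc (0 : ℝ) 1 → κ - a * ε ^ 2 ∈ Set.Icc (0 : ℝ) 1 →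
      (a = 0 ∨ a = 1) → 0 < ε → C * ε * n ^ 2 ≤ 1 →
      LLaw β J (5 / c) C₀ → (∀ u, c * (u ⬝ᵥ u) ≤ hess β κ J H u) → opn B ≤ 3 →
      B * Bᵀ = (1 + 2 * a) • (1 : Mat n) + a • J → (∀ s, 0 ≤ p s) → ∑ s, p s = 1 →
      vn (∑ s, p s • sv s - ε • Bᵀ *ᵥ m) ≤ 27 * ε ^ 3 * n ^ 2 →
      opn ((Matrix.of fun k k' => ∑ s, p s * (sp (s k) * sp (s k'))) - 1) ≤ 18 * ε ^ 2 * n →
      ∃ Mh : Cube n → Vec n, (∀ s, vn (Mh s) ≤ 2 * √(n : ℝ)) ∧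
        (∀ s H', Good β (κ - a * ε ^ 2) J c ρ (stp ε B (tap β κ J H) s) →
          tap β (κ - a * ε ^ 2) J H' = stp ε B (tap β κ J H) s → vn (Mh s - mag H') ≤ ε ^ 2) ∧
        vn (∑ s, p s • Mh s - mag H) ≤ C * ε ^ 2 * (1 + vn (m - mag H)) ∧
        ∀ u : Vec n, ∑ s, p s * (u ⬝ᵥ (Mh s - mag H)) ^ 2 ≤ C * ε ^ 2 * (u ⬝ᵥ u) := by
  have hK : 1 ≤ 7 / c := by rw [le_div_iff₀ hc]; linarith
  obtain ⟨C₁, hC₁, htay⟩ := tap_taylor hK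
  obtain ⟨C₂, hC₂, hdrift⟩ := tap_drift hc hc1 hC
  obtain ⟨G, hG⟩ : ∃ G : ℝ, G = 200 / (c * ρ) := ⟨_, rfl⟩
  have hG0 : 0 < G := by rw [hG]; positivity
  obtain ⟨K, hKe⟩ : ∃ K : ℝ, K = 7 / c := ⟨_, rfl⟩
  rw [← hKe] at hK htay
  have hGC : 0 ≤ (1 + G) * C₁ := by positivity
  have hsq : 0 ≤ C₁ ^ 2 := sq_nonneg _
  obtain ⟨C, hCe⟩ : ∃ C : ℝ, C = 6 * K + 2 * C₁ + (1 + G) * C₁ + 2 * C₂ + 2 * C₁ ^ 2 := ⟨_, rfl⟩
  have hC1 : 1 ≤ C := by linarith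
  refine ⟨C, hC1, ?_⟩
  intro n β κ a ε J B H m p hn hβ hJ hJ3 hκ hκ' ha hε hCε hlaw hh hB hBB hp hp1 hm1 hm2
  have hn1 : (1 : ℝ) ≤ n := by exact_mod_cast hn
  have hq1 : 1 ≤ √(n : ℝ) := Real.one_le_sqrt.2 hn1
  have hnn : (n : ℝ) ≤ n ^ 2 := le_self_pow₀ hn1 two_ne_zero
  have hle : ∀ A : ℝ, A ≤ C → A * (ε * n ^ 2) ≤ 1 := fun A hA =>
    (mul_le_mul_of_nonneg_right hA (by positivity)).trans ((mul_assoc _ _ _).symm.le.trans hCε)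
  have hε2 : ε * n ^ 2 ≤ 1 := by simpa using hle 1 hC1
  have hεn : ε * n ≤ ε * n ^ 2 := mul_le_mul_of_nonneg_left hnn hε.le
  have hε1 : ε * n ≤ 1 := hεn.trans hε2
  have hε0 : ε ≤ ε * n := le_mul_of_one_le_right hε.le hn1
  have hε3 : C₁ * ε ^ 2 * n ≤ C₁ * ε := by
    calc _ = C₁ * ε * (ε * n) := by ring
      _ ≤ C₁ * ε * 1 := mul_le_mul_of_nonneg_left hε1 (by positivity)
      _ = _ := mul_one _
  obtain ⟨hu, hY, -, -⟩ := jt_inv hn hβ hJ hJ3 hκ hc hc1 hh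
  rw [← hKe] at hY
  have hT := fun s : Cube n =>
    htay n β κ a ε J H (ε • B *ᵥ sv s) hn hβ hJ3 hκ ha hε hε1 hu hY (vn_z hε hB s)
  obtain ⟨hd1, hd2⟩ := hdrift n β κ a ε J B H m p hn hβ hJ hJ3 hκ ha hε hε2 hlaw hh hB hBB hp hp1
    hm1 hm2
  refine ⟨fun s => mhat β κ a ε J H (ε • B *ᵥ sv s), fun s => ?_, fun s H' hg h0 => ?_, ?_,
    fun u => ?_⟩
  · have h5 : 6 * K * ε ≤ 1 :=
      (mul_le_mul_of_nonneg_left (hε0.trans hεn) (by linarith)).trans (hle (6 * K) (by linarith))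
    have h6 : 2 * C₁ * ε ≤ 1 :=
      (mul_le_mul_of_nonneg_left (hε0.trans hεn) (by linarith)).trans (hle (2 * C₁) (by linarith))
    refine part1 (B := 3 * K * ε) hq1 ((hT s).1.trans hε3) (by linarith) (vn_mag_le H) ?_
      (by linarith)
    refine ((vn_mulVec_le _ _).trans
      (mul_le_mul hY (vn_z hε hB s) (vn_nonneg _) (by linarith))).trans (le_of_eq (by ring))
  · obtain ⟨H'', h1, h2⟩ := (hT s).2
    have h3 := good_close hn hβ hJ hJ3 hκ' hc hc1 hρ hρ1 hg h0 H''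
    rw [← hG] at h3
    have h4 : vn (mag H'' - mag H') ≤ G * (C₁ * ε ^ 3 * n ^ 2) :=
      h3.trans (mul_le_mul_of_nonneg_left h1 hG0.le)
    have h5 := vn_triangle (mhat β κ a ε J H (ε • B *ᵥ sv s)) (mag H'') (mag H')
    rw [vn_sub_comm] at h2
    have h7 : (1 + G) * C₁ * (ε * n ^ 2) * ε ^ 2 ≤ 1 * ε ^ 2 :=
      mul_le_mul_of_nonneg_right (hle ((1 + G) * C₁) (by linarith)) (sq_nonneg _)
    calc _ ≤ _ := h5
      _ ≤ C₁ * ε ^ 3 * n ^ 2 + G * (C₁ * ε ^ 3 * n ^ 2) := add_le_add h2 h4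
      _ = (1 + G) * C₁ * (ε * n ^ 2) * ε ^ 2 := by ring
      _ ≤ _ := h7.trans_eq (one_mul _)
  · refine hd1.trans (mul_le_mul_of_nonneg_right
      (mul_le_mul_of_nonneg_right (by linarith) (sq_nonneg _)) ?_)
    exact add_nonneg zero_le_one (vn_nonneg _)
  · have hu0 : 0 ≤ u ⬝ᵥ u := by rw [dot_self]; positivity
    have h2 : 0 ≤ ε ^ 2 * (u ⬝ᵥ u) := by positivity
    calc _ ≤ _ := sum4 hp hp1 (fun s => part4 (u := u) ((hT s).1.trans hε3)) (hd2 u)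
      _ = (2 * C₂ + 2 * C₁ ^ 2) * (ε ^ 2 * (u ⬝ᵥ u)) := by ring
      _ ≤ C * (ε ^ 2 * (u ⬝ᵥ u)) := mul_le_mul_of_nonneg_right (by linarith) h2
      _ = _ := by ring

end Vale.Agent.P150
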