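import Vale.Agent.P150.Bsde
import Vale.Agent.P150.Strong
import Vale.Agent.P150.TapStep

/-! Covariance bound along the two-stage localization. -/

open MeasureTheory ProbabilityTheory Matrix Filter Topology
open scoped ENNReal NNReal

namespace Vale.Agent.P150

variable {n : ℕ}

/-- The coupling strength left at time `l`. -/
noncomputable def kap (ε : ℝ) (N l : ℕ) : ℝ := 1 - ((l - N : ℕ) : ℝ) * ε ^ 2

/-- A solution of the TAP equation, when there is one. -/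
noncomputable def sol (β κ : ℝ) (J : Mat n) (θ : Vec n) : Vec n :=
  Classical.epsilon fun H => tap β κ J H = θ

theorem sol_spec {β κ c ρ : ℝ} {J : Mat n} {θ : Vec n} (h : Good β κ J c ρ θ) :
    tap β κ J (sol β κ J θ) = θ :=
  Classical.epsilon_spec (p := fun H => tap β κ J H = θ) h.2.exists

theorem kap_mem {ε : ℝ} {N N' l : ℕ} (hN : N' * ε ^ 2 = 1) (hl : l ≤ N + N') :
    kap ε N l ∈ Set.Icc (0 : ℝ) 1 := by
  have h1 : ((l - N : ℕ) : ℝ) ≤ N' := by exact_mod_cast (by omega : l - N ≤ N')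
  have h2 : (0 : ℝ) ≤ ((l - N : ℕ) : ℝ) := Nat.cast_nonneg _
  have h3 := sq_nonneg ε
  unfold kap
  constructor <;> nlinarith

theorem kap_le {ε : ℝ} {N l : ℕ} (hl : l ≤ N) : kap ε N l = 1 := by
  simp [kap, Nat.sub_eq_zero_of_le hl]

theorem kap_succ (ε : ℝ) (N l : ℕ) :
    kap ε N l - (if l < N then 0 else 1) * ε ^ 2 = kap ε N (l + 1) := by
  split_ifs with h
  · rw [kap_le h.le, kap_le h]; ring
  · unfold kap
    rw [show l + 1 - N = (l - N) + 1 by omega]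
    push_cast; ring

theorem kap_end {ε : ℝ} {N N' : ℕ} (hN : N' * ε ^ 2 = 1) : kap ε N (N + N') = 0 := by
  simp [kap, hN]

theorem opn_stB {B : Mat n} (hB : opn B ≤ 3) (N l : ℕ) : opn (stB N B l) ≤ 3 := by
  unfold stB
  split_ifs
  · linarith [opn_one_le (n := n)]
  · exact hB

theorem tap_zero (β : ℝ) (J : Mat n) (H : Vec n) : tap β 0 J H = H := by simp [tap]

theorem cov_bound {c ρ C₀ : ℝ} (hc : 0 < c) (hc1 : c ≤ 1) (hρ : 0 < ρ) (hρ1 : ρ ≤ 1)
    (hC : 0 < C₀) : ∃ C : ℝ, 1 ≤ C ∧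
    ∀ (n : ℕ) (β ε : ℝ) (J B : Mat n) (N N' : ℕ), 0 < n → β ^ 2 ≤ 1 → J.IsSymm → opn J ≤ 3 →
      LLaw β J (5 / c) C₀ → opn B ≤ 3 → B * Bᵀ = (3 : ℝ) • (1 : Mat n) + J → 0 < ε →
      C * ε * n ^ 2 ≤ 1 → N' * ε ^ 2 = 1 →
      ∀ l ≤ N + N', ∀ θ, Good β (kap ε N l) J c ρ θ → ∀ u,
        vr (tilt (wts (wJ J) ε (stB N B) l) θ) u ≤ Real.exp (20 * C * ((N + N' : ℕ) * ε ^ 2)) *
          (3 * C ^ 2 + 20 * C * ((N + N' : ℕ) * ε ^ 2) + 40 * n *
            ∑ k ∈ Finset.range (N + N' - l + 1), pe (wJ J) ε (stB N B) l k θ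
              fun _ θ' => ind (¬ Good β (kap ε N (l + k)) J c ρ θ')) * (u ⬝ᵥ u) := by
  obtain ⟨C₁, hC₁, hstep⟩ := tap_step hc hc1 hρ hρ1 hC
  refine ⟨max C₁ 1000, le_max_of_le_left hC₁, ?_⟩
  intro n β ε J B N N' hn hβ hJ hJ3 hLL hB hBB hε hCε hN l hl θ hθ u
  set C := max C₁ 1000 with hCdef
  have hC1 : C₁ ≤ C := le_max_left _ _
  have hC2 : 1000 ≤ C := le_max_right _ _
  have hn1 : (1 : ℝ) ≤ n := by exact_mod_cast hn
  have hn2 : (1 : ℝ) ≤ (n : ℝ) ^ 2 := one_le_pow₀ hn1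
  have he1 : ε * n ^ 2 ≤ 1 / 1000 := by
    have : 0 ≤ ε * n ^ 2 := by positivity
    nlinarith
  have he2 : ε ≤ 1 / 1000 := by nlinarith
  have he3 : C * ε ≤ 1 := by
    have : 0 ≤ C * ε := by positivity
    nlinarith
  have hs : √(n : ℝ) ≤ n ^ 2 := by
    rw [Real.sqrt_le_iff]
    refine ⟨by positivity, ?_⟩
    nlinarith
  refine bsde hn (wJ_pos J) (stB N B) (N + N') (le_max_of_le_left hC₁) (by nlinarith)
    (fun l θ => Good β (kap ε N l) J c ρ θ) (fun l θ => mag (sol β (kap ε N l) J θ)) ?_ ?_ l hl θ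
    hθ u
  · intro l hl θ hθ
    have hW := wts_pos (ε := ε) (wJ_pos J) (stB N B) l
    have hp := lp_isP (ε := ε) hW (stB N B l) θ
    have hsol := sol_spec hθ
    have hhess : ∀ u, c * (u ⬝ᵥ u) ≤ hess β (kap ε N l) J (sol β (kap ε N l) J θ) u := by
      refine hθ.1 _ ?_
      rw [hsol, sub_self, vn_zero]
      positivity
    have hBl : stB N B l * (stB N B l)ᵀ =
        (1 + 2 * (if l < N then (0 : ℝ) else 1)) • (1 : Mat n) +
          (if l < N then (0 : ℝ) else 1) • J := by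
      unfold stB
      split_ifs
      · simp
      · rw [hBB]; norm_num
    obtain ⟨Mh, h1, h2, h3, h4⟩ := hstep n β (kap ε N l) (if l < N then 0 else 1) ε J (stB N B l)
      (sol β (kap ε N l) J θ) (mean (tilt (wts (wJ J) ε (stB N B) l) θ))
      (lp (wts (wJ J) ε (stB N B) l) ε (stB N B l) θ) hn hβ hJ hJ3 (kap_mem hN hl.le)
      (by rw [kap_succ]; exact kap_mem hN hl) (by split_ifs <;> simp) hε
      (le_trans (by gcongr) hCε) hLL hhess (opn_stB hB N l) hBl (fun s => (hp.1 s).le) hp.2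
      (lp_mom_one hW (opn_stB hB N l) hε θ) (lp_mom_two hW (opn_stB hB N l) θ)
    rw [kap_succ, hsol] at h2
    refine ⟨Mh, h1, fun s hs => h2 s _ hs (sol_spec hs), h3.trans ?_, fun u => (h4 u).trans ?_⟩
    · have := vn_nonneg (mean (tilt (wts (wJ J) ε (stB N B) l) θ) - mag (sol β (kap ε N l) J θ))
      gcongr
    · have : 0 ≤ u ⬝ᵥ u := by rw [dot_self]; positivity
      gcongr
  · intro θ hθ
    have hsol := sol_spec hθ
    rw [kap_end hN, tap_zero] at hsol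
    obtain ⟨c', hc'⟩ := term_wts hB hBB N N' hN
    have hη : 81 * ε ^ 2 * (n : ℝ) ^ 2 ≤ 1 := by nlinarith
    obtain ⟨h1, h2⟩ := prod_term (wts_pos (wJ_pos J) (stB N B) (N + N')) hη hc' θ
    simp only [kap_end hN, hsol]
    refine ⟨h1.trans ?_, fun u => (h2 u).trans ?_⟩
    · have h3 : ε * √(n : ℝ) ≤ 1 / 1000 := le_trans (by gcongr) he1
      have h4 : 0 ≤ ε * √(n : ℝ) := by positivity
      have h5 : 0 ≤ ε * (n : ℝ) ^ 2 := by positivity
      nlinarith
    · have : 0 ≤ u ⬝ᵥ u := by rw [dot_self]; positivity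
      have h3 : Real.exp 2 ≤ 1000 := by
        have := Real.exp_one_lt_d9
        have h4 : Real.exp 2 = Real.exp 1 * Real.exp 1 := by rw [← Real.exp_add]; norm_num
        have := Real.exp_pos 1
        nlinarith
      gcongr
      linarith

end Vale.Agent.P150
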