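import Vale.Agent.P150.CoreA
import Vale.Agent.P150.Ate

/-! Bad probabilities along the localization and defective tensorization. -/

open MeasureTheory ProbabilityTheory Matrix Filter Topology
open scoped ENNReal NNReal

namespace Vale.Agent.P150

variable {n : ℕ}

theorem ind_mono {P Q : Prop} (h : P → Q) : ind P ≤ ind Q := by
  by_cases hp : P
  · rw [ind_pos hp, ind_pos (h hp)]
  · rw [ind_neg hp]; exact ind_nonneg _

theorem pe_sum {W : Cube n → ℝ} {ε : ℝ} (B : ℕ → Mat n) (l k : ℕ) (θ : Vec n) (S : Finset ℕ)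
    (g : ℕ → Vec n → ℝ) :
    pe W ε B l k θ (fun _ θ' => ∑ t ∈ S, g t θ') = ∑ t ∈ S, pe W ε B l k θ fun _ => g t := by
  unfold pe
  rw [Finset.sum_comm]
  refine Finset.sum_congr rfl fun x _ => ?_
  rw [← Finset.mul_sum, ← fw_sum]

theorem pe_nonneg {W : Cube n → ℝ} {ε : ℝ} (hW : ∀ x, 0 < W x) (B : ℕ → Mat n) (l k : ℕ)
    (θ : Vec n) {φ : Cube n → Vec n → ℝ} (h : ∀ x θ', 0 ≤ φ x θ') : 0 ≤ pe W ε B l k θ φ := by
  rw [← pe_const (ε := ε) hW B l k θ 0]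
  exact pe_mono hW B l k θ h

theorem pe_le_of_fw {W : Cube n → ℝ} {ε : ℝ} (hW : ∀ x, 0 < W x) (B : ℕ → Mat n) (l k : ℕ)
    (θ : Vec n) {g : Vec n → ℝ} {a : ℝ} (h : ∀ x, fw ε B x g k l θ ≤ a) :
    pe W ε B l k θ (fun _ => g) ≤ a := by
  have hp := tilt_isP (wts_pos (ε := ε) hW B l) θ
  calc pe W ε B l k θ (fun _ => g) ≤ ∑ x, tilt (wts W ε B l) θ x * a :=
        Finset.sum_le_sum fun x _ => mul_le_mul_of_nonneg_left (h x) (hp.1 x).le
    _ = a := by rw [← Finset.sum_mul, hp.2, one_mul]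

/-- Probability of a bad field at any time of the two-stage localization. -/
theorem bad_prob {α : ℝ} (hα : 0 < α) (hα1 : α ≤ 1 / 100) : ∃ T r : ℝ, 0 < T ∧ 0 < r ∧
    ∀ (n : ℕ) (β c ρ ε p : ℝ) (J B : Mat n) (N N' : ℕ), 0 < n → β ^ 2 ≤ 1 → J.IsSymm →
      opn J ≤ 3 → SubN J α → opn B ≤ 3 → 0 < c → c ≤ 1 / 4 → 0 < ρ → ρ ≤ 1 → 0 < ε →
      ε ≤ c * ρ / 1000 → T ≤ N * ε ^ 2 → N' * ε ^ 2 = 1 →
      ∑ l ∈ Finset.range (N + 1),
        pe (wJ J) ε (fun _ => 1) 0 l 0 (fun _ θ => ind (¬ HP β 1 J c ρ θ)) ≤ p →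
      ∀ l ≤ N + N', pe (wJ J) ε (stB N B) 0 l 0 (fun _ θ => ind (¬ Good β (kap ε N l) J c ρ θ)) ≤
        p + 2 * Real.exp (-(r * n)) := by
  obtain ⟨R, hR, hstrong⟩ := good_strong hα hα1
  obtain ⟨T, r, hT, hr, hprob⟩ := strong_prob hR (half_pos hα)
  refine ⟨T, r, hT, hr, ?_⟩
  intro n β c ρ ε p J B N N' hn hβ hJ hJ3 hS hB hc hc4 hρ hρ1 hε hε' hTN hN hp l hl
  have hp0 : 0 ≤ p := le_trans (Finset.sum_nonneg fun l _ =>
    pe_nonneg (wJ_pos J) _ _ _ _ fun _ _ => ind_nonneg _) hp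
  have key : ∀ j ≤ N', ∀ x, fw ε (stB N B) x (fun θ => ind (¬ Good β (kap ε N (N + j)) J c ρ θ))
      (N + j) 0 0 ≤ 2 * Real.exp (-(r * n)) := fun j hj x => by
    refine le_trans (fw_mono _ x (fun θ => ind_mono fun h => ?_) _ _ _)
      (hprob n ε N j B x hε hTN ?_ hB)
    · by_contra h'
      exact h (hstrong n β _ c ρ J θ hn hβ hJ hJ3 (kap_mem hN (by omega)) hc4 hρ1 hS
        (not_lt.1 h'))
    · have : (j : ℝ) ≤ N' := by exact_mod_cast hj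
      nlinarith [sq_nonneg ε]
  rcases le_total l N with h | h
  · have e1 : ∀ j < 0 + l, stB N B j = (fun _ => (1 : Mat n)) j := fun j hj => by
      simp only [stB]; rw [if_pos (by omega)]
    have e2 : ∀ j < 0 + N, stB N B j = (fun _ => (1 : Mat n)) j := fun j hj => by
      simp only [stB]; rw [if_pos (by omega)]
    rw [pe_congr 0 l e1, kap_le h]
    have hπ := tilt_isP (wts_pos (ε := ε) (wJ_pos J) (fun _ => (1 : Mat n)) 0) 0
    have h3 : ∀ x, fw ε (fun _ => (1 : Mat n)) x (fun θ => ind (¬ Good β 1 J c ρ θ)) N 0 0 ≤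
        2 * Real.exp (-(r * n)) := fun x => by
      have := key 0 (Nat.zero_le _) x
      rwa [add_zero, kap_le le_rfl, fw_congr x _ N 0 e2] at this
    calc pe (wJ J) ε (fun _ => 1) 0 l 0 (fun _ θ => ind (¬ Good β 1 J c ρ θ))
        ≤ ∑ x, tilt (wts (wJ J) ε (fun _ => (1 : Mat n)) 0) 0 x *
            (∑ j ∈ Finset.range (N + 1),
              fw ε (fun _ => 1) x (fun θ => ind (¬ HP β 1 J c ρ θ)) j 0 0 +
              2 * Real.exp (-(r * n))) :=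
          Finset.sum_le_sum fun x _ => mul_le_mul_of_nonneg_left
            ((bad_le hn hβ hJ hJ3 hc (by linarith) hρ hε hε' x N l h).trans
              (by linarith [h3 x])) (hπ.1 x).le
      _ = ∑ l ∈ Finset.range (N + 1),
            pe (wJ J) ε (fun _ => 1) 0 l 0 (fun _ θ => ind (¬ HP β 1 J c ρ θ)) +
            2 * Real.exp (-(r * n)) := by
          simp only [mul_add, Finset.sum_add_distrib, ← Finset.sum_mul, hπ.2, one_mul,
            Finset.mul_sum]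
          rw [Finset.sum_comm]
          rfl
      _ ≤ _ := by linarith
  · obtain ⟨j, rfl⟩ := Nat.exists_eq_add_of_le h
    have := pe_le_of_fw (ε := ε) (wJ_pos J) (stB N B) 0 (N + j) 0 (key j (by omega))
    linarith

/-- Expected number of bad times after time `l`, started from the field `θ`. -/
noncomputable def bS (β c ρ ε : ℝ) (J B : Mat n) (N N' l : ℕ) (θ : Vec n) : ℝ :=
  ∑ k ∈ Finset.range (N + N' - l + 1),
    pe (wJ J) ε (stB N B) l k θ fun _ θ' => ind (¬ Good β (kap ε N (l + k)) J c ρ θ')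

theorem bS_nonneg (β c ρ ε : ℝ) (J B : Mat n) (N N' l : ℕ) (θ : Vec n) :
    0 ≤ bS β c ρ ε J B N N' l θ :=
  Finset.sum_nonneg fun _ _ => pe_nonneg (wJ_pos J) _ _ _ _ fun _ _ => ind_nonneg _

theorem good_of_bS {β c ρ ε : ℝ} {J B : Mat n} {N N' l : ℕ} {θ : Vec n}
    (h : bS β c ρ ε J B N N' l θ < 1) : Good β (kap ε N l) J c ρ θ := by
  by_contra hG
  have h1 : pe (wJ J) ε (stB N B) l 0 θ
      (fun _ θ' => ind (¬ Good β (kap ε N (l + 0)) J c ρ θ')) ≤ bS β c ρ ε J B N N' l θ :=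
    Finset.single_le_sum (f := fun k => pe (wJ J) ε (stB N B) l k θ
        fun _ θ' => ind (¬ Good β (kap ε N (l + k)) J c ρ θ'))
      (fun k _ => pe_nonneg (wJ_pos J) _ _ _ _ fun _ _ => ind_nonneg _)
      (Finset.mem_range.2 (by omega))
  rw [pe_zero, add_zero, ind_pos hG, ← Finset.sum_mul,
    (tilt_isP (wts_pos (wJ_pos J) _ l) θ).2] at h1
  linarith

theorem bS_shift (hn : 0 < n) {β c ρ ε δ : ℝ} {J B : Mat n} {N N' l : ℕ} (hβ : β ^ 2 ≤ 1)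
    (hJ : J.IsSymm) (hJ3 : opn J ≤ 3) (hc : 0 < c) (hc1 : c ≤ 1) (hρ : 0 < ρ)
    (hδ' : δ ≤ c * ρ / 1000) (hN : N' * ε ^ 2 = 1) (hl : l ≤ N + N') (θ : Vec n) {a : Vec n}
    (ha : vn a ≤ δ * √(n : ℝ)) :
    bS β c (ρ / 2) ε J B N N' l (θ + a) ≤ Real.exp (2 * δ * n) * bS β c ρ ε J B N N' l θ := by
  have ha' : vn a ≤ c * ρ / 1000 * √(n : ℝ) := ha.trans (by gcongr)
  unfold bS
  rw [Finset.mul_sum]
  refine Finset.sum_le_sum fun k hk => ?_
  have hk' : l + k ≤ N + N' := by have := Finset.mem_range.1 hk; omega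
  refine (pe_shift (wJ_pos J) (stB N B) l k θ a
    (g := fun θ' => ind (¬ Good β (kap ε N (l + k)) J c ρ θ'))
    (fun _ => ind_nonneg _) fun θ' => ind_mono fun h h' =>
      h (good_shift hn hβ hJ hJ3 (kap_mem hN hk') hc hc1 hρ h' ha')).trans ?_
  refine mul_le_mul_of_nonneg_right (Real.exp_le_exp.2 ?_)
    (pe_nonneg (wJ_pos J) _ _ _ _ fun _ _ => ind_nonneg _)
  have h4 : √(n : ℝ) * √(n : ℝ) = n := Real.mul_self_sqrt (by positivity)
  have h5 := mul_le_mul_of_nonneg_right ha (Real.sqrt_nonneg (n : ℝ))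
  rw [mul_assoc, h4] at h5
  linarith

theorem zeta_le {β c ρ ε p L : ℝ} {J B : Mat n} {N N' : ℕ}
    (hp : ∑ l ∈ Finset.range (N + N' + 1),
      pe (wJ J) ε (stB N B) 0 l 0 (fun _ θ => ind (¬ Good β (kap ε N l) J c ρ θ)) ≤ p) :
    ∑ l ∈ Finset.range (N + N'), pe (wJ J) ε (stB N B) 0 l 0
      (fun _ θ => ind (¬ bS β c ρ ε J B N N' l θ ≤ Real.exp (-L))) ≤
      (N + N' : ℕ) * (Real.exp L * p) := by
  have hW : ∀ x, 0 < wJ J x := wJ_pos J
  calc _ ≤ ∑ _l ∈ Finset.range (N + N'), Real.exp L * p := by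
        refine Finset.sum_le_sum fun l hl => ?_
        have hl' := Finset.mem_range.1 hl
        calc _ ≤ pe (wJ J) ε (stB N B) 0 l 0
                (fun _ θ => Real.exp L * bS β c ρ ε J B N N' l θ) := by
              refine pe_mono hW _ _ _ _ fun _ θ => ?_
              by_cases h : bS β c ρ ε J B N N' l θ ≤ Real.exp (-L)
              · rw [ind_neg (not_not.2 h)]
                exact mul_nonneg (Real.exp_pos _).le (bS_nonneg _ _ _ _ _ _ _ _ _ _)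
              · rw [ind_pos h]
                calc (1 : ℝ) = Real.exp L * Real.exp (-L) := by rw [← Real.exp_add]; simp
                  _ ≤ _ := mul_le_mul_of_nonneg_left (not_le.1 h).le (Real.exp_pos _).le
          _ = Real.exp L * ∑ k ∈ Finset.range (N + N' - l + 1),
                pe (wJ J) ε (stB N B) 0 (l + k) 0
                  (fun _ θ' => ind (¬ Good β (kap ε N (l + k)) J c ρ θ')) := by
              rw [pe_mul]
              unfold bS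
              rw [pe_sum]
              congr 1
              refine Finset.sum_congr rfl fun k _ => ?_
              rw [pe_tower hW, zero_add]
          _ ≤ _ := by
              refine mul_le_mul_of_nonneg_left (le_trans ?_ hp) (Real.exp_pos _).le
              rw [show N + N' + 1 = l + (N + N' - l + 1) by omega, Finset.sum_range_add _ l]
              have : 0 ≤ ∑ x ∈ Finset.range l, pe (wJ J) ε (stB N B) 0 x 0
                  (fun _ θ => ind (¬ Good β (kap ε N x) J c ρ θ)) :=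
                Finset.sum_nonneg fun k _ => pe_nonneg hW _ _ _ _ fun _ _ => ind_nonneg _
              linarith
    _ = _ := by simp

/-- Covariance bound on a ball of fields. -/
theorem cov_ball {c ρ C₀ : ℝ} (hc : 0 < c) (hc1 : c ≤ 1) (hρ : 0 < ρ) (hρ1 : ρ ≤ 1)
    (hC : 0 < C₀) {δ T : ℝ} (hδ : 0 < δ) (hδ' : δ ≤ c * ρ / 1000) (hT : 0 < T) :
    ∃ C K : ℝ, 1 ≤ C ∧ 0 < K ∧
    ∀ (n : ℕ) (β ε : ℝ) (J B : Mat n) (N N' : ℕ), 0 < n → β ^ 2 ≤ 1 →
      J.IsSymm → opn J ≤ 3 → LLaw β J (5 / c) C₀ → opn B ≤ 3 →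
      B * Bᵀ = (3 : ℝ) • (1 : Mat n) + J → 0 < ε → C * ε * n ^ 2 ≤ 1 → N' * ε ^ 2 = 1 →
      ((N + N' : ℕ) : ℝ) * ε ^ 2 ≤ T → ∀ l < N + N', ∀ θ,
      bS β c ρ ε J B N N' l θ ≤ Real.exp (-(3 * δ * n)) → ∀ a : Vec n, vn a ≤ δ * √(n : ℝ) →
      ∀ u, vr (tilt (wts (wJ J) ε (stB N B) l) (θ + a)) u ≤ K * (u ⬝ᵥ u) := by
  obtain ⟨C₁, hC₁, hcov⟩ := cov_bound hc hc1 (half_pos hρ) (by linarith) hC
  refine ⟨C₁, Real.exp (20 * C₁ * T) * (3 * C₁ ^ 2 + 20 * C₁ * T + 40 / δ), hC₁, by positivity, ?_⟩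
  intro n β ε J B N N' hn hβ hJ hJ3 hLL hB hBB hε hCε hN hNT l hl θ hθ a ha u
  have hδn : 0 < δ * n := by positivity
  have hG : Good β (kap ε N l) J c ρ θ :=
    good_of_bS (hθ.trans_lt (Real.exp_lt_one_iff.2 (by linarith)))
  have ha' : vn a ≤ c * ρ / 1000 * √(n : ℝ) := ha.trans (by gcongr)
  have h1 := hcov n β ε J B N N' hn hβ hJ hJ3 hLL hB hBB hε hCε hN l hl.le (θ + a)
    (good_shift hn hβ hJ hJ3 (kap_mem hN hl.le) hc hc1 hρ hG ha') u
  refine h1.trans (mul_le_mul_of_nonneg_right ?_ (by rw [dot_self]; positivity))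
  have h3 := bS_shift (B := B) hn hβ hJ hJ3 hc hc1 hρ hδ' hN hl.le θ ha
  have h4 : Real.exp (2 * δ * n) * bS β c ρ ε J B N N' l θ ≤ Real.exp (-(δ * n)) := by
    calc _ ≤ Real.exp (2 * δ * n) * Real.exp (-(3 * δ * n)) := by gcongr
      _ = _ := by rw [← Real.exp_add]; congr 1; ring
  have h5 : n * Real.exp (-(δ * n)) ≤ 1 / δ := by
    have h6 := Real.add_one_le_exp (δ * n)
    rw [Real.exp_neg, ← div_eq_mul_inv, div_le_div_iff₀ (Real.exp_pos _) hδ]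
    linarith
  have h6 := h3.trans h4
  have h7 : 40 * n * bS β c (ρ / 2) ε J B N N' l (θ + a) ≤ 40 / δ := by
    calc _ ≤ 40 * n * Real.exp (-(δ * n)) := by gcongr
      _ ≤ 40 * (1 / δ) := by rw [mul_assoc]; gcongr
      _ = _ := by ring
  have h8 := bS_nonneg β c (ρ / 2) ε J B N N' l (θ + a)
  change Real.exp _ * (_ + 40 * n * bS β c (ρ / 2) ε J B N N' l (θ + a)) ≤ _
  refine mul_le_mul (by gcongr) ?_ (by positivity) (by positivity)
  have h9 : 20 * C₁ * ((N + N' : ℕ) * ε ^ 2) ≤ 20 * C₁ * T := by gcongr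
  linarith

theorem eps_small {C K ε x : ℝ} (hC : 1 ≤ C) (hK : 0 < K) (hε : 0 < ε) (hx : 1 ≤ x)
    (h : (C + 100 + 144 * K) * ε * x ^ 2 ≤ 1) :
    C * ε * x ^ 2 ≤ 1 ∧ ε * x ≤ 1 / 6 ∧ 72 * K * ε ^ 2 ≤ 1 / 2 ∧ 81 * ε ^ 2 * x ^ 2 ≤ 1 := by
  have hn2 : x ≤ x ^ 2 := by nlinarith
  have he0 : 0 < ε * x ^ 2 := by positivity
  have he1 : ε * x ^ 2 ≤ 1 / 100 := by nlinarith
  have he2 : ε * x ≤ 1 / 100 := by nlinarith
  have he3 : ε ≤ 1 / 100 := by nlinarith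
  have he4 : 144 * K * (ε * x ^ 2) ≤ 1 := by nlinarith
  have he5 : ε ^ 2 ≤ ε * x ^ 2 := by nlinarith
  refine ⟨by nlinarith, by linarith, by nlinarith, by nlinarith⟩

theorem ate_arith {K T s d q r : ℝ} (hK : 0 < K) (hT : 0 < T) (hs0 : 0 ≤ s) (hs : s ≤ T)
    (hd : 0 ≤ d) (hq : 0 ≤ q) (hr : 0 ≤ r) :
    Real.exp (144 * K * s) * (Real.exp 4 * d + 144 * s * q + 2 * 10 ^ 4 * s * r) ≤
      Real.exp (144 * K * T) * (Real.exp 4 + 2 * 10 ^ 4 * T) * (d + q + r) := by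
  rw [mul_assoc (Real.exp (144 * K * T))]
  refine mul_le_mul (by gcongr) ?_ (by positivity) (by positivity)
  have h1 : s * q ≤ T * q := by gcongr
  have h2 : s * r ≤ T * r := by gcongr
  nlinarith [mul_nonneg hT.le hd, mul_nonneg hT.le hq, mul_nonneg (Real.exp_pos 4).le hq,
    mul_nonneg (Real.exp_pos 4).le hr]

/-- Defective tensorization of entropy for the Gibbs measure. -/
theorem ate_good {c ρ C₀ : ℝ} (hc : 0 < c) (hc1 : c ≤ 1) (hρ : 0 < ρ) (hρ1 : ρ ≤ 1)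
    (hC : 0 < C₀) {δ T : ℝ} (hδ : 0 < δ) (hδ' : δ ≤ c * ρ / 1000) (hT : 0 < T) :
    ∃ C A : ℝ, 1 ≤ C ∧ 1 ≤ A ∧
    ∀ (n : ℕ) (β ε p Λ : ℝ) (J B : Mat n) (N N' : ℕ) (f : Cube n → ℝ), 0 < n → β ^ 2 ≤ 1 →
      J.IsSymm → opn J ≤ 3 → LLaw β J (5 / c) C₀ → opn B ≤ 3 →
      B * Bᵀ = (3 : ℝ) • (1 : Mat n) + J → 0 < ε → C * ε * n ^ 2 ≤ 1 → N' * ε ^ 2 = 1 →
      ((N + N' : ℕ) : ℝ) * ε ^ 2 ≤ T →
      ∑ l ∈ Finset.range (N + N' + 1),
        pe (wJ J) ε (stB N B) 0 l 0 (fun _ θ => ind (¬ Good β (kap ε N l) J c ρ θ)) ≤ p →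
      (∀ x, 0 < f x) → (∀ x, f x ≤ Λ) → ex (tilt (wJ J) 0) f ≤ 2 →
      ent (tilt (wJ J) 0) f ≤ A * (dir (tilt (wJ J) 0) f + n * Λ * Real.exp (3 * δ * n) * p +
        ε ^ 2 * n ^ 4) := by
  obtain ⟨C₁, K, hC₁, hK0, hcov⟩ := cov_ball hc hc1 hρ hρ1 hC hδ hδ' hT
  have hK'0 : 0 < max K (2 / δ) := lt_max_of_lt_left hK0
  have hE1 : 1 ≤ Real.exp (144 * max K (2 / δ) * T) := Real.one_le_exp (by positivity)
  have hE2 : 1 ≤ Real.exp 4 := Real.one_le_exp (by norm_num)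
  refine ⟨C₁ + 100 + 144 * max K (2 / δ),
    Real.exp (144 * max K (2 / δ) * T) * (Real.exp 4 + 2 * 10 ^ 4 * T),
    by linarith, one_le_mul_of_one_le_of_one_le hE1 (by linarith), ?_⟩
  intro n β ε p Λ J B N N' f hn hβ hJ hJ3 hLL hB hBB hε hCε hN hNT hp hf hΛ h2
  obtain ⟨e1, e2, e3, e4⟩ := eps_small hC₁ hK'0 hε (by exact_mod_cast hn) hCε
  have hΛ0 : 0 ≤ Λ := (hf default).le.trans (hΛ default)
  have hW : ∀ x, 0 < wJ J x := wJ_pos J
  have hp0 : 0 ≤ p := le_trans (Finset.sum_nonneg fun l _ =>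
    pe_nonneg hW _ _ _ _ fun _ _ => ind_nonneg _) hp
  obtain ⟨c', hc'⟩ := term_wts hB hBB N N' hN
  have hmain := ate (f := f) hW (stB N B) (opn_stB hB N) (N + N') hε e2 hK0 hδ e3
    (fun l θ => bS β c ρ ε J B N N' l θ ≤ Real.exp (-(3 * δ * n)))
    (hcov n β ε J B N N' hn hβ hJ hJ3 hLL hB hBB hε e1 hN hNT) (zeta_le hp)
    (fun x => (hc' x).trans e4) hf hΛ h2
  refine hmain.trans (le_trans (le_of_eq ?_) (ate_arith hK'0 hT (by positivity) hNT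
    (dir_nonneg (tilt_isP hW 0) hf) (by positivity) (by positivity)))
  ring

end Vale.Agent.P150
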