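import Vale.Agent.P150.Loc

/-! Entropy on the cube. -/

open MeasureTheory ProbabilityTheory Matrix Filter Topology
open scoped ENNReal NNReal

namespace Vale.Agent.P150

variable {n : ℕ}

variable {π f : Cube n → ℝ}

namespace EntA

lemma key {a c : ℝ} (ha : 0 < a) (hc : 0 < c) : a * Real.log c - a * Real.log a ≤ c - a := by
  have h := Real.log_le_sub_one_of_pos (div_pos hc ha)
  rw [Real.log_div hc.ne' ha.ne'] at h
  have h2 := mul_le_mul_of_nonneg_left h ha.le
  rwa [mul_sub, mul_sub, mul_div_cancel₀ _ ha.ne', mul_one] at h2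

lemma sum_half (i : Fin n) (F : Cube n → ℝ) :
    ∑ x, F x = ∑ x, (F (Function.update x i true) + F (Function.update x i false)) / 2 := by
  have hi : Function.Involutive fun x : Cube n => Function.update x i (!x i) := fun x => by simp
  have h1 : ∑ x, F (Function.update x i (!x i)) = ∑ x, F x := Equiv.sum_comp hi.toPerm F
  have h2 : ∀ x : Cube n, F (Function.update x i true) + F (Function.update x i false) =
      F x + F (Function.update x i (!x i)) := fun x => by
    cases h : x i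
    · rw [add_comm, ← h, Function.update_eq_self, h, Bool.not_false]
    · rw [← h, Function.update_eq_self, h, Bool.not_true]
  simp only [h2, ← Finset.sum_div, Finset.sum_add_distrib, h1]
  ring

lemma sum_const (hπ : IsP π) (c : ℝ) : ∑ x, π x * c = c := by
  rw [← Finset.sum_mul, hπ.2, one_mul]

lemma var_le (hπ : IsP π) (F : Cube n → ℝ) (a : ℝ) :
    ∑ x, π x * (F x - ex π F) ^ 2 ≤ ∑ x, π x * (F x - a) ^ 2 := by
  have h : ∀ b : ℝ, ∑ x, π x * (F x - b) ^ 2 = ∑ x, π x * F x ^ 2 - 2 * b * ex π F + b ^ 2 := by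
    intro b
    rw [ex, Finset.mul_sum, ← Finset.sum_sub_distrib, ← sum_const hπ (b ^ 2),
      ← Finset.sum_add_distrib]
    exact Finset.sum_congr rfl fun x _ => by ring
  rw [h, h]
  nlinarith [sq_nonneg (ex π F - a)]

end EntA

open EntA

theorem ex_pos (hπ : IsP π) (hf : ∀ x, 0 < f x) : 0 < ex π f :=
  Finset.sum_pos (fun x _ => mul_pos (hπ.1 x) (hf x)) Finset.univ_nonempty

theorem cnd_pos (hπ : IsP π) (hf : ∀ x, 0 < f x) (i : Fin n) (x : Cube n) : 0 < cnd π i f x :=
  div_pos (add_pos (mul_pos (hπ.1 _) (hf _)) (mul_pos (hπ.1 _) (hf _)))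
    (add_pos (hπ.1 _) (hπ.1 _))

theorem cnd_update (i : Fin n) (x : Cube n) (b : Bool) :
    cnd π i f (Function.update x i b) = cnd π i f x := by
  simp only [cnd, Function.update_idem]

/-- Conditional expectation property. -/
theorem ex_cnd_mul (hπ : IsP π) (i : Fin n) (f g : Cube n → ℝ)
    (hg : ∀ x b, g (Function.update x i b) = g x) :
    ∑ x, π x * (cnd π i f x * g x) = ∑ x, π x * (f x * g x) := by
  rw [sum_half i, sum_half i fun x => π x * (f x * g x)]
  refine Finset.sum_congr rfl fun x _ => ?_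
  simp only [cnd_update, hg]
  have := add_pos (hπ.1 (Function.update x i true)) (hπ.1 (Function.update x i false))
  unfold cnd
  field_simp

theorem ex_cnd (hπ : IsP π) (i : Fin n) (f : Cube n → ℝ) : ex π (cnd π i f) = ex π f := by
  simpa only [mul_one, ex] using ex_cnd_mul hπ i f (fun _ => 1) fun _ _ => rfl

theorem EntA.var_eq (hπ : IsP π) (f : Cube n → ℝ) (c : ℝ) :
    ∑ x, π x * (f x * Real.log (f x) - f x * Real.log c - f x + c) =
      ∑ x, π x * (f x * Real.log (f x)) - ex π f * Real.log c - ex π f + c := by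
  simp only [mul_add, mul_sub, Finset.sum_add_distrib, Finset.sum_sub_distrib, sum_const hπ, ex,
    Finset.sum_mul, mul_assoc]

theorem EntA.ent_eq (hπ : IsP π) (f : Cube n → ℝ) : ent π f =
    ∑ x, π x * (f x * Real.log (f x) - f x * Real.log (ex π f) - f x + ex π f) := by
  rw [var_eq hπ, ent]
  ring

theorem EntA.loc_eq (hπ : IsP π) (f : Cube n → ℝ) (i : Fin n) :
    ∑ x, π x * (f x * Real.log (f x) - f x * Real.log (cnd π i f x)) =
      ∑ x, π x * (f x * Real.log (f x) - f x * Real.log (cnd π i f x) - f x + cnd π i f x) := by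
  have h := ex_cnd hπ i f
  simp only [ex] at h
  simp only [mul_add, mul_sub, Finset.sum_add_distrib, Finset.sum_sub_distrib, h]
  ring

/-- Variational formula: the integrand `f log f - f log c - f + c` is nonnegative. -/
theorem ent_le_var (hπ : IsP π) (hf : ∀ x, 0 < f x) {c : ℝ} (hc : 0 < c) :
    ent π f ≤ ∑ x, π x * (f x * Real.log (f x) - f x * Real.log c - f x + c) := by
  rw [var_eq hπ, ent]
  linarith [key (ex_pos hπ hf) hc]

theorem loc_le_var (hπ : IsP π) (hf : ∀ x, 0 < f x) (i : Fin n) {c : Cube n → ℝ}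
    (hc : ∀ x, 0 < c x) (hc' : ∀ x b, c (Function.update x i b) = c x) :
    ∑ x, π x * (f x * Real.log (f x) - f x * Real.log (cnd π i f x)) ≤
      ∑ x, π x * (f x * Real.log (f x) - f x * Real.log (c x) - f x + c x) := by
  have h1 := ex_cnd_mul hπ i f (fun x => Real.log (cnd π i f x)) fun x b => by rw [cnd_update]
  have h2 := ex_cnd_mul hπ i f (fun x => Real.log (c x)) fun x b => by rw [hc']
  have h3 := ex_cnd hπ i f
  have h4 : ∑ x, π x * (cnd π i f x * Real.log (c x) - cnd π i f x * Real.log (cnd π i f x)) ≤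
      ∑ x, π x * (c x - cnd π i f x) := Finset.sum_le_sum fun x _ =>
    mul_le_mul_of_nonneg_left (key (cnd_pos hπ hf i x) (hc x)) (hπ.1 x).le
  simp only [ex] at h3
  simp only [mul_add, mul_sub, Finset.sum_add_distrib, Finset.sum_sub_distrib] at h4 ⊢
  linarith

theorem ent_nonneg (hπ : IsP π) (hf : ∀ x, 0 < f x) : 0 ≤ ent π f := by
  rw [ent_eq hπ]
  exact Finset.sum_nonneg fun x _ => mul_nonneg (hπ.1 x).le
    (by linarith [key (hf x) (ex_pos hπ hf)])

theorem dir_nonneg (hπ : IsP π) (hf : ∀ x, 0 < f x) : 0 ≤ dir π f := by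
  refine Finset.sum_nonneg fun i _ => ?_
  rw [loc_eq hπ]
  exact Finset.sum_nonneg fun x _ => mul_nonneg (hπ.1 x).le
    (by linarith [key (hf x) (cnd_pos hπ hf i x)])

theorem EntA.pin_pt {a m : ℝ} (ha : 0 < a) (hm : 0 < m) :
    (a - m) ^ 2 ≤ 2 * (a + m) * (a * Real.log a - a * Real.log m - a + m) := by
  obtain ⟨s, hs, rfl⟩ : ∃ s, 0 < s ∧ a = s ^ 2 := ⟨√a, Real.sqrt_pos.2 ha, (Real.sq_sqrt ha.le).symm⟩
  obtain ⟨t, ht, rfl⟩ : ∃ t, 0 < t ∧ m = t ^ 2 := ⟨√m, Real.sqrt_pos.2 hm, (Real.sq_sqrt hm.le).symm⟩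
  have h := mul_le_mul_of_nonneg_left (key hs ht) hs.le
  have h1 : (s - t) ^ 2 ≤ s ^ 2 * Real.log (s ^ 2) - s ^ 2 * Real.log (t ^ 2) - s ^ 2 + t ^ 2 := by
    rw [Real.log_pow, Real.log_pow]
    push_cast
    nlinarith
  have h2 : (s + t) ^ 2 ≤ 2 * (s ^ 2 + t ^ 2) := by nlinarith [sq_nonneg (s - t)]
  calc (s ^ 2 - t ^ 2) ^ 2 = (s + t) ^ 2 * (s - t) ^ 2 := by ring
    _ ≤ _ := mul_le_mul h2 h1 (sq_nonneg _) (by positivity)

/-- Pinsker, from `a log a - a + 1 ≥ (sqrt a - 1)²` and Cauchy-Schwarz. -/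
theorem pinsker (hπ : IsP π) (hf : ∀ x, 0 < f x) :
    (∑ x, π x * |f x - ex π f|) ^ 2 ≤ 4 * ex π f * ent π f := by
  have hm := ex_pos hπ hf
  have h1 := Finset.sum_sq_le_sum_mul_sum_of_sq_le_mul (Finset.univ : Finset (Cube n))
    (r := fun x => π x * |f x - ex π f|) (f := fun x => π x * (2 * (f x + ex π f)))
    (g := fun x => π x * (f x * Real.log (f x) - f x * Real.log (ex π f) - f x + ex π f))
    (fun x _ => by have := hπ.1 x; have := hf x; positivity)
    (fun x _ => mul_nonneg (hπ.1 x).le (by linarith [key (hf x) hm]))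
    (fun x _ => by
      rw [mul_pow, sq_abs, mul_mul_mul_comm, ← sq]
      exact mul_le_mul_of_nonneg_left (pin_pt (hf x) hm) (sq_nonneg _))
  rw [← ent_eq hπ] at h1
  refine h1.trans (le_of_eq ?_)
  congr 1
  have : ∀ x, π x * (2 * (f x + ex π f)) = 2 * (π x * f x) + π x * (2 * ex π f) := fun x => by
    ring
  simp only [this, Finset.sum_add_distrib, ← Finset.mul_sum, sum_const hπ]
  rw [ex]
  ring

theorem ent_le_chi (hπ : IsP π) (hf : ∀ x, 0 < f x) :
    ent π f ≤ (∑ x, π x * (f x - ex π f) ^ 2) / ex π f := by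
  have hm := ex_pos hπ hf
  rw [ent_eq hπ, Finset.sum_div]
  refine Finset.sum_le_sum fun x _ => ?_
  rw [mul_div_assoc]
  refine mul_le_mul_of_nonneg_left ?_ (hπ.1 x).le
  rw [le_div_iff₀ hm]
  nlinarith [mul_le_mul_of_nonneg_left (key hm (hf x)) (hf x).le]

/-- Entropy inequality. -/
theorem ex_mul_le_ent (hπ : IsP π) (hf : ∀ x, 0 < f x) (g : Cube n → ℝ) :
    ∑ x, π x * (f x * g x) ≤ ent π f + ex π f * Real.log (∑ x, π x * Real.exp (g x)) := by
  have hm := ex_pos hπ hf
  have hZ : 0 < ∑ x, π x * Real.exp (g x) := ex_pos hπ fun x => Real.exp_pos (g x)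
  set Z := ∑ x, π x * Real.exp (g x) with hZd
  have h : ∑ x, π x * (f x * g x + f x * (Real.log (ex π f) - Real.log Z) - f x * Real.log (f x)) ≤
      ∑ x, π x * (Real.exp (g x) * (ex π f / Z) - f x) := Finset.sum_le_sum fun x _ => by
    refine mul_le_mul_of_nonneg_left ?_ (hπ.1 x).le
    have := key (hf x) (mul_pos (Real.exp_pos (g x)) (div_pos hm hZ))
    rwa [Real.log_mul (Real.exp_pos _).ne' (div_pos hm hZ).ne', Real.log_exp,
      Real.log_div hm.ne' hZ.ne', mul_add] at this
  simp only [mul_add, mul_sub (π _), Finset.sum_add_distrib, Finset.sum_sub_distrib,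
    ← mul_assoc (π _) _ (_ - _), ← mul_assoc (π _) _ (_ / _), ← Finset.sum_mul] at h
  rw [← hZd, mul_div_cancel₀ _ hZ.ne'] at h
  rw [ent]
  simp only [ex] at h ⊢
  linarith

theorem ent_le_neg_log (hπ : IsP π) (hf : ∀ x, 0 < f x) :
    ent π f ≤ ∑ x, π x * (f x * -Real.log (π x)) := by
  rw [ent, ex, Finset.sum_mul, ← Finset.sum_sub_distrib]
  refine Finset.sum_le_sum fun x _ => ?_
  have hp := mul_pos (hπ.1 x) (hf x)
  have h := Real.log_le_log hp (Finset.single_le_sum (f := fun y => π y * f y)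
    (fun y _ => (mul_pos (hπ.1 y) (hf y)).le) (Finset.mem_univ x))
  rw [Real.log_mul (hπ.1 x).ne' (hf x).ne'] at h
  nlinarith [mul_le_mul_of_nonneg_left h hp.le]

theorem qbar_pos (hn : 0 < n) (hπ : IsP π) (hf : ∀ x, 0 < f x) (x : Cube n) :
    0 < qbar π f x :=
  div_pos (Finset.sum_pos (fun i _ => cnd_pos hπ hf i x) ⟨⟨0, hn⟩, Finset.mem_univ _⟩)
    (Nat.cast_pos.2 hn)

theorem ex_qbar (hn : 0 < n) (hπ : IsP π) (f : Cube n → ℝ) : ex π (qbar π f) = ex π f := by
  have hn' : (n : ℝ) ≠ 0 := by positivity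
  have h : ex π (qbar π f) = (∑ i, ex π (cnd π i f)) / n := by
    simp only [ex, qbar, ← mul_div_assoc, ← Finset.sum_div, Finset.mul_sum]
    rw [Finset.sum_comm]
  simp only [h, ex_cnd hπ, Finset.sum_const, Finset.card_univ, Fintype.card_fin, nsmul_eq_mul]
  field_simp

/-- One step of the discrete chain: `ent (cnd i f) = ent f - (i-th term)` and convexity. -/
theorem ent_qbar (hn : 0 < n) (hπ : IsP π) (hf : ∀ x, 0 < f x) :
    ent π (qbar π f) ≤ ent π f - dir π f / n := by
  have hn' : (0 : ℝ) < n := Nat.cast_pos.2 hn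
  have h1 : ∀ x, n * (qbar π f x * Real.log (qbar π f x)) ≤
      ∑ i, cnd π i f x * Real.log (cnd π i f x) := fun x => by
    have h2 := Finset.sum_le_sum fun i (_ : i ∈ Finset.univ) =>
      key (cnd_pos hπ hf i x) (qbar_pos hn hπ hf x)
    have h3 : ∑ i, cnd π i f x = n * qbar π f x := by
      rw [qbar]
      field_simp
    simp only [Finset.sum_sub_distrib, ← Finset.sum_mul, h3, Finset.sum_const, Finset.card_univ,
      Fintype.card_fin, nsmul_eq_mul] at h2
    linarith
  have h4 : n * ∑ x, π x * (qbar π f x * Real.log (qbar π f x)) ≤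
      ∑ i, ∑ x, π x * (f x * Real.log (cnd π i f x)) := by
    simp only [← fun i => ex_cnd_mul hπ i f (fun x => Real.log (cnd π i f x))
      fun x b => by rw [cnd_update]]
    rw [Finset.sum_comm, Finset.mul_sum]
    refine Finset.sum_le_sum fun x _ => ?_
    rw [← Finset.mul_sum, mul_left_comm]
    exact mul_le_mul_of_nonneg_left (h1 x) (hπ.1 x).le
  have h5 : dir π f = n * ∑ x, π x * (f x * Real.log (f x)) -
      ∑ i, ∑ x, π x * (f x * Real.log (cnd π i f x)) := by
    simp only [dir, mul_sub, Finset.sum_sub_distrib, Finset.sum_const, Finset.card_univ,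
      Fintype.card_fin, nsmul_eq_mul]
  rw [ent, ent, ex_qbar hn hπ, le_sub_comm, div_le_iff₀ hn', h5]
  linarith

theorem EntA.cnd_prod (θ : Vec n) (i : Fin n) (h : Cube n → ℝ) (x : Cube n) :
    cnd (tilt (fun _ => 1) θ) i h x =
      (Real.exp (θ i) * h (Function.update x i true) +
        Real.exp (-θ i) * h (Function.update x i false)) / (Real.exp (θ i) + Real.exp (-θ i)) := by
  have h1 : ∀ b, θ ⬝ᵥ sv (Function.update x i b) =
      θ i * sp b + ∑ j ∈ Finset.univ.erase i, θ j * sp (x j) := fun b => by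
    rw [dotProduct, ← Finset.add_sum_erase _ _ (Finset.mem_univ i)]
    simp only [sv, Function.update_self]
    congr 1
    exact Finset.sum_congr rfl fun j hj => by
      rw [Function.update_of_ne (Finset.ne_of_mem_erase hj)]
  have hZ : 0 < ∑ y : Cube n, Real.exp (θ ⬝ᵥ sv y) :=
    Finset.sum_pos (fun _ _ => Real.exp_pos _) Finset.univ_nonempty
  simp only [cnd, tilt, one_mul, h1, Real.exp_add, sp, if_true, mul_one, Bool.false_eq_true,
    if_false, mul_neg]
  have := Real.exp_pos (θ i)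
  have := Real.exp_pos (-θ i)
  field_simp

theorem EntA.loc_ineq (hπ : IsP π) (hf : ∀ x, 0 < f x) {h : Cube n → ℝ} (hh : ∀ x, 0 < h x)
    (i : Fin n) :
    ∑ x, π x * (f x * Real.log (h x) - f x * Real.log (cnd π i h x)) ≤
      ∑ x, π x * (f x * Real.log (f x) - f x * Real.log (cnd π i f x)) := by
  have h1 : ∑ x, π x * (f x * Real.log (h x) + (f x * Real.log (cnd π i f x) -
      f x * Real.log (cnd π i h x)) - f x * Real.log (f x)) ≤
      ∑ x, π x * (h x * (cnd π i f x / cnd π i h x) - f x) := Finset.sum_le_sum fun x _ => by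
    refine mul_le_mul_of_nonneg_left ?_ (hπ.1 x).le
    have a := cnd_pos hπ hf i x
    have b := cnd_pos hπ hh i x
    have := key (hf x) (mul_pos (hh x) (div_pos a b))
    rwa [Real.log_mul (hh x).ne' (div_pos a b).ne', Real.log_div a.ne' b.ne', mul_add,
      mul_sub] at this
  have h2 := ex_cnd_mul hπ i h (fun x => cnd π i f x / cnd π i h x) fun x b => by
    rw [cnd_update, cnd_update]
  have h3 := ex_cnd hπ i f
  simp only [fun x => mul_div_cancel₀ (cnd π i f x) (cnd_pos hπ hh i x).ne'] at h2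
  simp only [ex] at h3
  simp only [mul_add, mul_sub, Finset.sum_add_distrib, Finset.sum_sub_distrib] at h1 ⊢
  linarith

/-- Tensorization for the product measure. -/
theorem ent_prod (θ : Vec n) (hf : ∀ x, 0 < f x) :
    ent (tilt (fun _ => 1) θ) f ≤ dir (tilt (fun _ => 1) θ) f := by
  have hπ := tilt_isP (W := fun _ => 1) (fun _ => one_pos) θ
  set π := tilt (fun _ => (1 : ℝ)) θ with hπd
  have H : ∀ S : Finset (Fin n), ∃ h : Cube n → ℝ, (∀ x, 0 < h x) ∧
      (∀ i ∈ S, ∀ x b, h (Function.update x i b) = h x) ∧ ex π h = ex π f ∧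
      ∑ x, π x * (f x * Real.log (f x) - f x * Real.log (h x)) ≤
        ∑ i ∈ S, ∑ x, π x * (f x * Real.log (f x) - f x * Real.log (cnd π i f x)) := by
    intro S
    induction S using Finset.induction_on with
    | empty => exact ⟨f, hf, by simp, rfl, by simp⟩
    | insert i S hi ih =>
      obtain ⟨h, h1, h2, h3, h4⟩ := ih
      refine ⟨cnd π i h, cnd_pos hπ h1 i, fun j hj x b => ?_, by rw [ex_cnd hπ, h3], ?_⟩
      · rcases Finset.mem_insert.1 hj with rfl | hj
        · exact cnd_update _ _ _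
        · have hij : j ≠ i := fun e => hi (e ▸ hj)
          rw [hπd, cnd_prod, cnd_prod, Function.update_comm hij, Function.update_comm hij,
            h2 j hj, h2 j hj]
      · rw [Finset.sum_insert hi]
        have h5 := loc_ineq hπ hf h1 i
        simp only [mul_sub, Finset.sum_sub_distrib] at h4 h5 ⊢
        linarith
  obtain ⟨h, -, h2, h3, h4⟩ := H Finset.univ
  have h5 : ∀ (x y : Cube n) (S : Finset (Fin n)), h (S.piecewise y x) = h x := by
    intro x y S
    induction S using Finset.induction_on with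
    | empty => rw [Finset.piecewise_empty]
    | insert i S _ ih => rw [Finset.piecewise_insert, h2 i (Finset.mem_univ i), ih]
  have h6 : ∀ x, h x = ex π f := fun x => by
    rw [← h3, ← sum_const hπ (h x)]
    refine Finset.sum_congr rfl fun y _ => ?_
    rw [← h5 x y Finset.univ, Finset.piecewise_univ]
  refine le_trans (le_of_eq ?_) h4
  simp only [h6, mul_sub, Finset.sum_sub_distrib, ent]
  rw [ex, Finset.sum_mul]
  simp only [mul_assoc]

theorem EntA.tilt_le {W : Cube n → ℝ} (hW : ∀ x, 0 < W x) {c η : ℝ}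
    (h : ∀ x, |Real.log (W x) - c| ≤ η) (θ : Vec n) (x : Cube n) :
    tilt W θ x ≤ Real.exp (2 * η) * tilt (fun _ => 1) θ x ∧
      tilt (fun _ => 1) θ x ≤ Real.exp (2 * η) * tilt W θ x := by
  have h1 : ∀ y z, W y ≤ Real.exp (2 * η) * W z := fun y z => by
    rw [← Real.exp_log (hW y), ← Real.exp_log (hW z), ← Real.exp_add]
    exact Real.exp_le_exp.2 (by linarith [(abs_le.1 (h y)).2, (abs_le.1 (h z)).1])
  have hZ : 0 < ∑ y : Cube n, Real.exp (θ ⬝ᵥ sv y) :=
    Finset.sum_pos (fun _ _ => Real.exp_pos _) Finset.univ_nonempty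
  have hZ' : 0 < ∑ y : Cube n, W y * Real.exp (θ ⬝ᵥ sv y) :=
    Finset.sum_pos (fun y _ => mul_pos (hW y) (Real.exp_pos _)) Finset.univ_nonempty
  have h2 : W x * ∑ y : Cube n, Real.exp (θ ⬝ᵥ sv y) ≤
      Real.exp (2 * η) * ∑ y : Cube n, W y * Real.exp (θ ⬝ᵥ sv y) := by
    rw [Finset.mul_sum, Finset.mul_sum]
    exact Finset.sum_le_sum fun y _ => by
      rw [← mul_assoc]
      exact mul_le_mul_of_nonneg_right (h1 x y) (Real.exp_pos _).le
  have h3 : ∑ y : Cube n, W y * Real.exp (θ ⬝ᵥ sv y) ≤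
      Real.exp (2 * η) * W x * ∑ y : Cube n, Real.exp (θ ⬝ᵥ sv y) := by
    rw [Finset.mul_sum]
    exact Finset.sum_le_sum fun y _ => mul_le_mul_of_nonneg_right (h1 y x) (Real.exp_pos _).le
  have he := (Real.exp_pos (θ ⬝ᵥ sv x)).le
  simp only [tilt, one_mul, ← mul_div_assoc]
  rw [div_le_div_iff₀ hZ' hZ, div_le_div_iff₀ hZ hZ']
  exact ⟨by nlinarith [mul_le_mul_of_nonneg_left h2 he],
    by nlinarith [mul_le_mul_of_nonneg_left h3 he]⟩

/-- Bounded perturbation of a product measure (Holley-Stroock via `ent_le_var`, `loc_le_var`). -/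
theorem ent_term {W : Cube n → ℝ} (hW : ∀ x, 0 < W x) {c : ℝ} (h : ∀ x, |Real.log (W x) - c| ≤ 1)
    (θ : Vec n) (hf : ∀ x, 0 < f x) : ent (tilt W θ) f ≤ Real.exp 4 * dir (tilt W θ) f := by
  have hπ := tilt_isP hW θ
  have hμ := tilt_isP (W := fun _ => 1) (fun _ => one_pos) θ
  have ht := tilt_le hW h θ
  have he := (Real.exp_pos (2 * 1)).le
  have h1 : ent (tilt W θ) f ≤ Real.exp (2 * 1) * ent (tilt (fun _ => 1) θ) f := by
    refine (ent_le_var hπ hf (ex_pos hμ hf)).trans ?_
    rw [ent_eq hμ, Finset.mul_sum]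
    refine Finset.sum_le_sum fun x _ => ?_
    rw [← mul_assoc]
    exact mul_le_mul_of_nonneg_right (ht x).1 (by linarith [key (hf x) (ex_pos hμ hf)])
  have h2 : dir (tilt (fun _ => 1) θ) f ≤ Real.exp (2 * 1) * dir (tilt W θ) f := by
    rw [dir, dir, Finset.mul_sum]
    refine Finset.sum_le_sum fun i _ => ?_
    refine (loc_le_var hμ hf i (cnd_pos hπ hf i) (cnd_update i)).trans ?_
    rw [loc_eq hπ, Finset.mul_sum]
    refine Finset.sum_le_sum fun x _ => ?_
    rw [← mul_assoc]
    exact mul_le_mul_of_nonneg_right (ht x).2 (by linarith [key (hf x) (cnd_pos hπ hf i x)])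
  refine h1.trans ((mul_le_mul_of_nonneg_left ((ent_prod θ hf).trans h2) he).trans (le_of_eq ?_))
  rw [← mul_assoc, ← Real.exp_add]
  norm_num

theorem EntA.cnd_sp (θ : Vec n) (i : Fin n) (a : ℝ) (x : Cube n) :
    cnd (tilt (fun _ => 1) θ) i (fun y => sp (y i) - a) x = mag θ i - a := by
  rw [cnd_prod, mag, Real.tanh_eq]
  simp only [Function.update_self, sp, if_true, Bool.false_eq_true, if_false]
  have := Real.exp_pos (θ i)
  have := Real.exp_pos (-θ i)
  field_simp
  ring

theorem EntA.mean_prod (θ : Vec n) : mean (tilt (fun _ => 1) θ) = mag θ := by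
  have hμ := tilt_isP (W := fun _ => 1) (fun _ => one_pos) θ
  funext i
  have h := ex_cnd hμ i fun y => sp (y i) - 0
  simp only [ex, cnd_sp, sum_const hμ] at h
  simpa only [sub_zero, mean] using h.symm

theorem EntA.vr_prod (θ u : Vec n) :
    ∑ x, tilt (fun _ => 1) θ x * (u ⬝ᵥ sv x - u ⬝ᵥ mag θ) ^ 2 ≤ u ⬝ᵥ u := by
  have hμ := tilt_isP (W := fun _ => 1) (fun _ => one_pos) θ
  set μ := tilt (fun _ => (1 : ℝ)) θ with hμd
  have h1 : ∀ x, μ x * (u ⬝ᵥ sv x - u ⬝ᵥ mag θ) ^ 2 = ∑ i, ∑ j,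
      u i * u j * (μ x * ((sp (x i) - mag θ i) * (sp (x j) - mag θ j))) := fun x => by
    rw [← dotProduct_sub, sq, dotProduct, Finset.sum_mul_sum, Finset.mul_sum]
    refine Finset.sum_congr rfl fun i _ => ?_
    rw [Finset.mul_sum]
    refine Finset.sum_congr rfl fun j _ => ?_
    simp only [Pi.sub_apply, sv]
    ring
  simp only [h1]
  rw [Finset.sum_comm]
  refine Finset.sum_le_sum fun i _ => ?_
  rw [Finset.sum_comm, Finset.sum_eq_single i (fun j _ hj => ?_) (by simp), ← Finset.mul_sum]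
  · have h2 := var_le hμ (fun x => sp (x i)) 0
    have h3 : ex μ (fun x => sp (x i)) = mag θ i := congrFun (mean_prod θ) i
    simp only [h3, sub_zero, sp_sq, mul_one, hμ.2] at h2
    simp only [← sq]
    nlinarith [sq_nonneg (u i)]
  · rw [← Finset.mul_sum, ← ex_cnd_mul hμ i (fun y => sp (y i) - mag θ i)
      (fun y => sp (y j) - mag θ j) fun x b => by rw [Function.update_of_ne hj]]
    simp only [hμd, cnd_sp, sub_self, zero_mul, mul_zero, Finset.sum_const_zero]

/-- Mean and variance for a small perturbation of a product measure. -/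
theorem prod_term {W : Cube n → ℝ} (hW : ∀ x, 0 < W x) {c η : ℝ} (hη : η ≤ 1)
    (h : ∀ x, |Real.log (W x) - c| ≤ η) (θ : Vec n) :
    vn (mean (tilt W θ) - mag θ) ≤ 8 * η * √(n : ℝ) ∧
      ∀ u, vr (tilt W θ) u ≤ Real.exp 2 * (u ⬝ᵥ u) := by
  have hπ := tilt_isP hW θ
  have hμ := tilt_isP (W := fun _ => 1) (fun _ => one_pos) θ
  have ht := tilt_le hW h θ
  have hη0 : 0 ≤ η := (abs_nonneg _).trans (h fun _ => true)
  constructor
  · have e1 : Real.exp (2 * η) ≤ 1 + 8 * η := by
      have h1 := convexOn_exp.2 (Set.mem_univ 2) (Set.mem_univ 0) hη0 (sub_nonneg.2 hη)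
        (add_sub_cancel _ _)
      simp only [smul_eq_mul, mul_zero, add_zero, Real.exp_zero, mul_one] at h1
      have h2 : Real.exp 2 ≤ 9 := by
        have := Real.exp_one_lt_d9
        rw [show (2 : ℝ) = 1 + 1 by norm_num, Real.exp_add]
        nlinarith [Real.exp_pos 1]
      rw [mul_comm 2 η]
      nlinarith
    have e2 : ∀ x, |tilt W θ x - tilt (fun _ => 1) θ x| ≤ 8 * η * tilt (fun _ => 1) θ x := by
      intro x
      have a := hμ.1 x
      have b := mul_le_mul_of_nonneg_left (ht x).2 (Real.exp_pos (-(2 * η))).le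
      rw [← mul_assoc, ← Real.exp_add, neg_add_cancel, Real.exp_zero, one_mul] at b
      have d := mul_le_mul_of_nonneg_right (Real.add_one_le_exp (-(2 * η))) a.le
      have g := (ht x).1.trans (mul_le_mul_of_nonneg_right e1 a.le)
      rw [abs_le]
      constructor <;> nlinarith [mul_nonneg hη0 a.le]
    refine vn_le_sqrt (by positivity) fun i => ?_
    rw [← mean_prod, Pi.sub_apply, mean, mean, ← Finset.sum_sub_distrib]
    refine (Finset.abs_sum_le_sum_abs _ _).trans
      (le_trans (Finset.sum_le_sum fun x _ => ?_) (sum_const hμ (8 * η)).le)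
    rw [← sub_mul, abs_mul, abs_sp, mul_one, mul_comm]
    exact e2 x
  · intro u
    have e1 : u ⬝ᵥ mean (tilt W θ) = ex (tilt W θ) fun x => u ⬝ᵥ sv x := by
      simp only [dotProduct, mean, ex, sv, Finset.mul_sum]
      rw [Finset.sum_comm]
      exact Finset.sum_congr rfl fun x _ => Finset.sum_congr rfl fun i _ => by ring
    rw [vr, e1]
    refine (var_le hπ _ (u ⬝ᵥ mag θ)).trans (le_trans ?_
      (mul_le_mul_of_nonneg_left (vr_prod θ u) (Real.exp_pos 2).le))
    rw [Finset.mul_sum]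
    refine Finset.sum_le_sum fun x _ => ?_
    rw [← mul_assoc]
    refine mul_le_mul_of_nonneg_right ((ht x).1.trans (mul_le_mul_of_nonneg_right
      (Real.exp_le_exp.2 (by linarith)) (hμ.1 x).le)) (sq_nonneg _)

end Vale.Agent.P150
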