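import Vale.Agent.P150.BpMain
import Vale.Agent.P150.TapB
import Vale.Agent.P150.EntA

/-! Small local entropy forces the mean close to the TAP solution. -/

open MeasureTheory ProbabilityTheory Matrix Filter Topology
open scoped ENNReal NNReal

namespace Vale.Agent.P150

variable {n : ℕ}

namespace Dlr

/-- The hypotheses of `bp_orth`. -/
def Hy (β : ℝ) (J : Mat n) (y : Vec n) (ν : Cube n → ℝ) (ω : ℝ) : Prop :=
  β ^ 2 ≤ 1 ∧ J.IsSymm ∧ (∀ i, J i i = 0) ∧ opn J ≤ 6 ∧ 1 ≤ ω * n ∧ W1 β J ω ∧ (∀ x, 0 ≤ ν x) ∧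
    ∑ x, ν x = 1 ∧ DLR ν J y ω

lemma w1_mono {β ω ω' : ℝ} {J : Mat n} (h : W1 β J ω) (h0 : 0 < ω) (hω : ω ≤ ω') : W1 β J ω' :=
  fun l h1 h2 h3 π => (h l h1 (h2.trans (one_div_le_one_div_of_le h0 hω)) h3 π).trans
    (mul_le_mul_of_nonneg_right hω (Nat.cast_nonneg n))

lemma Hy.mono {β ω ω' : ℝ} {J : Mat n} {y : Vec n} {ν : Cube n → ℝ} (h : Hy β J y ν ω)
    (h0 : 0 < ω) (hω : ω ≤ ω') : Hy β J y ν ω' := by
  obtain ⟨h1, h2, h3, h4, h5, h6, h7, h8, h9⟩ := h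
  have hn := mul_le_mul_of_nonneg_right hω (Nat.cast_nonneg (α := ℝ) n)
  refine ⟨h1, h2, h3, h4, h5.trans hn, w1_mono h6 h0 hω, h7, h8, fun g hg => (h9 g hg).trans
    (mul_le_mul_of_nonneg_right hn (Finset.sum_nonneg fun x _ => mul_nonneg (h7 x) ?_))⟩
  rw [dot_self]; positivity

lemma orth_all (L : ℕ) {η : ℝ} (hη : 0 < η) : ∃ ω : ℝ, 0 < ω ∧
    ∀ (n : ℕ) (β : ℝ) (J : Mat n) (y : Vec n) (ν : Cube n → ℝ), Hy β J y ν ω → ∀ k < L,
      |∑ x, ν x * ((bpM β J y x k - bpM β J y x (k + 1)) ⬝ᵥ bpM β J y x (k + 1))| ≤ η * n ∧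
      vn (∑ x, ν x • (bpM β J y x k - bpM β J y x (k + 1))) ≤ η * √(n : ℝ) := by
  induction L with
  | zero => exact ⟨1, one_pos, fun _ _ _ _ _ _ k hk => absurd hk (Nat.not_lt_zero k)⟩
  | succ L ih =>
    obtain ⟨ω, h0, h1⟩ := ih
    obtain ⟨ω', h0', h1'⟩ := bp_orth L hη
    refine ⟨min ω ω', lt_min h0 h0', fun n β J y ν h k hk => ?_⟩
    rcases Nat.lt_succ_iff_lt_or_eq.1 hk with hk | rfl
    · exact h1 n β J y ν (h.mono (lt_min h0 h0') (min_le_left _ _)) k hk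
    · obtain ⟨a1, a2, a3, a4, a5, a6, a7, a8, a9⟩ := h.mono (lt_min h0 h0') (min_le_right _ _)
      exact h1' n β J y ν a1 a2 a3 a4 a5 a6 a7 a8 a9

lemma vn_bpM (β : ℝ) (J : Mat n) (y : Vec n) (x : Cube n) (k : ℕ) :
    vn (bpM β J y x k) ≤ √(n : ℝ) := by
  cases k with
  | zero => exact (vn_sv x).le
  | succ k => rw [bpM_succ]; exact vn_mag_le _

lemma jensen_sq {ν t : Cube n → ℝ} (h0 : ∀ x, 0 ≤ ν x) (h1 : ∑ x, ν x = 1) :
    (∑ x, ν x * t x) ^ 2 ≤ ∑ x, ν x * t x ^ 2 := by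
  have h := Finset.sum_sq_le_sum_mul_sum_of_sq_le_mul (Finset.univ : Finset (Cube n))
    (r := fun x => ν x * t x) (f := ν) (g := fun x => ν x * t x ^ 2) (fun x _ => h0 x)
    (fun x _ => mul_nonneg (h0 x) (sq_nonneg _)) fun x _ => le_of_eq (by ring)
  rwa [h1, one_mul] at h

lemma tap_le {β : ℝ} {J : Mat n} (hβ : β ^ 2 ≤ 1) (hJ : opn J ≤ 6) (y : Vec n) (x : Cube n)
    (k : ℕ) : vn (tap β 1 J (bpH β J y x (k + 1)) - y) ≤
      vn (bpM β J y x k - bpM β J y x (k + 1)) +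
        9 * vn (bpM β J y x (k + 1) - bpM β J y x (k + 2)) := by
  have hm := vn_bpM β J y x
  have e : tap β 1 J (bpH β J y x (k + 1)) - y =
      J *ᵥ (bpM β J y x (k + 1) - bpM β J y x (k + 2)) - (ons β (bpM β J y x (k + 1)) •
        ((bpM β J y x k - bpM β J y x (k + 1)) + (bpM β J y x (k + 1) - bpM β J y x (k + 2))) +
        (ons β (bpM β J y x (k + 1)) - ons β (bpM β J y x (k + 2))) • bpM β J y x (k + 2)) := by
    rw [tap, ← bpM_succ, bpH, mulVec_sub]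
    module
  have h1 := (vn_mulVec_le J (bpM β J y x (k + 1) - bpM β J y x (k + 2))).trans
    (mul_le_mul_of_nonneg_right hJ (vn_nonneg _))
  have h2 := ons_mem hβ (hm (k + 1))
  have h3 := abs_ons_sub_le hβ (hm (k + 1)) (hm (k + 2))
  rw [e]
  refine (vn_sub_le _ _).trans ((add_le_add h1 (vn_add_le _ _)).trans ?_)
  rw [vn_smul, vn_smul, abs_of_nonneg h2.1]
  have h4 := (mul_le_of_le_one_left (vn_nonneg _) (h2.2.trans hβ)).trans (vn_add_le
    (bpM β J y x k - bpM β J y x (k + 1)) (bpM β J y x (k + 1) - bpM β J y x (k + 2)))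
  have h5 := mul_le_mul_of_nonneg_left (hm (k + 2))
    (abs_nonneg (ons β (bpM β J y x (k + 1)) - ons β (bpM β J y x (k + 2))))
  linarith

end Dlr

open Dlr

/-- Telescoping: `|δ_k|² = |m_k|² - |m_{k+1}|² - 2 δ_k ⬝ m_{k+1}`, so among `L` steps there is `k`
with `E (|δ_k|² + |δ_{k+1}|²) ≤ (2 + o(1)) n / L`. Take `H = bpH (k+1)`:
`tap H - y = J δ_{k+1} - b_{k+1} (δ_k + δ_{k+1}) + (b_{k+2} - b_{k+1}) m_{k+2}`
(`abs_ons_sub_le`). -/
theorem bp_tap {η : ℝ} (hη : 0 < η) : ∃ ω : ℝ, 0 < ω ∧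
    ∀ (n : ℕ) (β : ℝ) (J : Mat n) (y : Vec n) (ν : Cube n → ℝ), β ^ 2 ≤ 1 → J.IsSymm →
      (∀ i, J i i = 0) → opn J ≤ 6 → 1 ≤ ω * n → W1 β J ω → (∀ x, 0 ≤ ν x) → ∑ x, ν x = 1 →
      DLR ν J y ω → ∃ H : Cube n → Vec n,
        ∑ x, ν x * vn (tap β 1 J (H x) - y) ≤ η * √(n : ℝ) ∧
        vn (∑ x, ν x • sv x - ∑ x, ν x • mag (H x)) ≤ η * √(n : ℝ) := by
  obtain ⟨L, hL⟩ := exists_nat_gt (328 / η ^ 2)
  have hL0 : (0 : ℝ) < L := lt_trans (by positivity) hL
  have hm0 : 0 < min η (1 / 2) := lt_min hη (by norm_num)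
  obtain ⟨ω, h0, h⟩ := orth_all (L + 1) (η := min η (1 / 2) / (L + 1)) (by positivity)
  refine ⟨ω, h0, fun n β J y ν a1 a2 a3 a4 a5 a6 a7 a8 a9 => ?_⟩
  have h1 := h n β J y ν ⟨a1, a2, a3, a4, a5, a6, a7, a8, a9⟩
  have hn : (0 : ℝ) ≤ n := Nat.cast_nonneg n
  set a : ℕ → ℝ := fun k => ∑ x, ν x * vn (bpM β J y x k - bpM β J y x (k + 1)) ^ 2 with ha
  set M : ℕ → ℝ := fun k => ∑ x, ν x * vn (bpM β J y x k) ^ 2 with hM
  have ha0 : ∀ k, 0 ≤ a k := fun k => Finset.sum_nonneg fun x _ => mul_nonneg (a7 x) (sq_nonneg _)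
  have h2 : ∀ k ∈ Finset.range (L + 1),
      a k ≤ M k - M (k + 1) + 2 * (min η (1 / 2) / (L + 1) * n) := fun k hk => by
    have e : a k = M k - M (k + 1) - 2 * ∑ x, ν x *
        ((bpM β J y x k - bpM β J y x (k + 1)) ⬝ᵥ bpM β J y x (k + 1)) := by
      simp only [ha, hM, Finset.mul_sum, ← Finset.sum_sub_distrib]
      refine Finset.sum_congr rfl fun x _ => ?_
      simp only [← dot_self, sub_dotProduct, dotProduct_sub,
        dotProduct_comm (bpM β J y x (k + 1)) (bpM β J y x k)]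
      ring
    linarith [(abs_le.1 (h1 k (Finset.mem_range.1 hk)).1).1]
  have h3 := Finset.sum_le_sum h2
  rw [Finset.sum_add_distrib, Finset.sum_range_sub', Finset.sum_const, Finset.card_range,
    nsmul_eq_mul] at h3
  have h4 : M 0 = n := by
    simp only [hM, bpM, vn_sv, Real.sq_sqrt hn, ← Finset.sum_mul, a8, one_mul]
  have h5 : 0 ≤ M (L + 1) := Finset.sum_nonneg fun x _ => mul_nonneg (a7 x) (sq_nonneg _)
  have h6 : ((L + 1 : ℕ) : ℝ) * (2 * (min η (1 / 2) / (L + 1) * n)) ≤ n := by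
    have e : ((L + 1 : ℕ) : ℝ) * (2 * (min η (1 / 2) / (L + 1) * n)) = 2 * min η (1 / 2) * n := by
      push_cast; field_simp
    rw [e]
    exact mul_le_of_le_one_left hn (by linarith [min_le_right η (1 / 2)])
  have h7 : ∑ k ∈ Finset.range L, (a k + a (k + 1)) ≤ ∑ _k ∈ Finset.range L, 4 * (n : ℝ) / L := by
    have e1 := Finset.sum_range_succ a L
    have e2 := Finset.sum_range_succ' a L
    rw [Finset.sum_add_distrib, Finset.sum_const, Finset.card_range, nsmul_eq_mul,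
      mul_div_cancel₀ _ hL0.ne']
    linarith [ha0 0, ha0 L]
  obtain ⟨k, hk, h8⟩ := Finset.exists_le_of_sum_le
    (Finset.nonempty_range_iff.2 (Nat.cast_pos.1 hL0).ne') h7
  have hk' := Finset.mem_range.1 hk
  refine ⟨fun x => bpH β J y x (k + 1), ?_, ?_⟩
  · refine le_of_sq_le_sq ?_ (by positivity)
    refine (jensen_sq a7 a8).trans ?_
    have h9 : ∑ x, ν x * vn (tap β 1 J (bpH β J y x (k + 1)) - y) ^ 2 ≤ 82 * (a k + a (k + 1)) := by
      simp only [ha, ← Finset.sum_add_distrib, Finset.mul_sum]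
      refine Finset.sum_le_sum fun x _ => ?_
      have b1 := pow_le_pow_left₀ (vn_nonneg _) (tap_le a1 a4 y x k) 2
      rw [show k + 1 + 1 = k + 2 from rfl]
      generalize vn (bpM β J y x k - bpM β J y x (k + 1)) = s at *
      generalize vn (bpM β J y x (k + 1) - bpM β J y x (k + 2)) = t at *
      have b2 : (s + 9 * t) ^ 2 ≤ 82 * (s ^ 2 + t ^ 2) := by nlinarith [sq_nonneg (9 * s - t)]
      nlinarith [mul_le_mul_of_nonneg_left (b1.trans b2) (a7 x)]
    have h10 : 82 * (4 * (n : ℝ) / L) ≤ η ^ 2 * n := by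
      rw [div_lt_iff₀ (by positivity)] at hL
      rw [← mul_div_assoc, div_le_iff₀ hL0]
      nlinarith [mul_le_mul_of_nonneg_right hL.le hn]
    rw [mul_pow, Real.sq_sqrt hn]
    linarith
  · have e : ∑ x, ν x • sv x - ∑ x, ν x • mag (bpH β J y x (k + 1)) =
        ∑ j ∈ Finset.range (k + 2), ∑ x, ν x • (bpM β J y x j - bpM β J y x (j + 1)) := by
      rw [Finset.sum_comm, ← Finset.sum_sub_distrib]
      refine Finset.sum_congr rfl fun x _ => ?_
      rw [← Finset.smul_sum, Finset.sum_range_sub', ← smul_sub, ← bpM_succ]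
      rfl
    rw [e]
    refine (vn_sum_le _ _).trans ((Finset.sum_le_sum fun j hj =>
      (h1 j (by have := Finset.mem_range.1 hj; omega)).2).trans ?_)
    rw [Finset.sum_const, Finset.card_range, nsmul_eq_mul, ← mul_assoc]
    refine mul_le_mul_of_nonneg_right ?_ (Real.sqrt_nonneg _)
    have : ((k + 2 : ℕ) : ℝ) ≤ L + 1 := by exact_mod_cast (by omega : k + 2 ≤ L + 1)
    rw [← mul_div_assoc, div_le_iff₀ (by positivity), mul_comm]
    exact mul_le_mul (min_le_left _ _) this (by positivity) hη.le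

namespace Dlr

lemma field_update (J : Mat n) (θ : Vec n) (x : Cube n) (i : Fin n) (b : Bool) :
    (θ + od J *ᵥ sv (Function.update x i b)) i = θ i + (J *ᵥ Function.update (sv x) i 0) i := by
  rw [Pi.add_apply]
  congr 1
  simp only [mulVec, dotProduct]
  refine Finset.sum_congr rfl fun j _ => ?_
  by_cases hj : j = i
  · subst hj; simp [od]
  · simp [od, sv, hj, Ne.symm hj]

lemma balance {J : Mat n} (hJ : J.IsSymm) (θ : Vec n) (x : Cube n) (i : Fin n) : ∃ K : ℝ, ∀ b,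
    tilt (wJ J) θ (Function.update x i b) =
      K * Real.exp (sp b * (θ i + (J *ᵥ Function.update (sv x) i 0) i)) := by
  obtain ⟨r, hr⟩ : ∃ r, r = Function.update (sv x) i 0 := ⟨_, rfl⟩
  refine ⟨Real.exp ((r ⬝ᵥ J *ᵥ r + J i i) / 2 + θ ⬝ᵥ r) / ∑ y, wJ J y * Real.exp (θ ⬝ᵥ sv y),
    fun b => ?_⟩
  have e : sv (Function.update x i b) = r + sp b • (Pi.single i 1 : Vec n) := by
    funext j
    by_cases hj : j = i
    · subst hj; simp [hr, sv]
    · simp [hr, sv, hj]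
  have h1 : r ⬝ᵥ J *ᵥ Pi.single i 1 = (J *ᵥ r) i := by
    rw [dotProduct_mulVec, ← mulVec_transpose, hJ.eq, dotProduct_single_one]
  have h2 : (J *ᵥ Pi.single i 1) i = J i i := by simp
  rw [tilt, wJ, e, ← hr, div_mul_eq_mul_div, ← Real.exp_add, ← Real.exp_add]
  congr 2
  simp only [mulVec_add, mulVec_smul, add_dotProduct, dotProduct_add, smul_dotProduct,
    dotProduct_smul, h1, single_one_dotProduct, dotProduct_single_one, h2, smul_eq_mul]
  linear_combination (J i i / 2) * sp_sq b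

lemma centred {J : Mat n} (hJ : J.IsSymm) (θ : Vec n) (i : Fin n) {h : Cube n → ℝ}
    (hh : ∀ x b, h (Function.update x i b) = h x) :
    ∑ x, tilt (wJ J) θ x * ((sv x - mag (θ + od J *ᵥ sv x)) i * h x) = 0 := by
  rw [EntA.sum_half i]
  refine Finset.sum_eq_zero fun x _ => ?_
  obtain ⟨K, hK⟩ := balance hJ θ x i
  simp only [hK, hh, Pi.sub_apply, mag, field_update]
  generalize θ i + (J *ᵥ Function.update (sv x) i 0) i = t
  have h1 := Real.exp_pos t
  have h2 := Real.exp_pos (-t)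
  simp only [sv, Function.update_self, sp, if_true, Bool.false_eq_true, if_false, one_mul, neg_mul,
    Real.tanh_eq]
  field_simp
  ring

end Dlr

/-- The conditional mean of spin `i` under `tilt (wJ J) θ` is `tanh (θ i + (od J *ᵥ sv x) i)`.
A two-point Pinsker inequality bounds the squared difference of the conditional means of
`ν = π f / ex π f` and `π` by four times the local entropy; then Cauchy-Schwarz. -/
theorem dlr_of_dir {J : Mat n} (hJ : J.IsSymm) (θ : Vec n) {f : Cube n → ℝ} (hf : ∀ x, 0 < f x)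
    {ω : ℝ} (h : 16 * dir (tilt (wJ J) θ) f ≤ ω * n * ex (tilt (wJ J) θ) f) :
    DLR (fun x => tilt (wJ J) θ x * f x / ex (tilt (wJ J) θ) f) (od J) θ ω := by
  intro g hg
  have hπ := tilt_isP (wJ_pos J) θ
  have hc := centred hJ θ
  generalize tilt (wJ J) θ = π at *
  have hF := ex_pos hπ hf
  set d : Cube n → Vec n := fun x => sv x - mag (θ + od J *ᵥ sv x) with hd
  have hd2 : ∀ x i, d x i ^ 2 ≤ 4 := fun x i => by
    have h1 : |d x i| ≤ 2 := (abs_sub _ _).trans (by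
      linarith [abs_sp (x i), abs_mag_le (θ + od J *ᵥ sv x) i, show |sv x i| = |sp (x i)| from rfl])
    nlinarith [sq_abs (d x i), abs_nonneg (d x i)]
  have e1 : ∑ x, π x * f x * (d x ⬝ᵥ g x) =
      ∑ p : Fin n × Cube n, π p.2 * ((f p.2 - cnd π p.1 f p.2) * (d p.2 p.1 * g p.2 p.1)) := by
    rw [Fintype.sum_prod_type]
    simp only [dotProduct, Finset.mul_sum]
    rw [Finset.sum_comm]
    refine Finset.sum_congr rfl fun i _ => ?_
    have := hc i (h := fun x => cnd π i f x * g x i) fun x b => by rw [cnd_update, hg]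
    rw [← sub_eq_zero, ← Finset.sum_sub_distrib, ← this]
    exact Finset.sum_congr rfl fun x _ => by ring
  have h1 := Finset.sum_sq_le_sum_mul_sum_of_sq_le_mul (Finset.univ : Finset (Fin n × Cube n))
    (r := fun p => π p.2 * ((f p.2 - cnd π p.1 f p.2) * (d p.2 p.1 * g p.2 p.1)))
    (f := fun p => π p.2 * (f p.2 * Real.log (f p.2) - f p.2 * Real.log (cnd π p.1 f p.2) - f p.2 +
      cnd π p.1 f p.2))
    (g := fun p => 8 * (π p.2 * (f p.2 * g p.2 p.1 ^ 2) + π p.2 * (cnd π p.1 f p.2 * g p.2 p.1 ^ 2)))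
    (fun p _ => mul_nonneg (hπ.1 _).le (by linarith [EntA.key (hf p.2) (cnd_pos hπ hf p.1 p.2)]))
    (fun p _ => by
      have := hπ.1 p.2; have := hf p.2; have := cnd_pos hπ hf p.1 p.2; positivity)
    (fun p _ => by
      have b1 := mul_le_mul (EntA.pin_pt (hf p.2) (cnd_pos hπ hf p.1 p.2)) (hd2 p.2 p.1)
        (sq_nonneg _) ((sq_nonneg _).trans (EntA.pin_pt (hf p.2) (cnd_pos hπ hf p.1 p.2)))
      have b2 := mul_le_mul_of_nonneg_left b1 (sq_nonneg (π p.2 * g p.2 p.1))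
      linarith)
  have e2 : ∑ p : Fin n × Cube n, π p.2 * (f p.2 * Real.log (f p.2) -
      f p.2 * Real.log (cnd π p.1 f p.2) - f p.2 + cnd π p.1 f p.2) = dir π f := by
    rw [Fintype.sum_prod_type, dir]
    exact Finset.sum_congr rfl fun i _ => (EntA.loc_eq hπ f i).symm
  have e3 : ∑ p : Fin n × Cube n, 8 * (π p.2 * (f p.2 * g p.2 p.1 ^ 2) +
      π p.2 * (cnd π p.1 f p.2 * g p.2 p.1 ^ 2)) = 16 * ∑ x, π x * f x * (g x ⬝ᵥ g x) := by
    have b : ∀ i, ∑ x, π x * (cnd π i f x * g x i ^ 2) = ∑ x, π x * (f x * g x i ^ 2) := fun i =>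
      ex_cnd_mul hπ i f (fun x => g x i ^ 2) fun x b => by rw [hg]
    rw [← Finset.mul_sum, Fintype.sum_prod_type]
    simp only [Finset.sum_add_distrib, b]
    rw [Finset.sum_comm]
    have b2 : ∑ x, π x * f x * (g x ⬝ᵥ g x) = ∑ x, ∑ i, π x * (f x * g x i ^ 2) := by
      simp only [dotProduct, Finset.mul_sum]
      exact Finset.sum_congr rfl fun x _ => Finset.sum_congr rfl fun i _ => by ring
    rw [b2]
    ring
  rw [← e1, e2, e3] at h1
  have h2 : 0 ≤ ∑ x, π x * f x * (g x ⬝ᵥ g x) := Finset.sum_nonneg fun x _ => by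
    have := hπ.1 x; have := hf x; rw [dot_self]; positivity
  have h3 := mul_le_mul_of_nonneg_right h h2
  simp only [div_mul_eq_mul_div, ← Finset.sum_div]
  rw [div_pow, div_le_iff₀ (pow_pos hF 2)]
  calc _ ≤ ω * n * ex π f * ∑ x, π x * f x * (g x ⬝ᵥ g x) := by linarith
    _ = _ := by field_simp

namespace Dlr

lemma tap_od (β : ℝ) (J : Mat n) (H : Vec n) :
    vn (tap β 1 J H - tap β 1 (od J) H) ≤ vn fun i => J i i := by
  have e : tap β 1 J H - tap β 1 (od J) H = -(diagonal (fun i => J i i) *ᵥ mag H) := by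
    simp only [tap, od_eq, sub_mulVec]
    module
  rw [e, vn_neg]
  refine vn_mono fun i => ?_
  rw [mulVec_diagonal, abs_mul]
  exact mul_le_of_le_one_right (abs_nonneg _) (abs_mag_le H i)

lemma dir_one {π : Cube n → ℝ} (hπ : IsP π) : dir π (fun _ => 1) = 0 := by
  have h : ∀ i x, cnd π i (fun _ => 1) x = 1 := fun i x => by
    simp only [cnd, mul_one]
    exact div_self (add_pos (hπ.1 _) (hπ.1 _)).ne'
  simp [dir, h]

lemma vn_avg_le {ν : Cube n → ℝ} (h0 : ∀ x, 0 ≤ ν x) (h1 : ∑ x, ν x = 1) (m : Cube n → Vec n)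
    (m₀ : Vec n) : vn (∑ x, ν x • m x - m₀) ≤ ∑ x, ν x * vn (m x - m₀) := by
  have e : ∑ x, ν x • m x - m₀ = ∑ x, ν x • (m x - m₀) := by
    simp only [smul_sub, Finset.sum_sub_distrib, ← Finset.sum_smul, h1, one_smul]
  rw [e]
  exact (vn_sum_le _ _).trans (le_of_eq (Finset.sum_congr rfl fun x _ => by
    rw [vn_smul, abs_of_nonneg (h0 x)]))

end Dlr

/-- Apply `bp_tap` to `ν = π f / F` and to `π` itself (`f = 1`), with `good_close`; if the local
entropy is not small use `vn_cov_le`. -/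
theorem cov_le {c ρ η : ℝ} (hc : 0 < c) (hc1 : c ≤ 1) (hρ : 0 < ρ) (hρ1 : ρ ≤ 1) (hη : 0 < η) :
    ∃ ω C : ℝ, 0 < ω ∧ 0 ≤ C ∧ ∀ (n : ℕ) (β : ℝ) (J : Mat n) (θ : Vec n) (f : Cube n → ℝ),
      β ^ 2 ≤ 1 → J.IsSymm → opn J ≤ 3 → 1 ≤ ω * n → W1 β (od J) ω →
      vn (fun i => J i i) ≤ ω * √(n : ℝ) → Good β 1 J c ρ θ → (∀ x, 0 < f x) →
      vn (cov (tilt (wJ J) θ) f) ^ 2 ≤ ex (tilt (wJ J) θ) f *
        (η * n * ex (tilt (wJ J) θ) f + C * dir (tilt (wJ J) θ) f) := by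
  obtain ⟨K, hK⟩ : ∃ K, K = 200 / (c * ρ) := ⟨_, rfl⟩
  have hK0 : 0 < K := by rw [hK]; positivity
  obtain ⟨e, he⟩ : ∃ e, e = √η / (2 + 4 * K) := ⟨_, rfl⟩
  have he0 : 0 < e := by rw [he]; positivity
  obtain ⟨ω₀, hω₀, htap⟩ := bp_tap he0
  have hω : 0 < min ω₀ e := lt_min hω₀ he0
  refine ⟨min ω₀ e, 64 / min ω₀ e, hω, by positivity,
    fun n β J θ f hβ hJ hJ3 h1 hW hd hG hf => ?_⟩
  have hn : 0 < n := Nat.pos_of_ne_zero fun h => by simp [h] at h1; linarith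
  have hn' : (0 : ℝ) ≤ n := Nat.cast_nonneg n
  have hq := Real.sqrt_nonneg (n : ℝ)
  have hπ := tilt_isP (wJ_pos J) θ
  have hF := ex_pos hπ hf
  have hdir := dir_nonneg hπ hf
  obtain ⟨H₀, hH₀, -⟩ := hG.2
  have close : ∀ f : Cube n → ℝ, (∀ x, 0 < f x) →
      16 * dir (tilt (wJ J) θ) f ≤ min ω₀ e * n * ex (tilt (wJ J) θ) f →
      vn (∑ x, (tilt (wJ J) θ x * f x / ex (tilt (wJ J) θ) f) • sv x - mag H₀) ≤
        (1 + 2 * K) * e * √(n : ℝ) := by
    intro f hf hs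
    have hF := ex_pos hπ hf
    have b0 : ∀ x, 0 ≤ tilt (wJ J) θ x * f x / ex (tilt (wJ J) θ) f := fun x =>
      (div_pos (mul_pos (hπ.1 x) (hf x)) hF).le
    have b1 : ∑ x, tilt (wJ J) θ x * f x / ex (tilt (wJ J) θ) f = 1 := by
      rw [← Finset.sum_div]; exact div_self hF.ne'
    obtain ⟨a1, a2, a3, a4, a5, a6, a7, a8, a9⟩ := Hy.mono (β := β) (J := od J) (y := θ)
      ⟨hβ, od_symm hJ, fun i => by simp [od], (opn_od_le J).trans (by linarith), h1, hW, b0, b1,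
        dlr_of_dir hJ θ hf hs⟩ hω (min_le_left _ _)
    obtain ⟨H, b2, b3⟩ := htap n β (od J) θ _ a1 a2 a3 a4 a5 a6 a7 a8 a9
    have b4 := vn_avg_le b0 b1 (fun x => mag (H x)) (mag H₀)
    have b5 : ∀ x, vn (mag (H x) - mag H₀) ≤
        K * vn (tap β 1 (od J) (H x) - θ) + K * (e * √(n : ℝ)) := fun x => by
      have c1 := good_close hn hβ hJ hJ3 ⟨zero_le_one, le_rfl⟩ hc hc1 hρ hρ1 hG hH₀ (H x)
      have c2 := vn_triangle (tap β 1 J (H x)) (tap β 1 (od J) (H x)) θ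
      have c3 := ((tap_od β J (H x)).trans hd).trans
        (mul_le_mul_of_nonneg_right (min_le_right _ _) hq)
      rw [← hK] at c1
      rw [← mul_add]
      exact c1.trans (mul_le_mul_of_nonneg_left (by linarith) hK0.le)
    have b6 := Finset.sum_le_sum fun x (_ : x ∈ Finset.univ) =>
      mul_le_mul_of_nonneg_left (b5 x) (b0 x)
    simp only [mul_add, Finset.sum_add_distrib, ← Finset.sum_mul, b1, one_mul,
      mul_left_comm _ K, ← Finset.mul_sum] at b6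
    have b7 := mul_le_mul_of_nonneg_left b2 hK0.le
    refine (vn_triangle _ (∑ x, (tilt (wJ J) θ x * f x / ex (tilt (wJ J) θ) f) • mag (H x)) _).trans ?_
    linarith
  rcases le_or_gt (16 * dir (tilt (wJ J) θ) f) (min ω₀ e * n * ex (tilt (wJ J) θ) f) with hs | hs
  · have b1 := close f hf hs
    have b2 := close (fun _ => 1) (fun _ => one_pos) (by
      rw [dir_one hπ, mul_zero]
      exact mul_nonneg (mul_nonneg hω.le hn') (ex_pos hπ fun _ => one_pos).le)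
    have b3 : ex (tilt (wJ J) θ) (fun _ => 1) = 1 := EntA.sum_const hπ 1
    simp only [b3, mul_one, div_one] at b2
    have b4 : cov (tilt (wJ J) θ) f = ex (tilt (wJ J) θ) f •
        (∑ x, (tilt (wJ J) θ x * f x / ex (tilt (wJ J) θ) f) • sv x -
          ∑ x, tilt (wJ J) θ x • sv x) := by
      funext i
      simp only [cov, mean, Pi.smul_apply, Pi.sub_apply, Finset.sum_apply, smul_eq_mul, sv, mul_sub]
      congr 1
      rw [Finset.mul_sum]
      exact Finset.sum_congr rfl fun x _ => by field_simp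
    have b5 := vn_triangle (∑ x, (tilt (wJ J) θ x * f x / ex (tilt (wJ J) θ) f) • sv x) (mag H₀)
      (∑ x, tilt (wJ J) θ x • sv x)
    rw [vn_sub_comm (mag H₀)] at b5
    have b6 : (1 + 2 * K) * e * √(n : ℝ) + (1 + 2 * K) * e * √(n : ℝ) = √η * √(n : ℝ) := by
      rw [he]; field_simp; ring
    have b7 := pow_le_pow_left₀ (vn_nonneg _) (b5.trans ((add_le_add b1 b2).trans b6.le)) 2
    rw [mul_pow, Real.sq_sqrt hη.le, Real.sq_sqrt hn'] at b7
    rw [b4, vn_smul, mul_pow, sq_abs]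
    have b8 := mul_le_mul_of_nonneg_left b7 (sq_nonneg (ex (tilt (wJ J) θ) f))
    have b9 : 0 ≤ ex (tilt (wJ J) θ) f * (64 / min ω₀ e * dir (tilt (wJ J) θ) f) := by positivity
    nlinarith
  · have b1 := pow_le_pow_left₀ (vn_nonneg _) (vn_cov_le hπ hf) 2
    rw [mul_pow, Real.sq_sqrt hn'] at b1
    have b2 : 4 * (n * ex (tilt (wJ J) θ) f) ≤ 64 / min ω₀ e * dir (tilt (wJ J) θ) f := by
      rw [div_mul_eq_mul_div, le_div_iff₀ hω]
      linarith
    have b3 := mul_le_mul_of_nonneg_left b2 hF.le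
    have b4 : 0 ≤ ex (tilt (wJ J) θ) f * (η * n * ex (tilt (wJ J) θ) f) := by positivity
    nlinarith

end Vale.Agent.P150
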