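import Vale.Agent.P150.EntA

/-! The two-phase mixing argument for the discrete chain. -/

open MeasureTheory ProbabilityTheory Matrix Filter Topology
open scoped ENNReal NNReal

namespace Vale.Agent.P150

variable {n : ℕ}

/-- Distance to equilibrium in `L¹` of the discrete chain started at `x`. -/
noncomputable def dist1 (π : Cube n → ℝ) (k : ℕ) (x : Cube n) : ℝ :=
  ∑ y, π y * |(qbar π)^[k] (Pi.single x (1 / π x)) y - 1|

namespace DynAux

open EntA

variable {π f g : Cube n → ℝ}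

theorem qbar_lin (a b : ℝ) (f g : Cube n → ℝ) :
    qbar π (fun x => a * f x + b * g x) = fun x => a * qbar π f x + b * qbar π g x := by
  funext x
  have h : ∀ i, cnd π i (fun x => a * f x + b * g x) x = a * cnd π i f x + b * cnd π i g x :=
    fun i => by
      simp only [cnd]
      ring
  simp only [qbar, h, Finset.sum_add_distrib, ← Finset.mul_sum]
  ring

theorem qbar_const (hn : 0 < n) (hπ : IsP π) (c : ℝ) : qbar π (fun _ => c) = fun _ => c := by
  funext x
  have hn' : (n : ℝ) ≠ 0 := by positivity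
  have h : ∀ i, cnd π i (fun _ => c) x = c := fun i => by
    have := add_pos (hπ.1 (Function.update x i true)) (hπ.1 (Function.update x i false))
    simp only [cnd]
    field_simp
  simp only [qbar, h, Finset.sum_const, Finset.card_univ, Fintype.card_fin, nsmul_eq_mul]
  field_simp

theorem qbar_mono (hπ : IsP π) (h : ∀ x, f x ≤ g x) (x : Cube n) : qbar π f x ≤ qbar π g x := by
  refine div_le_div_of_nonneg_right (Finset.sum_le_sum fun i _ => ?_) (Nat.cast_nonneg n)
  exact div_le_div_of_nonneg_right (add_le_add (mul_le_mul_of_nonneg_left (h _) (hπ.1 _).le)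
    (mul_le_mul_of_nonneg_left (h _) (hπ.1 _).le)) (add_pos (hπ.1 _) (hπ.1 _)).le

theorem it_lin (a b : ℝ) (f g : Cube n → ℝ) (k : ℕ) :
    (qbar π)^[k] (fun x => a * f x + b * g x) =
      fun x => a * (qbar π)^[k] f x + b * (qbar π)^[k] g x := by
  induction k with
  | zero => rfl
  | succ k ih => simp only [Function.iterate_succ_apply', ih, qbar_lin]

theorem it_const (hn : 0 < n) (hπ : IsP π) (c : ℝ) (k : ℕ) :
    (qbar π)^[k] (fun _ => c) = fun _ => c :=
  Function.iterate_fixed (qbar_const hn hπ c) k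

theorem it_mono (hπ : IsP π) (h : ∀ x, f x ≤ g x) (k : ℕ) :
    ∀ x, (qbar π)^[k] f x ≤ (qbar π)^[k] g x := by
  induction k with
  | zero => exact h
  | succ k ih =>
    simp only [Function.iterate_succ_apply']
    exact qbar_mono hπ ih

theorem it_ge (hn : 0 < n) (hπ : IsP π) {c : ℝ} (h : ∀ x, c ≤ f x) (k : ℕ) (x : Cube n) :
    c ≤ (qbar π)^[k] f x := by
  have := it_mono (f := fun _ => c) hπ h k x
  rwa [it_const hn hπ] at this

theorem it_le (hn : 0 < n) (hπ : IsP π) {c : ℝ} (h : ∀ x, f x ≤ c) (k : ℕ) (x : Cube n) :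
    (qbar π)^[k] f x ≤ c := by
  have := it_mono (g := fun _ => c) hπ h k x
  rwa [it_const hn hπ] at this

theorem it_pos (hn : 0 < n) (hπ : IsP π) (h : ∀ x, 0 < f x) (k : ℕ) :
    ∀ x, 0 < (qbar π)^[k] f x := by
  induction k with
  | zero => exact h
  | succ k ih =>
    simp only [Function.iterate_succ_apply']
    exact qbar_pos hn hπ ih

theorem it_ex (hn : 0 < n) (hπ : IsP π) (f : Cube n → ℝ) (k : ℕ) :
    ex π ((qbar π)^[k] f) = ex π f := by
  induction k with
  | zero => rfl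
  | succ k ih => rw [Function.iterate_succ_apply', ex_qbar hn hπ, ih]

theorem ex_lin (a b : ℝ) (f g : Cube n → ℝ) :
    ex π (fun x => a * f x + b * g x) = a * ex π f + b * ex π g := by
  simp only [ex, Finset.mul_sum, ← Finset.sum_add_distrib]
  exact Finset.sum_congr rfl fun x _ => by ring

theorem ex_one (hπ : IsP π) : ex π (fun _ => 1) = 1 := sum_const hπ 1

theorem ex_nonneg (hπ : IsP π) (h : ∀ x, 0 ≤ f x) : 0 ≤ ex π f :=
  Finset.sum_nonneg fun x _ => mul_nonneg (hπ.1 x).le (h x)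

theorem ent_le (hπ : IsP π) (h4 : ∀ x, -Real.log (π x) ≤ 4 * n) (hf : ∀ x, 0 < f x) :
    ent π f ≤ 4 * n * ex π f := by
  refine (ent_le_neg_log hπ hf).trans ?_
  rw [ex, Finset.mul_sum]
  refine Finset.sum_le_sum fun x _ => ?_
  have := mul_le_mul_of_nonneg_left (h4 x) (mul_pos (hπ.1 x) (hf x)).le
  linarith

/-- Every density is within `a` of equilibrium after `k` steps. -/
def Mix (π : Cube n → ℝ) (k : ℕ) (a : ℝ) : Prop :=
  ∀ f : Cube n → ℝ, (∀ x, 0 ≤ f x) → ex π f = 1 → ∑ y, π y * |(qbar π)^[k] f y - 1| ≤ a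

theorem Mix.later (hn : 0 < n) (hπ : IsP π) {k l : ℕ} {a b : ℝ} (h : Mix π k a) (hkl : k ≤ l)
    (hab : a ≤ b) : Mix π l b := fun f hf h1 => by
  obtain ⟨m, rfl⟩ := Nat.exists_eq_add_of_le hkl
  rw [Function.iterate_add_apply]
  exact (h _ (it_ge hn hπ hf m) ((it_ex hn hπ f m).trans h1)).trans hab

theorem mix_two (hπ : IsP π) : Mix π 0 2 := fun f hf h1 => by
  have h : ∑ y, π y * |f y - 1| ≤ ex π fun y => 1 * f y + 1 * 1 :=
    Finset.sum_le_sum fun y _ => mul_le_mul_of_nonneg_left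
      (abs_le.2 ⟨by linarith [hf y], by linarith⟩) (hπ.1 y).le
  rw [ex_lin, h1, ex_one hπ] at h
  exact h.trans_eq (by norm_num)

theorem Mix.scale (hn : 0 < n) (hπ : IsP π) {k : ℕ} {a : ℝ} (h : Mix π k a)
    (hf : ∀ x, 0 ≤ f x) : ∑ y, π y * |(qbar π)^[k] f y - ex π f| ≤ a * ex π f := by
  rcases (ex_nonneg hπ hf).eq_or_lt with h0 | h0
  · have h1 := (Finset.sum_eq_zero_iff_of_nonneg fun x _ => mul_nonneg (hπ.1 x).le (hf x)).1
      h0.symm
    have h2 : f = fun _ => 0 := funext fun x =>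
      (mul_eq_zero.1 (h1 x (Finset.mem_univ x))).resolve_left (hπ.1 x).ne'
    rw [← h0, h2, it_const hn hπ]
    simp
  · have h1 := h (fun x => (ex π f)⁻¹ * f x + 0 * f x) (fun x => by
      have := mul_nonneg (inv_pos.2 h0).le (hf x)
      linarith) (by rw [ex_lin, inv_mul_cancel₀ h0.ne', zero_mul, add_zero])
    rw [it_lin] at h1
    refine le_trans (le_of_eq ?_) (mul_le_mul_of_nonneg_right h1 h0.le)
    rw [Finset.sum_mul]
    refine Finset.sum_congr rfl fun y _ => ?_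
    rw [mul_assoc]
    congr 1
    rw [← abs_of_pos h0, ← abs_mul, abs_of_pos h0]
    congr 1
    field_simp
    ring

theorem phase1 (hn : 0 < n) (hπ : IsP π) (h4 : ∀ x, -Real.log (π x) ≤ 4 * n) {e t : ℝ}
    (ht : 0 ≤ t)
    (H : ∀ f : Cube n → ℝ, (∀ x, 0 < f x) → ex π f = 1 → dir π f ≤ e * n → ent π f ≤ t)
    (hf : ∀ x, 0 < f x) (h1 : ex π f = 1) {k : ℕ} (hk : 4 * n ≤ k * e) :
    ent π ((qbar π)^[k] f) ≤ t := by
  have hn' : (0 : ℝ) < n := Nat.cast_pos.2 hn
  have key : ∀ j : ℕ, ent π ((qbar π)^[j] f) ≤ t ∨ ent π ((qbar π)^[j] f) ≤ 4 * n - j * e := by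
    intro j
    induction j with
    | zero =>
      have := ent_le hπ h4 hf
      rw [h1] at this
      exact Or.inr (by simpa using this)
    | succ j ih =>
      have hp := it_pos hn hπ hf j
      have h2 := ent_qbar hn hπ hp
      have h3 := div_nonneg (dir_nonneg hπ hp) hn'.le
      rw [Function.iterate_succ_apply']
      rcases ih with ih | ih
      · exact Or.inl (by linarith)
      · by_cases h5 : dir π ((qbar π)^[j] f) ≤ e * n
        · exact Or.inl (by linarith [H _ hp ((it_ex hn hπ f j).trans h1) h5])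
        · have h6 : e ≤ dir π ((qbar π)^[j] f) / n := by
            rw [le_div_iff₀ hn']
            linarith
          exact Or.inr (by push_cast; linarith)
  rcases key k with h | h <;> linarith

theorem tail (hπ : IsP π) {s : ℝ} (hs : 4 ≤ s) (hf : ∀ x, 0 ≤ f x) (h1 : ex π f = 1)
    (he : ent π (fun x => 1 / 2 * f x + 1 / 2 * 1) ≤ s / 16) :
    ex π (fun x => if Real.exp s < f x then f x else 0) ≤ 1 / 4 := by
  have hF : ∀ x, 0 < 1 / 2 * f x + 1 / 2 * 1 := fun x => by linarith [hf x]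
  rw [ent_eq hπ, ex_lin, h1, ex_one hπ] at he
  have e1 : (1 / 2 * 1 + 1 / 2 * 1 : ℝ) = 1 := by norm_num
  rw [e1, Real.log_one] at he
  have h2 : s * ex π (fun x => if Real.exp s < f x then f x else 0) ≤ 4 * (s / 16) := by
    refine le_trans ?_ (mul_le_mul_of_nonneg_left he (by norm_num))
    rw [ex, Finset.mul_sum, Finset.mul_sum]
    refine Finset.sum_le_sum fun x _ => ?_
    rw [mul_left_comm, mul_left_comm 4]
    refine mul_le_mul_of_nonneg_left ?_ (hπ.1 x).le
    have h3 := key (hF x) one_pos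
    rw [Real.log_one] at h3
    split_ifs with h
    · have h5 : s - 1 ≤ Real.log (1 / 2 * f x + 1 / 2 * 1) := by
        rw [Real.le_log_iff_exp_le (hF x)]
        have h6 : Real.exp s = Real.exp (s - 1) * Real.exp 1 := by
          rw [← Real.exp_add, sub_add_cancel]
        have h7 := Real.add_one_le_exp 1
        nlinarith [Real.exp_pos (s - 1)]
      have h8 := mul_le_mul_of_nonneg_left h5 (hF x).le
      nlinarith [hf x]
    · linarith
  have hs0 : 0 < s := by linarith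
  exact le_of_mul_le_mul_left (h2.trans_eq (by ring)) hs0

theorem phase2 (hn : 0 < n) (hπ : IsP π) (h4 : ∀ x, -Real.log (π x) ≤ 4 * n) {A M η : ℝ}
    (hA : 1 ≤ A) (hη : 0 ≤ η)
    (H : ∀ f : Cube n → ℝ, (∀ x, 0 < f x) → (∀ x, f x ≤ M) → ex π f ≤ 2 →
      ent π f ≤ A * dir π f + η)
    (hf : ∀ x, 0 < f x) (hM : ∀ x, f x ≤ M) (h2 : ex π f ≤ 2) (k : ℕ) :
    ent π ((qbar π)^[k] f) ≤ η + 8 * n * Real.exp (-(k / (A * n))) := by
  have hn' : (1 : ℝ) ≤ n := by exact_mod_cast hn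
  have hAn : 0 < A * n := by positivity
  induction k with
  | zero =>
    have := ent_le hπ h4 hf
    simp only [Function.iterate_zero, id, Nat.cast_zero, zero_div, neg_zero, Real.exp_zero]
    nlinarith
  | succ k ih =>
    have hp := it_pos hn hπ hf k
    have h3 := ent_qbar hn hπ hp
    have h5 := H _ hp (it_le hn hπ hM k) ((it_ex hn hπ f k).trans_le h2)
    rw [Function.iterate_succ_apply']
    have h6 : (ent π ((qbar π)^[k] f) - η) * (1 / (A * n)) ≤ dir π ((qbar π)^[k] f) / n := by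
      rw [mul_one_div, div_le_div_iff₀ hAn (by positivity)]
      nlinarith
    have h7 : 0 ≤ 1 - 1 / (A * n) := by
      rw [sub_nonneg, div_le_one hAn]
      nlinarith
    have h8 : 1 - 1 / (A * n) ≤ Real.exp (-(1 / (A * n))) := by
      linarith [Real.add_one_le_exp (-(1 / (A * n)))]
    have h9 : Real.exp (-((k + 1 : ℕ) / (A * n))) =
        Real.exp (-(k / (A * n))) * Real.exp (-(1 / (A * n))) := by
      rw [← Real.exp_add]
      congr 1
      push_cast
      ring
    have h10 := mul_le_mul_of_nonneg_right (sub_le_iff_le_add'.2 ih) h7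
    have h11 := mul_le_mul_of_nonneg_left h8
      (show 0 ≤ 8 * (n : ℝ) * Real.exp (-(k / (A * n))) by positivity)
    rw [h9]
    linarith

theorem step (hn : 0 < n) (hπ : IsP π) (h4 : ∀ x, -Real.log (π x) ≤ 4 * n) {δ e A : ℝ}
    (hA : 1 ≤ A) (hs : 4 ≤ δ * n)
    (H1 : ∀ f : Cube n → ℝ, (∀ x, 0 < f x) → ex π f = 1 → dir π f ≤ e * n →
      ent π f ≤ δ / 16 * n)
    (H2 : ∀ f : Cube n → ℝ, (∀ x, 0 < f x) → (∀ x, f x ≤ Real.exp (δ * n) + 1) → ex π f ≤ 2 →
      ent π f ≤ A * dir π f + 1 / (n : ℝ) ^ 6)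
    {k₁ k : ℕ} (hk₁ : 4 * n ≤ k₁ * e) (hk : 7 * A * n * Real.log n ≤ k) {a : ℝ} (ha : 0 ≤ a)
    (h : Mix π k a) : Mix π (k + k₁) (9 / (n : ℝ) ^ 3 + a / 4) := by
  intro f₀ hf₀ h1₀
  have hn' : (0 : ℝ) < n := Nat.cast_pos.2 hn
  have p1 := phase1 (f := fun x => 1 / 2 * f₀ x + 1 / 2 * 1) hn hπ h4 (by linarith) H1
    (fun x => by linarith [hf₀ x]) (by rw [ex_lin, h1₀, ex_one hπ]; norm_num) hk₁
  rw [it_lin, it_const hn hπ] at p1
  have hf := it_ge hn hπ hf₀ k₁
  have h1 := (it_ex hn hπ f₀ k₁).trans h1₀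
  rw [Function.iterate_add_apply]
  generalize (qbar π)^[k₁] f₀ = f at p1 hf h1
  have p2 := tail hπ hs hf h1 (p1.trans_eq (by ring))
  set r : Cube n → ℝ := fun x => if Real.exp (δ * n) < f x then f x else 0 with hr
  set g : Cube n → ℝ := fun x => if Real.exp (δ * n) < f x then 0 else f x with hg
  have hr0 : ∀ x, 0 ≤ r x := fun x => by
    simp only [hr]
    split_ifs
    exacts [hf x, le_rfl]
  have hg0 : ∀ x, 0 ≤ g x := fun x => by
    simp only [hg]
    split_ifs
    exacts [le_rfl, hf x]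
  have hg1 : ∀ x, g x ≤ Real.exp (δ * n) := fun x => by
    simp only [hg]
    split_ifs with h
    exacts [(Real.exp_pos _).le, not_lt.1 h]
  have hfe : f = fun x => 1 * g x + 1 * r x := funext fun x => by
    simp only [hg, hr]
    split_ifs <;> ring
  clear_value r g
  subst hfe
  rw [ex_lin] at h1
  have hr1 := ex_nonneg hπ hr0
  have hG : ∀ x, 0 < 1 * g x + 1 * 1 := fun x => by linarith [hg0 x]
  have hG2 : ex π (fun x => 1 * g x + 1 * 1) ≤ 2 := by
    rw [ex_lin, ex_one hπ]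
    linarith
  have p3 := phase2 hn hπ h4 hA (by positivity) H2 hG (fun x => by linarith [hg1 x]) hG2 k
  have p4 : Real.exp (-(k / (A * n))) ≤ 1 / (n : ℝ) ^ 7 := by
    have q1 : (1 : ℝ) / (n : ℝ) ^ 7 = Real.exp (-(7 * Real.log n)) := by
      rw [Real.exp_neg, show (7 : ℝ) = (7 : ℕ) by norm_num, Real.exp_nat_mul, Real.exp_log hn',
        one_div]
    rw [q1, Real.exp_le_exp, neg_le_neg_iff, le_div_iff₀ (by positivity)]
    linarith
  have p5 : ent π ((qbar π)^[k] fun x => 1 * g x + 1 * 1) ≤ 9 / (n : ℝ) ^ 6 := by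
    refine p3.trans ((add_le_add_right (mul_le_mul_of_nonneg_left p4 (by positivity)) _).trans_eq
      ?_)
    field_simp
    ring
  have p6 := pinsker hπ (it_pos hn hπ hG k)
  rw [it_ex hn hπ] at p6
  have p7 := mul_le_mul (mul_le_mul_of_nonneg_left hG2 (show (0 : ℝ) ≤ 4 by norm_num)) p5
    (ent_nonneg hπ (it_pos hn hπ hG k)) (by norm_num)
  have p8 : 4 * 2 * (9 / (n : ℝ) ^ 6) ≤ (9 / (n : ℝ) ^ 3) ^ 2 := by
    have q1 : (9 / (n : ℝ) ^ 3) ^ 2 = 9 * (9 / (n : ℝ) ^ 6) := by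
      field_simp
    have q2 : 0 ≤ 9 / (n : ℝ) ^ 6 := by positivity
    rw [q1]
    linarith
  have p9 := (abs_le_of_sq_le_sq' (p6.trans (p7.trans p8)) (by positivity)).2
  rw [it_lin, it_const hn hπ, ex_lin, ex_one hπ] at p9
  have p10 := h.scale hn hπ hr0
  have p11 := mul_le_mul_of_nonneg_left p2 ha
  rw [it_lin]
  refine le_trans ?_ (add_le_add p9 (p10.trans (p11.trans_eq (by ring))))
  rw [← Finset.sum_add_distrib]
  refine Finset.sum_le_sum fun y _ => ?_
  rw [← mul_add]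
  refine mul_le_mul_of_nonneg_left (le_trans (le_of_eq ?_) (abs_add_le _ _)) (hπ.1 y).le
  congr 1
  linarith

end DynAux

open DynAux in
/-- `qbar π` is linear, positive, fixes constants, preserves `ex π`, contracts `L¹(π)` and sup norms.
Phase 1: for `f₀ = (single x (1/π x) + 1)/2`, `ent ≤ 4 n` (indeed `f₀ ≤ 1/π x`), so by `ent_qbar` within
`k₁ = ⌈4 n / e⌉ + 1` steps `dir ≤ e n` once, and `ent ≤ δ n / 16` at time `k₁`. Hence the density
`f` at time `k₁` has mass at most `1/4` on `{f > exp (δ n)}` (from `f log f ≥ f - 1`). Split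
`f = g + r`, `g ≤ exp (δ n)`. Phase 2: for `g + 1`, `ent` decays by `1 - 1/(A n)` per step up to the
defect `1/n⁶`; `pinsker` gives an `L¹` error `≤ 7/n³` after `k₂ = ⌈7 A n log n⌉` steps (also at all
later times). Writing `r` as a mixture of point masses, `d (k₁ + k) ≤ 7/n³ + d k / 4` for `k ≥ k₂`,
where `d k` is the maximum of `dist1 π k x`. Iterate `⌈log n⌉ + 1` times; `d` is nonincreasing. -/
theorem dyn {δ e A : ℝ} (hδ : 0 < δ) (hδ1 : δ ≤ 1) (he : 0 < e) (hA : 1 ≤ A) :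
    ∃ C : ℝ, 1 ≤ C ∧ ∀ᶠ n : ℕ in atTop, ∀ π : Cube n → ℝ, IsP π →
      (∀ x, -Real.log (π x) ≤ 4 * n) →
      (∀ f : Cube n → ℝ, (∀ x, 0 < f x) → ex π f = 1 → dir π f ≤ e * n → ent π f ≤ δ / 16 * n) →
      (∀ f : Cube n → ℝ, (∀ x, 0 < f x) → (∀ x, f x ≤ Real.exp (δ * n) + 1) → ex π f ≤ 2 →
        ent π f ≤ A * dir π f + 1 / (n : ℝ) ^ 6) →
      ∀ x, dist1 π ⌈C * n * Real.log n⌉₊ x ≤ 1 / n := by
  have _ := hδ1
  have he4 : 0 < 4 / e := by positivity
  refine ⟨7 * A + 1 + 3 * (4 / e + 1), by linarith, ?_⟩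
  filter_upwards [eventually_ge_atTop 5, eventually_ge_atTop ⌈4 / δ⌉₊] with n h5 hδn π hπ h4 H1 H2 x
  have hn : 0 < n := by omega
  have h5' : (5 : ℝ) ≤ n := by exact_mod_cast h5
  have hn' : (0 : ℝ) < n := by linarith
  have hs : 4 ≤ δ * n := by
    have h1 : 4 / δ ≤ n := Nat.ceil_le.1 hδn
    rwa [div_le_iff₀ hδ, mul_comm] at h1
  have hlog : 1 ≤ Real.log n := by
    rw [Real.le_log_iff_exp_le hn']
    linarith [Real.exp_one_lt_d9]
  set k₁ := ⌈4 * n / e⌉₊ with hk₁
  set k₂ := ⌈7 * A * n * Real.log n⌉₊ with hk₂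
  have a1 : 4 * n ≤ k₁ * e := by
    rw [← div_le_iff₀ he]
    exact Nat.le_ceil _
  have a2 : 7 * A * n * Real.log n ≤ k₂ := Nat.le_ceil _
  have key : ∀ j : ℕ, Mix π (k₂ + j * k₁) (12 / (n : ℝ) ^ 3 + 2 / 4 ^ j) := by
    intro j
    induction j with
    | zero =>
      refine (mix_two hπ).later hn hπ (Nat.zero_le _) ?_
      have : 0 ≤ 12 / (n : ℝ) ^ 3 := by positivity
      simpa using this
    | succ j ih =>
      refine (step hn hπ h4 hA hs H1 H2 a1 (a2.trans ?_) (by positivity) ih).later hn hπ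
        (le_of_eq (by ring)) (le_of_eq (by ring))
      exact_mod_cast Nat.le_add_right _ _
  set j := ⌈Real.log n⌉₊ + 1 with hj
  have b1 : 2 / 4 ^ j ≤ 1 / (2 * (n : ℝ)) := by
    have c1 : (n : ℝ) ≤ 4 ^ ⌈Real.log n⌉₊ := by
      calc (n : ℝ) = Real.exp (Real.log n) := (Real.exp_log hn').symm
        _ ≤ Real.exp (⌈Real.log n⌉₊ * 1) := by
          rw [mul_one]
          exact Real.exp_le_exp.2 (Nat.le_ceil _)
        _ = Real.exp 1 ^ ⌈Real.log n⌉₊ := Real.exp_nat_mul _ _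
        _ ≤ _ := pow_le_pow_left₀ (Real.exp_pos _).le (by linarith [Real.exp_one_lt_d9]) _
    rw [div_le_div_iff₀ (by positivity) (by positivity), hj, pow_succ]
    linarith
  have b2 : 12 / (n : ℝ) ^ 3 ≤ 1 / (2 * (n : ℝ)) := by
    rw [div_le_div_iff₀ (by positivity) (by positivity)]
    nlinarith [mul_le_mul_of_nonneg_left (mul_le_mul h5' h5' (by norm_num) hn'.le) hn'.le]
  have b3 : k₂ + j * k₁ ≤ ⌈(7 * A + 1 + 3 * (4 / e + 1)) * n * Real.log n⌉₊ := by
    have c1 : (k₁ : ℝ) ≤ (4 / e + 1) * n := by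
      have := (Nat.ceil_lt_add_one (show 0 ≤ 4 * n / e by positivity)).le
      calc (k₁ : ℝ) ≤ 4 * n / e + 1 := this
        _ ≤ 4 * n / e + n := by linarith
        _ = _ := by ring
    have c2 : (k₂ : ℝ) ≤ (7 * A + 1) * n * Real.log n := by
      have := (Nat.ceil_lt_add_one (show 0 ≤ 7 * A * n * Real.log n by positivity)).le
      nlinarith
    have c3 : (j : ℝ) ≤ 3 * Real.log n := by
      have := (Nat.ceil_lt_add_one (show 0 ≤ Real.log n by linarith)).le
      rw [hj]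
      push_cast
      linarith
    have c4 := mul_le_mul c3 c1 (Nat.cast_nonneg _) (by linarith)
    have c5 : ((k₂ + j * k₁ : ℕ) : ℝ) ≤ (7 * A + 1 + 3 * (4 / e + 1)) * n * Real.log n := by
      push_cast
      linarith
    exact_mod_cast c5.trans (Nat.le_ceil _)
  refine (key j).later hn hπ b3 (show _ ≤ 1 / (n : ℝ) from ?_) _ (fun y => ?_) ?_
  · have : 1 / (n : ℝ) = 1 / (2 * (n : ℝ)) + 1 / (2 * (n : ℝ)) := by
      field_simp
      norm_num
    linarith
  · rw [Pi.single_apply]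
    split_ifs
    · exact (one_div_pos.2 (hπ.1 x)).le
    · exact le_rfl
  · rw [ex, Finset.sum_eq_single x (fun y _ hy => by rw [Pi.single_eq_of_ne hy, mul_zero])
      (by simp), Pi.single_eq_same, mul_one_div_cancel (hπ.1 x).ne']

end Vale.Agent.P150
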