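import Vale.Agent.P150.CoreB
import Vale.Agent.P150.Dlr
import Vale.Agent.P150.Dyn

/-! Deterministic assembly. -/

open MeasureTheory ProbabilityTheory Matrix Filter Topology
open scoped ENNReal NNReal

namespace Vale.Agent.P150

theorem ev_ge (a : ℝ) : ∀ᶠ n : ℕ in atTop, a ≤ n :=
  tendsto_natCast_atTop_atTop.eventually_ge_atTop a

theorem ev_poly_exp (a : ℝ) {r : ℝ} (hr : 0 < r) (k : ℕ) :
    ∀ᶠ n : ℕ in atTop, a * (n : ℝ) ^ k ≤ Real.exp (r * n) := by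
  filter_upwards [ev_ge (a * (k + 1).factorial / r ^ (k + 1))] with n hn
  refine le_trans ?_ (Real.pow_div_factorial_le_exp (r * n) (by positivity) (k + 1))
  rw [div_le_iff₀ (by positivity)] at hn
  rw [le_div_iff₀ (by positivity), mul_pow, pow_succ (n : ℝ)]
  have : (0 : ℝ) ≤ (n : ℝ) ^ k := by positivity
  calc a * (n : ℝ) ^ k * ((k + 1).factorial : ℝ) = (a * (k + 1).factorial) * (n : ℝ) ^ k := by ring
    _ ≤ (n * r ^ (k + 1)) * (n : ℝ) ^ k := by gcongr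
    _ = _ := by ring

theorem inv_cosh_pow_le {ε T : ℝ} {N : ℕ} (hε : 0 < ε) (hT : 0 < T) (h : N * ε ^ 2 = T) :
    (Real.cosh ε)⁻¹ ^ N ≤ 4 / T := by
  have h1 : 1 + ε ^ 2 / 4 ≤ Real.cosh ε := by
    rw [Real.cosh_eq]
    have := Real.quadratic_le_exp_of_nonneg hε.le
    have := Real.add_one_le_exp (-ε)
    linarith
  have h2 : 1 + N * (ε ^ 2 / 4) ≤ (1 + ε ^ 2 / 4) ^ N :=
    one_add_mul_le_pow (by nlinarith [sq_nonneg ε]) N
  have h3 : (1 + ε ^ 2 / 4) ^ N ≤ Real.cosh ε ^ N := by gcongr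
  rw [inv_pow, ← one_div, div_le_div_iff₀ (pow_pos (Real.cosh_pos ε) N) hT]
  linarith

/-- Small local entropy forces small entropy. -/
theorem cont_good {c ρ r δ : ℝ} (hc : 0 < c) (hc1 : c ≤ 1) (hρ : 0 < ρ) (hρ1 : ρ ≤ 1) (hr : 0 < r)
    (hδ : 0 < δ) (T₀ : ℝ) : ∃ (T : ℕ) (ω e : ℝ), T₀ ≤ T ∧ 0 < ω ∧ 0 < e ∧
    ∀ᶠ n : ℕ in atTop, ∀ (β ε : ℝ) (J : Mat n) (N : ℕ), β ^ 2 ≤ 1 → J.IsSymm → opn J ≤ 3 →
      W1 β (od J) ω → vn (fun i => J i i) ≤ ω * √(n : ℝ) → 0 < ε → ε * n ^ 2 ≤ 1 →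
      N * ε ^ 2 = T →
      (∀ l < N, pe (wJ J) ε (fun _ => 1) 0 l 0 (fun _ θ => ind (¬ Good β 1 J c ρ θ)) ≤
        Real.exp (-(r * n))) →
      ∀ f : Cube n → ℝ, (∀ x, 0 < f x) → ex (tilt (wJ J) 0) f = 1 →
        dir (tilt (wJ J) 0) f ≤ e * n → ent (tilt (wJ J) 0) f ≤ δ / 16 * n := by
  obtain ⟨T, hT⟩ := exists_nat_ge (max T₀ (512 * Real.exp (9 / (2 * (δ / 64))) / δ))
  have hT1 : 512 * Real.exp (9 / (2 * (δ / 64))) / δ ≤ T := (le_max_right _ _).trans hT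
  have hT0 : (0 : ℝ) < T := lt_of_lt_of_le (by positivity) hT1
  set M := Real.exp (144 * T / r) with hM
  have hM0 : 0 < M := Real.exp_pos _
  obtain ⟨ω, C, hω, hC, hcov⟩ := cov_le hc hc1 hρ hρ1 (η := δ / (128 * (M * 36 * T)))
    (by positivity)
  refine ⟨T, ω, δ / (128 * (M * 36 * T) * (C + 1)), (le_max_left _ _).trans hT, hω,
    by positivity, ?_⟩
  filter_upwards [ev_ge (1 / ω), ev_ge 6, ev_ge (64 * (M * (36 * T * (4 / r) + 10 ^ 4 * T)) / δ)]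
    with n hn1 hn2 hn3 β ε J N hβ hJ hJ3 hW1 hd hε hεn hN hG f hf h1 hdir
  have hn : 0 < n := by exact_mod_cast (by linarith : (0 : ℝ) < n)
  have hn0 : (0 : ℝ) < n := by linarith
  have hεn' : ε * n ≤ 1 / 6 := by nlinarith [mul_pos hε hn0]
  have hωn : 1 ≤ ω * n := by rwa [div_le_iff₀ hω, mul_comm] at hn1
  have h2 := cont_ent hn (wJ_pos J) (fun _ => (1 : Mat n))
    (fun _ => by linarith [opn_one_le (n := n)]) N hε hεn' hr (η := δ / (128 * (M * 36 * T)))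
    (by positivity) hC (fun _ θ => Good β 1 J c ρ θ) hG hf h1 (fun l _ θ hθ => by
      rw [tilt_wts_one (wJ_pos J) _ l (fun _ _ => rfl)]
      exact hcov n β J θ f hβ hJ hJ3 hωn hW1 hd hθ hf)
  have h3 := term_ent (ε := ε) hJ hJ3 (γ := δ / 64) (by positivity) N hf h1
  have h4 : 2 * n * Real.exp (9 / (2 * (δ / 64))) * (Real.cosh ε)⁻¹ ^ N ≤ δ / 64 * n := by
    calc _ ≤ 2 * n * Real.exp (9 / (2 * (δ / 64))) * (4 / T) := by
          gcongr; exact inv_cosh_pow_le hε hT0 hN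
      _ = (8 * Real.exp (9 / (2 * (δ / 64))) / T) * n := by ring
      _ ≤ _ := by
          refine mul_le_mul_of_nonneg_right ?_ hn0.le
          rw [div_le_iff₀ hδ] at hT1
          rw [div_le_iff₀ hT0]
          linarith
  rw [hN, ← hM] at h2
  have h5 : (10 : ℝ) ^ 4 * N * (ε * n) ^ 4 ≤ 10 ^ 4 * T := by
    have h6 : (ε * n ^ 2) ^ 2 ≤ 1 := pow_le_one₀ (by positivity) hεn
    calc _ = 10 ^ 4 * (N * ε ^ 2) * (ε * n ^ 2) ^ 2 := by ring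
      _ ≤ 10 ^ 4 * (N * ε ^ 2) * 1 := by gcongr
      _ = _ := by rw [hN, mul_one]
  have h6 : M * (36 * T * (δ / (128 * (M * 36 * T)) * n)) = δ / 128 * n := by field_simp
  have h7 : M * (36 * T * (C * dir (tilt (wJ J) 0) f)) ≤ δ / 128 * n := by
    calc _ ≤ M * (36 * T * ((C + 1) * (δ / (128 * (M * 36 * T) * (C + 1)) * n))) := by
          have := dir_nonneg (tilt_isP (wJ_pos J) 0) hf
          gcongr; linarith
      _ = _ := by field_simp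
  have h8 : M * (36 * T * (4 / r) + 10 ^ 4 * T) ≤ δ / 64 * n := by
    rw [div_le_iff₀ hδ] at hn3
    linarith
  have h9 := mul_le_mul_of_nonneg_left h5 hM0.le
  calc _ ≤ _ := h2
    _ ≤ δ / 64 * n + δ / 64 * n + (M * (36 * T * (δ / (128 * (M * 36 * T)) * n)) +
          M * (36 * T * (C * dir (tilt (wJ J) 0) f)) + M * (36 * T * (4 / r) + 10 ^ 4 * T)) := by
        linarith
    _ ≤ _ := by linarith

theorem err_le {A T r δ δ' x : ℝ} (hA : 0 < A) (hT : 0 ≤ T) (hx : 1 ≤ x) (hδ : δ ≤ r / 8)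
    (hδ0 : 0 < δ') (hδ' : δ' ≤ r / 8) (h1 : 2 * A ≤ x)
    (h2 : 12 * A * (T + 2) * x ^ 27 ≤ Real.exp (r / 2 * x)) :
    A * (x * (Real.exp (δ' * x) + 1) * Real.exp (3 * δ * x) *
      ((T + 2) * x ^ 20 * (3 * Real.exp (-(r * x)))) + (1 / x ^ 10) ^ 2 * x ^ 4) ≤ 1 / x ^ 6 := by
  have hx0 : 0 < x := by linarith
  have h3 : Real.exp (δ' * x) + 1 ≤ 2 * Real.exp (δ' * x) := by
    linarith [Real.one_le_exp (by positivity : 0 ≤ δ' * x)]
  have h4 : Real.exp (δ' * x) * Real.exp (3 * δ * x) * Real.exp (-(r * x)) ≤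
      (Real.exp (r / 2 * x))⁻¹ := by
    rw [← Real.exp_add, ← Real.exp_add, ← Real.exp_neg]
    exact Real.exp_le_exp.2 (by nlinarith)
  have h5 : A * (x * (Real.exp (δ' * x) + 1) * Real.exp (3 * δ * x) *
      ((T + 2) * x ^ 20 * (3 * Real.exp (-(r * x))))) ≤ 1 / (2 * x ^ 6) := by
    calc _ ≤ A * (x * (2 * Real.exp (δ' * x)) * Real.exp (3 * δ * x) *
            ((T + 2) * x ^ 20 * (3 * Real.exp (-(r * x))))) := by gcongr
      _ = 6 * A * (T + 2) * x ^ 21 *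
            (Real.exp (δ' * x) * Real.exp (3 * δ * x) * Real.exp (-(r * x))) := by ring
      _ ≤ 6 * A * (T + 2) * x ^ 21 * (Real.exp (r / 2 * x))⁻¹ := by gcongr
      _ ≤ 6 * A * (T + 2) * x ^ 21 * (12 * A * (T + 2) * x ^ 27)⁻¹ := by gcongr
      _ = _ := by field_simp; ring
  have h6 : A * ((1 / x ^ 10) ^ 2 * x ^ 4) ≤ 1 / (2 * x ^ 6) := by
    have h7 : x ≤ x ^ 10 := le_self_pow₀ hx (by norm_num)
    calc _ = (2 * A) / x ^ 10 * (1 / (2 * x ^ 6)) := by field_simp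
      _ ≤ 1 * (1 / (2 * x ^ 6)) := by
          gcongr
          rw [div_le_one (by positivity)]
          linarith
      _ = _ := one_mul _
  calc _ ≤ 1 / (2 * x ^ 6) + 1 / (2 * x ^ 6) := by rw [mul_add]; exact add_le_add h5 h6
    _ = _ := by field_simp; ring

theorem det_main {c ρ C₀ r₁ α : ℝ} (hc : 0 < c) (hc4 : c ≤ 1 / 4) (hρ : 0 < ρ) (hρ1 : ρ ≤ 1)
    (hC : 0 < C₀) (hr₁ : 0 < r₁) (hα : 0 < α) (hα1 : α ≤ 1 / 100) :
    ∃ (T : ℕ) (ω C : ℝ), 0 < ω ∧ 1 ≤ C ∧ ∀ᶠ n : ℕ in atTop, ∀ (β : ℝ) (J : Mat n), β ^ 2 ≤ 1 →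
      J.IsSymm → opn J ≤ 3 → SubN J α → LLaw β J (5 / c) C₀ → W1 β (od J) ω →
      vn (fun i => J i i) ≤ ω * √(n : ℝ) →
      ∑ l ∈ Finset.range (T * n ^ 20 + 1), pe (wJ J) (1 / (n : ℝ) ^ 10) (fun _ => 1) 0 l 0
        (fun _ θ => ind (¬ HP β 1 J c ρ θ)) ≤ Real.exp (-(r₁ * n)) →
      ∀ x, dist1 (tilt (wJ J) 0) ⌈C * n * Real.log n⌉₊ x ≤ 1 / n := by
  have hc1 : c ≤ 1 := by linarith
  obtain ⟨T₀, r₂, hT₀, hr₂, hbad⟩ := bad_prob hα hα1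
  obtain ⟨r, hr, hr1, hr2⟩ : ∃ r : ℝ, 0 < r ∧ r ≤ r₁ ∧ r ≤ r₂ :=
    ⟨min r₁ r₂, lt_min hr₁ hr₂, min_le_left _ _, min_le_right _ _⟩
  obtain ⟨δ, hδ, hδ1, hδ2⟩ : ∃ δ : ℝ, 0 < δ ∧ δ ≤ c * ρ / 1000 ∧ δ ≤ r / 8 :=
    ⟨min (c * ρ / 1000) (r / 8), lt_min (by positivity) (by positivity), min_le_left _ _,
      min_le_right _ _⟩
  obtain ⟨δ', hδ', hδ'1, hδ'2⟩ : ∃ δ : ℝ, 0 < δ ∧ δ ≤ 1 ∧ δ ≤ r / 8 :=
    ⟨min 1 (r / 8), lt_min one_pos (by positivity), min_le_left _ _, min_le_right _ _⟩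
  obtain ⟨T, ω, e, hT, hω, he, hcont⟩ := cont_good hc hc1 hρ hρ1 (half_pos hr) hδ' T₀
  obtain ⟨C₁, A, hC₁, hA, hate⟩ := ate_good hc hc1 hρ hρ1 hC hδ hδ1 (T := T + 1) (by positivity)
  obtain ⟨C, hC1, hdyn⟩ := dyn hδ' hδ'1 he hA
  refine ⟨T, ω, C, hω, hC1, ?_⟩
  filter_upwards [hcont, hdyn, ev_ge 1, ev_ge C₁, ev_ge (1000 / (c * ρ)), ev_ge (2 * A),
    ev_poly_exp 3 (half_pos hr) 0, ev_poly_exp (12 * A * (T + 2)) (half_pos hr) 27]
    with n hcont hdyn hn1 hn2 hn3 hn4 hn5 hn6 β J hβ hJ hJ3 hS hLL hW1 hd hp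
  have hn0 : (0 : ℝ) < n := by linarith
  have hn : 0 < n := by exact_mod_cast hn0
  obtain ⟨B, hB, hBB⟩ := exists_sqrt hJ hJ3
  set ε : ℝ := 1 / (n : ℝ) ^ 10 with hεdef
  have hε : 0 < ε := by positivity
  have hN' : ((n ^ 20 : ℕ) : ℝ) * ε ^ 2 = 1 := by rw [hεdef]; push_cast; field_simp
  have hN : ((T * n ^ 20 : ℕ) : ℝ) * ε ^ 2 = T := by rw [hεdef]; push_cast; field_simp
  have he1 : C₁ * ε * n ^ 2 ≤ 1 := by
    have h7 : (n : ℝ) ≤ n ^ 8 := le_self_pow₀ hn1 (by norm_num)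
    calc _ = C₁ / n ^ 8 := by rw [hεdef]; field_simp
      _ ≤ 1 := by rw [div_le_one (by positivity)]; linarith
  have he2 : ε * n ^ 2 ≤ 1 := by
    refine le_trans ?_ he1
    rw [mul_assoc]
    exact le_mul_of_one_le_left (by positivity) hC₁
  have he3 : ε ≤ c * ρ / 1000 := by
    have h7 : (n : ℝ) ≤ n ^ 10 := le_self_pow₀ hn1 (by norm_num)
    rw [div_le_iff₀ (by positivity)] at hn3
    rw [hεdef, div_le_div_iff₀ (by positivity) (by norm_num)]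
    have : n * (c * ρ) ≤ n ^ 10 * (c * ρ) := by gcongr
    linarith
  have hb : ∀ l ≤ T * n ^ 20 + n ^ 20, pe (wJ J) ε (stB (T * n ^ 20) B) 0 l 0
      (fun _ θ => ind (¬ Good β (kap ε (T * n ^ 20) l) J c ρ θ)) ≤ 3 * Real.exp (-(r * n)) := by
    intro l hl
    refine (hbad n β c ρ ε _ J B (T * n ^ 20) (n ^ 20) hn hβ hJ hJ3 hS hB hc hc4 hρ hρ1 hε he3
      (by rw [hN]; exact hT) hN' hp l hl).trans ?_
    have h1 : Real.exp (-(r₁ * n)) ≤ Real.exp (-(r * n)) := by gcongr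
    have h2 : Real.exp (-(r₂ * n)) ≤ Real.exp (-(r * n)) := by gcongr
    linarith
  refine hdyn _ (tilt_isP (wJ_pos J) 0) (neg_log_tilt_le hJ3)
    (hcont β ε J (T * n ^ 20) hβ hJ hJ3 hW1 hd hε he2 hN fun l hl => ?_) fun f hf hΛ h2 => ?_
  · have e1 : ∀ j < 0 + l, stB (T * n ^ 20) B j = (fun _ => (1 : Mat n)) j := fun j hj => by
      simp only [stB]; rw [if_pos (by omega)]
    have h1 := hb l (by omega)
    rw [pe_congr 0 l e1, kap_le hl.le] at h1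
    refine h1.trans ?_
    rw [pow_zero, mul_one] at hn5
    calc _ ≤ Real.exp (r / 2 * n) * Real.exp (-(r * n)) := by gcongr
      _ = _ := by rw [← Real.exp_add]; congr 1; ring
  · have h1 := hate n β ε ((T + 2) * (n : ℝ) ^ 20 * (3 * Real.exp (-(r * n)))) _ J B (T * n ^ 20)
      (n ^ 20) f hn hβ hJ hJ3 hLL hB hBB hε he1 hN'
      (by rw [Nat.cast_add, add_mul, hN, hN']) ?_ hf hΛ h2
    · have h3 := err_le (by linarith : 0 < A) (Nat.cast_nonneg T) hn1 hδ2 hδ' hδ'2 hn4 hn6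
      rw [add_assoc, mul_add] at h1
      exact h1.trans (add_le_add le_rfl h3)
    · calc _ ≤ ∑ _l ∈ Finset.range (T * n ^ 20 + n ^ 20 + 1), 3 * Real.exp (-(r * n)) :=
            Finset.sum_le_sum fun l hl => hb l (by have := Finset.mem_range.1 hl; omega)
        _ = ((T * n ^ 20 + n ^ 20 + 1 : ℕ) : ℝ) * (3 * Real.exp (-(r * n))) := by simp
        _ ≤ _ := by
            gcongr
            have : (1 : ℝ) ≤ n ^ 20 := one_le_pow₀ hn1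
            push_cast
            linarith

end Vale.Agent.P150
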