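import Vale.Agent.P150.LLChain
import Vale.Agent.P150.LLAlg

/-! The uniform determinant bound. -/

open MeasureTheory ProbabilityTheory Matrix Filter Topology
open scoped ENNReal NNReal

namespace Vale.Agent.P150

variable {n : ℕ}

namespace DetAux

/-- Grid points. -/
noncomputable def grid (L : ℕ) (t : Fin n → Fin L) : Vec n := fun i => ((t i : ℝ) + 1) / L

lemma dom_grid {L : ℕ} (t : Fin n → Fin L) : Dom (grid L t) := fun i => by
  have h1 : (t i : ℕ) + 1 ≤ L := (t i).2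
  have h2 : ((t i : ℕ) : ℝ) + 1 ≤ L := by exact_mod_cast h1
  have h3 : (0 : ℝ) < ((t i : ℕ) : ℝ) + 1 := by positivity
  have h4 : (0 : ℝ) < L := by linarith
  exact ⟨div_pos h3 h4, (div_le_one h4).2 h2⟩

lemma exists_grid {L : ℕ} (hL : 0 < L) {D : Vec n} (hD : Dom D) :
    ∃ t : Fin n → Fin L, ∀ i, |grid L t i - D i| ≤ 1 / L := by
  have hL' : (0 : ℝ) < L := Nat.cast_pos.2 hL
  have key : ∀ i, ∃ k : Fin L, |((k : ℝ) + 1) / L - D i| ≤ 1 / L := fun i => by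
    obtain ⟨h0, h1⟩ := hD i
    have hp : 0 < D i * L := mul_pos h0 hL'
    have h2 : 0 < ⌈D i * L⌉₊ := Nat.ceil_pos.2 hp
    have h3 : ⌈D i * L⌉₊ ≤ L := Nat.ceil_le.2 (by nlinarith)
    refine ⟨⟨⌈D i * L⌉₊ - 1, by omega⟩, ?_⟩
    have h4 : ((⌈D i * L⌉₊ - 1 : ℕ) : ℝ) + 1 = ⌈D i * L⌉₊ := by
      rw [Nat.cast_sub h2]; simp
    have h5 := Nat.le_ceil (D i * L)
    have h6 := Nat.ceil_lt_add_one hp.le
    change |(((⌈D i * L⌉₊ - 1 : ℕ) : ℝ) + 1) / L - D i| ≤ 1 / L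
    have h7 : (⌈D i * L⌉₊ : ℝ) / L - D i = ((⌈D i * L⌉₊ : ℝ) - D i * L) / L := by field_simp
    rw [h4, h7, abs_div, abs_of_pos hL']
    exact div_le_div_of_nonneg_right (abs_le.2 ⟨by linarith, by linarith⟩) hL'.le
  choose t ht using key
  exact ⟨t, ht⟩

lemma abs_avg_le {u : Vec n} {c : ℝ} (hc : 0 ≤ c) (h : ∀ i, |u i| ≤ c) : |avg u| ≤ c := by
  rcases Nat.eq_zero_or_pos n with rfl | hn
  · simpa [avg] using hc
  have hn' : (0 : ℝ) < n := Nat.cast_pos.2 hn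
  rw [avg, abs_div, abs_of_pos hn', div_le_iff₀ hn']
  refine (Finset.abs_sum_le_sum_abs _ _).trans ?_
  calc ∑ i, |u i| ≤ ∑ _i : Fin n, c := Finset.sum_le_sum fun i _ => h i
    _ = c * n := by simp [mul_comm]

lemma avg_sub (u v : Vec n) : avg (u - v) = avg u - avg v := by
  simp [avg, Finset.sum_sub_distrib, sub_div]

lemma abs_dom {D : Vec n} (hD : Dom D) (i : Fin n) : |D i| ≤ 1 :=
  abs_le.2 ⟨by linarith [(hD i).1], (hD i).2⟩

lemma fro_one_le : fro (1 : Mat n) ≤ √(n : ℝ) := by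
  have := fro_le_opn (1 : Mat n)
  nlinarith [opn_one_le (n := n), Real.sqrt_nonneg (n : ℝ)]

lemma fro_diff {β e η : ℝ} (hβ : β ^ 2 ≤ 1) (hη : 0 ≤ η) {J J₀ : Mat n} {D D₀ : Vec n}
    (hJ : opn J₀ ≤ 3) (hD : Dom D) (hD₀ : Dom D₀) (h : ∀ i, |D₀ i - D i| ≤ η)
    (hJJ : fro (J - J₀) ≤ e * √(n : ℝ)) :
    fro (lmat β 1 J₀ D₀ * diagonal D₀ - lmat β 1 J D * diagonal D) ≤
      (e + 5 * η) * √(n : ℝ) := by
  have hq := Real.sqrt_nonneg (n : ℝ)
  have hb : 0 ≤ β ^ 2 := sq_nonneg β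
  have e1 : lmat β 1 J₀ D₀ * diagonal D₀ - lmat β 1 J D * diagonal D =
      lmat β 1 J₀ D₀ * diagonal (D₀ - D) +
        (-(J - J₀) - (β ^ 2 * avg (D₀ - D)) • (1 : Mat n)) * diagonal D := by
    have e0 : diagonal (D₀ - D) = diagonal D₀ - diagonal D := (diagonal_sub D₀ D).symm
    have e2 : -(J - J₀) - (β ^ 2 * avg (D₀ - D)) • (1 : Mat n) = lmat β 1 J₀ D₀ - lmat β 1 J D := by
      simp only [lmat, avg_sub, one_smul, one_pow, one_mul, mul_sub, sub_smul]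
      abel
    rw [e0, e2, Matrix.mul_sub, Matrix.sub_mul]
    abel
  have h1 : opn (lmat β 1 J₀ D₀) ≤ 4 := by
    refine (opn_sub_le _ _).trans ?_
    rw [one_smul, opn_smul, abs_mul, abs_of_nonneg (by positivity)]
    have a1 := abs_avg_le zero_le_one (abs_dom hD₀)
    have a2 := opn_one_le (n := n)
    have a3 := opn_nonneg (1 : Mat n)
    have a4 : 1 ^ 2 * β ^ 2 * |avg D₀| ≤ 1 := by nlinarith [abs_nonneg (avg D₀)]
    have a5 : 0 ≤ 1 ^ 2 * β ^ 2 * |avg D₀| := by positivity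
    nlinarith
  have h2 : fro (diagonal (D₀ - D)) ≤ η * √(n : ℝ) := by
    rw [fro_diagonal]; exact vn_le_sqrt hη h
  have h3 : fro (-(J - J₀) - (β ^ 2 * avg (D₀ - D)) • (1 : Mat n)) ≤ (e + η) * √(n : ℝ) := by
    refine (fro_sub_le _ _).trans ?_
    rw [fro_neg, fro_smul, abs_mul, abs_of_nonneg hb]
    have a1 : |avg (D₀ - D)| ≤ η := abs_avg_le hη h
    have a2 : β ^ 2 * |avg (D₀ - D)| ≤ η := by nlinarith [abs_nonneg (avg (D₀ - D))]
    have a3 := mul_le_mul a2 (fro_one_le (n := n)) (fro_nonneg _) hη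
    linarith
  have h4 : opn (diagonal D) ≤ 1 := opn_diagonal_le zero_le_one (abs_dom hD)
  rw [e1]
  refine (fro_add_le _ _).trans ?_
  have h5 := (fro_mul_le_left (lmat β 1 J₀ D₀) (diagonal (D₀ - D))).trans
    (mul_le_mul h1 h2 (fro_nonneg _) (by norm_num))
  have h6 := (fro_mul_le_right (-(J - J₀) - (β ^ 2 * avg (D₀ - D)) • (1 : Mat n))
    (diagonal D)).trans (mul_le_mul h3 h4 (opn_nonneg _) ((fro_nonneg _).trans h3))
  linarith

end DetAux

open DetAux in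
/-- `rm_near` over the grid `D₀ i ∈ {1,…,L}/L`, with the sets `opn ≤ 3`, `LLaw`, `PosK`
(`rm_opn`, `rm_ll`, `ll_alg`, `rm_pos`); take `N = ymat β 1 J₀ D₀`, `K = 5/c`, and `det_bound`. -/
theorem rm_det {β : ℝ} (hβ : 0 < β) (hβ1 : β < 1) :
    ∃ K : ℝ, 1 ≤ K ∧ ∀ δ : ℝ, 0 < δ → WHP β fun _ J => DetP β J K δ := by
  obtain ⟨c, hc, hc1, hpos⟩ := rm_pos hβ hβ1
  have hb1 : β ^ 2 ≤ 1 := (pow_lt_one₀ hβ.le hβ1 two_ne_zero).le
  have hc2 : c ≤ 1 := by nlinarith [sq_nonneg β]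
  have hK : 1 ≤ 5 / c := by rw [le_div_iff₀ hc]; linarith
  have hK0 : 0 < 5 / c := by positivity
  obtain ⟨C, hC, hll⟩ := rm_ll hβ hβ1 hK
  obtain ⟨C', -, halg⟩ := ll_alg hβ hβ1 hK hC
  have hW : WHP β fun _ J => opn J ≤ 3 ∧ LLaw β J (5 / c) C' := by
    refine ((rm_opn hβ hβ1).and hll).mono ?_
    filter_upwards [halg] with n hn J hJ h
    exact ⟨h.1, hn J hJ h.1 h.2⟩
  refine ⟨5 / c, hK, fun δ hδ => ?_⟩
  obtain ⟨L, hL⟩ := exists_nat_gt (10 * (5 / c) / δ)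
  have hL0 : (0 : ℝ) < L := lt_trans (by positivity) hL
  have hL1 : 0 < L := Nat.cast_pos.1 hL0
  have hL2 : 10 * (5 / c) * (1 / L) ≤ δ := by
    rw [div_lt_iff₀ hδ] at hL
    rw [mul_one_div, div_le_iff₀ hL0]
    linarith
  have hη : (0 : ℝ) < 1 / L := by positivity
  have he : 0 < δ / (2 * (5 / c)) := by positivity
  have hnear := rm_near hβ hβ1 (C := Real.log L) he (fun n => Fin n → Fin L)
    (fun n t => {J | (opn J ≤ 3 ∧ LLaw β J (5 / c) C') ∧ PosK β 1 J c (grid L t)}) (by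
      filter_upwards [eventually_ge_atTop 3] with n hn
      have hn' : (3 : ℝ) ≤ n := by exact_mod_cast hn
      have h1 : 1 ≤ Real.log n := by
        rw [Real.le_log_iff_exp_le (by linarith)]
        linarith [Real.exp_one_lt_three]
      have h2 : 0 ≤ Real.log L := Real.log_natCast_nonneg L
      have h3 : (Fintype.card (Fin n → Fin L) : ℝ) = Real.exp (Real.log L * n) := by
        rw [mul_comm, Real.exp_nat_mul, Real.exp_log hL0]; simp
      rw [h3]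
      refine Real.exp_le_exp.2 ?_
      have h4 : 0 ≤ Real.log L * n := by positivity
      nlinarith) (by
      have h4 : (0 : ℝ≥0∞) < ENNReal.ofReal (1 / 4) := by simp
      filter_upwards [hpos, hW.eventually (eventually_le_nhds h4)] with n h1 h2 t
      have h3 := h1 (grid L t) (dom_grid t)
      refine le_trans (measure_mono (t := {X | ¬ (opn (goe β X) ≤ 3 ∧
        LLaw β (goe β X) (5 / c) C')} ∪ {X | ¬ PosK β 1 (goe β X) c (grid L t)}) fun X hX => ?_)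
        ((measure_union_le _ _).trans ((add_le_add h2 h3).trans ?_))
      · exact not_and_or.1 hX
      · rw [← ENNReal.ofReal_add (by norm_num) (by norm_num)]
        exact ENNReal.ofReal_le_ofReal (by norm_num))
  refine hnear.mono ?_
  filter_upwards [det_bound (C := C') hβ hβ1 hc hc1 (half_pos hδ)] with n hdet J _ h D hD
  obtain ⟨t, ht⟩ := exists_grid hL1 hD
  obtain ⟨J₀, ⟨⟨h3, hlaw⟩, hP⟩, hs, hfro⟩ := h t
  obtain ⟨⟨hu, hY⟩, -, -⟩ := adm_of_posK hb1 hs h3 (dom_grid t) hc hc2 ⟨zero_le_one, le_rfl⟩ hP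
  have hq := Real.sqrt_nonneg (n : ℝ)
  refine ⟨ymat β 1 J₀ (grid L t), hY, ?_, ?_⟩
  · have e0 : (1 - lmat β 1 J₀ (grid L t) * diagonal (grid L t)) * ymat β 1 J₀ (grid L t) = 1 :=
      Matrix.mul_nonsing_inv _ hu
    have e1 : (1 - lmat β 1 J D * diagonal D) * ymat β 1 J₀ (grid L t) - 1 =
        (lmat β 1 J₀ (grid L t) * diagonal (grid L t) - lmat β 1 J D * diagonal D) *
          ymat β 1 J₀ (grid L t) := by
      nth_rewrite 2 [← e0]
      rw [← Matrix.sub_mul]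
      congr 1
      abel
    have h4 := fro_diff hb1 hη.le h3 hD (dom_grid t) ht hfro
    rw [e1]
    refine ((fro_mul_le_right _ _).trans
      (mul_le_mul h4 hY (opn_nonneg _) ((fro_nonneg _).trans h4))).trans ?_
    have e2 : δ / (2 * (5 / c)) * (5 / c) = δ / 2 := by field_simp
    have e3 : (δ / (2 * (5 / c)) + 5 * (1 / L)) * (5 / c) ≤ δ := by
      rw [add_mul, e2]; linarith
    calc _ = (δ / (2 * (5 / c)) + 5 * (1 / L)) * (5 / c) * √(n : ℝ) := by ring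
      _ ≤ _ := mul_le_mul_of_nonneg_right e3 hq
  · refine le_trans (Real.exp_le_exp.2 ?_) (hdet J₀ (grid L t) hs h3 (dom_grid t) hlaw hP)
    have a1 : |avg (grid L t - D)| ≤ 1 / L := abs_avg_le hη.le ht
    rw [avg_sub] at a1
    have a2 := abs_le.1 (abs_avg_le zero_le_one (abs_dom hD))
    have a3 := abs_le.1 (abs_avg_le zero_le_one (abs_dom (dom_grid t)))
    have a4 : |avg (grid L t) + avg D| ≤ 2 := abs_le.2 ⟨by linarith, by linarith⟩
    have a5 : avg (grid L t) ^ 2 - avg D ^ 2 ≤ 1 / L * 2 := by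
      calc _ = (avg (grid L t) - avg D) * (avg (grid L t) + avg D) := by ring
        _ ≤ |(avg (grid L t) - avg D) * (avg (grid L t) + avg D)| := le_abs_self _
        _ ≤ _ := by rw [abs_mul]; exact mul_le_mul a1 a4 (abs_nonneg _) hη.le
    have a6 : 1 / (L : ℝ) * 2 ≤ δ := by nlinarith
    have a7 : β ^ 2 * (avg (grid L t) ^ 2 - avg D ^ 2) ≤ δ := by nlinarith [sq_nonneg β]
    have a8 : (0 : ℝ) ≤ n := Nat.cast_nonneg n
    have a9 : β ^ 2 * avg (grid L t) ^ 2 / 2 + δ / 2 ≤ β ^ 2 * avg D ^ 2 / 2 + δ := by linarith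
    exact neg_le_neg (mul_le_mul_of_nonneg_left a9 a8)

end Vale.Agent.P150
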