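import Vale.Agent.P150.Basic
import Vale.Agent.P074.PLd

/-! Gaussian concentration from Prekopa-Leindler (`Vale.Agent.P074.fourFn_real`, `FourFn.prod`,
`FourFn.transfer`; use `FourFn` with `A = f`, `B = 0`). -/

open MeasureTheory ProbabilityTheory Matrix Filter Topology
open scoped ENNReal NNReal

namespace Vale.Agent.P150

variable {ι : Type} [Fintype ι]

namespace GaussA

/-- The homogeneous two-function inequality with cost `c`. -/
def TwoFn {E : Type} [MeasurableSpace E] (μ : Measure E) (c : E → E → ℝ≥0∞) : Prop :=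
  ∀ (K : ℝ≥0∞) (u v : E → ℝ≥0∞), Measurable u → Measurable v → (∀ x y, u x * v y ≤ K * c x y) →
    (∫⁻ x, u x ∂μ) * (∫⁻ y, v y ∂μ) ≤ K

theorem TwoFn.prod {E F : Type} [MeasurableSpace E] [MeasurableSpace F] {μ : Measure E}
    {ν : Measure F} [SFinite μ] [SFinite ν] {c₁ : E → E → ℝ≥0∞} {c₂ : F → F → ℝ≥0∞}
    (h1 : TwoFn μ c₁) (h2 : TwoFn ν c₂) :
    TwoFn (μ.prod ν) (fun p q => c₁ p.1 q.1 * c₂ p.2 q.2) := by
  intro K u v hu hv h
  rw [lintegral_prod _ hu.aemeasurable, lintegral_prod _ hv.aemeasurable]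
  refine h1 K _ _ hu.lintegral_prod_right' hv.lintegral_prod_right' fun x y => ?_
  exact h2 (K * c₁ x y) (fun a => u (x, a)) (fun a => v (y, a)) (by fun_prop) (by fun_prop)
    fun a b => (h (x, a) (y, b)).trans (le_of_eq (mul_assoc _ _ _).symm)

theorem TwoFn.transfer {E F : Type} [MeasurableSpace E] [MeasurableSpace F] {μ : Measure E}
    {ν : Measure F} {c₁ : E → E → ℝ≥0∞} {c₂ : F → F → ℝ≥0∞} (e : E → F)
    (he : MeasurePreserving e μ ν) (hm : ∀ x y, c₂ (e x) (e y) = c₁ x y)
    (h1 : TwoFn μ c₁) : TwoFn ν c₂ := by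
  intro K u v hu hv h
  rw [← he.lintegral_comp hu, ← he.lintegral_comp hv]
  refine h1 K (fun a => u (e a)) (fun a => v (e a)) (hu.comp he.measurable)
    (hv.comp he.measurable) fun x y => ?_
  rw [← hm]; exact h _ _

theorem half_mul_half (P : ℝ≥0∞) : P ^ (1 / 2 : ℝ) * P ^ (1 / 2 : ℝ) = P := by
  rw [← ENNReal.rpow_add_of_nonneg _ _ (by norm_num) (by norm_num)]
  norm_num

theorem le_of_le_half_mul {P K : ℝ≥0∞} (hP : P ≠ ⊤) (h : P ≤ P ^ (1 / 2 : ℝ) * K ^ (1 / 2 : ℝ)) :
    P ≤ K := by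
  by_cases h0 : P = 0
  · simp [h0]
  have h1 : P ^ (1 / 2 : ℝ) ≠ 0 := by simp [h0, hP]
  have h2 : P ^ (1 / 2 : ℝ) ≠ ⊤ := ENNReal.rpow_ne_top_of_nonneg (by norm_num) hP
  conv_lhs at h => rw [← half_mul_half P]
  have h3 := (ENNReal.mul_le_mul_iff_right h1 h2).1 h
  exact (ENNReal.rpow_le_rpow_iff (by norm_num)).1 h3

theorem pdf_ident (x y : ℝ) :
    ENNReal.ofReal (Real.exp ((x - y) ^ 2 / 4)) * (gaussianPDF 0 1 x * gaussianPDF 0 1 y) =
      gaussianPDF 0 1 ((x + y) / 2) * gaussianPDF 0 1 ((x + y) / 2) := by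
  unfold gaussianPDF
  rw [← ENNReal.ofReal_mul (gaussianPDFReal_nonneg _ _ _),
    ← ENNReal.ofReal_mul (gaussianPDFReal_nonneg _ _ _),
    ← ENNReal.ofReal_mul (Real.exp_pos _).le]
  congr 1
  unfold gaussianPDFReal
  have h : ∀ c a b d e : ℝ, a + (b + d) = e + e →
      Real.exp a * (c * Real.exp b * (c * Real.exp d)) = c * Real.exp e * (c * Real.exp e) := by
    intro c a b d e h
    have h1 : Real.exp a * (Real.exp b * Real.exp d) = Real.exp e * Real.exp e := by
      rw [← Real.exp_add, ← Real.exp_add, ← Real.exp_add, h]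
    linear_combination c * c * h1
  apply h
  simp only [NNReal.coe_one]
  ring

theorem twoFn_real_fin (K : ℝ≥0∞) (u v : ℝ → ℝ≥0∞) (hu : Measurable u) (hv : Measurable v)
    (h : ∀ x y, u x * v y ≤ K * ENNReal.ofReal (Real.exp ((x - y) ^ 2 / 4)))
    (hfin : (∫⁻ x, u x ∂gaussianReal 0 1) * (∫⁻ y, v y ∂gaussianReal 0 1) ≠ ⊤) :
    (∫⁻ x, u x ∂gaussianReal 0 1) * (∫⁻ y, v y ∂gaussianReal 0 1) ≤ K := by
  have hφ := measurable_gaussianPDF 0 1
  rw [gaussianReal_of_var_ne_zero 0 one_ne_zero, lintegral_withDensity_eq_lintegral_mul _ hφ hu,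
    lintegral_withDensity_eq_lintegral_mul _ hφ hv] at hfin ⊢
  have h1 := Vale.Agent.P074.fourFn_real (gaussianPDF 0 1 * u) (gaussianPDF 0 1 * v)
    (gaussianPDF 0 1 * u) (fun _ => 0) (fun x => K ^ (1 / 2 : ℝ) * gaussianPDF 0 1 x)
    (hφ.mul hu) (hφ.mul hv) (hφ.mul hu) measurable_const (hφ.const_mul _) fun x y => by
      rw [mul_zero, add_zero]
      conv_lhs => rw [← half_mul_half ((gaussianPDF 0 1 * u) x * (gaussianPDF 0 1 * v) y)]
      refine mul_le_mul_right ?_ _
      have h2 : (gaussianPDF 0 1 * u) x * (gaussianPDF 0 1 * v) y ≤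
          K * (gaussianPDF 0 1 ((x + y) / 2) * gaussianPDF 0 1 ((x + y) / 2)) := by
        rw [← pdf_ident, ← mul_assoc, Pi.mul_apply, Pi.mul_apply, mul_mul_mul_comm, mul_comm]
        exact mul_le_mul_left (h x y) _
      refine (ENNReal.rpow_le_rpow h2 (by norm_num)).trans (le_of_eq ?_)
      rw [ENNReal.mul_rpow_of_nonneg _ _ (by norm_num),
        ENNReal.mul_rpow_of_nonneg _ _ (by norm_num), half_mul_half]
  rw [lintegral_const_mul _ hφ, lintegral_gaussianPDF_eq_one 0 one_ne_zero, lintegral_zero,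
    mul_zero, add_zero, mul_one] at h1
  exact le_of_le_half_mul hfin h1

theorem lintegral_eq_iSup_min {E : Type} [MeasurableSpace E] (μ : Measure E) {u : E → ℝ≥0∞}
    (hu : Measurable u) : ∫⁻ x, u x ∂μ = ⨆ n : ℕ, ∫⁻ x, min (u x) n ∂μ := by
  rw [← lintegral_iSup (fun n => hu.min measurable_const)
    fun n m hnm x => min_le_min_left _ (by exact_mod_cast hnm)]
  refine lintegral_congr fun x => ?_
  rw [← inf_iSup_eq, ENNReal.iSup_natCast]
  simp

theorem twoFn_real :
    TwoFn (gaussianReal 0 1) fun x y => ENNReal.ofReal (Real.exp ((x - y) ^ 2 / 4)) := by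
  intro K u v hu hv h
  rw [lintegral_eq_iSup_min _ hu, lintegral_eq_iSup_min _ hv, ENNReal.iSup_mul]
  refine iSup_le fun n => ?_
  rw [ENNReal.mul_iSup]
  refine iSup_le fun m => ?_
  have hfin : ∀ (w : ℝ → ℝ≥0∞) (k : ℕ), ∫⁻ x, min (w x) k ∂gaussianReal 0 1 ≠ ⊤ := by
    intro w k
    refine ne_top_of_le_ne_top (b := k) (by simp) ?_
    refine (lintegral_mono fun x => min_le_right _ _).trans ?_
    simp
  exact twoFn_real_fin K _ _ (hu.min measurable_const) (hv.min measurable_const)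
    (fun x y => (mul_le_mul' (min_le_left _ _) (min_le_left _ _)).trans (h x y))
    (ENNReal.mul_ne_top (hfin u n) (hfin v m))

theorem twoFn_fin (n : ℕ) :
    TwoFn (gp (Fin n)) fun x y => ENNReal.ofReal (Real.exp (vn (x - y) ^ 2 / 4)) := by
  induction n with
  | zero =>
    intro K u v _ _ h
    simp only [lintegral_unique, measure_univ, mul_one]
    generalize (@default (Fin 0 → ℝ) Unique.instInhabited) = z
    simpa [vn] using h z z
  | succ n ih =>
    refine (twoFn_real.prod ih).transfer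
      (MeasurableEquiv.piFinSuccAbove (fun _ : Fin (n + 1) => ℝ) 0).symm
      ((measurePreserving_piFinSuccAbove (fun _ : Fin (n + 1) => gaussianReal 0 1) 0).symm _)
      fun x y => ?_
    rw [← ENNReal.ofReal_mul (Real.exp_pos _).le, ← Real.exp_add, vn_sq, vn_sq,
      Fin.sum_univ_succ]
    congr 2
    simp [MeasurableEquiv.piFinSuccAbove_symm_apply, Fin.insertNthEquiv]
    ring

theorem twoFn_gp : TwoFn (gp ι) fun x y => ENNReal.ofReal (Real.exp (vn (x - y) ^ 2 / 4)) := by
  let e := (Fintype.equivFin ι).symm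
  refine (twoFn_fin (Fintype.card ι)).transfer (MeasurableEquiv.piCongrLeft (fun _ : ι => ℝ) e)
    (measurePreserving_piCongrLeft (fun _ : ι => gaussianReal 0 1) e) fun x y => ?_
  rw [vn_sq, vn_sq, ← e.sum_comp]
  simp [MeasurableEquiv.coe_piCongrLeft]

theorem continuous_of_lip {F : (ι → ℝ) → ℝ} {L : ℝ}
    (hF : ∀ x y, |F x - F y| ≤ L * vn (x - y)) : Continuous F := by
  rw [continuous_iff_continuousAt]
  intro y
  rw [ContinuousAt, tendsto_iff_norm_sub_tendsto_zero]
  refine squeeze_zero (fun _ => norm_nonneg _) (fun x => hF x y) ?_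
  have h : Continuous fun x : ι → ℝ => L * vn (x - y) :=
    continuous_const.mul (continuous_vn.comp (continuous_id.sub continuous_const))
  simpa [vn_zero] using h.tendsto y

theorem ofReal_integral_le {E : Type} [MeasurableSpace E] {μ : Measure E} {f : E → ℝ}
    (hf : Integrable f μ) : ENNReal.ofReal (∫ x, f x ∂μ) ≤ ∫⁻ x, ENNReal.ofReal (f x) ∂μ := by
  rw [integral_eq_lintegral_pos_part_sub_lintegral_neg_part hf]
  refine (ENNReal.ofReal_le_ofReal (sub_le_self _ ENNReal.toReal_nonneg)).trans ?_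
  exact ENNReal.ofReal_toReal_le

theorem le_of_mul_le {a : ℝ≥0∞} {c d : ℝ} (hc : 0 < c) (hd : c⁻¹ ≤ d)
    (h : ENNReal.ofReal c * a ≤ 1) : a ≤ ENNReal.ofReal d := by
  refine le_trans ?_ (ENNReal.ofReal_le_ofReal hd)
  rw [ENNReal.ofReal_inv_of_pos hc, ENNReal.le_inv_iff_mul_le, mul_comm]
  exact h

end GaussA

open GaussA

/-- Two-function inequality. With densities `f = u φ`, `g = v φ`, `J = φ` one has
`sqrt (f x * g y) ≤ φ ((x+y)/2)` because `(x²+y²)/4 - (x-y)²/8 = (x+y)²/8`. -/
theorem gauss_two_fn (u v : (ι → ℝ) → ℝ≥0∞) (hu : Measurable u) (hv : Measurable v)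
    (h : ∀ x y, u x * v y ≤ ENNReal.ofReal (Real.exp (vn (x - y) ^ 2 / 4))) :
    (∫⁻ x, u x ∂gp ι) * (∫⁻ y, v y ∂gp ι) ≤ 1 :=
  twoFn_gp 1 u v hu hv fun x y => by rw [one_mul]; exact h x y

/-- Concentration around an arbitrary set (no measurability: pass to the closure of `S`). -/
theorem conc_set (S : Set (ι → ℝ)) {p r : ℝ} (hp : 0 < p) (hp1 : p ≤ 1) (hr : 0 ≤ r)
    (hS : gp ι Sᶜ ≤ ENNReal.ofReal (1 - p)) :
    gp ι {x | ∀ y ∈ S, r ≤ vn (x - y)} ≤ ENNReal.ofReal (Real.exp (-r ^ 2 / 4) / p) := by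
  have hA : IsClosed {x : ι → ℝ | ∀ y ∈ S, r ≤ vn (x - y)} := by
    simp only [Set.ofPred_forall]
    exact isClosed_iInter fun y => isClosed_iInter fun _ => isClosed_le continuous_const
      (continuous_vn.comp (continuous_id.sub continuous_const))
  have hC : MeasurableSet (closure S) := isClosed_closure.measurableSet
  have h1 := gauss_two_fn
    ({x : ι → ℝ | ∀ y ∈ S, r ≤ vn (x - y)}.indicator
      fun _ => ENNReal.ofReal (Real.exp (r ^ 2 / 4)))
    ((closure S).indicator fun _ => 1) (measurable_const.indicator hA.measurableSet)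
    (measurable_const.indicator hC) fun x y => by
      by_cases hx : x ∈ {x : ι → ℝ | ∀ y ∈ S, r ≤ vn (x - y)}
      · by_cases hy : y ∈ closure S
        · rw [Set.indicator_of_mem hx, Set.indicator_of_mem hy, mul_one]
          have h2 : IsClosed {y : ι → ℝ | r ≤ vn (x - y)} := isClosed_le continuous_const
            (continuous_vn.comp (continuous_const.sub continuous_id))
          have h3 : r ≤ vn (x - y) := closure_minimal (fun z hz => hx z hz) h2 hy
          refine ENNReal.ofReal_le_ofReal (Real.exp_le_exp.2 ?_)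
          have := pow_le_pow_left₀ hr h3 2
          linarith
        · simp [Set.indicator_of_notMem hy]
      · simp [Set.indicator_of_notMem hx]
  rw [lintegral_indicator_const hA.measurableSet, lintegral_indicator_const hC, one_mul] at h1
  have h2 : ENNReal.ofReal p ≤ gp ι (closure S) := by
    have h3 : gp ι (closure S)ᶜ ≤ ENNReal.ofReal (1 - p) :=
      (measure_mono (Set.compl_subset_compl.2 subset_closure)).trans hS
    have h4 : gp ι (closure S) + gp ι (closure S)ᶜ = 1 := prob_add_prob_compl hC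
    have h5 : ENNReal.ofReal p + ENNReal.ofReal (1 - p) = 1 := by
      rw [← ENNReal.ofReal_add hp.le (by linarith)]
      simp
    refine (ENNReal.add_le_add_iff_right (a := ENNReal.ofReal (1 - p)) ENNReal.ofReal_ne_top).1 ?_
    rw [h5, ← h4]
    exact add_le_add_right h3 _
  refine le_of_mul_le (c := Real.exp (r ^ 2 / 4) * p) (by positivity) (le_of_eq ?_) ?_
  · rw [neg_div, Real.exp_neg, mul_inv, div_eq_mul_inv _ p]
  · refine le_trans ?_ h1
    rw [ENNReal.ofReal_mul (Real.exp_pos _).le, mul_right_comm]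
    exact mul_le_mul_right h2 _

theorem integrable_of_lip {F : (ι → ℝ) → ℝ} {L : ℝ} (hF : ∀ x y, |F x - F y| ≤ L * vn (x - y)) :
    Integrable F (gp ι) := by
  have h1 : ∀ i, Integrable (fun x : ι → ℝ => x i ^ 2) (gp ι) := by
    intro i
    have h2 : Integrable (fun t : ℝ => t ^ 2) (gaussianReal 0 1) :=
      (memLp_id_gaussianReal 2).integrable_sq
    exact (measurePreserving_eval (fun _ : ι => gaussianReal 0 1) i).integrable_comp_of_integrable h2
  have h2 : Integrable (fun x : ι → ℝ => |F 0| + |L| * (1 + ∑ i, x i ^ 2)) (gp ι) :=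
    (integrable_const _).add
      (((integrable_const _).add (integrable_finsetSum _ fun i _ => h1 i)).const_mul _)
  refine h2.mono' (continuous_of_lip hF).aestronglyMeasurable (Eventually.of_forall fun x => ?_)
  have h3 := hF x 0
  rw [sub_zero] at h3
  have h4 : vn x ≤ 1 + ∑ i, x i ^ 2 := by
    rw [← vn_sq]
    nlinarith [vn_nonneg x]
  have h5 : L * vn x ≤ |L| * (1 + ∑ i, x i ^ 2) :=
    (mul_le_mul_of_nonneg_right (le_abs_self L) (vn_nonneg x)).trans
      (mul_le_mul_of_nonneg_left h4 (abs_nonneg L))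
  have h6 := abs_sub_abs_le_abs_sub (F x) (F 0)
  rw [Real.norm_eq_abs]
  linarith

/-- Concentration of Lipschitz functions around the mean: take `u = exp (λ F - λ² L²)`,
`v = exp (-λ F)`, Jensen for `v`, then Markov. -/
theorem conc_lip {F : (ι → ℝ) → ℝ} {L t : ℝ} (hL : 0 < L) (ht : 0 ≤ t)
    (hF : ∀ x y, |F x - F y| ≤ L * vn (x - y)) :
    gp ι {x | (∫ y, F y ∂gp ι) + t ≤ F x} ≤ ENNReal.ofReal (Real.exp (-t ^ 2 / (4 * L ^ 2))) := by
  have hc := continuous_of_lip hF
  have hi := integrable_of_lip hF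
  set m := ∫ y, F y ∂gp ι with hm
  set l := t / (2 * L ^ 2) with hl
  have hl0 : 0 ≤ l := by positivity
  have hA : MeasurableSet {x | m + t ≤ F x} := (isClosed_le continuous_const hc).measurableSet
  have h1 := gauss_two_fn
    ({x | m + t ≤ F x}.indicator fun _ => ENNReal.ofReal (Real.exp (l * t - l ^ 2 * L ^ 2)))
    (fun y => ENNReal.ofReal (Real.exp (-(l * (F y - m))))) (measurable_const.indicator hA)
    (by fun_prop) fun x y => by
      by_cases hx : x ∈ {x | m + t ≤ F x}
      · rw [Set.indicator_of_mem hx, ← ENNReal.ofReal_mul (Real.exp_pos _).le, ← Real.exp_add]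
        refine ENNReal.ofReal_le_ofReal (Real.exp_le_exp.2 ?_)
        have h2 : m + t ≤ F x := hx
        have h3 : t - (F y - m) ≤ L * vn (x - y) := by linarith [le_abs_self (F x - F y), hF x y]
        have h4 := mul_le_mul_of_nonneg_left h3 hl0
        nlinarith [sq_nonneg (vn (x - y) / 2 - l * L)]
      · simp [Set.indicator_of_notMem hx]
  rw [lintegral_indicator_const hA] at h1
  have h2 : 1 ≤ ∫⁻ y, ENNReal.ofReal (Real.exp (-(l * (F y - m)))) ∂gp ι := by
    have h0 : Integrable (fun y => -(l * (F y - m))) (gp ι) :=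
      ((hi.sub (integrable_const m)).const_mul l).neg
    have h3 : Integrable (fun y => -(l * (F y - m)) + 1) (gp ι) := h0.add (integrable_const 1)
    have h4 : ∫ y, (-(l * (F y - m)) + 1) ∂gp ι = 1 := by
      rw [integral_add h0 (integrable_const 1), integral_neg, integral_const_mul, integral_sub hi (integrable_const m)]
      simp [hm]
    have h5 := ofReal_integral_le h3
    rw [h4, ENNReal.ofReal_one] at h5
    exact h5.trans (lintegral_mono fun y => ENNReal.ofReal_le_ofReal (Real.add_one_le_exp _))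
  refine le_of_mul_le (c := Real.exp (l * t - l ^ 2 * L ^ 2)) (Real.exp_pos _) (le_of_eq ?_) ?_
  · rw [← Real.exp_neg]
    congr 1
    rw [hl]
    field_simp
    ring
  · exact (le_mul_of_one_le_right' h2).trans h1

end Vale.Agent.P150
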