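import Vale.Agent.P150.Basic

/-! Gaussian integration by parts and moments. -/

open MeasureTheory ProbabilityTheory Matrix Filter Topology
open scoped ENNReal NNReal

namespace Vale.Agent.P150

variable {ι : Type} [Fintype ι]

namespace GaussB

lemma integrable_exp_abs (c : ℝ) :
    Integrable (fun t : ℝ => Real.exp (c * |t|)) (gaussianReal 0 1) := by
  refine ((integrable_exp_mul_gaussianReal c).add (integrable_exp_mul_gaussianReal (-c))).mono'
    (by fun_prop) (Eventually.of_forall fun t => ?_)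
  rw [Real.norm_eq_abs, abs_of_pos (Real.exp_pos _), Pi.add_apply]
  rcases abs_cases t with h | h
  · rw [h.1]; linarith [Real.exp_pos (-c * t)]
  · rw [h.1, mul_neg, neg_mul]; linarith [Real.exp_pos (c * t)]

lemma pow_le_exp {r : ℝ} (hr : 0 ≤ r) (m : ℕ) : (1 + r) ^ m ≤ Real.exp (m * r) := by
  rw [Real.exp_nat_mul]
  exact pow_le_pow_left₀ (by linarith) (by linarith [Real.add_one_le_exp r]) m

lemma nonneg_of_bound {y C r : ℝ} {m : ℕ} (hr : 0 ≤ r) (h : |y| ≤ C * (1 + r) ^ m) : 0 ≤ C :=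
  nonneg_of_mul_nonneg_left ((abs_nonneg y).trans h) (by positivity)

lemma integrable_one {f : ℝ → ℝ} (hf : Measurable f) {C : ℝ} {m : ℕ}
    (h : ∀ t, |f t| ≤ C * (1 + |t|) ^ m) : Integrable f (gaussianReal 0 1) := by
  have hC := nonneg_of_bound (abs_nonneg 0) (h 0)
  refine ((integrable_exp_abs m).const_mul C).mono' hf.aestronglyMeasurable
    (Eventually.of_forall fun t => (h t).trans ?_)
  exact mul_le_mul_of_nonneg_left (pow_le_exp (abs_nonneg t) m) hC

lemma vn_le_sum (x : ι → ℝ) : vn x ≤ ∑ i, |x i| := by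
  refine vn_le_of_sq_le (Finset.sum_nonneg fun _ _ => abs_nonneg _) ?_
  simpa only [sq_abs] using Finset.sum_sq_le_sq_sum_of_nonneg (s := Finset.univ)
    (f := fun i => |x i|) fun _ _ => abs_nonneg _

lemma integrable_vol {f : ℝ → ℝ} (hf : Integrable f (gaussianReal 0 1)) :
    Integrable (fun t => f t * gaussianPDFReal 0 1 t) := by
  rw [gaussianReal_of_var_ne_zero _ one_ne_zero, integrable_withDensity_iff_integrable_smul'
    (measurable_gaussianPDF _ _) (Eventually.of_forall fun _ => gaussianPDF_lt_top)] at hf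
  simpa [mul_comm] using hf

lemma hd_pdf (t : ℝ) : HasDerivAt (gaussianPDFReal 0 1) (-(t * gaussianPDFReal 0 1 t)) t := by
  have h : HasDerivAt (fun x : ℝ => -(x - 0) ^ 2 / (2 * ((1 : ℝ≥0) : ℝ))) (-t) t := by
    refine ((((hasDerivAt_id t).sub_const 0).pow 2).neg.div_const _).congr_deriv ?_
    simp
    ring
  refine (h.exp.const_mul _).congr_deriv ?_
  rw [gaussianPDFReal]
  ring

lemma mp_update [DecidableEq ι] (k : ι) :
    MeasurePreserving (fun p : (ι → ℝ) × ℝ => Function.update p.1 k p.2)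
      ((gp ι).prod (gaussianReal 0 1)) (gp ι) := by
  refine ⟨measurable_update', (Measure.pi_eq fun s hs => ?_).symm⟩
  rw [Measure.map_apply measurable_update' (MeasurableSet.univ_pi hs)]
  have e : (fun p : (ι → ℝ) × ℝ => Function.update p.1 k p.2) ⁻¹' Set.pi Set.univ s =
      Set.pi Set.univ (Function.update s k Set.univ) ×ˢ s k := by
    ext p
    simp only [Set.mem_preimage, Set.mem_pi, Set.mem_univ, true_imp_iff, Set.mem_prod]
    constructor
    · intro h
      refine ⟨fun i => ?_, by simpa using h k⟩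
      by_cases hi : i = k
      · subst hi; simp
      · simpa [hi] using h i
    · rintro ⟨h1, h2⟩ i
      by_cases hi : i = k
      · subst hi; simpa using h2
      · simpa [hi] using h1 i
  rw [e, Measure.prod_prod, gp, Measure.pi_pi, ← Finset.mul_prod_erase _ _ (Finset.mem_univ k),
    ← Finset.mul_prod_erase _ (fun i => gaussianReal 0 1 (s i)) (Finset.mem_univ k), mul_comm]
  congr 1
  rw [Function.update_self, measure_univ, one_mul]
  exact Finset.prod_congr rfl fun i hi => by rw [Function.update_of_ne (Finset.ne_of_mem_erase hi)]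

lemma integral_update [DecidableEq ι] (k : ι) {G : (ι → ℝ) → ℝ} (hG : Integrable G (gp ι)) :
    ∫ x, G x ∂gp ι = ∫ x, ∫ t, G (Function.update x k t) ∂gaussianReal 0 1 ∂gp ι := by
  have h := mp_update (ι := ι) k
  rw [← integral_prod (fun p : (ι → ℝ) × ℝ => G (Function.update p.1 k p.2))
    (h.integrable_comp_of_integrable hG)]
  have h2 := hG.aestronglyMeasurable
  rw [← h.map_eq] at h2
  rw [← integral_map h.measurable.aemeasurable h2, h.map_eq]

lemma vn_update [DecidableEq ι] (x : ι → ℝ) (k : ι) (t : ℝ) :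
    1 + vn (Function.update x k t) ≤ (1 + vn x) * (1 + |t|) := by
  have h : vn (Function.update x k t) ≤ vn x + |t| := by
    refine vn_le_of_sq_le (add_nonneg (vn_nonneg _) (abs_nonneg _)) ?_
    have h1 : ∑ i, Function.update x k t i ^ 2 ≤ ∑ i, (x i ^ 2 + if i = k then t ^ 2 else 0) :=
      Finset.sum_le_sum fun i _ => by
        by_cases hi : i = k
        · subst hi; simp [sq_nonneg]
        · simp [hi]
    rw [Finset.sum_add_distrib, ← vn_sq x] at h1
    simp only [Finset.sum_ite_eq', Finset.mem_univ, if_true] at h1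
    nlinarith [mul_nonneg (vn_nonneg x) (abs_nonneg t), sq_abs t]
  nlinarith [mul_nonneg (vn_nonneg x) (abs_nonneg t)]

lemma bound_update [DecidableEq ι] {F : (ι → ℝ) → ℝ} {C : ℝ} {m : ℕ}
    (h : ∀ x, |F x| ≤ C * (1 + vn x) ^ m) (x : ι → ℝ) (k : ι) (t : ℝ) :
    |F (Function.update x k t)| ≤ C * (1 + vn x) ^ m * (1 + |t|) ^ m := by
  refine (h _).trans ?_
  rw [mul_assoc, ← mul_pow]
  exact mul_le_mul_of_nonneg_left (pow_le_pow_left₀ (by linarith [vn_nonneg (Function.update x k t)])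
    (vn_update x k t) m) (nonneg_of_bound (vn_nonneg x) (h x))

end GaussB

open GaussB

theorem integrable_of_poly {F : (ι → ℝ) → ℝ} (hF : Measurable F) {C : ℝ} {m : ℕ}
    (h : ∀ x, |F x| ≤ C * (1 + vn x) ^ m) : Integrable F (gp ι) := by
  have hC := nonneg_of_bound (vn_nonneg 0) (h 0)
  have h1 : Integrable (fun x : ι → ℝ => ∏ i, Real.exp (m * |x i|)) (gp ι) :=
    Integrable.fintype_prod (f := fun _ t => Real.exp (m * |t|)) fun _ => integrable_exp_abs m
  refine (h1.const_mul C).mono' hF.aestronglyMeasurable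
    (Eventually.of_forall fun x => (h x).trans ?_)
  refine mul_le_mul_of_nonneg_left ((pow_le_exp (vn_nonneg x) m).trans ?_) hC
  rw [← Real.exp_sum, ← Finset.mul_sum]
  exact Real.exp_le_exp.2 (mul_le_mul_of_nonneg_left (vn_le_sum x) (Nat.cast_nonneg m))

/-- One-dimensional integration by parts, variance one. -/
theorem ibp_one {f f' : ℝ → ℝ} (hf : ∀ t, HasDerivAt f (f' t) t) (hm : Measurable f') {C : ℝ}
    {m : ℕ} (h1 : ∀ t, |f t| ≤ C * (1 + |t|) ^ m) (h2 : ∀ t, |f' t| ≤ C * (1 + |t|) ^ m) :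
    ∫ t, t * f t ∂gaussianReal 0 1 = ∫ t, f' t ∂gaussianReal 0 1 := by
  have hC := nonneg_of_bound (abs_nonneg 0) (h1 0)
  have hfm : Measurable f :=
    (continuous_iff_continuousAt.2 fun t => (hf t).continuousAt).measurable
  have h3 : Integrable (fun t => t * f t) (gaussianReal 0 1) := by
    refine integrable_one (measurable_id.mul hfm) (C := C) (m := m + 1) fun t => ?_
    rw [abs_mul, pow_succ, ← mul_assoc, mul_comm]
    exact mul_le_mul (h1 t) (by linarith) (abs_nonneg _) (by positivity)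
  have h4 := integral_mul_deriv_eq_deriv_mul_of_integrable (u := f) (u' := f')
    (v := gaussianPDFReal 0 1) (v' := fun t => -(t * gaussianPDFReal 0 1 t))
    (fun t _ => hf t) (fun t _ => hd_pdf t)
    ((integrable_vol h3).neg.congr (Eventually.of_forall fun t => by simp; ring))
    (integrable_vol (integrable_one hm h2)) (integrable_vol (integrable_one hfm h1))
  rw [integral_gaussianReal_eq_integral_smul one_ne_zero,
    integral_gaussianReal_eq_integral_smul one_ne_zero]
  simp only [mul_neg, integral_neg, neg_inj] at h4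
  simp only [smul_eq_mul]
  calc _ = ∫ t, f t * (t * gaussianPDFReal 0 1 t) := integral_congr_ae
        (Eventually.of_forall fun t => by ring)
    _ = _ := h4.trans (integral_congr_ae (Eventually.of_forall fun t => by ring))

/-- Integration by parts in the coordinate `k`. -/
theorem ibp [DecidableEq ι] (k : ι) {F F' : (ι → ℝ) → ℝ} (hF : Measurable F)
    (hF' : Measurable F')
    (hd : ∀ x, HasDerivAt (fun t => F (Function.update x k t)) (F' x) (x k)) {C : ℝ} {m : ℕ}
    (h1 : ∀ x, |F x| ≤ C * (1 + vn x) ^ m) (h2 : ∀ x, |F' x| ≤ C * (1 + vn x) ^ m) :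
    ∫ x, x k * F x ∂gp ι = ∫ x, F' x ∂gp ι := by
  have hC := nonneg_of_bound (vn_nonneg 0) (h1 0)
  have h3 : Integrable (fun x => x k * F x) (gp ι) := by
    refine integrable_of_poly ((measurable_pi_apply k).mul hF) (C := C) (m := m + 1) fun x => ?_
    have := vn_nonneg x
    rw [abs_mul, pow_succ, ← mul_assoc, mul_comm]
    exact mul_le_mul (h1 x) (by linarith [abs_le_vn x k]) (abs_nonneg _) (by positivity)
  rw [integral_update k h3, integral_update k (integrable_of_poly hF' h2)]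
  refine integral_congr_ae (Eventually.of_forall fun x => ?_)
  simp only [Function.update_self]
  refine ibp_one (f := fun t => F (Function.update x k t))
    (f' := fun t => F' (Function.update x k t)) (fun t => ?_) (hF'.comp (measurable_update x))
    (bound_update h1 x k) (bound_update h2 x k)
  simpa only [Function.update_idem, Function.update_self] using hd (Function.update x k t)

namespace GaussB

/-- Continuous functions of polynomial growth. -/
def PG (F : (ι → ℝ) → ℝ) : Prop :=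
  Continuous F ∧ ∃ (C : ℝ) (m : ℕ), ∀ x, |F x| ≤ C * (1 + vn x) ^ m

lemma bound_mono {F : (ι → ℝ) → ℝ} {C C' : ℝ} {m m' : ℕ} (h : ∀ x, |F x| ≤ C * (1 + vn x) ^ m)
    (hC : C ≤ C') (hm : m ≤ m') (x : ι → ℝ) : |F x| ≤ C' * (1 + vn x) ^ m' := by
  have h0 := nonneg_of_bound (vn_nonneg x) (h x)
  have := vn_nonneg x
  exact (h x).trans (mul_le_mul hC (pow_le_pow_right₀ (by linarith) hm) (by positivity)
    (h0.trans hC))

lemma PG.integrable {F : (ι → ℝ) → ℝ} (h : PG F) : Integrable F (gp ι) :=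
  let ⟨_, _, h1⟩ := h.2
  integrable_of_poly h.1.measurable h1

lemma PG.const (c : ℝ) : PG fun _ : ι → ℝ => c :=
  ⟨continuous_const, |c|, 0, fun _ => by simp⟩

lemma PG.add {F G : (ι → ℝ) → ℝ} (hF : PG F) (hG : PG G) : PG fun x => F x + G x := by
  obtain ⟨h1, C, m, h2⟩ := hF
  obtain ⟨h3, C', m', h4⟩ := hG
  refine ⟨h1.add h3, C + C', max m m', fun x => (abs_add_le _ _).trans ?_⟩
  rw [add_mul]
  exact add_le_add (bound_mono h2 le_rfl (le_max_left _ _) x)
    (bound_mono h4 le_rfl (le_max_right _ _) x)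

lemma PG.mul {F G : (ι → ℝ) → ℝ} (hF : PG F) (hG : PG G) : PG fun x => F x * G x := by
  obtain ⟨h1, C, m, h2⟩ := hF
  obtain ⟨h3, C', m', h4⟩ := hG
  refine ⟨h1.mul h3, C * C', m + m', fun x => ?_⟩
  rw [abs_mul, pow_add, mul_mul_mul_comm]
  exact mul_le_mul (h2 x) (h4 x) (abs_nonneg _) ((abs_nonneg _).trans (h2 x))

lemma PG.pow {F : (ι → ℝ) → ℝ} (hF : PG F) (n : ℕ) : PG fun x => F x ^ n := by
  induction n with
  | zero => simpa using PG.const 1
  | succ n ih => simpa only [pow_succ] using ih.mul hF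

lemma PG.sum {κ : Type} (s : Finset κ) {F : κ → (ι → ℝ) → ℝ} (hF : ∀ k, PG (F k)) :
    PG fun x => ∑ k ∈ s, F k x := by
  classical
  induction s using Finset.induction_on with
  | empty => simpa using PG.const 0
  | insert a s ha ih => simpa only [Finset.sum_insert ha] using (hF a).add ih

lemma PG.dot (a : ι → ℝ) : PG fun x => a ⬝ᵥ x :=
  ⟨by fun_prop, vn a, 1, fun x => (abs_dot_le a x).trans
    (mul_le_mul_of_nonneg_left (by rw [pow_one]; linarith) (vn_nonneg a))⟩

lemma PG.coord (k : ι) : PG fun x : ι → ℝ => x k :=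
  ⟨continuous_apply k, 1, 1, fun x => by rw [pow_one]; linarith [abs_le_vn x k]⟩

lemma ibp_poly [DecidableEq ι] (k : ι) {F F' : (ι → ℝ) → ℝ} (hF : PG F) (hF' : PG F')
    (hd : ∀ x, HasDerivAt (fun t => F (Function.update x k t)) (F' x) (x k)) :
    ∫ x, x k * F x ∂gp ι = ∫ x, F' x ∂gp ι := by
  obtain ⟨h1, C, m, h2⟩ := hF
  obtain ⟨h3, C', m', h4⟩ := hF'
  exact ibp k h1.measurable h3.measurable hd (bound_mono h2 (le_max_left C C') (le_max_left m m'))
    (bound_mono h4 (le_max_right C C') (le_max_right m m'))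

lemma hd_dot [DecidableEq ι] (a x : ι → ℝ) (k : ι) :
    HasDerivAt (fun t => a ⬝ᵥ Function.update x k t) (a k) (x k) := by
  have h1 : HasDerivAt (fun r => ∑ i, a i * Function.update x k r i)
      (∑ i, a i * (Pi.single k 1 : ι → ℝ) i) (x k) :=
    HasDerivAt.fun_sum fun i _ =>
      (hasDerivAt_pi.1 (hasDerivAt_update x k (x k)) i).const_mul (a i)
  have h2 : ∑ i, a i * (Pi.single k 1 : ι → ℝ) i = a k := by simp [Pi.single_apply]
  rw [h2] at h1
  exact h1

lemma ibp_pow (a c : ι → ℝ) (n : ℕ) :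
    ∫ x, (c ⬝ᵥ x) * (a ⬝ᵥ x) ^ n ∂gp ι = n * (c ⬝ᵥ a) * ∫ x, (a ⬝ᵥ x) ^ (n - 1) ∂gp ι := by
  classical
  have e : (fun x => (c ⬝ᵥ x) * (a ⬝ᵥ x) ^ n) = fun x => ∑ k, c k * (x k * (a ⬝ᵥ x) ^ n) := by
    funext x
    rw [dotProduct, Finset.sum_mul]
    exact Finset.sum_congr rfl fun k _ => by ring
  have h : ∀ k, ∫ x, x k * (a ⬝ᵥ x) ^ n ∂gp ι = n * a k * ∫ x, (a ⬝ᵥ x) ^ (n - 1) ∂gp ι := by
    intro k
    rw [← integral_const_mul]
    refine ibp_poly k ((PG.dot a).pow n) ((PG.const _).mul ((PG.dot a).pow _)) fun x => ?_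
    refine ((hd_dot a x k).fun_pow n).congr_deriv ?_
    rw [Function.update_eq_self]
    ring
  rw [e, integral_finsetSum _ fun k _ =>
    ((PG.coord k).mul ((PG.dot a).pow n)).integrable.const_mul _]
  simp only [integral_const_mul, h]
  rw [dotProduct, Finset.mul_sum, Finset.sum_mul]
  exact Finset.sum_congr rfl fun k _ => by ring

end GaussB

theorem integral_dot (a : ι → ℝ) : ∫ x, a ⬝ᵥ x ∂gp ι = 0 := by
  simpa using ibp_pow a a 0

theorem integral_dot_mul (a b : ι → ℝ) : ∫ x, (a ⬝ᵥ x) * (b ⬝ᵥ x) ∂gp ι = a ⬝ᵥ b := by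
  simpa using ibp_pow b a 1

theorem integral_dot_four (a : ι → ℝ) : ∫ x, (a ⬝ᵥ x) ^ 4 ∂gp ι = 3 * (a ⬝ᵥ a) ^ 2 := by
  have h1 := ibp_pow a a 3
  have h2 := integral_dot_mul a a
  simp only [← sq] at h2
  simp only [← pow_succ', Nat.add_one_sub_one, h2] at h1
  rw [h1]
  push_cast
  ring

theorem integral_abs_dot_le (a : ι → ℝ) : ∫ x, |a ⬝ᵥ x| ∂gp ι ≤ vn a := by
  rcases (vn_nonneg a).eq_or_lt with h | h
  · rw [vn_eq_zero h.symm]
    simp [vn_zero]
  have h1 : ∫ x, |a ⬝ᵥ x| ∂gp ι ≤ ∫ x, ((a ⬝ᵥ x) * (a ⬝ᵥ x) / (2 * vn a) + vn a / 2) ∂gp ι := by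
    refine integral_mono (PG.dot a).integrable.abs
      ((((PG.dot a).mul (PG.dot a)).integrable.div_const _).add (integrable_const _))
      fun x => ?_
    have e : (a ⬝ᵥ x) * (a ⬝ᵥ x) / (2 * vn a) + vn a / 2 - |a ⬝ᵥ x| =
        (|a ⬝ᵥ x| - vn a) ^ 2 / (2 * vn a) := by
      rw [← abs_mul_abs_self]
      field_simp
      ring
    have : 0 ≤ (|a ⬝ᵥ x| - vn a) ^ 2 / (2 * vn a) := by positivity
    change |a ⬝ᵥ x| ≤ (a ⬝ᵥ x) * (a ⬝ᵥ x) / (2 * vn a) + vn a / 2
    linarith
  rw [integral_add (((PG.dot a).mul (PG.dot a)).integrable.div_const _) (integrable_const _),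
    integral_div, integral_dot_mul, dot_self] at h1
  simp only [integral_const, probReal_univ, smul_eq_mul, one_mul] at h1
  refine h1.trans (le_of_eq ?_)
  field_simp
  ring

theorem integral_exp_dot (a : ι → ℝ) :
    ∫ x, Real.exp (a ⬝ᵥ x) ∂gp ι = Real.exp (a ⬝ᵥ a / 2) := by
  have h : ∀ c : ℝ, ∫ t, Real.exp (c * t) ∂gaussianReal 0 1 = Real.exp (c * c / 2) := fun c => by
    have := congrFun (mgf_fun_id_gaussianReal (μ := 0) (v := 1)) c
    simpa [mgf, sq] using this
  simp only [dotProduct, Real.exp_sum, Finset.sum_div]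
  rw [gp, integral_fintype_prod_eq_prod (fun i t => Real.exp (a i * t))]
  simp only [h]

theorem integrable_exp_dot (a : ι → ℝ) : Integrable (fun x => Real.exp (a ⬝ᵥ x)) (gp ι) := by
  simp only [dotProduct, Real.exp_sum]
  exact Integrable.fintype_prod (f := fun i t => Real.exp (a i * t))
    fun i => integrable_exp_mul_gaussianReal _

/-- Variance of a Gaussian quadratic form. -/
theorem integral_quad_sq (A : Matrix ι ι ℝ) :
    ∫ x, (x ⬝ᵥ A *ᵥ x - A.trace) ^ 2 ∂gp ι ≤ 2 * ∑ i, ∑ j, A i j ^ 2 := by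
  classical
  set Q : (ι → ℝ) → ℝ := fun x => ∑ i, x i * (A i ⬝ᵥ x) + -A.trace with hQ
  have hP : PG Q := (PG.sum _ fun i => (PG.coord i).mul (PG.dot _)).add (PG.const _)
  have hd : ∀ k x, HasDerivAt (fun t => Q (Function.update x k t))
      ((A k + fun i => A i k) ⬝ᵥ x) (x k) := fun k x => by
    refine (HasDerivAt.fun_sum fun i _ => (hasDerivAt_pi.1 (hasDerivAt_update x k (x k)) i).mul
      (hd_dot (A i) x k)).add_const _ |>.congr_deriv ?_
    simp only [Function.update_eq_self, Finset.sum_add_distrib, add_dotProduct]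
    congr 1
    · simp [Pi.single_apply]
    · exact Finset.sum_congr rfl fun i _ => mul_comm _ _
  have h1 : ∀ k, ∫ x, x k * ((A k ⬝ᵥ x) * Q x) ∂gp ι =
      A k k * ∫ x, Q x ∂gp ι + A k ⬝ᵥ (A k + fun i => A i k) := fun k => by
    rw [← integral_dot_mul, ← integral_const_mul, ← integral_add (hP.integrable.const_mul _)
      ((PG.dot _).mul (PG.dot _)).integrable]
    refine ibp_poly k ((PG.dot _).mul hP)
      (((PG.const _).mul hP).add ((PG.dot _).mul (PG.dot _))) fun x => ?_
    refine ((hd_dot (A k) x k).mul (hd k x)).congr_deriv ?_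
    simp only [Function.update_eq_self]
  have e : (fun x => (x ⬝ᵥ A *ᵥ x - A.trace) ^ 2) =
      fun x => ∑ k, x k * ((A k ⬝ᵥ x) * Q x) - A.trace * Q x := by
    funext x
    have : ∑ k, x k * ((A k ⬝ᵥ x) * Q x) = (∑ k, x k * (A k ⬝ᵥ x)) * Q x := by
      rw [Finset.sum_mul]
      exact Finset.sum_congr rfl fun k _ => by ring
    rw [this]
    change (∑ i, x i * (A i ⬝ᵥ x) - A.trace) ^ 2 = _
    simp only [hQ]
    ring
  have hI : ∀ k, Integrable (fun x => x k * ((A k ⬝ᵥ x) * Q x)) (gp ι) := fun k =>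
    ((PG.coord k).mul ((PG.dot _).mul hP)).integrable
  rw [e, integral_sub (integrable_finsetSum _ fun k _ => hI k) (hP.integrable.const_mul _),
    integral_finsetSum _ fun k _ => hI k, integral_const_mul]
  simp only [h1, Finset.sum_add_distrib, ← Finset.sum_mul, dotProduct_add]
  have e2 : ∑ i, A i i = A.trace := rfl
  have h2 : ∑ k, A k ⬝ᵥ A k = ∑ i, ∑ j, A i j ^ 2 := by simp only [dotProduct, sq]
  have h3 : 2 * ∑ k, A k ⬝ᵥ (fun i => A i k) ≤ ∑ i, ∑ j, A i j ^ 2 + ∑ i, ∑ j, A j i ^ 2 := by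
    rw [← Finset.sum_add_distrib, Finset.mul_sum]
    refine Finset.sum_le_sum fun i _ => ?_
    rw [← Finset.sum_add_distrib, dotProduct, Finset.mul_sum]
    exact Finset.sum_le_sum fun j _ => by nlinarith [sq_nonneg (A i j - A j i)]
  rw [Finset.sum_comm (f := fun i j => A j i ^ 2)] at h3
  rw [e2, h2]
  linarith

/-- `E exp (θ g²) = (1 - 2θ)^{-1/2}`. -/
theorem lintegral_exp_sq {θ : ℝ} (hθ : θ < 1 / 2) :
    ∫⁻ t, ENNReal.ofReal (Real.exp (θ * t ^ 2)) ∂gaussianReal 0 1 =
      ENNReal.ofReal (1 / √(1 - 2 * θ)) := by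
  have hb : 0 < 1 / 2 - θ := by linarith
  rw [gaussianReal_of_var_ne_zero _ one_ne_zero,
    lintegral_withDensity_eq_lintegral_mul _ (measurable_gaussianPDF _ _) (by fun_prop)]
  have e : ∀ t : ℝ, (gaussianPDF 0 1 * fun t => ENNReal.ofReal (Real.exp (θ * t ^ 2))) t =
      ENNReal.ofReal ((√(2 * Real.pi))⁻¹ * Real.exp (-(1 / 2 - θ) * t ^ 2)) := fun t => by
    rw [Pi.mul_apply, gaussianPDF, ← ENNReal.ofReal_mul (gaussianPDFReal_nonneg _ _ _),
      gaussianPDFReal, mul_assoc, ← Real.exp_add]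
    congr 3
    · simp
    · simp
      ring
  simp only [e]
  rw [← ofReal_integral_eq_lintegral_ofReal ((integrable_exp_neg_mul_sq hb).const_mul _)
    (Eventually.of_forall fun t => by positivity), integral_const_mul, integral_gaussian,
    ← Real.sqrt_inv, ← Real.sqrt_mul (by positivity), one_div (√_), ← Real.sqrt_inv]
  congr 2
  have h1 : 1 - 2 * θ ≠ 0 := by linarith
  have h2 := hb.ne'
  have h3 := Real.pi_pos.ne'
  field_simp

end Vale.Agent.P150
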