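import Vale.Agent.P150.Basic

/-! Laws of linear images, Cameron-Martin shift, resampling, densities. -/

open MeasureTheory ProbabilityTheory Matrix Filter Topology
open scoped ENNReal NNReal

namespace Vale.Agent.P150

variable {ι ι' κ : Type} [Fintype ι] [Fintype ι'] [Fintype κ]

/-- The characteristic function of a standard Gaussian vector. -/
theorem integral_cexp_dot (c : ι → ℝ) :
    ∫ x, Complex.exp (((c ⬝ᵥ x : ℝ) : ℂ) * Complex.I) ∂gp ι =
      Complex.exp (-((vn c ^ 2 / 2 : ℝ) : ℂ)) := by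
  have h1 : ∀ x : ι → ℝ, Complex.exp (((c ⬝ᵥ x : ℝ) : ℂ) * Complex.I) =
      ∏ i, Complex.exp ((c i : ℂ) * (x i : ℂ) * Complex.I) := by
    intro x
    rw [← Complex.exp_sum, ← Finset.sum_mul, dotProduct]
    push_cast
    rfl
  simp only [h1, gp]
  rw [integral_fintype_prod_eq_prod
    (fun i (t : ℝ) => Complex.exp ((c i : ℂ) * (t : ℂ) * Complex.I))]
  simp only [← charFun_apply_real, charFun_gaussianReal]
  rw [← Complex.exp_sum, vn_sq]
  congr 1
  push_cast
  rw [Finset.sum_div, ← Finset.sum_neg_distrib]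
  exact Finset.sum_congr rfl fun i _ => by ring

theorem charFunDual_gp_map [DecidableEq κ] (A : Matrix κ ι ℝ) (L : StrongDual ℝ (κ → ℝ)) :
    charFunDual ((gp ι).map fun x => A *ᵥ x) L =
      Complex.exp (-((vn (Aᵀ *ᵥ fun k => L (Pi.single k 1)) ^ 2 / 2 : ℝ) : ℂ)) := by
  have hA : Continuous fun x : ι → ℝ => A *ᵥ x := continuous_const.matrix_mulVec continuous_id
  have hL : ∀ y : κ → ℝ, L y = (fun k => L (Pi.single k 1)) ⬝ᵥ y := by
    intro y
    conv_lhs => rw [← Finset.univ_sum_single y]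
    rw [map_sum]
    refine Finset.sum_congr rfl fun k _ => ?_
    rw [mul_comm, ← smul_eq_mul, ← map_smul, ← Pi.single_smul', smul_eq_mul, mul_one]
  rw [charFunDual_apply, integral_map hA.aemeasurable (Continuous.aestronglyMeasurable
    (by fun_prop)), ← integral_cexp_dot]
  refine integral_congr_ae (Eventually.of_forall fun x => ?_)
  beta_reduce
  rw [hL, dotProduct_mulVec, mulVec_transpose]

/-- Linear images of standard Gaussians with the same covariance have the same law
(characteristic functions: push both to `EuclideanSpace ℝ κ`, `Measure.ext_of_charFun`). -/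
theorem law_eq (A : Matrix κ ι ℝ) (B : Matrix κ ι' ℝ)
    (h : ∀ z : κ → ℝ, vn (Aᵀ *ᵥ z) = vn (Bᵀ *ᵥ z)) :
    (gp ι).map (fun x => A *ᵥ x) = (gp ι').map (fun x => B *ᵥ x) := by
  classical
  refine Measure.ext_of_charFunDual (funext fun L => ?_)
  rw [charFunDual_gp_map, charFunDual_gp_map, h]

theorem resample [DecidableEq ι] (S : Finset ι) :
    MeasurePreserving (fun p : (ι → ℝ) × (ι → ℝ) => S.piecewise p.2 p.1)
      ((gp ι).prod (gp ι)) (gp ι) := by
  have h1 := (measurePreserving_arrowProdEquivProdArrow ℝ ℝ ι (fun _ => gaussianReal 0 1)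
    (fun _ => gaussianReal 0 1)).symm
  have h2 := measurePreserving_pi (fun _ : ι => (gaussianReal 0 1).prod (gaussianReal 0 1))
    (fun _ => gaussianReal 0 1) (f := fun i (q : ℝ × ℝ) => if i ∈ S then q.2 else q.1) fun i => by
      split_ifs
      exacts [measurePreserving_snd, measurePreserving_fst]
  exact h2.comp h1

theorem gp_sum : MeasurePreserving (fun p : (ι → ℝ) × (ι' → ℝ) => Sum.elim p.1 p.2)
    ((gp ι).prod (gp ι')) (gp (ι ⊕ ι')) := by
  have h := measurePreserving_sumPiEquivProdPi_symm (X := fun _ : ι ⊕ ι' => ℝ)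
    fun _ => gaussianReal 0 1
  have h2 : (fun p : (ι → ℝ) × (ι' → ℝ) => Sum.elim p.1 p.2) =
      (MeasurableEquiv.sumPiEquivProdPi fun _ : ι ⊕ ι' => ℝ).symm := by
    funext p i
    rcases i with i | i <;> rfl
  rw [h2]
  exact h

theorem lintegral_fin_prod (μ : Measure ℝ) [SigmaFinite μ] :
    ∀ (k : ℕ) (f : Fin k → ℝ → ℝ≥0∞), (∀ l, Measurable (f l)) →
      ∫⁻ x : Fin k → ℝ, ∏ l, f l (x l) ∂Measure.pi (fun _ => μ) = ∏ l, ∫⁻ a, f l a ∂μ := by
  intro k
  induction k with
  | zero => intro f _; simp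
  | succ k ih =>
    intro f hf
    have h := (measurePreserving_piFinSuccAbove (fun _ : Fin (k + 1) => μ) 0).symm
    rw [← h.lintegral_comp_emb (MeasurableEquiv.measurableEmbedding _)]
    simp only [Fin.prod_univ_succ, MeasurableEquiv.piFinSuccAbove_symm_apply, Fin.insertNthEquiv,
      Equiv.coe_fn_mk, Fin.insertNth_zero, Fin.cons_zero, Fin.cons_succ, cast_eq]
    rw [← ih (fun l => f l.succ) fun l => hf _]
    exact lintegral_prod_mul (μ := μ) (ν := Measure.pi fun _ : Fin k => μ) (f := f 0)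
      (g := fun x : Fin k → ℝ => ∏ l, f l.succ (x l)) (hf 0).aemeasurable
      (Finset.measurable_prod _ fun l _ => (hf _).comp (measurable_pi_apply l)).aemeasurable

theorem lintegral_pi_prod (μ : Measure ℝ) [SigmaFinite μ] (f : ι → ℝ → ℝ≥0∞)
    (hf : ∀ i, Measurable (f i)) :
    ∫⁻ x : ι → ℝ, ∏ i, f i (x i) ∂(Measure.pi fun _ => μ) = ∏ i, ∫⁻ t, f i t ∂μ := by
  let e := (Fintype.equivFin ι).symm
  have h := measurePreserving_piCongrLeft (fun _ : ι => μ) e
  rw [← h.lintegral_comp_emb (MeasurableEquiv.measurableEmbedding _), ← e.prod_comp,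
    ← lintegral_fin_prod μ _ (fun l => f (e l)) fun l => hf _]
  refine lintegral_congr fun x => ?_
  rw [← e.prod_comp]
  refine Finset.prod_congr rfl fun l _ => ?_
  rw [MeasurableEquiv.piCongrLeft_apply_apply]

theorem gaussianPDF_eq_phi {v : ℝ} (hv : 0 < v) (a t : ℝ) :
    gaussianPDF a v.toNNReal t = ENNReal.ofReal (phi v (t - a)) := by
  rw [gaussianPDF, gaussianPDFReal, phi, Real.coe_toNNReal _ hv.le, div_eq_inv_mul (Real.exp _)]

theorem measurable_prod_phi (v : ℝ) (a : ι → ℝ) :
    Measurable fun x : ι → ℝ => ENNReal.ofReal (∏ i, phi v (x i - a i)) :=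
  (continuous_finsetProd _ fun i _ =>
    (continuous_phi v).comp ((continuous_apply i).sub continuous_const)).measurable.ennreal_ofReal

/-- The density of a product of Gaussian laws. -/
theorem pi_gauss_eq {v : ℝ} (hv : 0 < v) (a : ι → ℝ) :
    (Measure.pi fun i => gaussianReal (a i) v.toNNReal) =
      (volume : Measure (ι → ℝ)).withDensity fun x => ENNReal.ofReal (∏ i, phi v (x i - a i)) := by
  have hv' : v.toNNReal ≠ 0 := (Real.toNNReal_pos.2 hv).ne'
  refine Measure.pi_eq fun s hs => ?_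
  have h1 : ∀ x : ι → ℝ, (Set.univ.pi s).indicator
      (fun x => ENNReal.ofReal (∏ i, phi v (x i - a i))) x =
      ∏ i, (s i).indicator (gaussianPDF (a i) v.toNNReal) (x i) := by
    intro x
    by_cases hx : x ∈ Set.univ.pi s
    · rw [Set.indicator_of_mem hx, ENNReal.ofReal_prod_of_nonneg fun i _ => phi_nonneg _ _]
      exact Finset.prod_congr rfl fun i _ => by
        rw [Set.indicator_of_mem (hx i (Set.mem_univ i)), gaussianPDF_eq_phi hv]
    · rw [Set.indicator_of_notMem hx]
      obtain ⟨i, hi⟩ : ∃ i, x i ∉ s i := by simpa using hx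
      exact (Finset.prod_eq_zero (Finset.mem_univ i) (Set.indicator_of_notMem hi _)).symm
  rw [withDensity_apply _ (MeasurableSet.univ_pi hs),
    ← lintegral_indicator (MeasurableSet.univ_pi hs)]
  simp only [h1]
  rw [volume_pi, lintegral_pi_prod volume _ fun i =>
    (measurable_gaussianPDF _ _).indicator (hs i)]
  exact Finset.prod_congr rfl fun i _ => by
    rw [lintegral_indicator (hs i), gaussianReal_apply _ hv']

theorem gp_eq_withDensity :
    gp ι = (volume : Measure (ι → ℝ)).withDensity fun x => ENNReal.ofReal (∏ i, phi 1 (x i)) := by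
  have h := pi_gauss_eq one_pos (0 : ι → ℝ)
  simp only [Pi.zero_apply, sub_zero, Real.toNNReal_one] at h
  exact h

theorem lintegral_phi {v : ℝ} (hv : 0 < v) (a : ℝ) :
    ∫⁻ t, ENNReal.ofReal (phi v (t - a)) = 1 := by
  simp only [← gaussianPDF_eq_phi hv]
  exact lintegral_gaussianPDF_eq_one _ (Real.toNNReal_pos.2 hv).ne'

theorem phi_mul_phi {v s : ℝ} (hv : 0 < v) (w t : ℝ) :
    phi 1 t * phi v (s * t - w) =
      phi (v + s ^ 2) w * phi (v / (v + s ^ 2)) (t - s * w / (v + s ^ 2)) := by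
  have hp := Real.pi_pos
  have h0 : 0 < v + s ^ 2 := by positivity
  simp only [phi]
  rw [div_mul_div_comm, div_mul_div_comm, ← Real.exp_add, ← Real.exp_add,
    ← Real.sqrt_mul (by positivity), ← Real.sqrt_mul (by positivity)]
  congr 2
  · field_simp
    ring
  · field_simp

/-- Convolution of Gaussian densities. -/
theorem lintegral_phi_conv {v s : ℝ} (hv : 0 < v) (w : ℝ) :
    ∫⁻ t, ENNReal.ofReal (phi v (s * t - w)) ∂gaussianReal 0 1 =
      ENNReal.ofReal (phi (v + s ^ 2) w) := by
  have h0 : 0 < v + s ^ 2 := by positivity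
  have hm : ∀ u a b : ℝ, Measurable fun t => ENNReal.ofReal (phi u (a * t - b)) := fun u a b =>
    ((continuous_phi u).comp (by fun_prop)).measurable.ennreal_ofReal
  have h1 : ∀ t, (gaussianPDF 0 1 * fun t => ENNReal.ofReal (phi v (s * t - w))) t =
      ENNReal.ofReal (phi (v + s ^ 2) w) *
        ENNReal.ofReal (phi (v / (v + s ^ 2)) (t - s * w / (v + s ^ 2))) := by
    intro t
    have h2 := gaussianPDF_eq_phi one_pos 0 t
    rw [Real.toNNReal_one, sub_zero] at h2
    rw [Pi.mul_apply, h2, ← ENNReal.ofReal_mul (phi_nonneg _ _), phi_mul_phi hv,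
      ENNReal.ofReal_mul (phi_nonneg _ _)]
  rw [gaussianReal_of_var_ne_zero _ one_ne_zero,
    lintegral_withDensity_eq_lintegral_mul _ (measurable_gaussianPDF _ _) (hm _ _ _)]
  simp only [h1]
  rw [lintegral_const_mul' _ _ ENNReal.ofReal_ne_top, lintegral_phi (div_pos hv h0), mul_one]

theorem gp_map_affine {v : ℝ} (hv : 0 < v) (a : ι → ℝ) :
    (gp ι).map (fun g => a + √v • g) = Measure.pi fun i => gaussianReal (a i) v.toNNReal := by
  have h1 : ∀ i, (gaussianReal 0 1).map (fun t => a i + √v * t) =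
      gaussianReal (a i) v.toNNReal := by
    intro i
    have h2 : (fun t => a i + √v * t) = (fun t => a i + t) ∘ fun t => √v * t := rfl
    rw [h2, ← Measure.map_map (by fun_prop) (by fun_prop), gaussianReal_map_const_mul,
      gaussianReal_map_const_add, mul_zero, zero_add, mul_one]
    congr 1
    ext
    rw [Real.coe_toNNReal _ hv.le]
    exact Real.sq_sqrt hv.le
  have h3 := Measure.pi_map_pi (μ := fun _ : ι => gaussianReal 0 1)
    (f := fun i t => a i + √v * t) fun i => by fun_prop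
  simp only [h1] at h3
  exact h3

/-- A Gaussian density of variance `v` centred at `a` is the law of `a + sqrt v * g`. -/
theorem lintegral_phi_pi {v : ℝ} (hv : 0 < v) (a : ι → ℝ) {F : (ι → ℝ) → ℝ≥0∞}
    (hF : Measurable F) :
    ∫⁻ H, F H * ENNReal.ofReal (∏ i, phi v (H i - a i)) = ∫⁻ g, F (a + √v • g) ∂gp ι := by
  rw [← lintegral_map hF (by fun_prop), gp_map_affine hv, pi_gauss_eq hv,
    lintegral_withDensity_eq_lintegral_mul _ (measurable_prod_phi v a) hF]
  exact lintegral_congr fun H => mul_comm _ _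

theorem prod_phi_shift (h x : ι → ℝ) :
    ∏ i, phi 1 (x i - h i) = (∏ i, phi 1 (x i)) * Real.exp (h ⬝ᵥ x - h ⬝ᵥ h / 2) := by
  rw [dotProduct, dotProduct, Finset.sum_div, ← Finset.sum_sub_distrib, Real.exp_sum,
    ← Finset.prod_mul_distrib]
  refine Finset.prod_congr rfl fun i _ => ?_
  rw [phi, phi, div_mul_eq_mul_div, ← Real.exp_add]
  congr 2
  ring

/-- Cameron-Martin. -/
theorem lintegral_shift (h : ι → ℝ) {F : (ι → ℝ) → ℝ≥0∞} (hF : Measurable F) :
    ∫⁻ x, F (x + h) ∂gp ι =
      ∫⁻ x, F x * ENNReal.ofReal (Real.exp (h ⬝ᵥ x - h ⬝ᵥ h / 2)) ∂gp ι := by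
  have h1 := lintegral_phi_pi one_pos h hF
  simp only [Real.sqrt_one, one_smul, add_comm h] at h1
  have h2 : Measurable fun x : ι → ℝ => ENNReal.ofReal (∏ i, phi 1 (x i)) := by
    simpa only [Pi.zero_apply, sub_zero] using measurable_prod_phi 1 (0 : ι → ℝ)
  have h3 : Measurable fun x : ι → ℝ => ENNReal.ofReal (Real.exp (h ⬝ᵥ x - h ⬝ᵥ h / 2)) :=
    (Real.continuous_exp.comp ((continuous_const.dotProduct continuous_id).sub
      continuous_const)).measurable.ennreal_ofReal
  rw [← h1, gp_eq_withDensity, lintegral_withDensity_eq_lintegral_mul _ h2 (hF.fun_mul h3)]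
  refine lintegral_congr fun x => ?_
  rw [prod_phi_shift, ENNReal.ofReal_mul (Finset.prod_nonneg fun i _ => phi_nonneg _ _),
    Pi.mul_apply, mul_left_comm]

end Vale.Agent.P150
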