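import Vale.Agent.P150.Loc
import Vale.Agent.P150.GaussA
import Vale.Agent.P150.GaussB
import Vale.Agent.P150.GaussC

/-! From the planted model to the Gibbs measure. -/

open MeasureTheory ProbabilityTheory Matrix Filter Topology
open scoped ENNReal NNReal

namespace Vale.Agent.P150

variable {n : ℕ}

namespace PathAux

/-- The shift vector. -/
noncomputable def hv (β : ℝ) (x : Cube n) : Fin n × Fin n → ℝ := fun p =>
  β / √(2 * (n : ℝ)) * (sv x p.1 * sv x p.2)

lemma wJ_goe (β : ℝ) (x : Cube n) (X : Fin n × Fin n → ℝ) :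
    wJ (goe β X) x = Real.exp (hv β x ⬝ᵥ X) := by
  have h1 : hv β x ⬝ᵥ X = ∑ i, ∑ j, β / √(2 * (n : ℝ)) * (sv x i * sv x j) * X (i, j) := by
    rw [dotProduct, Fintype.sum_prod_type]; rfl
  have h2 : hv β x ⬝ᵥ X = ∑ i, ∑ j, β / √(2 * (n : ℝ)) * (sv x i * sv x j) * X (j, i) := by
    rw [h1, Finset.sum_comm]
    exact Finset.sum_congr rfl fun i _ => Finset.sum_congr rfl fun j _ => by ring
  have h3 : sv x ⬝ᵥ goe β X *ᵥ sv x = hv β x ⬝ᵥ X + hv β x ⬝ᵥ X := by
    nth_rewrite 1 [h1]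
    rw [h2, ← Finset.sum_add_distrib, dotProduct]
    refine Finset.sum_congr rfl fun i _ => ?_
    rw [← Finset.sum_add_distrib, mulVec, dotProduct, Finset.mul_sum]
    exact Finset.sum_congr rfl fun j _ => by simp only [goe, of_apply]; ring
  rw [wJ, h3]
  congr 1
  ring

lemma coef_sq (hn : 0 < n) (β : ℝ) :
    β / √(2 * (n : ℝ)) * (β / √(2 * (n : ℝ))) = β ^ 2 / (2 * n) := by
  have : (0 : ℝ) < n := Nat.cast_pos.2 hn
  rw [div_mul_div_comm, Real.mul_self_sqrt (by positivity), sq]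

lemma hv_dot (hn : 0 < n) (β : ℝ) (x y : Cube n) :
    hv β x ⬝ᵥ hv β y = β ^ 2 / (2 * n) * (sv x ⬝ᵥ sv y) ^ 2 := by
  rw [← coef_sq hn, dotProduct, Fintype.sum_prod_type, dotProduct, sq, Finset.sum_mul_sum,
    Finset.mul_sum]
  refine Finset.sum_congr rfl fun i _ => ?_
  rw [Finset.mul_sum]
  exact Finset.sum_congr rfl fun j _ => by simp only [hv]; ring

lemma hv_self (hn : 0 < n) (β : ℝ) (x : Cube n) : hv β x ⬝ᵥ hv β x = β ^ 2 * n / 2 := by
  have : (0 : ℝ) < n := Nat.cast_pos.2 hn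
  rw [hv_dot hn, dot_self, vn_sv, Real.sq_sqrt this.le]
  field_simp

lemma goe_add (hn : 0 < n) (β : ℝ) (x : Cube n) (X : Fin n × Fin n → ℝ) :
    goe β (X + hv β x) = plant β x X := by
  have : (0 : ℝ) < n := Nat.cast_pos.2 hn
  ext i j
  have h := coef_sq hn β
  have h2 : β ^ 2 / n = 2 * (β ^ 2 / (2 * n)) := by field_simp
  simp only [goe, plant, hv, of_apply, Pi.add_apply, Matrix.add_apply, Matrix.smul_apply,
    vecMulVec_apply, smul_eq_mul]
  rw [h2, ← h]
  ring

lemma sum_exp_le (s : ℝ) (x : Cube n) :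
    ∑ y : Cube n, Real.exp (s * (sv x ⬝ᵥ sv y)) ≤ 2 ^ n * Real.exp (n * (s ^ 2 / 2)) := by
  have h1 : ∀ y : Cube n, Real.exp (s * (sv x ⬝ᵥ sv y)) =
      ∏ i, Real.exp (s * (sp (x i) * sp (y i))) := fun y => by
    rw [← Real.exp_sum, dotProduct, Finset.mul_sum]; rfl
  have h2 := Finset.prod_univ_sum (fun _ : Fin n => (Finset.univ : Finset Bool))
    (fun i b => Real.exp (s * (sp (x i) * sp b)))
  rw [Fintype.piFinset_univ] at h2
  simp only [h1]
  rw [← h2, Real.exp_nat_mul, ← mul_pow]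
  calc _ ≤ ∏ _i : Fin n, (2 * Real.exp (s ^ 2 / 2)) := by
        refine Finset.prod_le_prod (fun i _ => Finset.sum_nonneg fun _ _ => (Real.exp_pos _).le)
          fun i _ => ?_
        have h3 := Real.cosh_le_exp_half_sq s
        rw [Real.cosh_eq] at h3
        rw [Fintype.sum_bool]
        cases x i <;> simp only [sp] <;> norm_num <;> linarith
    _ = _ := by simp

lemma sum_exp_sq_le (hn : 0 < n) {β : ℝ} (hβ : β ^ 2 < 1) (x : Cube n) :
    ∑ y : Cube n, Real.exp (hv β x ⬝ᵥ hv β y) ≤ 2 ^ n * (1 / √(1 - β ^ 2)) := by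
  have hn' : (0 : ℝ) < n := Nat.cast_pos.2 hn
  have h0 : ∀ c : ℝ, ENNReal.ofReal (Real.exp (c ^ 2 / 2)) =
      ∫⁻ t, ENNReal.ofReal (Real.exp (c * t)) ∂gaussianReal 0 1 := fun c => by
    rw [← ofReal_integral_eq_lintegral_ofReal (integrable_exp_mul_gaussianReal c)
      (Eventually.of_forall fun t => (Real.exp_pos _).le)]
    have := congrFun (mgf_fun_id_gaussianReal (μ := 0) (v := 1)) c
    congr 1
    simpa [mgf] using this.symm
  have h1 : ∀ y : Cube n, hv β x ⬝ᵥ hv β y = (β / √(n : ℝ) * (sv x ⬝ᵥ sv y)) ^ 2 / 2 := fun y => by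
    rw [hv_dot hn, mul_pow, div_pow, Real.sq_sqrt hn'.le]
    field_simp
  have h2 := lintegral_exp_sq (θ := β ^ 2 / 2) (by linarith)
  rw [mul_div_cancel₀ _ two_ne_zero] at h2
  rw [← ENNReal.ofReal_le_ofReal_iff (by positivity),
    ENNReal.ofReal_sum_of_nonneg fun _ _ => (Real.exp_pos _).le]
  simp only [h1, h0]
  rw [← lintegral_finsetSum _ fun y _ => by fun_prop, ENNReal.ofReal_mul (by positivity), ← h2,
    ← lintegral_const_mul' _ _ ENNReal.ofReal_ne_top]
  refine lintegral_mono fun t => ?_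
  rw [← ENNReal.ofReal_sum_of_nonneg fun _ _ => (Real.exp_pos _).le,
    ← ENNReal.ofReal_mul (by positivity)]
  refine ENNReal.ofReal_le_ofReal ?_
  have h3 := sum_exp_le (β / √(n : ℝ) * t) x
  have h4 : (n : ℝ) * ((β / √(n : ℝ) * t) ^ 2 / 2) = β ^ 2 / 2 * t ^ 2 := by
    rw [mul_pow, div_pow, Real.sq_sqrt hn'.le]
    field_simp
  rw [h4] at h3
  refine le_trans (le_of_eq (Finset.sum_congr rfl fun y _ => ?_)) h3
  congr 1
  ring

/-- Paley-Zygmund. -/
lemma paley {E : Type} [MeasurableSpace E] {μ : Measure E} [IsProbabilityMeasure μ] {Z : E → ℝ}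
    (hm : Measurable Z) (h1 : Integrable Z μ) (h2 : Integrable (fun x => Z x ^ 2) μ) {m K : ℝ}
    (hm0 : 0 < m) (hK : 0 < K) (e1 : ∫ x, Z x ∂μ = m) (e2 : ∫ x, Z x ^ 2 ∂μ ≤ K * m ^ 2) :
    μ {x | m / 2 ≤ Z x}ᶜ ≤ ENNReal.ofReal (1 - 1 / (4 * K)) := by
  have hS : MeasurableSet {x | m / 2 ≤ Z x} := measurableSet_le measurable_const hm
  have hI : Integrable ({x | m / 2 ≤ Z x}.indicator fun _ => K * m) μ :=
    (integrable_const _).indicator hS
  have h3 : ∫ x, Z x ∂μ ≤ ∫ x, (m / 2 + (1 / (4 * K * m) * Z x ^ 2 +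
      {x | m / 2 ≤ Z x}.indicator (fun _ => K * m) x)) ∂μ := by
    refine integral_mono h1 ((integrable_const _).add ((h2.const_mul _).add hI)) fun x => ?_
    have h4 : 0 ≤ 1 / (4 * K * m) * Z x ^ 2 := by positivity
    by_cases hx : m / 2 ≤ Z x
    · beta_reduce
      rw [Set.indicator_of_mem (by exact hx)]
      have h5 : Z x ≤ 1 / (4 * K * m) * Z x ^ 2 + K * m := by
        have h6 : 1 / (4 * K * m) * Z x ^ 2 + K * m - Z x =
            (Z x - 2 * K * m) ^ 2 / (4 * K * m) := by field_simp; ring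
        have h7 : 0 ≤ (Z x - 2 * K * m) ^ 2 / (4 * K * m) := by positivity
        linarith
      linarith
    · beta_reduce
      rw [Set.indicator_of_notMem (by exact hx)]
      linarith [not_le.1 hx]
  have hJ : Integrable (fun x => 1 / (4 * K * m) * Z x ^ 2 +
      {x | m / 2 ≤ Z x}.indicator (fun _ => K * m) x) μ := (h2.const_mul _).add hI
  rw [integral_add (integrable_const _) hJ, integral_add (h2.const_mul _) hI,
    integral_const_mul, integral_indicator_const _ hS, integral_const, e1] at h3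
  simp only [probReal_univ, smul_eq_mul, one_mul] at h3
  have h4 : 1 / (4 * K * m) * ∫ x, Z x ^ 2 ∂μ ≤ m / 4 := by
    refine (mul_le_mul_of_nonneg_left e2 (by positivity)).trans (le_of_eq ?_)
    field_simp
  have h5 : 1 / (4 * K) ≤ μ.real {x | m / 2 ≤ Z x} := by
    rw [div_le_iff₀ (by positivity)]
    nlinarith
  rw [← ofReal_measureReal (measure_ne_top _ _), probReal_compl_eq_one_sub hS]
  exact ENNReal.ofReal_le_ofReal (by linarith)

lemma half_prob (hn : 0 < n) {β : ℝ} (hβ : β ^ 2 < 1) :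
    gp (Fin n × Fin n) {X | 2 ^ n * Real.exp (β ^ 2 * n / 4) / 2 ≤
      ∑ x : Cube n, Real.exp (hv β x ⬝ᵥ X)}ᶜ ≤ ENNReal.ofReal (1 - √(1 - β ^ 2) / 4) := by
  have hs : 0 < √(1 - β ^ 2) := Real.sqrt_pos.2 (by linarith)
  have e0 : ∀ X : Fin n × Fin n → ℝ, (∑ x : Cube n, Real.exp (hv β x ⬝ᵥ X)) ^ 2 =
      ∑ x : Cube n, ∑ y : Cube n, Real.exp ((hv β x + hv β y) ⬝ᵥ X) := fun X => by
    rw [sq, Finset.sum_mul_sum]
    simp only [add_dotProduct, Real.exp_add]
  have hI : ∀ x : Cube n, Integrable (fun X => ∑ y : Cube n, Real.exp ((hv β x + hv β y) ⬝ᵥ X))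
      (gp (Fin n × Fin n)) := fun x => integrable_finsetSum _ fun y _ => integrable_exp_dot _
  have h := paley (μ := gp (Fin n × Fin n)) (Z := fun X => ∑ x : Cube n, Real.exp (hv β x ⬝ᵥ X))
    (m := 2 ^ n * Real.exp (β ^ 2 * n / 4)) (K := 1 / √(1 - β ^ 2))
    (Continuous.measurable (by fun_prop)) (integrable_finsetSum _ fun y _ => integrable_exp_dot _)
    (by simp only [e0]; exact integrable_finsetSum _ fun x _ => hI x) (by positivity)
    (by positivity) (by
      rw [integral_finsetSum _ fun y _ => integrable_exp_dot _]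
      simp only [integral_exp_dot, hv_self hn]
      rw [Finset.sum_const, Finset.card_univ, nsmul_eq_mul]
      congr 2
      · simp
      · ring) (by
      simp only [e0]
      rw [integral_finsetSum _ fun x _ => hI x]
      have h1 : ∀ x : Cube n, ∫ X, ∑ y : Cube n, Real.exp ((hv β x + hv β y) ⬝ᵥ X)
          ∂gp (Fin n × Fin n) ≤
          Real.exp (β ^ 2 * n / 4) ^ 2 * (2 ^ n * (1 / √(1 - β ^ 2))) := fun x => by
        rw [integral_finsetSum _ fun y _ => integrable_exp_dot _]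
        refine le_trans (le_of_eq ?_)
          (mul_le_mul_of_nonneg_left (sum_exp_sq_le hn hβ x) (by positivity))
        rw [Finset.mul_sum]
        refine Finset.sum_congr rfl fun y _ => ?_
        rw [integral_exp_dot, sq, ← Real.exp_add, ← Real.exp_add, add_dotProduct, dotProduct_add,
          dotProduct_add, hv_self hn, hv_self hn, dotProduct_comm (hv β y)]
        congr 1
        ring
      refine (Finset.sum_le_sum fun x _ => h1 x).trans (le_of_eq ?_)
      rw [Finset.sum_const, Finset.card_univ, nsmul_eq_mul]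
      have : (Fintype.card (Cube n) : ℝ) = 2 ^ n := by simp
      rw [this]
      ring)
  have e : 1 / (4 * (1 / √(1 - β ^ 2))) = √(1 - β ^ 2) / 4 := by field_simp
  rwa [e] at h

lemma tendsto_exp' {c : ℝ} (hc : 0 < c) :
    Tendsto (fun n : ℕ => Real.exp (-(c * n))) atTop (𝓝 0) :=
  Real.tendsto_exp_neg_atTop_nhds_zero.comp (tendsto_natCast_atTop_atTop.const_mul_atTop hc)

end PathAux

open PathAux

/-- `wJ (goe β X) x = exp (h ⬝ X)` with `h (p,q) = β / sqrt (2n) * x_p x_q`, `h ⬝ h = β² n / 2`, and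
`goe β (X + h) = plant β x X`. -/
theorem plant_shift (hn : 0 < n) (β : ℝ) (x : Cube n) (P : Mat n → Prop) :
    ∃ A : Set (Fin n × Fin n → ℝ), MeasurableSet A ∧ {X | P (goe β X)} ⊆ A ∧
      ∫⁻ X in A, ENNReal.ofReal (wJ (goe β X) x) ∂gp (Fin n × Fin n) =
        ENNReal.ofReal (Real.exp (β ^ 2 * n / 4)) * gp (Fin n × Fin n) {X | P (plant β x X)} := by
  set T := toMeasurable (gp (Fin n × Fin n)) {X | P (plant β x X)} with hT
  have hTm : MeasurableSet T := measurableSet_toMeasurable _ _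
  have hA : MeasurableSet {X | X - hv β x ∈ T} := (measurable_id.sub_const _) hTm
  refine ⟨{X | X - hv β x ∈ T}, hA, fun X hX => subset_toMeasurable _ _ ?_, ?_⟩
  · change P (plant β x (X - hv β x))
    rwa [← goe_add hn, sub_add_cancel]
  · have h := lintegral_shift (hv β x) (F := {X | X - hv β x ∈ T}.indicator 1)
      (measurable_one.indicator hA)
    have e1 : ∀ X, {X | X - hv β x ∈ T}.indicator (1 : (Fin n × Fin n → ℝ) → ℝ≥0∞) (X + hv β x) =
        T.indicator 1 X := fun X => by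
      by_cases hX : X ∈ T
      · rw [Set.indicator_of_mem hX, Set.indicator_of_mem (by simpa using hX)]; rfl
      · rw [Set.indicator_of_notMem hX, Set.indicator_of_notMem (by simpa using hX)]
    simp only [e1] at h
    rw [lintegral_indicator_one hTm, hT, measure_toMeasurable] at h
    rw [h, ← lintegral_const_mul' _ _ ENNReal.ofReal_ne_top, ← lintegral_indicator hA]
    refine lintegral_congr fun X => ?_
    by_cases hX : X ∈ {X | X - hv β x ∈ T}
    · rw [Set.indicator_of_mem hX, Set.indicator_of_mem hX, Pi.one_apply, one_mul,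
        ← ENNReal.ofReal_mul (Real.exp_pos _).le, ← Real.exp_add, wJ_goe, hv_self hn]
      congr 2
      ring
    · rw [Set.indicator_of_notMem hX, Set.indicator_of_notMem hX, zero_mul, mul_zero]

/-- Second moment: `E Z² / (E Z)² = E exp (β² S² / (2n)) = E cosh (β g / sqrt n)^n ≤ (1-β²)^{-1/2}`;
Paley-Zygmund, then `conc_set` with radius `n^{1/4}` and
`|x ⬝ (J - J₀) x| ≤ n fro (J - J₀)`. -/
theorem rm_part {β e : ℝ} (hβ : 0 < β) (hβ1 : β < 1) (he : 0 < e) :
    WHP β fun n J => 2 ^ n * Real.exp (β ^ 2 * n / 4 - e * n) ≤ ∑ x, wJ J x := by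
  have hb : β ^ 2 < 1 := pow_lt_one₀ hβ.le hβ1 two_ne_zero
  have hs : 0 < √(1 - β ^ 2) := Real.sqrt_pos.2 (by linarith)
  have hs1 : √(1 - β ^ 2) ≤ 1 := Real.sqrt_le_one.2 (by nlinarith)
  refine WHP.of_le (a := fun n => Real.exp (-(e ^ 2 / 16 * n)) / (√(1 - β ^ 2) / 4))
    (by simpa using (tendsto_exp' (c := e ^ 2 / 16) (by positivity)).div_const _) ?_
  filter_upwards [eventually_gt_atTop 0,
    tendsto_natCast_atTop_atTop.eventually_ge_atTop (2 / e : ℝ)] with n hn hn2
  have hn' : (0 : ℝ) < n := Nat.cast_pos.2 hn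
  have hq := Real.sqrt_pos.2 hn'
  have h := conc_set _ (p := √(1 - β ^ 2) / 4) (r := e * √(n : ℝ) / 2) (by positivity)
    (by linarith) (by positivity) (half_prob hn hb)
  have e1 : -(e * √(n : ℝ) / 2) ^ 2 / 4 = -(e ^ 2 / 16 * n) := by
    rw [div_pow, mul_pow, Real.sq_sqrt hn'.le]; ring
  rw [e1] at h
  refine le_trans (measure_mono ?_) h
  intro X hX Y hY
  by_contra hlt
  refine hX ?_
  have h1 : ∀ x : Cube n, Real.exp (hv β x ⬝ᵥ Y) * Real.exp (-(e * n / 2)) ≤
      Real.exp (hv β x ⬝ᵥ X) := fun x => by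
    rw [← Real.exp_add]
    refine Real.exp_le_exp.2 ?_
    have h2 := dot_le (hv β x) (Y - X)
    have h3 : vn (hv β x) ≤ √(n : ℝ) := by
      refine Real.le_sqrt_of_sq_le ?_
      rw [← dot_self, hv_self hn]
      nlinarith
    have h4 : vn (Y - X) ≤ e * √(n : ℝ) / 2 := by rw [vn_sub_comm]; exact (not_le.1 hlt).le
    have h5 := mul_le_mul h3 h4 (vn_nonneg _) hq.le
    have h6 : √(n : ℝ) * (e * √(n : ℝ) / 2) = e * n / 2 := by
      nth_rewrite 3 [← Real.mul_self_sqrt hn'.le]; ring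
    rw [dotProduct_sub] at h2
    linarith
  have h7 : 2 ≤ Real.exp (e * n / 2) := by
    rw [div_le_iff₀ he] at hn2
    linarith [Real.add_one_le_exp (e * n / 2)]
  have h8 : Real.exp (β ^ 2 * n / 4 - e * n) * Real.exp (e * n / 2) =
      Real.exp (β ^ 2 * n / 4) * Real.exp (-(e * n / 2)) := by
    rw [← Real.exp_add, ← Real.exp_add]; congr 1; ring
  simp only [wJ_goe]
  refine le_trans ?_ (Finset.sum_le_sum fun x _ => h1 x)
  rw [← Finset.sum_mul]
  refine le_trans ?_ (mul_le_mul_of_nonneg_right hY (Real.exp_pos _).le)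
  have h9 := mul_le_mul_of_nonneg_left h7 (Real.exp_pos (β ^ 2 * n / 4 - e * n)).le
  have h10 : (0 : ℝ) < 2 ^ n := by positivity
  nlinarith

/-- Markov's inequality for `∑_x wJ J x * ∑_l fw … (ind (P J θ))`, using `fw_repr` (the weights and
points do not depend on `J`) and `plant_shift`. -/
theorem rm_path {β c : ℝ} (hβ : 0 < β) (hβ1 : β < 1) (hc : 0 < c)
    (Q : ∀ n : ℕ, Mat n → Prop) (P : ∀ n : ℕ, Mat n → Vec n → Prop)
    (h : ∀ᶠ n : ℕ in atTop, ∀ (x : Cube n) (y : Vec n),
      gp (Fin n × Fin n) {X | Q n (plant β x X) ∧ P n (plant β x X) y} ≤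
        ENNReal.ofReal (Real.exp (-(c * n))))
    (ε : ℕ → ℝ) (N : ℕ → ℕ) (hN : ∀ᶠ n : ℕ in atTop, (N n : ℝ) + 1 ≤ Real.exp (c * n / 8)) :
    WHP β fun n J => Q n J → ∑ l ∈ Finset.range (N n + 1),
      pe (wJ J) (ε n) (fun _ => 1) 0 l 0 (fun _ θ => ind (P n J θ)) ≤ Real.exp (-(c * n / 2)) := by
  have key : WHP β fun n J => Q n J → ∑ x, wJ J x * ∑ l ∈ Finset.range (N n + 1),
      fw (ε n) (fun _ => 1) x (fun θ => ind (P n J θ)) l 0 0 <
        2 ^ n * Real.exp (β ^ 2 * n / 4 - 5 * c / 8 * n) := by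
    refine WHP.of_le (tendsto_exp' (c := c / 4) (by positivity)) ?_
    filter_upwards [eventually_gt_atTop 0, h, hN] with n hn h1 h2
    choose T inst p y hp hs hfw using fun (x : Cube n) (l : ℕ) =>
      fw_repr (ε := ε n) (fun _ => 1) x l 0 0
    choose A hA hA1 hA2 using fun (x : Cube n) (l : ℕ) (t : T x l) =>
      plant_shift hn β x (fun J => Q n J ∧ P n J (y x l t))
    have hw : ∀ x : Cube n, Measurable fun X => ENNReal.ofReal (wJ (goe β X) x) := fun x => by
      simp only [wJ_goe]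
      exact Continuous.measurable (by fun_prop) |>.ennreal_ofReal
    set G : (Fin n × Fin n → ℝ) → ℝ≥0∞ := fun X => ∑ x, ∑ l ∈ Finset.range (N n + 1), ∑ t,
      ENNReal.ofReal (p x l t) *
        (A x l t).indicator (fun X => ENNReal.ofReal (wJ (goe β X) x)) X with hG
    have m1 : ∀ x l t, Measurable fun X => ENNReal.ofReal (p x l t) *
        (A x l t).indicator (fun X => ENNReal.ofReal (wJ (goe β X) x)) X := fun x l t =>
      ((hw x).indicator (hA x l t)).const_mul _
    have m2 : ∀ x l, Measurable fun X => ∑ t, ENNReal.ofReal (p x l t) *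
        (A x l t).indicator (fun X => ENNReal.ofReal (wJ (goe β X) x)) X := fun x l =>
      Finset.measurable_fun_sum _ fun t _ => m1 x l t
    have m3 : ∀ x, Measurable fun X => ∑ l ∈ Finset.range (N n + 1), ∑ t, ENNReal.ofReal (p x l t) *
        (A x l t).indicator (fun X => ENNReal.ofReal (wJ (goe β X) x)) X := fun x =>
      Finset.measurable_fun_sum _ fun l _ => m2 x l
    have m4 : Measurable G := Finset.measurable_fun_sum _ fun x _ => m3 x
    set u : ℝ := Real.exp (β ^ 2 * n / 4) * Real.exp (-(c * n)) with hu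
    have hu0 : 0 ≤ u := by positivity
    have i1 : ∀ x l, ∫⁻ X, ∑ t, ENNReal.ofReal (p x l t) *
        (A x l t).indicator (fun X => ENNReal.ofReal (wJ (goe β X) x)) X ∂gp (Fin n × Fin n) ≤
        ENNReal.ofReal u := fun x l => by
      rw [lintegral_finsetSum _ fun t _ => m1 x l t]
      calc _ ≤ ∑ t, ENNReal.ofReal (p x l t * u) := Finset.sum_le_sum fun t _ => by
            rw [lintegral_const_mul' _ _ ENNReal.ofReal_ne_top, lintegral_indicator (hA x l t),
              hA2, ENNReal.ofReal_mul (hp x l t), hu, ENNReal.ofReal_mul (Real.exp_pos _).le]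
            exact mul_le_mul_right (mul_le_mul_right (h1 x _) _) _
        _ = _ := by
            rw [← ENNReal.ofReal_sum_of_nonneg fun t _ => mul_nonneg (hp x l t) hu0,
              ← Finset.sum_mul, hs, one_mul]
    have i2 : ∫⁻ X, G X ∂gp (Fin n × Fin n) ≤ ENNReal.ofReal (2 ^ n * ((N n + 1) * u)) := by
      rw [lintegral_finsetSum _ fun x _ => m3 x]
      calc _ ≤ ∑ _x : Cube n, ∑ _l ∈ Finset.range (N n + 1), ENNReal.ofReal u :=
            Finset.sum_le_sum fun x _ => by
              rw [lintegral_finsetSum _ fun l _ => m2 x l]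
              exact Finset.sum_le_sum fun l _ => i1 x l
        _ = _ := by
            rw [← ENNReal.ofReal_sum_of_nonneg fun _ _ => hu0,
              ← ENNReal.ofReal_sum_of_nonneg fun _ _ => Finset.sum_nonneg fun _ _ => hu0]
            simp
    have hth : (0 : ℝ) < 2 ^ n * Real.exp (β ^ 2 * n / 4 - 5 * c / 8 * n) := by positivity
    refine le_trans (measure_mono (t := {X | ENNReal.ofReal
      (2 ^ n * Real.exp (β ^ 2 * n / 4 - 5 * c / 8 * n)) ≤ G X}) fun X hX => ?_)
      ((meas_ge_le_lintegral_div m4.aemeasurable (ENNReal.ofReal_pos.2 hth).ne'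
        ENNReal.ofReal_ne_top).trans ?_)
    · simp only [Set.mem_ofPred_eq, Classical.not_imp, not_lt] at hX ⊢
      refine (ENNReal.ofReal_le_ofReal hX.2).trans ?_
      have f0 : ∀ x l t, 0 ≤ p x l t * (ind (P n (goe β X) (y x l t)) * wJ (goe β X) x) :=
        fun x l t => mul_nonneg (hp x l t) (mul_nonneg (ind_nonneg _) (wJ_pos _ _).le)
      have f1 : ∀ x, wJ (goe β X) x * ∑ l ∈ Finset.range (N n + 1),
          fw (ε n) (fun _ => 1) x (fun θ => ind (P n (goe β X) θ)) l 0 0 =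
          ∑ l ∈ Finset.range (N n + 1), ∑ t,
            p x l t * (ind (P n (goe β X) (y x l t)) * wJ (goe β X) x) := fun x => by
        rw [Finset.mul_sum]
        refine Finset.sum_congr rfl fun l _ => ?_
        rw [hfw, Finset.mul_sum]
        exact Finset.sum_congr rfl fun t _ => by ring
      simp only [f1]
      rw [ENNReal.ofReal_sum_of_nonneg fun x _ =>
        Finset.sum_nonneg fun l _ => Finset.sum_nonneg fun t _ => f0 x l t]
      refine Finset.sum_le_sum fun x _ => ?_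
      rw [ENNReal.ofReal_sum_of_nonneg fun l _ => Finset.sum_nonneg fun t _ => f0 x l t]
      refine Finset.sum_le_sum fun l _ => ?_
      rw [ENNReal.ofReal_sum_of_nonneg fun t _ => f0 x l t]
      refine Finset.sum_le_sum fun t _ => ?_
      rw [ENNReal.ofReal_mul (hp x l t)]
      refine mul_le_mul_right ?_ _
      by_cases hP : P n (goe β X) (y x l t)
      · rw [ind_pos hP, one_mul, Set.indicator_of_mem (hA1 x l t ⟨hX.1, hP⟩)]
      · rw [ind_neg hP, zero_mul, ENNReal.ofReal_zero]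
        exact zero_le
    · refine (ENNReal.div_le_div_right i2 _).trans ?_
      rw [← ENNReal.ofReal_div_of_pos hth]
      refine ENNReal.ofReal_le_ofReal ?_
      rw [div_le_iff₀ hth]
      have e1 : Real.exp (-(c / 4 * n)) * (2 ^ n * Real.exp (β ^ 2 * n / 4 - 5 * c / 8 * n)) =
          2 ^ n * (Real.exp (c * n / 8) * u) := by
        rw [hu, mul_left_comm, ← Real.exp_add, ← Real.exp_add, ← Real.exp_add]
        congr 2
        ring
      rw [e1]
      exact mul_le_mul_of_nonneg_left (mul_le_mul_of_nonneg_right h2 hu0) (by positivity)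
  refine (key.and (rm_part hβ hβ1 (e := c / 8) (by positivity))).mono
    (Eventually.of_forall fun n J _ hJ hQ => ?_)
  have h1 := hJ.1 hQ
  have h2 := hJ.2
  have hth : (0 : ℝ) < 2 ^ n * Real.exp (β ^ 2 * n / 4 - c / 8 * n) := by positivity
  have hZ : 0 < ∑ x, wJ J x := hth.trans_le h2
  have e1 : ∑ l ∈ Finset.range (N n + 1),
      pe (wJ J) (ε n) (fun _ => 1) 0 l 0 (fun _ θ => ind (P n J θ)) =
      (∑ x, wJ J x * ∑ l ∈ Finset.range (N n + 1),
        fw (ε n) (fun _ => 1) x (fun θ => ind (P n J θ)) l 0 0) / ∑ x, wJ J x := by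
    simp only [pe, tilt, wts, zero_dotProduct, Real.exp_zero, mul_one]
    rw [Finset.sum_comm, Finset.sum_div]
    refine Finset.sum_congr rfl fun x _ => ?_
    rw [← Finset.mul_sum]
    ring
  rw [e1, div_le_iff₀ hZ]
  refine h1.le.trans (le_trans (le_of_eq ?_) (mul_le_mul_of_nonneg_left h2 (Real.exp_pos _).le))
  rw [mul_left_comm, ← Real.exp_add]
  congr 2
  ring

end Vale.Agent.P150
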