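import Vale.Agent.P150.CountEAux

/-! Expected volume of bad approximate solutions. -/

open MeasureTheory ProbabilityTheory Matrix Filter Topology
open scoped ENNReal NNReal

namespace Vale.Agent.P150

variable {n : ℕ}

theorem isOpen_ex {E ι : Type} [TopologicalSpace E] {f : ι → E → Prop}
    (h : ∀ i, IsOpen {x | f i x}) : IsOpen {x | ∃ i, f i x} := by
  rw [Set.ofPred_exists]
  exact isOpen_iUnion h

theorem isOpen_volO (β : ℝ) (x : Cube n) (y : Vec n) (a q c b η e : ℝ) :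
    IsOpen {p : (Fin n × Fin n → ℝ) × Vec n | p.2 ∈ volO β x y a q c b η e p.1} := by
  have hm : Continuous fun p : (Fin n × Fin n → ℝ) × Vec n => mag p.2 :=
    continuous_mag.comp continuous_snd
  have hmm := hm.dotProduct hm
  have hg := hm.dotProduct (((continuous_goe β).comp continuous_fst).matrix_mulVec hm)
  have hh : ∀ H' u : Vec n,
      Continuous fun p : (Fin n × Fin n → ℝ) × Vec n => hess β 1 (plant β x p.1) H' u :=
    fun H' u => (continuous_const.sub (continuous_const.mul (continuous_const.dotProduct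
      (((CountEAux.continuous_plant β x).comp continuous_fst).matrix_mulVec
        continuous_const)))).sub continuous_const
  have h4 : ∀ H' u : Vec n, IsOpen {p : (Fin n × Fin n → ℝ) × Vec n |
      hess β 1 (plant β x p.1) H' u < c * (u ⬝ᵥ u)} :=
    fun H' u => isOpen_lt (hh H' u) continuous_const
  exact (isOpen_lt (continuous_vn.comp (CountEAux.continuous_res β b x y)) continuous_const).inter
    ((isOpen_lt hg (continuous_const.mul hmm)).inter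
      ((isOpen_lt (continuous_const.mul hmm).neg hg).inter (isOpen_ex fun H' => isOpen_ex fun u =>
        (isOpen_lt (continuous_vn.comp (continuous_const.sub continuous_snd))
          continuous_const).inter (isOpen_const.inter (isOpen_const.inter (h4 H' u))))))

namespace CountEAux

open Classical in
/-- The grid of rounded values of `Λ` away from `b`. -/
noncomputable def gridJ (β' b m D : ℝ) : Finset ℕ :=
  (Finset.range (⌊4 / m⌋₊ + 1)).filter fun j => D ≤ |-3 + m * j - b| ∧ -3 + m * j ≤ β'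

/-- The dominating function. -/
noncomputable def dom (β β' b γ₁ γ₂ e sA sB c τ R m D : ℝ) (x y H : Vec n) : ℝ≥0∞ :=
  ∑ k ∈ Finset.range (⌊2 / m⌋₊ + 1),
    (fB β b γ₂ sB c τ R x (y + (β ^ 2 * (-1 + m * k)) • x) H +
      ∑ j ∈ gridJ β' b m D, fA β b γ₁ e sA (-3 + m * j) (y + (β ^ 2 * (-1 + m * k)) • x) H)

lemma dominate (hn : 0 < n) {β β' b γ₁ γ₂ e e' sA sB c τ R m D v₀ v Λ : ℝ} (hβ : 0 < β)
    (hβ1 : β ^ 2 ≤ 1) (hβ' : β' < 1) (hb : 0 ≤ b) (hb' : b ≤ β ^ 2) (hv₀ : 0 < v₀) (hγ₁ : 0 < γ₁)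
    (hγ₂ : 0 < γ₂) (hm : 0 < m) (hmD : m ≤ D) (hme : m ≤ e') (he₁ : 4 * e ≤ γ₁ / 2)
    (he₂ : 4 * e ≤ γ₂ / 2)
    (hsA : 3 * m / β ^ 2 + γ₁ / v₀ + (m + m) ^ 2 / γ₁ ≤ sA)
    (hsB : 2 * D + γ₂ / v₀ + (m + 2 * D) ^ 2 / γ₂ ≤ sB) (x : Cube n) (y H : Vec n)
    (hv : v₀ ≤ v) (hv' : |v - (β ^ 2 - b)| ≤ 4 * e) (hons : |ons β (mag H) - b| ≤ 3 * e)
    (h1 : -3 ≤ Λ) (h2 : Λ ≤ β') {P : ℝ≥0∞} (hP1 : P ≤ 1)
    (hP : ∀ V, vn (wv β b (sv x) y H - V - b • mag H) ≤ e' * √(n : ℝ) →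
      Typ τ R (sv x) H V (β ^ 2 - b + γ₂) → P ≤ ENNReal.ofReal (Real.exp (-(c * n)))) :
    ENNReal.ofReal ((∏ i, phi v ((wv β b (sv x) y H - Λ • mag H) i)) *
        Real.exp (-(n * Λ ^ 2 / (2 * β ^ 2)))) * P ≤
      dom β β' b γ₁ γ₂ (3 * e / β ^ 2) sA sB c τ R m D (sv x) y H := by
  have hp : 0 < β ^ 2 := by positivity
  have hμ := abs_le.1 (abs_mu_le x H)
  obtain ⟨k, hk, k1, k2⟩ := round (lo := -1) (R := 2) hm hμ.1 (by linarith [hμ.2])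
  have k3 : |sv x ⬝ᵥ mag H / n - (-1 + m * k)| ≤ m := by rwa [abs_of_nonneg k1]
  refine le_trans ?_ (Finset.single_le_sum (f := fun k : ℕ =>
    fB β b γ₂ sB c τ R (sv x) (y + (β ^ 2 * (-1 + m * k)) • sv x) H +
      ∑ j ∈ gridJ β' b m D, fA β b γ₁ (3 * e / β ^ 2) sA (-3 + m * j)
        (y + (β ^ 2 * (-1 + m * k)) • sv x) H) (fun _ _ => zero_le) hk)
  by_cases hc : |Λ - b| ≤ 2 * D
  · refine le_trans ?_ le_self_add
    have h3 := point (t := sB - b ^ 2 / (2 * β ^ 2)) (Δ := 0) (d := 2 * D) (Λ := Λ) hβ1 hv₀ hv hγ₂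
      hv' he₂ x y H k3
      (by rwa [sub_zero]) (by
        have e1 : b ^ 2 / (2 * β ^ 2) - Λ ^ 2 / (2 * β ^ 2) ≤ 2 * D := by
          rw [← sub_div, div_le_iff₀ (by positivity)]
          have e2 := mul_le_mul_of_nonneg_left (abs_le.1 hc).1 hb
          have e3 := mul_le_mul_of_nonneg_right hb' (hm.le.trans hmD)
          nlinarith [sq_nonneg (Λ - b)]
        linarith)
    simp only [zero_smul, sub_zero] at h3
    refine (mul_le_mul_left (ENNReal.ofReal_le_ofReal h3) _).trans ?_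
    rw [ENNReal.ofReal_mul (Real.exp_pos _).le, mul_assoc, mul_comm _ P]
    refine mul_le_mul_right (mul_le_mul_left ?_ _) _
    by_cases hT : Typ τ R (sv x) H (H - (y + (β ^ 2 * (-1 + m * k)) • sv x)) (β ^ 2 - b + γ₂)
    · refine (hP _ ?_ hT).trans le_self_add
      have h4 := vn_shift hβ1 k3 (t := 0) (d := 0) (by simp) x H
      refine le_trans (le_of_eq (congrArg vn ?_)) (h4.trans
        (mul_le_mul_of_nonneg_right (by linarith) (Real.sqrt_nonneg _)))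
      simp only [wv, mul_sub, sub_smul, zero_smul]
      abel
    · refine hP1.trans (le_trans (le_of_eq ?_) le_add_self)
      exact (Set.indicator_of_mem (s := {H : Vec n | Typ τ R (sv x) H
        (H - (y + (β ^ 2 * (-1 + m * k)) • sv x)) (β ^ 2 - b + γ₂)}ᶜ) hT (1 : Vec n → ℝ≥0∞)).symm
  · refine le_trans ?_ le_add_self
    obtain ⟨j, hj, j1, j2⟩ := round (lo := -3) (R := 4) hm h1 (by linarith)
    have hj' : j ∈ gridJ β' b m D := by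
      refine Finset.mem_filter.2 ⟨hj, ?_, by linarith⟩
      have e1 := abs_sub_le Λ (-3 + m * j) b
      rw [abs_of_nonneg j1] at e1
      linarith [not_le.1 hc]
    refine le_trans ?_ (Finset.single_le_sum (f := fun j : ℕ =>
      fA β b γ₁ (3 * e / β ^ 2) sA (-3 + m * j) (y + (β ^ 2 * (-1 + m * k)) • sv x) H)
      (fun _ _ => zero_le) hj')
    have h3 := point (t := sA - (-3 + m * j) ^ 2 / (2 * β ^ 2)) (Δ := -3 + m * j - b) (d := m)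
      (Λ := Λ) hβ1 hv₀ hv hγ₁ hv' he₁ x y H k3
      (by rwa [sub_sub_sub_cancel_right, abs_of_nonneg j1]) (by
        have e1 : (-3 + m * j) ^ 2 / (2 * β ^ 2) - Λ ^ 2 / (2 * β ^ 2) ≤ 3 * m / β ^ 2 := by
          have e2 : 3 * m / β ^ 2 = 6 * m / (2 * β ^ 2) := by field_simp; ring
          rw [← sub_div, e2]
          refine div_le_div_of_nonneg_right ?_ (by positivity)
          have e3 : 0 ≤ m * j * (Λ - (-3 + m * j)) := by positivity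
          nlinarith [sq_nonneg (Λ - (-3 + m * j))]
        linarith)
    refine (mul_le_mul' (ENNReal.ofReal_le_ofReal h3) hP1).trans ?_
    rw [mul_one, ENNReal.ofReal_mul (Real.exp_pos _).le, fA, Set.indicator_of_mem]
    change |avg (dd H) - b / β ^ 2| ≤ 3 * e / β ^ 2
    have e1 : avg (dd H) - b / β ^ 2 = (ons β (mag H) - b) / β ^ 2 := by
      rw [ons_mag hn]; field_simp
    rw [e1, abs_div, abs_of_pos hp]
    exact div_le_div_of_nonneg_right hons hp.le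

lemma lintegral_dom (hn : 0 < n) {β β' b γ₁ γ₂ e sA sB c τ R m D c' : ℝ} (hβ : 0 < β)
    (hββ : β ≤ β') (hβ' : β' < 1) (hb : 0 ≤ b) (hb' : b ≤ β ^ 2) (hγ₁ : 0 < γ₁) (hγ₂ : 0 < γ₂)
    (he : 0 ≤ e) (hm : 0 < m) (hD : 0 ≤ D)
    (hA : sA + e * (5 + 1 / (1 - β')) - (1 - β') * D ^ 2 / (2 * β ^ 2) ≤ -c')
    (hB : sB - c ≤ -c') (x y : Vec n)
    (h : ∀ a, gp (Fin n) {g | ¬ Typ τ R x (a + √(β ^ 2 - b + γ₂) • g) (√(β ^ 2 - b + γ₂) • g)
      (β ^ 2 - b + γ₂)} ≤ ENNReal.ofReal (8 * Real.exp (-(c * n)))) :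
    ∫⁻ H, dom β β' b γ₁ γ₂ e sA sB c τ R m D x y H ≤
      ENNReal.ofReal ((⌊2 / m⌋₊ + 1 : ℕ) * (9 + (⌊4 / m⌋₊ + 1 : ℕ)) *
        Real.exp (n * (-(b ^ 2 / (2 * β ^ 2)) - c'))) := by
  obtain ⟨u, hu⟩ : ∃ u, u = Real.exp (n * (-(b ^ 2 / (2 * β ^ 2)) - c')) := ⟨_, rfl⟩
  have hu0 : 0 ≤ u := hu ▸ (Real.exp_pos _).le
  have hle : ∀ t, t ≤ -c' → Real.exp (n * (-(b ^ 2 / (2 * β ^ 2)) + t)) ≤ u := fun t ht =>
    hu ▸ Real.exp_le_exp.2 (mul_le_mul_of_nonneg_left (by linarith) (Nat.cast_nonneg n))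
  have m1 : ∀ a : Vec n, Measurable fun H => ∑ j ∈ gridJ β' b m D,
      fA β b γ₁ e sA (-3 + m * j) a H :=
    fun a => Finset.measurable_fun_sum _ fun j _ => measurable_fA _ _ _ _ _ _ _
  have i1 : ∀ a : Vec n, ∫⁻ H, (fB β b γ₂ sB c τ R x a H + ∑ j ∈ gridJ β' b m D,
      fA β b γ₁ e sA (-3 + m * j) a H) ≤ ENNReal.ofReal ((9 + (⌊4 / m⌋₊ + 1 : ℕ)) * u) := by
    intro a
    rw [lintegral_add_left (measurable_fB _ _ _ _ _ _ _ _ _),
      lintegral_finsetSum _ fun j _ => measurable_fA _ _ _ _ _ _ _, add_mul,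
      ENNReal.ofReal_add (by positivity) (by positivity)]
    refine add_le_add ((lintegral_fB hb' hγ₂ x a (h a)).trans (ENNReal.ofReal_le_ofReal
      (mul_le_mul_of_nonneg_left (hle _ hB) (by norm_num)))) ?_
    calc _ ≤ ∑ _j ∈ gridJ β' b m D, ENNReal.ofReal u := Finset.sum_le_sum fun j hj => by
          have h1 := (Finset.mem_filter.1 hj).2
          have h2 : 0 ≤ m * j := by positivity
          exact (lintegral_fA hn hβ hββ hβ' hb hb' hγ₁ he (by linarith) h1.2 hD h1.1 a).trans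
            (ENNReal.ofReal_le_ofReal (hle _ hA))
      _ ≤ ∑ _j ∈ Finset.range (⌊4 / m⌋₊ + 1), ENNReal.ofReal u :=
          Finset.sum_le_sum_of_subset (Finset.filter_subset _ _)
      _ = _ := by
          rw [← ENNReal.ofReal_sum_of_nonneg fun _ _ => hu0, Finset.sum_const, Finset.card_range,
            nsmul_eq_mul]
  unfold dom
  rw [lintegral_finsetSum _ fun k _ => (measurable_fB _ _ _ _ _ _ _ _ _).fun_add (m1 _), ← hu]
  refine (Finset.sum_le_sum fun k _ => i1 _).trans (le_of_eq ?_)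
  rw [← ENNReal.ofReal_sum_of_nonneg fun _ _ => by positivity, Finset.sum_const, Finset.card_range,
    nsmul_eq_mul, mul_assoc]

lemma swap_le {β a q₀ c₀ b η e : ℝ} {x : Cube n} {y : Vec n} {G : Vec n → ℝ≥0∞}
    (U : Vec n → Set (Fin n × Fin n → ℝ))
    (hU : ∀ H X, H ∈ volO β x y a q₀ c₀ b η e X → X ∈ U H)
    (h : ∀ H X, H ∈ volO β x y a q₀ c₀ b η e X → ∫⁻ X in U H, ENNReal.ofReal
      (∏ i, phi (η ^ 2) ((wv β b (sv x) y H - goe β X *ᵥ mag H) i)) ∂gp (Fin n × Fin n) ≤ G H) :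
    ∫⁻ X, ∫⁻ H in volO β x y a q₀ c₀ b η e X,
        ENNReal.ofReal (∏ i, phi (η ^ 2) ((tapb b (plant β x X) H - y) i)) ∂volume
        ∂gp (Fin n × Fin n) ≤ ∫⁻ H, G H := by
  have hO := (isOpen_volO β x y a q₀ c₀ b η e).measurableSet
  have hF : Measurable fun p : (Fin n × Fin n → ℝ) × Vec n =>
      ENNReal.ofReal (∏ i, phi (η ^ 2) ((tapb b (plant β x p.1) p.2 - y) i)) :=
    (continuous_finsetProd _ fun i _ => (continuous_phi _).comp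
      ((continuous_apply i).comp (continuous_res β b x y))).measurable.ennreal_ofReal
  have e1 : ∀ X, ∫⁻ H in volO β x y a q₀ c₀ b η e X,
      ENNReal.ofReal (∏ i, phi (η ^ 2) ((tapb b (plant β x X) H - y) i)) =
      ∫⁻ H, (volO β x y a q₀ c₀ b η e X).indicator
        (fun H => ENNReal.ofReal (∏ i, phi (η ^ 2) ((tapb b (plant β x X) H - y) i))) H :=
    fun X => (lintegral_indicator (measurable_prodMk_left hO) _).symm
  simp only [e1]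
  rw [lintegral_lintegral_swap (by exact (hF.indicator hO).aemeasurable)]
  refine lintegral_mono fun H => ?_
  by_cases hH : ∃ X, H ∈ volO β x y a q₀ c₀ b η e X
  · obtain ⟨X₀, hX₀⟩ := hH
    refine le_trans (lintegral_mono fun X => ?_) ((lintegral_indicator_le _ _).trans (h H X₀ hX₀))
    by_cases hX : H ∈ volO β x y a q₀ c₀ b η e X
    · rw [Set.indicator_of_mem hX, Set.indicator_of_mem (hU H X hX), tapb_eq]
    · rw [Set.indicator_of_notMem hX]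
      exact zero_le
  · simp only [not_exists] at hH
    simp only [Set.indicator_of_notMem (hH _), lintegral_zero]
    exact zero_le

lemma small2 {a b : ℝ} (ha : 0 < a) (hb : 0 < b) : ∃ t, 0 < t ∧ t ≤ a ∧ t ≤ b :=
  ⟨min a b, lt_min ha hb, min_le_left _ _, min_le_right _ _⟩

lemma small3 {a b c : ℝ} (ha : 0 < a) (hb : 0 < b) (hc : 0 < c) :
    ∃ t, 0 < t ∧ t ≤ a ∧ t ≤ b ∧ t ≤ c := by
  obtain ⟨s, h0, h1, h2⟩ := small2 ha hb
  obtain ⟨t, h3, h4, h5⟩ := small2 h0 hc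
  exact ⟨t, h3, h4.trans h1, h4.trans h2, h5⟩

lemma consts {β β' v₀ c₁ e' e₁ : ℝ} (hβ : 0 < β) (hβ' : β' < 1) (hv₀ : 0 < v₀) (hc₁ : 0 < c₁)
    (he' : 0 < e') (he₁ : 0 < e₁) :
    ∃ γ₁ γ₂ D m e₀ c sA sB : ℝ, 0 < γ₁ ∧ 0 < γ₂ ∧ 0 < D ∧ 0 < m ∧ 0 < e₀ ∧ 0 < c ∧ m ≤ D ∧
      m ≤ e' ∧ 4 * e₀ ≤ γ₁ / 2 ∧ 4 * e₀ ≤ γ₂ / 2 ∧ e₀ ≤ e₁ ∧ e₀ ≤ 1 ∧ 3 * e₀ + γ₂ ≤ e' ∧ γ₂ ≤ 1 ∧
      3 * m / β ^ 2 + γ₁ / v₀ + (m + m) ^ 2 / γ₁ ≤ sA ∧
      2 * D + γ₂ / v₀ + (m + 2 * D) ^ 2 / γ₂ ≤ sB ∧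
      sA + 3 * e₀ / β ^ 2 * (5 + 1 / (1 - β')) - (1 - β') * D ^ 2 / (2 * β ^ 2) ≤ -(2 * c) ∧
      sB - c₁ ≤ -(2 * c) := by
  have hp : 0 < β ^ 2 := by positivity
  have hb : 0 < 1 - β' := by linarith
  obtain ⟨γ₂, hγ₂, g1, g2, g3⟩ := small3 (a := c₁ / 8 * v₀) (b := e' / 2) (by positivity)
    (by positivity) one_pos
  obtain ⟨D, hD, d1, d2, d3⟩ := small3 (a := c₁ / 16) (b := c₁ / 72 * γ₂) (by positivity)
    (by positivity) one_pos
  obtain ⟨cA, hcAe⟩ : ∃ cA, cA = (1 - β') * D ^ 2 / (2 * β ^ 2) := ⟨_, rfl⟩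
  have hcA : 0 < cA := by rw [hcAe]; positivity
  obtain ⟨γ₁, hγ₁, g4, -⟩ := small2 (a := cA / 8 * v₀) (by positivity) one_pos
  obtain ⟨m', hm', m1, m2, m3⟩ := small3 hD he' one_pos
  obtain ⟨m, hm, m4, m5, m6⟩ := small3 hm' (b := cA / 24 * β ^ 2) (c := cA / 32 * γ₁)
    (by positivity) (by positivity)
  obtain ⟨L, hLe⟩ : ∃ L, L = 5 + 1 / (1 - β') := ⟨_, rfl⟩
  have hL : 0 < L := by rw [hLe]; positivity
  obtain ⟨e₂, he₂, s4, s5, s6⟩ := small3 (a := e' / 6) (b := γ₁ / 8) (c := γ₂ / 8)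
    (by positivity) (by positivity) (by positivity)
  obtain ⟨e₃, he₃, s7, s8⟩ := small2 one_pos (b := cA / 24 * β ^ 2 / L) (by positivity)
  obtain ⟨e₀, he₀, t1, t2, t3⟩ := small3 he₁ he₂ he₃
  obtain ⟨c, hc, u1, u2⟩ := small2 (a := cA / 4) (b := c₁ / 4) (by positivity) (by positivity)
  have a1 : 3 * m / β ^ 2 ≤ cA / 8 := by rw [div_le_iff₀ hp]; linarith only [m5]
  have a2 : γ₁ / v₀ ≤ cA / 8 := by rwa [div_le_iff₀ hv₀]
  have a3 : (m + m) ^ 2 / γ₁ ≤ cA / 8 := by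
    rw [div_le_iff₀ hγ₁]
    have := mul_le_mul_of_nonneg_left (m4.trans m3) hm.le
    linarith only [this, m6]
  have a4 : γ₂ / v₀ ≤ c₁ / 8 := by rwa [div_le_iff₀ hv₀]
  have a5 : (m + 2 * D) ^ 2 / γ₂ ≤ c₁ / 8 := by
    rw [div_le_iff₀ hγ₂]
    have b1 : (m + 2 * D) ^ 2 ≤ (3 * D) ^ 2 :=
      pow_le_pow_left₀ (by positivity) (by linarith only [m4, m1]) 2
    have b2 := mul_le_mul_of_nonneg_left d3 hD.le
    linarith only [b1, b2, d2]
  have a6 : 3 * e₀ / β ^ 2 * L ≤ cA / 8 := by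
    have := (le_div_iff₀ hL).1 (t3.trans s8)
    rw [div_mul_eq_mul_div, div_le_iff₀ hp]
    linarith only [this]
  refine ⟨γ₁, γ₂, D, m, e₀, c, 3 * cA / 8, 3 * c₁ / 8, hγ₁, hγ₂, hD, hm, he₀, hc, m4.trans m1,
    m4.trans m2, by linarith only [t2, s5], by linarith only [t2, s6], t1, t3.trans s7,
    by linarith only [t2, s4, g2], g3, by linarith only [a1, a2, a3],
    by linarith only [d1, a4, a5], ?_, by linarith only [u2, hc₁]⟩
  rw [← hLe, ← hcAe]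
  linarith only [a6, u1]

lemma inner_le (hn : 0 < n) {β a q₀ b γ₁ γ₂ e₀ e' η sA sB c τ R m D : ℝ} (hβ : 0 < β) (ha : 0 < a)
    (hβa : β + 2 * a < 1) (hq : 0 < q₀) (hb : 0 ≤ b) (hb' : b ≤ β ^ 2) (hγ₁ : 0 < γ₁)
    (hγ₂ : 0 < γ₂) (hm : 0 < m) (hmD : m ≤ D) (hme : m ≤ e') (he₁ : 4 * e₀ ≤ γ₁ / 2)
    (he₂ : 4 * e₀ ≤ γ₂ / 2) (he₃ : e₀ ≤ 1) (hη : 0 < η) (hη0 : η ≤ e₀)
    (hsA : 3 * m / β ^ 2 + γ₁ / (β ^ 2 * (q₀ / 2)) + (m + m) ^ 2 / γ₁ ≤ sA)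
    (hsB : 2 * D + γ₂ / (β ^ 2 * (q₀ / 2)) + (m + 2 * D) ^ 2 / γ₂ ≤ sB) (x : Cube n) (y H : Vec n)
    (k1 : q₀ / 2 ≤ mag H ⬝ᵥ mag H / n) (k2 : |ons β (mag H) - b| ≤ 3 * e₀)
    (k3 : -(6 * (mag H ⬝ᵥ mag H / n)) ≤ mag H ⬝ᵥ wv β b (sv x) y H / n)
    (k4 : mag H ⬝ᵥ wv β b (sv x) y H / n ≤ (2 * β + 3 * a) * (mag H ⬝ᵥ mag H / n))
    {U : Set (Mat n)} (hU : IsOpen U)
    (hP : ∀ V, vn (wv β b (sv x) y H - V - b • mag H) ≤ e' * √(n : ℝ) →
      Typ τ R (sv x) H V (β ^ 2 - b + γ₂) → gp (Fin n × Fin n) {X | prj (mag H) (goe β X) ∈ U} ≤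
        ENNReal.ofReal (Real.exp (-(c * n)))) :
    ∫⁻ X in {X | prj (mag H) (goe β X) ∈ U}, ENNReal.ofReal
      (∏ i, phi (η ^ 2) ((wv β b (sv x) y H - goe β X *ᵥ mag H) i)) ∂gp (Fin n × Fin n) ≤
      dom β (β + 2 * a) b γ₁ γ₂ (3 * e₀ / β ^ 2) sA sB c τ R m D (sv x) y H := by
  have hp : 0 < β ^ 2 := by positivity
  have hb1 : β ^ 2 ≤ 1 := pow_le_one₀ hβ.le (by linarith only [ha, hβa])
  have hq0 : 0 < mag H ⬝ᵥ mag H / n := lt_of_lt_of_le (by positivity) k1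
  obtain ⟨l1, l2⟩ := lam_mem (η := η) hβ ha.le hq0 k3 k4
  have hη2 : η ^ 2 ≤ e₀ := by
    have := mul_le_mul_of_nonneg_left (hη0.trans he₃) hη.le
    linarith only [this, hη0]
  have k5 : β ^ 2 * (mag H ⬝ᵥ mag H / n) = β ^ 2 - ons β (mag H) := by rw [ons]; ring
  have k6 := abs_le.1 k2
  have k7 := mul_le_mul_of_nonneg_left k1 hp.le
  have k8 := sq_nonneg η
  refine (weight_split hn hβ hη _ rfl hq0 rfl rfl hU).trans
    (dominate hn hβ hb1 hβa hb hb' (by positivity) hγ₁ hγ₂ hm hmD hme he₁ he₂ hsA hsB x y H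
      (by linarith only [k7, k8]) ?_ k2 l1 l2 prob_le_one hP)
  rw [abs_le]
  constructor <;> linarith only [k5, k6.1, k6.2, k8, hη2]

end CountEAux

open CountEAux in
/-- Take `c₀, τ` from `cond_hess`, `R, c₃` from `typ_prob`, then `e*, c₂`. Swap the integrals. Fix `H`,
`M = mag H`, `q = M ⬝ M / n`, `μ = avg (x M)`, `W = H - y - β² μ • x + b • M`, so that
`tapb b (plant X) H - y = W - goe X *ᵥ M`. If `H ∈ volO X` then `q ≥ q₀/2`, `|ons M - b| ≤ 3 e`,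
`-6 q ≤ M ⬝ W / n ≤ (2β + 3a) q`, and `prj M (goe X) ∈ badU β x H W (2 c₀) e*` (`quad_prj`; the error
is `12 η / sqrt q ≤ c₀`). Apply `weight_split`; `Λ ∈ [-3, β + 2a]`. Round `μ` and `Λ` down to grids
of mesh `e₅`, `a₀ = y + β² μ₀ • x`, `Δ = Λ₀ - b`, and bound the integrand by a sum over the finitely
many pairs `(μ₀, Λ₀)`. If `|Δ| ≥ Δ₀` use `phi_comp` (variance `β² - b + γ₁`), `tilt_vol` with
`d = b/β²`, and `complexity` with `β' = β + 2a`. If `|Δ| < Δ₀` use `phi_comp` with `z' = H - a₀`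
(variance `v' = β² - b + γ₂`), then `cond_hess` with `V = H - a₀` on `Typ`, and `typ_prob`,
`lintegral_phi_pi` off `Typ`. Choose `γ₂ ≪ min c₂ c₃`, `Δ₀ ≪ γ₂`, `γ₁ ≪ Δ₀²`, `e₅, e₀ ≪ γ₁`. -/
theorem count_fixed {β a q₀ : ℝ} (hβ : 0 < β) (ha : 0 < a) (hβa : β + 2 * a < 1) (hq : 0 < q₀) :
    ∃ c₀ c e₀ : ℝ, 0 < c₀ ∧ 0 < c ∧ 0 < e₀ ∧ ∀ e η : ℝ, 0 < e → e ≤ e₀ → 0 < η → η ≤ e₀ →
      ∀ᶠ n : ℕ in atTop, ∀ (x : Cube n) (y : Vec n) (b : ℝ), 0 ≤ b → b ≤ β ^ 2 →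
        ∫⁻ X, ∫⁻ H in volO β x y a q₀ c₀ b η e X,
            ENNReal.ofReal (∏ i, phi (η ^ 2) ((tapb b (plant β x X) H - y) i)) ∂volume
            ∂gp (Fin n × Fin n) ≤
          ENNReal.ofReal (Real.exp (-(n * (b ^ 2 / (2 * β ^ 2) + c)))) := by
  have hβ1 : β < 1 := by linarith
  have hb1 : β ^ 2 ≤ 1 := pow_le_one₀ hβ.le hβ1.le
  obtain ⟨c₀, τ, hc₀, hτ, hch⟩ := cond_hess hβ hβ1 hq
  obtain ⟨R, c₃, hc₃, htp⟩ := typ_prob hτ
  obtain ⟨e', c₂, he', hc₂, hch⟩ := hch R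
  obtain ⟨c₁, hc₁, hc12, hc13⟩ := small2 hc₂ hc₃
  obtain ⟨e₁, he₁, s1, s2, s3⟩ := small3 (a := q₀ / 8) (b := a * q₀ / 8) (c := c₀ * q₀ / 24)
    (by positivity) (by positivity) (by positivity)
  obtain ⟨γ₁, γ₂, D, m, e₀, c, sA, sB, hγ₁, hγ₂, hD, hm, he₀, hc, hmD, hme, t1, t2, t3, t4, t5, t6,
    hsA, hsB, hA, hB⟩ := consts (v₀ := β ^ 2 * (q₀ / 2)) hβ hβa (by positivity) hc₁ he' he₁
  refine ⟨c₀, c, e₀, hc₀, hc, he₀, fun e η he he0 hη hη0 => ?_⟩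
  filter_upwards [eventually_gt_atTop 0, hch, (Real.tendsto_exp_atTop.comp
    (tendsto_natCast_atTop_atTop.const_mul_atTop hc)).eventually_ge_atTop
      (((⌊2 / m⌋₊ + 1 : ℕ) : ℝ) * (9 + (⌊4 / m⌋₊ + 1 : ℕ)))] with n hn hch hK x y b hb hb'
  have hn0 : (0 : ℝ) ≤ n := Nat.cast_nonneg n
  have hx : ∀ i, |sv x i| ≤ 1 := fun i => (abs_sp _).le
  have hmem := fun H X => mem_facts (e' := e') (e := e) (η := η) (b := b) (x := x) (y := y) (H := H)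
    (X := X) hn hb1 ha.le hc₀.le (by linarith only [he0, t3, s1, hq])
    (by linarith only [he0, t5, hγ₂, he₀]) (hη0.trans (t3.trans s2)) (hη0.trans (t3.trans s1))
    (hη0.trans (t3.trans s3)) hq
  refine (swap_le (G := dom β (β + 2 * a) b γ₁ γ₂ (3 * e₀ / β ^ 2) sA sB c₁ τ R m D (sv x) y)
    (fun H => {X | prj (mag H) (goe β X) ∈ badU β (sv x) H (wv β b (sv x) y H) (2 * c₀) e'})
    (fun H X hX => (hmem H X hX).2) fun H X hX => ?_).trans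
    ((lintegral_dom hn hβ (by linarith only [ha]) hβa hb hb' hγ₁ hγ₂ (by positivity) hm hD.le hA
      hB _ _ fun a₀ => ?_).trans (ENNReal.ofReal_le_ofReal ?_))
  · obtain ⟨k1, k2, k3, k4⟩ := (hmem H X hX).1
    have k5 : β ^ 2 * (mag H ⬝ᵥ mag H / n) = β ^ 2 - ons β (mag H) := by rw [ons]; ring
    have k6 := abs_le.1 k2
    refine inner_le hn hβ ha hβa hq hb hb' hγ₁ hγ₂ hm hmD hme t1 t2 t4 hη hη0 hsA hsB x y H k1
      (by linarith only [k2, he0]) k3 k4 (isOpen_badU _ _ _ _ _ _) fun V hV hT => ?_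
    refine (hch (sv x) H V _ b _ (fun i => sp_sq _) k1 (by linarith only [k2, he0, t5, hγ₂]) ?_ hV
      hT).trans (ENNReal.ofReal_le_ofReal (Real.exp_le_exp.2 (neg_le_neg
        (mul_le_mul_of_nonneg_right hc12 hn0))))
    rw [abs_le]
    constructor <;> linarith only [k5, k6.1, k6.2, he0, t5, hγ₂]
  · refine (htp n (sv x) a₀ _ hx (by linarith only [hb', hγ₂])
      (by linarith only [hb, hb1, t6])).trans (ENNReal.ofReal_le_ofReal ?_)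
    exact mul_le_mul_of_nonneg_left (Real.exp_le_exp.2 (neg_le_neg
      (mul_le_mul_of_nonneg_right hc13 hn0))) (by norm_num)
  · refine (mul_le_mul_of_nonneg_right hK (Real.exp_pos _).le).trans (le_of_eq ?_)
    rw [Function.comp_apply, ← Real.exp_add]
    congr 1
    ring

end Vale.Agent.P150
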