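import Vale.Agent.P150.GaussA
import Vale.Agent.P150.GaussB
import Vale.Agent.P150.GaussC

/-! Sudakov-Fernique comparison with drift. -/

open MeasureTheory ProbabilityTheory Matrix Filter Topology
open scoped ENNReal NNReal

namespace Vale.Agent.P150

namespace SF

section Soft

variable {T : Type} [Fintype T]

/-- Gibbs weights. -/
noncomputable def sm (z : T → ℝ) (t : T) : ℝ := Real.exp (z t) / ∑ s, Real.exp (z s)

/-- Logarithm of the partition sum. -/
noncomputable def lse (z : T → ℝ) : ℝ := Real.log (∑ s, Real.exp (z s))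

variable [Nonempty T]

lemma sum_pos (z : T → ℝ) : 0 < ∑ s, Real.exp (z s) :=
  Finset.sum_pos (fun _ _ => Real.exp_pos _) Finset.univ_nonempty

lemma sm_nonneg (z : T → ℝ) (t : T) : 0 ≤ sm z t :=
  div_nonneg (Real.exp_pos _).le (sum_pos z).le

lemma sum_sm (z : T → ℝ) : ∑ t, sm z t = 1 := by
  simp only [sm]
  rw [← Finset.sum_div, div_self (sum_pos z).ne']

lemma sm_le_one (z : T → ℝ) (t : T) : sm z t ≤ 1 := by
  rw [← sum_sm z]
  exact Finset.single_le_sum (fun s _ => sm_nonneg z s) (Finset.mem_univ t)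

lemma abs_sm_mul_le (z : T → ℝ) (t : T) (c : ℝ) : |sm z t * c| ≤ |c| := by
  rw [abs_mul, abs_of_nonneg (sm_nonneg z t)]
  exact mul_le_of_le_one_left (abs_nonneg _) (sm_le_one z t)

lemma abs_avg_le (z c : T → ℝ) : |∑ t, sm z t * c t| ≤ ∑ t, |c t| :=
  (Finset.abs_sum_le_sum_abs _ _).trans (Finset.sum_le_sum fun t _ => abs_sm_mul_le z t _)

lemma continuous_sm (t : T) : Continuous fun z : T → ℝ => sm z t :=
  Continuous.div (by fun_prop) (by fun_prop) fun z => (sum_pos z).ne'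

lemma continuous_lse : Continuous (lse : (T → ℝ) → ℝ) :=
  Continuous.log (by fun_prop) fun z => (sum_pos z).ne'

omit [Nonempty T] in
lemma hd_sum {y : ℝ → T → ℝ} {y' : T → ℝ} {r : ℝ} (h : ∀ t, HasDerivAt (fun x => y x t) (y' t) r) :
    HasDerivAt (fun x => ∑ s, Real.exp (y x s)) (∑ s, Real.exp (y r s) * y' s) r :=
  HasDerivAt.fun_sum fun s _ => (h s).exp

lemma hd_lse {y : ℝ → T → ℝ} {y' : T → ℝ} {r : ℝ}
    (h : ∀ t, HasDerivAt (fun x => y x t) (y' t) r) :
    HasDerivAt (fun x => lse (y x)) (∑ t, sm (y r) t * y' t) r := by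
  refine ((hd_sum h).log (sum_pos _).ne').congr_deriv ?_
  rw [Finset.sum_div]
  exact Finset.sum_congr rfl fun t _ => by rw [sm]; ring

lemma hd_sm {y : ℝ → T → ℝ} {y' : T → ℝ} {r : ℝ}
    (h : ∀ t, HasDerivAt (fun x => y x t) (y' t) r) (t : T) :
    HasDerivAt (fun x => sm (y x) t) (sm (y r) t * (y' t - ∑ s, sm (y r) s * y' s)) r := by
  refine ((h t).exp.div (hd_sum h) (sum_pos _).ne').congr_deriv ?_
  have e : ∑ s, sm (y r) s * y' s = (∑ s, Real.exp (y r s) * y' s) / ∑ s, Real.exp (y r s) := by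
    rw [Finset.sum_div]
    exact Finset.sum_congr rfl fun t _ => by rw [sm]; ring
  have := (sum_pos (y r)).ne'
  rw [e, sm]
  field_simp

omit [Nonempty T] in
lemma le_sup (z : T → ℝ) (t : T) : z t ≤ ⨆ s, z s := le_ciSup (Finite.bddAbove_range z) t

lemma sup_le_lse (z : T → ℝ) : ⨆ t, z t ≤ lse z := by
  refine ciSup_le fun t => ?_
  rw [lse, Real.le_log_iff_exp_le (sum_pos z)]
  exact Finset.single_le_sum (f := fun s => Real.exp (z s)) (fun s _ => (Real.exp_pos _).le)
    (Finset.mem_univ t)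

lemma lse_le_sup (z : T → ℝ) : lse z ≤ (⨆ t, z t) + Real.log (Fintype.card T) := by
  have hc : (0 : ℝ) < Fintype.card T := Nat.cast_pos.2 Fintype.card_pos
  rw [lse, Real.log_le_iff_le_exp (sum_pos z), Real.exp_add, Real.exp_log hc]
  calc ∑ s, Real.exp (z s) ≤ ∑ _s : T, Real.exp (⨆ t, z t) :=
        Finset.sum_le_sum fun s _ => Real.exp_le_exp.2 (le_sup z s)
    _ = _ := by simp [mul_comm]

lemma abs_sup_sub_le {z z' : T → ℝ} {c : ℝ} (h : ∀ t, |z t - z' t| ≤ c) :
    |(⨆ t, z t) - ⨆ t, z' t| ≤ c := by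
  rw [abs_le]
  constructor
  · have : ⨆ t, z' t ≤ (⨆ t, z t) + c := ciSup_le fun t => by
      linarith [(abs_le.1 (h t)).1, le_sup z t]
    linarith
  · have : ⨆ t, z t ≤ (⨆ t, z' t) + c := ciSup_le fun t => by
      linarith [(abs_le.1 (h t)).2, le_sup z' t]
    linarith

/-- The quadratic identity behind the sign of the derivative. -/
lemma quad_nonneg (z : T → ℝ) (M : T → T → ℝ) (hs : ∀ s t, M s t = M t s)
    (h : ∀ s t, 0 ≤ M s s + M t t - 2 * M s t) :
    0 ≤ ∑ t, sm z t * (M t t - ∑ s, sm z s * M t s) := by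
  have e1 : ∑ t, sm z t * (M t t - ∑ s, sm z s * M t s) =
      ∑ t, ∑ s, sm z t * sm z s * (M t t - M t s) := by
    refine Finset.sum_congr rfl fun t _ => ?_
    have : M t t = ∑ s, sm z s * M t t := by rw [← Finset.sum_mul, sum_sm, one_mul]
    conv_lhs => rw [this]
    rw [← Finset.sum_sub_distrib, Finset.mul_sum]
    exact Finset.sum_congr rfl fun s _ => by ring
  have e2 : ∑ t, ∑ s, sm z t * sm z s * (M t t - M t s) =
      ∑ t, ∑ s, sm z t * sm z s * (M s s - M t s) := by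
    rw [Finset.sum_comm]
    exact Finset.sum_congr rfl fun t _ => Finset.sum_congr rfl fun s _ => by rw [hs s t]; ring
  have e3 : 0 ≤ ∑ t, ∑ s, sm z t * sm z s * (M t t - M t s) +
      ∑ t, ∑ s, sm z t * sm z s * (M s s - M t s) := by
    rw [← Finset.sum_add_distrib]
    refine Finset.sum_nonneg fun t _ => ?_
    rw [← Finset.sum_add_distrib]
    refine Finset.sum_nonneg fun s _ => ?_
    have := mul_nonneg (mul_nonneg (sm_nonneg z t) (sm_nonneg z s)) (h t s)
    linarith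
  rw [e1]
  linarith

end Soft

section Gauss

variable {κ T : Type} [Fintype κ] [Fintype T] [Nonempty T]

/-- The affine family. -/
def zz (b : T → κ → ℝ) (f : T → ℝ) (x : κ → ℝ) : T → ℝ := fun t => b t ⬝ᵥ x + f t

omit [Fintype T] [Nonempty T] in
lemma continuous_zz (b : T → κ → ℝ) (f : T → ℝ) : Continuous (zz b f) :=
  continuous_pi fun t => by unfold zz; fun_prop

lemma lip_sup (b : T → κ → ℝ) (f : T → ℝ) {L : ℝ} (hb : ∀ t, vn (b t) ≤ L) (x y : κ → ℝ) :
    |(⨆ t, zz b f x t) - ⨆ t, zz b f y t| ≤ L * vn (x - y) := by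
  refine abs_sup_sub_le fun t => ?_
  have : zz b f x t - zz b f y t = b t ⬝ᵥ (x - y) := by simp [zz, dotProduct_sub]
  rw [this]
  exact (abs_dot_le _ _).trans (mul_le_mul_of_nonneg_right (hb t) (vn_nonneg _))

lemma integrable_sup (b : T → κ → ℝ) (f : T → ℝ) :
    Integrable (fun x => ⨆ t, zz b f x t) (gp κ) :=
  integrable_of_lip (L := ∑ t, vn (b t)) (lip_sup b f fun t =>
    Finset.single_le_sum (f := fun t => vn (b t)) (fun _ _ => vn_nonneg _) (Finset.mem_univ t))

lemma integrable_lse (b : T → κ → ℝ) (f : T → ℝ) :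
    Integrable (fun x => lse (zz b f x)) (gp κ) :=
  integrable_of_le_of_le (continuous_lse.comp (continuous_zz b f)).aestronglyMeasurable
    (Eventually.of_forall fun _ => sup_le_lse _) (Eventually.of_forall fun _ => lse_le_sup _)
    (integrable_sup b f) ((integrable_sup b f).add (integrable_const _))

lemma integrable_bdd {F : (κ → ℝ) → ℝ} (hF : Continuous F) {C : ℝ} (h : ∀ x, |F x| ≤ C) :
    Integrable F (gp κ) :=
  Integrable.of_bound hF.aestronglyMeasurable C (Eventually.of_forall h)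

lemma continuous_p (b : T → κ → ℝ) (f : T → ℝ) (t : T) :
    Continuous fun x => sm (zz b f x) t := (continuous_sm t).comp (continuous_zz b f)

lemma continuous_D (b : T → κ → ℝ) (f c : T → ℝ) (t : T) :
    Continuous fun x => sm (zz b f x) t * (c t - ∑ s, sm (zz b f x) s * c s) :=
  (continuous_p b f t).mul (continuous_const.sub
    (continuous_finsetSum _ fun s _ => (continuous_p b f s).mul continuous_const))

lemma abs_D_le (z c : T → ℝ) (t : T) :
    |sm z t * (c t - ∑ s, sm z s * c s)| ≤ |c t| + ∑ s, |c s| :=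
  (abs_sm_mul_le z t _).trans ((abs_sub _ _).trans (by linarith [abs_avg_le z c]))

lemma ibp_coord (b : T → κ → ℝ) (f : T → ℝ) (t : T) (k : κ) :
    ∫ x, x k * sm (zz b f x) t ∂gp κ =
      ∫ x, sm (zz b f x) t * (b t k - ∑ s, sm (zz b f x) s * b s k) ∂gp κ := by
  classical
  refine ibp k (continuous_p b f t).measurable (continuous_D b f (fun s => b s k) t).measurable
    (fun x => ?_) (C := 1 + (|b t k| + ∑ s, |b s k|)) (m := 0) (fun x => ?_) (fun x => ?_)
  · have h : ∀ s, HasDerivAt (fun r => zz b f (Function.update x k r) s) (b s k) (x k) := by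
      intro s
      have h1 : HasDerivAt (fun r => ∑ i, b s i * Function.update x k r i)
          (∑ i, b s i * (Pi.single k 1 : κ → ℝ) i) (x k) :=
        HasDerivAt.fun_sum fun i _ =>
          (hasDerivAt_pi.1 (hasDerivAt_update x k (x k)) i).const_mul (b s i)
      have h2 : ∑ i, b s i * (Pi.single k 1 : κ → ℝ) i = b s k := by
        simp [Pi.single_apply]
      rw [h2] at h1
      exact h1.add_const (f s)
    have := hd_sm h t
    simpa only [Function.update_eq_self] using this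
  · have := sm_le_one (zz b f x) t
    have h0 : 0 ≤ |b t k| + ∑ s, |b s k| := by positivity
    rw [abs_of_nonneg (sm_nonneg _ _), pow_zero, mul_one]
    linarith
  · have := abs_D_le (zz b f x) (fun s => b s k) t
    rw [pow_zero, mul_one]
    linarith

lemma integrable_coord (b : T → κ → ℝ) (f : T → ℝ) (t : T) (k : κ) :
    Integrable (fun x => x k * sm (zz b f x) t) (gp κ) := by
  refine integrable_of_poly ((continuous_apply k).mul (continuous_p b f t)).measurable (C := 1)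
    (m := 1) fun x => ?_
  rw [mul_comm]
  have := abs_sm_mul_le (zz b f x) t (x k)
  have := abs_le_vn x k
  rw [pow_one]
  linarith

lemma integrable_dot (b : T → κ → ℝ) (f : T → ℝ) (t : T) (c : κ → ℝ) :
    Integrable (fun x => sm (zz b f x) t * (c ⬝ᵥ x)) (gp κ) := by
  have : (fun x => sm (zz b f x) t * (c ⬝ᵥ x)) =
      fun x => ∑ k, c k * (x k * sm (zz b f x) t) := by
    funext x
    rw [dotProduct, Finset.mul_sum]
    exact Finset.sum_congr rfl fun k _ => by ring
  rw [this]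
  exact integrable_finsetSum _ fun k _ => (integrable_coord b f t k).const_mul _

lemma ibp_dot (b : T → κ → ℝ) (f : T → ℝ) (t : T) (c : κ → ℝ) :
    ∫ x, sm (zz b f x) t * (c ⬝ᵥ x) ∂gp κ =
      ∫ x, sm (zz b f x) t * (c ⬝ᵥ b t - ∑ s, sm (zz b f x) s * (c ⬝ᵥ b s)) ∂gp κ := by
  have e1 : (fun x => sm (zz b f x) t * (c ⬝ᵥ x)) =
      fun x => ∑ k, c k * (x k * sm (zz b f x) t) := by
    funext x
    rw [dotProduct, Finset.mul_sum]
    exact Finset.sum_congr rfl fun k _ => by ring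
  have e2 : (fun x => sm (zz b f x) t * (c ⬝ᵥ b t - ∑ s, sm (zz b f x) s * (c ⬝ᵥ b s))) =
      fun x => ∑ k, c k * (sm (zz b f x) t * (b t k - ∑ s, sm (zz b f x) s * b s k)) := by
    funext x
    have : ∑ s, sm (zz b f x) s * (c ⬝ᵥ b s) = ∑ k, c k * ∑ s, sm (zz b f x) s * b s k := by
      simp only [dotProduct, Finset.mul_sum]
      rw [Finset.sum_comm]
      exact Finset.sum_congr rfl fun k _ => Finset.sum_congr rfl fun s _ => by ring
    rw [this, dotProduct, ← Finset.sum_sub_distrib, Finset.mul_sum]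
    exact Finset.sum_congr rfl fun k _ => by ring
  rw [e1, e2, integral_finsetSum _ fun k _ => (integrable_coord b f t k).const_mul _,
    integral_finsetSum _ fun k _ => (integrable_bdd (continuous_D b f (fun s => b s k) t)
      fun x => abs_D_le (zz b f x) (fun s => b s k) t).const_mul _]
  refine Finset.sum_congr rfl fun k _ => ?_
  rw [integral_const_mul, integral_const_mul, ibp_coord]

/-- The mean of the derivative is nonnegative. -/
lemma mean_nonneg (b b' : T → κ → ℝ) (f : T → ℝ) (hs : ∀ s t, b' s ⬝ᵥ b t = b' t ⬝ᵥ b s)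
    (h : ∀ s t, 0 ≤ b' s ⬝ᵥ b s + b' t ⬝ᵥ b t - 2 * (b' s ⬝ᵥ b t)) :
    0 ≤ ∫ x, ∑ t, sm (zz b f x) t * (b' t ⬝ᵥ x) ∂gp κ := by
  rw [integral_finsetSum _ fun t _ => integrable_dot b f t (b' t)]
  simp only [ibp_dot]
  rw [← integral_finsetSum _ fun t _ => integrable_bdd
    (continuous_D b f (fun s => b' t ⬝ᵥ b s) t)
    fun x => abs_D_le (zz b f x) (fun s => b' t ⬝ᵥ b s) t]
  exact integral_nonneg fun x => quad_nonneg (zz b f x) (fun s t => b' s ⬝ᵥ b t) hs h

/-- Comparison of the smooth maxima for two orthogonal families. -/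
lemma core (u w : T → κ → ℝ) (f : T → ℝ) (ho : ∀ s t, u s ⬝ᵥ w t = 0)
    (h : ∀ s t, vn (u s - u t) ≤ vn (w s - w t)) :
    ∫ x, lse (zz u f x) ∂gp κ ≤ ∫ x, lse (zz w f x) ∂gp κ := by
  set b : ℝ → T → κ → ℝ := fun φ t => Real.cos φ • u t + Real.sin φ • w t with hb
  set b' : ℝ → T → κ → ℝ := fun φ t => (-Real.sin φ) • u t + Real.cos φ • w t with hb'
  have ho' : ∀ s t, w s ⬝ᵥ u t = 0 := fun s t => by rw [dotProduct_comm, ho]
  have hM : ∀ φ s t, b' φ s ⬝ᵥ b φ t = Real.sin φ * Real.cos φ * (w s ⬝ᵥ w t - u s ⬝ᵥ u t) := by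
    intro φ s t
    simp only [hb, hb', add_dotProduct, dotProduct_add, smul_dotProduct, dotProduct_smul, ho, ho',
      smul_eq_mul]
    ring
  have hd : ∀ φ, HasDerivAt (fun φ => ∫ x, lse (zz (b φ) f x) ∂gp κ)
      (∫ x, ∑ t, sm (zz (b φ) f x) t * (b' φ t ⬝ᵥ x) ∂gp κ) φ := by
    intro φ
    refine (hasDerivAt_integral_of_dominated_loc_of_deriv_le (μ := gp κ) (s := Set.univ)
      (F := fun φ x => lse (zz (b φ) f x))
      (F' := fun φ x => ∑ t, sm (zz (b φ) f x) t * (b' φ t ⬝ᵥ x))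
      (bound := fun x => (∑ t, (vn (u t) + vn (w t))) * (1 + vn x) ^ 1) univ_mem
      (Eventually.of_forall fun ψ => (integrable_lse (b ψ) f).aestronglyMeasurable)
      (integrable_lse (b φ) f)
      (integrable_finsetSum _ fun t _ => integrable_dot (b φ) f t (b' φ t)).aestronglyMeasurable
      (Eventually.of_forall fun x ψ _ => ?_) ?_ (Eventually.of_forall fun x ψ _ => ?_)).2
    · refine (abs_avg_le _ _).trans ?_
      rw [Finset.sum_mul]
      refine Finset.sum_le_sum fun t _ => (abs_dot_le _ _).trans ?_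
      have h1 : vn (b' ψ t) ≤ vn (u t) + vn (w t) := by
        refine (vn_add_le _ _).trans ?_
        rw [vn_smul, vn_smul, abs_neg]
        exact add_le_add (mul_le_of_le_one_left (vn_nonneg _) (Real.abs_sin_le_one ψ))
          (mul_le_of_le_one_left (vn_nonneg _) (Real.abs_cos_le_one ψ))
      exact mul_le_mul h1 (by rw [pow_one]; linarith) (vn_nonneg _)
        (add_nonneg (vn_nonneg _) (vn_nonneg _))
    · refine integrable_of_poly (C := ∑ t, (vn (u t) + vn (w t))) (m := 1)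
        (continuous_const.mul ((continuous_const.add continuous_vn).pow 1)).measurable fun x => ?_
      refine (abs_of_nonneg (mul_nonneg (Finset.sum_nonneg fun t _ =>
        add_nonneg (vn_nonneg _) (vn_nonneg _)) (pow_nonneg ?_ _))).le
      linarith [vn_nonneg x]
    · refine hd_lse (y := fun ψ => zz (b ψ) f x) fun t => ?_
      simp only [zz, hb, hb', add_dotProduct, smul_dotProduct, smul_eq_mul]
      exact (((Real.hasDerivAt_cos ψ).mul_const _).add
        ((Real.hasDerivAt_sin ψ).mul_const _)).add_const _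
  obtain ⟨φ, hφ, e⟩ := exists_hasDerivAt_eq_slope (fun φ => ∫ x, lse (zz (b φ) f x) ∂gp κ) _
    Real.pi_div_two_pos (fun φ _ => (hd φ).continuousAt.continuousWithinAt) (fun φ _ => hd φ)
  have h0 : 0 ≤ ∫ x, ∑ t, sm (zz (b φ) f x) t * (b' φ t ⬝ᵥ x) ∂gp κ := by
    refine mean_nonneg _ _ f (fun s t => ?_) fun s t => ?_
    · rw [hM, hM, dotProduct_comm (w s), dotProduct_comm (u s)]
    · have h1 : 0 ≤ Real.sin φ * Real.cos φ :=
        mul_nonneg (Real.sin_nonneg_of_nonneg_of_le_pi hφ.1.le (by linarith [hφ.2, Real.pi_pos]))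
          (Real.cos_nonneg_of_neg_pi_div_two_le_of_le (by linarith [hφ.1, Real.pi_pos]) hφ.2.le)
      have h2 := pow_le_pow_left₀ (vn_nonneg _) (h s t) 2
      rw [← dot_self, ← dot_self] at h2
      simp only [sub_dotProduct, dotProduct_sub, dotProduct_comm (u t) (u s),
        dotProduct_comm (w t) (w s)] at h2
      rw [hM, hM, hM]
      nlinarith [mul_nonneg h1 (sub_nonneg.2 h2)]
  rw [e, sub_zero] at h0
  have h1 := (div_nonneg_iff.1 h0).resolve_right fun hh => absurd hh.2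
    (not_le.2 Real.pi_div_two_pos)
  have e0 : b 0 = u := by funext t; simp [hb]
  have e1 : b (Real.pi / 2) = w := by funext t; simp [hb]
  rw [e0, e1] at h1
  linarith [h1.1]

lemma core_sup (u w : T → κ → ℝ) (f : T → ℝ) (ho : ∀ s t, u s ⬝ᵥ w t = 0)
    (h : ∀ s t, vn (u s - u t) ≤ vn (w s - w t)) :
    ∫ x, (⨆ t, zz u f x t) ∂gp κ ≤ ∫ x, (⨆ t, zz w f x t) ∂gp κ := by
  have key : ∀ l : ℝ, 0 < l → l * ∫ x, (⨆ t, zz u f x t) ∂gp κ ≤
      l * ∫ x, (⨆ t, zz w f x t) ∂gp κ + Real.log (Fintype.card T) := by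
    intro l hl
    have hz : ∀ (v : T → κ → ℝ) x, ⨆ t, zz (fun t => l • v t) (fun t => l * f t) x t =
        l * ⨆ t, zz v f x t := fun v x => by
      rw [Real.mul_iSup_of_nonneg hl.le]
      refine congrArg _ (funext fun t => ?_)
      simp [zz, mul_add]
    have h1 := core (fun t => l • u t) (fun t => l • w t) (fun t => l * f t)
      (fun s t => by simp [ho]) fun s t => by
        rw [← smul_sub, ← smul_sub, vn_smul, vn_smul]
        exact mul_le_mul_of_nonneg_left (h s t) (abs_nonneg _)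
    have h2 := integral_mono (integrable_sup (fun t => l • u t) fun t => l * f t)
      (integrable_lse (fun t => l • u t) fun t => l * f t) fun x => sup_le_lse _
    have h3 := integral_mono (integrable_lse (fun t => l • w t) fun t => l * f t)
      ((integrable_sup (fun t => l • w t) fun t => l * f t).add
        (integrable_const (Real.log (Fintype.card T)))) fun x => lse_le_sup _
    rw [integral_add' (integrable_sup _ _) (integrable_const _)] at h3
    simp only [hz, integral_const_mul, integral_const, probReal_univ, smul_eq_mul, one_mul] at h2 h3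
    linarith
  by_contra hc
  have hc' := sub_pos.2 (not_le.1 hc)
  have hl : 0 ≤ Real.log (Fintype.card T) := Real.log_natCast_nonneg _
  have := key ((Real.log (Fintype.card T) + 1) /
    (∫ x, (⨆ t, zz u f x t) ∂gp κ - ∫ x, (⨆ t, zz w f x t) ∂gp κ)) (by positivity)
  rw [← sub_le_iff_le_add', ← mul_sub, div_mul_cancel₀ _ hc'.ne'] at this
  linarith

end Gauss

section Sum

variable {ι ι' : Type} [Fintype ι] [Fintype ι']

lemma mp_inl : MeasurePreserving (fun (x : ι ⊕ ι' → ℝ) i => x (Sum.inl i)) (gp (ι ⊕ ι')) (gp ι) :=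
  measurePreserving_fst.comp (measurePreserving_sumPiEquivProdPi
    (X := fun _ : ι ⊕ ι' => ℝ) fun _ => gaussianReal 0 1)

lemma mp_inr : MeasurePreserving (fun (x : ι ⊕ ι' → ℝ) i => x (Sum.inr i)) (gp (ι ⊕ ι')) (gp ι') :=
  measurePreserving_snd.comp (measurePreserving_sumPiEquivProdPi
    (X := fun _ : ι ⊕ ι' => ℝ) fun _ => gaussianReal 0 1)

lemma integral_mp {α β : Type} [MeasurableSpace α] [MeasurableSpace β] {μ : Measure α}
    {ν : Measure β} {g : α → β} (hg : MeasurePreserving g μ ν) {F : β → ℝ}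
    (hF : Integrable F ν) : ∫ x, F (g x) ∂μ = ∫ y, F y ∂ν := by
  have h := hF.aestronglyMeasurable
  rw [← hg.map_eq] at h ⊢
  exact (integral_map hg.measurable.aemeasurable h).symm

end Sum

end SF

open SF

variable {ι ι' : Type} [Fintype ι] [Fintype ι']

/-- Finite comparison. Interpolate on `gp (ι ⊕ ι')`:
`Z t φ = cos φ * a t ⬝ X + sin φ * a' t ⬝ g + f t`, `F = (1/λ) log ∑ exp (λ Z t)`. The derivative in
`φ` of the mean of `F` is, by `ibp`, `(λ sin φ cos φ / 2) E ∑ p_s p_t (|a' s - a' t|² - |a s - a t|²)`,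
which is nonnegative on `[0, π/2]`; finally `max ≤ F ≤ max + log (card T) / λ`. -/
theorem sf_fin {T : Type} [Fintype T] [Nonempty T] (a : T → ι → ℝ) (a' : T → ι' → ℝ) (f : T → ℝ)
    (h : ∀ s t, vn (a s - a t) ≤ vn (a' s - a' t)) :
    ∫ x, (⨆ t, (a t ⬝ᵥ x + f t)) ∂gp ι ≤ ∫ g, (⨆ t, (a' t ⬝ᵥ g + f t)) ∂gp ι' := by
  have h1 := core_sup (κ := ι ⊕ ι') (fun t => Sum.elim (a t) 0) (fun t => Sum.elim 0 (a' t)) f
    (fun s t => by simp [dotProduct]) fun s t => by
      have := h s t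
      simpa [vn] using this
  have h2 := integral_mp (mp_inl (ι := ι) (ι' := ι')) (integrable_sup a f)
  have h3 := integral_mp (mp_inr (ι := ι) (ι' := ι')) (integrable_sup a' f)
  simp only [zz, dotProduct, Fintype.sum_sum_type, Sum.elim_inl, Sum.elim_inr, Pi.zero_apply,
    zero_mul, Finset.sum_const_zero, add_zero, zero_add] at h1 h2 h3 ⊢
  rw [← h2, ← h3]
  exact h1

/-- Probability form for an arbitrary index set. The event is a union of open half-spaces, so a
countable subfamily has the same union (`TopologicalSpace.isOpen_iUnion_countable`); use increasing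
finite subfamilies, `sf_fin` and `conc_lip`. -/
theorem sf_prob {T : Type} (a : T → ι → ℝ) (a' : T → ι' → ℝ) (f : T → ℝ)
    (h : ∀ s t, vn (a s - a t) ≤ vn (a' s - a' t)) {L : ℝ} (hL : 0 < L) (ha : ∀ t, vn (a t) ≤ L)
    (Φ : (ι' → ℝ) → ℝ) (hΦ : Integrable Φ (gp ι')) (hle : ∀ g t, a' t ⬝ᵥ g + f t ≤ Φ g) {s : ℝ}
    (hs : 0 ≤ s) :
    gp ι {x | ∃ t, (∫ g, Φ g ∂gp ι') + s < a t ⬝ᵥ x + f t} ≤
      ENNReal.ofReal (Real.exp (-s ^ 2 / (4 * L ^ 2))) := by
  set U : T → Set (ι → ℝ) := fun t => {x | (∫ g, Φ g ∂gp ι') + s < a t ⬝ᵥ x + f t} with hU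
  have hopen : ∀ t, IsOpen (U t) := fun t => isOpen_lt continuous_const (by fun_prop)
  obtain ⟨S, hS, hSU⟩ := TopologicalSpace.isOpen_iUnion_countable U hopen
  have e : {x | ∃ t, (∫ g, Φ g ∂gp ι') + s < a t ⬝ᵥ x + f t} = ⋃ t ∈ S, U t := by
    rw [hSU]; ext x; simp [hU]
  rw [e]
  rcases S.eq_empty_or_nonempty with rfl | hne
  · simp
  obtain ⟨c, rfl⟩ := hS.exists_eq_range hne
  have e2 : ⋃ t ∈ Set.range c, U t = ⋃ N : ℕ, ⋃ k : Fin (N + 1), U (c k) := by
    ext x
    simp only [Set.mem_iUnion, Set.mem_range]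
    constructor
    · rintro ⟨_, ⟨k, rfl⟩, hx⟩
      exact ⟨k, Fin.last k, hx⟩
    · rintro ⟨N, k, hx⟩
      exact ⟨_, ⟨k, rfl⟩, hx⟩
  have hmono : Monotone fun N : ℕ => ⋃ k : Fin (N + 1), U (c k) := fun N N' hN x hx => by
    obtain ⟨k, hk⟩ := Set.mem_iUnion.1 hx
    exact Set.mem_iUnion.2 ⟨⟨k, by omega⟩, hk⟩
  rw [e2, hmono.measure_iUnion]
  refine iSup_le fun N => le_trans (measure_mono fun x hx => ?_)
    (conc_lip hL hs (lip_sup (fun k : Fin (N + 1) => a (c k)) (fun k => f (c k)) fun k => ha _))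
  obtain ⟨k, hk⟩ := Set.mem_iUnion.1 hx
  have h1 := sf_fin (fun k : Fin (N + 1) => a (c k)) (fun k => a' (c k)) (fun k => f (c k))
    fun k l => h _ _
  have h2 := integral_mono (integrable_sup (fun k : Fin (N + 1) => a' (c k)) fun k => f (c k)) hΦ
    fun g => ciSup_le fun k => hle g _
  have h3 := le_sup (zz (fun k : Fin (N + 1) => a (c k)) (fun k => f (c k)) x) k
  simp only [hU, Set.mem_ofPred_eq, zz] at hk h2 h3 ⊢
  linarith

/-- The GOE quadratic form is dominated by `2 β |v| (g ⬝ v) / sqrt n`, with either sign `σ`: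
here `a t = σ * 2 β / sqrt (2n) * v_p v_q`, and
`|v|⁴ + |w|⁴ - 4 |v| |w| (v⬝w) + 2 (v⬝w)² = (|v|² - |w|²)² + 2 (|v| |w| - v⬝w)² ≥ 0`. -/
theorem sf_goe {n : ℕ} (hn : 0 < n) {β σ : ℝ} (hβ : 0 < β) (hσ : σ = 1 ∨ σ = -1) {T : Type}
    (v : T → Vec n) (hv : ∀ t, vn (v t) ≤ 1) (f : T → ℝ) (Φ : Vec n → ℝ)
    (hΦ : Integrable Φ (gp (Fin n)))
    (hle : ∀ g t, 2 * β * vn (v t) * (g ⬝ᵥ v t) / √(n : ℝ) + f t ≤ Φ g) {s : ℝ} (hs : 0 ≤ s) :
    gp (Fin n × Fin n)
        {X | ∃ t, (∫ g, Φ g ∂gp (Fin n)) + s < σ * (v t ⬝ᵥ goe β X *ᵥ v t) + f t} ≤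
      ENNReal.ofReal (Real.exp (-(n * s ^ 2) / (8 * β ^ 2))) := by
  have hn' : (0 : ℝ) < n := Nat.cast_pos.2 hn
  have hσ2 : σ ^ 2 = 1 := by rcases hσ with rfl | rfl <;> norm_num
  set k : ℝ := 2 * β / √(2 * (n : ℝ)) with hk
  set k' : ℝ := 2 * β / √(n : ℝ) with hk'
  have hkp : 0 < k := by positivity
  have hk2 : k ^ 2 = 2 * β ^ 2 / n := by
    rw [hk, div_pow, Real.sq_sqrt (by positivity)]; field_simp
  have hk'2 : k' ^ 2 = 2 * k ^ 2 := by
    rw [hk2, hk', div_pow, Real.sq_sqrt hn'.le]; ring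
  set a : T → Fin n × Fin n → ℝ := fun t p => σ * k * (v t p.1 * v t p.2) with ha
  set a' : T → Fin n → ℝ := fun t => (k' * vn (v t)) • v t with ha'
  have hdot : ∀ s t, a s ⬝ᵥ a t = k ^ 2 * (v s ⬝ᵥ v t) ^ 2 := fun s t => by
    simp only [ha, dotProduct, Fintype.sum_prod_type]
    rw [sq (∑ i, v s i * v t i), Finset.sum_mul_sum, Finset.mul_sum]
    refine Finset.sum_congr rfl fun i _ => ?_
    rw [Finset.mul_sum]
    refine Finset.sum_congr rfl fun j _ => ?_
    linear_combination k ^ 2 * (v s i * v s j * (v t i * v t j)) * hσ2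
  have hdot' : ∀ s t, a' s ⬝ᵥ a' t = 2 * k ^ 2 * (vn (v s) * vn (v t) * (v s ⬝ᵥ v t)) :=
    fun s t => by
      simp only [ha', smul_dotProduct, dotProduct_smul, smul_eq_mul]
      linear_combination (vn (v s) * vn (v t) * (v s ⬝ᵥ v t)) * hk'2
  have hX : ∀ t X, a t ⬝ᵥ X = σ * (v t ⬝ᵥ goe β X *ᵥ v t) := fun t X => by
    have e1 : v t ⬝ᵥ goe β X *ᵥ v t = β / √(2 * (n : ℝ)) *
        (∑ i, ∑ j, v t i * v t j * X (i, j) + ∑ i, ∑ j, v t i * v t j * X (j, i)) := by
      simp only [dotProduct, mulVec, goe, of_apply, Finset.mul_sum, ← Finset.sum_add_distrib]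
      exact Finset.sum_congr rfl fun i _ => Finset.sum_congr rfl fun j _ => by ring
    have e2 : ∑ i, ∑ j, v t i * v t j * X (j, i) = ∑ i, ∑ j, v t i * v t j * X (i, j) := by
      rw [Finset.sum_comm]
      exact Finset.sum_congr rfl fun i _ => Finset.sum_congr rfl fun j _ => by ring
    have e3 : a t ⬝ᵥ X = σ * k * ∑ i, ∑ j, v t i * v t j * X (i, j) := by
      simp only [ha, dotProduct, Fintype.sum_prod_type, Finset.mul_sum]
      exact Finset.sum_congr rfl fun i _ => Finset.sum_congr rfl fun j _ => by ring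
    rw [e1, e2, e3, hk]
    ring
  have h1 := sf_prob a a' f (fun s t => ?_) hkp (fun t => ?_) Φ hΦ (fun g t => ?_) hs
  · simp only [hX] at h1
    have e : -s ^ 2 / (4 * k ^ 2) = -(n * s ^ 2) / (8 * β ^ 2) := by
      rw [hk2]; field_simp; ring
    rwa [e] at h1
  · refine (sq_le_sq₀ (vn_nonneg _) (vn_nonneg _)).1 ?_
    rw [← dot_self, ← dot_self]
    simp only [sub_dotProduct, dotProduct_sub, hdot, hdot', dot_self, dotProduct_comm (v t) (v s)]
    have := mul_nonneg (sq_nonneg k) (add_nonneg (sq_nonneg (vn (v s) ^ 2 - vn (v t) ^ 2))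
      (mul_nonneg zero_le_two (sq_nonneg (vn (v s) * vn (v t) - v s ⬝ᵥ v t))))
    nlinarith
  · refine (sq_le_sq₀ (vn_nonneg _) hkp.le).1 ?_
    rw [← dot_self, hdot, dot_self]
    exact mul_le_of_le_one_right (sq_nonneg _)
      (pow_le_one₀ (sq_nonneg _) (pow_le_one₀ (vn_nonneg _) (hv t)))
  · refine le_trans (le_of_eq ?_) (hle g t)
    simp only [ha', smul_dotProduct, smul_eq_mul, hk', dotProduct_comm (v t) g]
    ring

end Vale.Agent.P150
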