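import Vale.Agent.P150.Objs
import Vale.Agent.P150.SF

/-! Norm bounds for the GOE matrix, all from `sf_goe`. -/

open MeasureTheory ProbabilityTheory Matrix Filter Topology
open scoped ENNReal NNReal

namespace Vale.Agent.P150

variable {n : ℕ}

namespace RMEdge

open GaussB

lemma pg_sq {ι : Type} [Fintype ι] (c : ι → ℝ) : PG fun x : ι → ℝ => ∑ i, c i * x i ^ 2 :=
  PG.sum _ fun i => (PG.const _).mul ((PG.coord i).pow 2)

lemma integral_sq_coord {ι : Type} [Fintype ι] (i : ι) : ∫ x, x i ^ 2 ∂gp ι = 1 := by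
  classical
  simpa [sq] using integral_dot_mul (Pi.single i 1 : ι → ℝ) (Pi.single i 1)

lemma integral_wsq {ι : Type} [Fintype ι] (c : ι → ℝ) :
    ∫ x, ∑ i, c i * x i ^ 2 ∂gp ι = ∑ i, c i := by
  rw [integral_finsetSum _ fun i _ => ((PG.const _).mul ((PG.coord i).pow 2)).integrable]
  simp only [integral_const_mul, integral_sq_coord, mul_one]

/-- Restriction of a vector to a set of coordinates. -/
def rs (S : Finset (Fin n)) (g : Vec n) : Vec n := fun i => if i ∈ S then g i else 0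

lemma vn_rs_sq (S : Finset (Fin n)) (g : Vec n) :
    vn (rs S g) ^ 2 = ∑ i, (if i ∈ S then (1 : ℝ) else 0) * g i ^ 2 := by
  rw [vn_sq]
  exact Finset.sum_congr rfl fun i _ => by by_cases h : i ∈ S <;> simp [rs, h]

lemma pg_rs (S : Finset (Fin n)) : PG fun g : Vec n => vn (rs S g) := by
  refine ⟨continuous_vn.comp (continuous_pi fun i => ?_), 1, 1, fun g => ?_⟩
  · by_cases h : i ∈ S
    · simpa [rs, h] using continuous_apply i
    · simpa [rs, h] using continuous_const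
  · have : vn (rs S g) ≤ vn g := vn_mono fun i => by by_cases h : i ∈ S <;> simp [rs, h]
    rw [abs_of_nonneg (vn_nonneg _), pow_one]
    linarith

lemma integral_vn_rs (S : Finset (Fin n)) {c : ℝ} (hc : 0 < c) (hS : (S.card : ℝ) ≤ c ^ 2) :
    ∫ g, vn (rs S g) ∂gp (Fin n) ≤ c := by
  have hI := (pg_sq fun i => if i ∈ S then (1 : ℝ) else 0).integrable
  have h1 : ∫ g, vn (rs S g) ∂gp (Fin n) ≤
      ∫ g, ((∑ i, (if i ∈ S then (1 : ℝ) else 0) * g i ^ 2) / (2 * c) + c / 2) ∂gp (Fin n) := by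
    refine integral_mono (pg_rs S).integrable ((hI.div_const _).add (integrable_const _))
      fun g => ?_
    change vn (rs S g) ≤ (∑ i, (if i ∈ S then (1 : ℝ) else 0) * g i ^ 2) / (2 * c) + c / 2
    rw [← vn_rs_sq]
    have e : vn (rs S g) ^ 2 / (2 * c) + c / 2 - vn (rs S g) = (vn (rs S g) - c) ^ 2 / (2 * c) := by
      field_simp
      ring
    have : 0 ≤ (vn (rs S g) - c) ^ 2 / (2 * c) := by positivity
    linarith
  rw [integral_add (hI.div_const _) (integrable_const _), integral_div, integral_wsq] at h1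
  simp only [integral_const, probReal_univ, smul_eq_mul, one_mul, Finset.sum_boole,
    Finset.filter_mem_eq_inter, Finset.univ_inter] at h1
  have h2 : (S.card : ℝ) / (2 * c) ≤ c / 2 := by
    rw [div_le_iff₀ (by positivity)]
    nlinarith
  linarith

/-- Normalisation of a nonzero vector. -/
lemma normalize {u : Vec n} (hu : u ≠ 0) :
    ∃ r : ℝ, 0 < r ∧ vn (r • u) = 1 ∧ r ^ 2 * (u ⬝ᵥ u) = 1 := by
  have h : 0 < vn u := lt_of_le_of_ne (vn_nonneg u) fun e => hu (vn_eq_zero e.symm)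
  refine ⟨(vn u)⁻¹, inv_pos.2 h, ?_, ?_⟩
  · rw [vn_smul, abs_of_pos (inv_pos.2 h), inv_mul_cancel₀ h.ne']
  · rw [dot_self]; field_simp

lemma quad_smul (r : ℝ) (u : Vec n) (J : Mat n) :
    (r • u) ⬝ᵥ J *ᵥ (r • u) = r ^ 2 * (u ⬝ᵥ J *ᵥ u) := by
  rw [mulVec_smul, smul_dotProduct, dotProduct_smul, smul_eq_mul, smul_eq_mul]
  ring

lemma quad_tail (hn : 0 < n) {β σ s c : ℝ} (hβ : 0 < β) (hσ : σ = 1 ∨ σ = -1) (hs : 0 ≤ s)
    (hc : 0 < c) (S : Finset (Fin n)) (hS : (S.card : ℝ) ≤ c ^ 2) :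
    gp (Fin n × Fin n) {X | ∃ u : Vec n, (∀ i, i ∉ S → u i = 0) ∧
        (2 * β * c / √(n : ℝ) + s) * (u ⬝ᵥ u) < σ * (u ⬝ᵥ goe β X *ᵥ u)} ≤
      ENNReal.ofReal (Real.exp (-(n * s ^ 2) / (8 * β ^ 2))) := by
  refine le_trans (measure_mono ?_) (sf_goe hn hβ hσ
    (T := {v : Vec n // vn v = 1 ∧ ∀ i, i ∉ S → v i = 0}) (fun t => t.1) (fun t => t.2.1.le)
    (fun _ => 0) (fun g => 2 * β / √(n : ℝ) * vn (rs S g)) ((pg_rs S).integrable.const_mul _)
    (fun g t => ?_) hs)
  · rintro X ⟨u, hu, hX⟩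
    have hu0 : u ≠ 0 := by rintro rfl; simp at hX
    obtain ⟨r, hr, h1, h2⟩ := normalize hu0
    refine ⟨⟨r • u, h1, fun i hi => by simp [hu i hi]⟩, ?_⟩
    have h3 : ∫ g, 2 * β / √(n : ℝ) * vn (rs S g) ∂gp (Fin n) ≤ 2 * β * c / √(n : ℝ) := by
      rw [integral_const_mul, mul_div_right_comm (2 * β) c]
      exact mul_le_mul_of_nonneg_left (integral_vn_rs S hc hS) (by positivity)
    have h4 := mul_lt_mul_of_pos_left hX (pow_pos hr 2)
    rw [mul_left_comm, h2, mul_one, mul_left_comm] at h4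
    simp only [quad_smul]
    linarith
  · have h1 : g ⬝ᵥ t.1 = rs S g ⬝ᵥ t.1 := Finset.sum_congr rfl fun i _ => by
      by_cases h : i ∈ S
      · simp [rs, h]
      · simp [t.2.2 i h]
    have h2 := dot_le (rs S g) t.1
    rw [t.2.1, mul_one] at h2
    rw [t.2.1, mul_one, add_zero, h1, mul_div_right_comm]
    exact mul_le_mul_of_nonneg_left h2 (by positivity)

lemma quad_tail_univ (hn : 0 < n) {β σ s : ℝ} (hβ : 0 < β) (hσ : σ = 1 ∨ σ = -1) (hs : 0 ≤ s) :
    gp (Fin n × Fin n) {X | ∃ u : Vec n, (2 * β + s) * (u ⬝ᵥ u) < σ * (u ⬝ᵥ goe β X *ᵥ u)} ≤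
      ENNReal.ofReal (Real.exp (-(n * s ^ 2) / (8 * β ^ 2))) := by
  have hn' : (0 : ℝ) < n := Nat.cast_pos.2 hn
  have h := quad_tail hn hβ hσ hs (Real.sqrt_pos.2 hn') Finset.univ
    (by simp [Real.sq_sqrt hn'.le])
  rw [mul_div_cancel_right₀ _ (Real.sqrt_pos.2 hn').ne'] at h
  simpa using h

lemma tendsto_exp {c : ℝ} (hc : 0 < c) :
    Tendsto (fun n : ℕ => Real.exp (-(c * n))) atTop (𝓝 0) :=
  Real.tendsto_exp_neg_atTop_nhds_zero.comp (tendsto_natCast_atTop_atTop.const_mul_atTop hc)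

lemma tendsto_tail {β s : ℝ} (hβ : 0 < β) (hs : 0 < s) :
    Tendsto (fun n : ℕ => Real.exp (-(n * s ^ 2) / (8 * β ^ 2))) atTop (𝓝 0) :=
  (tendsto_exp (c := s ^ 2 / (8 * β ^ 2)) (by positivity)).congr fun n => by congr 1; ring

lemma measure_biUnion_le' {α κ : Type} [MeasurableSpace α] (μ : Measure α) (I : Finset κ)
    (s : κ → Set α) {b : ℝ} (h : ∀ i ∈ I, μ (s i) ≤ ENNReal.ofReal b) :
    μ (⋃ i ∈ I, s i) ≤ ENNReal.ofReal (I.card * b) := by
  refine (measure_biUnion_finset_le I s).trans ((Finset.sum_le_sum h).trans (le_of_eq ?_))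
  rw [Finset.sum_const, nsmul_eq_mul, ENNReal.ofReal_mul (Nat.cast_nonneg _),
    ENNReal.ofReal_natCast]

lemma card_small (n : ℕ) :
    ((Finset.univ.filter fun S : Finset (Fin n) => (S.card : ℝ) ≤ 1 / 2048 ^ 2 * n).card : ℝ) ≤
      Real.exp (n / 1024) := by
  have h1 : ∀ S : Finset (Fin n), (S.card : ℝ) ≤ 1 / 2048 ^ 2 * n →
      (1 : ℝ) ≤ Real.exp (n / 2048) * ((1 / 2048) ^ S.card * 1 ^ (n - S.card)) := by
    intro S hS
    have h2 : (2048 : ℝ) ^ S.card ≤ Real.exp (n / 2048) := by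
      refine (pow_le_pow_left₀ (by norm_num) (by linarith [Real.add_one_le_exp 2048]) _ :
        (2048 : ℝ) ^ S.card ≤ Real.exp 2048 ^ S.card).trans ?_
      rw [← Real.exp_nat_mul]
      exact Real.exp_le_exp.2 (by linarith)
    rw [one_pow, mul_one, _root_.one_div_pow, mul_one_div, one_le_div (by positivity)]
    exact h2
  calc _ = ∑ _S ∈ Finset.univ.filter fun S : Finset (Fin n) => (S.card : ℝ) ≤ 1 / 2048 ^ 2 * n,
        (1 : ℝ) := by simp
    _ ≤ ∑ S ∈ Finset.univ.filter fun S : Finset (Fin n) => (S.card : ℝ) ≤ 1 / 2048 ^ 2 * n,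
        Real.exp (n / 2048) * ((1 / 2048) ^ S.card * 1 ^ (n - S.card)) :=
        Finset.sum_le_sum fun S hS => h1 S (Finset.mem_filter.1 hS).2
    _ ≤ ∑ S : Finset (Fin n), Real.exp (n / 2048) * ((1 / 2048) ^ S.card * 1 ^ (n - S.card)) :=
        Finset.sum_le_sum_of_subset_of_nonneg (Finset.filter_subset _ _) fun _ _ _ => by positivity
    _ = Real.exp (n / 2048) * (1 / 2048 + 1) ^ n := by
        rw [← Finset.mul_sum, Fin.sum_pow_mul_eq_add_pow]
    _ ≤ Real.exp (n / 2048) * Real.exp (1 / 2048) ^ n :=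
        mul_le_mul_of_nonneg_left (pow_le_pow_left₀ (by norm_num) (Real.add_one_le_exp _) _)
          (Real.exp_pos _).le
    _ = _ := by rw [← Real.exp_nat_mul, ← Real.exp_add]; congr 1; ring

lemma young {D l w v : ℝ} (hD : 0 < D) (hD1 : D ≤ 1) (hl : 0 < l) (hl1 : l < 1) :
    2 * (w * v) - v ^ 2 / D ≤ (D + l / (1 - l)) * w ^ 2 - l * v ^ 2 := by
  have h1 : 1 ≤ 1 / D := by rw [le_div_iff₀ hD]; linarith
  have hm : 0 < l / (1 - l) := div_pos hl (by linarith)
  have hm2 : l / (1 - l) * (1 - l) = l := div_mul_cancel₀ _ (by linarith)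
  have hA : 0 < 1 / D - l := by linarith
  have hAB : 1 ≤ (1 / D - l) * (D + l / (1 - l)) := by
    have e : 1 / D * D = 1 := by field_simp
    nlinarith [mul_le_mul_of_nonneg_left h1 hm.le, mul_le_mul_of_nonneg_left hD1 hl.le]
  have h2 : 0 ≤ (1 / D - l) * ((1 / D - l) * v ^ 2 + (D + l / (1 - l)) * w ^ 2 - 2 * (w * v)) := by
    nlinarith [sq_nonneg ((1 / D - l) * v - w), mul_nonneg (sub_nonneg.2 hAB) (sq_nonneg w)]
  have h3 := nonneg_of_mul_nonneg_right h2 hA
  have e : v ^ 2 / D = 1 / D * v ^ 2 := by ring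
  linarith

end RMEdge

open RMEdge

/-- Tail of the operator norm: `sf_goe` with both signs, `Φ g = 2 β |g| / sqrt n`,
`E |g| ≤ sqrt n`, and `opn_le_of_symm`. -/
theorem opn_tail (hn : 0 < n) {β s : ℝ} (hβ : 0 < β) (hs : 0 ≤ s) :
    gp (Fin n × Fin n) {X | 2 * β + s < opn (goe β X)} ≤
      ENNReal.ofReal (2 * Real.exp (-(n * s ^ 2) / (8 * β ^ 2))) := by
  rw [two_mul (Real.exp _), ENNReal.ofReal_add (Real.exp_pos _).le (Real.exp_pos _).le]
  refine le_trans (measure_mono fun X hX => ?_) ((measure_union_le _ _).trans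
    (add_le_add (quad_tail_univ hn hβ (Or.inl rfl) hs) (quad_tail_univ hn hβ (Or.inr rfl) hs)))
  by_contra hc
  simp only [Set.mem_union, Set.mem_ofPred_eq, not_or, not_exists, not_lt] at hc
  refine absurd hX (not_lt.2 (opn_le_of_symm (goe_symm β X) (by positivity) fun u => ?_))
  rw [abs_le]
  constructor <;> linarith [hc.1 u, hc.2 u]

theorem rm_edge {β a : ℝ} (hβ : 0 < β) (ha : 0 < a) : WHP β fun _ J => Edge β J a := by
  refine WHP.of_le (tendsto_tail hβ ha) ?_
  filter_upwards [eventually_gt_atTop 0] with n hn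
  refine le_trans (measure_mono fun X hX => ?_) (quad_tail_univ hn hβ (Or.inl rfl) ha.le)
  simpa [Edge] using hX

theorem rm_opn {β : ℝ} (hβ : 0 < β) (hβ1 : β < 1) : WHP β fun _ J => opn J ≤ 3 := by
  have hs : 0 < 3 - 2 * β := by linarith
  refine WHP.of_le (by simpa using (tendsto_tail hβ hs).const_mul 2) ?_
  filter_upwards [eventually_gt_atTop 0] with n hn
  refine le_trans (measure_mono fun X hX => ?_) (opn_tail hn hβ hs.le)
  simpa using hX

namespace RMEdge

lemma tail_nat {β : ℝ} (hβ : 0 < β) (hβ1 : β < 1) (n k : ℕ) :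
    gp (Fin n × Fin n) {X | (k : ℝ) ≤ opn (goe β X)} ≤ ENNReal.ofReal (2 * Real.exp (4 - k)) := by
  rcases lt_or_ge k 2 with hk | hk
  · refine prob_le_one.trans (ENNReal.one_le_ofReal.2 ?_)
    have : (k : ℝ) < 2 := by exact_mod_cast hk
    linarith [Real.add_one_le_exp (4 - k)]
  have hk' : (2 : ℝ) ≤ k := by exact_mod_cast hk
  rcases n.eq_zero_or_pos with rfl | hn
  · have : {X : Fin 0 × Fin 0 → ℝ | (k : ℝ) ≤ opn (goe β X)} = ∅ := by
      refine Set.eq_empty_of_forall_notMem fun X hX => ?_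
      rw [Set.mem_ofPred_eq, Subsingleton.elim (goe β X) 0, opn_zero] at hX
      linarith
    simp [this]
  refine le_trans (measure_mono fun X hX => ?_) ((opn_tail hn hβ (sub_nonneg.2 hk')).trans
    (ENNReal.ofReal_le_ofReal (mul_le_mul_of_nonneg_left (Real.exp_le_exp.2 ?_) zero_le_two)))
  · simp only [Set.mem_ofPred_eq] at hX ⊢
    linarith
  · have hn' : (1 : ℝ) ≤ n := by exact_mod_cast hn
    have h1 : β ^ 2 ≤ 1 := pow_le_one₀ hβ.le hβ1.le
    have h2 : ((k : ℝ) - 2) ^ 2 / 8 ≤ n * (k - 2) ^ 2 / (8 * β ^ 2) := by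
      rw [div_le_div_iff₀ (by norm_num) (by positivity)]
      nlinarith [mul_le_mul_of_nonneg_left h1 (sq_nonneg ((k : ℝ) - 2)),
        mul_le_mul_of_nonneg_right hn' (sq_nonneg ((k : ℝ) - 2))]
    rw [neg_div]
    nlinarith [sq_nonneg ((k : ℝ) - 6)]

lemma summable_tail (p : ℕ) : Summable fun k : ℕ => ((k : ℝ) + 2) ^ p * (2 * Real.exp (4 - k)) := by
  have h := ((summable_nat_add_iff 2).2 (Real.summable_pow_mul_exp_neg_nat_mul p one_pos)).mul_left
    (2 * Real.exp 6)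
  refine h.congr fun k => ?_
  have : Real.exp (4 - k) = Real.exp 6 * Real.exp (-1 * ((k + 2 : ℕ) : ℝ)) := by
    rw [← Real.exp_add]; congr 1; push_cast; ring
  rw [this]
  push_cast
  ring

end RMEdge

/-- Moments of the operator norm, uniformly in the dimension. -/
theorem opn_mom {β : ℝ} (hβ : 0 < β) (hβ1 : β < 1) (p : ℕ) :
    ∃ C : ℝ, ∀ n : ℕ, ∫ X, (1 + opn (goe β X : Mat n)) ^ p ∂gp (Fin n × Fin n) ≤ C := by
  have h0 : ∀ k : ℕ, 0 ≤ ((k : ℝ) + 2) ^ p * (2 * Real.exp (4 - k)) := fun k => by positivity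
  refine ⟨∑' k : ℕ, ((k : ℝ) + 2) ^ p * (2 * Real.exp (4 - k)), fun n => ?_⟩
  have hc : Continuous fun X : Fin n × Fin n → ℝ => opn (goe β X) :=
    continuous_opn.comp (continuous_goe β)
  have hm : ∀ k : ℕ, MeasurableSet {X : Fin n × Fin n → ℝ | (k : ℝ) ≤ opn (goe β X)} := fun k =>
    (isClosed_le continuous_const hc).measurableSet
  rw [integral_eq_lintegral_of_nonneg_ae (Eventually.of_forall fun X =>
    pow_nonneg (add_nonneg zero_le_one (opn_nonneg _)) _)
    ((continuous_const.add hc).pow p).aestronglyMeasurable]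
  refine ENNReal.toReal_le_of_le_ofReal (tsum_nonneg h0) ?_
  rw [ENNReal.ofReal_tsum_of_nonneg h0 (summable_tail p)]
  calc _ ≤ ∫⁻ X, ∑' k : ℕ, {X : Fin n × Fin n → ℝ | (k : ℝ) ≤ opn (goe β X)}.indicator
        (fun _ => ENNReal.ofReal (((k : ℝ) + 2) ^ p)) X ∂gp (Fin n × Fin n) := by
        refine lintegral_mono fun X => le_trans ?_ (ENNReal.le_tsum ⌊opn (goe β X)⌋₊)
        rw [Set.indicator_of_mem (by exact Nat.floor_le (opn_nonneg _))]
        refine ENNReal.ofReal_le_ofReal (pow_le_pow_left₀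
          (add_nonneg zero_le_one (opn_nonneg _)) ?_ p)
        linarith [Nat.lt_floor_add_one (opn (goe β X))]
    _ = ∑' k : ℕ, ENNReal.ofReal (((k : ℝ) + 2) ^ p) *
        gp (Fin n × Fin n) {X | (k : ℝ) ≤ opn (goe β X)} := by
        rw [lintegral_tsum fun k => (measurable_const.indicator (hm k)).aemeasurable]
        simp only [lintegral_indicator_const (hm _)]
    _ ≤ _ := by
        refine ENNReal.tsum_le_tsum fun k => ?_
        rw [ENNReal.ofReal_mul (by positivity)]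
        exact mul_le_mul_right (tail_nat hβ hβ1 n k) _

theorem opn_goe_le {β : ℝ} (hβ : 0 < β) (hβ1 : β < 1) (X : Fin n × Fin n → ℝ) :
    opn (goe β X) ≤ 2 * vn X := by
  have h := fro_goe_sub_le β X 0
  have e : goe β (0 : Fin n × Fin n → ℝ) = 0 := by ext i j; simp [goe]
  rw [e, sub_zero, sub_zero, abs_of_pos hβ] at h
  refine (opn_le_fro _).trans (h.trans (mul_le_mul_of_nonneg_right ?_ (vn_nonneg _)))
  rcases n.eq_zero_or_pos with rfl | hn
  · simp
  · have hn' : (1 : ℝ) ≤ n := by exact_mod_cast hn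
    exact (div_le_self (by positivity) (Real.one_le_sqrt.2 (by linarith))).trans (by linarith)

/-- Small principal submatrices: for a fixed set `S` with `card S ≤ α n` use `sf_goe` with
`Φ g = 2 β |g restricted to S| / sqrt n`, of mean at most `2 sqrt α ≤ 1/8`, and `s = 1/8`. The number
of such sets is at most `t^(-α n) (1+t)^n` for every `t ∈ (0,1]`. -/
theorem rm_sub {β : ℝ} (hβ : 0 < β) (hβ1 : β < 1) :
    ∃ α : ℝ, 0 < α ∧ α ≤ 1 / 100 ∧ WHP β fun _ J => SubN J α := by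
  refine ⟨1 / 2048 ^ 2, by norm_num, by norm_num,
    WHP.of_le (tendsto_exp (c := 1 / 1024) (by norm_num)) ?_⟩
  filter_upwards [eventually_gt_atTop 0] with n hn
  have hn' : (0 : ℝ) < n := Nat.cast_pos.2 hn
  have hq := Real.sqrt_pos.2 hn'
  have h := measure_biUnion_le' (gp (Fin n × Fin n))
    (Finset.univ.filter fun S : Finset (Fin n) => (S.card : ℝ) ≤ 1 / 2048 ^ 2 * n) _
    fun S hS => quad_tail hn hβ (Or.inl rfl) (s := 1 / 8) (by norm_num) (c := √(n : ℝ) / 16)
      (by positivity) S (by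
        have := (Finset.mem_filter.1 hS).2
        rw [div_pow, Real.sq_sqrt hn'.le]
        linarith)
  refine le_trans (measure_mono fun X hX => ?_) (h.trans (ENNReal.ofReal_le_ofReal ?_))
  · simp only [SubN, Set.mem_ofPred_eq, not_forall, not_le] at hX
    obtain ⟨u, hu, hX⟩ := hX
    refine Set.mem_iUnion₂.2 ⟨Finset.univ.filter fun i => u i ≠ 0,
      Finset.mem_filter.2 ⟨Finset.mem_univ _, hu⟩, u, fun i hi => by simpa using hi, ?_⟩
    have e : 2 * β * (√(n : ℝ) / 16) / √(n : ℝ) = β / 8 := by field_simp; ring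
    have h0 : 0 ≤ u ⬝ᵥ u := by rw [dot_self]; positivity
    rw [e, one_mul]
    nlinarith
  · refine (mul_le_mul_of_nonneg_right (card_small n) (Real.exp_pos _).le).trans ?_
    rw [← Real.exp_add]
    refine Real.exp_le_exp.2 ?_
    have h1 : β ^ 2 ≤ 1 := pow_le_one₀ hβ.le hβ1.le
    have h2 : (n : ℝ) / 512 ≤ n * (1 / 8) ^ 2 / (8 * β ^ 2) := by
      rw [div_le_div_iff₀ (by norm_num) (by positivity)]
      nlinarith
    rw [neg_div]
    linarith

/-- Positivity for a fixed diagonal. For unit `u` and `0 < λ < 1 - β²`: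
`2 w ⬝ u - ∑ u² (1/D - λ) ≤ ∑ w² D / (1 - λ D) ≤ ∑ w² D + λ/(1-λ) |w|²` with `w = β g / sqrt n`,
whose mean is `β² avg D + β² λ/(1-λ)`, and `β² λ/(1-λ) - λ < 0`. -/
theorem rm_pos {β : ℝ} (hβ : 0 < β) (hβ1 : β < 1) :
    ∃ c : ℝ, 0 < c ∧ c ≤ 1 - β ^ 2 ∧ ∀ᶠ n : ℕ in atTop, ∀ D : Vec n, Dom D →
      gp (Fin n × Fin n) {X | ¬ PosK β 1 (goe β X) c D} ≤ ENNReal.ofReal (1 / 8) := by
  have h1 : β ^ 2 < 1 := pow_lt_one₀ hβ.le hβ1 two_ne_zero
  have h2 : 0 < β ^ 2 := by positivity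
  obtain ⟨l, hl⟩ : ∃ l : ℝ, l = (1 - β ^ 2) / 2 := ⟨_, rfl⟩
  have hl0 : 0 < l := by linarith
  have hl1 : l < 1 / 2 := by linarith
  have hs : 0 < l ^ 2 / 2 := by positivity
  refine ⟨l ^ 2 / 2, hs, by nlinarith, ?_⟩
  filter_upwards [eventually_gt_atTop 0,
    (tendsto_tail hβ hs).eventually (eventually_le_nhds (by norm_num : (0 : ℝ) < 1 / 8))]
    with n hn hle D hD
  have hn' : (0 : ℝ) < n := Nat.cast_pos.2 hn
  have hq := Real.sqrt_pos.2 hn'
  have hI := (pg_sq fun i => (D i + l / (1 - l)) * (β ^ 2 / n)).integrable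
  refine le_trans (measure_mono ?_) ((sf_goe hn hβ (Or.inl rfl) (T := {v : Vec n // vn v = 1})
    (fun t => t.1) (fun t => t.2.le) (fun t => -∑ i, t.1 i ^ 2 / D i)
    (fun g => ∑ i, (D i + l / (1 - l)) * (β ^ 2 / n) * g i ^ 2 - l)
    (hI.sub (integrable_const _)) (fun g t => ?_) hs.le).trans (ENNReal.ofReal_le_ofReal hle))
  · intro X hX
    simp only [PosK, Set.mem_ofPred_eq, not_forall, not_le, one_pow, one_mul] at hX
    obtain ⟨u, hX⟩ := hX
    have hu0 : u ≠ 0 := by rintro rfl; simp at hX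
    obtain ⟨r, hr, h3, h4⟩ := normalize hu0
    refine ⟨⟨r • u, h3⟩, ?_⟩
    have h5 : ∑ i, (r • u) i ^ 2 / D i = r ^ 2 * ∑ i, u i ^ 2 / D i := by
      rw [Finset.mul_sum]
      exact Finset.sum_congr rfl fun i _ => by rw [Pi.smul_apply, smul_eq_mul]; ring
    have h6 : ∑ i, (D i + l / (1 - l)) * (β ^ 2 / n) = β ^ 2 * avg D + β ^ 2 * (l / (1 - l)) := by
      rw [← Finset.sum_mul, Finset.sum_add_distrib, avg]
      simp only [Finset.sum_const, Finset.card_univ, Fintype.card_fin, nsmul_eq_mul]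
      field_simp
    have h7 : β ^ 2 * (l / (1 - l)) ≤ l - l ^ 2 := by
      rw [← mul_div_assoc, div_le_iff₀ (by linarith)]
      have : β ^ 2 = 1 - 2 * l := by linarith
      rw [this]
      nlinarith [pow_pos hl0 3]
    have h8 := mul_lt_mul_of_pos_left hX (pow_pos hr 2)
    rw [mul_sub, mul_add, mul_left_comm _ (β ^ 2 * avg D), mul_left_comm _ (l ^ 2 / 2), h4] at h8
    rw [integral_sub hI (integrable_const _), integral_wsq, h6]
    simp only [quad_smul, h5, integral_const, probReal_univ, smul_eq_mul, one_mul]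
    linarith
  · have h3 : ∑ i, t.1 i ^ 2 = 1 := by rw [← vn_sq, t.2, one_pow]
    have h4 := Finset.sum_le_sum fun i (_ : i ∈ Finset.univ) =>
      young (w := β / √(n : ℝ) * g i) (v := t.1 i) (hD i).1 (hD i).2 hl0 (by linarith)
    rw [Finset.sum_sub_distrib, Finset.sum_sub_distrib, ← Finset.mul_sum _ _ l, h3] at h4
    have h5 : ∑ i, 2 * (β / √(n : ℝ) * g i * t.1 i) = 2 * β * 1 * (g ⬝ᵥ t.1) / √(n : ℝ) := by
      rw [dotProduct, Finset.mul_sum, Finset.sum_div]
      exact Finset.sum_congr rfl fun i _ => by ring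
    have h6 : ∑ i, (D i + l / (1 - l)) * (β / √(n : ℝ) * g i) ^ 2 =
        ∑ i, (D i + l / (1 - l)) * (β ^ 2 / n) * g i ^ 2 :=
      Finset.sum_congr rfl fun i _ => by rw [mul_pow, div_pow, Real.sq_sqrt hn'.le]; ring
    rw [t.2]
    linarith

/-- Markov: the mean of `∑ J i i ^ 2` is `2 β²`. -/
theorem diag_markov (hn : 0 < n) {β t : ℝ} (ht : 0 < t) :
    gp (Fin n × Fin n) {X | t < vn fun i => goe β X i i} ≤ ENNReal.ofReal (2 * β ^ 2 / t ^ 2) := by
  have hn' : (0 : ℝ) < n := Nat.cast_pos.2 hn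
  have hI : ∀ i : Fin n, Integrable (fun X : Fin n × Fin n → ℝ => 2 * β ^ 2 / n * X (i, i) ^ 2)
      (gp (Fin n × Fin n)) := fun i =>
    ((GaussB.PG.const _).mul ((GaussB.PG.coord _).pow 2)).integrable
  have h := mul_meas_ge_le_integral_of_nonneg (μ := gp (Fin n × Fin n))
    (f := fun X => ∑ i : Fin n, 2 * β ^ 2 / n * X (i, i) ^ 2)
    (Eventually.of_forall fun X => Finset.sum_nonneg fun i _ => by positivity)
    (integrable_finsetSum _ fun i _ => hI i) (t ^ 2)
  rw [integral_finsetSum _ fun i _ => hI i] at h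
  simp only [integral_const_mul, integral_sq_coord, mul_one, Finset.sum_const, Finset.card_univ,
    Fintype.card_fin, nsmul_eq_mul] at h
  rw [mul_div_cancel₀ _ hn'.ne', mul_comm, ← le_div_iff₀ (by positivity)] at h
  refine le_trans (measure_mono fun X hX => ?_)
    ((ofReal_measureReal (measure_ne_top _ _)).symm.trans_le (ENNReal.ofReal_le_ofReal h))
  have h1 := pow_le_pow_left₀ ht.le (le_of_lt hX) 2
  rw [vn_sq] at h1
  refine h1.trans (le_of_eq (Finset.sum_congr rfl fun i _ => ?_))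
  simp only [goe, of_apply]
  rw [mul_pow, div_pow, Real.sq_sqrt (by positivity)]
  ring

theorem rm_diag {β η : ℝ} (hη : 0 < η) :
    WHP β fun n J => vn (fun i => J i i) ≤ η * √(n : ℝ) := by
  refine WHP.of_le (tendsto_const_div_atTop_nhds_zero_nat (2 * β ^ 2 / η ^ 2)) ?_
  filter_upwards [eventually_gt_atTop 0] with n hn
  have hn' : (0 : ℝ) < n := Nat.cast_pos.2 hn
  have h := diag_markov hn (β := β) (mul_pos hη (Real.sqrt_pos.2 hn'))
  rw [mul_pow, Real.sq_sqrt hn'.le, ← div_div] at h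
  simpa only [not_le] using h

/-- The uniform approximation principle: a family of at most `exp (C n log n)` sets of matrices,
each of probability at least `1/2`, is simultaneously close in Frobenius norm
(`conc_set`, `fro_goe_sub_le`, union bound). -/
theorem rm_near {β : ℝ} (hβ : 0 < β) (hβ1 : β < 1) {C e : ℝ} (he : 0 < e) (T : ℕ → Type)
    [∀ n, Fintype (T n)] (S : ∀ n, T n → Set (Mat n))
    (hT : ∀ᶠ n : ℕ in atTop, (Fintype.card (T n) : ℝ) ≤ Real.exp (C * n * Real.log n))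
    (hS : ∀ᶠ n : ℕ in atTop, ∀ t, gp (Fin n × Fin n) {X | goe β X ∉ S n t} ≤
      ENNReal.ofReal (1 / 2)) :
    WHP β fun n J => ∀ t, ∃ J₀ ∈ S n t, J₀.IsSymm ∧ fro (J - J₀) ≤ e * √(n : ℝ) := by
  have hc : 0 < e ^ 2 / (32 * (|C| + 1)) := by positivity
  refine WHP.of_le (a := fun n => 2 * Real.exp (-(e ^ 2 / 32 * n)))
    (by simpa using (tendsto_exp (c := e ^ 2 / 32) (by positivity)).const_mul 2) ?_
  filter_upwards [eventually_gt_atTop 0, hT, hS,
    tendsto_natCast_atTop_atTop.eventually (Real.isLittleO_log_id_atTop.def hc)]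
    with n hn hTn hSn hlog
  have hn1 : (1 : ℝ) ≤ n := by exact_mod_cast hn
  have hn' : (0 : ℝ) < n := by linarith
  have hq := Real.sqrt_pos.2 hn'
  have h := measure_biUnion_le' (gp (Fin n × Fin n)) (Finset.univ : Finset (T n)) _ fun t _ =>
    conc_set {X | goe β X ∈ S n t} (p := 1 / 2) (r := e * n / 2) (by norm_num) (by norm_num)
      (by positivity) ((hSn t).trans (by norm_num))
  refine le_trans (measure_mono fun X hX => ?_) (h.trans (ENNReal.ofReal_le_ofReal ?_))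
  · simp only [Set.mem_ofPred_eq, not_forall, not_exists, not_and, not_le] at hX
    obtain ⟨t, hX⟩ := hX
    refine Set.mem_iUnion₂.2 ⟨t, Finset.mem_univ _, fun Y hY => ?_⟩
    by_contra hlt
    have h1 := hX _ hY (goe_symm β Y)
    have h2 := fro_goe_sub_le β X Y
    have h3 : 2 * |β| / √(2 * (n : ℝ)) ≤ 2 / √(n : ℝ) := by
      rw [abs_of_pos hβ]
      exact div_le_div₀ zero_le_two (by linarith) hq (Real.sqrt_le_sqrt (by linarith))
    have h4 := mul_le_mul h3 (not_le.1 hlt).le (vn_nonneg _) (by positivity)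
    have h5 : 2 / √(n : ℝ) * (e * n / 2) = e * √(n : ℝ) := by
      field_simp
      rw [Real.sq_sqrt hn'.le]
    linarith
  · rw [Finset.card_univ]
    refine (mul_le_mul_of_nonneg_right hTn (by positivity)).trans ?_
    rw [div_eq_mul_inv (Real.exp _), ← mul_assoc, ← Real.exp_add, mul_comm, one_div, inv_inv]
    refine mul_le_mul_of_nonneg_left (Real.exp_le_exp.2 ?_) zero_le_two
    simp only [id, Real.norm_eq_abs, abs_of_pos hn', abs_of_nonneg (Real.log_nonneg hn1)] at hlog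
    have h1 : C * n * Real.log n ≤ (|C| + 1) * n * (e ^ 2 / (32 * (|C| + 1)) * n) :=
      mul_le_mul (mul_le_mul_of_nonneg_right (by linarith [le_abs_self C]) hn'.le) hlog
        (Real.log_nonneg hn1) (by positivity)
    have h2 : (|C| + 1) * n * (e ^ 2 / (32 * (|C| + 1)) * n) = e ^ 2 / 32 * n * n := by
      field_simp
    have h3 : e ^ 2 / 32 * n ≤ e ^ 2 / 32 * n * n := le_mul_of_one_le_right (by positivity) hn1
    nlinarith

end Vale.Agent.P150
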