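import Vale.Agent.P150.CountA
import Vale.Agent.P150.CountE
import Vale.Agent.P150.RMEdge

/-! Positivity of the Hessian in the planted model. -/

open MeasureTheory ProbabilityTheory Matrix Filter Topology
open scoped ENNReal NNReal

namespace Vale.Agent.P150

variable {n : ℕ}

namespace Plant

lemma dot_sq_le (u v : Vec n) : (u ⬝ᵥ v) ^ 2 ≤ (u ⬝ᵥ u) * (v ⬝ᵥ v) := by
  rw [dot_self, dot_self, ← mul_pow, ← sq_abs]
  exact pow_le_pow_left₀ (abs_nonneg _) (abs_dot_le u v) 2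

lemma dot_nonneg (u : Vec n) : 0 ≤ u ⬝ᵥ u := by rw [dot_self]; positivity

lemma mag_sq_le (hn : 0 < n) (H : Vec n) : mag H ⬝ᵥ mag H / n ≤ 1 := by
  have hn' : (0 : ℝ) < n := Nat.cast_pos.2 hn
  rw [div_le_one hn', dot_self]
  have := pow_le_pow_left₀ (vn_nonneg _) (vn_mag_le H) 2
  rwa [Real.sq_sqrt hn'.le] at this

lemma hess_small (hn : 0 < n) {β a q : ℝ} {J : Mat n} (hE : Edge β J a) {H : Vec n}
    (hq : mag H ⬝ᵥ mag H / n ≤ q) (u : Vec n) :
    ((1 - β) ^ 2 - a - 3 * β ^ 2 * q) * (u ⬝ᵥ u) ≤ hess β 1 J H u := by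
  have hn' : (0 : ℝ) < n := Nat.cast_pos.2 hn
  have h1 : u ⬝ᵥ u ≤ ∑ i, Real.cosh (H i) ^ 2 * u i ^ 2 := by
    rw [dot_self, vn_sq]
    exact Finset.sum_le_sum fun i _ =>
      le_mul_of_one_le_left (sq_nonneg _) (one_le_pow₀ (Real.one_le_cosh _))
  have h2 := hE u
  have h3 : (mag H ⬝ᵥ u) ^ 2 / n ≤ mag H ⬝ᵥ mag H / n * (u ⬝ᵥ u) := by
    rw [div_mul_eq_mul_div]
    exact div_le_div_of_nonneg_right (dot_sq_le _ _) hn'.le
  have h4 := mul_le_mul_of_nonneg_right hq (dot_nonneg u)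
  have h5 := mul_le_mul_of_nonneg_left h3 (sq_nonneg β)
  have h6 := mul_le_mul_of_nonneg_left h4 (sq_nonneg β)
  simp only [hess, ons, one_pow, one_mul, mul_one, mul_div_assoc]
  linarith

lemma goe_quad (β : ℝ) (x : Cube n) (X : Fin n × Fin n → ℝ) (M : Vec n) :
    M ⬝ᵥ goe β X *ᵥ M = M ⬝ᵥ plant β x X *ᵥ M - β ^ 2 * ((sv x ⬝ᵥ M) ^ 2 / n) := by
  have : vecMulVec (sv x) (sv x) *ᵥ M = (sv x ⬝ᵥ M) • sv x := by
    funext i; simp [vecMulVec, mulVec, dotProduct, Finset.mul_sum, mul_comm, mul_left_comm]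
  rw [plant, add_mulVec, smul_mulVec, this, dotProduct_add, dotProduct_smul, dotProduct_smul,
    dotProduct_comm M (sv x), smul_eq_mul, smul_eq_mul]
  ring

lemma meas_vol (β : ℝ) (x : Cube n) (y : Vec n) (a q c b η e : ℝ) :
    Measurable fun X => ∫⁻ H in volO β x y a q c b η e X,
      ENNReal.ofReal (∏ i, phi (η ^ 2) ((tapb b (plant β x X) H - y) i)) := by
  have hO := (isOpen_volO β x y a q c b η e).measurableSet
  have h1 : Continuous fun p : (Fin n × Fin n → ℝ) × Vec n => tapb b (plant β x p.1) p.2 - y := by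
    have h2 : Continuous fun p : (Fin n × Fin n → ℝ) × Vec n => mag p.2 :=
      continuous_mag.comp continuous_snd
    have h3 : Continuous fun p : (Fin n × Fin n → ℝ) × Vec n => plant β x p.1 :=
      ((continuous_goe β).comp continuous_fst).add continuous_const
    exact ((continuous_snd.sub (h3.matrix_mulVec h2)).add (h2.const_smul b)).sub continuous_const
  have h2 : Continuous fun p : (Fin n × Fin n → ℝ) × Vec n =>
      ∏ i, phi (η ^ 2) ((tapb b (plant β x p.1) p.2 - y) i) :=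
    continuous_finsetProd _ fun i _ => (continuous_phi _).comp ((continuous_apply i).comp h1)
  have h3 := (h2.measurable.ennreal_ofReal.indicator hO).lintegral_prod_right'
    (ν := (volume : Measure (Vec n)))
  convert h3 using 2 with X
  have hO' : MeasurableSet (volO β x y a q c b η e X) := measurable_prodMk_left hO
  rw [← lintegral_indicator hO']
  rfl

lemma vol_big (hn : 0 < n) {β a q c K d η e b : ℝ} (hβ : 0 < β) (hβ1 : β < 1) (ha : 0 < a)
    (hK : 1 ≤ K) (hd : 0 < d) (hd1 : d ≤ 1 / 100) (hη : 0 < η) (hηK : η * K ^ 2 ≤ d)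
    (he : 3 * η * K ≤ e) (heq : e ^ 2 ≤ q) (x : Cube n) (y : Vec n) (X : Fin n × Fin n → ℝ)
    (hE : Edge β (plant β x X) a) (hJ : opn (plant β x X) ≤ 3)
    (hD : DetP β (plant β x X) K (d / 2)) {H u : Vec n}
    (hH : vn (tap β 1 (plant β x X) H - y) < d * η / 2 * √(n : ℝ))
    (hu : hess β 1 (plant β x X) H u < c * (u ⬝ᵥ u)) (hq : q < mag H ⬝ᵥ mag H / n)
    (hb0 : 0 ≤ b) (hb1 : b ≤ ons β (mag H)) (hb2 : ons β (mag H) < b + d * η / 2) :
    ENNReal.ofReal (Real.exp (-(n * (b ^ 2 / (2 * β ^ 2) + 101 * d))) / 2) ≤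
      ∫⁻ H in volO β x y a q c b η e X,
        ENNReal.ofReal (∏ i, phi (η ^ 2) ((tapb b (plant β x X) H - y) i)) := by
  have hn' : (0 : ℝ) < n := Nat.cast_pos.2 hn
  have hs := Real.sqrt_pos.2 hn'
  have hβ2 : β ^ 2 ≤ 1 := pow_le_one₀ hβ.le hβ1.le
  have hq0 : 0 ≤ mag H ⬝ᵥ mag H / n := div_nonneg (dot_nonneg _) hn'.le
  have hons : ons β (mag H) ≤ β ^ 2 := mul_le_of_le_one_right (sq_nonneg _) (by linarith)
  have hηK1 : η * K ≤ d := le_trans (mul_le_mul_of_nonneg_left (by nlinarith) hη.le) hηK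
  have hη1 : η ≤ d := le_trans (le_mul_of_one_le_right hη.le hK) hηK1
  obtain ⟨N, hN, hF, hdet⟩ := hD (dd H) (dom_dd H)
  have hO : MeasurableSet (volO β x y a q c b η e X) :=
    measurable_prodMk_left (isOpen_volO β x y a q c b η e).measurableSet
  refine le_trans (ENNReal.ofReal_le_ofReal ?_) (vol_lower hn (N := N) (H₀ := H) hJ
    ⟨hb0, by linarith⟩ hK hd hd1 hη hηK hN ?_ ?_ hO fun H' h1 h2 => ?_)
  · rw [div_mul_eq_mul_div]
    refine div_le_div_of_nonneg_right (le_trans ?_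
      (mul_le_mul_of_nonneg_right hdet (Real.exp_pos _).le)) zero_le_two
    rw [← Real.exp_add]
    refine Real.exp_le_exp.2 ?_
    have h1 : β ^ 2 * avg (dd H) ^ 2 / 2 = ons β (mag H) ^ 2 / (2 * β ^ 2) := by
      rw [ons_mag hn]; field_simp
    have h2 : ons β (mag H) ^ 2 / (2 * β ^ 2) ≤ b ^ 2 / (2 * β ^ 2) + d / 2 := by
      rw [div_add' _ _ _ (by positivity)]
      refine div_le_div_of_nonneg_right ?_ (by positivity)
      have h3 : ons β (mag H) - b ≤ d / 2 := by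
        linarith only [hb2, mul_le_of_le_one_right hd.le (show η ≤ 1 by linarith)]
      have h4 := mul_le_mul h3 (show ons β (mag H) + b ≤ 2 * β ^ 2 by linarith) (by linarith)
        (by positivity)
      linarith
    rw [h1]
    linarith only [mul_le_mul_of_nonneg_left h2 hn'.le]
  · have h1 : (1 - (plant β x X - b • (1 : Mat n)) * diagonal (dd H)) * N - 1 =
        ((1 - lmat β 1 (plant β x X) (dd H) * diagonal (dd H)) * N - 1) -
          (ons β (mag H) - b) • (diagonal (dd H) * N) := by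
      simp only [lmat, ons_mag hn, one_pow, one_mul, one_smul, sub_mul, smul_mul_assoc, sub_smul,
        Matrix.mul_assoc]
      abel
    have h2 : opn (diagonal (dd H)) ≤ 1 := opn_diagonal_le zero_le_one fun i => by
      rw [abs_of_pos (dom_dd H i).1]; exact (dom_dd H i).2
    have h3 : fro (diagonal (dd H) * N) ≤ K * √(n : ℝ) := by
      refine (fro_le_opn _).trans (mul_le_mul_of_nonneg_right ((opn_mul_le _ _).trans ?_) hs.le)
      nlinarith [opn_nonneg N, opn_nonneg (diagonal (dd H))]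
    rw [h1]
    refine (fro_sub_le _ _).trans ?_
    rw [fro_smul, abs_of_nonneg (by linarith)]
    have h4 := mul_le_mul (show ons β (mag H) - b ≤ d * η / 2 by linarith) h3 (fro_nonneg _)
      (by positivity)
    have h5 : d * η / 2 * (K * √(n : ℝ)) ≤ d / 2 * √(n : ℝ) := by
      rw [show d * η / 2 * (K * √(n : ℝ)) = d / 2 * √(n : ℝ) * (η * K) by ring]
      exact mul_le_of_le_one_right (by positivity) (by linarith)
    linarith
  · have h1 : tapb b (plant β x X) H - y =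
        (tap β 1 (plant β x X) H - y) - (ons β (mag H) - b) • mag H := by
      simp only [tapb, tap, one_pow, one_mul, one_smul, sub_smul]
      abel
    rw [h1]
    refine (vn_sub_le _ _).trans ?_
    rw [vn_smul, abs_of_nonneg (by linarith)]
    have h4 := mul_le_mul (show ons β (mag H) - b ≤ d * η / 2 by linarith) (vn_mag_le H)
      (vn_nonneg _) (by positivity)
    linarith
  · have h3 : vn (H - H') < e * √(n : ℝ) := by
      rw [vn_sub_comm]
      exact h1.trans_le (mul_le_mul_of_nonneg_right he hs.le)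
    have h4 : 0 < mag H' ⬝ᵥ mag H' := by
      refine lt_of_le_of_ne (dot_nonneg _) fun h => ?_
      rw [dot_self] at h
      have h5 := (vn_mag_sub_le H H').trans_lt h3
      rw [vn_eq_zero (pow_eq_zero_iff two_ne_zero |>.1 h.symm), sub_zero] at h5
      have h6 := pow_lt_pow_left₀ h5 (vn_nonneg _) two_ne_zero
      rw [mul_pow, Real.sq_sqrt hn'.le] at h6
      rw [lt_div_iff₀ hn', dot_self] at hq
      linarith only [hq, h6, mul_le_mul_of_nonneg_right heq hn'.le]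
    have h5 : (sv x ⬝ᵥ mag H') ^ 2 / n ≤ mag H' ⬝ᵥ mag H' := by
      rw [div_le_iff₀ hn', mul_comm]
      have := dot_sq_le (sv x) (mag H')
      rwa [dot_self (sv x), vn_sv, Real.sq_sqrt hn'.le] at this
    have h6 : 0 ≤ (sv x ⬝ᵥ mag H') ^ 2 / n := by positivity
    have h7 := hE (mag H')
    have h8 := (abs_le.1 (abs_dot_mulVec_le (plant β x X) (mag H') (mag H'))).1
    rw [mul_assoc, ← sq, ← dot_self] at h8
    have h9 := mul_le_mul_of_nonneg_right hJ h4.le
    have h10 := mul_le_mul hβ2 h5 h6 zero_le_one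
    refine ⟨h2, ?_, ?_, H, u, h3, hq, ?_, hu⟩
    · rw [goe_quad β x]
      linarith only [h7, mul_pos ha h4, mul_nonneg (sq_nonneg β) h6]
    · rw [goe_quad β x]
      linarith only [h4, h8, h9, h10]
    · rw [abs_of_nonneg (by linarith only [hb1])]
      have h11 := mul_le_mul_of_nonneg_right hd1 hη.le
      have h12 := le_mul_of_one_le_right hη.le hK
      linarith only [hb2, h11, h12, he, hη]

end Plant

open Plant in
/-- Choose `a, q₀` with `(1-β)² - a - 3 β² q₀ > 0` and `β + 2a < 1`: if `mag H ⬝ mag H / n ≤ q₀` then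
`Edge` gives positivity directly. Otherwise round `ons β (mag H)` down to a grid point `b`, take `N`
from `DetP` at `dd H`, apply `vol_lower` to `O = volO …` (note `goe X = plant X - (β²/n) x xᵀ`, so
`M ⬝ goe X M ≤ (2β + a) M ⬝ M` and `≥ -4 M ⬝ M`), then Markov with `count_fixed` and a union bound
over the grid. Constants: `δ' = c/1000`, `η ≤ min e₀ (δ'/K²)`, `3 η K ≤ e ≤ e₀`, `ρ` and the mesh
at most `δ' η / 2`, and `δ ≤ δ'/2`. -/
theorem planted {β : ℝ} (hβ : 0 < β) (hβ1 : β < 1) :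
    ∃ a c₀ : ℝ, 0 < a ∧ 0 < c₀ ∧ c₀ ≤ 1 / 4 ∧ ∀ K : ℝ, 1 ≤ K →
      ∃ δ ρ c : ℝ, 0 < δ ∧ 0 < ρ ∧ ρ ≤ 1 ∧ 0 < c ∧ ∀ᶠ n : ℕ in atTop, ∀ (x : Cube n) (y : Vec n),
        gp (Fin n × Fin n) {X | Edge β (plant β x X) a ∧ opn (plant β x X) ≤ 3 ∧
          DetP β (plant β x X) K δ ∧ ¬ HP β 1 (plant β x X) c₀ ρ y} ≤
          ENNReal.ofReal (Real.exp (-(c * n))) := by
  have hg : 0 < 1 - β := by linarith
  have hg2 : (1 - β) ^ 2 ≤ 1 - β := by nlinarith
  have hβ2 : β ^ 2 ≤ 1 := pow_le_one₀ hβ.le hβ1.le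
  obtain ⟨c₀, c, e₀, hc₀, hc, he₀, hcount⟩ := count_fixed (a := (1 - β) ^ 2 / 4)
    (q₀ := (1 - β) ^ 2 / 12) hβ (by positivity) (by linarith) (by positivity)
  refine ⟨(1 - β) ^ 2 / 4, min c₀ ((1 - β) ^ 2 / 4), by positivity, by positivity,
    (min_le_right _ _).trans (by linarith), fun K hK => ?_⟩
  obtain ⟨d, hd, hd1, hdc⟩ : ∃ d : ℝ, 0 < d ∧ d ≤ 1 / 100 ∧ d ≤ c / 202 :=
    ⟨min (1 / 100) (c / 202), by positivity, min_le_left _ _, min_le_right _ _⟩
  obtain ⟨e, he, he1, he2⟩ : ∃ e : ℝ, 0 < e ∧ e ≤ e₀ ∧ e ≤ (1 - β) ^ 2 / 12 :=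
    ⟨min e₀ ((1 - β) ^ 2 / 12), by positivity, min_le_left _ _, min_le_right _ _⟩
  obtain ⟨η, hη, hη1, hη2⟩ : ∃ η : ℝ, 0 < η ∧ η * K ^ 2 ≤ d ∧ 3 * η * K ≤ e := by
    refine ⟨min (d / K ^ 2) (e / (3 * K)), by positivity,
      (le_div_iff₀ (by positivity)).1 (min_le_left _ _), ?_⟩
    have := (le_div_iff₀ (by positivity)).1 (min_le_right (d / K ^ 2) (e / (3 * K)))
    linarith
  have hηe : η ≤ e₀ := by nlinarith
  have hηd : η ≤ d := le_trans (le_mul_of_one_le_right hη.le (one_le_pow₀ hK)) hη1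
  obtain ⟨m, hm⟩ : ∃ m : ℝ, m = d * η / 2 := ⟨_, rfl⟩
  have hm0 : 0 < m := by rw [hm]; positivity
  refine ⟨d / 2, d * η / 2, c / 4, by positivity, by positivity, by nlinarith, by positivity, ?_⟩
  have hG : ∀ᶠ n : ℕ in atTop, Real.exp (-(c / 4 * n)) ≤ 1 / (2 * ((⌊1 / m⌋₊ + 1 : ℕ) : ℝ)) :=
    (RMEdge.tendsto_exp (c := c / 4) (by positivity)).eventually (ge_mem_nhds (by positivity))
  filter_upwards [eventually_gt_atTop 0, hcount e η he he1 hη hηe, hG] with n hn hcn hGn x y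
  have hn' : (0 : ℝ) < n := Nat.cast_pos.2 hn
  have h := RMEdge.measure_biUnion_le' (gp (Fin n × Fin n))
    ((Finset.range (⌊1 / m⌋₊ + 1)).filter fun k : ℕ => k * m ≤ β ^ 2)
    (fun k => {X | ENNReal.ofReal (Real.exp (-(n * ((k * m) ^ 2 / (2 * β ^ 2) + 101 * d))) / 2) ≤
      ∫⁻ H in volO β x y ((1 - β) ^ 2 / 4) ((1 - β) ^ 2 / 12) c₀ (k * m) η e X,
        ENNReal.ofReal (∏ i, phi (η ^ 2) ((tapb (k * m) (plant β x X) H - y) i))})
    (b := 2 * Real.exp (-(c / 2 * n))) fun k hk => by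
      refine (meas_ge_le_lintegral_div (meas_vol β x y _ _ _ _ _ _).aemeasurable
        (ENNReal.ofReal_pos.2 (by positivity)).ne' ENNReal.ofReal_ne_top).trans ?_
      refine (ENNReal.div_le_div_right (hcn x y (k * m) (by positivity)
        (Finset.mem_filter.1 hk).2) _).trans ?_
      rw [← ENNReal.ofReal_div_of_pos (by positivity), div_div_eq_mul_div, mul_comm,
        mul_div_assoc, ← Real.exp_sub]
      refine ENNReal.ofReal_le_ofReal (mul_le_mul_of_nonneg_left (Real.exp_le_exp.2 ?_) zero_le_two)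
      nlinarith [mul_le_mul_of_nonneg_left hdc hn'.le]
  refine le_trans (measure_mono fun X hX => ?_) (h.trans (ENNReal.ofReal_le_ofReal ?_))
  · obtain ⟨hE, hJ, hD, hH⟩ := hX
    simp only [HP, not_forall, not_le] at hH
    obtain ⟨H, hH, u, hu⟩ := hH
    have hu0 := dot_nonneg u
    have hq : (1 - β) ^ 2 / 12 < mag H ⬝ᵥ mag H / n := by
      by_contra hq
      have h1 := hess_small hn hE (not_lt.1 hq) u
      have h2 := mul_le_mul_of_nonneg_right (show min c₀ ((1 - β) ^ 2 / 4) ≤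
        (1 - β) ^ 2 - (1 - β) ^ 2 / 4 - 3 * β ^ 2 * ((1 - β) ^ 2 / 12) from
          (min_le_right _ _).trans (by nlinarith [sq_nonneg (1 - β)])) hu0
      linarith
    have hq1 := mag_sq_le hn H
    have ho0 : 0 ≤ ons β (mag H) := mul_nonneg (sq_nonneg _) (by linarith)
    have ho1 : ons β (mag H) ≤ β ^ 2 :=
      mul_le_of_le_one_right (sq_nonneg _) (by nlinarith [sq_nonneg (1 - β)])
    have hk1 : (⌊ons β (mag H) / m⌋₊ : ℝ) * m ≤ ons β (mag H) :=
      (le_div_iff₀ hm0).1 (Nat.floor_le (by positivity))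
    have hk2 : ons β (mag H) < (⌊ons β (mag H) / m⌋₊ : ℝ) * m + d * η / 2 := by
      have := (div_lt_iff₀ hm0).1 (Nat.lt_floor_add_one (ons β (mag H) / m))
      linarith
    refine Set.mem_iUnion₂.2 ⟨⌊ons β (mag H) / m⌋₊, Finset.mem_filter.2 ⟨Finset.mem_range.2
      (Nat.lt_succ_of_le (Nat.floor_mono (div_le_div_of_nonneg_right (by linarith) hm0.le))),
      hk1.trans ho1⟩, ?_⟩
    exact vol_big hn hβ hβ1 (by positivity) hK hd hd1 hη hη1 hη2 (by nlinarith) x y X hE hJ hD hH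
      (hu.trans_le (mul_le_mul_of_nonneg_right (min_le_left _ _) hu0)) hq (by positivity) hk1 hk2
  · have h1 : ((((Finset.range (⌊1 / m⌋₊ + 1)).filter fun k : ℕ => k * m ≤ β ^ 2).card : ℕ) : ℝ) ≤
        ((⌊1 / m⌋₊ + 1 : ℕ) : ℝ) := by
      exact_mod_cast (Finset.card_filter_le _ _).trans (Finset.card_range _).le
    refine (mul_le_mul_of_nonneg_right h1 (by positivity)).trans ?_
    rw [le_div_iff₀ (by positivity)] at hGn
    have h2 : Real.exp (-(c / 2 * n)) = Real.exp (-(c / 4 * n)) * Real.exp (-(c / 4 * n)) := by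
      rw [← Real.exp_add]; congr 1; ring
    rw [h2]
    nlinarith [mul_le_mul_of_nonneg_right hGn (Real.exp_pos (-(c / 4 * n))).le]

end Vale.Agent.P150
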