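import Vale.Agent.P150.Objs

/-! General facts on matrix exponentials of reversible chains, and sums over pairs. -/

open MeasureTheory ProbabilityTheory Matrix Filter Topology
open scoped ENNReal NNReal Nat

namespace Vale.Agent.P150

namespace Semi

section Gen

variable {S : Type} [Fintype S] [DecidableEq S]

set_option backward.isDefEq.respectTransparency false in
theorem hasSum_exp (A : Matrix S S ℝ) :
    HasSum (fun j : ℕ => ((j ! : ℝ)⁻¹) • A ^ j) (NormedSpace.exp A) :=
  open scoped Matrix.Norms.Operator in NormedSpace.exp_series_hasSum_exp' (𝕂 := ℝ) A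

theorem hasSum_rexp (a : ℝ) : HasSum (fun j : ℕ => a ^ j / j !) (Real.exp a) := by
  rw [Real.exp_eq_exp_ℝ]
  exact NormedSpace.expSeries_div_hasSum_exp a

theorem hasSum_exp_entry (A : Matrix S S ℝ) (a : ℝ) (x y : S) :
    HasSum (fun j : ℕ => a ^ j / j ! * (A ^ j) x y) (NormedSpace.exp (a • A) x y) := by
  have h := Pi.hasSum.1 (Pi.hasSum.1 (hasSum_exp (a • A)) x) y
  refine h.congr_fun fun j => ?_
  simp only [smul_pow, Matrix.smul_apply, smul_eq_mul]
  ring

theorem exp_smul_one (a : ℝ) : NormedSpace.exp (a • (1 : Matrix S S ℝ)) = Real.exp a • 1 := by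
  ext x y
  refine (hasSum_exp_entry 1 a x y).unique ?_
  simp only [one_pow, Matrix.smul_apply, smul_eq_mul]
  exact (hasSum_rexp a).mul_right _

theorem exp_sub_one (Q : Matrix S S ℝ) (a : ℝ) (x y : S) :
    HasSum (fun j : ℕ => Real.exp (-a) * (a ^ j / j !) * (Q ^ j) x y)
      (NormedSpace.exp (a • (Q - 1)) x y) := by
  have h : a • (Q - 1) = (-a) • (1 : Matrix S S ℝ) + a • Q := by
    rw [smul_sub, neg_smul]
    abel
  rw [h, Matrix.exp_add_of_commute _ _ (((Commute.one_left Q).smul_left _).smul_right _),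
    exp_smul_one, Matrix.smul_mul, one_mul, Matrix.smul_apply, smul_eq_mul]
  simpa only [mul_assoc] using (hasSum_exp_entry Q a x y).mul_left (Real.exp (-a))

theorem exp_eigen {L : Matrix S S ℝ} {ψ : S → ℝ} {μ : ℝ} (h : L *ᵥ ψ = μ • ψ) (t : ℝ) (x : S) :
    ∑ y, NormedSpace.exp (t • L) x y * ψ y = Real.exp (t * μ) * ψ x := by
  have h1 : ∀ j : ℕ, L ^ j *ᵥ ψ = μ ^ j • ψ := fun j => by
    induction j with
    | zero => simp
    | succ j ih => rw [pow_succ', ← mulVec_mulVec, ih, mulVec_smul, h, smul_smul, pow_succ]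
  have h2 := hasSum_sum (s := Finset.univ)
    fun y _ => (hasSum_exp_entry L t x y).mul_right (ψ y)
  refine h2.unique (((hasSum_rexp (t * μ)).mul_right (ψ x)).congr_fun fun j => ?_)
  have h3 := congrFun (h1 j) x
  simp only [mulVec, dotProduct, Pi.smul_apply, smul_eq_mul] at h3
  simp only [mul_assoc, ← Finset.mul_sum, h3, mul_pow]
  ring

/-- A reversible stochastic matrix. -/
structure Rev (π : S → ℝ) (Q : Matrix S S ℝ) : Prop where
  pos : ∀ x, 0 < π x
  one : ∑ x, π x = 1
  nn : ∀ x y, 0 ≤ Q x y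
  row : ∀ x, ∑ y, Q x y = 1
  rev : ∀ x y, π x * Q x y = π y * Q y x

variable {π : S → ℝ} {Q : Matrix S S ℝ}

theorem Rev.pow_rev (h : Rev π Q) (j : ℕ) : ∀ x y, π x * (Q ^ j) x y = π y * (Q ^ j) y x := by
  induction j with
  | zero =>
    intro x y
    by_cases e : x = y
    · rw [e]
    · simp [e, Ne.symm e]
  | succ j ih =>
    intro x y
    conv_lhs => rw [pow_succ]
    conv_rhs => rw [pow_succ']
    simp only [Matrix.mul_apply, Finset.mul_sum]
    refine Finset.sum_congr rfl fun z _ => ?_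
    calc π x * ((Q ^ j) x z * Q z y) = π x * (Q ^ j) x z * Q z y := by ring
      _ = π z * Q z y * (Q ^ j) z x := by rw [ih]; ring
      _ = _ := by rw [h.rev]; ring

theorem Rev.step (h : Rev π Q) (j : ℕ) (x : S) :
    ∑ y, |(Q ^ (j + 1)) x y - π y| ≤ ∑ y, |(Q ^ j) x y - π y| := by
  have h1 : ∀ y, (Q ^ (j + 1)) x y - π y = ∑ z, ((Q ^ j) x z - π z) * Q z y := fun y => by
    simp only [sub_mul, Finset.sum_sub_distrib, h.rev, ← Finset.mul_sum, h.row, mul_one]
    rw [pow_succ, Matrix.mul_apply]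
  calc ∑ y, |(Q ^ (j + 1)) x y - π y| ≤ ∑ y, ∑ z, |(Q ^ j) x z - π z| * Q z y := by
        refine Finset.sum_le_sum fun y _ => ?_
        rw [h1]
        refine (Finset.abs_sum_le_sum_abs _ _).trans (le_of_eq ?_)
        exact Finset.sum_congr rfl fun z _ => by rw [abs_mul, abs_of_nonneg (h.nn z y)]
    _ = _ := by
        rw [Finset.sum_comm]
        simp only [← Finset.mul_sum, h.row, mul_one]

theorem Rev.anti (h : Rev π Q) (x : S) : Antitone fun j : ℕ => ∑ y, |(Q ^ j) x y - π y| :=
  antitone_nat_of_succ_le fun j => h.step j x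

theorem Rev.le_two (h : Rev π Q) (x : S) (j : ℕ) : ∑ y, |(Q ^ j) x y - π y| ≤ 2 := by
  refine (h.anti x (Nat.zero_le j)).trans ?_
  have h1 : ∀ y, |(Q ^ 0) x y - π y| ≤ (1 : Matrix S S ℝ) x y + π y := fun y => by
    rw [pow_zero]
    refine (abs_sub _ _).trans (le_of_eq ?_)
    rw [abs_of_pos (h.pos y), abs_of_nonneg]
    rw [Matrix.one_apply]
    split_ifs <;> norm_num
  refine (Finset.sum_le_sum fun y _ => h1 y).trans (le_of_eq ?_)
  rw [Finset.sum_add_distrib, h.one]
  simp [Matrix.one_apply]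
  norm_num

theorem tail_le {k : ℕ} (hk : 0 < k) :
    ∑ j ∈ Finset.range k, Real.exp (-(4 * k : ℝ)) * ((4 * k : ℝ) ^ j / j !) ≤ 1 / (2 * k) := by
  have h0 : (0 : ℝ) < k := by positivity
  have he : (2 : ℝ) ≤ Real.exp 1 := by linarith [Real.add_one_le_exp 1]
  have h1 : ∑ j ∈ Finset.range k, (4 * k : ℝ) ^ j / j ! ≤ 2 ^ k * Real.exp (2 * k) := by
    refine le_trans ?_ (mul_le_mul_of_nonneg_left
      (Real.sum_le_exp_of_nonneg (x := 2 * k) (by positivity) k) (by positivity))
    rw [Finset.mul_sum]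
    refine Finset.sum_le_sum fun j hj => ?_
    have h2 : (2 : ℝ) ^ j ≤ 2 ^ k := pow_le_pow_right₀ one_le_two (Finset.mem_range.1 hj).le
    have h3 : (4 * k : ℝ) ^ j = 2 ^ j * (2 * k) ^ j := by rw [← mul_pow]; ring_nf
    rw [h3, mul_div_assoc]
    exact mul_le_mul_of_nonneg_right h2 (by positivity)
  have h4 : (2 : ℝ) ^ k ≤ Real.exp k := by
    rw [← Real.exp_one_pow]
    exact pow_le_pow_left₀ zero_le_two he k
  have h5 : 2 * (k : ℝ) ≤ Real.exp k := by
    have h6 := Real.add_one_le_exp ((k : ℝ) - 1)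
    have h7 : Real.exp k = Real.exp 1 * Real.exp (k - 1) := by
      rw [← Real.exp_add]; ring_nf
    rw [h7]
    exact mul_le_mul he (by linarith) h0.le (by positivity)
  rw [← Finset.mul_sum, le_div_iff₀ (by positivity)]
  have h8 : Real.exp (-(4 * k : ℝ)) * (Real.exp k * Real.exp (2 * k)) * Real.exp k = 1 := by
    rw [← Real.exp_add, ← Real.exp_add, ← Real.exp_add]
    ring_nf
    exact Real.exp_zero
  rw [← h8]
  refine mul_le_mul (mul_le_mul_of_nonneg_left (h1.trans ?_) (by positivity)) h5 (by positivity)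
    (by positivity)
  exact mul_le_mul_of_nonneg_right h4 (by positivity)

theorem Rev.poisson (h : Rev π Q) (x : S) {k : ℕ} (hk : 0 < k) {e : ℝ}
    (he : ∑ y, |(Q ^ k) x y - π y| ≤ e) :
    ∑ y, |NormedSpace.exp ((4 * k : ℝ) • (Q - 1)) x y - π y| ≤ e + 1 / k := by
  set w : ℕ → ℝ := fun j => Real.exp (-(4 * k : ℝ)) * ((4 * k : ℝ) ^ j / j !) with hw
  have hw0 : ∀ j, 0 ≤ w j := fun j => by positivity
  have hw1 : HasSum w 1 := by
    have := (hasSum_rexp (4 * k : ℝ)).mul_left (Real.exp (-(4 * k : ℝ)))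
    rwa [← Real.exp_add, neg_add_cancel, Real.exp_zero] at this
  have he0 : 0 ≤ e := (Finset.sum_nonneg fun _ _ => abs_nonneg _).trans he
  have h1 : ∀ y, HasSum (fun j => w j * ((Q ^ j) x y - π y))
      (NormedSpace.exp ((4 * k : ℝ) • (Q - 1)) x y - π y) := fun y => by
    have := (exp_sub_one Q (4 * k) x y).sub (hw1.mul_right (π y))
    rw [one_mul] at this
    exact this.congr_fun fun j => mul_sub _ _ _
  have h2 : HasSum (fun j => w j * e + if j ∈ Finset.range k then 2 * w j else 0)
      (1 * e + ∑ j ∈ Finset.range k, 2 * w j) := by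
    refine (hw1.mul_right e).add ?_
    have := hasSum_sum_of_ne_finset_zero (L := SummationFilter.unconditional ℕ)
      (f := fun j => if j ∈ Finset.range k then 2 * w j else 0) (s := Finset.range k)
      fun j hj => if_neg hj
    rwa [Finset.sum_congr rfl fun j hj => if_pos hj] at this
  have h3 : ∀ y, |NormedSpace.exp ((4 * k : ℝ) • (Q - 1)) x y - π y| =
      SignType.sign (NormedSpace.exp ((4 * k : ℝ) • (Q - 1)) x y - π y) *
        (NormedSpace.exp ((4 * k : ℝ) • (Q - 1)) x y - π y) := fun y => (sign_mul_self _).symm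
  have h4 := hasSum_sum (s := Finset.univ) fun y _ => (h1 y).mul_left
    (SignType.sign (NormedSpace.exp ((4 * k : ℝ) • (Q - 1)) x y - π y) : ℝ)
  have h5 : ∑ j ∈ Finset.range k, 2 * w j ≤ 1 / k := by
    rw [← Finset.mul_sum]
    have := tail_le hk
    have h0 : (0 : ℝ) < k := by positivity
    calc 2 * ∑ j ∈ Finset.range k, w j ≤ 2 * (1 / (2 * k)) := by linarith
      _ = 1 / k := by field_simp
  simp only [h3]
  refine (hasSum_le (fun j => ?_) h4 h2).trans (by linarith)
  have h6 : ∑ y, (SignType.sign (NormedSpace.exp ((4 * k : ℝ) • (Q - 1)) x y - π y) : ℝ) *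
      (w j * ((Q ^ j) x y - π y)) ≤ w j * ∑ y, |(Q ^ j) x y - π y| := by
    rw [Finset.mul_sum]
    refine Finset.sum_le_sum fun y _ => (le_abs_self _).trans ?_
    rw [abs_mul, abs_mul, abs_of_nonneg (hw0 j)]
    refine mul_le_of_le_one_left (mul_nonneg (hw0 j) (abs_nonneg _)) ?_
    rcases SignType.sign (NormedSpace.exp ((4 * k : ℝ) • (Q - 1)) x y - π y) with _ | _ | _ <;>
      simp
  refine h6.trans ?_
  split_ifs with hj
  · nlinarith [mul_le_mul_of_nonneg_left (h.le_two x j) (hw0 j), mul_nonneg (hw0 j) he0]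
  · have hkj : k ≤ j := by simpa using hj
    rw [add_zero]
    exact mul_le_mul_of_nonneg_left ((h.anti x hkj).trans he) (hw0 j)

/-- Spectral bound from a bound on the semigroup. -/
theorem gap_form {L : Matrix S S ℝ} (hpos : ∀ x, 0 < π x)
    (hrev : ∀ x y, π x * L x y = π y * L y x) (hrow : ∀ x, ∑ y, L x y = 0) (hone : ∑ x, π x = 1)
    {t a : ℝ} (ht : 0 < t)
    (h : ∀ x, ∑ y, |NormedSpace.exp (t • L) x y - π y| ≤ a) (f : S → ℝ) :
    -Real.log a / t * (∑ x, π x * f x ^ 2 - (∑ x, π x * f x) ^ 2) ≤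
      -∑ x, π x * f x * (L *ᵥ f) x := by
  set c := -Real.log a / t with hc
  let s : S → ℝ := fun x => √(π x)
  have hs : ∀ x, 0 < s x := fun x => Real.sqrt_pos.2 (hpos x)
  have hss : ∀ x, s x * s x = π x := fun x => Real.mul_self_sqrt (hpos x).le
  let M : Matrix S S ℝ := Matrix.of fun x y => -L x y + c * π y - if x = y then c else 0
  have hM : ∀ (ψ : S → ℝ) (x : S),
      ∑ y, M x y * ψ y = -(L *ᵥ ψ) x + c * ∑ y, π y * ψ y - c * ψ x := fun ψ x => by
    simp [M, mulVec, dotProduct, sub_mul, add_mul, Finset.sum_sub_distrib, Finset.sum_add_distrib,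
      Finset.mul_sum, mul_assoc]
  let T : Matrix S S ℝ := Matrix.of fun x y => s x * M x y / s y
  have hT : T.IsHermitian := by
    ext x y
    have h1 : π y * M y x = π x * M x y := by
      have := hrev x y
      by_cases e : x = y
      · rw [e]
      · simp only [M, of_apply, if_neg e, if_neg (Ne.symm e)]
        linarith
    simp only [conjTranspose_apply, star_trivial, T, of_apply]
    rw [div_eq_div_iff (hs x).ne' (hs y).ne']
    rw [← hss, ← hss] at h1
    linarith
  have hTv : ∀ (ψ : S → ℝ) (x : S), (T *ᵥ fun y => s y * ψ y) x = s x * ∑ y, M x y * ψ y := by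
    intro ψ x
    simp only [mulVec, dotProduct, T, of_apply, Finset.mul_sum]
    refine Finset.sum_congr rfl fun y _ => ?_
    have := (hs y).ne'
    field_simp
  have hst : ∀ ψ : S → ℝ, ∑ x, π x * (L *ᵥ ψ) x = 0 := fun ψ => by
    simp only [mulVec, dotProduct, Finset.mul_sum, ← mul_assoc]
    rw [Finset.sum_comm]
    refine Finset.sum_eq_zero fun y _ => ?_
    rw [← Finset.sum_mul, Finset.sum_congr rfl fun x _ => hrev x y, ← Finset.mul_sum, hrow,
      mul_zero, zero_mul]
  have hP : T.PosSemidef := by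
    rw [hT.posSemidef_iff_eigenvalues_nonneg]
    intro j
    set μ := hT.eigenvalues j with hμ
    have h1 := hT.mulVec_eigenvectorBasis j
    have h2 : (hT.eigenvectorBasis j).ofLp ≠ 0 := fun e =>
      hT.eigenvectorBasis.orthonormal.ne_zero j (by ext x; exact congrFun e x)
    generalize (hT.eigenvectorBasis j).ofLp = v at h1 h2
    obtain ⟨ψ, rfl⟩ : ∃ ψ : S → ℝ, v = fun y => s y * ψ y :=
      ⟨fun y => v y / s y, funext fun y => by have := (hs y).ne'; field_simp⟩
    have h3 : ∀ x, -(L *ᵥ ψ) x + c * ∑ y, π y * ψ y - c * ψ x = μ * ψ x := fun x => by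
      have h4 := congrFun h1 x
      rw [hTv, hM, Pi.smul_apply, smul_eq_mul, mul_left_comm] at h4
      exact mul_left_cancel₀ (hs x).ne' h4
    have h5 : μ * ∑ y, π y * ψ y = 0 := by
      have h6 : ∑ x, π x * (μ * ψ x) =
          ∑ x, π x * (-(L *ᵥ ψ) x + c * ∑ y, π y * ψ y - c * ψ x) := by simp only [h3]
      simp only [mul_sub, mul_add, mul_neg, Finset.sum_sub_distrib, Finset.sum_add_distrib,
        Finset.sum_neg_distrib, hst, ← Finset.sum_mul, hone, mul_left_comm (π _),
        ← Finset.mul_sum] at h6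
      linarith
    rcases mul_eq_zero.1 h5 with h6 | h6
    · exact h6.ge
    have h7 : L *ᵥ ψ = (-(μ + c)) • ψ := funext fun x => by
      have := h3 x
      rw [h6] at this
      rw [Pi.smul_apply, smul_eq_mul]
      linarith
    obtain ⟨x₀, hx₀⟩ : ∃ x, ψ x ≠ 0 := by
      by_contra hn
      push Not at hn
      exact h2 (funext fun y => by simp [hn y])
    obtain ⟨x, -, hx⟩ := Finset.exists_max_image Finset.univ (fun x => |ψ x|) ⟨x₀, by simp⟩
    have hx0 : 0 < |ψ x| := (abs_pos.2 hx₀).trans_le (hx x₀ (by simp))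
    have h8 : Real.exp (t * -(μ + c)) * ψ x = ∑ y, (NormedSpace.exp (t • L) x y - π y) * ψ y := by
      simp only [sub_mul, Finset.sum_sub_distrib, h6, sub_zero]
      exact (exp_eigen h7 t x).symm
    have h9 : Real.exp (t * -(μ + c)) * |ψ x| ≤ a * |ψ x| := by
      rw [← abs_of_pos (Real.exp_pos _), ← abs_mul, h8]
      refine (Finset.abs_sum_le_sum_abs _ _).trans (le_trans ?_
        (mul_le_mul_of_nonneg_right (h x) hx0.le))
      rw [Finset.sum_mul]
      refine Finset.sum_le_sum fun y _ => ?_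
      rw [abs_mul]
      exact mul_le_mul_of_nonneg_left (hx y (by simp)) (abs_nonneg _)
    have h10 := Real.log_le_log (Real.exp_pos _) (le_of_mul_le_mul_right h9 hx0)
    rw [Real.log_exp] at h10
    have h11 : t * c = -Real.log a := by rw [hc]; field_simp
    have h12 : 0 ≤ t * μ := by linarith
    exact nonneg_of_mul_nonneg_right h12 ht
  have h1 := hP.dotProduct_mulVec_nonneg fun y => s y * f y
  simp only [star_trivial, dotProduct, hTv, hM] at h1
  have h2 : ∀ x, s x * f x * (s x * (-(L *ᵥ f) x + c * ∑ y, π y * f y - c * f x)) =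
      -(π x * f x * (L *ᵥ f) x) + π x * f x * (c * ∑ y, π y * f y) - c * (π x * f x ^ 2) := by
    intro x
    rw [← hss x]
    ring
  simp only [h2, Finset.sum_sub_distrib, Finset.sum_add_distrib, Finset.sum_neg_distrib,
    ← Finset.sum_mul, ← Finset.mul_sum] at h1
  nlinarith

end Gen

variable {n : ℕ}

theorem sum_pair (F : Fin n → Fin n → ℝ) :
    ∑ p : Pair n, F p.1.1 p.1.2 = ∑ i, ∑ j, if i < j then F i j else 0 := by
  rw [← Fintype.sum_prod_type', ← Finset.sum_filter]
  exact (Finset.sum_subtype _ (by simp) fun q : Fin n × Fin n => F q.1 q.2).symm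

theorem sym_comm (g : Pair n → ℝ) (i j : Fin n) : sym g i j = sym g j i := by
  unfold sym
  rcases lt_trichotomy i j with h | h | h
  · simp [h, h.not_gt]
  · simp [h]
  · simp [h, h.not_gt]

theorem sym_self (g : Pair n → ℝ) (i : Fin n) : sym g i i = 0 := by simp [sym]

theorem sym_pair (g : Pair n → ℝ) (p : Pair n) : sym g p.1.1 p.1.2 = g p := by
  simp [sym, p.2]

theorem sum_symm {F : Fin n → Fin n → ℝ} (h : ∀ i j, F i j = F j i) :
    ∑ i, ∑ j, F i j = 2 * ∑ p : Pair n, F p.1.1 p.1.2 + ∑ i, F i i := by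
  have h1 : ∀ i j, F i j = (if i < j then F i j else 0) + (if j < i then F j i else 0) +
      if i = j then F i i else 0 := fun i j => by
    rcases lt_trichotomy i j with e | e | e
    · simp [e, e.not_gt, e.ne]
    · simp [e]
    · simp [e, e.not_gt, e.ne', h i j]
  have h2 : ∑ i, ∑ j, (if j < i then F j i else 0) = ∑ i, ∑ j, if i < j then F i j else 0 :=
    Finset.sum_comm
  rw [Finset.sum_congr rfl fun i _ => Finset.sum_congr rfl fun j _ => h1 i j, sum_pair]
  simp only [Finset.sum_add_distrib, h2, Finset.sum_ite_eq, Finset.mem_univ, if_true]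
  ring

theorem energy_eq (g : Pair n → ℝ) (a : Vec n) :
    ∑ p : Pair n, g p * a p.1.1 * a p.1.2 = (∑ i, ∑ j, sym g i j * a i * a j) / 2 := by
  rw [sum_symm (F := fun i j => sym g i j * a i * a j) fun i j => by rw [sym_comm]; ring]
  simp [sym_self, sym_pair]

theorem energy_split (g : Pair n → ℝ) (a : Vec n) (i : Fin n) :
    ∑ p : Pair n, g p * a p.1.1 * a p.1.2 = a i * ∑ j ∈ Finset.univ.erase i, sym g i j * a j +
      (∑ k ∈ Finset.univ.erase i, ∑ j ∈ Finset.univ.erase i, sym g k j * a k * a j) / 2 := by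
  rw [energy_eq]
  simp only [← Finset.add_sum_erase Finset.univ _ (Finset.mem_univ i), sym_self,
    Finset.sum_add_distrib, Finset.mul_sum]
  have h1 : ∑ k ∈ Finset.univ.erase i, sym g k i * a k * a i =
      ∑ k ∈ Finset.univ.erase i, a i * (sym g i k * a k) :=
    Finset.sum_congr rfl fun k _ => by rw [sym_comm]; ring
  have h2 : ∑ k ∈ Finset.univ.erase i, sym g i k * a i * a k =
      ∑ k ∈ Finset.univ.erase i, a i * (sym g i k * a k) :=
    Finset.sum_congr rfl fun k _ => by ring
  rw [h1, h2]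
  ring

theorem sum_agree (x : Cube n) (i : Fin n) (F : Cube n → ℝ) :
    ∑ y : Cube n, (if ∀ j, j ≠ i → y j = x j then F y else 0) =
      F (Function.update x i true) + F (Function.update x i false) := by
  have hne : Function.update x i true ≠ Function.update x i false := fun e => by
    simpa using congrFun e i
  rw [← Finset.sum_filter, ← Finset.sum_pair hne]
  refine Finset.sum_congr ?_ fun _ _ => rfl
  ext y
  simp only [Finset.mem_filter, Finset.mem_univ, true_and, Finset.mem_insert, Finset.mem_singleton,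
    Function.eq_update_iff]
  constructor
  · intro h
    cases hy : y i
    · exact Or.inr ⟨rfl, h⟩
    · exact Or.inl ⟨rfl, h⟩
  · rintro (h | h) <;> exact h.2

end Semi

end Vale.Agent.P150
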