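import Vale.Agent.P150.Dyn
import Vale.Agent.P150.GaussC
import Vale.Agent.P150.SemiAux

/-! Continuous time, spectral gap, and the link with the model. -/

open MeasureTheory ProbabilityTheory Matrix Filter Topology
open scoped ENNReal NNReal

namespace Vale.Agent.P150

variable {n : ℕ}

open Semi

theorem Semi.weight_pos (β : ℝ) (g : Pair n → ℝ) (x : Cube n) : 0 < weight β g x := Real.exp_pos _

theorem Semi.part_pos (β : ℝ) (g : Pair n → ℝ) : 0 < ∑ y : Cube n, weight β g y :=
  Finset.sum_pos (fun y _ => weight_pos β g y) Finset.univ_nonempty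

theorem gibbs_isP (β : ℝ) (g : Pair n → ℝ) : IsP (gibbs β g) := by
  refine ⟨fun x => div_pos (weight_pos β g x) (part_pos β g), ?_⟩
  simp only [gibbs, ← Finset.sum_div]
  exact div_self (part_pos β g).ne'

theorem Semi.field_congr (β : ℝ) (g : Pair n → ℝ) {x y : Cube n} {i : Fin n}
    (h : ∀ j, j ≠ i → y j = x j) : field β g y i = field β g x i := by
  unfold field
  congr 1
  exact Finset.sum_congr rfl fun j hj => by rw [h j (Finset.ne_of_mem_erase hj)]

theorem Semi.gibbs_local (β : ℝ) (g : Pair n → ℝ) (x : Cube n) (i : Fin n) :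
    ∃ c : ℝ, 0 < c ∧ ∀ y : Cube n, (∀ j, j ≠ i → y j = x j) →
      gibbs β g y = c * Real.exp (sp (y i) * field β g x i) := by
  refine ⟨Real.exp (β / √(n : ℝ) * ((∑ k ∈ Finset.univ.erase i, ∑ j ∈ Finset.univ.erase i,
    sym g k j * sp (x k) * sp (x j)) / 2)) / ∑ y : Cube n, weight β g y,
    div_pos (Real.exp_pos _) (part_pos β g), fun y hy => ?_⟩
  have h1 := energy_split g (fun j => sp (y j)) i
  have h2 : ∑ k ∈ Finset.univ.erase i, ∑ j ∈ Finset.univ.erase i, sym g k j * sp (y k) * sp (y j) =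
      ∑ k ∈ Finset.univ.erase i, ∑ j ∈ Finset.univ.erase i, sym g k j * sp (x k) * sp (x j) :=
    Finset.sum_congr rfl fun k hk => Finset.sum_congr rfl fun j hj => by
      rw [hy j (Finset.ne_of_mem_erase hj), hy k (Finset.ne_of_mem_erase hk)]
  rw [gibbs, weight, h1, h2, ← field_congr β g hy, div_mul_eq_mul_div (Real.exp _),
    ← Real.exp_add, field]
  congr 2
  ring

/-- The heat-bath matrix is the conditional expectation. -/
theorem heat_mulVec (β : ℝ) (g : Pair n → ℝ) (i : Fin n) (f : Cube n → ℝ) :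
    heat β g i *ᵥ f = cnd (gibbs β g) i f := by
  funext x
  obtain ⟨c, hc, h⟩ := gibbs_local β g x i
  have h1 := fun b => h (Function.update x i b) fun j hj => Function.update_of_ne hj _ _
  simp only [mulVec, dotProduct, heat, of_apply, ite_mul, zero_mul]
  rw [sum_agree x i fun y => Real.exp (sp (y i) * field β g x i) /
    (2 * Real.cosh (field β g x i)) * f y, cnd, h1, h1, Real.cosh_eq]
  simp only [Function.update_self, sp, if_true, Bool.false_eq_true, if_false, one_mul, neg_mul]
  have := Real.exp_pos (field β g x i)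
  have := Real.exp_pos (-field β g x i)
  field_simp

theorem heat_rev (β : ℝ) (g : Pair n → ℝ) (i : Fin n) (x y : Cube n) :
    gibbs β g x * heat β g i x y = gibbs β g y * heat β g i y x := by
  simp only [heat, of_apply]
  by_cases hxy : ∀ j, j ≠ i → y j = x j
  · obtain ⟨c, -, h⟩ := gibbs_local β g x i
    have h' : ∀ j, j ≠ i → x j = y j := fun j hj => (hxy j hj).symm
    rw [if_pos hxy, if_pos h', h x fun _ _ => rfl, h y hxy, field_congr β g hxy]
    ring
  · have h' : ¬ ∀ j, j ≠ i → x j = y j := fun h => hxy fun j hj => (h j hj).symm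
    rw [if_neg hxy, if_neg h', mul_zero, mul_zero]

namespace Semi

theorem heat_nonneg (β : ℝ) (g : Pair n → ℝ) (i : Fin n) (x y : Cube n) : 0 ≤ heat β g i x y := by
  simp only [heat, of_apply]
  have := Real.cosh_pos (field β g x i)
  split_ifs <;> positivity

theorem cnd_of_inv {π f : Cube n → ℝ} (hπ : IsP π) {i : Fin n}
    (hf : ∀ x b, f (Function.update x i b) = f x) : cnd π i f = f := by
  funext x
  have := hπ.1 (Function.update x i true)
  have := hπ.1 (Function.update x i false)
  rw [cnd, hf, hf]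
  field_simp

theorem heat_row (β : ℝ) (g : Pair n → ℝ) (i : Fin n) (x : Cube n) : ∑ y, heat β g i x y = 1 := by
  have h := congrFun (heat_mulVec β g i fun _ => 1) x
  rw [cnd_of_inv (gibbs_isP β g) fun _ _ => rfl] at h
  simpa [mulVec, dotProduct] using h

/-- The discrete chain. -/
noncomputable def qm (β : ℝ) (g : Pair n → ℝ) : Matrix (Cube n) (Cube n) ℝ :=
  (n : ℝ)⁻¹ • ∑ i, heat β g i

theorem qm_rev (hn : 0 < n) (β : ℝ) (g : Pair n → ℝ) : Rev (gibbs β g) (qm β g) where
  pos := (gibbs_isP β g).1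
  one := (gibbs_isP β g).2
  nn x y := by
    simp only [qm, Matrix.smul_apply, Matrix.sum_apply, smul_eq_mul]
    exact mul_nonneg (by positivity) (Finset.sum_nonneg fun i _ => heat_nonneg β g i x y)
  row x := by
    have : (n : ℝ) ≠ 0 := by positivity
    simp only [qm, Matrix.smul_apply, Matrix.sum_apply, smul_eq_mul, ← Finset.mul_sum]
    rw [Finset.sum_comm]
    simp [heat_row, this]
  rev x y := by
    simp only [qm, Matrix.smul_apply, Matrix.sum_apply, smul_eq_mul]
    rw [mul_left_comm, mul_left_comm (gibbs β g y), Finset.mul_sum _ _ (gibbs β g x),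
      Finset.mul_sum _ _ (gibbs β g y), Finset.sum_congr rfl fun i _ => heat_rev β g i x y]

theorem qm_mulVec (β : ℝ) (g : Pair n → ℝ) (f : Cube n → ℝ) :
    qm β g *ᵥ f = qbar (gibbs β g) f := by
  funext x
  simp only [qm, smul_mulVec, Matrix.sum_mulVec, heat_mulVec, qbar, Pi.smul_apply,
    Finset.sum_apply, smul_eq_mul, div_eq_inv_mul]

theorem qm_pow (β : ℝ) (g : Pair n → ℝ) (j : ℕ) (f : Cube n → ℝ) :
    (qbar (gibbs β g))^[j] f = qm β g ^ j *ᵥ f := by
  induction j with
  | zero => simp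
  | succ j ih => rw [Function.iterate_succ_apply', ih, ← qm_mulVec, mulVec_mulVec, pow_succ']

theorem dist1_eq (hn : 0 < n) (β : ℝ) (g : Pair n → ℝ) (j : ℕ) (x : Cube n) :
    dist1 (gibbs β g) j x = ∑ y, |(qm β g ^ j) x y - gibbs β g y| := by
  refine Finset.sum_congr rfl fun y _ => ?_
  have hx := (gibbs_isP β g).1 x
  have hy := (gibbs_isP β g).1 y
  have h := (qm_rev hn β g).pow_rev j x y
  conv_lhs => rw [← abs_of_pos hy]
  rw [qm_pow, ← abs_mul, mulVec_single]
  congr 1
  simp only [MulOpposite.smul_eq_mul_unop, MulOpposite.unop_op, Pi.smul_apply, col_apply]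
  field_simp
  linarith

theorem gen_eq (hn : 0 < n) (β : ℝ) (g : Pair n → ℝ) : gen β g = (n : ℝ) • (qm β g - 1) := by
  have : (n : ℝ) ≠ 0 := by positivity
  rw [gen, qm, smul_sub, smul_smul, mul_inv_cancel₀ this, one_smul, Finset.sum_sub_distrib]
  simp [Nat.cast_smul_eq_nsmul]

theorem gen_mulVec (β : ℝ) (g : Pair n → ℝ) (f : Cube n → ℝ) (x : Cube n) :
    (gen β g *ᵥ f) x = ∑ i, (cnd (gibbs β g) i f x - f x) := by
  simp only [gen, Matrix.sum_mulVec, sub_mulVec, heat_mulVec, one_mulVec, Finset.sum_apply,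
    Pi.sub_apply]

theorem mean_spin (β : ℝ) (g : Pair n → ℝ) (i : Fin n) : ∑ x, gibbs β g x * sp (x i) = 0 := by
  have hs : ∀ b, sp (!b) = -sp b := fun b => by cases b <;> simp [sp]
  have hi : Function.Involutive fun (x : Cube n) (j : Fin n) => !x j := fun x => by simp
  have h := Equiv.sum_comp hi.toPerm fun x => gibbs β g x * sp (x i)
  have h1 : ∀ x : Cube n, gibbs β g (fun j => !x j) = gibbs β g x := fun x => by
    simp only [gibbs, weight, hs, mul_neg, neg_mul, neg_neg]
  simp only [Function.Involutive.coe_toPerm, h1, hs, mul_neg, Finset.sum_neg_distrib] at h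
  linarith

theorem var_spin (β : ℝ) (g : Pair n → ℝ) (i : Fin n) : var β g (fun x => sp (x i)) = 1 := by
  simp only [var, mean_spin, sub_zero, sp_sq, mul_one, (gibbs_isP β g).2]

theorem var_eq (β : ℝ) (g : Pair n → ℝ) (f : Cube n → ℝ) :
    var β g f = ∑ x, gibbs β g x * f x ^ 2 - (∑ x, gibbs β g x * f x) ^ 2 := by
  have h : ∀ m x, gibbs β g x * (f x - m) ^ 2 =
      gibbs β g x * f x ^ 2 - 2 * m * (gibbs β g x * f x) + gibbs β g x * m ^ 2 := fun m x => by
    ring
  simp only [var, h, Finset.sum_add_distrib, Finset.sum_sub_distrib, ← Finset.mul_sum,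
    ← Finset.sum_mul, (gibbs_isP β g).2]
  ring

end Semi

/-- Poissonization. With `Q = (1/n) ∑ heat i`, `gen = n (Q - 1)` and
`kernel t = ∑_j exp (-n t) (n t)^j / j! • Q^j`; by reversibility
`(Q^j) x y = π y * (qbar π)^[j] (single x (1/π x)) y`. The distance is at most `2` and nonincreasing
in `j`, and `exp (-4k) ∑_{j<k} (4k)^j / j! ≤ 2^k exp (-2k) ≤ 3^-k`. -/
theorem tv_le (hn : 0 < n) (β : ℝ) (g : Pair n → ℝ) {k : ℕ} (hk : n ≤ k)
    (h : ∀ x, dist1 (gibbs β g) k x ≤ 1 / n) (x : Cube n) : tv β g (4 * k / n) x ≤ 1 / n := by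
  have h0 : (0 : ℝ) < n := by positivity
  have h1 := (qm_rev hn β g).poisson x (hn.trans_le hk) ((dist1_eq hn β g k x).symm.trans_le (h x))
  have h2 : (4 * k / n : ℝ) • gen β g = (4 * k : ℝ) • (qm β g - 1) := by
    rw [gen_eq hn, smul_smul, div_mul_cancel₀ _ h0.ne']
  have h3 : 1 / (k : ℝ) ≤ 1 / n := one_div_le_one_div_of_le h0 (by exact_mod_cast hk)
  rw [tv, kernel, h2]
  linarith

/-- Conjugate `gen` by `diagonal (sqrt π)` to a symmetric matrix and use the spectral theorem: an
eigenfunction `f` with eigenvalue `-λ` and mean zero satisfies `exp (-λ t) |f x| ≤ 2 a max |f|`;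
eigenvectors not proportional to constants can be made mean zero since `exp (0 t) = 1 > 2 a`. -/
theorem gap_ge (hn : 0 < n) (β : ℝ) (g : Pair n → ℝ) {t a : ℝ} (ht : 0 < t) (ha : 0 < a)
    (ha1 : a < 1 / 2) (h : ∀ x, tv β g t x ≤ a) : -Real.log (2 * a) / t ≤ gap β g := by
  refine le_csInf ⟨_, fun x => sp (x ⟨0, hn⟩), by rw [var_spin]; exact one_ne_zero, rfl⟩ ?_
  rintro _ ⟨f, hf, rfl⟩
  have hv : 0 < var β g f := lt_of_le_of_ne (Finset.sum_nonneg fun x _ =>
    mul_nonneg ((gibbs_isP β g).1 x).le (sq_nonneg _)) hf.symm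
  have hQ := qm_rev hn β g
  rw [le_div_iff₀ hv, var_eq]
  refine gap_form hQ.pos (fun x y => ?_) (fun x => ?_) hQ.one ht (fun x => ?_) f
  · have := hQ.rev x y
    by_cases e : x = y
    · rw [e]
    · simp only [gen_eq hn, Matrix.smul_apply, Matrix.sub_apply, smul_eq_mul, one_apply_ne e,
        one_apply_ne' e, sub_zero]
      rw [mul_left_comm, this, mul_left_comm]
  · simp [gen_eq hn, ← Finset.mul_sum, hQ.row, Matrix.one_apply]
  · have := h x
    rw [tv, kernel] at this
    linarith

/-- Test with the first spin, which has mean zero by the global flip symmetry. -/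
theorem gap_le_one (hn : 0 < n) (β : ℝ) (g : Pair n → ℝ) : gap β g ≤ 1 := by
  unfold gap
  by_cases hb : BddBelow
    {r : ℝ | ∃ f : Cube n → ℝ, var β g f ≠ 0 ∧ r = dirichlet β g f / var β g f}
  swap
  · rw [Real.sInf_of_not_bddBelow hb]
    exact zero_le_one
  let i₀ : Fin n := ⟨0, hn⟩
  let f : Cube n → ℝ := fun x => sp (x i₀)
  have hπ := gibbs_isP β g
  refine (csInf_le hb ⟨f, by rw [var_spin]; exact one_ne_zero, rfl⟩).trans ?_
  have h1 : ∀ x, (gen β g *ᵥ f) x = cnd (gibbs β g) i₀ f x - f x := fun x => by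
    rw [gen_mulVec, Finset.sum_eq_single i₀ (fun i _ hi => ?_) (by simp)]
    rw [cnd_of_inv hπ fun y b => by simp only [f, Function.update_of_ne hi.symm], sub_self]
  have h2 := ex_cnd_mul hπ i₀ f (cnd (gibbs β g) i₀ f) fun x b => cnd_update i₀ x b
  have h3 : 0 ≤ ∑ x, gibbs β g x * (f x * cnd (gibbs β g) i₀ f x) := by
    rw [← h2]
    exact Finset.sum_nonneg fun x _ => mul_nonneg (hπ.1 x).le (mul_self_nonneg _)
  have h4 : ∀ x, gibbs β g x * f x * (cnd (gibbs β g) i₀ f x - f x) =
      gibbs β g x * (f x * cnd (gibbs β g) i₀ f x) - gibbs β g x := fun x => by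
    have : f x ^ 2 = 1 := sp_sq _
    linear_combination (-gibbs β g x) * this
  rw [var_spin, div_one, dirichlet]
  simp only [h1, h4, Finset.sum_sub_distrib, hπ.2]
  linarith

/-- The disorder read off from the i.i.d. array. -/
noncomputable def gX (X : Fin n × Fin n → ℝ) : Pair n → ℝ := fun p =>
  (X (p.1.1, p.1.2) + X (p.1.2, p.1.1)) / √2

theorem gX_preserving : MeasurePreserving (gX : (Fin n × Fin n → ℝ) → Pair n → ℝ)
    (gp (Fin n × Fin n)) (disorder n) := by
  let A : Matrix (Pair n) (Fin n × Fin n) ℝ := Matrix.of fun p q =>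
    ((if q = (p.1.1, p.1.2) then 1 else 0) + if q = (p.1.2, p.1.1) then 1 else 0) / √2
  have h1 : (gX : (Fin n × Fin n → ℝ) → Pair n → ℝ) = fun X => A *ᵥ X := by
    funext X p
    simp [gX, A, mulVec, dotProduct, div_mul_eq_mul_div, add_mul, ← Finset.sum_div,
      Finset.sum_add_distrib]
  have h2 : ∀ (z : Pair n → ℝ) (q : Fin n × Fin n), (Aᵀ *ᵥ z) q = sym z q.1 q.2 / √2 := by
    rintro z ⟨i, j⟩
    simp only [A, mulVec, dotProduct, transpose_apply, of_apply, div_mul_eq_mul_div,
      ← Finset.sum_div]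
    congr 1
    unfold sym
    split_ifs with h h'
    · rw [Finset.sum_eq_single ⟨(i, j), h⟩ (fun p _ hp => ?_) (by simp)]
      · simp [h.ne]
      · rw [if_neg fun e => hp (Subtype.ext e.symm), if_neg, add_zero, zero_mul]
        intro e
        obtain ⟨rfl, rfl⟩ := Prod.mk.inj e
        exact h.not_gt p.2
    · rw [Finset.sum_eq_single ⟨(j, i), h'⟩ (fun p _ hp => ?_) (by simp)]
      · simp [h'.ne']
      · rw [if_neg, if_neg, add_zero, zero_mul]
        · intro e
          obtain ⟨rfl, rfl⟩ := Prod.mk.inj e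
          exact hp rfl
        · intro e
          obtain ⟨rfl, rfl⟩ := Prod.mk.inj e
          exact h p.2
    · refine Finset.sum_eq_zero fun p _ => ?_
      rw [if_neg, if_neg, add_zero, zero_mul]
      · intro e
        obtain ⟨rfl, rfl⟩ := Prod.mk.inj e
        exact h' p.2
      · intro e
        obtain ⟨rfl, rfl⟩ := Prod.mk.inj e
        exact h p.2
  have h3 := law_eq A (1 : Matrix (Pair n) (Pair n) ℝ) fun z => by
    rw [transpose_one, one_mulVec, vn, vn, Fintype.sum_prod_type]
    congr 1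
    simp only [h2, div_pow, Real.sq_sqrt zero_le_two, ← Finset.sum_div]
    rw [sum_symm (F := fun i j => sym z i j ^ 2) fun i j => by rw [sym_comm]]
    simp [sym_self, sym_pair]
  rw [h1]
  refine ⟨(continuous_const.matrix_mulVec continuous_id).measurable, h3.trans ?_⟩
  simp only [one_mulVec]
  exact Measure.map_id

theorem gibbs_gX (β : ℝ) (X : Fin n × Fin n → ℝ) :
    gibbs β (gX X) = tilt (wJ (goe β X)) 0 := by
  have h : ∀ x : Cube n, wJ (goe β X) x =
      weight β (gX X) x * Real.exp ((∑ i, goe β X i i) / 2) := fun x => by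
    have h1 : sv x ⬝ᵥ goe β X *ᵥ sv x = ∑ i, ∑ j, goe β X i j * sp (x i) * sp (x j) := by
      simp only [dotProduct, mulVec, sv, Finset.mul_sum]
      exact Finset.sum_congr rfl fun i _ => Finset.sum_congr rfl fun j _ => by ring
    have h2 : ∀ i, goe β X i i * sp (x i) * sp (x i) = goe β X i i := fun i => by
      rw [mul_assoc, ← sq, sp_sq, mul_one]
    have h3 : ∀ p : Pair n, goe β X p.1.1 p.1.2 * sp (x p.1.1) * sp (x p.1.2) =
        β / √(n : ℝ) * (gX X p * sp (x p.1.1) * sp (x p.1.2)) := fun p => by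
      simp only [goe, gX, of_apply, Real.sqrt_mul zero_le_two]
      ring
    rw [wJ, weight, ← Real.exp_add, h1, sum_symm fun i j => by rw [(goe_symm β X).apply]; ring]
    simp only [h2, h3, ← Finset.mul_sum]
    congr 1
    ring
  funext x
  have := Real.exp_pos ((∑ i, goe β X i i) / 2)
  simp only [gibbs, tilt, h, zero_dotProduct, Real.exp_zero, mul_one, ← Finset.sum_mul]
  rw [mul_div_mul_right _ _ this.ne']

theorem measurableSet_dist1 (β : ℝ) (k : ℕ) (a : ℝ) :
    MeasurableSet {g : Pair n → ℝ | ∀ x, dist1 (gibbs β g) k x ≤ a} := by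
  have h1 : ∀ x, Measurable fun g : Pair n → ℝ => gibbs β g x := fun x => by
    unfold gibbs weight
    fun_prop
  have h2 : ∀ (k : ℕ) (F : (Pair n → ℝ) → Cube n → ℝ), (∀ y, Measurable fun g => F g y) →
      ∀ y, Measurable fun g => (qbar (gibbs β g))^[k] (F g) y := by
    intro k
    induction k with
    | zero => exact fun F hF => hF
    | succ k ih =>
      intro F hF
      refine ih (fun g => qbar (gibbs β g) (F g)) fun y => ?_
      unfold qbar cnd
      exact (Finset.measurable_sum _ fun i _ => (((h1 _).mul (hF _)).add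
        ((h1 _).mul (hF _))).div ((h1 _).add (h1 _))).div_const _
  simp only [Set.ofPred_forall]
  refine MeasurableSet.iInter fun x => measurableSet_le ?_ measurable_const
  refine Finset.measurable_sum _ fun y _ => (h1 y).mul (Measurable.abs (Measurable.sub_const
    (h2 k (fun g => Pi.single x (1 / gibbs β g x)) (fun z => ?_) y) _))
  simp only [Pi.single_apply]
  split_ifs
  · exact (h1 x).const_div _
  · exact measurable_const

end Vale.Agent.P150
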