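import Vale.Agent.P150.WickMom

/-! Uniform smallness of entries of Wick words. -/

open MeasureTheory ProbabilityTheory Matrix Filter Topology
open scoped ENNReal NNReal

namespace Vale.Agent.P150

variable {n : ℕ}

namespace WickUnif

lemma continuous_wick (β : ℝ) : ∀ l : List (Vec n), Continuous fun J : Mat n => wick β J l
  | [] => continuous_const
  | [_] => continuous_const
  | E :: F :: r => by
    have h1 := continuous_wick β (F :: r)
    have h2 := continuous_wick β r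
    simp only [wick]
    exact ((continuous_const.matrix_mul continuous_id).matrix_mul h1).sub
      ((continuous_const.matrix_mul h2).const_smul (β ^ 2 * avg F))

lemma sum_abs_le_fro (A : Mat n) (π : Fin n → Fin n) :
    ∑ r, |A (π r) r| ≤ √(n : ℝ) * fro A := by
  refine (sum_abs_le _).trans (mul_le_mul_of_nonneg_left ?_ (Real.sqrt_nonneg _))
  rw [fro_eq_col]
  refine vn_mono fun j => ?_
  rw [abs_of_nonneg (vn_nonneg _)]
  exact abs_le_vn (fun i => A i j) (π j)

lemma sum_abs_le_opn (A : Mat n) (π : Fin n → Fin n) : ∑ r, |A (π r) r| ≤ n * opn A :=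
  calc ∑ r, |A (π r) r| ≤ ∑ _r : Fin n, opn A := Finset.sum_le_sum fun r _ => abs_entry_le A _ _
    _ = n * opn A := by simp

lemma integrable_entry_sq {β : ℝ} (hβ : 0 < β) (hβ1 : β < 1) (l : List (Vec n))
    (hl : ∀ E ∈ l, ∀ i, |E i| ≤ 1) (p q : Fin n) :
    Integrable (fun X => wick β (goe β X) l p q ^ 2) (gp (Fin n × Fin n)) := by
  have hc : Continuous fun X : Fin n × Fin n → ℝ => wick β (goe β X) l p q ^ 2 :=
    (((continuous_wick β l).comp (continuous_goe β)).matrix_elem p q).pow 2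
  refine integrable_of_poly hc.measurable (C := 2 ^ (l.length * 2)) (m := l.length * 2)
    fun X => ?_
  have h1 := (abs_entry_le _ p q).trans (opn_wick_le (β := β) (by nlinarith) (goe β X) l hl)
  have h2 := opn_goe_le hβ hβ1 X
  have h3 := opn_nonneg (goe β X)
  have h4 := vn_nonneg X
  rw [abs_pow, ← mul_pow, pow_mul]
  refine pow_le_pow_left₀ (abs_nonneg _) (h1.trans ?_) 2
  exact pow_le_pow_left₀ (by linarith) (by linarith) _

lemma vn_single (p : Fin n) : vn (Pi.single p (1 : ℝ) : Vec n) ≤ 1 := by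
  refine vn_le_of_sq_le zero_le_one (le_of_eq ?_)
  rw [Finset.sum_eq_single p (fun b _ hb => by simp [hb]) (by simp)]
  simp

lemma markov {β ω : ℝ} (hβ : 0 < β) (hβ1 : β < 1) (hω : 0 < ω) (k : ℕ) :
    ∀ᶠ n : ℕ in atTop, ∀ l : List (Vec n), l.length = k + 2 → (∀ E ∈ l, ∀ i, |E i| ≤ 1) →
      ∀ π : Fin n → Fin n,
        gp (Fin n × Fin n) {X | ω * n < ∑ r, |wick β (goe β X) l (π r) r|} ≤
          ENNReal.ofReal (1 / 4) := by
  filter_upwards [wick_mom hβ hβ1 k (η := ω ^ 2 / 4) (by positivity), eventually_gt_atTop 0]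
    with n h hn l hk hl π
  have hn' : (0 : ℝ) < n := Nat.cast_pos.2 hn
  have hI := fun r => integrable_entry_sq hβ hβ1 l hl (π r) r
  have h1 := mul_meas_ge_le_integral_of_nonneg (μ := gp (Fin n × Fin n))
    (f := fun X => ∑ r, wick β (goe β X) l (π r) r ^ 2)
    (Eventually.of_forall fun X => Finset.sum_nonneg fun i _ => by positivity)
    (integrable_finsetSum _ fun r _ => hI r) (ω ^ 2 * n)
  rw [integral_finsetSum _ fun r _ => hI r] at h1
  have h2 : ∑ r, ∫ X, wick β (goe β X) l (π r) r ^ 2 ∂gp (Fin n × Fin n) ≤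
      ω ^ 2 * n * (1 / 4) := by
    calc _ ≤ ∑ _r : Fin n, ω ^ 2 / 4 := Finset.sum_le_sum fun r _ => by
          have := h l (Pi.single (π r) 1) (Pi.single r 1) hk hl (vn_single _) (vn_single _)
          simpa [single_one_dotProduct, mulVec_single_one] using this
      _ = _ := by simp; ring
  have h3 := le_of_mul_le_mul_left (h1.trans h2) (by positivity)
  refine le_trans (measure_mono fun X hX => ?_)
    ((ofReal_measureReal (measure_ne_top _ _)).symm.trans_le (ENNReal.ofReal_le_ofReal h3))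
  have h4 := pow_le_pow_left₀ (by positivity) ((le_of_lt hX).trans (sum_abs_le _)) 2
  rw [mul_pow, mul_pow, Real.sq_sqrt hn'.le, vn_sq] at h4
  refine le_of_mul_le_mul_left ?_ hn'
  calc (n : ℝ) * (ω ^ 2 * n) = ω ^ 2 * n ^ 2 := by ring
    _ ≤ _ := h4

/-- The grid of mesh `1 / m` in `[-1, 1]`. -/
noncomputable def gv (m : ℕ) (j : Fin (2 * m + 1)) : ℝ := ((j : ℕ) : ℝ) / m - 1

lemma abs_gv_le {m : ℕ} (hm : 0 < m) (j : Fin (2 * m + 1)) : |gv m j| ≤ 1 := by
  have hm' : (0 : ℝ) < m := Nat.cast_pos.2 hm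
  have h1 : ((j : ℕ) : ℝ) ≤ 2 * m := by exact_mod_cast Nat.lt_succ_iff.1 j.2
  have h2 : ((j : ℕ) : ℝ) / m ≤ 2 := by rwa [div_le_iff₀ hm']
  have h3 : 0 ≤ ((j : ℕ) : ℝ) / m := by positivity
  rw [gv, abs_le]
  constructor <;> linarith

lemma exists_gv {m : ℕ} (hm : 0 < m) {x : ℝ} (hx : |x| ≤ 1) : ∃ j, |x - gv m j| ≤ 1 / m := by
  have hm' : (0 : ℝ) < m := Nat.cast_pos.2 hm
  rw [abs_le] at hx
  have h0 : 0 ≤ (x + 1) * m := mul_nonneg (by linarith) hm'.le
  have h1 := Nat.floor_le h0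
  have h2 := Nat.lt_floor_add_one ((x + 1) * m)
  have h3 : ⌊(x + 1) * m⌋₊ < 2 * m + 1 := by
    rw [Nat.lt_succ_iff, ← Nat.cast_le (α := ℝ)]
    push_cast
    nlinarith
  refine ⟨⟨_, h3⟩, ?_⟩
  have h4 : x - gv m ⟨_, h3⟩ = ((x + 1) * m - ⌊(x + 1) * m⌋₊) / m := by
    simp only [gv]
    field_simp
    ring
  rw [h4, abs_div, abs_of_pos hm']
  refine div_le_div_of_nonneg_right ?_ hm'.le
  rw [abs_le]
  constructor <;> linarith

lemma card_le (K m : ℕ) : ∀ᶠ n : ℕ in atTop,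
    (Fintype.card ((Fin K → Fin n → Fin (2 * m + 1)) × (Fin n → Fin n)) : ℝ) ≤
      Real.exp ((K + 1 : ℝ) * n * Real.log n) := by
  filter_upwards [eventually_ge_atTop (2 * m + 1)] with n hn
  have hn' : (0 : ℝ) < n := Nat.cast_pos.2 (by omega)
  have h1 : Real.exp ((K + 1 : ℝ) * n * Real.log n) = (n : ℝ) ^ ((K + 1) * n) := by
    rw [← Real.exp_log (pow_pos hn' _), Real.log_pow]
    push_cast
    rfl
  rw [h1, ← Nat.cast_pow, Nat.cast_le]
  simp only [Fintype.card_prod, Fintype.card_pi, Finset.prod_const, Fintype.card_fin,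
    Finset.card_univ]
  rw [add_mul, one_mul, pow_add, mul_comm K n, pow_mul]
  exact Nat.mul_le_mul_right _ (Nat.pow_le_pow_left (Nat.pow_le_pow_left hn _) _)

lemma whp_all {β : ℝ} {P : ℕ → ∀ n : ℕ, Mat n → Prop} (h : ∀ k, WHP β (P k)) (L : ℕ) :
    WHP β fun n J => ∀ k < L, P k n J := by
  induction L with
  | zero => exact (h 0).mono (Eventually.of_forall fun n J _ _ k hk => absurd hk (by omega))
  | succ L ih =>
    refine (ih.and (h L)).mono (Eventually.of_forall fun n J _ hJ k hk => ?_)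
    rcases Nat.lt_succ_iff_lt_or_eq.1 hk with h1 | h1
    · exact hJ.1 k h1
    · exact h1 ▸ hJ.2

lemma fixed {β ω : ℝ} (hβ : 0 < β) (hβ1 : β < 1) (hω : 0 < ω) (k : ℕ) :
    WHP β fun n J => ∀ l : List (Vec n), l.length = k + 2 → (∀ E ∈ l, ∀ i, |E i| ≤ 1) →
      ∀ π : Fin n → Fin n, ∑ r, |wick β (od J) l (π r) r| ≤ ω * n := by
  have hb : β ^ 2 ≤ 1 := by nlinarith
  obtain ⟨e, he, hee⟩ : ∃ e : ℝ, 0 < e ∧ 14 ^ (k + 2) * e = ω / 4 :=
    ⟨ω / 4 / 14 ^ (k + 2), by positivity, by field_simp⟩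
  obtain ⟨m, hm, hme⟩ : ∃ m : ℕ, 0 < m ∧ 1 / (m : ℝ) ≤ e := by
    obtain ⟨m, hm⟩ := exists_nat_one_div_lt he
    exact ⟨m + 1, Nat.succ_pos _, by push_cast; exact hm.le⟩
  let ls : ∀ n : ℕ, (Fin (k + 2) → Fin n → Fin (2 * m + 1)) → List (Vec n) :=
    fun n t => List.ofFn fun a i => gv m (t a i)
  have hls : ∀ n t, ∀ E ∈ ls n t, ∀ i, |E i| ≤ 1 := by
    intro n t E hE i
    obtain ⟨a, rfl⟩ := (List.mem_ofFn' _ _).1 hE
    exact abs_gv_le hm _
  have hlen : ∀ n t, (ls n t).length = k + 2 := fun n t => List.length_ofFn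
  have hnear := rm_near hβ hβ1 he
    (fun n => (Fin (k + 2) → Fin n → Fin (2 * m + 1)) × (Fin n → Fin n))
    (fun n t => {J₀ | opn J₀ ≤ 3 ∧ ∑ r, |wick β J₀ (ls n t.1) (t.2 r) r| ≤ ω / 4 * n})
    (card_le (k + 2) m) (by
      have h4 : (0 : ℝ≥0∞) < ENNReal.ofReal (1 / 4) := ENNReal.ofReal_pos.2 (by norm_num)
      filter_upwards [markov hβ hβ1 (ω := ω / 4) (by positivity) k,
        (rm_opn hβ hβ1).eventually (eventually_le_nhds h4)] with n h1 h2 t
      have h3 := h1 (ls n t.1) (hlen n _) (hls n _) t.2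
      refine le_trans (measure_mono fun X hX => ?_) ((measure_union_le _ _).trans
        ((add_le_add h2 h3).trans_eq ?_))
      · by_contra hc
        simp only [Set.mem_union, Set.mem_ofPred_eq, not_or, not_not, not_lt] at hc
        exact hX hc
      · rw [← ENNReal.ofReal_add (by norm_num) (by norm_num)]
        norm_num)
  refine ((hnear.and (rm_opn hβ hβ1)).and (rm_diag he)).mono
    (Eventually.of_forall fun n J _ hJ l hk hl π => ?_)
  obtain ⟨⟨h1, h2⟩, h3⟩ := hJ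
  have hg : ∀ (a : Fin (k + 2)) (i : Fin n), ∃ j, |l.get (a.cast hk.symm) i - gv m j| ≤ 1 / m :=
    fun a i => exists_gv hm (hl _ (List.get_mem _ _) i)
  choose t ht using hg
  obtain ⟨J₀, ⟨h4, h5⟩, -, h6⟩ := h1 (t, π)
  have hod : opn (od J) ≤ 6 := by linarith [opn_od_le J]
  have hF : List.Forall₂ (fun E E' : Vec n => ∀ i, |E i| ≤ 1 ∧ |E' i| ≤ 1 ∧ |E i - E' i| ≤ e) l
      (ls n t) := by
    rw [List.forall₂_iff_get]
    refine ⟨hk.trans (hlen n t).symm, fun a ha ha' i => ⟨hl _ (List.get_mem _ _) i,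
      hls n t _ (List.get_mem _ _) i, ?_⟩⟩
    have := (ht ⟨a, hk ▸ ha⟩ i).trans hme
    simpa [ls, List.get_ofFn] using this
  have h7 := (sum_abs_le_opn _ π).trans
    (mul_le_mul_of_nonneg_left (opn_wick_sub_le hb hod he.le _ _ hF) (Nat.cast_nonneg n))
  have h8 := fro_wick_sub_le hb hod (h4.trans (by norm_num)) _ (hls n t)
  have h9 : fro (od J - J₀) ≤ 2 * e * √(n : ℝ) := by
    have : od J - J₀ = (J - J₀) - diagonal fun i => J i i := by rw [od_eq]; abel
    rw [this]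
    have := fro_sub_le (J - J₀) (diagonal fun i => J i i)
    rw [fro_diagonal] at this
    linarith
  have h10 := (sum_abs_le_fro _ π).trans (mul_le_mul_of_nonneg_left
    (h8.trans (mul_le_mul_of_nonneg_left h9 (by positivity))) (Real.sqrt_nonneg n))
  rw [hk, hee] at h7
  rw [hlen] at h10
  have h11 : √(n : ℝ) * (14 ^ (k + 2) * (2 * e * √(n : ℝ))) = ω / 2 * n := by
    calc _ = 2 * (14 ^ (k + 2) * e) * (√(n : ℝ) * √(n : ℝ)) := by ring
      _ = _ := by rw [hee, Real.mul_self_sqrt (Nat.cast_nonneg n)]; ring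
  rw [h11] at h10
  have h12 : ∑ r, |wick β (od J) l (π r) r| ≤
      ∑ r, |(wick β (od J) l - wick β (od J) (ls n t)) (π r) r| +
        ∑ r, |(wick β (od J) (ls n t) - wick β J₀ (ls n t)) (π r) r| +
        ∑ r, |wick β J₀ (ls n t) (π r) r| := by
    rw [← Finset.sum_add_distrib, ← Finset.sum_add_distrib]
    refine Finset.sum_le_sum fun r _ => ?_
    refine le_trans (le_of_eq ?_) (abs_add_three _ _ _)
    simp only [Matrix.sub_apply]
    congr 1
    ring
  simp only at h5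
  linarith

end WickUnif

/-- `rm_near` over pairs (list of vectors with entries in a grid of `[-1,1]`,
`π : Fin n → Fin n`), with the sets `opn J₀ ≤ 3` and `∑ r, |wick l (π r) r| ≤ ω n / 4`
(Markov with `wick_mom`); then `fro_wick_sub_le`, `opn_wick_sub_le`, `rm_diag`, `od_eq`,
`opn_od_le`. -/
theorem rm_wick {β ω : ℝ} (hβ : 0 < β) (hβ1 : β < 1) (hω : 0 < ω) :
    WHP β fun _ J => W1 β (od J) ω := by
  refine (WickUnif.whp_all (WickUnif.fixed hβ hβ1 hω) ⌈1 / ω⌉₊).mono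
    (Eventually.of_forall fun n J _ hJ l h2 hL hl π => ?_)
  have h3 : l.length ≤ ⌈1 / ω⌉₊ := by exact_mod_cast hL.trans (Nat.le_ceil _)
  exact hJ (l.length - 2) (by omega) l (by omega) hl π

end Vale.Agent.P150
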