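import Vale.Agent.P150.CoreC
import Vale.Agent.P150.Semi
import Vale.Agent.P150.Path
import Vale.Agent.P150.Plant
import Vale.Agent.P150.WickUnif
import Vale.Agent.P150.Det

/-! Probabilistic assembly. -/

open MeasureTheory ProbabilityTheory Matrix Filter Topology
open scoped ENNReal NNReal

namespace Vale.Agent.P150

theorem whp_main {β : ℝ} (h0 : 0 < β) (h1 : β < 1) : ∃ C : ℝ, 1 ≤ C ∧
    WHP β fun n J => ∀ x, dist1 (tilt (wJ J) 0) ⌈C * n * Real.log n⌉₊ x ≤ 1 / n := by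
  have hβ : β ^ 2 ≤ 1 := by nlinarith
  obtain ⟨a, c₀, ha, hc₀, hc4, hpl⟩ := planted h0 h1
  obtain ⟨K, hK, hdet⟩ := rm_det h0 h1
  obtain ⟨δ, ρ, c, hδ, hρ, hρ1, hc, hpl⟩ := hpl K hK
  obtain ⟨α, hα, hα1, hsub⟩ := rm_sub h0 h1
  have hK' : 1 ≤ 5 / c₀ := by rw [le_div_iff₀ hc₀]; linarith
  obtain ⟨C₁, hC₁, hll⟩ := rm_ll h0 h1 hK'
  obtain ⟨C₀, hC₀, halg⟩ := ll_alg h0 h1 hK' hC₁
  obtain ⟨T, ω, C, hω, hC, hmain⟩ := det_main hc₀ hc4 hρ hρ1 hC₀ (half_pos hc) hα hα1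
  have hpath := rm_path h0 h1 hc (fun _ J => Edge β J a ∧ opn J ≤ 3 ∧ DetP β J K δ)
    (fun _ J θ => ¬ HP β 1 J c₀ ρ θ) (by
      filter_upwards [hpl] with n hn x y
      simpa only [and_assoc] using hn x y)
    (fun n => 1 / (n : ℝ) ^ 10) (fun n => T * n ^ 20) (by
      filter_upwards [ev_poly_exp (T + 1) (by positivity : 0 < c / 8) 20, ev_ge 1] with n hn hn1
      have h2 : (1 : ℝ) ≤ n ^ 20 := one_le_pow₀ hn1
      rw [show c * n / 8 = c / 8 * n by ring]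
      push_cast
      linarith)
  refine ⟨C, hC, (((((((hpath.and (rm_edge h0 ha)).and (rm_opn h0 h1)).and (hdet δ hδ)).and
    hsub).and hll).and (rm_wick h0 h1 hω)).and (rm_diag hω)).mono ?_⟩
  filter_upwards [hmain, halg] with n hn hn' J hJ
  rintro ⟨⟨⟨⟨⟨⟨⟨hp, he⟩, ho⟩, hd⟩, hs⟩, hl⟩, hw⟩, hg⟩
  refine hn β J hβ hJ ho hs (hn' J hJ ho hl) hw hg ?_
  rw [show c / 2 * n = c * n / 2 by ring]
  exact hp ⟨he, ho, hd⟩

theorem disorder_main {β : ℝ} (h0 : 0 < β) (h1 : β < 1) : ∃ C : ℝ, 1 ≤ C ∧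
    Tendsto (fun n : ℕ => disorder n
      {g | ¬ ∀ x, dist1 (gibbs β g) ⌈C * n * Real.log n⌉₊ x ≤ 1 / n}) atTop (𝓝 0) := by
  obtain ⟨C, hC, h⟩ := whp_main h0 h1
  refine ⟨C, hC, h.congr fun n => ?_⟩
  have hm := (measurableSet_dist1 (n := n) β ⌈C * n * Real.log n⌉₊ (1 / n)).compl
  have h2 := gX_preserving.measure_preimage hm.nullMeasurableSet
  rw [Set.compl_setOf] at h2
  rw [← h2]
  congr 1
  ext X
  simp only [Set.mem_ofPred_eq, Set.mem_preimage, gibbs_gX]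

/-- Consequences of fast mixing of the discrete chain. -/
theorem of_dist1 {C : ℝ} (hC : 1 ≤ C) : ∀ᶠ n : ℕ in atTop, ∀ (β : ℝ) (g : Pair n → ℝ),
    (∀ x, dist1 (gibbs β g) ⌈C * n * Real.log n⌉₊ x ≤ 1 / n) →
    tmix β g ≤ ENNReal.ofReal (8 * C * Real.log n) ∧ 1 / (16 * C) ≤ gap β g ∧ gap β g ≤ 1 := by
  filter_upwards [ev_ge 4] with n hn β g h
  have hn0 : (0 : ℝ) < n := by linarith
  have hn' : 0 < n := by exact_mod_cast hn0
  have hlog : 1 ≤ Real.log n := by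
    rw [Real.le_log_iff_exp_le hn0]
    linarith [Real.exp_one_lt_d9]
  set k := ⌈C * n * Real.log n⌉₊ with hk
  have hk1 : C * n * Real.log n ≤ k := Nat.le_ceil _
  have hk0 : (n : ℝ) ≤ C * n * Real.log n := by
    calc (n : ℝ) = 1 * n * 1 := by ring
      _ ≤ _ := by gcongr
  have hk2 : (k : ℝ) ≤ 2 * (C * n * Real.log n) := by
    have := Nat.ceil_lt_add_one (by linarith : 0 ≤ C * n * Real.log n)
    linarith
  have htv := tv_le hn' β g (by exact_mod_cast hk0.trans hk1) h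
  have ht0 : 0 < 4 * (k : ℝ) / n := by
    have : (0 : ℝ) < k := by linarith
    positivity
  have ht1 : 4 * (k : ℝ) / n ≤ 8 * C * Real.log n := by
    rw [div_le_iff₀ hn0]; linarith
  have h4 : 1 / (n : ℝ) ≤ 1 / 4 := by gcongr
  refine ⟨?_, ?_, gap_le_one hn' β g⟩
  · refine le_trans (iInf₂_le (Real.toNNReal (4 * k / n)) fun x => ?_)
      (ENNReal.ofReal_le_ofReal ht1)
    rw [Real.coe_toNNReal _ ht0.le]
    exact (htv x).trans h4
  · refine le_trans ?_ (gap_ge hn' β g ht0 (by positivity) (by linarith) htv)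
    have h5 : -Real.log (2 * (1 / (n : ℝ))) = Real.log n - Real.log 2 := by
      rw [Real.log_mul (by norm_num) (by positivity), one_div, Real.log_inv]; ring
    have h6 : 2 * Real.log 2 ≤ Real.log n := by
      rw [← Real.log_rpow (by norm_num)]
      exact Real.log_le_log (by positivity) (by norm_num; exact_mod_cast hn)
    rw [h5, div_le_div_iff₀ (by positivity) ht0]
    nlinarith

end Vale.Agent.P150
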