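import Vale.Agent.P150.Objs
import Vale.Agent.P150.GaussB
import Vale.Agent.P150.GaussC
import Vale.Agent.P150.TapTaylor

/-! Lower bound for the volume of approximate solutions. -/

open MeasureTheory ProbabilityTheory Matrix Filter Topology
open scoped ENNReal NNReal

namespace Vale.Agent.P150

variable {n : ℕ}

namespace CountA

lemma cov {M : Mat n} (hM : M.det ≠ 0) (H₀ : Vec n) {F : Vec n → ℝ≥0∞} (hF : Measurable F) :
    ENNReal.ofReal |M.det| * ∫⁻ g, F (H₀ + M *ᵥ g) = ∫⁻ H, F H := by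
  have hm : Measurable (Matrix.toLin' M) := (LinearMap.continuous_on_pi _).measurable
  have h1 := lintegral_map (μ := (volume : Measure (Vec n))) (hF.comp (measurable_const_add H₀)) hm
  rw [Real.map_matrix_volume_pi_eq_smul_volume_pi hM, lintegral_smul_measure] at h1
  simp only [Function.comp, Matrix.toLin'_apply, smul_eq_mul] at h1
  rw [← h1, lintegral_add_left_eq_self, ← mul_assoc, ← ENNReal.ofReal_mul (abs_nonneg _),
    ← abs_mul, mul_inv_cancel₀ hM]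
  simp

lemma markov {f : Vec n → ℝ} (hf : GaussB.PG f) (h0 : ∀ g, 0 ≤ f g) {a : ℝ} (ha : 0 < a)
    (h : ∫ g, f g ∂gp (Fin n) ≤ a) : gp (Fin n) {g | 8 * a ≤ f g} ≤ ENNReal.ofReal (1 / 8) := by
  have h1 := mul_meas_ge_le_integral_of_nonneg (Eventually.of_forall h0) hf.integrable (8 * a)
  have h2 : (gp (Fin n)).real {g | 8 * a ≤ f g} ≤ 1 / 8 :=
    le_of_mul_le_mul_left (h1.trans (h.trans_eq (by ring))) (by positivity : 0 < 8 * a)
  exact (ofReal_measureReal (measure_ne_top _ _)).symm.trans_le (ENNReal.ofReal_le_ofReal h2)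

lemma pg_pow (A : Mat n) (k : ℕ) : GaussB.PG fun g : Vec n => ∑ i, (A *ᵥ g) i ^ k :=
  GaussB.PG.sum _ fun i => (GaussB.PG.dot (A i)).pow k

lemma integral_two (A : Mat n) : ∫ g, ∑ i, (A *ᵥ g) i ^ 2 ∂gp (Fin n) = fro A ^ 2 := by
  change ∫ g, ∑ i, (A i ⬝ᵥ g) ^ 2 ∂gp (Fin n) = _
  rw [integral_finsetSum _ fun i _ => ((GaussB.PG.dot (A i)).pow 2).integrable, fro_sq]
  refine Finset.sum_congr rfl fun i _ => ?_
  have := integral_dot_mul (A i) (A i)
  simpa only [sq, dotProduct] using this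

lemma integral_four (A : Mat n) {K : ℝ} (hA : opn A ≤ K) :
    ∫ g, ∑ i, (A *ᵥ g) i ^ 4 ∂gp (Fin n) ≤ 3 * K ^ 4 * n := by
  change ∫ g, ∑ i, (A i ⬝ᵥ g) ^ 4 ∂gp (Fin n) ≤ _
  rw [integral_finsetSum _ fun i _ => ((GaussB.PG.dot (A i)).pow 4).integrable]
  calc _ ≤ ∑ _i : Fin n, 3 * K ^ 4 := Finset.sum_le_sum fun i _ => by
        rw [integral_dot_four, dot_self, ← pow_mul]
        exact mul_le_mul_of_nonneg_left
          (pow_le_pow_left₀ (vn_nonneg _) ((vn_row_le A i).trans hA) 4) (by norm_num)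
    _ = _ := by simp; ring

lemma good (hn : 0 < n) {E N : Mat n} {K δ : ℝ} (hK : 0 < K) (hδ : 0 < δ) (hN : opn N ≤ K)
    (hE : fro E ≤ δ * √(n : ℝ)) :
    ENNReal.ofReal (1 / 2) ≤ gp (Fin n) {g | vn g < 3 * √(n : ℝ) ∧
      vn (E *ᵥ g) ≤ 3 * δ * √(n : ℝ) ∧ vn (fun i => (N *ᵥ g) i ^ 2) ≤ 5 * K ^ 2 * √(n : ℝ)} := by
  have hn' : (0 : ℝ) < n := Nat.cast_pos.2 hn
  have hs := Real.sq_sqrt hn'.le
  have hs0 := Real.sqrt_pos.2 hn'
  have h1 := markov (pg_pow (1 : Mat n) 2) (fun g => by positivity) hn' (by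
    rw [integral_two, ← hs]
    exact pow_le_pow_left₀ (fro_nonneg _) ((fro_le_opn _).trans
      (mul_le_of_le_one_left hs0.le opn_one_le)) 2)
  have h2 := markov (pg_pow E 2) (fun g => by positivity) (a := δ ^ 2 * n) (by positivity) (by
    rw [integral_two, ← hs, ← mul_pow]
    exact pow_le_pow_left₀ (fro_nonneg _) hE 2)
  have h3 := markov (pg_pow N 4) (fun g => by positivity) (by positivity) (integral_four N hN)
  set G : Set (Vec n) := {g | vn g < 3 * √(n : ℝ) ∧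
      vn (E *ᵥ g) ≤ 3 * δ * √(n : ℝ) ∧ vn (fun i => (N *ᵥ g) i ^ 2) ≤ 5 * K ^ 2 * √(n : ℝ)}
  have h4 : gp (Fin n) Gᶜ ≤ ENNReal.ofReal (1 / 2) := by
    refine le_trans (measure_mono fun g hg => ?_) (((measure_union_le _ _).trans
      (add_le_add ((measure_union_le _ _).trans (add_le_add h1 h2)) h3)).trans ?_)
    · by_contra hc
      simp only [Set.mem_union, Set.mem_ofPred_eq, not_or, not_le, one_mulVec] at hc
      obtain ⟨⟨a1, a2⟩, a3⟩ := hc
      refine hg ⟨?_, ?_, ?_⟩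
      · refine lt_of_pow_lt_pow_left₀ 2 (by positivity) ?_
        rw [vn_sq, mul_pow, hs]
        linarith
      · refine vn_le_of_sq_le (by positivity) ?_
        rw [mul_pow, mul_pow, hs]
        nlinarith [mul_pos (pow_pos hδ 2) hn']
      · refine vn_le_of_sq_le (by positivity) ?_
        simp only [← pow_mul, mul_pow, hs, Nat.reduceMul]
        nlinarith [mul_pos (pow_pos hK 4) hn']
    · rw [← ENNReal.ofReal_add (by norm_num) (by norm_num),
        ← ENNReal.ofReal_add (by norm_num) (by norm_num)]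
      exact ENNReal.ofReal_le_ofReal (by norm_num)
  have h5 : ENNReal.ofReal (1 / 2) + ENNReal.ofReal (1 / 2) ≤
      gp (Fin n) G + ENNReal.ofReal (1 / 2) := by
    rw [← ENNReal.ofReal_add (by norm_num) (by norm_num)]
    calc _ = gp (Fin n) (G ∪ Gᶜ) := by norm_num
      _ ≤ _ := (measure_union_le _ _).trans (add_le_add le_rfl h4)
  exact ENNReal.le_of_add_le_add_right ENNReal.ofReal_ne_top h5

lemma prod_phi (v : ℝ) (x : Vec n) :
    ∏ i, phi v (x i) = Real.exp (-vn x ^ 2 / (2 * v)) / √(2 * Real.pi * v) ^ n := by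
  simp only [phi]
  rw [Finset.prod_div_distrib, ← Real.exp_sum, vn_sq, ← Finset.sum_div, Finset.sum_neg_distrib]
  simp

lemma res_eq (b : ℝ) (J : Mat n) (H₀ y u : Vec n) :
    tapb b J (H₀ + u) - y = (tapb b J H₀ - y) +
      (1 - (J - b • (1 : Mat n)) * diagonal (dd H₀)) *ᵥ u -
      (J - b • (1 : Mat n)) *ᵥ (mag (H₀ + u) - mag H₀ - dd H₀ * u) := by
  have h1 : diagonal (dd H₀) *ᵥ u = dd H₀ * u := funext fun i => mulVec_diagonal _ _ i
  rw [sub_mulVec, ← mulVec_mulVec, h1]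
  simp only [tapb, sub_mulVec, mulVec_sub, one_mulVec, smul_mulVec]
  abel

lemma res_le {J N : Mat n} {H₀ y g : Vec n} {b K δ η : ℝ} (hJ3 : opn J ≤ 3)
    (hb : b ∈ Set.Icc (0 : ℝ) 1) (hη : 0 < η) (hηK : η * K ^ 2 ≤ δ)
    (hr : vn (tapb b J H₀ - y) ≤ δ * η * √(n : ℝ))
    (h2 : vn (((1 - (J - b • (1 : Mat n)) * diagonal (dd H₀)) * N - 1) *ᵥ g) ≤ 3 * δ * √(n : ℝ))
    (h3 : vn (fun i => (N *ᵥ g) i ^ 2) ≤ 5 * K ^ 2 * √(n : ℝ)) :
    vn (tapb b J (H₀ + (η • N) *ᵥ g) - y) ≤ η * (vn g + 24 * δ * √(n : ℝ)) := by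
  have hs := Real.sqrt_nonneg (n : ℝ)
  rw [res_eq]
  set A := 1 - (J - b • (1 : Mat n)) * diagonal (dd H₀)
  set u := (η • N) *ᵥ g with hu
  have e1 : A *ᵥ u = η • (g + (A * N - 1) *ᵥ g) := by
    rw [hu, smul_mulVec, mulVec_smul, mulVec_mulVec, sub_mulVec, one_mulVec, add_sub_cancel]
  have e2 : vn (A *ᵥ u) ≤ η * (vn g + 3 * δ * √(n : ℝ)) := by
    rw [e1, vn_smul, abs_of_pos hη]
    exact mul_le_mul_of_nonneg_left ((vn_add_le _ _).trans (add_le_add le_rfl h2)) hη.le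
  have e3 : opn (J - b • (1 : Mat n)) ≤ 4 := by
    have := opn_sub_le J (b • (1 : Mat n))
    rw [opn_smul, abs_of_nonneg hb.1] at this
    nlinarith [opn_one_le (n := n), opn_nonneg (1 : Mat n), hb.1, hb.2]
  have e4 : vn (mag (H₀ + u) - mag H₀ - dd H₀ * u) ≤ 5 * δ * η * √(n : ℝ) := by
    have a1 : vn (mag (H₀ + u) - mag H₀ - dd H₀ * u) ≤ vn (η ^ 2 • fun i => (N *ᵥ g) i ^ 2) := by
      refine vn_mono fun i => ((tanh_taylor (H₀ i) (u i)).1.trans_eq ?_).trans (le_abs_self _)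
      simp only [hu, smul_mulVec, Pi.smul_apply, smul_eq_mul, mul_pow]
    rw [vn_smul, abs_of_pos (pow_pos hη 2)] at a1
    have a2 := mul_le_mul_of_nonneg_left h3 (pow_pos hη 2).le
    have a3 := mul_le_mul_of_nonneg_right hηK (mul_nonneg hη.le hs)
    nlinarith
  have e5 := (vn_mulVec_le _ _).trans (mul_le_mul e3 e4 (vn_nonneg _) (by norm_num))
  have e6 := vn_sub_le (tapb b J H₀ - y + A *ᵥ u)
    ((J - b • (1 : Mat n)) *ᵥ (mag (H₀ + u) - mag H₀ - dd H₀ * u))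
  have e7 := vn_add_le (tapb b J H₀ - y) (A *ᵥ u)
  nlinarith

lemma phi_le {g r : Vec n} {δ η : ℝ} (hδ : 0 < δ) (hδ1 : δ ≤ 1 / 100) (hη : 0 < η)
    (hg : vn g < 3 * √(n : ℝ)) (hr : vn r ≤ η * (vn g + 24 * δ * √(n : ℝ))) :
    Real.exp (-(100 * δ * n)) / η ^ n * ∏ i, phi 1 (g i) ≤ ∏ i, phi (η ^ 2) (r i) := by
  have hs := Real.sq_sqrt (Nat.cast_nonneg (α := ℝ) n)
  have hs0 := Real.sqrt_nonneg (n : ℝ)
  have hp : √(2 * Real.pi * η ^ 2) = η * √(2 * Real.pi * 1) := by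
    rw [mul_one, Real.sqrt_mul (by positivity), Real.sqrt_sq hη.le, mul_comm]
  rw [prod_phi, prod_phi, hp, mul_pow, div_mul_div_comm, ← Real.exp_add]
  refine div_le_div_of_nonneg_right (Real.exp_le_exp.2 ?_) (by positivity)
  rw [le_div_iff₀ (by positivity)]
  have h1 := pow_le_pow_left₀ (vn_nonneg _) hr 2
  have h2 : (vn g + 24 * δ * √(n : ℝ)) ^ 2 ≤ vn g ^ 2 + 200 * δ * n := by
    have a1 := mul_le_mul_of_nonneg_left hg.le (mul_nonneg hδ.le hs0)
    have a2 := mul_le_mul_of_nonneg_left hδ1 (mul_nonneg hδ.le (Nat.cast_nonneg (α := ℝ) n))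
    have a3 : (vn g + 24 * δ * √(n : ℝ)) ^ 2 =
        vn g ^ 2 + 48 * (δ * √(n : ℝ) * vn g) + 576 * δ ^ 2 * √(n : ℝ) ^ 2 := by ring
    have a4 : δ * √(n : ℝ) * (3 * √(n : ℝ)) = 3 * δ * √(n : ℝ) ^ 2 := by ring
    rw [a4, hs] at a1
    rw [a3, hs]
    nlinarith [mul_nonneg hδ.le (Nat.cast_nonneg (α := ℝ) n)]
  have h3 := mul_le_mul_of_nonneg_left h2 (pow_pos hη 2).le
  rw [mul_pow] at h1
  linarith

lemma measurable_den (b : ℝ) (J : Mat n) (y : Vec n) (v : ℝ) :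
    Measurable fun H => ENNReal.ofReal (∏ i, phi v ((tapb b J H - y) i)) := by
  have h : Continuous (tapb b J) :=
    (continuous_id.sub (continuous_const.matrix_mulVec continuous_mag)).add
      (continuous_mag.const_smul b)
  exact (measurable_prod_phi v y).comp h.measurable

end CountA

/-- Change variables `H = H₀ + η N g` (if `det N = 0` there is nothing to prove). With
`A = 1 - (J - b) diagonal (dd H₀)`, `E = A N - 1`, `u = η N g`:
`tapb H - y = r + η (g + E g) + R`, `|R| ≤ 4 vn (u * u)` (`tanh_taylor`). By Markov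
(`integral_dot_mul`, `integral_dot_four`) the events `|g|² ≤ 8 n`, `|E g|² ≤ 8 δ² n`,
`∑ u_i⁴ ≤ 24 n η⁴ K⁴` hold together with probability at least `5/8`, and there
`∏ phi η² (res i) * η^n ≥ ∏ phi 1 (g i) * exp (-75 δ n)`; use `gp_eq_withDensity`. -/
theorem vol_lower (hn : 0 < n) {J N : Mat n} {H₀ y : Vec n} {b K δ η : ℝ} (hJ3 : opn J ≤ 3)
    (hb : b ∈ Set.Icc (0 : ℝ) 1) (hK : 1 ≤ K) (hδ : 0 < δ) (hδ1 : δ ≤ 1 / 100) (hη : 0 < η)
    (hηK : η * K ^ 2 ≤ δ) (hN : opn N ≤ K)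
    (hE : fro ((1 - (J - b • (1 : Mat n)) * diagonal (dd H₀)) * N - 1) ≤ δ * √(n : ℝ))
    (hr : vn (tapb b J H₀ - y) ≤ δ * η * √(n : ℝ)) {O : Set (Vec n)} (hO : MeasurableSet O)
    (h : ∀ H, vn (H - H₀) < 3 * η * K * √(n : ℝ) → vn (tapb b J H - y) < 4 * η * √(n : ℝ) →
      H ∈ O) :
    ENNReal.ofReal (|N.det| / 2 * Real.exp (-(100 * δ * n))) ≤
      ∫⁻ H in O, ENNReal.ofReal (∏ i, phi (η ^ 2) ((tapb b J H - y) i)) := by
  rcases eq_or_ne N.det 0 with h0 | h0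
  · simp [h0]
  have hn' : (0 : ℝ) < n := Nat.cast_pos.2 hn
  have hs0 := Real.sqrt_pos.2 hn'
  have hdet : (η • N).det = η ^ n * N.det := by simp
  have hF := (CountA.measurable_den b J y (η ^ 2)).indicator hO
  have hΦ : Measurable fun g : Vec n => H₀ + (η • N) *ᵥ g :=
    (continuous_const.add (continuous_const.matrix_mulVec continuous_id)).measurable
  have hG := CountA.good hn (by linarith) hδ hN hE
  rw [gp_eq_withDensity, withDensity_apply'] at hG
  set G : Set (Vec n) := {g | vn g < 3 * √(n : ℝ) ∧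
    vn (((1 - (J - b • (1 : Mat n)) * diagonal (dd H₀)) * N - 1) *ᵥ g) ≤ 3 * δ * √(n : ℝ) ∧
    vn (fun i => (N *ᵥ g) i ^ 2) ≤ 5 * K ^ 2 * √(n : ℝ)}
  rw [← lintegral_indicator hO,
    ← CountA.cov (M := η • N) (by rw [hdet]; positivity) H₀ hF]
  refine le_trans ?_ (mul_le_mul_right ((setLIntegral_mono (s := G) (f := fun g =>
    ENNReal.ofReal (Real.exp (-(100 * δ * n)) / η ^ n) * ENNReal.ofReal (∏ i, phi 1 (g i)))
    (hF.comp hΦ) fun g hg => ?_).trans (setLIntegral_le_lintegral G _)) _)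
  · rw [lintegral_const_mul' _ _ ENNReal.ofReal_ne_top]
    refine le_trans (le_of_eq ?_) (mul_le_mul_right (mul_le_mul_right hG _) _)
    rw [← ENNReal.ofReal_mul (by positivity), ← ENNReal.ofReal_mul (by positivity), hdet, abs_mul,
      abs_of_pos (pow_pos hη n)]
    congr 1
    field_simp
  · obtain ⟨h1, h2, h3⟩ := hg
    have h4 := CountA.res_le hJ3 hb hη hηK hr h2 h3
    have h5 : H₀ + (η • N) *ᵥ g ∈ O := by
      refine h _ ?_ (h4.trans_lt ?_)
      · rw [add_sub_cancel_left, smul_mulVec, vn_smul, abs_of_pos hη]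
        have a1 := (vn_mulVec_le N g).trans (mul_le_mul_of_nonneg_right hN (vn_nonneg _))
        have a2 := mul_lt_mul_of_pos_left h1 (by linarith : 0 < K)
        have a3 := mul_lt_mul_of_pos_left (a1.trans_lt a2) hη
        linarith
      · have a1 := mul_le_mul_of_nonneg_right hδ1 hs0.le
        have a2 : vn g + 24 * δ * √(n : ℝ) < 4 * √(n : ℝ) := by linarith
        have a3 := mul_lt_mul_of_pos_left a2 hη
        linarith
    simp only [Function.comp, Set.indicator_of_mem h5]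
    rw [← ENNReal.ofReal_mul (by positivity)]
    exact ENNReal.ofReal_le_ofReal (CountA.phi_le hδ hδ1 hη h1 h4)

end Vale.Agent.P150
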