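import Vale.Agent.P150.Objs
import Vale.Agent.P150.GaussB
import Vale.Agent.P150.GaussC

/-! Independence of `J M` and the projected matrix. -/

open MeasureTheory ProbabilityTheory Matrix Filter Topology
open scoped ENNReal NNReal

namespace Vale.Agent.P150

variable {n : ℕ}

namespace CountBAux

lemma lintegral_lin {ι ι' κ : Type} [Fintype ι] [Fintype ι'] [Fintype κ]
    {A : (ι → ℝ) → κ → ℝ} {B : (ι' → ℝ) → κ → ℝ} (hA : IsLinearMap ℝ A) (hB : IsLinearMap ℝ B)
    (h : ∀ z : κ → ℝ, ∃ (a : ι → ℝ) (b : ι' → ℝ), (∀ x, z ⬝ᵥ A x = a ⬝ᵥ x) ∧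
      (∀ y, z ⬝ᵥ B y = b ⬝ᵥ y) ∧ a ⬝ᵥ a = b ⬝ᵥ b)
    {F : (κ → ℝ) → ℝ≥0∞} (hF : Measurable F) :
    ∫⁻ x, F (A x) ∂gp ι = ∫⁻ y, F (B y) ∂gp ι' := by
  classical
  have e1 : ∀ x, A x = LinearMap.toMatrix' (hA.mk' A) *ᵥ x := fun x => by
    rw [LinearMap.toMatrix'_mulVec]; rfl
  have e2 : ∀ x, B x = LinearMap.toMatrix' (hB.mk' B) *ᵥ x := fun x => by
    rw [LinearMap.toMatrix'_mulVec]; rfl
  have hl := law_eq (LinearMap.toMatrix' (hA.mk' A)) (LinearMap.toMatrix' (hB.mk' B)) fun z => by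
    obtain ⟨a, b, ha, hb, hab⟩ := h z
    have h1 : (LinearMap.toMatrix' (hA.mk' A))ᵀ *ᵥ z = a := by
      refine dotProduct_eq _ _ fun x => ?_
      rw [mulVec_transpose, ← dotProduct_mulVec, ← e1, ha]
    have h2 : (LinearMap.toMatrix' (hB.mk' B))ᵀ *ᵥ z = b := by
      refine dotProduct_eq _ _ fun x => ?_
      rw [mulVec_transpose, ← dotProduct_mulVec, ← e2, hb]
    rw [h1, h2]
    rw [dot_self, dot_self] at hab
    exact (sq_eq_sq₀ (vn_nonneg _) (vn_nonneg _)).1 hab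
  have m1 : Measurable fun x : ι → ℝ => LinearMap.toMatrix' (hA.mk' A) *ᵥ x :=
    (continuous_const.matrix_mulVec continuous_id).measurable
  have m2 : Measurable fun x : ι' → ℝ => LinearMap.toMatrix' (hB.mk' B) *ᵥ x :=
    (continuous_const.matrix_mulVec continuous_id).measurable
  simp only [e1, e2]
  rw [← lintegral_map hF m1, ← lintegral_map hF m2, hl]

/-- The projection orthogonal to `M`. -/
noncomputable def pm (M : Vec n) : Mat n := 1 - (1 / (M ⬝ᵥ M)) • vecMulVec M M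

lemma prj_eq (M : Vec n) (A : Mat n) : prj M A = pm M * A * pm M := rfl

lemma pm_transpose (M : Vec n) : (pm M)ᵀ = pm M := by
  rw [pm, transpose_sub, transpose_one, transpose_smul, transpose_vecMulVec]

lemma pm_mulVec (M u : Vec n) : pm M *ᵥ u = u - (M ⬝ᵥ u / (M ⬝ᵥ M)) • M := by
  rw [pm, sub_mulVec, one_mulVec, smul_mulVec, vecMulVec_mulVec]
  congr 1
  funext i
  simp only [Pi.smul_apply, smul_eq_mul, MulOpposite.smul_eq_mul_unop, MulOpposite.unop_op]
  ring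

lemma pm_self {M : Vec n} (hM : M ⬝ᵥ M ≠ 0) : pm M *ᵥ M = 0 := by
  rw [pm_mulVec, div_self hM, one_smul, sub_self]

/-- A matrix as a vector. -/
def fl (A : Mat n) : Fin n × Fin n → ℝ := fun p => A p.1 p.2

lemma fl_dot (A B : Mat n) : fl A ⬝ᵥ fl B = (Aᵀ * B).trace := by
  simp only [fl, dotProduct, Fintype.sum_prod_type, Matrix.trace, diag_apply, mul_apply,
    transpose_apply]
  exact Finset.sum_comm

lemma goe_eq (β : ℝ) (X : Fin n × Fin n → ℝ) :
    goe β X = (β / √(2 * (n : ℝ))) • (Matrix.of (fun i j => X (i, j)) +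
      (Matrix.of fun i j => X (i, j))ᵀ) := by
  ext i j; simp [goe]

lemma trace_goe (β : ℝ) (T : Mat n) (X : Fin n × Fin n → ℝ) :
    (Tᵀ * goe β X).trace = fl ((β / √(2 * (n : ℝ))) • (T + Tᵀ)) ⬝ᵥ X := by
  have e : X = fl (Matrix.of fun i j => X (i, j)) := rfl
  rw [goe_eq]
  generalize (Matrix.of fun i j => X (i, j)) = Y at e
  rw [e, fl_dot, Matrix.mul_smul, transpose_smul, Matrix.smul_mul, trace_smul, trace_smul,
    Matrix.mul_add, transpose_add, Matrix.add_mul, trace_add, trace_add, transpose_transpose,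
    ← transpose_mul, trace_transpose, trace_mul_comm Y T]

lemma dot_prj (M : Vec n) (Z G : Mat n) :
    fl Z ⬝ᵥ fl (prj M G) = ((pm M * Z * pm M)ᵀ * G).trace := by
  rw [fl_dot, prj_eq, transpose_mul, transpose_mul, pm_transpose, ← Matrix.mul_assoc,
    trace_mul_comm]
  simp only [Matrix.mul_assoc]

lemma dot_mulVec_eq (a M : Vec n) (G : Mat n) :
    a ⬝ᵥ G *ᵥ M = ((vecMulVec a M)ᵀ * G).trace := by
  rw [← fl_dot]
  simp only [fl, dotProduct, mulVec, Fintype.sum_prod_type, vecMulVec_apply, Finset.mul_sum]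
  exact Finset.sum_congr rfl fun i _ => Finset.sum_congr rfl fun j _ => by ring

lemma norm_split {M : Vec n} (a : Vec n) {S : Mat n} (hS : S *ᵥ M = 0) (hS' : Sᵀ *ᵥ M = 0) :
    fl ((vecMulVec a M + S) + (vecMulVec a M + S)ᵀ) ⬝ᵥ
        fl ((vecMulVec a M + S) + (vecMulVec a M + S)ᵀ) =
      2 * (a ⬝ᵥ a) * (M ⬝ᵥ M) + 2 * (a ⬝ᵥ M) ^ 2 + fl (S + Sᵀ) ⬝ᵥ fl (S + Sᵀ) := by
  have h0 : (S + Sᵀ) *ᵥ M = 0 := by rw [add_mulVec, hS, hS', add_zero]
  have hs : (S + Sᵀ)ᵀ = S + Sᵀ := by rw [transpose_add, transpose_transpose, add_comm]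
  have e : (vecMulVec a M + S) + (vecMulVec a M + S)ᵀ =
      vecMulVec a M + vecMulVec M a + (S + Sᵀ) := by
    rw [transpose_add, transpose_vecMulVec]; abel
  rw [e]
  generalize S + Sᵀ = R at h0 hs
  have e1 : fl (vecMulVec a M + vecMulVec M a + R) =
      fl (vecMulVec a M) + fl (vecMulVec M a) + fl R := rfl
  have k : ∀ (u w : Vec n) (G : Mat n), fl (vecMulVec u w) ⬝ᵥ fl G = u ⬝ᵥ G *ᵥ w := fun u w G => by
    rw [fl_dot, dot_mulVec_eq]
  have k2 : ∀ u w u' w' : Vec n, fl (vecMulVec u w) ⬝ᵥ fl (vecMulVec u' w') =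
      (u ⬝ᵥ u') * (w' ⬝ᵥ w) := fun u w u' w' => by
    rw [k, vecMulVec_mulVec, dotProduct_smul]
    simp
  have h1 : fl (vecMulVec a M) ⬝ᵥ fl R = 0 := by rw [k, h0, dotProduct_zero]
  have h2 : fl (vecMulVec M a) ⬝ᵥ fl R = 0 := by
    rw [k, dotProduct_mulVec, ← mulVec_transpose, hs, h0, zero_dotProduct]
  rw [e1]
  simp only [add_dotProduct, dotProduct_add, k2, h1, h2, dotProduct_comm (fl R) (fl (vecMulVec _ _)),
    dotProduct_comm M a]
  ring

lemma goe_add (β : ℝ) (X Y : Fin n × Fin n → ℝ) : goe β (X + Y) = goe β X + goe β Y := by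
  ext i j; simp [goe]; ring

lemma goe_smul (β c : ℝ) (X : Fin n × Fin n → ℝ) : goe β (c • X) = c • goe β X := by
  ext i j; simp [goe]; ring

lemma prj_add (M : Vec n) (A B : Mat n) : prj M (A + B) = prj M A + prj M B := by
  rw [prj_eq, prj_eq, prj_eq, Matrix.mul_add, Matrix.add_mul]

lemma prj_smul (M : Vec n) (c : ℝ) (A : Mat n) : prj M (c • A) = c • prj M A := by
  rw [prj_eq, prj_eq, Matrix.mul_smul, Matrix.smul_mul]

lemma continuous_prj (M : Vec n) : Continuous (prj M) :=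
  (continuous_const.matrix_mul continuous_id).matrix_mul continuous_const

/-- The pair `(J M, prj J)`. -/
noncomputable def mA (β : ℝ) (M : Vec n) (X : Fin n × Fin n → ℝ) : Fin n ⊕ Fin n × Fin n → ℝ :=
  Sum.elim (goe β X *ᵥ M) (fl (prj M (goe β X)))

/-- The independent representation. -/
noncomputable def mB (β s t : ℝ) (M : Vec n) (y : (Fin n ⊕ Unit) ⊕ Fin n × Fin n → ℝ) :
    Fin n ⊕ Fin n × Fin n → ℝ :=
  Sum.elim (fun i => s * y (Sum.inl (Sum.inl i)) + t * y (Sum.inl (Sum.inr ())) * M i)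
    (fl (prj M (goe β fun p => y (Sum.inr p))))

lemma lin_mA (β : ℝ) (M : Vec n) : IsLinearMap ℝ (mA β M) where
  map_add X Y := by
    funext k
    rcases k with k | k <;> simp [mA, goe_add, prj_add, add_mulVec, fl]
  map_smul c X := by
    funext k
    rcases k with k | k <;> simp [mA, goe_smul, prj_smul, smul_mulVec, fl]

lemma lin_mB (β s t : ℝ) (M : Vec n) : IsLinearMap ℝ (mB β s t M) where
  map_add X Y := by
    funext k
    rcases k with k | k
    · simp [mB]; ring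
    · have e : (fun p => (X + Y) (Sum.inr p)) = (fun p => X (Sum.inr p)) + fun p => Y (Sum.inr p) :=
        rfl
      simp only [mB, e, goe_add, prj_add]
      rfl
  map_smul c X := by
    funext k
    rcases k with k | k
    · simp [mB]; ring
    · have e : (fun p => (c • X) (Sum.inr p)) = c • fun p => X (Sum.inr p) := rfl
      simp only [mB, e, goe_smul, prj_smul]
      rfl

lemma law_AB (hn : 0 < n) {β s t : ℝ} {M : Vec n} (hM : M ⬝ᵥ M ≠ 0)
    (hs : s ^ 2 = β ^ 2 * (M ⬝ᵥ M / n)) (ht : t ^ 2 = β ^ 2 / n)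
    {F : (Fin n ⊕ Fin n × Fin n → ℝ) → ℝ≥0∞} (hF : Measurable F) :
    ∫⁻ x, F (mA β M x) ∂gp _ = ∫⁻ y, F (mB β s t M y) ∂gp _ := by
  refine lintegral_lin (lin_mA β M) (lin_mB β s t M) (fun z => ?_) hF
  obtain ⟨a, ha⟩ : ∃ a : Vec n, a = fun i => z (Sum.inl i) := ⟨_, rfl⟩
  obtain ⟨Z, hZ⟩ : ∃ Z : Mat n, Z = Matrix.of fun i j => z (Sum.inr (i, j)) := ⟨_, rfl⟩
  have hz : z = Sum.elim a (fl Z) := by
    funext k
    rcases k with k | k <;> simp [ha, hZ, fl]
  obtain ⟨S, hS⟩ : ∃ S, S = pm M * Z * pm M := ⟨_, rfl⟩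
  have hS1 : S *ᵥ M = 0 := by rw [hS, ← mulVec_mulVec, pm_self hM, mulVec_zero]
  have hS2 : Sᵀ *ᵥ M = 0 := by
    rw [hS, transpose_mul, transpose_mul, pm_transpose, ← mulVec_mulVec, ← mulVec_mulVec,
      pm_self hM, mulVec_zero, mulVec_zero]
  refine ⟨fl ((β / √(2 * (n : ℝ))) • ((vecMulVec a M + S) + (vecMulVec a M + S)ᵀ)),
    Sum.elim (Sum.elim (s • a) fun _ => t * (a ⬝ᵥ M))
      (fl ((β / √(2 * (n : ℝ))) • (S + Sᵀ))), fun x => ?_, fun y => ?_, ?_⟩
  · rw [hz, mA, sumElim_dotProduct_sumElim, dot_prj, dot_mulVec_eq, ← trace_goe, ← hS,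
      transpose_add, Matrix.add_mul, trace_add]
  · have hy : y = Sum.elim (Sum.elim (fun i => y (Sum.inl (Sum.inl i)))
        fun _ => y (Sum.inl (Sum.inr ()))) fun p => y (Sum.inr p) := by
      funext k
      rcases k with (k | k) | k <;> rfl
    rw [hz, mB, sumElim_dotProduct_sumElim, dot_prj, ← hS, trace_goe]
    conv_rhs => rw [hy, sumElim_dotProduct_sumElim, sumElim_dotProduct_sumElim]
    congr 1
    simp only [dotProduct, Pi.smul_apply, smul_eq_mul, Finset.univ_unique, Finset.sum_singleton,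
      Finset.mul_sum, Finset.sum_mul, ← Finset.sum_add_distrib]
    exact Finset.sum_congr rfl fun i _ => by ring
  · have hn' : (0 : ℝ) < n := Nat.cast_pos.2 hn
    have e : ∀ (c : ℝ) (A : Mat n), fl (c • A) = c • fl A := fun _ _ => rfl
    have hc : (β / √(2 * (n : ℝ))) * (β / √(2 * (n : ℝ))) = β ^ 2 / (2 * n) := by
      rw [div_mul_div_comm, Real.mul_self_sqrt (by positivity), sq]
    rw [sumElim_dotProduct_sumElim, sumElim_dotProduct_sumElim, e, e]
    simp only [smul_dotProduct, dotProduct_smul, smul_eq_mul, ← mul_assoc, hc]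
    rw [norm_split a hS1 hS2]
    have e2 : (fun _ : Unit => t * (a ⬝ᵥ M)) ⬝ᵥ (fun _ => t * (a ⬝ᵥ M)) = t ^ 2 * (a ⬝ᵥ M) ^ 2 := by
      simp [dotProduct]; ring
    rw [e2, ← sq s, hs, ht]
    field_simp

lemma phi_neg (v t : ℝ) : phi v (-t) = phi v t := by simp [phi]

lemma inner_g {η2 s : ℝ} (hη : 0 < η2) (w : Vec n) :
    ∫⁻ g, ENNReal.ofReal (∏ i, phi η2 (w i - s * g i)) ∂gp (Fin n) =
      ENNReal.ofReal (∏ i, phi (η2 + s ^ 2) (w i)) := by
  have h := lintegral_pi_prod (gaussianReal 0 1)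
    (fun (i : Fin n) t => ENNReal.ofReal (phi η2 (s * t - w i)))
    fun i => ((continuous_phi η2).comp (by fun_prop)).measurable.ennreal_ofReal
  simp only [lintegral_phi_conv hη] at h
  rw [ENNReal.ofReal_prod_of_nonneg fun _ _ => phi_nonneg _ _, ← h]
  refine lintegral_congr fun g => ?_
  rw [ENNReal.ofReal_prod_of_nonneg fun _ _ => phi_nonneg _ _]
  exact Finset.prod_congr rfl fun i _ => by rw [← phi_neg, neg_sub]

lemma prod_phi_le {v b Λ : ℝ} (hv : 0 < v) {W M : Vec n}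
    (h : M ⬝ᵥ W = Λ * (v * b + M ⬝ᵥ M)) (L : ℝ) :
    ∏ i, phi v (W i - L * M i) ≤ (∏ i, phi v ((W - Λ • M) i)) * Real.exp (b * Λ * (L - Λ)) := by
  have e : ∀ i, phi v (W i - L * M i) = phi v ((W - Λ • M) i) *
      Real.exp ((2 * (L - Λ) * (M i * W i) - (L ^ 2 - Λ ^ 2) * (M i * M i)) / (2 * v)) := fun i => by
    rw [phi, phi, div_mul_eq_mul_div, ← Real.exp_add]
    congr 2
    simp only [Pi.sub_apply, Pi.smul_apply, smul_eq_mul]
    ring
  simp only [e]
  rw [Finset.prod_mul_distrib, ← Real.exp_sum, ← Finset.sum_div, Finset.sum_sub_distrib,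
    ← Finset.mul_sum, ← Finset.mul_sum]
  refine mul_le_mul_of_nonneg_left (Real.exp_le_exp.2 ?_)
    (Finset.prod_nonneg fun _ _ => phi_nonneg _ _)
  change (2 * (L - Λ) * (M ⬝ᵥ W) - (L ^ 2 - Λ ^ 2) * (M ⬝ᵥ M)) / (2 * v) ≤ _
  have hM : 0 ≤ M ⬝ᵥ M := by rw [dot_self]; positivity
  rw [div_le_iff₀ (by positivity), h]
  nlinarith [mul_nonneg hM (sq_nonneg (L - Λ))]

lemma lintegral_exp_mul (c : ℝ) :
    ∫⁻ t, ENNReal.ofReal (Real.exp (c * t)) ∂gaussianReal 0 1 =
      ENNReal.ofReal (Real.exp (c ^ 2 / 2)) := by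
  have h : ∫ t, Real.exp (c * t) ∂gaussianReal 0 1 = Real.exp (c ^ 2 / 2) := by
    have := congrFun (mgf_fun_id_gaussianReal (μ := 0) (v := 1)) c
    simpa [mgf] using this
  rw [← h, ofReal_integral_eq_lintegral_ofReal (integrable_exp_mul_gaussianReal c)
    (Eventually.of_forall fun _ => (Real.exp_pos _).le)]

lemma outer {v b t Λ : ℝ} (hv : 0 < v) {W M : Vec n} (h : M ⬝ᵥ W = Λ * (v * b + M ⬝ᵥ M))
    (ht : b * t ^ 2 = 1) :
    ∫⁻ γ, ENNReal.ofReal (∏ i, phi v (W i - t * γ * M i)) ∂gaussianReal 0 1 ≤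
      ENNReal.ofReal ((∏ i, phi v ((W - Λ • M) i)) * Real.exp (-(b * Λ ^ 2 / 2))) := by
  have hP : 0 ≤ ∏ i, phi v ((W - Λ • M) i) := Finset.prod_nonneg fun _ _ => phi_nonneg _ _
  have hP' : 0 ≤ (∏ i, phi v ((W - Λ • M) i)) * Real.exp (-(b * Λ ^ 2)) := by positivity
  calc _ ≤ ∫⁻ γ, ENNReal.ofReal ((∏ i, phi v ((W - Λ • M) i)) * Real.exp (-(b * Λ ^ 2))) *
        ENNReal.ofReal (Real.exp (b * Λ * t * γ)) ∂gaussianReal 0 1 := by
        refine lintegral_mono fun γ => ?_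
        beta_reduce
        rw [← ENNReal.ofReal_mul hP', mul_assoc, ← Real.exp_add]
        refine ENNReal.ofReal_le_ofReal ((prod_phi_le hv h (t * γ)).trans (le_of_eq ?_))
        congr 2
        ring
    _ = _ := by
        rw [lintegral_const_mul' _ _ ENNReal.ofReal_ne_top, lintegral_exp_mul,
          ← ENNReal.ofReal_mul hP', mul_assoc, ← Real.exp_add]
        congr 3
        have : (b * Λ * t) ^ 2 = b * Λ ^ 2 * (b * t ^ 2) := by ring
        rw [this, ht]
        ring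

lemma first {η2 s t : ℝ} (hη : 0 < η2) (W M : Vec n) :
    ∫⁻ y, ENNReal.ofReal (∏ i, phi η2 (W i - (s * y (Sum.inl i) + t * y (Sum.inr ()) * M i)))
        ∂gp (Fin n ⊕ Unit) =
      ∫⁻ γ, ENNReal.ofReal (∏ i, phi (η2 + s ^ 2) (W i - t * γ * M i)) ∂gaussianReal 0 1 := by
  have hm : Measurable fun y : Fin n ⊕ Unit → ℝ =>
      ENNReal.ofReal (∏ i, phi η2 (W i - (s * y (Sum.inl i) + t * y (Sum.inr ()) * M i))) :=
    (continuous_finsetProd _ fun i _ =>
      (continuous_phi η2).comp (by fun_prop)).measurable.ennreal_ofReal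
  have hm2 : Measurable fun γ : ℝ =>
      ENNReal.ofReal (∏ i, phi (η2 + s ^ 2) (W i - t * γ * M i)) :=
    (continuous_finsetProd _ fun i _ =>
      (continuous_phi _).comp (by fun_prop)).measurable.ennreal_ofReal
  rw [← gp_sum.lintegral_comp hm,
    ← (measurePreserving_eval (fun _ : Unit => gaussianReal 0 1) ()).lintegral_comp hm2]
  refine (lintegral_prod_symm _ (hm.comp gp_sum.measurable).aemeasurable).trans ?_
  refine lintegral_congr fun y => ?_
  rw [← inner_g hη]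
  refine lintegral_congr fun g => ?_
  refine congrArg ENNReal.ofReal (Finset.prod_congr rfl fun i _ => congrArg (phi η2) ?_)
  change W i - (s * g i + t * y () * M i) = W i - t * y () * M i - s * g i
  ring

end CountBAux

open CountBAux in
/-- By `law_eq` (target index `Fin n ⊕ Fin n × Fin n`) the pair `(goe X *ᵥ M, prj M (goe X))` has the
law of `(β sqrt q • g + (β γ / sqrt n) • M, prj M (goe X'))` with `g`, `γ`, `X'` independent
(`gp_sum`). Integrate out `g` with `lintegral_pi_prod`, `lintegral_phi_conv`; then for every real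
`L = β γ / sqrt n`, `|W - L M|²/(2v) + n L²/(2β²) ≥ |W - Λ M|²/(2v) + n Λ²/(2β²) + n (L-Λ)²/(2β²)`,
and the remaining Gaussian integral in `γ` equals one. -/
theorem weight_split (hn : 0 < n) {β η q v Λ : ℝ} (hβ : 0 < β) (hη : 0 < η) {M : Vec n}
    (W : Vec n) (hq : q = M ⬝ᵥ M / n) (hq0 : 0 < q) (hv : v = β ^ 2 * q + η ^ 2)
    (hΛ : Λ = β ^ 2 * (M ⬝ᵥ W / n) / (v + β ^ 2 * q)) {U : Set (Mat n)} (hU : IsOpen U) :
    ∫⁻ X in {X | prj M (goe β X) ∈ U},
        ENNReal.ofReal (∏ i, phi (η ^ 2) ((W - goe β X *ᵥ M) i)) ∂gp (Fin n × Fin n) ≤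
      ENNReal.ofReal ((∏ i, phi v ((W - Λ • M) i)) * Real.exp (-(n * Λ ^ 2 / (2 * β ^ 2)))) *
        gp (Fin n × Fin n) {X | prj M (goe β X) ∈ U} := by
  have hn' : (0 : ℝ) < n := Nat.cast_pos.2 hn
  have hMM : M ⬝ᵥ M = q * n := by rw [hq]; field_simp
  have hM : M ⬝ᵥ M ≠ 0 := by rw [hMM]; positivity
  have hv0 : 0 < v := by rw [hv]; positivity
  have hs : (β * √q) ^ 2 = β ^ 2 * q := by rw [mul_pow, Real.sq_sqrt hq0.le]
  have ht : (β / √(n : ℝ)) ^ 2 = β ^ 2 / n := by rw [div_pow, Real.sq_sqrt hn'.le]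
  have hV : MeasurableSet {X : Fin n × Fin n → ℝ | prj M (goe β X) ∈ U} :=
    (hU.preimage ((continuous_prj M).comp (continuous_goe β))).measurableSet
  have hV' : MeasurableSet {z : Fin n ⊕ Fin n × Fin n → ℝ |
      (Matrix.of fun i j => z (Sum.inr (i, j)) : Mat n) ∈ U} := by
    have hc : Continuous fun z : Fin n ⊕ Fin n × Fin n → ℝ =>
        (Matrix.of fun i j => z (Sum.inr (i, j)) : Mat n) :=
      continuous_matrix fun i j => continuous_apply (Sum.inr (i, j))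
    exact (hU.preimage hc).measurableSet
  have hf : Measurable fun z : Fin n ⊕ Fin n × Fin n → ℝ =>
      ENNReal.ofReal (∏ i, phi (η ^ 2) (W i - z (Sum.inl i))) :=
    (continuous_finsetProd _ fun i _ =>
      (continuous_phi _).comp (by fun_prop)).measurable.ennreal_ofReal
  have hF := hf.indicator hV'
  have key := law_AB hn hM (hs.trans (by rw [hq])) ht hF
  have hB : Measurable (mB β (β * √q) (β / √(n : ℝ)) M) :=
    ((lin_mB β _ _ M).mk' _).continuous_of_finiteDimensional.measurable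
  have hm : Measurable fun y : Fin n ⊕ Unit → ℝ => ENNReal.ofReal (∏ i, phi (η ^ 2)
      (W i - (β * √q * y (Sum.inl i) + β / √(n : ℝ) * y (Sum.inr ()) * M i))) :=
    (continuous_finsetProd _ fun i _ =>
      (continuous_phi _).comp (by fun_prop)).measurable.ennreal_ofReal
  rw [← lintegral_indicator hV]
  refine le_trans (le_of_eq (Eq.trans (lintegral_congr fun X => ?_) key)) ?_
  · rfl
  refine le_trans (le_of_eq (gp_sum.lintegral_comp (hF.comp hB)).symm) ?_
  rw [← lintegral_indicator_one hV]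
  refine le_trans (le_of_eq (Eq.trans (lintegral_congr fun y => ?_)
    (lintegral_prod_mul hm.aemeasurable (measurable_one.indicator hV).aemeasurable))) ?_
  · by_cases h : prj M (goe β y.2) ∈ U
    · exact (Set.indicator_of_mem (by exact h) _).trans
        (by rw [Set.indicator_of_mem (by exact h), Pi.one_apply, mul_one]; rfl)
    · exact (Set.indicator_of_notMem (by exact h) _).trans
        (by rw [Set.indicator_of_notMem (by exact h), mul_zero])
  refine mul_le_mul_left ?_ _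
  rw [first (by positivity), hs, add_comm, ← hv]
  refine (outer (b := n / β ^ 2) (Λ := Λ) hv0 ?_ (by rw [ht]; field_simp)).trans (le_of_eq ?_)
  · rw [hΛ, hMM]
    field_simp
  · congr 3
    field_simp

theorem isOpen_badU (β : ℝ) (x H W : Vec n) (c e : ℝ) : IsOpen (badU β x H W c e) := by
  have e : badU β x H W c e = ⋃ (H' : Vec n) (u : Vec n) (_ : vn (H' - H) < e * √(n : ℝ)),
      {P | -(c * (u ⬝ᵥ u)) < cform β x (mag H) W P H' u} := by
    ext P; simp [badU]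
  rw [e]
  refine isOpen_iUnion fun H' => isOpen_iUnion fun u => isOpen_iUnion fun _ =>
    isOpen_lt continuous_const ?_
  have h : Continuous fun P : Mat n => u ⬝ᵥ P *ᵥ u :=
    continuous_const.dotProduct (continuous_id.matrix_mulVec continuous_const)
  unfold cform
  fun_prop

/-- Decomposition of the quadratic form along `M`. -/
theorem quad_prj {A : Mat n} (hA : A.IsSymm) {M : Vec n} (hM : M ⬝ᵥ M ≠ 0) (u : Vec n) :
    u ⬝ᵥ A *ᵥ u = u ⬝ᵥ prj M A *ᵥ u + 2 * (M ⬝ᵥ u / (M ⬝ᵥ M)) * (u ⬝ᵥ A *ᵥ M) -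
      (M ⬝ᵥ u / (M ⬝ᵥ M)) ^ 2 * (M ⬝ᵥ A *ᵥ M) := by
  have hs : M ⬝ᵥ A *ᵥ u = u ⬝ᵥ A *ᵥ M := by
    rw [dotProduct_mulVec, ← mulVec_transpose, hA.eq, dotProduct_comm]
  rw [CountBAux.prj_eq, ← mulVec_mulVec, ← mulVec_mulVec, dotProduct_mulVec u (CountBAux.pm M),
    ← mulVec_transpose, CountBAux.pm_transpose, CountBAux.pm_mulVec]
  simp only [mulVec_sub, mulVec_smul, sub_dotProduct, dotProduct_sub, smul_dotProduct,
    dotProduct_smul, smul_eq_mul, hs]
  ring

end Vale.Agent.P150
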