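import Vale.Agent.P150.CountCAux

/-! Conditional positivity of the TAP Hessian. -/

open MeasureTheory ProbabilityTheory Matrix Filter Topology
open scoped ENNReal NNReal

namespace Vale.Agent.P150

variable {n : ℕ}

namespace CC

lemma avg_add (f g : Vec n) : avg (fun i => f i + g i) = avg f + avg g := by
  simp only [avg, Finset.sum_add_distrib, add_div]

lemma avg_sub (f g : Vec n) : avg (fun i => f i - g i) = avg f - avg g := by
  simp only [avg, Finset.sum_sub_distrib, sub_div]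

lemma avg_cmul (c : ℝ) (f : Vec n) : avg (fun i => c * f i) = c * avg f := by
  simp only [avg, ← Finset.mul_sum, mul_div_assoc]

lemma avg_const (hn : 0 < n) (c : ℝ) : avg (fun _ : Fin n => c) = c := by
  have : (n : ℝ) ≠ 0 := by positivity
  simp only [avg, Finset.sum_const, Finset.card_univ, Fintype.card_fin, nsmul_eq_mul]
  field_simp

lemma avg_mono {f g : Vec n} (h : ∀ i, f i ≤ g i) : avg f ≤ avg g :=
  div_le_div_of_nonneg_right (Finset.sum_le_sum fun i _ => h i) (Nat.cast_nonneg n)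

lemma avg_dot (u w : Vec n) : avg (fun i => u i * w i) = u ⬝ᵥ w / n := rfl

lemma avg_sq (u : Vec n) : avg (fun i => u i ^ 2) = vn u ^ 2 / n := by rw [vn_sq]; rfl

lemma avg_sq_le (hn : 0 < n) {u : Vec n} {e : ℝ} (h : vn u ≤ e * √(n : ℝ)) :
    avg (fun i => u i ^ 2) ≤ e ^ 2 := by
  have hn' : (0 : ℝ) < n := Nat.cast_pos.2 hn
  rw [avg_sq, div_le_iff₀ hn']
  refine (pow_le_pow_left₀ (vn_nonneg _) h 2).trans (le_of_eq ?_)
  rw [mul_pow, Real.sq_sqrt hn'.le]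

lemma abs_avg_dot_le (hn : 0 < n) {u w : Vec n} {a b : ℝ} (ha : 0 ≤ a) (h : vn u ≤ a * √(n : ℝ))
    (h' : vn w ≤ b * √(n : ℝ)) : |u ⬝ᵥ w / n| ≤ a * b := by
  have hn' : (0 : ℝ) < n := Nat.cast_pos.2 hn
  rw [abs_div, abs_of_pos hn', div_le_iff₀ hn']
  refine (abs_dot_le u w).trans ((mul_le_mul h h' (vn_nonneg _) (by positivity)).trans
    (le_of_eq ?_))
  rw [mul_mul_mul_comm, Real.mul_self_sqrt hn'.le]

lemma abs_dd_sub_le (H H' : Vec n) (i : Fin n) : |dd H' i - dd H i| ≤ |2 * (H' i - H i)| := by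
  have h1 := abs_tanh_sub_le (H' i) (H i)
  have h2 := abs_mag_le H i
  have h3 := abs_mag_le H' i
  have e : dd H' i - dd H i = -(Real.tanh (H' i) + Real.tanh (H i)) *
      (Real.tanh (H' i) - Real.tanh (H i)) := by simp only [dd]; ring
  rw [e, abs_mul, abs_neg, abs_mul, abs_two]
  exact mul_le_mul ((abs_add_le _ _).trans (by simp only [mag] at h2 h3; linarith)) h1
    (abs_nonneg _) zero_le_two

/-- The dominating function. -/
noncomputable def Phi (K e A l : ℝ) (D a₁ a₂ g : Vec n) : ℝ :=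
  K + 3 * e * avg (fun i => g i ^ 4) + 2 * A / e * (avg (fun i => (D i + l) * (g i ^ 2 - 1)) ^ 2 +
    avg (fun i => a₁ i * g i) ^ 2 + avg (fun i => a₂ i * g i) ^ 2)

/-- The deterministic bound. -/
lemma det (hn : 0 < n) {β b v l e A R τ r ρ : ℝ} {x H V W H' y : Vec n} (g : Vec n)
    (hβ : β ^ 2 ≤ 1) (he : 0 < e) (he1 : e ≤ 1) (hl0 : 0 < l) (hτ : 0 ≤ τ) (hr : 0 < r)
    (hAr : A * r = 1) (hA : 1 ≤ A) (hl : 38 * l ≤ β ^ 2 * (1 - β ^ 2) * r ^ 2)
    (hx : ∀ i, x i ^ 2 = 1) (hq : r ≤ mag H ⬝ᵥ mag H / n) (hb : |ons β (mag H) - b| ≤ e)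
    (hv : |β ^ 2 * (mag H ⬝ᵥ mag H / n) - v| ≤ e) (hW : vn (W - V - b • mag H) ≤ e * √(n : ℝ))
    (hT : Typ τ R x H V v) (hH : vn (H' - H) ≤ e * √(n : ℝ)) (hy : y ⬝ᵥ y = n)
    (hρ : ρ ^ 2 = (y - (mag H ⬝ᵥ y / (mag H ⬝ᵥ mag H)) • mag H) ⬝ᵥ
      (y - (mag H ⬝ᵥ y / (mag H ⬝ᵥ mag H)) • mag H) / n) :
    2 * β * ρ * (g ⬝ᵥ (y - (mag H ⬝ᵥ y / (mag H ⬝ᵥ mag H)) • mag H) / n) +
        cform β x (mag H) W 0 H' y / n ≤
      Phi (β ^ 2 * l - l / (1 + l) + 10 * A * τ + A * (30 * R ^ 2 + 534) * e) e A l (dd H)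
        (fun i => (dd H i + l) * (V i + 2 * v * mag H i) - mag H i)
        (fun i => (dd H i + l) * x i) g := by
  have hn' : (0 : ℝ) < n := Nat.cast_pos.2 hn
  obtain ⟨α, hα⟩ : ∃ α, α = mag H ⬝ᵥ y / (mag H ⬝ᵥ mag H) := ⟨_, rfl⟩
  obtain ⟨q, hqd⟩ : ∃ q, q = mag H ⬝ᵥ mag H / n := ⟨_, rfl⟩
  obtain ⟨p, hp⟩ : ∃ p, p = x ⬝ᵥ y / n := ⟨_, rfl⟩
  obtain ⟨t', ht'⟩ : ∃ t', t' = mag H' ⬝ᵥ y / n := ⟨_, rfl⟩
  rw [← hqd] at hq hv
  have hq0 : 0 < q := hr.trans_le hq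
  have hMM : mag H ⬝ᵥ mag H = q * n := by rw [hqd]; field_simp
  have hMy : mag H ⬝ᵥ y = α * q * n := by rw [hα, hMM]; field_simp
  have hsn : vn y ≤ 1 * √(n : ℝ) := by
    rw [one_mul, ← hy, dot_self, Real.sqrt_sq (vn_nonneg _)]
  have hM : ∀ H : Vec n, vn (mag H) ≤ 1 * √(n : ℝ) := fun H => by simpa using vn_mag_le H
  have hq1 : q ≤ 1 := by
    have := abs_avg_dot_le hn zero_le_one (hM H) (hM H)
    rw [← hqd, one_mul] at this
    exact (le_abs_self _).trans this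
  have hρ' : ρ ^ 2 + α ^ 2 * q = 1 := by
    rw [hρ, ← hα]
    simp only [sub_dotProduct, dotProduct_sub, smul_dotProduct, dotProduct_smul, smul_eq_mul,
      dotProduct_comm y (mag H), hMM, hMy, hy]
    field_simp
    ring
  have hρ1 : ρ ^ 2 ≤ 1 := by linarith [mul_nonneg (sq_nonneg α) hq0.le]
  have hαA : α ^ 2 ≤ A := by
    have h1 : α ^ 2 * r ≤ 1 := by
      linarith [mul_le_mul_of_nonneg_left hq (sq_nonneg α), sq_nonneg ρ]
    exact le_of_mul_le_mul_right (by rwa [hAr]) hr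
  have hp1 : p ^ 2 ≤ 1 := by
    have := abs_avg_dot_le hn zero_le_one (u := x)
      (vn_le_sqrt zero_le_one fun i => abs_le_of_sq (hx i).le le_rfl) hsn
    rw [← hp, one_mul] at this
    exact (sq_le_one_iff_abs_le_one p).2 this
  have ha : (β * ρ) ^ 2 ≤ 1 := by rw [mul_pow]; exact mul_le_one₀ hβ (sq_nonneg _) hρ1
  have hk : (β ^ 2 * p) ^ 2 ≤ 1 := by
    rw [mul_pow]; exact mul_le_one₀ (pow_le_one₀ (sq_nonneg _) hβ) (sq_nonneg _) hp1
  have hv4 : v ^ 2 ≤ 4 := by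
    have h1 := abs_le.1 hv
    have h2 : β ^ 2 * q ≤ 1 := mul_le_one₀ hβ hq0.le hq1
    have h3 : 0 ≤ β ^ 2 * q := by positivity
    exact (sq_le_sq' (by linarith) (by linarith : v ≤ 2)).trans (by norm_num)
  have hd : avg (dd H) = 1 - q := by
    have := avg_sub (fun _ => (1 : ℝ)) (fun i => mag H i * mag H i)
    rw [avg_const hn, avg_dot, ← hqd] at this
    rw [← this]
    congr 1
    funext i
    simp only [dd, mag, sq]
  have hD : avg (fun i => (dd H' i - dd H i) ^ 2) ≤ 4 * e ^ 2 := by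
    have h1 : vn (dd H' - dd H) ≤ 2 * e * √(n : ℝ) := by
      have h2 := vn_smul 2 (H' - H)
      rw [abs_two] at h2
      have h3 : vn (dd H' - dd H) ≤ vn ((2 : ℝ) • (H' - H)) := vn_mono (abs_dd_sub_le H H')
      linarith
    exact (avg_sq_le hn h1).trans (le_of_eq (by ring))
  have hb1 : β ^ 2 * avg (dd H) ≤ b + e := by
    rw [← ons_mag hn]; linarith [(abs_le.1 hb).2]
  have hb2 : b - 6 * e ≤ ons β (mag H') := by
    have h1 : avg (fun i => dd H i - dd H' i) ≤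
        avg (fun i => e + e⁻¹ * (dd H' i - dd H i) ^ 2) := avg_mono fun i => by
      have := abs_le_young (z := dd H' i - dd H i) he
      rw [div_eq_inv_mul] at this
      linarith [neg_abs_le (dd H' i - dd H i)]
    rw [avg_sub, avg_add, avg_cmul, avg_const hn] at h1
    have h2 : e⁻¹ * avg (fun i => (dd H' i - dd H i) ^ 2) ≤ 4 * e :=
      (mul_le_mul_of_nonneg_left hD (by positivity)).trans (le_of_eq (by field_simp))
    have h3 : β ^ 2 * (avg (dd H) - avg (dd H')) ≤ β ^ 2 * (5 * e) :=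
      mul_le_mul_of_nonneg_left (by linarith) (sq_nonneg _)
    have h4 : β ^ 2 * (5 * e) ≤ 1 * (5 * e) := mul_le_mul_of_nonneg_right hβ (by positivity)
    have h5 := (abs_le.1 hb).1
    rw [ons_mag hn] at h5 ⊢
    linarith
  have ht : t' ^ 2 ≤ (α * q) ^ 2 + 2 * e := by
    have h1 := abs_avg_dot_le hn he.le ((vn_mag_sub_le H' H).trans hH) hsn
    have h2 := abs_avg_dot_le hn zero_le_one (hM H') hsn
    have h3 := abs_avg_dot_le hn zero_le_one (hM H) hsn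
    rw [sub_dotProduct, sub_div, ← ht', hMy, mul_div_cancel_right₀ _ hn'.ne'] at h1
    rw [← ht'] at h2
    rw [hMy, mul_div_cancel_right₀ _ hn'.ne'] at h3
    have h4 := coef_le' (c := t' + α * q) (C := 2) ((abs_add_le _ _).trans (by linarith)) h1
    linarith
  have key := avg_mono fun i => pt (β := β) (ρ := ρ) (α := α) (p := p) (b := b) (R := R)
    (g := g i) (y := y i) (M := mag H i) (V := V i) (E := (W - V - b • mag H) i)
    (dom_dd H' i).1 (dom_dd H' i).2 (cosh_sq_mul_dd H' i) hl0 he (rfl : dd H i = _)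
    (dom_dd H i).1.le ha hk hαA hA (hx i) hv4
  have eL : avg (fun i => 2 * β * ρ * (g i * (y i - α * mag H i)) +
      2 * α * (y i * (V i + b * mag H i + (W - V - b • mag H) i)) -
      α ^ 2 * (mag H i * (V i + b * mag H i + (W - V - b • mag H) i)) -
      Real.cosh (H' i) ^ 2 * y i ^ 2) = 2 * β * ρ * (g ⬝ᵥ (y - α • mag H) / n) +
      2 * α * (y ⬝ᵥ W / n) - α ^ 2 * (mag H ⬝ᵥ W / n) -
      (∑ i, Real.cosh (H' i) ^ 2 * y i ^ 2) / n := by
    have e1 : ∀ i, V i + b * mag H i + (W - V - b • mag H) i = W i := fun i => by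
      simp only [Pi.sub_apply, Pi.smul_apply, smul_eq_mul]; ring
    simp only [e1, avg_sub, avg_add, avg_cmul]
    rfl
  rw [eL] at key
  simp only [avg_add, avg_cmul, avg_const hn] at key
  have e2 : avg (fun i => y i ^ 2) = 1 := by rw [avg_sq, ← dot_self, hy, div_self hn'.ne']
  have e3 : avg (fun i => mag H i * y i) = α * q := by
    rw [avg_dot, hMy, mul_div_cancel_right₀ _ hn'.ne']
  rw [e2, e3, avg_dot x y, ← hp] at key
  have hf := fin (R := R) (G := avg (fun i => g i ^ 4))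
    (Z0 := avg (fun i => (dd H i + l) * (g i ^ 2 - 1)))
    (Z1 := avg (fun i => ((dd H i + l) * (V i + 2 * v * mag H i) - mag H i) * g i))
    (Z2 := avg (fun i => (dd H i + l) * x i * g i)) hβ hq0.le hq1 he he1 hl0 hτ hv
    (hl.trans (mul_le_mul_of_nonneg_left (pow_le_pow_left₀ hr.le hq 2)
      (mul_nonneg (sq_nonneg _) (by linarith)))) hρ' hρ1 ha hk hαA hA hd hb1 hb2 ht hT.1 hT.2.1
    hT.2.2.1 hT.2.2.2.1 hT.2.2.2.2 (avg_sq_le hn hW) hD
  have eC : cform β x (mag H) W 0 H' y / n = 2 * α * (y ⬝ᵥ W / n) - α ^ 2 * (mag H ⬝ᵥ W / n) +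
      β ^ 2 * p ^ 2 + 2 * β ^ 2 * t' ^ 2 - (∑ i, Real.cosh (H' i) ^ 2 * y i ^ 2) / n -
      ons β (mag H') := by
    rw [cform, ← hα, hy, hp, ht', zero_mulVec, dotProduct_zero]
    field_simp
    ring
  rw [eC, ← hα, Phi]
  linear_combination key + hf

open GaussB in
lemma pg_avg {F : Fin n → Vec n → ℝ} (hF : ∀ i, PG (F i)) : PG fun g => avg fun i => F i g := by
  have h := (PG.sum Finset.univ hF).mul (PG.const ((n : ℝ)⁻¹))
  simpa only [avg, div_eq_mul_inv] using h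

open GaussB in
lemma pg_four : PG fun g : Vec n => avg fun i => g i ^ 4 := pg_avg fun i => (PG.coord i).pow 4

open GaussB in
lemma pg_lin (a : Vec n) : PG fun g : Vec n => avg (fun i => a i * g i) ^ 2 :=
  (pg_avg fun i => (PG.const _).mul (PG.coord i)).pow 2

open GaussB in
lemma pg_quad (a : Vec n) : PG fun g : Vec n => avg (fun i => a i * (g i ^ 2 - 1)) ^ 2 :=
  (pg_avg fun i => (PG.const _).mul (((PG.coord i).pow 2).add (PG.const (-1)))).pow 2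

open GaussB in
lemma int_four (hn : 0 < n) : ∫ g, avg (fun i => g i ^ 4) ∂gp (Fin n) = 3 := by
  have h : ∀ i : Fin n, ∫ g, g i ^ 4 ∂gp (Fin n) = 3 := fun i => by
    simpa using integral_dot_four (Pi.single i 1 : Vec n)
  simp only [avg]
  rw [integral_div, integral_finsetSum _ fun i _ => ((PG.coord i).pow 4).integrable]
  simp only [h]
  exact avg_const hn 3

lemma int_lin (hn : 0 < n) {a : Vec n} {C : ℝ} (h : avg (fun i => a i ^ 2) ≤ C) :
    ∫ g, avg (fun i => a i * g i) ^ 2 ∂gp (Fin n) ≤ C / n := by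
  have hn' : (0 : ℝ) < n := Nat.cast_pos.2 hn
  simp only [avg_dot, div_pow]
  simp only [sq (a ⬝ᵥ _)]
  rw [integral_div, integral_dot_mul, dot_self, sq (n : ℝ), ← div_div, ← avg_sq]
  exact div_le_div_of_nonneg_right h hn'.le

lemma int_quad (hn : 0 < n) {a : Vec n} {C : ℝ} (h : avg (fun i => a i ^ 2) ≤ C) :
    ∫ g, avg (fun i => a i * (g i ^ 2 - 1)) ^ 2 ∂gp (Fin n) ≤ 2 * C / n := by
  have hn' : (0 : ℝ) < n := Nat.cast_pos.2 hn
  have e : ∀ g : Vec n, avg (fun i => a i * (g i ^ 2 - 1)) ^ 2 =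
      (g ⬝ᵥ diagonal a *ᵥ g - (diagonal a).trace) ^ 2 / n ^ 2 := fun g => by
    rw [avg, div_pow, trace_diagonal, dotProduct, ← Finset.sum_sub_distrib]
    congr 2
    exact Finset.sum_congr rfl fun i _ => by rw [mulVec_diagonal]; ring
  simp only [e]
  have h1 := integral_quad_sq (diagonal a)
  rw [← fro_sq, fro_diagonal] at h1
  rw [integral_div, sq (n : ℝ), ← div_div]
  refine div_le_div_of_nonneg_right ?_ hn'.le
  rw [avg_sq] at h
  refine (div_le_div_of_nonneg_right h1 hn'.le).trans ?_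
  rw [mul_div_assoc]
  linarith

open GaussB in
lemma pg_Phi (K e A l : ℝ) (D a₁ a₂ : Vec n) : PG (Phi K e A l D a₁ a₂) :=
  ((PG.const K).add ((PG.const _).mul pg_four)).add
    ((PG.const _).mul (((pg_quad _).add (pg_lin _)).add (pg_lin _)))

lemma int_Phi (hn : 0 < n) {K e A l : ℝ} {D a₁ a₂ : Vec n} (he : 0 < e) (hA : 0 ≤ A)
    (h0 : avg (fun i => (D i + l) ^ 2) ≤ 4) (h1 : avg (fun i => a₁ i ^ 2) ≤ 306)
    (h2 : avg (fun i => a₂ i ^ 2) ≤ 4) :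
    ∫ g, Phi K e A l D a₁ a₂ g ∂gp (Fin n) ≤ K + 9 * e + 636 * A / e / n := by
  have i1 := (pg_four (n := n)).integrable
  have i2 := (pg_quad (fun i => D i + l)).integrable
  have i3 := (pg_lin a₁).integrable
  have i4 := (pg_lin a₂).integrable
  have j2 := int_quad hn h0
  have j3 := int_lin hn h1
  have j4 := int_lin hn h2
  simp only [Phi]
  rw [integral_add ((integrable_const _).fun_add (i1.const_mul _))
      (((i2.fun_add i3).fun_add i4).const_mul _),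
    integral_add (integrable_const _) (i1.const_mul _), integral_const_mul, integral_const_mul,
    integral_add (i2.fun_add i3) i4, integral_add i2 i3, int_four hn]
  simp only [integral_const, probReal_univ, smul_eq_mul, one_mul]
  have h := mul_le_mul_of_nonneg_left (add_le_add (add_le_add j2 j3) j4)
    (show 0 ≤ 2 * A / e by positivity)
  have e1 : 2 * A / e * (2 * 4 / n + 306 / n + 4 / n) = 636 * A / e / n := by ring
  linarith

lemma cform_split (β : ℝ) (x M W : Vec n) (J : Mat n) (H y : Vec n) :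
    cform β x M W (prj M J) H y = (y - (M ⬝ᵥ y / (M ⬝ᵥ M)) • M) ⬝ᵥ J *ᵥ
      (y - (M ⬝ᵥ y / (M ⬝ᵥ M)) • M) + cform β x M W 0 H y := by
  have h1 : (1 - (1 / (M ⬝ᵥ M)) • vecMulVec M M : Mat n) *ᵥ y = y - (M ⬝ᵥ y / (M ⬝ᵥ M)) • M := by
    rw [sub_mulVec, one_mulVec, smul_mulVec, vecMulVec_mulVec]
    funext i
    simp only [Pi.sub_apply, Pi.smul_apply, smul_eq_mul, MulOpposite.smul_eq_mul_unop,
      MulOpposite.unop_op]
    ring
  have h2 : y ᵥ* (1 - (1 / (M ⬝ᵥ M)) • vecMulVec M M : Mat n) = y - (M ⬝ᵥ y / (M ⬝ᵥ M)) • M := by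
    rw [← h1, ← mulVec_transpose, transpose_sub, transpose_one, transpose_smul,
      transpose_vecMulVec]
  have h3 : y ⬝ᵥ prj M J *ᵥ y = (y - (M ⬝ᵥ y / (M ⬝ᵥ M)) • M) ⬝ᵥ J *ᵥ
      (y - (M ⬝ᵥ y / (M ⬝ᵥ M)) • M) := by
    rw [prj, ← mulVec_mulVec, ← mulVec_mulVec, dotProduct_mulVec, h1, h2]
  simp only [cform, h3, zero_mulVec, dotProduct_zero]
  ring

lemma cform_smul (β : ℝ) (x M W : Vec n) (P : Mat n) (H u : Vec n) (s : ℝ) :
    cform β x M W P H (s • u) = s ^ 2 * cform β x M W P H u := by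
  have e : ∑ i, Real.cosh (H i) ^ 2 * (s • u) i ^ 2 = s ^ 2 * ∑ i, Real.cosh (H i) ^ 2 * u i ^ 2 := by
    rw [Finset.mul_sum]
    exact Finset.sum_congr rfl fun i _ => by rw [Pi.smul_apply, smul_eq_mul]; ring
  simp only [cform, e, mulVec_smul, smul_dotProduct, dotProduct_smul, smul_eq_mul]
  ring

lemma avg_bounds (hn : 0 < n) {l v : ℝ} {x H V : Vec n} (hl : 0 < l) (hl1 : l ≤ 1)
    (hv : v ^ 2 ≤ 4) (hx : ∀ i, x i ^ 2 = 1) (hV : avg (fun i => V i ^ 2) ≤ 3) :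
    avg (fun i => (dd H i + l) ^ 2) ≤ 4 ∧
    avg (fun i => ((dd H i + l) * (V i + 2 * v * mag H i) - mag H i) ^ 2) ≤ 306 ∧
    avg (fun i => ((dd H i + l) * x i) ^ 2) ≤ 4 := by
  have h0 : ∀ i, (dd H i + l) ^ 2 ≤ 4 := fun i => by
    have := dom_dd H i
    nlinarith
  refine ⟨(avg_mono h0).trans (avg_const hn 4).le, ?_,
    (avg_mono fun i => ?_).trans (avg_const hn 4).le⟩
  · have h1 : avg (fun i => ((dd H i + l) * (V i + 2 * v * mag H i) - mag H i) ^ 2) ≤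
        avg (fun i => 258 + 16 * V i ^ 2) := avg_mono fun i => by
      have hM : mag H i ^ 2 ≤ 1 := (sq_le_one_iff_abs_le_one _).2 (abs_mag_le H i)
      have h2 := mul_le_mul (h0 i) (sq_U_le (V := V i) hM hv) (sq_nonneg _) (by norm_num)
      rw [← mul_pow] at h2
      nlinarith [sq_nonneg ((dd H i + l) * (V i + 2 * v * mag H i) + mag H i)]
    rw [avg_add, avg_cmul, avg_const hn] at h1
    linarith
  · rw [mul_pow, hx, mul_one]
    exact h0 i

/-- The bound for fixed constants. -/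
lemma main (hn : 0 < n) {β b v l e A R τ r c₀ : ℝ} {x H V W : Vec n} (hβ0 : 0 < β)
    (hβ : β ^ 2 ≤ 1) (he : 0 < e) (he1 : e ≤ 1) (hl0 : 0 < l) (hl1 : l ≤ 1) (hτ : 0 ≤ τ)
    (hr : 0 < r) (hAr : A * r = 1) (hA : 1 ≤ A) (hl : 38 * l ≤ β ^ 2 * (1 - β ^ 2) * r ^ 2)
    (hc : 0 ≤ c₀) (hK : β ^ 2 * l - l / (1 + l) + 10 * A * τ + A * (30 * R ^ 2 + 534) * e +
      9 * e + 636 * A / e / n ≤ -(3 * c₀))
    (hx : ∀ i, x i ^ 2 = 1) (hq : r ≤ mag H ⬝ᵥ mag H / n) (hb : |ons β (mag H) - b| ≤ e)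
    (hv : |β ^ 2 * (mag H ⬝ᵥ mag H / n) - v| ≤ e) (hW : vn (W - V - b • mag H) ≤ e * √(n : ℝ))
    (hT : Typ τ R x H V v) :
    gp (Fin n × Fin n) {X | prj (mag H) (goe β X) ∈ badU β x H W (2 * c₀) e} ≤
      ENNReal.ofReal (Real.exp (-(c₀ ^ 2 / (8 * β ^ 2) * n))) := by
  have hn' : (0 : ℝ) < n := Nat.cast_pos.2 hn
  have hs : 0 < √(n : ℝ) := Real.sqrt_pos.2 hn'
  have hss : √(n : ℝ) ^ 2 = n := Real.sq_sqrt hn'.le
  have hMM : 0 < mag H ⬝ᵥ mag H := by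
    have := hr.trans_le hq
    exact (div_pos_iff_of_pos_right hn').1 this
  have hv4 : v ^ 2 ≤ 4 := by
    have h1 := abs_le.1 hv
    have h0 := abs_avg_dot_le hn zero_le_one (u := mag H) (w := mag H) (b := 1)
      (by simpa using vn_mag_le H) (by simpa using vn_mag_le H)
    have h2 : β ^ 2 * (mag H ⬝ᵥ mag H / n) ≤ 1 :=
      mul_le_one₀ hβ (by positivity) (by linarith [le_abs_self (mag H ⬝ᵥ mag H / n)])
    have h3 : 0 ≤ β ^ 2 * (mag H ⬝ᵥ mag H / n) := by positivity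
    exact (sq_le_sq' (by linarith) (by linarith : v ≤ 2)).trans (by norm_num)
  obtain ⟨b0, b1, b2⟩ := avg_bounds (H := H) hn hl0 hl1 hv4 hx hT.2.2.2.1
  have hI := int_Phi (K := β ^ 2 * l - l / (1 + l) + 10 * A * τ + A * (30 * R ^ 2 + 534) * e)
    hn he (zero_le_one.trans hA) b0 b1 b2
  have hz : ∀ y : Vec n, y ⬝ᵥ y = n → (y - (mag H ⬝ᵥ y / (mag H ⬝ᵥ mag H)) • mag H) ⬝ᵥ
      (y - (mag H ⬝ᵥ y / (mag H ⬝ᵥ mag H)) • mag H) ≤ n := fun y hy => by
    simp only [sub_dotProduct, dotProduct_sub, smul_dotProduct, dotProduct_smul, smul_eq_mul,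
      dotProduct_comm y (mag H), hy]
    have e1 : mag H ⬝ᵥ y / (mag H ⬝ᵥ mag H) * (mag H ⬝ᵥ mag H) = mag H ⬝ᵥ y := by field_simp
    have e2 : 0 ≤ mag H ⬝ᵥ y / (mag H ⬝ᵥ mag H) * (mag H ⬝ᵥ y) := by
      rw [div_mul_eq_mul_div]
      exact div_nonneg (mul_self_nonneg _) hMM.le
    rw [e1]
    linarith
  have hρ : ∀ z : Vec n, vn ((√(n : ℝ))⁻¹ • z) ^ 2 = z ⬝ᵥ z / n := fun z => by
    rw [vn_smul, mul_pow, sq_abs, inv_pow, hss, dot_self, div_eq_inv_mul]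
  have e0 : -(c₀ ^ 2 / (8 * β ^ 2) * n) = -(n * c₀ ^ 2) / (8 * β ^ 2) := by ring
  rw [e0]
  refine le_trans (measure_mono ?_) (sf_goe hn hβ0 (Or.inl rfl)
    (T := {t : Vec n × Vec n // vn (t.1 - H) ≤ e * √(n : ℝ) ∧ t.2 ⬝ᵥ t.2 = n})
    (fun t => (√(n : ℝ))⁻¹ • (t.1.2 - (mag H ⬝ᵥ t.1.2 / (mag H ⬝ᵥ mag H)) • mag H))
    (fun t => ?_) (fun t => cform β x (mag H) W 0 t.1.1 t.1.2 / n) _
    (pg_Phi (β ^ 2 * l - l / (1 + l) + 10 * A * τ + A * (30 * R ^ 2 + 534) * e) e A l (dd H)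
      (fun i => (dd H i + l) * (V i + 2 * v * mag H i) - mag H i)
      (fun i => (dd H i + l) * x i)).integrable (fun g t => ?_) hc)
  · rintro X ⟨H', u, h1, h2⟩
    have hu : 0 < vn u := by
      refine lt_of_le_of_ne (vn_nonneg u) fun h => ?_
      have h3 := cform_smul β x (mag H) W (prj (mag H) (goe β X)) H' u 0
      rw [zero_smul, zero_pow two_ne_zero, zero_mul] at h3
      rw [vn_eq_zero h.symm, h3] at h2
      simp at h2
    have hy : ((√(n : ℝ) / vn u) • u) ⬝ᵥ ((√(n : ℝ) / vn u) • u) = n := by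
      rw [dot_self, vn_smul, mul_pow, sq_abs, div_pow, hss]
      field_simp
    refine ⟨⟨(H', (√(n : ℝ) / vn u) • u), h1.le, hy⟩, ?_⟩
    have h3 := cform_smul β x (mag H) W (prj (mag H) (goe β X)) H' u (√(n : ℝ) / vn u)
    have h4 := mul_lt_mul_of_pos_left h2 (show 0 < (√(n : ℝ) / vn u) ^ 2 by positivity)
    have h5 : (√(n : ℝ) / vn u) ^ 2 * -(2 * c₀ * (u ⬝ᵥ u)) = -(2 * c₀) * n := by
      rw [dot_self, div_pow, hss]
      field_simp
    rw [← h3, h5, cform_split, ← lt_div_iff₀ hn', add_div] at h4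
    simp only [mulVec_smul, smul_dotProduct, dotProduct_smul, smul_eq_mul, one_mul] at h4 ⊢
    rw [← mul_assoc, ← sq, inv_pow, hss, ← div_eq_inv_mul]
    linarith
  · have h1 := hρ (t.1.2 - (mag H ⬝ᵥ t.1.2 / (mag H ⬝ᵥ mag H)) • mag H)
    have h2 := (div_le_one hn').2 (hz _ t.2.2)
    exact (le_abs_self _).trans ((sq_le_one_iff_abs_le_one _).1 (h1.trans_le h2))
  · refine le_trans (le_of_eq ?_) (det hn g hβ he he1 hl0 hτ hr hAr hA hl hx hq hb hv hW hT t.2.1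
      t.2.2 (hρ _))
    rw [dotProduct_smul, smul_eq_mul]
    congr 1
    have e1 : ∀ a c : ℝ, a * ((√(n : ℝ))⁻¹ * c) / √(n : ℝ) = a * (c / √(n : ℝ) ^ 2) :=
      fun a c => by field_simp
    rw [e1, hss]

end CC

/-- Conditional positivity of the Hessian, from `sf_goe` and the deterministic bound `CC.det`. -/
theorem cond_hess {β q₀ : ℝ} (hβ : 0 < β) (hβ1 : β < 1) (hq : 0 < q₀) :
    ∃ c₀ τ : ℝ, 0 < c₀ ∧ 0 < τ ∧ ∀ R : ℝ, ∃ e c : ℝ, 0 < e ∧ 0 < c ∧ ∀ᶠ n : ℕ in atTop,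
      ∀ (x H V W : Vec n) (b v : ℝ), (∀ i, x i ^ 2 = 1) → q₀ / 2 ≤ mag H ⬝ᵥ mag H / n →
        |ons β (mag H) - b| ≤ e → |β ^ 2 * (mag H ⬝ᵥ mag H / n) - v| ≤ e →
        vn (W - V - b • mag H) ≤ e * √(n : ℝ) → Typ τ R x H V v →
        gp (Fin n × Fin n) {X | prj (mag H) (goe β X) ∈ badU β x H W (2 * c₀) e} ≤
          ENNReal.ofReal (Real.exp (-(c * n))) := by
  have hb2 : β ^ 2 < 1 := by nlinarith
  obtain ⟨r, hr, hr1, hrq⟩ : ∃ r : ℝ, 0 < r ∧ r ≤ 1 ∧ r ≤ q₀ / 2 :=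
    ⟨min 1 (q₀ / 2), lt_min one_pos (by positivity), min_le_left _ _, min_le_right _ _⟩
  obtain ⟨A, hA, hAr⟩ : ∃ A : ℝ, 1 ≤ A ∧ A * r = 1 :=
    ⟨r⁻¹, (one_le_inv₀ hr).2 hr1, inv_mul_cancel₀ hr.ne'⟩
  obtain ⟨l, hl0, hl⟩ : ∃ l : ℝ, 0 < l ∧ 38 * l = β ^ 2 * (1 - β ^ 2) * r ^ 2 :=
    ⟨β ^ 2 * (1 - β ^ 2) * r ^ 2 / 38, div_pos (mul_pos (mul_pos (by positivity) (by linarith))
      (by positivity)) (by norm_num), by ring⟩
  have hl2 : 38 * l ≤ 1 - β ^ 2 := by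
    rw [hl, mul_right_comm]
    exact mul_le_of_le_one_left (by linarith)
      (mul_le_one₀ hb2.le (sq_nonneg _) (pow_le_one₀ hr.le hr1))
  obtain ⟨c₀, hc, hc4⟩ : ∃ c₀ : ℝ, 0 < c₀ ∧ β ^ 2 * l - l / (1 + l) = -(4 * c₀) := by
    refine ⟨(l / (1 + l) - β ^ 2 * l) / 4, div_pos (sub_pos.2 ?_) (by norm_num), by ring⟩
    rw [lt_div_iff₀ (by linarith), mul_assoc, mul_left_comm]
    refine mul_lt_of_lt_one_right hl0 ?_
    nlinarith
  have hA0 : 0 < A := one_pos.trans_le hA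
  refine ⟨c₀, c₀ / (30 * A), hc, by positivity, fun R => ?_⟩
  obtain ⟨e, he, he1, he2⟩ : ∃ e : ℝ, 0 < e ∧ e ≤ 1 ∧
      (A * (30 * R ^ 2 + 534) + 9) * e ≤ c₀ / 3 := by
    refine ⟨min 1 (c₀ / 3 / (A * (30 * R ^ 2 + 534) + 9)), lt_min one_pos (by positivity),
      min_le_left _ _, ?_⟩
    rw [mul_comm, ← le_div_iff₀ (by positivity)]
    exact min_le_right _ _
  refine ⟨e, c₀ ^ 2 / (8 * β ^ 2), he, by positivity, ?_⟩
  filter_upwards [(tendsto_const_div_atTop_nhds_zero_nat (636 * A / e)).eventually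
    (ge_mem_nhds (show (0 : ℝ) < c₀ / 3 by positivity)), eventually_gt_atTop 0] with n h1 hn
  intro x H V W b v hx hq' hb hv hW hT
  refine CC.main hn hβ hb2.le he he1 hl0 (by linarith [sq_nonneg β]) (by positivity) hr hAr hA
    hl.le hc.le ?_ hx (hrq.trans hq') hb hv hW hT
  have e1 : 10 * A * (c₀ / (30 * A)) = c₀ / 3 := by field_simp; norm_num
  rw [hc4, e1]
  linarith

end Vale.Agent.P150
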