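import Vale.Agent.P150.Objs
import Vale.Agent.P150.SF

/-! Pointwise and scalar inequalities for the conditional positivity of the TAP Hessian. -/

open MeasureTheory ProbabilityTheory Matrix Filter Topology
open scoped ENNReal NNReal

namespace Vale.Agent.P150

namespace CC

variable {n : ℕ}

lemma pt1 {D c l w y : ℝ} (hD : 0 < D) (hD1 : D ≤ 1) (hc : c * D = 1) (hl : 0 < l) :
    2 * w * y - c * y ^ 2 ≤ (D + l) * w ^ 2 - l / (1 + l) * y ^ 2 := by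
  have h1 : 1 ≤ c := by
    by_contra h
    nlinarith
  set m := l / (1 + l) with hm
  have hm0 : 0 ≤ m := by positivity
  have hm1 : m * (1 + l) = l := by rw [hm]; field_simp
  have h2 : 1 ≤ (D + l) * (c - m) := by nlinarith
  have h3 : 0 < D + l := by linarith
  by_contra h
  have h4 := mul_lt_mul_of_pos_left (not_le.1 h) h3
  nlinarith [sq_nonneg ((D + l) * w - y), mul_le_mul_of_nonneg_right h2 (sq_nonneg y)]

lemma abs_le_young {z e : ℝ} (he : 0 < e) : |z| ≤ e + z ^ 2 / e := by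
  have h1 : z ^ 2 / e = z ^ 2 * e⁻¹ := div_eq_mul_inv _ _
  have h2 : |z| * e ≤ (e + z ^ 2 / e) * e := by
    have h3 : (e + z ^ 2 / e) * e = e ^ 2 + z ^ 2 := by field_simp
    rw [h3, ← sq_abs z]
    nlinarith [sq_nonneg (|z| - e), abs_nonneg z]
  exact le_of_mul_le_mul_right h2 he

lemma mul_le_young {a b e : ℝ} (he : 0 < e) : 2 * (a * b) ≤ e * a ^ 2 + b ^ 2 / e := by
  have h3 : e * a ^ 2 + b ^ 2 / e - 2 * (a * b) = (e * a - b) ^ 2 / e := by field_simp; ring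
  have h4 : 0 ≤ (e * a - b) ^ 2 / e := by positivity
  linarith

lemma pt2 {δ e a k α A g x U V R : ℝ} (hδ : |δ| ≤ 1) (he : 0 < e) (ha : a ^ 2 ≤ 1)
    (hk : k ^ 2 ≤ 1) (hα : α ^ 2 ≤ A) (hx : x ^ 2 = 1) (hU : U ^ 2 ≤ 2 * V ^ 2 + 32) :
    δ * (a * g + α * U + k * x) ^ 2 ≤ 3 * (δ ^ 2 / e) + 3 * e * g ^ 4 +
      3 * (A * (2 * R ^ 2 + 32) + 1) * (e + δ ^ 2 / e) + 6 * A * max (V ^ 2 - R ^ 2) 0 := by
  have hA : 0 ≤ A := (sq_nonneg _).trans hα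
  have h0 := abs_nonneg δ
  have h1 : (a * g + α * U + k * x) ^ 2 ≤ 3 * (g ^ 2 + A * (2 * V ^ 2 + 32) + 1) := by
    have e1 : (a * g) ^ 2 ≤ g ^ 2 := by rw [mul_pow]; nlinarith [sq_nonneg g]
    have e2 : (α * U) ^ 2 ≤ A * (2 * V ^ 2 + 32) := by
      rw [mul_pow]; exact mul_le_mul hα hU (sq_nonneg _) hA
    have e3 : (k * x) ^ 2 ≤ 1 := by rw [mul_pow, hx, mul_one]; exact hk
    nlinarith [sq_nonneg (a * g - α * U), sq_nonneg (a * g - k * x), sq_nonneg (α * U - k * x)]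
  have h2 : δ * (a * g + α * U + k * x) ^ 2 ≤ |δ| * (3 * (g ^ 2 + A * (2 * V ^ 2 + 32) + 1)) :=
    (mul_le_mul_of_nonneg_right (le_abs_self δ) (sq_nonneg _)).trans
      (mul_le_mul_of_nonneg_left h1 h0)
  have h3 : |δ| * g ^ 2 ≤ δ ^ 2 / e + e * g ^ 4 := by
    have h := mul_le_young (a := g ^ 2) (b := |δ|) he
    rw [sq_abs] at h
    have : 0 ≤ g ^ 2 * |δ| := by positivity
    nlinarith
  have h4 : |δ| * V ^ 2 ≤ R ^ 2 * |δ| + max (V ^ 2 - R ^ 2) 0 := by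
    have m1 := le_max_left (V ^ 2 - R ^ 2) 0
    have m2 := le_max_right (V ^ 2 - R ^ 2) 0
    nlinarith
  have h5 := abs_le_young (z := δ) he
  have h6 : (A * (2 * R ^ 2 + 32) + 1) * |δ| ≤ (A * (2 * R ^ 2 + 32) + 1) * (e + δ ^ 2 / e) :=
    mul_le_mul_of_nonneg_left h5 (by positivity)
  have h7 := mul_le_mul_of_nonneg_left h4 hA
  nlinarith

lemma pt3 {l α k x U V : ℝ} (hl : 0 < l) (hx : x ^ 2 = 1) (hU : U ^ 2 ≤ 2 * V ^ 2 + 32) :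
    l * (α * U + k * x) ^ 2 ≤ l * (2 * (α ^ 2 * (2 * V ^ 2 + 32)) + 2 * k ^ 2) := by
  refine mul_le_mul_of_nonneg_left ?_ hl.le
  have e1 := mul_le_mul_of_nonneg_left hU (sq_nonneg α)
  have e2 : (k * x) ^ 2 = k ^ 2 := by rw [mul_pow, hx, mul_one]
  nlinarith [sq_nonneg (α * U - k * x)]

lemma abs_le_of_sq {α A : ℝ} (hα : α ^ 2 ≤ A) (hA : 1 ≤ A) : |α| ≤ A :=
  abs_le_of_sq_le_sq' (by nlinarith) (by linarith) |> abs_le.2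

lemma pt4 {α A e y E : ℝ} (he : 0 < e) (hα : α ^ 2 ≤ A) (hA : 1 ≤ A) :
    2 * α * (y * E) ≤ A * (e * y ^ 2 + E ^ 2 / e) := by
  have e1 := mul_le_young (a := |y|) (b := |E|) he
  rw [sq_abs, sq_abs, ← abs_mul] at e1
  have e2 : α * (y * E) ≤ A * |y * E| := by
    refine (le_abs_self _).trans ?_
    rw [abs_mul]
    exact mul_le_mul_of_nonneg_right (abs_le_of_sq hα hA) (abs_nonneg _)
  have e3 := mul_le_mul_of_nonneg_left e1 (zero_le_one.trans hA)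
  linarith

lemma pt5 {α A e M E : ℝ} (he : 0 < e) (hα : α ^ 2 ≤ A) (hM : M ^ 2 ≤ 1) :
    -(α ^ 2 * (M * E)) ≤ A * (e + E ^ 2 / e) := by
  have hA : 0 ≤ A := (sq_nonneg _).trans hα
  have e1 := abs_le_young (z := E) he
  have e3 : |M| ≤ 1 := abs_le_of_sq hM le_rfl
  have e2 : -(α ^ 2 * (M * E)) ≤ A * |E| := by
    refine (neg_le_abs _).trans ?_
    rw [abs_mul, abs_mul, abs_of_nonneg (sq_nonneg α)]
    exact mul_le_mul hα (mul_le_of_le_one_left (abs_nonneg _) e3) (by positivity) hA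
  exact e2.trans (mul_le_mul_of_nonneg_left e1 hA)

lemma sq_U_le {v M V : ℝ} (hM : M ^ 2 ≤ 1) (hv : v ^ 2 ≤ 4) :
    (V + 2 * v * M) ^ 2 ≤ 2 * V ^ 2 + 32 := by
  have : (v * M) ^ 2 ≤ 4 := by rw [mul_pow]; nlinarith [sq_nonneg v, sq_nonneg M]
  nlinarith [sq_nonneg (V - 2 * v * M)]

/-- The pointwise bound. -/
lemma pt {β ρ α p b v l e A R g x y M V E D D' c : ℝ} (hD' : 0 < D') (hD1 : D' ≤ 1)
    (hc : c * D' = 1) (hl : 0 < l) (he : 0 < e) (hD : D = 1 - M ^ 2) (hD0 : 0 ≤ D)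
    (ha : (β * ρ) ^ 2 ≤ 1) (hk : (β ^ 2 * p) ^ 2 ≤ 1) (hα : α ^ 2 ≤ A) (hA : 1 ≤ A)
    (hx : x ^ 2 = 1) (hv : v ^ 2 ≤ 4) :
    2 * β * ρ * (g * (y - α * M)) + 2 * α * (y * (V + b * M + E)) -
        α ^ 2 * (M * (V + b * M + E)) - c * y ^ 2 ≤
      ((β * ρ) ^ 2 * l + 2 * α ^ 2 * v ^ 2 + (β ^ 2 * p) ^ 2 + 64 * l * α ^ 2 +
          2 * l * (β ^ 2 * p) ^ 2 + A * e - α ^ 2 * b + 3 * (A * (2 * R ^ 2 + 32) + 1) * e) +
        ((β * ρ) ^ 2 + α ^ 2 * b) * D +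
        (β * ρ) ^ 2 * ((D + l) * (g ^ 2 - 1)) +
        2 * β * ρ * α * (((D + l) * (V + 2 * v * M) - M) * g) +
        2 * β ^ 3 * ρ * p * ((D + l) * x * g) +
        α ^ 2 * (D * (V + 2 * v * M) ^ 2 - v * D - 2 * v ^ 2 * D ^ 2) +
        2 * α * β ^ 2 * p * (x * D * (V + 2 * v * M)) +
        4 * l * α ^ 2 * V ^ 2 +
        (A * e - l / (1 + l)) * y ^ 2 +
        (-(2 * β ^ 2 * p)) * (x * y) +
        (2 * α * b - 4 * α * v) * (M * y) +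
        2 * A / e * E ^ 2 +
        (-α ^ 2) * (M * V - v * D) +
        (3 + 3 * (A * (2 * R ^ 2 + 32) + 1)) / e * (D' - D) ^ 2 +
        3 * e * g ^ 4 + 6 * A * max (V ^ 2 - R ^ 2) 0 := by
  have hM : M ^ 2 ≤ 1 := by linarith
  have hD2 : D ≤ 1 := by linarith [sq_nonneg M]
  have hU := sq_U_le (V := V) hM hv
  have h1 := pt1 (w := β * ρ * g + α * (V + 2 * v * M) + β ^ 2 * p * x) (y := y) hD' hD1 hc hl
  have h2 := pt2 (δ := D' - D) (g := g) (R := R) (by rw [abs_le]; constructor <;> linarith) he ha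
    hk hα hx hU
  have h3 := pt3 (α := α) (k := β ^ 2 * p) hl hx hU
  have h4 : 2 * α ^ 2 * v ^ 2 * D ^ 2 ≤ 2 * α ^ 2 * v ^ 2 :=
    mul_le_of_le_one_right (by positivity) (pow_le_one₀ hD0 hD2)
  have h5 : (β ^ 2 * p) ^ 2 * D ≤ (β ^ 2 * p) ^ 2 := mul_le_of_le_one_right (sq_nonneg _) hD2
  have h6 := pt4 (y := y) (E := E) he hα hA
  have h7 := pt5 (E := E) he hα hM
  have e8 : (β ^ 2 * p * x) ^ 2 * D = (β ^ 2 * p) ^ 2 * D := by rw [mul_pow _ x, hx, mul_one]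
  have e11 : α ^ 2 * b * M ^ 2 = α ^ 2 * b - α ^ 2 * b * D := by rw [hD]; ring
  generalize l / (1 + l) = m at h1 ⊢
  generalize max (V ^ 2 - R ^ 2) 0 = z at h2 ⊢
  linear_combination h1 + h2 + h3 + h4 + h5 + h6 + h7 + e8 - e11

lemma coef_le {c z C e : ℝ} (he : 0 < e) (hc : |c| ≤ C) : c * z ≤ C * (e + z ^ 2 / e) := by
  refine (le_abs_self _).trans ?_
  rw [abs_mul]
  exact mul_le_mul hc (abs_le_young he) (abs_nonneg _) ((abs_nonneg _).trans hc)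

lemma coef_le' {c z C τ : ℝ} (hc : |c| ≤ C) (hz : |z| ≤ τ) : c * z ≤ C * τ := by
  refine (le_abs_self _).trans ?_
  rw [abs_mul]
  exact mul_le_mul hc hz (abs_nonneg _) ((abs_nonneg _).trans hc)

lemma sc1 {β q v l e : ℝ} (hβ : β ^ 2 ≤ 1) (hq0 : 0 ≤ q) (hq : q ≤ 1) (he1 : e ≤ 1)
    (hv : |β ^ 2 * q - v| ≤ e) (hl : 38 * l ≤ β ^ 2 * (1 - β ^ 2) * q ^ 2) :
    2 * v ^ 2 - 4 * v * q + 2 * β ^ 2 * q ^ 2 + 76 * l ≤ 6 * e := by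
  obtain ⟨ε, rfl⟩ : ∃ ε, v = β ^ 2 * q - ε := ⟨β ^ 2 * q - v, by ring⟩
  rw [sub_sub_cancel] at hv
  have h0 := abs_nonneg ε
  have h1 : ε ^ 2 ≤ e := by rw [← sq_abs]; nlinarith
  have h2 : (1 - β ^ 2) * q * ε ≤ 1 * e := by
    refine coef_le' ?_ hv
    rw [abs_of_nonneg (mul_nonneg (by linarith) hq0)]
    nlinarith [sq_nonneg β]
  nlinarith

lemma finA {a k α A e τ Z0 Z1 Z2 a1 a2 a3 : ℝ} (he : 0 < e) (hτ : 0 ≤ τ) (ha : a ^ 2 ≤ 1)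
    (hk : k ^ 2 ≤ 1) (hα : α ^ 2 ≤ A) (hA : 1 ≤ A) (h1 : |a1| ≤ τ) (h2 : a2 ≤ τ)
    (h3 : |a3| ≤ τ) :
    a ^ 2 * Z0 + 2 * (a * α) * Z1 + 2 * (a * k) * Z2 + α ^ 2 * a2 + 2 * (α * k) * a1 +
      (-α ^ 2) * a3 ≤ 4 * A * τ + 6 * A * e + 2 * A / e * (Z0 ^ 2 + Z1 ^ 2 + Z2 ^ 2) := by
  have hA0 : 0 ≤ A := zero_le_one.trans hA
  have ha' := abs_le_of_sq ha le_rfl
  have hk' := abs_le_of_sq hk le_rfl
  have hα' := abs_le_of_sq hα hA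
  have z0 := coef_le (c := a ^ 2) (z := Z0) (C := 2 * A) he
    (by rw [abs_of_nonneg (sq_nonneg _)]; linarith)
  have z1 := coef_le (c := 2 * (a * α)) (z := Z1) (C := 2 * A) he (by
    rw [abs_mul, abs_mul, abs_two]
    linarith [mul_le_mul ha' hα' (abs_nonneg _) zero_le_one])
  have z2 := coef_le (c := 2 * (a * k)) (z := Z2) (C := 2 * A) he (by
    rw [abs_mul, abs_mul, abs_two]
    linarith [mul_le_mul ha' hk' (abs_nonneg _) zero_le_one])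
  have s1 := coef_le' (c := 2 * (α * k)) (C := 2 * A) (by
    rw [abs_mul, abs_mul, abs_two]
    linarith [mul_le_mul hα' hk' (abs_nonneg _) hA0]) h1
  have s2 : α ^ 2 * a2 ≤ A * τ :=
    (mul_le_mul_of_nonneg_left h2 (sq_nonneg _)).trans (mul_le_mul_of_nonneg_right hα hτ)
  have s3 := coef_le' (c := -α ^ 2) (C := A) (by rwa [abs_neg, abs_of_nonneg (sq_nonneg _)]) h3
  linear_combination z0 + z1 + z2 + s1 + s2 + s3

lemma finB {A K e τ a5 aE aD : ℝ} (he : 0 < e) (hA : 0 ≤ A) (hK : 0 ≤ K) (h5 : a5 ≤ τ)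
    (hE : aE ≤ e ^ 2) (hD : aD ≤ 4 * e ^ 2) :
    2 * A / e * aE + K / e * aD + 6 * A * a5 ≤ 2 * A * e + K * (4 * e) + 6 * A * τ := by
  have s5 : 6 * A * a5 ≤ 6 * A * τ := mul_le_mul_of_nonneg_left h5 (by positivity)
  have s6 : 2 * A / e * aE ≤ 2 * A * e :=
    (mul_le_mul_of_nonneg_left hE (by positivity)).trans (le_of_eq (by field_simp))
  have s7 : K / e * aD ≤ K * (4 * e) :=
    (mul_le_mul_of_nonneg_left hD (by positivity)).trans (le_of_eq (by field_simp))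
  linarith

lemma finC {β p q l : ℝ} (hβ : β ^ 2 ≤ 1) (hq0 : 0 ≤ q) (hq : q ≤ 1) (hl0 : 0 < l)
    (hl : 38 * l ≤ β ^ 2 * (1 - β ^ 2) * q ^ 2) :
    (β ^ 4 * (1 + 2 * l) - β ^ 2) * p ^ 2 ≤ 0 := by
  refine mul_nonpos_of_nonpos_of_nonneg ?_ (sq_nonneg _)
  have u1 : β ^ 2 * (1 - β ^ 2) * q ^ 2 ≤ β ^ 2 * (1 - β ^ 2) :=
    mul_le_of_le_one_right (mul_nonneg (sq_nonneg _) (by linarith)) (pow_le_one₀ hq0 hq)
  have u2 : β ^ 4 * l ≤ 1 * l :=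
    mul_le_mul_of_nonneg_right (by nlinarith [sq_nonneg β]) hl0.le
  nlinarith

/-- The final scalar bound. -/
lemma fin {β ρ α p b v l e A R τ q d Z0 Z1 Z2 a1 a2 a3 a4 a5 aE aD G t' b' : ℝ}
    (hβ : β ^ 2 ≤ 1) (hq0 : 0 ≤ q) (hq : q ≤ 1) (he : 0 < e) (he1 : e ≤ 1) (hl0 : 0 < l)
    (hτ : 0 ≤ τ) (hv : |β ^ 2 * q - v| ≤ e) (hl : 38 * l ≤ β ^ 2 * (1 - β ^ 2) * q ^ 2)
    (hρ : ρ ^ 2 + α ^ 2 * q = 1) (hρ1 : ρ ^ 2 ≤ 1) (ha : (β * ρ) ^ 2 ≤ 1)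
    (hk : (β ^ 2 * p) ^ 2 ≤ 1) (hα : α ^ 2 ≤ A) (hA : 1 ≤ A) (hd : d = 1 - q)
    (hb : β ^ 2 * d ≤ b + e) (hb' : b - 6 * e ≤ b') (ht : t' ^ 2 ≤ (α * q) ^ 2 + 2 * e)
    (h1 : |a1| ≤ τ) (h2 : a2 ≤ τ) (h3 : |a3| ≤ τ) (h4 : a4 ≤ 3) (h5 : a5 ≤ τ) (hE : aE ≤ e ^ 2)
    (hD : aD ≤ 4 * e ^ 2) :
    ((β * ρ) ^ 2 * l + 2 * α ^ 2 * v ^ 2 + (β ^ 2 * p) ^ 2 + 64 * l * α ^ 2 +
          2 * l * (β ^ 2 * p) ^ 2 + A * e - α ^ 2 * b + 3 * (A * (2 * R ^ 2 + 32) + 1) * e) +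
        ((β * ρ) ^ 2 + α ^ 2 * b) * d + (β * ρ) ^ 2 * Z0 + 2 * β * ρ * α * Z1 +
        2 * β ^ 3 * ρ * p * Z2 + α ^ 2 * a2 + 2 * α * β ^ 2 * p * a1 + 4 * l * α ^ 2 * a4 +
        (A * e - l / (1 + l)) * 1 + (-(2 * β ^ 2 * p)) * p + (2 * α * b - 4 * α * v) * (α * q) +
        2 * A / e * aE + (-α ^ 2) * a3 + (3 + 3 * (A * (2 * R ^ 2 + 32) + 1)) / e * aD +
        3 * e * G + 6 * A * a5 + β ^ 2 * p ^ 2 + 2 * β ^ 2 * t' ^ 2 - b' ≤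
      β ^ 2 * l - l / (1 + l) + 10 * A * τ + A * (30 * R ^ 2 + 534) * e + 3 * e * G +
        2 * A / e * (Z0 ^ 2 + Z1 ^ 2 + Z2 ^ 2) := by
  have hA0 : 0 ≤ A := zero_le_one.trans hA
  have sA := finA (Z0 := Z0) (Z1 := Z1) (Z2 := Z2) he hτ ha hk hα hA h1 h2 h3
  have sB := finB (K := 3 + 3 * (A * (2 * R ^ 2 + 32) + 1)) he hA0 (by positivity) h5 hE hD
  have s4 : 4 * l * α ^ 2 * a4 ≤ 4 * l * α ^ 2 * 3 := mul_le_mul_of_nonneg_left h4 (by positivity)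
  have s8 : α ^ 2 * (2 * v ^ 2 - 4 * v * q + 2 * β ^ 2 * q ^ 2 + 76 * l) ≤ A * (6 * e) :=
    (mul_le_mul_of_nonneg_left (sc1 hβ hq0 hq he1 hv hl) (sq_nonneg _)).trans
      (mul_le_mul_of_nonneg_right hα (by positivity))
  have s9 : ρ ^ 2 * (β ^ 2 * d) ≤ ρ ^ 2 * (b + e) := mul_le_mul_of_nonneg_left hb (sq_nonneg _)
  have s10 : ρ ^ 2 * e ≤ 1 * e := mul_le_mul_of_nonneg_right hρ1 he.le
  have s11 : β ^ 2 * t' ^ 2 ≤ β ^ 2 * ((α * q) ^ 2 + 2 * e) :=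
    mul_le_mul_of_nonneg_left ht (sq_nonneg _)
  have s12 : β ^ 2 * e ≤ 1 * e := mul_le_mul_of_nonneg_right hβ he.le
  have s13 : β ^ 2 * l * ρ ^ 2 ≤ β ^ 2 * l * 1 := mul_le_mul_of_nonneg_left hρ1 (by positivity)
  have s14 := finC (p := p) hβ hq0 hq hl0 hl
  have s15 : 1 * e ≤ A * e := mul_le_mul_of_nonneg_right hA he.le
  have s16 : ρ ^ 2 * b + α ^ 2 * q * b = b := by rw [← add_mul, hρ, one_mul]
  have s17 : α ^ 2 * b * d = α ^ 2 * b - α ^ 2 * b * q := by rw [hd]; ring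
  generalize l / (1 + l) = m
  generalize 2 * A / e = y1 at sA sB ⊢
  generalize (3 + 3 * (A * (2 * R ^ 2 + 32) + 1)) / e = y4 at sB ⊢
  linear_combination sA + sB + s4 + s8 + s9 + s10 + 2 * s11 +
    4 * s12 + s13 + s14 + 38 * s15 + s16 + s17 + hb'

end CC

end Vale.Agent.P150
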