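import Vale.Agent.P150.Objs
import Vale.Agent.P150.GaussB
import Vale.Agent.P150.GaussC

/-! One-site integrals of the counting argument. -/

open MeasureTheory ProbabilityTheory Matrix Filter Topology
open scoped ENNReal NNReal

namespace Vale.Agent.P150

variable {n : ℕ}

attribute [local fun_prop] continuous_tanh

namespace CountD

theorem exp_le (y : ℝ) : Real.exp y ≤ 1 + y + y ^ 2 * Real.exp |y| := by
  have h1 : 1 ≤ Real.exp |y| := Real.one_le_exp (abs_nonneg y)
  have h2 := mul_le_mul_of_nonneg_left h1 (sq_nonneg y)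
  rcases le_total |y| 1 with h | h
  · linarith [(abs_le.1 (Real.abs_exp_sub_one_sub_id_le h)).2]
  · rcases le_total 0 y with h3 | h3
    · rw [abs_of_nonneg h3] at *
      nlinarith [mul_le_mul_of_nonneg_right (one_le_pow₀ h (n := 2)) (Real.exp_pos y).le]
    · rw [abs_of_nonpos h3] at h
      nlinarith [Real.exp_le_one_iff.2 h3]

theorem integrable_sq :
    Integrable (fun t : ℝ => Real.exp ((1 + t ^ 2) / 8)) (gaussianReal 0 1) := by
  have h : Integrable (fun t : ℝ => Real.exp (1 / 8 * t ^ 2)) (gaussianReal 0 1) := by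
    rw [← lintegral_ofReal_ne_top_iff_integrable (by fun_prop)
      (Eventually.of_forall fun t => (Real.exp_pos _).le), lintegral_exp_sq (by norm_num)]
    exact ENNReal.ofReal_ne_top
  refine (h.const_mul (Real.exp (1 / 8))).congr (Eventually.of_forall fun t => ?_)
  simp only [← Real.exp_add]
  exact congrArg _ (by ring)

theorem integrable_quad {C : ℝ} {ψ : ℝ → ℝ} (hm : Measurable ψ)
    (hb : ∀ t, |ψ t| ≤ C * (1 + t ^ 2)) : Integrable ψ (gaussianReal 0 1) := by
  have hC : 0 ≤ C := by simpa using (abs_nonneg _).trans (hb 0)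
  refine GaussB.integrable_one hm (C := C) (m := 2) fun t => (hb t).trans ?_
  exact mul_le_mul_of_nonneg_left (by nlinarith [abs_nonneg t, sq_abs t]) hC

theorem exp_moment {C θ : ℝ} {ψ : ℝ → ℝ} (hC : 0 < C) (hθ : 0 < θ) (hθ1 : θ * C ≤ 1 / 16)
    (hm : Measurable ψ) (hb : ∀ t, |ψ t| ≤ C * (1 + t ^ 2))
    (h0 : ∫ t, ψ t ∂gaussianReal 0 1 ≤ 0) :
    Integrable (fun t => Real.exp (θ * ψ t)) (gaussianReal 0 1) ∧
      ∫ t, Real.exp (θ * ψ t) ∂gaussianReal 0 1 ≤ Real.exp (θ ^ 2 *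
        (512 * C ^ 2 * ∫ t, Real.exp ((1 + t ^ 2) / 8) ∂gaussianReal 0 1)) := by
  have h1 : ∀ t, |θ * ψ t| ≤ θ * C * (1 + t ^ 2) := fun t => by
    rw [abs_mul, abs_of_pos hθ, mul_assoc]
    exact mul_le_mul_of_nonneg_left (hb t) hθ.le
  have h2 : ∀ t, |θ * ψ t| ≤ (1 + t ^ 2) / 16 := fun t =>
    (h1 t).trans ((mul_le_mul_of_nonneg_right hθ1 (by positivity)).trans (le_of_eq (by ring)))
  have h3 : Integrable (fun t => Real.exp (θ * ψ t)) (gaussianReal 0 1) :=
    integrable_sq.mono' (by fun_prop) (Eventually.of_forall fun t => by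
      rw [Real.norm_eq_abs, abs_of_pos (Real.exp_pos _)]
      exact Real.exp_le_exp.2 (by linarith [(abs_le.1 (h2 t)).2, sq_nonneg t]))
  have h4 : ∀ t, Real.exp (θ * ψ t) ≤
      1 + θ * ψ t + θ ^ 2 * (512 * C ^ 2 * Real.exp ((1 + t ^ 2) / 8)) := fun t => by
    refine (exp_le _).trans (add_le_add le_rfl ?_)
    have e1 : (θ * ψ t) ^ 2 ≤ (θ * C * (1 + t ^ 2)) ^ 2 := by
      rw [← sq_abs]
      exact pow_le_pow_left₀ (abs_nonneg _) (h1 t) 2
    have e2 := Real.quadratic_le_exp_of_nonneg (x := (1 + t ^ 2) / 16) (by positivity)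
    have e3 : (1 + t ^ 2) ^ 2 ≤ 512 * Real.exp ((1 + t ^ 2) / 16) := by
      nlinarith [sq_nonneg t]
    have e4 := mul_le_mul_of_nonneg_left e3 (sq_nonneg (θ * C))
    rw [← mul_pow] at e4
    refine (mul_le_mul (e1.trans e4) (Real.exp_le_exp.2 (h2 t)) (Real.exp_pos _).le
      (by positivity)).trans (le_of_eq ?_)
    rw [show (1 + t ^ 2) / 8 = (1 + t ^ 2) / 16 + (1 + t ^ 2) / 16 by ring, Real.exp_add]
    ring
  have h5 : Integrable (fun t => 1 + θ * ψ t) (gaussianReal 0 1) :=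
    (integrable_const _).add ((integrable_quad hm hb).const_mul θ)
  have h6 := (integrable_sq.const_mul (512 * C ^ 2)).const_mul (θ ^ 2)
  refine ⟨h3, (integral_mono h3 (h5.add h6) h4).trans ?_⟩
  have h7 := integral_add h5 h6
  rw [integral_add (integrable_const _) ((integrable_quad hm hb).const_mul θ), integral_const_mul,
    integral_const_mul, integral_const_mul] at h7
  refine h7.le.trans (le_trans ?_ (Real.add_one_le_exp _))
  have h8 := mul_nonpos_of_nonneg_of_nonpos hθ.le h0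
  simp only [integral_const, probReal_univ, smul_eq_mul, mul_one]
  linarith

/-- Continuous functions of polynomial growth. -/
def PG (f : ℝ → ℝ) : Prop := Continuous f ∧ ∃ (C : ℝ) (m : ℕ), ∀ t, |f t| ≤ C * (1 + |t|) ^ m

theorem bound_mono {f : ℝ → ℝ} {C C' : ℝ} {m m' : ℕ} (h : ∀ t, |f t| ≤ C * (1 + |t|) ^ m)
    (hC : C ≤ C') (hm : m ≤ m') (t : ℝ) : |f t| ≤ C' * (1 + |t|) ^ m' := by
  have h0 := GaussB.nonneg_of_bound (abs_nonneg t) (h t)
  exact (h t).trans (mul_le_mul hC (pow_le_pow_right₀ (by linarith [abs_nonneg t]) hm)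
    (by positivity) (h0.trans hC))

theorem PG.const (c : ℝ) : PG fun _ => c := ⟨continuous_const, |c|, 0, fun _ => by simp⟩

theorem PG.id : PG fun t => t := ⟨continuous_id, 1, 1, fun t => by simp⟩

theorem PG.tanh (a s : ℝ) : PG fun t => Real.tanh (a + s * t) :=
  ⟨by fun_prop, 1, 0, fun t => by simpa using (Real.abs_tanh_lt_one _).le⟩

theorem PG.add {f g : ℝ → ℝ} (hf : PG f) (hg : PG g) : PG fun t => f t + g t := by
  obtain ⟨h1, C, m, h2⟩ := hf
  obtain ⟨h3, C', m', h4⟩ := hg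
  refine ⟨h1.add h3, C + C', max m m', fun x => (abs_add_le _ _).trans ?_⟩
  rw [add_mul]
  exact add_le_add (bound_mono h2 le_rfl (le_max_left _ _) x)
    (bound_mono h4 le_rfl (le_max_right _ _) x)

theorem PG.mul {f g : ℝ → ℝ} (hf : PG f) (hg : PG g) : PG fun t => f t * g t := by
  obtain ⟨h1, C, m, h2⟩ := hf
  obtain ⟨h3, C', m', h4⟩ := hg
  refine ⟨h1.mul h3, C * C', m + m', fun x => ?_⟩
  rw [abs_mul, pow_add, mul_mul_mul_comm]
  exact mul_le_mul (h2 x) (h4 x) (abs_nonneg _) ((abs_nonneg _).trans (h2 x))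

theorem PG.pow {f : ℝ → ℝ} (hf : PG f) (k : ℕ) : PG fun t => f t ^ k := by
  induction k with
  | zero => simpa using PG.const 1
  | succ k ih => simpa only [pow_succ] using ih.mul hf

theorem PG.sub {f g : ℝ → ℝ} (hf : PG f) (hg : PG g) : PG fun t => f t - g t := by
  simpa only [neg_one_mul, ← sub_eq_add_neg] using hf.add ((PG.const (-1)).mul hg)

theorem PG.integrable {f : ℝ → ℝ} (h : PG f) : Integrable f (gaussianReal 0 1) :=
  let ⟨_, _, h1⟩ := h.2
  GaussB.integrable_one h.1.measurable h1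

theorem mean_le {ψ f f' : ℝ → ℝ} (hψ : Integrable ψ (gaussianReal 0 1)) (k : ℝ)
    (hd : ∀ t, HasDerivAt f (f' t) t) (hf : PG f) (hf' : PG f')
    (h : ∀ t, ψ t ≤ k * (t * f t - f' t)) : ∫ t, ψ t ∂gaussianReal 0 1 ≤ 0 := by
  have h1 := (PG.id.mul hf).integrable
  have h2 := hf'.integrable
  obtain ⟨-, C, m, h3⟩ := hf
  obtain ⟨h4, C', m', h5⟩ := hf'
  have h6 := ibp_one hd h4.measurable (bound_mono h3 (le_max_left C C') (le_max_left m m'))
    (bound_mono h5 (le_max_right C C') (le_max_right m m'))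
  refine (integral_mono hψ ((h1.sub h2).const_mul k) h).trans (le_of_eq ?_)
  have h7 := integral_sub h1 h2
  rw [h6, sub_self] at h7
  rw [integral_const_mul]
  exact mul_eq_zero_of_right _ h7

/-- The seven test functions. -/
noncomputable def psi (τ R s x a : ℝ) : Fin 7 → ℝ → ℝ
  | 0 => fun t => x * (1 - Real.tanh (a + s * t) ^ 2) * (s * t + 2 * s ^ 2 * Real.tanh (a + s * t))
  | 1 => fun t =>
      -(x * (1 - Real.tanh (a + s * t) ^ 2) * (s * t + 2 * s ^ 2 * Real.tanh (a + s * t)))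
  | 2 => fun t =>
      (1 - Real.tanh (a + s * t) ^ 2) * (s * t + 2 * s ^ 2 * Real.tanh (a + s * t)) ^ 2 -
        s ^ 2 * (1 - Real.tanh (a + s * t) ^ 2) -
        2 * (s ^ 2) ^ 2 * (1 - Real.tanh (a + s * t) ^ 2) ^ 2
  | 3 => fun t => Real.tanh (a + s * t) * (s * t) - s ^ 2 * (1 - Real.tanh (a + s * t) ^ 2)
  | 4 => fun t => -(Real.tanh (a + s * t) * (s * t) - s ^ 2 * (1 - Real.tanh (a + s * t) ^ 2))
  | 5 => fun t => (s * t) ^ 2 - 2
  | 6 => fun t => max ((s * t) ^ 2 - R ^ 2) 0 - τ / 2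

theorem psi_cont (τ R s x a : ℝ) : ∀ k, Continuous (psi τ R s x a k)
  | 0 => by simp only [psi]; fun_prop
  | 1 => by simp only [psi]; fun_prop
  | 2 => by simp only [psi]; fun_prop
  | 3 => by simp only [psi]; fun_prop
  | 4 => by simp only [psi]; fun_prop
  | 5 => by simp only [psi]; fun_prop
  | 6 => by simp only [psi]; fun_prop

theorem psi_bound {τ R s x : ℝ} (hτ : 0 < τ) (hs : s ^ 2 ≤ 2) (hx : |x| ≤ 1) (a : ℝ) (k : Fin 7)
    (t : ℝ) : |psi τ R s x a k t| ≤ (50 + τ) * (1 + t ^ 2) := by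
  have hm : |Real.tanh (a + s * t)| ≤ 1 := (Real.abs_tanh_lt_one _).le
  have hm2 := (Real.tanh_sq_lt_one (a + s * t)).le
  have hV : (s * t) ^ 2 ≤ 2 * t ^ 2 := by
    rw [mul_pow]
    exact mul_le_mul_of_nonneg_right hs (sq_nonneg t)
  have hV1 : |s * t| ≤ 1 + t ^ 2 := by nlinarith [sq_abs (s * t), sq_nonneg (|s * t| - 1)]
  have hs0 := sq_nonneg s
  have ht0 := sq_nonneg t
  have hτt := mul_nonneg hτ.le ht0
  have hm0 := sq_nonneg (Real.tanh (a + s * t))
  have hD : |1 - Real.tanh (a + s * t) ^ 2| ≤ 1 := abs_le.2 ⟨by linarith, by linarith⟩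
  have hW0 : |2 * s ^ 2 * Real.tanh (a + s * t)| ≤ 4 * 1 := by
    rw [abs_mul, abs_of_nonneg (by positivity)]
    exact mul_le_mul (by linarith) hm (abs_nonneg _) (by norm_num)
  have hW : |s * t + 2 * s ^ 2 * Real.tanh (a + s * t)| ≤ |s * t| + 4 :=
    (abs_add_le _ _).trans (by linarith)
  have h0 : |x * (1 - Real.tanh (a + s * t) ^ 2) * (s * t + 2 * s ^ 2 * Real.tanh (a + s * t))| ≤
      (50 + τ) * (1 + t ^ 2) := by
    rw [abs_mul, abs_mul]
    refine (mul_le_of_le_one_left (abs_nonneg _) (mul_le_one₀ hx (abs_nonneg _) hD)).trans ?_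
    linarith
  have hsD : 0 ≤ s ^ 2 * (1 - Real.tanh (a + s * t) ^ 2) := mul_nonneg hs0 (by linarith)
  have hsD' : s ^ 2 * (1 - Real.tanh (a + s * t) ^ 2) ≤ 2 :=
    (mul_le_of_le_one_right hs0 (by linarith)).trans hs
  have h3 : |Real.tanh (a + s * t) * (s * t) - s ^ 2 * (1 - Real.tanh (a + s * t) ^ 2)| ≤
      (50 + τ) * (1 + t ^ 2) := by
    refine (abs_sub _ _).trans ?_
    rw [abs_mul, abs_of_nonneg hsD]
    linarith [mul_le_of_le_one_left (abs_nonneg (s * t)) hm]
  match k with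
  | 0 => exact h0
  | 1 => exact (abs_neg _).trans_le h0
  | 2 =>
    have e1 : (s * t + 2 * s ^ 2 * Real.tanh (a + s * t)) ^ 2 ≤ 4 * t ^ 2 + 32 := by
      have := pow_le_pow_left₀ (abs_nonneg _) hW 2
      rw [sq_abs] at this
      nlinarith [sq_abs (s * t), sq_nonneg (|s * t| - 4)]
    have e2 := mul_nonneg (sub_nonneg.2 hm2) (sq_nonneg (s * t + 2 * s ^ 2 * Real.tanh (a + s * t)))
    have e3 := mul_le_of_le_one_left (sq_nonneg (s * t + 2 * s ^ 2 * Real.tanh (a + s * t)))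
      (abs_le.1 hD).2
    have e4 := pow_le_pow_left₀ hsD hsD' 2
    have e5 := sq_nonneg (s ^ 2 * (1 - Real.tanh (a + s * t) ^ 2))
    rw [mul_pow] at e4 e5
    simp only [psi]
    exact abs_le.2 ⟨by linarith, by linarith⟩
  | 3 => exact h3
  | 4 => exact (abs_neg _).trans_le h3
  | 5 =>
    simp only [psi]
    exact abs_le.2 ⟨by linarith [sq_nonneg (s * t)], by linarith⟩
  | 6 =>
    have e1 := le_max_right ((s * t) ^ 2 - R ^ 2) 0
    have e2 : max ((s * t) ^ 2 - R ^ 2) 0 ≤ 2 * t ^ 2 :=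
      max_le (by linarith [sq_nonneg R]) (by linarith)
    simp only [psi]
    exact abs_le.2 ⟨by linarith, by linarith⟩

theorem psi_mean {τ R s x : ℝ} (hτ : 0 < τ) (hR : R ^ 2 = 6 / τ) (hs : s ^ 2 ≤ 2) (hx : |x| ≤ 1)
    (a : ℝ) (k : Fin 7) : ∫ t, psi τ R s x a k t ∂gaussianReal 0 1 ≤ 0 := by
  have hI := integrable_quad (psi_cont τ R s x a k).measurable (psi_bound hτ hs hx a k)
  have hm := PG.tanh a s
  have hD := (PG.const 1).sub (hm.pow 2)
  have dm : ∀ t, HasDerivAt (fun t => Real.tanh (a + s * t))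
      ((1 - Real.tanh (a + s * t) ^ 2) * s) t := fun t => by
    have h := (hasDerivAt_tanh (a + s * t)).comp t (((hasDerivAt_id t).const_mul s).const_add a)
    rwa [mul_one] at h
  have dD : ∀ t, HasDerivAt (fun t => 1 - Real.tanh (a + s * t) ^ 2)
      (-2 * s * (Real.tanh (a + s * t) * (1 - Real.tanh (a + s * t) ^ 2))) t := fun t =>
    (((dm t).fun_pow 2).const_sub 1).congr_deriv (by push_cast; ring)
  have hD' := (PG.const (-2 * s)).mul (hm.mul hD)
  have hm' := hD.mul (PG.const s)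
  have hW := ((PG.const s).mul PG.id).add ((PG.const (2 * s ^ 2)).mul hm)
  have hW' := (PG.const (s * 1)).add ((PG.const (2 * s ^ 2)).mul hm')
  match k with
  | 0 => exact mean_le hI (x * s) dD hD hD' fun t => le_of_eq (by simp only [psi]; ring)
  | 1 => exact mean_le hI (-(x * s)) dD hD hD' fun t => le_of_eq (by simp only [psi]; ring)
  | 2 =>
    exact mean_le hI s (fun t => (dD t).fun_mul
      (((hasDerivAt_id' t).const_mul s).fun_add ((dm t).const_mul (2 * s ^ 2)))) (hD.mul hW)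
      ((hD'.mul hW).add (hD.mul hW')) fun t => le_of_eq (by simp only [psi]; ring)
  | 3 => exact mean_le hI s dm hm hm' fun t => le_of_eq (by simp only [psi]; ring)
  | 4 => exact mean_le hI (-s) dm hm hm' fun t => le_of_eq (by simp only [psi]; ring)
  | 5 =>
    exact mean_le hI (s ^ 2) hasDerivAt_id' PG.id (PG.const 1) fun t => by
      simp only [psi]
      linarith
  | 6 =>
    have hR0 : 0 < R ^ 2 := by rw [hR]; positivity
    refine mean_le hI (s ^ 4 / (4 * R ^ 2)) (f := fun t => t ^ 3 + 3 * t)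
      (f' := fun t => 3 * t ^ 2 + 3) (fun t => ((hasDerivAt_pow 3 t).fun_add
        ((hasDerivAt_id' t).const_mul 3)).congr_deriv (by push_cast; ring))
      ((PG.id.pow 3).add ((PG.const 3).mul PG.id))
      (((PG.const 3).mul (PG.id.pow 2)).add (PG.const 3)) fun t => ?_
    have e1 : max ((s * t) ^ 2 - R ^ 2) 0 ≤ (s * t) ^ 4 / (4 * R ^ 2) := by
      refine max_le ?_ (by positivity)
      rw [le_div_iff₀ (by positivity)]
      nlinarith [sq_nonneg ((s * t) ^ 2 - 2 * R ^ 2)]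
    have e2 : 3 * s ^ 4 / (4 * R ^ 2) ≤ τ / 2 := by
      rw [div_le_iff₀ (by positivity), hR]
      have e3 : τ / 2 * (4 * (6 / τ)) = 12 := by field_simp; norm_num
      rw [e3]
      nlinarith [sq_nonneg s]
    have e4 : s ^ 4 / (4 * R ^ 2) * (t * (t ^ 3 + 3 * t) - (3 * t ^ 2 + 3)) =
        (s * t) ^ 4 / (4 * R ^ 2) - 3 * s ^ 4 / (4 * R ^ 2) := by ring
    simp only [psi]
    linarith

end CountD

/-- Chernoff bound: if `|ψ| ≤ C (1 + g²)` and `E ψ ≤ 0` then `E exp (θ ψ) ≤ exp (C' θ²)` for small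
`θ ≥ 0`. -/
theorem chernoff {C τ : ℝ} (hC : 0 < C) (hτ : 0 < τ) : ∃ c : ℝ, 0 < c ∧
    ∀ (n : ℕ) (ψ : Fin n → ℝ → ℝ), (∀ i, Measurable (ψ i)) → (∀ i t, |ψ i t| ≤ C * (1 + t ^ 2)) →
      (∀ i, ∫ t, ψ i t ∂gaussianReal 0 1 ≤ 0) →
      gp (Fin n) {g | τ < avg fun i => ψ i (g i)} ≤ ENNReal.ofReal (Real.exp (-(c * n))) := by
  set M := ∫ t, Real.exp ((1 + t ^ 2) / 8) ∂gaussianReal 0 1 with hM
  have hM0 : 0 ≤ M := integral_nonneg fun t => (Real.exp_pos _).le
  set A := 512 * C ^ 2 * M with hA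
  have hA0 : 0 ≤ A := by positivity
  set θ := min (1 / (16 * C)) (τ / (2 * (A + 1))) with hθ
  have hθ0 : 0 < θ := lt_min (by positivity) (by positivity)
  have hθ1 : θ * C ≤ 1 / 16 := by
    have := (le_div_iff₀ (by positivity)).1 (min_le_left (1 / (16 * C)) (τ / (2 * (A + 1))))
    linarith
  have hθ2 : θ * A ≤ τ / 2 := by
    have := (le_div_iff₀ (by positivity)).1 (min_le_right (1 / (16 * C)) (τ / (2 * (A + 1))))
    linarith
  refine ⟨θ * τ / 2, by positivity, fun n ψ hm hb h0 => ?_⟩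
  have hI := fun i => CountD.exp_moment hC hθ0 hθ1 (hm i) (hb i) (h0 i)
  have h1 : ∀ g : Fin n → ℝ, Real.exp (θ * ∑ i, ψ i (g i)) = ∏ i, Real.exp (θ * ψ i (g i)) :=
    fun g => by rw [Finset.mul_sum, Real.exp_sum]
  have h2 : Integrable (fun g : Fin n → ℝ => Real.exp (θ * ∑ i, ψ i (g i))) (gp (Fin n)) := by
    simp only [h1]
    exact Integrable.fintype_prod (f := fun i t => Real.exp (θ * ψ i t)) fun i => (hI i).1
  have h3 := measure_ge_le_exp_mul_mgf (X := fun g : Fin n → ℝ => ∑ i, ψ i (g i))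
    (μ := gp (Fin n)) (τ * n) hθ0.le h2
  have h4 : mgf (fun g : Fin n → ℝ => ∑ i, ψ i (g i)) (gp (Fin n)) θ ≤
      Real.exp (θ ^ 2 * A * n) := by
    simp only [mgf, h1]
    rw [gp, integral_fintype_prod_eq_prod fun i t => Real.exp (θ * ψ i t)]
    refine (Finset.prod_le_prod (fun i _ => integral_nonneg fun t => (Real.exp_pos _).le)
      fun i _ => (hI i).2).trans (le_of_eq ?_)
    rw [Finset.prod_const, Finset.card_univ, Fintype.card_fin, ← Real.exp_nat_mul, mul_comm]
  have h5 : {g : Fin n → ℝ | τ < avg fun i => ψ i (g i)} ⊆ {g | τ * n ≤ ∑ i, ψ i (g i)} := by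
    intro g hg
    rcases Nat.eq_zero_or_pos n with rfl | hn
    · simp
    · have h6 : τ < (∑ i, ψ i (g i)) / n := hg
      exact ((lt_div_iff₀ (Nat.cast_pos.2 hn)).1 h6).le
  refine (measure_mono h5).trans ?_
  rw [← ofReal_measureReal]
  refine ENNReal.ofReal_le_ofReal (h3.trans ((mul_le_mul_of_nonneg_left h4
    (Real.exp_pos _).le).trans ?_))
  rw [← Real.exp_add]
  have h6 := mul_le_mul_of_nonneg_left hθ2 (mul_nonneg hθ0.le (Nat.cast_nonneg (α := ℝ) n))
  exact Real.exp_le_exp.2 (by linarith)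

/-- The first three functions in `Typ` have mean zero by `ibp_one`
(`E [V φ(a+V)] = v E φ'(a+V)`, `tanh' = D`, `D' = -2 tanh * D`); the fourth has mean `v ≤ 2`, the
fifth has mean at most `τ/2` for large `R`. -/
theorem typ_prob {τ : ℝ} (hτ : 0 < τ) : ∃ R c : ℝ, 0 < c ∧
    ∀ (n : ℕ) (x a : Vec n) (v : ℝ), (∀ i, |x i| ≤ 1) → 0 < v → v ≤ 2 →
      gp (Fin n) {g | ¬ Typ τ R x (a + √v • g) (√v • g) v} ≤
        ENNReal.ofReal (8 * Real.exp (-(c * n))) := by
  obtain ⟨c, hc, h⟩ := chernoff (C := 50 + τ) (τ := min (τ / 2) 1) (by linarith)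
    (lt_min (by linarith) one_pos)
  refine ⟨√(6 / τ), c, hc, fun n x a v hx hv hv2 => ?_⟩
  rcases Nat.eq_zero_or_pos n with rfl | hn
  · refine prob_le_one.trans ?_
    rw [← ENNReal.ofReal_one]
    exact ENNReal.ofReal_le_ofReal (by simp)
  have hn' : (0 : ℝ) < n := by exact_mod_cast hn
  have hs : √v ^ 2 = v := Real.sq_sqrt hv.le
  have hR : √(6 / τ) ^ 2 = 6 / τ := Real.sq_sqrt (by positivity)
  generalize √v = s at hs
  generalize √(6 / τ) = R at hR
  subst hs
  have key : ∀ k : Fin 7, gp (Fin n) {g | min (τ / 2) 1 < avg fun i =>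
      CountD.psi τ R s (x i) (a i) k (g i)} ≤ ENNReal.ofReal (Real.exp (-(c * n))) := fun k =>
    h n (fun i => CountD.psi τ R s (x i) (a i) k)
      (fun i => (CountD.psi_cont τ R s (x i) (a i) k).measurable)
      (fun i => CountD.psi_bound hτ hv2 (hx i) (a i) k)
      fun i => CountD.psi_mean hτ hR hv2 (hx i) (a i) k
  have hsub : {g | ¬ Typ τ R x (a + s • g) (s • g) (s ^ 2)} ⊆ ⋃ k : Fin 7,
      {g | min (τ / 2) 1 < avg fun i => CountD.psi τ R s (x i) (a i) k (g i)} := by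
    intro g hg
    by_contra hcon
    simp only [Set.mem_iUnion, Set.mem_ofPred_eq, not_exists, not_lt] at hcon
    have h1 := min_le_left (τ / 2) 1
    have h2 := min_le_right (τ / 2) 1
    have hneg : ∀ u : Vec n, (avg fun i => -u i) = -avg u := fun u => by
      simp only [avg, Finset.sum_neg_distrib, neg_div]
    have hsub : ∀ (u : Vec n) (b : ℝ), (avg fun i => u i - b) = avg u - b := fun u b => by
      simp only [avg, Finset.sum_sub_distrib, Finset.sum_const, Finset.card_univ, Fintype.card_fin,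
        nsmul_eq_mul]
      field_simp
    have k0 : (avg fun i => x i * dd (a + s • g) i * ((s • g) i + 2 * s ^ 2 * mag (a + s • g) i))
      ≤ _ := hcon 0
    have k1 : (avg fun i => -(x i * dd (a + s • g) i *
      ((s • g) i + 2 * s ^ 2 * mag (a + s • g) i))) ≤ _ := hcon 1
    have k2 : (avg fun i => dd (a + s • g) i * ((s • g) i + 2 * s ^ 2 * mag (a + s • g) i) ^ 2 -
      s ^ 2 * dd (a + s • g) i - 2 * (s ^ 2) ^ 2 * dd (a + s • g) i ^ 2) ≤ _ := hcon 2
    have k3 : (avg fun i => mag (a + s • g) i * (s • g) i - s ^ 2 * dd (a + s • g) i) ≤ _ := hcon 3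
    have k4 : (avg fun i => -(mag (a + s • g) i * (s • g) i - s ^ 2 * dd (a + s • g) i)) ≤ _ :=
      hcon 4
    have k5 : (avg fun i => (s • g) i ^ 2 - 2) ≤ _ := hcon 5
    have k6 : (avg fun i => max ((s • g) i ^ 2 - R ^ 2) 0 - τ / 2) ≤ _ := hcon 6
    rw [hneg] at k1 k4
    rw [hsub] at k5 k6
    exact hg ⟨abs_le.2 ⟨by linarith, by linarith⟩, by linarith, abs_le.2 ⟨by linarith, by linarith⟩,
      by linarith, by linarith⟩
  refine (measure_mono hsub).trans ((measure_iUnion_fintype_le _ _).trans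
    ((Finset.sum_le_sum fun k _ => key k).trans ?_))
  rw [← ENNReal.ofReal_sum_of_nonneg fun _ _ => (Real.exp_pos _).le]
  refine ENNReal.ofReal_le_ofReal ?_
  simp only [Finset.sum_const, Finset.card_univ, Fintype.card_fin, nsmul_eq_mul]
  exact mul_le_mul_of_nonneg_right (by norm_num) (Real.exp_pos _).le

theorem measurableSet_typ (τ R : ℝ) (x a : Vec n) (v : ℝ) :
    MeasurableSet {H : Vec n | Typ τ R x H (H - a) v} := by
  simp only [Typ, avg, dd, mag, Pi.sub_apply, Set.ofPred_and]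
  refine (measurableSet_le (Continuous.measurable ?_) measurable_const).inter
    ((measurableSet_le (Continuous.measurable ?_) measurable_const).inter
    ((measurableSet_le (Continuous.measurable ?_) measurable_const).inter
    ((measurableSet_le (Continuous.measurable ?_) measurable_const).inter
    (measurableSet_le (Continuous.measurable ?_) measurable_const)))) <;> fun_prop

/-- The map `h ↦ h - Δ tanh h` is an increasing bijection with derivative `1 - Δ D(h)`, and
`(1-Δ)^D ≤ 1 - Δ D` for `D ∈ [0,1]`. -/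
theorem tilt_vol (hn : 0 < n) {Δ v d e : ℝ} (hΔ : Δ < 1) (hv : 0 < v) (a : Vec n) :
    ∫⁻ H in {H : Vec n | |avg (dd H) - d| ≤ e},
        ENNReal.ofReal (∏ i, phi v ((H - a - Δ • mag H) i)) ≤
      ENNReal.ofReal (Real.exp (n * (-(d * Real.log (1 - Δ)) + e * |Real.log (1 - Δ)|))) := by
  have hn' : (0 : ℝ) < n := by exact_mod_cast hn
  set L := Real.log (1 - Δ) with hL
  set F : Fin n → ℝ → ℝ≥0∞ := fun i h => ENNReal.ofReal |1 - Δ * (1 - Real.tanh h ^ 2)| *
    ENNReal.ofReal (phi v (h - Δ * Real.tanh h - a i)) with hF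
  have hFm : ∀ i, Measurable (F i) := fun i =>
    (Continuous.measurable (by fun_prop)).ennreal_ofReal.mul
      ((continuous_phi v).comp (by fun_prop)).measurable.ennreal_ofReal
  have h1 : ∀ H ∈ {H : Vec n | |avg (dd H) - d| ≤ e},
      ENNReal.ofReal (∏ i, phi v ((H - a - Δ • mag H) i)) ≤
        ENNReal.ofReal (Real.exp (n * (-(d * L) + e * |L|))) * ∏ i, F i (H i) := by
    intro H hH
    simp only [hF, ← ENNReal.ofReal_mul (abs_nonneg _)]
    rw [← ENNReal.ofReal_prod_of_nonneg fun i _ => mul_nonneg (abs_nonneg _) (phi_nonneg _ _),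
      ← ENNReal.ofReal_mul (Real.exp_pos _).le, Finset.prod_mul_distrib, ← mul_assoc]
    refine ENNReal.ofReal_le_ofReal ?_
    have e1 : ∏ i, phi v ((H - a - Δ • mag H) i) =
        ∏ i, phi v (H i - Δ * Real.tanh (H i) - a i) :=
      Finset.prod_congr rfl fun i _ => congrArg _ (by
        simp only [Pi.sub_apply, Pi.smul_apply, smul_eq_mul, mag]
        ring)
    rw [e1]
    refine le_mul_of_one_le_left (Finset.prod_nonneg fun i _ => phi_nonneg _ _) ?_
    have e2 : Real.exp (∑ i, L * dd H i) ≤ ∏ i, |1 - Δ * (1 - Real.tanh (H i) ^ 2)| := by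
      rw [Real.exp_sum]
      refine Finset.prod_le_prod (fun i _ => (Real.exp_pos _).le) fun i _ => ?_
      have e3 := rpow_one_add_le_one_add_mul_self (s := -Δ) (by linarith) (dom_dd H i).1.le
        (dom_dd H i).2
      rw [← sub_eq_add_neg, Real.rpow_def_of_pos (by linarith)] at e3
      refine e3.trans (le_trans (le_of_eq ?_) (le_abs_self _))
      rw [dd]
      ring
    refine le_trans ?_ (mul_le_mul_of_nonneg_left e2 (Real.exp_pos _).le)
    rw [← Real.exp_add, ← Finset.mul_sum]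
    refine Real.one_le_exp ?_
    have e4 : ∑ i, dd H i = n * avg (dd H) := by
      rw [avg]
      field_simp
    have e5 : |L * (avg (dd H) - d)| ≤ |L| * e := by
      rw [abs_mul]
      exact mul_le_mul_of_nonneg_left hH (abs_nonneg _)
    have e6 := mul_le_mul_of_nonneg_left (abs_le.1 e5).1 hn'.le
    rw [e4]
    linarith
  have hS : MeasurableSet {H : Vec n | |avg (dd H) - d| ≤ e} := by
    simp only [avg, dd]
    exact measurableSet_le (Continuous.measurable (by fun_prop)) measurable_const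
  refine (setLIntegral_mono' hS h1).trans ((setLIntegral_le_lintegral _ _).trans ?_)
  rw [lintegral_const_mul' _ _ ENNReal.ofReal_ne_top, volume_pi, lintegral_pi_prod _ F hFm]
  refine mul_le_of_le_one_right' (Finset.prod_le_one' fun i _ => ?_)
  have hd : ∀ h, HasDerivAt (fun h => h - Δ * Real.tanh h) (1 - Δ * (1 - Real.tanh h ^ 2)) h :=
    fun h => (hasDerivAt_id h).sub ((hasDerivAt_tanh h).const_mul Δ)
  have hpos : ∀ h, 0 < 1 - Δ * (1 - Real.tanh h ^ 2) := fun h => by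
    have e1 := Real.tanh_sq_lt_one h
    have e2 := sq_nonneg (Real.tanh h)
    nlinarith
  have h2 := lintegral_image_eq_lintegral_abs_deriv_mul MeasurableSet.univ
    (fun h _ => (hd h).hasDerivWithinAt) (strictMono_of_hasDerivAt_pos hd hpos).injective.injOn
    fun y => ENNReal.ofReal (phi v (y - a i))
  rw [Measure.restrict_univ] at h2
  rw [← lintegral_phi hv (a i)]
  exact h2.symm.le.trans (setLIntegral_le_lintegral _ _)

/-- Comparison of densities, from `z'² / v' ≤ z² / v + (z - z')² / (v' - v)`. -/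
theorem phi_comp {v v' v₀ γ e : ℝ} (hv₀ : 0 < v₀) (hv : v₀ ≤ v) (hγ : 0 < γ)
    (h1 : v + γ / 2 ≤ v') (h2 : v' ≤ v + 2 * γ) {z z' : Vec n}
    (hz : vn (z - z') ≤ e * √(n : ℝ)) :
    ∏ i, phi v (z i) ≤ Real.exp (n * (γ / v₀ + e ^ 2 / γ)) * ∏ i, phi v' (z' i) := by
  have hv0 : 0 < v := hv₀.trans_le hv
  have hv' : 0 < v' := by linarith
  have hp := Real.pi_pos
  have key : ∀ t t' : ℝ, phi v t ≤ Real.exp (γ / v₀ + (t - t') ^ 2 / γ) * phi v' t' := by
    intro t t'
    have e1 : -t ^ 2 / (2 * v) ≤ (t - t') ^ 2 / γ + -t' ^ 2 / (2 * v') := by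
      have hd : 0 < v' - v := by linarith
      have e2 : t' ^ 2 / (2 * v') ≤ t ^ 2 / (2 * v) + (t - t') ^ 2 / (2 * (v' - v)) := by
        rw [div_add_div _ _ (by positivity) (by positivity), div_le_div_iff₀ (by positivity)
          (by positivity)]
        nlinarith [sq_nonneg (t * (v' - v) + (t - t') * v)]
      have e3 : (t - t') ^ 2 / (2 * (v' - v)) ≤ (t - t') ^ 2 / γ :=
        div_le_div_of_nonneg_left (sq_nonneg _) hγ (by linarith)
      rw [neg_div, neg_div]
      linarith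
    have e4 : √(2 * Real.pi * v') ≤ Real.exp (γ / v₀) * √(2 * Real.pi * v) := by
      refine Real.sqrt_le_iff.2 ⟨by positivity, ?_⟩
      rw [mul_pow, Real.sq_sqrt (by positivity), ← Real.exp_nat_mul]
      have e5 : γ ≤ γ / v₀ * v := by
        rw [div_mul_eq_mul_div, le_div_iff₀ hv₀]
        exact mul_le_mul_of_nonneg_left hv hγ.le
      have e6 := mul_le_mul_of_nonneg_right (Real.add_one_le_exp ((2 : ℕ) * (γ / v₀))) hv0.le
      have e7 : v' ≤ Real.exp ((2 : ℕ) * (γ / v₀)) * v := by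
        push_cast at e6 ⊢
        linarith
      have e8 := mul_le_mul_of_nonneg_left e7 (by positivity : 0 ≤ 2 * Real.pi)
      linarith
    rw [phi, phi, ← mul_div_assoc, div_le_div_iff₀ (by positivity) (by positivity),
      ← Real.exp_add, add_assoc, Real.exp_add]
    refine (mul_le_mul (Real.exp_le_exp.2 e1) e4 (Real.sqrt_nonneg _)
      (Real.exp_pos _).le).trans (le_of_eq ?_)
    ring
  refine (Finset.prod_le_prod (fun i _ => phi_nonneg _ _) fun i _ => key (z i) (z' i)).trans ?_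
  rw [Finset.prod_mul_distrib, ← Real.exp_sum]
  refine mul_le_mul_of_nonneg_right (Real.exp_le_exp.2 ?_)
    (Finset.prod_nonneg fun i _ => phi_nonneg _ _)
  have e1 : ∑ i, (z i - z' i) ^ 2 ≤ e ^ 2 * n := by
    have e2 := pow_le_pow_left₀ (vn_nonneg _) hz 2
    rwa [vn_sq, mul_pow, Real.sq_sqrt (Nat.cast_nonneg n)] at e2
  rw [Finset.sum_add_distrib, ← Finset.sum_div _ _ γ, Finset.sum_const, Finset.card_univ,
    Fintype.card_fin, nsmul_eq_mul, mul_add, ← mul_div_assoc _ _ γ, mul_comm (n : ℝ) (e ^ 2)]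
  exact add_le_add le_rfl (div_le_div_of_nonneg_right e1 hγ.le)

/-- The complexity is negative away from `Δ = 0`. -/
theorem complexity {β' b Δ : ℝ} (hβ' : β' < 1) (hb : 0 ≤ b) (hb1 : b ≤ β') (hΔ : b + Δ ≤ β') :
    -(b * Δ) - Δ ^ 2 / 2 - b * Real.log (1 - Δ) ≤ -((1 - β') * Δ ^ 2 / 2) := by
  rcases le_total Δ 0 with h | h
  · have h1 := Real.le_log_one_add_of_nonneg (neg_nonneg.2 h)
    have h2 : -Δ - Δ ^ 2 / 2 ≤ 2 * -Δ / (-Δ + 2) := by
      rw [le_div_iff₀ (by linarith)]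
      nlinarith [mul_nonneg (neg_nonneg.2 h) (sq_nonneg Δ)]
    rw [← sub_eq_add_neg] at h1
    nlinarith [mul_le_mul_of_nonneg_left (h2.trans h1) hb,
      mul_le_mul_of_nonneg_right hb1 (sq_nonneg Δ)]
  · have h0 : 0 < 1 - Δ := by linarith
    have h1 : Real.log (1 - Δ)⁻¹ ≤ Real.sinh (Real.log (1 - Δ)⁻¹) :=
      Real.self_le_sinh_iff.2 (Real.log_nonneg ((one_le_inv₀ h0).2 (by linarith)))
    rw [Real.sinh_log (inv_pos.2 h0), inv_inv, Real.log_inv] at h1
    have h2 : ((1 - Δ)⁻¹ - (1 - Δ)) / 2 = Δ + Δ ^ 2 / 2 * (1 - Δ)⁻¹ := by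
      field_simp
      ring
    have h3 : b * (1 - Δ)⁻¹ ≤ β' := by
      rw [← div_eq_mul_inv, div_le_iff₀ h0]
      nlinarith
    rw [h2] at h1
    nlinarith [mul_le_mul_of_nonneg_left h1 hb, mul_le_mul_of_nonneg_left h3 (sq_nonneg Δ)]

end Vale.Agent.P150
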