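import Vale.Agent.P150.CountB
import Vale.Agent.P150.CountC
import Vale.Agent.P150.CountD
import Vale.Agent.P150.TapA

/-! Deterministic estimates and one-term integrals for the expected volume bound. -/

open MeasureTheory ProbabilityTheory Matrix Filter Topology
open scoped ENNReal NNReal

namespace Vale.Agent.P150

variable {n : ℕ}

namespace CountEAux

/-- The part of the residual not depending on the matrix. -/
noncomputable def wv (β b : ℝ) (x y H : Vec n) : Vec n :=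
  H - y - (β ^ 2 * (x ⬝ᵥ mag H / n)) • x + b • mag H

lemma vecMulVec_mulVec' (u w : Vec n) : vecMulVec u u *ᵥ w = (u ⬝ᵥ w) • u := by
  funext i
  simp [vecMulVec, mulVec, dotProduct, Finset.mul_sum, mul_comm, mul_left_comm]

lemma tapb_eq (β b : ℝ) (x : Cube n) (y H : Vec n) (X : Fin n × Fin n → ℝ) :
    tapb b (plant β x X) H - y = wv β b (sv x) y H - goe β X *ᵥ mag H := by
  have e : β ^ 2 / n * (sv x ⬝ᵥ mag H) = β ^ 2 * (sv x ⬝ᵥ mag H / n) := by ring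
  simp only [tapb, plant, wv, add_mulVec, smul_mulVec, vecMulVec_mulVec', smul_smul, e]
  abel

lemma continuous_plant (β : ℝ) (x : Cube n) : Continuous (plant β x) :=
  (continuous_goe β).add continuous_const

lemma continuous_res (β b : ℝ) (x : Cube n) (y : Vec n) :
    Continuous fun p : (Fin n × Fin n → ℝ) × Vec n => tapb b (plant β x p.1) p.2 - y := by
  have hm : Continuous fun p : (Fin n × Fin n → ℝ) × Vec n => mag p.2 :=
    continuous_mag.comp continuous_snd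
  exact ((continuous_snd.sub (((continuous_plant β x).comp continuous_fst).matrix_mulVec hm)).add
    (hm.const_smul b)).sub continuous_const

lemma cform_eq {β : ℝ} (x : Cube n) (X : Fin n × Fin n → ℝ) {M : Vec n} (hM : M ⬝ᵥ M ≠ 0)
    (W H u : Vec n) :
    cform β (sv x) M W (prj M (goe β X)) H u = -hess β 1 (plant β x X) H u +
      (2 * (M ⬝ᵥ u / (M ⬝ᵥ M)) * (u ⬝ᵥ (W - goe β X *ᵥ M)) -
        (M ⬝ᵥ u / (M ⬝ᵥ M)) ^ 2 * (M ⬝ᵥ (W - goe β X *ᵥ M))) := by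
  have h := quad_prj (goe_symm β X) hM u
  simp only [cform, hess, plant, add_mulVec, smul_mulVec, vecMulVec_mulVec', dotProduct_add,
    dotProduct_sub, dotProduct_smul, smul_eq_mul, dotProduct_comm u (sv x)]
  rw [h]
  ring

lemma err_le {M r u : Vec n} {c : ℝ} (hM : 0 < vn M) (hc : 0 ≤ c) (hr : 3 * vn r ≤ c * vn M) :
    -(c * (u ⬝ᵥ u)) ≤ 2 * (M ⬝ᵥ u / (M ⬝ᵥ M)) * (u ⬝ᵥ r) - (M ⬝ᵥ u / (M ⬝ᵥ M)) ^ 2 * (M ⬝ᵥ r) := by
  obtain ⟨α, hα⟩ : ∃ α, α = M ⬝ᵥ u / (M ⬝ᵥ M) := ⟨_, rfl⟩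
  have h1 : |α| * vn M ≤ vn u := by
    rw [hα, dot_self, abs_div, abs_of_pos (pow_pos hM 2), div_mul_eq_mul_div,
      div_le_iff₀ (pow_pos hM 2)]
    nlinarith [abs_dot_le M u]
  have h0 := abs_nonneg α
  have hu := vn_nonneg u
  have hr0 := vn_nonneg r
  have h2 : 3 * (|α| * vn r) ≤ c * vn u := by
    nlinarith [mul_le_mul_of_nonneg_left hr h0, mul_le_mul_of_nonneg_left h1 hc]
  have h3 : |α * (u ⬝ᵥ r)| ≤ |α| * vn r * vn u := by
    rw [abs_mul, mul_assoc, mul_comm (vn r)]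
    exact mul_le_mul_of_nonneg_left (abs_dot_le _ _) h0
  have h4 : α ^ 2 * (M ⬝ᵥ r) ≤ |α| * vn r * vn u := by
    have h5 := mul_le_mul_of_nonneg_left (dot_le M r) (sq_nonneg α)
    have h6 := mul_le_mul_of_nonneg_left h1 (mul_nonneg h0 hr0)
    rw [← sq_abs] at h5 ⊢
    nlinarith
  rw [← hα, dot_self]
  nlinarith [(abs_le.1 h3).1, mul_le_mul_of_nonneg_right h2 hu]

lemma mem_facts (hn : 0 < n) {β a q₀ c₀ b η e e' : ℝ} (hβ : β ^ 2 ≤ 1) (ha : 0 ≤ a) (hc : 0 ≤ c₀)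
    (he : e ≤ q₀ / 4) (he' : e ≤ e') (h1 : η ≤ a * q₀ / 8) (h2 : η ≤ q₀ / 8)
    (h3 : η ≤ c₀ * q₀ / 24) (hq : 0 < q₀) {x : Cube n} {y H : Vec n} {X : Fin n × Fin n → ℝ}
    (hH : H ∈ volO β x y a q₀ c₀ b η e X) :
    (q₀ / 2 ≤ mag H ⬝ᵥ mag H / n ∧ |ons β (mag H) - b| ≤ 3 * e ∧
      -(6 * (mag H ⬝ᵥ mag H / n)) ≤ mag H ⬝ᵥ wv β b (sv x) y H / n ∧
      mag H ⬝ᵥ wv β b (sv x) y H / n ≤ (2 * β + 3 * a) * (mag H ⬝ᵥ mag H / n)) ∧
    prj (mag H) (goe β X) ∈ badU β (sv x) H (wv β b (sv x) y H) (2 * c₀) e' := by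
  obtain ⟨k1, k2, k3, H', u, k4, k5, k6, k7⟩ := hH
  rw [tapb_eq] at k1
  have hn' : (0 : ℝ) < n := Nat.cast_pos.2 hn
  have hs := Real.sqrt_pos.2 hn'
  have hss := Real.mul_self_sqrt hn'.le
  have hM := vn_mag_le H
  have hd : vn (mag H' - mag H) ≤ e * √(n : ℝ) := (vn_mag_sub_le _ _).trans k4.le
  have a1 : |ons 1 (mag H') - ons 1 (mag H)| ≤ 2 * e := by
    have := abs_ons_sub_le (β := 1) (by norm_num) (vn_mag_le H') hM
    exact le_of_mul_le_mul_right (by linarith) hs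
  have a2 : |ons β (mag H') - ons β (mag H)| ≤ 2 * e := by
    have := abs_ons_sub_le hβ (vn_mag_le H') hM
    exact le_of_mul_le_mul_right (by linarith) hs
  have b1 : q₀ / 2 ≤ mag H ⬝ᵥ mag H / n := by
    have := (abs_le.1 a1).1
    simp only [ons] at this
    linarith
  have b2 : q₀ / 2 * n ≤ mag H ⬝ᵥ mag H := (le_div_iff₀ hn').1 b1
  have b3 : q₀ / 2 * √(n : ℝ) ≤ vn (mag H) := by
    rw [dot_self] at b2
    refine le_of_mul_le_mul_right ?_ hs
    nlinarith [vn_nonneg (mag H)]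
  have b4 : 0 < vn (mag H) := lt_of_lt_of_le (by positivity) b3
  have b5 : mag H ⬝ᵥ mag H ≠ 0 := by rw [dot_self]; positivity
  have b6 : |mag H ⬝ᵥ (wv β b (sv x) y H - goe β X *ᵥ mag H)| ≤ 4 * η * n := by
    refine (abs_dot_le _ _).trans ((mul_le_mul hM k1.le (vn_nonneg _) hs.le).trans (le_of_eq ?_))
    rw [mul_left_comm, hss]
  rw [dotProduct_sub, abs_le] at b6
  have b7 : a * (q₀ / 2 * n) ≤ a * (mag H ⬝ᵥ mag H) := mul_le_mul_of_nonneg_left b2 ha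
  have b8 : η * n ≤ a * q₀ / 8 * n := mul_le_mul_of_nonneg_right h1 hn'.le
  have b9 : η * n ≤ q₀ / 8 * n := mul_le_mul_of_nonneg_right h2 hn'.le
  refine ⟨⟨b1, ?_, ?_, ?_⟩, H', u, k4.trans_le (mul_le_mul_of_nonneg_right he' hs.le), ?_⟩
  · rw [abs_le] at a2 ⊢
    rw [abs_lt] at k6
    constructor <;> linarith
  · rw [← mul_div_assoc, ← neg_div]
    exact div_le_div_of_nonneg_right (by linarith) hn'.le
  · rw [← mul_div_assoc]
    exact div_le_div_of_nonneg_right (by linarith) hn'.le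
  · rw [cform_eq x X b5]
    have := err_le (u := u) (r := wv β b (sv x) y H - goe β X *ᵥ mag H) b4 hc (by
      nlinarith [mul_le_mul_of_nonneg_left b3 hc, mul_le_mul_of_nonneg_right h3 hs.le])
    linarith

lemma lam_mem {β a q η w : ℝ} (hβ : 0 < β) (ha : 0 ≤ a) (hq : 0 < q) (h1 : -(6 * q) ≤ w)
    (h2 : w ≤ (2 * β + 3 * a) * q) :
    -3 ≤ β ^ 2 * w / (β ^ 2 * q + η ^ 2 + β ^ 2 * q) ∧
      β ^ 2 * w / (β ^ 2 * q + η ^ 2 + β ^ 2 * q) ≤ β + 2 * a := by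
  have hb : 0 < β ^ 2 := by positivity
  have hd : 0 < β ^ 2 * q + η ^ 2 + β ^ 2 * q := by positivity
  rw [le_div_iff₀ hd, div_le_iff₀ hd]
  have e1 := mul_le_mul_of_nonneg_left h1 hb.le
  have e2 := mul_le_mul_of_nonneg_left h2 hb.le
  have e3 : 0 ≤ (β + 2 * a) * η ^ 2 := by positivity
  have e4 : 0 ≤ a * (β ^ 2 * q) := by positivity
  constructor <;> nlinarith [sq_nonneg η]

lemma round {lo R m t : ℝ} (hm : 0 < m) (h1 : lo ≤ t) (h2 : t ≤ lo + R) :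
    ∃ k ∈ Finset.range (⌊R / m⌋₊ + 1), 0 ≤ t - (lo + m * k) ∧ t - (lo + m * k) ≤ m := by
  have h0 : 0 ≤ (t - lo) / m := div_nonneg (by linarith) hm.le
  refine ⟨⌊(t - lo) / m⌋₊, Finset.mem_range.2 (Nat.lt_succ_of_le (Nat.floor_le_floor
    (div_le_div_of_nonneg_right (by linarith) hm.le))), ?_, ?_⟩
  · have := Nat.floor_le h0
    rw [le_div_iff₀ hm] at this
    linarith
  · have := (Nat.lt_floor_add_one ((t - lo) / m)).le
    rw [div_le_iff₀ hm] at this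
    linarith

lemma abs_mu_le (x : Cube n) (H : Vec n) : |sv x ⬝ᵥ mag H / n| ≤ 1 := by
  rcases n.eq_zero_or_pos with rfl | hn
  · simp
  have hn' : (0 : ℝ) < n := Nat.cast_pos.2 hn
  rw [abs_div, abs_of_pos hn', div_le_one hn']
  refine (abs_dot_le _ _).trans ?_
  rw [vn_sv]
  exact (mul_le_mul_of_nonneg_left (vn_mag_le H) (Real.sqrt_nonneg _)).trans
    (Real.mul_self_sqrt hn'.le).le

lemma vn_shift {β s t m d : ℝ} (hβ : β ^ 2 ≤ 1) (hs : |s| ≤ m) (ht : |t| ≤ d) (x : Cube n)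
    (H : Vec n) : vn (-((β ^ 2 * s) • sv x) - t • mag H) ≤ (m + d) * √(n : ℝ) := by
  refine (vn_sub_le _ _).trans ?_
  rw [vn_neg, vn_smul, vn_smul, vn_sv, abs_mul, abs_of_nonneg (sq_nonneg β), add_mul]
  have h0 := Real.sqrt_nonneg (n : ℝ)
  refine add_le_add (mul_le_mul_of_nonneg_right ?_ h0)
    (mul_le_mul ht (vn_mag_le H) (vn_nonneg _) ((abs_nonneg _).trans ht))
  nlinarith [abs_nonneg s]

/-- Pointwise comparison with a density of fixed variance and a rounded centre. -/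
lemma point {β b v v₀ γ m d e Λ Δ μ₀ t : ℝ} (hβ : β ^ 2 ≤ 1) (hv₀ : 0 < v₀) (hv : v₀ ≤ v)
    (hγ : 0 < γ) (h1 : |v - (β ^ 2 - b)| ≤ e) (he : e ≤ γ / 2) (x : Cube n) (y H : Vec n)
    (hμ : |sv x ⬝ᵥ mag H / n - μ₀| ≤ m) (hΛ : |Λ - b - Δ| ≤ d)
    (ht : γ / v₀ + (m + d) ^ 2 / γ - Λ ^ 2 / (2 * β ^ 2) ≤ t) :
    (∏ i, phi v ((wv β b (sv x) y H - Λ • mag H) i)) * Real.exp (-(n * Λ ^ 2 / (2 * β ^ 2))) ≤
      Real.exp (n * t) *
        ∏ i, phi (β ^ 2 - b + γ) ((H - (y + (β ^ 2 * μ₀) • sv x) - Δ • mag H) i) := by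
  rw [abs_le] at h1
  have hz : vn ((wv β b (sv x) y H - Λ • mag H) - (H - (y + (β ^ 2 * μ₀) • sv x) - Δ • mag H)) ≤
      (m + d) * √(n : ℝ) := by
    refine le_trans (le_of_eq (congrArg vn ?_)) (vn_shift hβ hμ hΛ x H)
    simp only [wv, mul_sub, sub_smul]
    abel
  have h := phi_comp hv₀ hv hγ (v' := β ^ 2 - b + γ) (by linarith) (by linarith) hz
  refine (mul_le_mul_of_nonneg_right h (Real.exp_pos _).le).trans ?_
  rw [mul_right_comm, ← Real.exp_add]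
  refine mul_le_mul_of_nonneg_right (Real.exp_le_exp.2 ?_)
    (Finset.prod_nonneg fun _ _ => phi_nonneg _ _)
  have := mul_le_mul_of_nonneg_left ht (Nat.cast_nonneg (α := ℝ) n)
  rw [mul_div_assoc]
  linarith

lemma abs_log_le {t s : ℝ} (hs : 0 < s) (h1 : s ≤ t) (h2 : t ≤ 5) : |Real.log t| ≤ 5 + 1 / s := by
  have ht : 0 < t := hs.trans_le h1
  have h3 := Real.log_le_sub_one_of_pos ht
  have h4 := Real.one_sub_inv_le_log_of_pos ht
  have h5 : t⁻¹ ≤ 1 / s := by rw [one_div]; exact inv_anti₀ hs h1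
  have h6 : 0 < 1 / s := by positivity
  rw [abs_le]
  constructor <;> linarith

/-- The term of the sum for a complexity parameter away from zero. -/
noncomputable def fA (β b γ e s Λ : ℝ) (a H : Vec n) : ℝ≥0∞ :=
  ENNReal.ofReal (Real.exp (n * (s - Λ ^ 2 / (2 * β ^ 2)))) *
    {H : Vec n | |avg (dd H) - b / β ^ 2| ≤ e}.indicator
      (fun H => ENNReal.ofReal (∏ i, phi (β ^ 2 - b + γ) ((H - a - (Λ - b) • mag H) i))) H

lemma measurableSet_dd (d e : ℝ) : MeasurableSet {H : Vec n | |avg (dd H) - d| ≤ e} := by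
  refine (isClosed_le ?_ continuous_const).measurableSet
  have := continuous_tanh
  unfold avg dd
  fun_prop

lemma measurable_fA (β b γ e s Λ : ℝ) (a : Vec n) : Measurable (fA β b γ e s Λ a) := by
  have h1 : Continuous fun H : Vec n => H - a - (Λ - b) • mag H :=
    (continuous_id.sub continuous_const).sub (continuous_mag.const_smul (Λ - b))
  have h2 : Continuous fun H : Vec n =>
      ∏ i, phi (β ^ 2 - b + γ) ((H - a - (Λ - b) • mag H) i) :=
    continuous_finsetProd _ fun i _ => (continuous_phi _).comp ((continuous_apply i).comp h1)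
  unfold fA
  exact (h2.measurable.ennreal_ofReal.indicator (measurableSet_dd _ _)).const_mul _

lemma lintegral_fA (hn : 0 < n) {β β' b γ e s Λ D : ℝ} (hβ : 0 < β) (hββ : β ≤ β') (hβ' : β' < 1)
    (hb : 0 ≤ b) (hb' : b ≤ β ^ 2) (hγ : 0 < γ) (he : 0 ≤ e) (h1 : -3 ≤ Λ) (h2 : Λ ≤ β')
    (hD0 : 0 ≤ D) (hD : D ≤ |Λ - b|) (a : Vec n) :
    ∫⁻ H, fA β b γ e s Λ a H ≤ ENNReal.ofReal (Real.exp (n * (-(b ^ 2 / (2 * β ^ 2)) +
      (s + e * (5 + 1 / (1 - β')) - (1 - β') * D ^ 2 / (2 * β ^ 2))))) := by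
  have hb2 : β ^ 2 ≤ β := by nlinarith
  have hp : 0 < β ^ 2 := by positivity
  unfold fA
  rw [lintegral_const_mul' _ _ ENNReal.ofReal_ne_top, lintegral_indicator (measurableSet_dd _ _)]
  refine (mul_le_mul_right (tilt_vol hn (by linarith) (by linarith) a) _).trans ?_
  rw [← ENNReal.ofReal_mul (Real.exp_pos _).le, ← Real.exp_add, ← mul_add]
  refine ENNReal.ofReal_le_ofReal (Real.exp_le_exp.2
    (mul_le_mul_of_nonneg_left ?_ (Nat.cast_nonneg n)))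
  have h3 := complexity (Δ := Λ - b) hβ' hb (by linarith) (by linarith)
  have h4 := abs_log_le (t := 1 - (Λ - b)) (s := 1 - β') (by linarith) (by linarith) (by linarith)
  have h5 : D ^ 2 ≤ (Λ - b) ^ 2 := by rw [← sq_abs (Λ - b)]; exact pow_le_pow_left₀ hD0 hD 2
  have h6 := mul_le_mul_of_nonneg_left h5 (sub_pos.2 hβ').le
  have h7 : -(Λ ^ 2 / (2 * β ^ 2)) - b / β ^ 2 * Real.log (1 - (Λ - b)) ≤
      -(b ^ 2 / (2 * β ^ 2)) - (1 - β') * D ^ 2 / (2 * β ^ 2) := by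
    have e1 : -(Λ ^ 2 / (2 * β ^ 2)) - b / β ^ 2 * Real.log (1 - (Λ - b)) =
        (-(Λ ^ 2 / 2) - b * Real.log (1 - (Λ - b))) / β ^ 2 := by field_simp
    have e2 : -(b ^ 2 / (2 * β ^ 2)) - (1 - β') * D ^ 2 / (2 * β ^ 2) =
        (-(b ^ 2 / 2) - (1 - β') * D ^ 2 / 2) / β ^ 2 := by field_simp
    rw [e1, e2]
    exact div_le_div_of_nonneg_right (by nlinarith) hp.le
  have h8 := mul_le_mul_of_nonneg_left h4 he
  linarith

/-- The term of the sum for a small complexity parameter. -/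
noncomputable def fB (β b γ s c τ R : ℝ) (x a H : Vec n) : ℝ≥0∞ :=
  ENNReal.ofReal (Real.exp (n * (s - b ^ 2 / (2 * β ^ 2)))) *
    ((ENNReal.ofReal (Real.exp (-(c * n))) +
      {H : Vec n | Typ τ R x H (H - a) (β ^ 2 - b + γ)}ᶜ.indicator 1 H) *
      ENNReal.ofReal (∏ i, phi (β ^ 2 - b + γ) (H i - a i)))

lemma measurable_fB0 (c τ R v : ℝ) (x a : Vec n) : Measurable fun H : Vec n =>
    ENNReal.ofReal (Real.exp (-(c * n))) +
      {H : Vec n | Typ τ R x H (H - a) v}ᶜ.indicator (1 : Vec n → ℝ≥0∞) H :=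
  (measurable_one.indicator (measurableSet_typ τ R x a v).compl).const_add _

lemma measurable_fB (β b γ s c τ R : ℝ) (x a : Vec n) : Measurable (fB β b γ s c τ R x a) :=
  ((measurable_fB0 c τ R _ x a).mul (measurable_prod_phi _ a)).const_mul _

lemma lintegral_fB {β b γ s c τ R : ℝ} (hb' : b ≤ β ^ 2) (hγ : 0 < γ) (x a : Vec n)
    (h : gp (Fin n) {g | ¬ Typ τ R x (a + √(β ^ 2 - b + γ) • g) (√(β ^ 2 - b + γ) • g)
      (β ^ 2 - b + γ)} ≤ ENNReal.ofReal (8 * Real.exp (-(c * n)))) :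
    ∫⁻ H, fB β b γ s c τ R x a H ≤
      ENNReal.ofReal (9 * Real.exp (n * (-(b ^ 2 / (2 * β ^ 2)) + (s - c)))) := by
  unfold fB
  rw [lintegral_const_mul' _ _ ENNReal.ofReal_ne_top,
    lintegral_phi_pi (by linarith) a (measurable_fB0 c τ R _ x a),
    lintegral_add_left measurable_const, lintegral_const, measure_univ, mul_one]
  have h1 : ∫⁻ g, {H : Vec n | Typ τ R x H (H - a) (β ^ 2 - b + γ)}ᶜ.indicator
      (1 : Vec n → ℝ≥0∞) (a + √(β ^ 2 - b + γ) • g) ∂gp (Fin n) ≤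
      ENNReal.ofReal (8 * Real.exp (-(c * n))) := by
    refine le_trans ?_ ((lintegral_indicator_one_le _).trans h)
    refine lintegral_mono fun g => ?_
    by_cases hg : Typ τ R x (a + √(β ^ 2 - b + γ) • g) (√(β ^ 2 - b + γ) • g) (β ^ 2 - b + γ)
    · rw [Set.indicator_of_notMem (by simpa using hg)]
      exact zero_le
    · exact (Set.indicator_le_self _ _ _).trans (Set.indicator_of_mem
        (s := {g | ¬ Typ τ R x (a + √(β ^ 2 - b + γ) • g) (√(β ^ 2 - b + γ) • g) (β ^ 2 - b + γ)})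
        hg (1 : Vec n → ℝ≥0∞)).ge
  refine (mul_le_mul_right (add_le_add le_rfl h1) _).trans (le_of_eq ?_)
  rw [← ENNReal.ofReal_add (by positivity) (by positivity),
    ← ENNReal.ofReal_mul (Real.exp_pos _).le]
  congr 1
  have : Real.exp (n * (-(b ^ 2 / (2 * β ^ 2)) + (s - c))) =
      Real.exp (n * (s - b ^ 2 / (2 * β ^ 2))) * Real.exp (-(c * n)) := by
    rw [← Real.exp_add]; congr 1; ring
  rw [this]
  ring

end CountEAux

end Vale.Agent.P150
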