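import Mathlib

open MeasureTheory ProbabilityTheory
open scoped ENNReal NNReal

namespace Vale.Agent.P150

/-- Spin configurations on `n` sites. -/
abbrev Cube (n : ℕ) := Fin n → Bool

/-- Pairs `i < j` of sites. -/
abbrev Pair (n : ℕ) := {p : Fin n × Fin n // p.1 < p.2}

/-- The value `+1` or `-1` of a spin. -/
def sp (b : Bool) : ℝ := if b then 1 else -1

/-- The law of the disorder: independent standard Gaussians indexed by the pairs `i < j`. -/
noncomputable def disorder (n : ℕ) : Measure (Pair n → ℝ) :=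
  Measure.pi fun _ => gaussianReal 0 1

variable {n : ℕ}

/-- The symmetric extension of the disorder, with zero diagonal. -/
def sym (g : Pair n → ℝ) (i j : Fin n) : ℝ :=
  if h : i < j then g ⟨(i, j), h⟩ else if h' : j < i then g ⟨(j, i), h'⟩ else 0

/-- The Boltzmann weight. -/
noncomputable def weight (β : ℝ) (g : Pair n → ℝ) (x : Cube n) : ℝ :=
  Real.exp (β / √(n : ℝ) * ∑ p : Pair n, g p * sp (x p.1.1) * sp (x p.1.2))

/-- The Sherrington-Kirkpatrick Gibbs measure at zero field. -/
noncomputable def gibbs (β : ℝ) (g : Pair n → ℝ) (x : Cube n) : ℝ :=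
  weight β g x / ∑ y : Cube n, weight β g y

/-- The local field at site `i`. -/
noncomputable def field (β : ℝ) (g : Pair n → ℝ) (x : Cube n) (i : Fin n) : ℝ :=
  β / √(n : ℝ) * ∑ j ∈ Finset.univ.erase i, sym g i j * sp (x j)

/-- The heat-bath update at site `i`, as a transition matrix. -/
noncomputable def heat (β : ℝ) (g : Pair n → ℝ) (i : Fin n) : Matrix (Cube n) (Cube n) ℝ :=
  Matrix.of fun x y =>
    if ∀ j, j ≠ i → y j = x j then
      Real.exp (sp (y i) * field β g x i) / (2 * Real.cosh (field β g x i))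
    else 0

/-- The generator of the continuous-time heat-bath dynamics. -/
noncomputable def gen (β : ℝ) (g : Pair n → ℝ) : Matrix (Cube n) (Cube n) ℝ :=
  ∑ i : Fin n, (heat β g i - 1)

/-- The transition kernel at time `t`. -/
noncomputable def kernel (β : ℝ) (g : Pair n → ℝ) (t : ℝ) : Matrix (Cube n) (Cube n) ℝ :=
  NormedSpace.exp (t • gen β g)

/-- Total variation distance to equilibrium at time `t` from the start `x`. -/
noncomputable def tv (β : ℝ) (g : Pair n → ℝ) (t : ℝ) (x : Cube n) : ℝ :=
  (1 / 2) * ∑ y : Cube n, |kernel β g t x y - gibbs β g y|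

/-- The worst-start mixing time (infinite if the distance never drops to `1/4`). -/
noncomputable def tmix (β : ℝ) (g : Pair n → ℝ) : ℝ≥0∞ :=
  ⨅ (t : ℝ≥0) (_ : ∀ x : Cube n, tv β g t x ≤ 1 / 4), (t : ℝ≥0∞)

/-- The variance of `f` under the Gibbs measure. -/
noncomputable def var (β : ℝ) (g : Pair n → ℝ) (f : Cube n → ℝ) : ℝ :=
  ∑ x : Cube n, gibbs β g x * (f x - ∑ y : Cube n, gibbs β g y * f y) ^ 2

/-- The Dirichlet form of the generator. -/
noncomputable def dirichlet (β : ℝ) (g : Pair n → ℝ) (f : Cube n → ℝ) : ℝ :=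
  -∑ x : Cube n, gibbs β g x * f x * (gen β g).mulVec f x

/-- The spectral gap: the infimum of the Rayleigh quotients of non-constant functions. -/
noncomputable def gap (β : ℝ) (g : Pair n → ℝ) : ℝ :=
  sInf {r : ℝ | ∃ f : Cube n → ℝ, var β g f ≠ 0 ∧ r = dirichlet β g f / var β g f}

end Vale.Agent.P150
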