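import Vale.Agent.P150.EntA

/-! Entropy along one localization step; entropic stability. -/

open MeasureTheory ProbabilityTheory Matrix Filter Topology
open scoped ENNReal NNReal

namespace Vale.Agent.P150

variable {n : ℕ}

variable {W f : Cube n → ℝ} {ε : ℝ}

theorem eb_nxt_pos (hW : ∀ x, 0 < W x) (B : Mat n) (x : Cube n) : 0 < nxt W ε B x :=
  mul_pos (hW x) (Finset.prod_pos fun _ _ => inv_pos.2 (Real.cosh_pos _))

theorem eb_prod_ge {ι : Type} (S : Finset ι) (a : ι → ℝ) (h : ∑ k ∈ S, |a k| ≤ 1) :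
    1 - ∑ k ∈ S, |a k| ≤ ∏ k ∈ S, (1 + a k) := by
  classical
  induction S using Finset.induction_on with
  | empty => simp
  | insert j S hj ih =>
    rw [Finset.sum_insert hj] at h ⊢
    rw [Finset.prod_insert hj]
    have h0 : 0 ≤ ∑ k ∈ S, |a k| := Finset.sum_nonneg fun _ _ => abs_nonneg _
    have h1 := abs_nonneg (a j)
    have h2 := neg_abs_le (a j)
    have h3 := ih (by linarith)
    have h4 : (1 - |a j|) * (1 - ∑ k ∈ S, |a k|) ≤ (1 + a j) * ∏ k ∈ S, (1 + a k) :=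
      mul_le_mul (by linarith) h3 (by linarith) (by linarith)
    nlinarith [mul_nonneg h1 h0]

theorem eb_prod_lin {ι : Type} (S : Finset ι) (a : ι → ℝ) (h : ∑ k ∈ S, |a k| ≤ 1) :
    |∏ k ∈ S, (1 + a k) - 1 - ∑ k ∈ S, a k| ≤ (∑ k ∈ S, |a k|) ^ 2 := by
  classical
  induction S using Finset.induction_on with
  | empty => simp
  | insert j S hj ih =>
    rw [Finset.sum_insert hj] at h
    rw [Finset.prod_insert hj, Finset.sum_insert hj, Finset.sum_insert hj]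
    have h0 : 0 ≤ ∑ k ∈ S, |a k| := Finset.sum_nonneg fun _ _ => abs_nonneg _
    have h1 := abs_nonneg (a j)
    have h3 := ih (by linarith)
    have h4 : |∑ k ∈ S, a k| ≤ ∑ k ∈ S, |a k| := Finset.abs_sum_le_sum_abs _ _
    set P := ∏ k ∈ S, (1 + a k)
    set A := ∑ k ∈ S, a k
    set σ := ∑ k ∈ S, |a k|
    have e : (1 + a j) * P - 1 - (a j + A) = (P - 1 - A) + (P - 1 - A) * a j + A * a j := by ring
    have h5 : |(P - 1 - A) * a j| ≤ σ ^ 2 * |a j| := by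
      rw [abs_mul]; exact mul_le_mul_of_nonneg_right h3 h1
    have h6 : |A * a j| ≤ σ * |a j| := by
      rw [abs_mul]; exact mul_le_mul_of_nonneg_right h4 h1
    have h7 : σ ^ 2 * |a j| ≤ σ * |a j| :=
      mul_le_mul_of_nonneg_right (by nlinarith) h1
    rw [e]
    refine (abs_add_three _ _ _).trans ?_
    nlinarith [sq_nonneg (|a j|)]

theorem eb_abs_tanh_le (t : ℝ) : |Real.tanh t| ≤ |t| := by
  simpa using abs_tanh_sub_le t 0

theorem eb_tanh_sub (t : ℝ) (ht : |t| ≤ 1) : |Real.tanh t - t| ≤ t ^ 2 := by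
  have h := Convex.norm_image_sub_le_of_norm_hasDerivWithin_le (f := fun s => Real.tanh s - s)
    (f' := fun s => 1 - Real.tanh s ^ 2 - 1) (s := Set.Icc (-|t|) |t|) (C := |t|)
    (fun x _ => ((hasDerivAt_tanh x).sub (hasDerivAt_id x)).hasDerivWithinAt)
    (fun x hx => by
      have h1 : |Real.tanh x| ≤ |t| := (eb_abs_tanh_le x).trans (abs_le.2 hx)
      have h2 : Real.tanh x ^ 2 ≤ |t| ^ 2 := by
        rw [← sq_abs]; exact pow_le_pow_left₀ (abs_nonneg _) h1 2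
      rw [Real.norm_eq_abs, abs_le]
      constructor <;> nlinarith [sq_nonneg (Real.tanh x), abs_nonneg t])
    (convex_Icc _ _) (x := 0) (y := t) ⟨by simp, abs_nonneg t⟩ ⟨neg_abs_le t, le_abs_self t⟩
  simp only [Real.tanh_zero, sub_zero, Real.norm_eq_abs] at h
  rwa [abs_mul_abs_self, ← sq] at h

theorem eb_sum_sp (k k' : Fin n) :
    ∑ s : Cube n, sp (s k) * sp (s k') = if k = k' then (2 : ℝ) ^ n else 0 := by
  split_ifs with h
  · subst h
    simp only [← sq, sp_sq]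
    simp
  · have hi : Function.Involutive fun s : Cube n => Function.update s k (!s k) := fun s => by
      funext j
      by_cases hj : j = k
      · subst hj; simp
      · simp [hj]
    have h1 := Equiv.sum_comp (hi.toPerm _) fun s : Cube n => sp (s k) * sp (s k')
    have h2 : ∀ s : Cube n, sp (hi.toPerm _ s k) * sp (hi.toPerm _ s k') =
        -(sp (s k) * sp (s k')) := fun s => by
      have h3 : k' ≠ k := fun e => h e.symm
      simp only [Function.Involutive.coe_toPerm, Function.update_self,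
        Function.update_of_ne h3]
      cases s k <;> cases s k' <;> simp [sp]
    simp only [h2, Finset.sum_neg_distrib] at h1
    linarith

theorem eb_sum_dot_sq (w : Vec n) : ∑ s : Cube n, (sv s ⬝ᵥ w) ^ 2 = 2 ^ n * vn w ^ 2 := by
  have h : ∀ s : Cube n, (sv s ⬝ᵥ w) ^ 2 = ∑ k, ∑ k', w k * w k' * (sp (s k) * sp (s k')) :=
    fun s => by
      rw [sq, dotProduct, Finset.sum_mul_sum]
      refine Finset.sum_congr rfl fun k _ => Finset.sum_congr rfl fun k' _ => ?_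
      simp only [sv]; ring
  simp only [h]
  rw [Finset.sum_comm, vn_sq, Finset.mul_sum]
  refine Finset.sum_congr rfl fun k _ => ?_
  rw [Finset.sum_comm]
  simp only [← Finset.mul_sum, eb_sum_sp]
  simp only [mul_ite, mul_zero, Finset.sum_ite_eq, Finset.mem_univ, if_true]
  ring

theorem eb_lab_eq (B : Mat n) (x s : Cube n) :
    2 ^ n * lab ε B x s = ∏ k, (1 + sp (s k) * Real.tanh (ε * (Bᵀ *ᵥ sv x) k)) := by
  rw [lab, Finset.prod_div_distrib]
  simp only [Finset.prod_const, Finset.card_univ, Fintype.card_fin]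
  field_simp

theorem eb_sum_t {B : Mat n} (hB : opn B ≤ 3) (hε : 0 < ε) (x : Cube n) :
    ∑ k, |ε * (Bᵀ *ᵥ sv x) k| ≤ 3 * (ε * n) := by
  have h1 := sum_abs_le (Bᵀ *ᵥ sv x)
  have h2 := vn_mulVec_le Bᵀ (sv x)
  rw [opn_transpose, vn_sv] at h2
  have h3 : √(n : ℝ) * √(n : ℝ) = n := Real.mul_self_sqrt (Nat.cast_nonneg n)
  have h4 := Real.sqrt_nonneg (n : ℝ)
  have h5 : vn (Bᵀ *ᵥ sv x) ≤ 3 * √(n : ℝ) := h2.trans (mul_le_mul_of_nonneg_right hB h4)
  have h6 : ∑ k, |(Bᵀ *ᵥ sv x) k| ≤ 3 * n := by nlinarith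
  simp only [abs_mul, abs_of_pos hε, ← Finset.mul_sum]
  nlinarith

theorem eb_lab_ge {B : Mat n} (hB : opn B ≤ 3) (hε : 0 < ε) (hεn : ε * n ≤ 1 / 6)
    (x s : Cube n) : 1 / 2 ≤ 2 ^ n * lab ε B x s := by
  have h1 : ∑ k, |sp (s k) * Real.tanh (ε * (Bᵀ *ᵥ sv x) k)| ≤ 3 * (ε * n) := by
    refine le_trans (Finset.sum_le_sum fun k _ => ?_) (eb_sum_t hB hε x)
    rw [abs_mul, abs_sp, one_mul]; exact eb_abs_tanh_le _
  have h2 := eb_prod_ge Finset.univ _ (h1.trans (by linarith))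
  rw [eb_lab_eq]
  linarith

theorem eb_lab_lin {B : Mat n} (hB : opn B ≤ 3) (hε : 0 < ε) (hεn : ε * n ≤ 1 / 6)
    (x s : Cube n) :
    |2 ^ n * lab ε B x s - 1 - ε * (sv s ⬝ᵥ Bᵀ *ᵥ sv x)| ≤ 18 * (ε * n) ^ 2 := by
  have h0 := eb_sum_t hB hε x
  have h1 : ∑ k, |sp (s k) * Real.tanh (ε * (Bᵀ *ᵥ sv x) k)| ≤ 3 * (ε * n) := by
    refine le_trans (Finset.sum_le_sum fun k _ => ?_) h0
    rw [abs_mul, abs_sp, one_mul]; exact eb_abs_tanh_le _
  have h2 := eb_prod_lin Finset.univ _ (h1.trans (by linarith))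
  have h3 : (∑ k, |sp (s k) * Real.tanh (ε * (Bᵀ *ᵥ sv x) k)|) ^ 2 ≤ (3 * (ε * n)) ^ 2 :=
    pow_le_pow_left₀ (Finset.sum_nonneg fun _ _ => abs_nonneg _) h1 2
  have h4 : |∑ k, sp (s k) * Real.tanh (ε * (Bᵀ *ᵥ sv x) k) - ε * (sv s ⬝ᵥ Bᵀ *ᵥ sv x)| ≤
      (3 * (ε * n)) ^ 2 := by
    rw [dotProduct, Finset.mul_sum, ← Finset.sum_sub_distrib]
    refine (Finset.abs_sum_le_sum_abs _ _).trans ?_
    have h5 : ∀ k, |ε * (Bᵀ *ᵥ sv x) k| ≤ 3 * (ε * n) := fun k =>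
      (Finset.single_le_sum (f := fun k => |ε * (Bᵀ *ᵥ sv x) k|) (fun _ _ => abs_nonneg _)
        (Finset.mem_univ k)).trans h0
    calc _ ≤ ∑ k, 3 * (ε * n) * |ε * (Bᵀ *ᵥ sv x) k| := by
          refine Finset.sum_le_sum fun k _ => ?_
          have e : sp (s k) * Real.tanh (ε * (Bᵀ *ᵥ sv x) k) - ε * (sv s k * (Bᵀ *ᵥ sv x) k) =
              sp (s k) * (Real.tanh (ε * (Bᵀ *ᵥ sv x) k) - ε * (Bᵀ *ᵥ sv x) k) := by
            simp only [sv]; ring
          rw [e, abs_mul, abs_sp, one_mul]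
          refine (eb_tanh_sub _ ((h5 k).trans (by linarith))).trans ?_
          rw [← sq_abs, sq]
          exact mul_le_mul_of_nonneg_right (h5 k) (abs_nonneg _)
      _ ≤ _ := by
          rw [← Finset.mul_sum, sq]
          exact mul_le_mul_of_nonneg_left h0 (by positivity)
  rw [eb_lab_eq]
  have h5 := abs_add_le (∏ k, (1 + sp (s k) * Real.tanh (ε * (Bᵀ *ᵥ sv x) k)) - 1 -
      ∑ k, sp (s k) * Real.tanh (ε * (Bᵀ *ᵥ sv x) k))
    (∑ k, sp (s k) * Real.tanh (ε * (Bᵀ *ᵥ sv x) k) - ε * (sv s ⬝ᵥ Bᵀ *ᵥ sv x))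
  rw [sub_add_sub_cancel] at h5
  nlinarith

theorem eb_sum_cen {π : Cube n → ℝ} (hπ : IsP π) (f : Cube n → ℝ) :
    ∑ x, π x * (f x - ex π f) = 0 := by
  simp only [mul_sub, Finset.sum_sub_distrib, ← Finset.sum_mul, hπ.2, one_mul]
  exact sub_self _

theorem eb_sum_cov (π f : Cube n → ℝ) (u : Vec n) :
    ∑ x, π x * (f x - ex π f) * (u ⬝ᵥ sv x) = u ⬝ᵥ cov π f := by
  simp only [dotProduct, Finset.mul_sum]
  rw [Finset.sum_comm]
  refine Finset.sum_congr rfl fun i _ => ?_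
  simp only [cov, mean, sv, mul_sub, Finset.mul_sum, ← Finset.sum_sub_distrib]
  exact Finset.sum_congr rfl fun x _ => by ring

theorem eb_chain (hW : ∀ x, 0 < W x) (B : Mat n) (θ : Vec n) :
    ent (tilt W θ) f = ∑ s, lp W ε B θ s * ent (tilt (nxt W ε B) (stp ε B θ s)) f +
      ent (lp W ε B θ) fun s => ex (tilt (nxt W ε B) (stp ε B θ s)) f := by
  have h1 := ex_step (ε := ε) hW B θ f
  have h2 := ex_step (ε := ε) hW B θ fun x => f x * Real.log (f x)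
  have h3 : ex (lp W ε B θ) (fun s => ex (tilt (nxt W ε B) (stp ε B θ s)) f) =
      ex (tilt W θ) f := h1
  simp only [ent, h3, mul_sub, Finset.sum_sub_distrib]
  simp only [ex] at h2 ⊢
  linarith

theorem eb_dev (hW : ∀ x, 0 < W x) (hf : ∀ x, 0 < f x) {B : Mat n} (hB : opn B ≤ 3)
    (hε : 0 < ε) (hεn : ε * n ≤ 1 / 6) (θ : Vec n) (s : Cube n) :
    |2 ^ n * lp W ε B θ s * (ex (tilt (nxt W ε B) (stp ε B θ s)) f - ex (tilt W θ) f) -
      ε * (sv s ⬝ᵥ Bᵀ *ᵥ cov (tilt W θ) f)| ≤ 36 * (ε * n) ^ 2 * ex (tilt W θ) f := by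
  have hπ := tilt_isP hW θ
  have hF := ex_pos hπ hf
  have h1 : lp W ε B θ s * ex (tilt (nxt W ε B) (stp ε B θ s)) f =
      ∑ x, tilt W θ x * lab ε B x s * f x := by
    rw [ex, Finset.mul_sum]
    exact Finset.sum_congr rfl fun x _ => by rw [bayes_pt hW]; ring
  have h2 : 2 ^ n * lp W ε B θ s * (ex (tilt (nxt W ε B) (stp ε B θ s)) f - ex (tilt W θ) f) =
      ∑ x, tilt W θ x * (f x - ex (tilt W θ) f) * (2 ^ n * lab ε B x s) := by
    rw [mul_assoc, mul_sub, h1, lp, Finset.sum_mul, ← Finset.sum_sub_distrib, Finset.mul_sum]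
    exact Finset.sum_congr rfl fun x _ => by ring
  have h3 : ε * (sv s ⬝ᵥ Bᵀ *ᵥ cov (tilt W θ) f) =
      ∑ x, tilt W θ x * (f x - ex (tilt W θ) f) * (1 + ε * (sv s ⬝ᵥ Bᵀ *ᵥ sv x)) := by
    simp only [mul_add, mul_one, Finset.sum_add_distrib, eb_sum_cen hπ, zero_add,
      dotProduct_mulVec]
    rw [← eb_sum_cov, Finset.mul_sum]
    exact Finset.sum_congr rfl fun x _ => by ring
  rw [h2, h3, ← Finset.sum_sub_distrib]
  refine (Finset.abs_sum_le_sum_abs _ _).trans ?_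
  calc _ ≤ ∑ x, tilt W θ x * (f x + ex (tilt W θ) f) * (18 * (ε * n) ^ 2) := by
        refine Finset.sum_le_sum fun x _ => ?_
        rw [← mul_sub, ← sub_sub, abs_mul, abs_mul, abs_of_pos (hπ.1 x)]
        refine mul_le_mul (mul_le_mul_of_nonneg_left ?_ (hπ.1 x).le)
          (eb_lab_lin hB hε hεn x s) (abs_nonneg _) (mul_nonneg (hπ.1 x).le (by linarith [hf x]))
        rw [abs_le]; constructor <;> linarith [hf x]
    _ = _ := by
        rw [← Finset.sum_mul]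
        simp only [mul_add, Finset.sum_add_distrib, ← Finset.sum_mul, hπ.2]
        have : ∑ x, tilt W θ x * f x = ex (tilt W θ) f := rfl
        rw [this]; ring

/-- With `F' s = ex (tilt (nxt W ε B) (stp ε B θ s)) f` and `p = lp W ε B θ`, the chain rule gives
`ent = ∑ p * ent' + ent p F'`, and `ent p F' ≤ var / F` (`ent_le_chi`). Here
`F' s - F = Cov (f, 2^n lab s) / (2^n p s)`, `2^n lab = ∏ (1 + s_k τ_k) = 1 + ε s ⬝ Bᵀ x + R` with
`|R| ≤ 2 ς²`, `ς = 3 ε n ≤ 1/2`, `2^n p ≥ 1/2`, and `2^-n ∑_s (s ⬝ w)² = |w|²`. -/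
theorem ent_step (hW : ∀ x, 0 < W x) (hf : ∀ x, 0 < f x) {B : Mat n} (hB : opn B ≤ 3)
    (hε : 0 < ε) (hεn : ε * n ≤ 1 / 6) (θ : Vec n) :
    ent (tilt W θ) f ≤ ∑ s, lp W ε B θ s * ent (tilt (nxt W ε B) (stp ε B θ s)) f +
      36 * ε ^ 2 * vn (cov (tilt W θ) f) ^ 2 / ex (tilt W θ) f +
      10 ^ 4 * (ε * n) ^ 4 * ex (tilt W θ) f := by
  have hπ := tilt_isP hW θ
  have hF := ex_pos hπ hf
  have hp := lp_isP (ε := ε) hW B θ
  have h1 := ent_le_chi (f := fun s => ex (tilt (nxt W ε B) (stp ε B θ s)) f) hp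
    fun s => ex_pos (tilt_isP (eb_nxt_pos hW B) _) hf
  have h3 : ex (lp W ε B θ) (fun s => ex (tilt (nxt W ε B) (stp ε B θ s)) f) =
      ex (tilt W θ) f := ex_step (ε := ε) hW B θ f
  rw [h3] at h1
  have h2n : (0 : ℝ) < 2 ^ n := by positivity
  have h4 : ∀ s, 1 / 2 ≤ 2 ^ n * lp W ε B θ s := fun s => by
    rw [lp, Finset.mul_sum]
    calc (1 / 2 : ℝ) = ∑ x, tilt W θ x * (1 / 2) := by rw [← Finset.sum_mul, hπ.2, one_mul]
      _ ≤ _ := Finset.sum_le_sum fun x _ => by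
          rw [mul_left_comm]
          exact mul_le_mul_of_nonneg_left (eb_lab_ge hB hε hεn x s) (hπ.1 x).le
  have h5 : ∀ s, 2 ^ n * (lp W ε B θ s *
      (ex (tilt (nxt W ε B) (stp ε B θ s)) f - ex (tilt W θ) f) ^ 2) ≤
      4 * ε ^ 2 * (sv s ⬝ᵥ Bᵀ *ᵥ cov (tilt W θ) f) ^ 2 +
        4 * (36 * (ε * n) ^ 2 * ex (tilt W θ) f) ^ 2 := fun s => by
    have h6 := eb_dev hW hf hB hε hεn θ s
    have h7 := h4 s
    rw [← mul_assoc]
    set q := 2 ^ n * lp W ε B θ s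
    set d := ex (tilt (nxt W ε B) (stp ε B θ s)) f - ex (tilt W θ) f
    set a := sv s ⬝ᵥ Bᵀ *ᵥ cov (tilt W θ) f
    set r := 36 * (ε * n) ^ 2 * ex (tilt W θ) f
    have h8 : (q * d - ε * a) ^ 2 ≤ r ^ 2 := sq_le_sq' (abs_le.1 h6).1 (abs_le.1 h6).2
    have h9 : q * d ^ 2 ≤ 2 * (q * d) ^ 2 := by
      have : 0 ≤ q * d ^ 2 * (2 * q - 1) := mul_nonneg (mul_nonneg (by linarith) (sq_nonneg d))
        (by linarith)
      nlinarith
    nlinarith [sq_nonneg (q * d - 2 * (ε * a))]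
  have h6 := Finset.sum_le_sum fun s (_ : s ∈ Finset.univ) => h5 s
  rw [← Finset.mul_sum, Finset.sum_add_distrib, ← Finset.mul_sum, eb_sum_dot_sq] at h6
  simp only [Finset.sum_const, Finset.card_univ, Fintype.card_pi, Fintype.card_bool,
    Finset.prod_const, Fintype.card_fin, nsmul_eq_mul, Nat.cast_pow, Nat.cast_ofNat] at h6
  have h7 : vn (Bᵀ *ᵥ cov (tilt W θ) f) ^ 2 ≤ 9 * vn (cov (tilt W θ) f) ^ 2 := by
    have h8 := vn_mulVec_le Bᵀ (cov (tilt W θ) f)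
    rw [opn_transpose] at h8
    have h9 := h8.trans (mul_le_mul_of_nonneg_right hB (vn_nonneg _))
    have := pow_le_pow_left₀ (vn_nonneg _) h9 2
    linarith
  have h8 : ∑ s, lp W ε B θ s * (ex (tilt (nxt W ε B) (stp ε B θ s)) f - ex (tilt W θ) f) ^ 2 ≤
      36 * ε ^ 2 * vn (cov (tilt W θ) f) ^ 2 + 10 ^ 4 * (ε * n) ^ 4 * ex (tilt W θ) f ^ 2 := by
    refine le_of_mul_le_mul_left (h6.trans ?_) h2n
    rw [mul_left_comm, ← mul_add]
    refine mul_le_mul_of_nonneg_left ?_ h2n.le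
    have h9 : 0 ≤ (ε * n) ^ 4 * ex (tilt W θ) f ^ 2 := by positivity
    nlinarith [mul_le_mul_of_nonneg_left h7 (sq_nonneg ε)]
  have h9 := div_le_div_of_nonneg_right h8 hF.le
  have e : (36 * ε ^ 2 * vn (cov (tilt W θ) f) ^ 2 +
      10 ^ 4 * (ε * n) ^ 4 * ex (tilt W θ) f ^ 2) / ex (tilt W θ) f =
      36 * ε ^ 2 * vn (cov (tilt W θ) f) ^ 2 / ex (tilt W θ) f +
        10 ^ 4 * (ε * n) ^ 4 * ex (tilt W θ) f := by field_simp
  rw [eb_chain (ε := ε) hW B θ]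
  linarith

/-- The local entropies form a supermartingale (`loc_le_var` with `c = cnd (tilt W θ) i f`,
`ex_step`). -/
theorem dir_step (hW : ∀ x, 0 < W x) (hf : ∀ x, 0 < f x) (B : Mat n) (θ : Vec n) :
    ∑ s, lp W ε B θ s * dir (tilt (nxt W ε B) (stp ε B θ s)) f ≤ dir (tilt W θ) f := by
  have hπ := tilt_isP hW θ
  have hp := lp_isP (ε := ε) hW B θ
  simp only [dir]
  simp only [Finset.mul_sum (s := (Finset.univ : Finset (Fin n)))]
  rw [Finset.sum_comm]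
  refine Finset.sum_le_sum fun i _ => ?_
  have h1 := ex_step (ε := ε) hW B θ fun x => f x * Real.log (f x) -
    f x * Real.log (cnd (tilt W θ) i f x) - f x + cnd (tilt W θ) i f x
  have h2 := ex_cnd_mul hπ i f (fun _ => 1) fun _ _ => rfl
  simp only [mul_one] at h2
  calc _ ≤ ∑ s, lp W ε B θ s * ex (tilt (nxt W ε B) (stp ε B θ s)) fun x => f x * Real.log (f x) -
        f x * Real.log (cnd (tilt W θ) i f x) - f x + cnd (tilt W θ) i f x :=
        Finset.sum_le_sum fun s _ => mul_le_mul_of_nonneg_left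
          (loc_le_var (tilt_isP (eb_nxt_pos hW B) _) hf i (cnd_pos hπ hf i)
            fun x b => cnd_update i x b) (hp.1 s).le
    _ = _ := by
        rw [h1, ex]
        simp only [mul_add, mul_sub, Finset.sum_add_distrib, Finset.sum_sub_distrib]
        linarith

theorem pe_dir (hW : ∀ x, 0 < W x) (hf : ∀ x, 0 < f x) (B : ℕ → Mat n) (l k : ℕ) (θ : Vec n) :
    pe W ε B l k θ (fun _ θ' => dir (tilt (wts W ε B (l + k)) θ') f) ≤
      dir (tilt (wts W ε B l) θ) f := by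
  induction k with
  | zero =>
    rw [pe_zero, ← Finset.sum_mul, (tilt_isP (wts_pos hW B l) θ).2, one_mul]
    exact le_rfl
  | succ k ih =>
    rw [pe_last hW B l k θ fun θ' => dir (tilt (wts W ε B (l + (k + 1))) θ') f]
    refine le_trans (pe_mono hW B l k θ fun _ θ' => ?_) ih
    exact dir_step (wts_pos hW B (l + k)) hf (B (l + k)) θ'

theorem eb_mono {g g' : ℝ → ℝ} (h : ∀ r, HasDerivAt g (g' r) r)
    (h0 : ∀ r ∈ Set.Icc (0 : ℝ) 1, 0 ≤ g' r) {r : ℝ} (hr : r ∈ Set.Icc (0 : ℝ) 1) :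
    g 0 ≤ g r := by
  have hm : MonotoneOn g (Set.Icc (0 : ℝ) 1) :=
    monotoneOn_of_deriv_nonneg (convex_Icc 0 1)
      (fun x _ => (h x).continuousAt.continuousWithinAt)
      (fun x _ => (h x).differentiableAt.differentiableWithinAt)
      fun x hx => by rw [(h x).deriv]; exact h0 x (interior_subset hx)
  exact hm ⟨le_rfl, zero_le_one⟩ hr hr.1

theorem eb_log_mgf {π v : Cube n → ℝ} (hπ : IsP π) (h0 : ∑ x, π x * v x = 0) {C : ℝ}
    (hC : ∀ r ∈ Set.Icc (0 : ℝ) 1,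
      (∑ x, π x * Real.exp (r * v x) * v x * v x) / (∑ x, π x * Real.exp (r * v x)) -
        ((∑ x, π x * Real.exp (r * v x) * v x) / ∑ x, π x * Real.exp (r * v x)) ^ 2 ≤ C) :
    Real.log (∑ x, π x * Real.exp (v x)) ≤ C / 2 := by
  have hZ : ∀ r : ℝ, 0 < ∑ x, π x * Real.exp (r * v x) := fun r =>
    Finset.sum_pos (fun x _ => mul_pos (hπ.1 x) (Real.exp_pos _)) Finset.univ_nonempty
  have d0 : ∀ (x : Cube n) (r : ℝ), HasDerivAt (fun r : ℝ => π x * Real.exp (r * v x))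
      (π x * Real.exp (r * v x) * v x) r := fun x r => by
    have := (((hasDerivAt_id r).mul_const (v x)).exp).const_mul (π x)
    simpa [mul_assoc] using this
  have d1 : ∀ r : ℝ, HasDerivAt (fun r : ℝ => ∑ x, π x * Real.exp (r * v x))
      (∑ x, π x * Real.exp (r * v x) * v x) r := fun r =>
    HasDerivAt.fun_sum fun x _ => d0 x r
  have d2 : ∀ r : ℝ, HasDerivAt (fun r : ℝ => ∑ x, π x * Real.exp (r * v x) * v x)
      (∑ x, π x * Real.exp (r * v x) * v x * v x) r := fun r =>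
    HasDerivAt.fun_sum fun x _ => (d0 x r).mul_const (v x)
  have d3 : ∀ r : ℝ, HasDerivAt (fun r : ℝ => C * r -
      (∑ x, π x * Real.exp (r * v x) * v x) / ∑ x, π x * Real.exp (r * v x))
      (C - ((∑ x, π x * Real.exp (r * v x) * v x * v x) / (∑ x, π x * Real.exp (r * v x)) -
        ((∑ x, π x * Real.exp (r * v x) * v x) / ∑ x, π x * Real.exp (r * v x)) ^ 2)) r :=
    fun r => by
      have h1 := ((hasDerivAt_id r).const_mul C).fun_sub ((d2 r).fun_div (d1 r) (hZ r).ne')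
      refine h1.congr_deriv ?_
      have := (hZ r).ne'
      field_simp
  have d4 : ∀ r : ℝ, HasDerivAt (fun r : ℝ => C * (r * r) / 2 -
      Real.log (∑ x, π x * Real.exp (r * v x))) (C * r -
      (∑ x, π x * Real.exp (r * v x) * v x) / ∑ x, π x * Real.exp (r * v x)) r := fun r => by
    have h1 := ((((hasDerivAt_id r).fun_mul (hasDerivAt_id r)).const_mul C).div_const 2).fun_sub
      ((d1 r).log (hZ r).ne')
    refine h1.congr_deriv ?_
    simp only [id]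
    ring
  have h1 := eb_mono d4 (fun r hr => by
    have := eb_mono d3 (fun r hr => by linarith [hC r hr]) hr
    simpa [h0] using this) (r := 1) ⟨zero_le_one, le_rfl⟩
  simp only [mul_zero, zero_div, zero_mul, Real.exp_zero, mul_one, hπ.2, Real.log_one, sub_zero,
    one_mul] at h1
  linarith

theorem eb_dot_mean (π : Cube n → ℝ) (a : Vec n) : a ⬝ᵥ mean π = ∑ x, π x * (a ⬝ᵥ sv x) := by
  simp only [dotProduct, mean, sv, Finset.mul_sum]
  rw [Finset.sum_comm]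
  exact Finset.sum_congr rfl fun x _ => Finset.sum_congr rfl fun i _ => by ring

theorem eb_vr_eq {ν : Cube n → ℝ} (hν : IsP ν) (a : Vec n) (c : ℝ) :
    vr ν a = ∑ x, ν x * (a ⬝ᵥ sv x - c) * (a ⬝ᵥ sv x - c) - (∑ x, ν x * (a ⬝ᵥ sv x - c)) ^ 2 := by
  have h1 : ∑ x, ν x * (a ⬝ᵥ sv x - c) = a ⬝ᵥ mean ν - c := by
    simp only [mul_sub, Finset.sum_sub_distrib, ← Finset.sum_mul, hν.2, one_mul, eb_dot_mean]
  have h2 : ∀ x, ν x * (a ⬝ᵥ sv x - a ⬝ᵥ mean ν) ^ 2 = ν x * (a ⬝ᵥ sv x - c) * (a ⬝ᵥ sv x - c) -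
      2 * (a ⬝ᵥ mean ν - c) * (ν x * (a ⬝ᵥ sv x - c)) + (a ⬝ᵥ mean ν - c) ^ 2 * ν x :=
    fun x => by ring
  simp only [vr, h2, Finset.sum_add_distrib, Finset.sum_sub_distrib, ← Finset.mul_sum, hν.2, h1]
  ring

theorem eb_tilt_add (hW : ∀ x, 0 < W x) (θ a : Vec n) (r c : ℝ) (x : Cube n) :
    tilt W (θ + r • a) x = tilt W θ x * Real.exp (r * (a ⬝ᵥ sv x - c)) /
      ∑ y, tilt W θ y * Real.exp (r * (a ⬝ᵥ sv y - c)) := by
  have hZ : ∀ θ : Vec n, 0 < ∑ y, W y * Real.exp (θ ⬝ᵥ sv y) := fun θ =>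
    Finset.sum_pos (fun x _ => mul_pos (hW x) (Real.exp_pos _)) Finset.univ_nonempty
  have h1 : ∀ y, tilt W θ y * Real.exp (r * (a ⬝ᵥ sv y - c)) =
      W y * Real.exp ((θ + r • a) ⬝ᵥ sv y) *
        (Real.exp (-(r * c)) / ∑ y, W y * Real.exp (θ ⬝ᵥ sv y)) := fun y => by
    rw [tilt, add_dotProduct, smul_dotProduct, smul_eq_mul, mul_sub, sub_eq_add_neg, Real.exp_add,
      Real.exp_add]
    ring
  simp only [h1, ← Finset.sum_mul]
  rw [mul_div_mul_right _ _ (div_pos (Real.exp_pos _) (hZ θ)).ne', tilt]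

/-- Entropic stability. Let `F = ex f`, `Δ = cov / F`, `t = min (1/K) (δ/2)`. Apply `ex_mul_le_ent`
with `g x = t Δ ⬝ (sv x - mean)`; the function `r ↦ log ∑ π exp (r g)` has second derivative
`vr (tilt W (θ + r t Δ)) (t Δ) ≤ K t² |Δ|²` on `[0,1]`. -/
theorem ent_stab (hW : ∀ x, 0 < W x) (hf : ∀ x, 0 < f x) {K δ : ℝ} (hK : 0 < K) (hδ : 0 < δ)
    (θ : Vec n)
    (h : ∀ a : Vec n, vn a ≤ δ * √(n : ℝ) → ∀ u, vr (tilt W (θ + a)) u ≤ K * (u ⬝ᵥ u)) :
    vn (cov (tilt W θ) f) ^ 2 ≤ 2 * max K (2 / δ) * ex (tilt W θ) f * ent (tilt W θ) f := by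
  have hπ := tilt_isP hW θ
  have hF := ex_pos hπ hf
  have hM : 0 < max K (2 / δ) := lt_max_of_lt_left hK
  have hM1 : K ≤ max K (2 / δ) := le_max_left _ _
  have hM2 : 2 ≤ max K (2 / δ) * δ := (div_le_iff₀ hδ).1 (le_max_right _ _)
  have hc := vn_cov_le hπ hf
  set M := max K (2 / δ)
  set F := ex (tilt W θ) f with hFd
  set a : Vec n := (1 / (M * F)) • cov (tilt W θ) f with ha
  have hMF : 0 < 1 / (M * F) := by positivity
  have hva : vn a = 1 / (M * F) * vn (cov (tilt W θ) f) := by rw [ha, vn_smul, abs_of_pos hMF]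
  have hva' : vn a ≤ δ * √(n : ℝ) := by
    rw [hva, one_div, inv_mul_le_iff₀ (by positivity)]
    have := mul_le_mul_of_nonneg_right hM2 (mul_nonneg hF.le (Real.sqrt_nonneg (n : ℝ)))
    linarith
  have h0 : ∑ x, tilt W θ x * (a ⬝ᵥ sv x - a ⬝ᵥ mean (tilt W θ)) = 0 := by
    simp only [mul_sub, Finset.sum_sub_distrib, ← Finset.sum_mul, hπ.2, one_mul, eb_dot_mean,
      sub_self]
  have h1 := eb_log_mgf hπ h0 (C := K * (a ⬝ᵥ a)) fun r hr => by
    have h2 := h (r • a) (by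
      rw [vn_smul, abs_of_nonneg hr.1]
      exact (mul_le_of_le_one_left (vn_nonneg a) hr.2).trans hva') a
    rw [eb_vr_eq (tilt_isP hW _) a (a ⬝ᵥ mean (tilt W θ))] at h2
    simp only [eb_tilt_add hW θ a r (a ⬝ᵥ mean (tilt W θ)), div_mul_eq_mul_div,
      ← Finset.sum_div] at h2
    exact h2
  have h2 := ex_mul_le_ent hπ hf fun x => a ⬝ᵥ sv x - a ⬝ᵥ mean (tilt W θ)
  have h3 : ∑ x, tilt W θ x * (f x * (a ⬝ᵥ sv x - a ⬝ᵥ mean (tilt W θ))) =
      a ⬝ᵥ cov (tilt W θ) f := by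
    rw [← eb_sum_cov]
    have e : ∀ x, tilt W θ x * (f x * (a ⬝ᵥ sv x - a ⬝ᵥ mean (tilt W θ))) =
        tilt W θ x * (f x - F) * (a ⬝ᵥ sv x) + F * (tilt W θ x * (a ⬝ᵥ sv x)) -
          a ⬝ᵥ mean (tilt W θ) * (tilt W θ x * f x) := fun x => by ring
    have e2 : ∑ x, tilt W θ x * f x = F := rfl
    simp only [e, Finset.sum_add_distrib, Finset.sum_sub_distrib, ← Finset.mul_sum, e2,
      ← eb_dot_mean]
    ring
  have h4 : a ⬝ᵥ cov (tilt W θ) f = 1 / (M * F) * vn (cov (tilt W θ) f) ^ 2 := by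
    rw [ha, smul_dotProduct, dot_self, smul_eq_mul]
  rw [h3, h4] at h2
  rw [dot_self, hva] at h1
  set V := vn (cov (tilt W θ) f)
  have h5 : 1 / (M * F) * V ^ 2 ≤ ent (tilt W θ) f + F * (M * (1 / (M * F) * V) ^ 2 / 2) := by
    refine h2.trans (add_le_add_right (mul_le_mul_of_nonneg_left (h1.trans ?_) hF.le) _)
    exact div_le_div_of_nonneg_right (mul_le_mul_of_nonneg_right hM1 (sq_nonneg _)) zero_le_two
  have e : F * (M * (1 / (M * F) * V) ^ 2 / 2) = 1 / (M * F) * V ^ 2 / 2 := by field_simp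
  rw [e] at h5
  have h6 : V ^ 2 / (2 * M * F) ≤ ent (tilt W θ) f := by
    have : V ^ 2 / (2 * M * F) = 1 / (M * F) * V ^ 2 / 2 := by field_simp
    linarith
  rw [div_le_iff₀ (by positivity)] at h6
  linarith

end Vale.Agent.P150
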