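import Vale.Agent.P150.LLCavAux

/-! Resolvent algebra and cavity formulas (deterministic). The short lemmas are in `LLCavAux`. -/

open MeasureTheory ProbabilityTheory Matrix Filter Topology
open scoped ENNReal NNReal

namespace Vale.Agent.P150

variable {n : ℕ}

namespace LLCav

/-! ### Trace bounds -/

/-- A bound of trace-norm type. -/
def Tb (R : Mat n) (C : ℝ) : Prop := ∀ M : Mat n, |(M * R).trace| ≤ C * opn M

section
variable {R R' N : Mat n} {C C' K : ℝ}

lemma Tb.add (h : Tb R C) (h' : Tb R' C') : Tb (R + R') (C + C') := fun M => by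
  rw [Matrix.mul_add, trace_add, add_mul]
  exact (abs_add_le _ _).trans (add_le_add (h M) (h' M))

lemma Tb.left (h : Tb R C) (hC : 0 ≤ C) (hN : opn N ≤ K) : Tb (N * R) (C * K) := fun M => by
  rw [← Matrix.mul_assoc, mul_assoc C, mul_comm K]
  exact (h _).trans (mul_le_mul_of_nonneg_left ((opn_mul_le _ _).trans
    (mul_le_mul_of_nonneg_left hN (opn_nonneg _))) hC)

lemma Tb.right (h : Tb R C) (hC : 0 ≤ C) (hN : opn N ≤ K) : Tb (R * N) (C * K) := fun M => by
  rw [← Matrix.mul_assoc, trace_mul_comm, ← Matrix.mul_assoc, mul_assoc C]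
  exact (h _).trans (mul_le_mul_of_nonneg_left ((opn_mul_le _ _).trans
    (mul_le_mul_of_nonneg_right hN (opn_nonneg _))) hC)

lemma Tb.smul (h : Tb R C) {κ : ℝ} (hκ : κ ∈ Set.Icc (0 : ℝ) 1) : Tb (κ • R) C := fun M => by
  rw [Matrix.mul_smul, trace_smul, smul_eq_mul, abs_mul, abs_of_nonneg hκ.1]
  exact (mul_le_of_le_one_left (abs_nonneg _) hκ.2).trans (h M)

lemma Tb.trace (h : Tb R C) (hC : 0 ≤ C) : |R.trace| ≤ C := by
  have := h 1
  rw [Matrix.one_mul] at this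
  exact this.trans (mul_le_of_le_one_right hC opn_one_le)

lemma tb_rank (u v : Vec n) : Tb (vecMulVec u v) (vn v * vn u) := fun M => by
  rw [mul_vecMulVec, trace_vecMulVec, dotProduct_comm]
  exact (abs_dot_mulVec_le M v u).trans (le_of_eq (by ring))

lemma Tb.mono (h : Tb R C) (hC : C ≤ C') : Tb R C' := fun M =>
  (h M).trans (mul_le_mul_of_nonneg_right hC (opn_nonneg _))

end

lemma vn_single (i : Fin n) : vn (Pi.single i 1 : Vec n) = 1 := by simp [vn, Pi.single_apply]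

lemma tb_mn {J : Mat n} (hJ3 : opn J ≤ 3) (i : Fin n) : Tb (J - mn J i) 6 := by
  have e : J - mn J i = vecMulVec (Pi.single i 1) (fun k => J i k) +
      vecMulVec (colv J i) (Pi.single i 1) := by
    ext j k
    by_cases hj : j = i <;> by_cases hk : k = i <;> simp [mn, colv, vecMulVec, hj, hk]
  have h1 : vn (colv J i) ≤ 3 := (vn_mono (v := fun j => J j i) fun j => by
    by_cases hj : j = i <;> simp [colv, hj]).trans ((vn_col_le J i).trans hJ3)
  have h2 := (vn_row_le J i).trans hJ3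
  rw [e]
  refine ((tb_rank _ _).add (tb_rank _ _)).mono ?_
  rw [vn_single]
  linarith

section
variable {c β κ κ' δ : ℝ} {J : Mat n} {D D' : Vec n}

lemma Hyp.left_inv (h : Hyp c β κ J D) : xmat β κ J D * am β κ J D = 1 :=
  mul_eq_one_comm.1 h.adm.2.2

lemma Hyp.res (h : Hyp c β κ J D) (i : Fin n) : xmat β κ J D - xmat β κ (mn J i) D =
    κ • (xmat β κ J D * (J - mn J i) * xmat β κ (mn J i) D) := by
  have e : am β κ (mn J i) D - am β κ J D = κ • (J - mn J i) := by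
    simp only [am, lmat]
    module
  rw [← Matrix.smul_mul, ← Matrix.mul_smul, ← e, Matrix.mul_sub, Matrix.sub_mul, h.left_inv,
    Matrix.mul_assoc, (h.cut i).adm.2.2, Matrix.mul_one, Matrix.one_mul]

lemma Hyp.trace_th (h : Hyp c β κ J D) (i : Fin n) (s : Fin 3) :
    |(th β κ J D s).trace - (th β κ (mn J i) D s).trace| ≤ 42 * (31 * (1 / c) ^ 2) ^ 3 := by
  have hk := (one_le_k h.hc h.hc1).1.trans (one_le_k h.hc h.hc1).2
  have hx := h.opn_x
  have hx' := (h.cut i).opn_x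
  have hJ' := (h.cut i).hJ3
  have hR := tb_mn h.hJ3 i
  have e := h.res i
  generalize 31 * (1 / c) ^ 2 = k at hx hx' hk
  have hd : Tb (xmat β κ J D - xmat β κ (mn J i) D) (6 * k * k) := by
    rw [e]
    exact ((hR.left (by norm_num) hx).right (by positivity) hx').smul h.hκ
  have h2 : 1 ≤ k ^ 2 := one_le_pow₀ hk
  have h3 : k ^ 2 ≤ k ^ 3 := pow_le_pow_right₀ hk (by norm_num)
  rw [← trace_sub]
  refine Tb.trace ?_ (by positivity)
  fin_cases s
  · exact hd.mono (by nlinarith)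
  · have e1 : xmat β κ J D * xmat β κ J D - xmat β κ (mn J i) D * xmat β κ (mn J i) D =
        (xmat β κ J D - xmat β κ (mn J i) D) * xmat β κ J D +
          xmat β κ (mn J i) D * (xmat β κ J D - xmat β κ (mn J i) D) := by noncomm_ring
    change Tb (xmat β κ J D * xmat β κ J D - xmat β κ (mn J i) D * xmat β κ (mn J i) D) _
    rw [e1]
    exact ((hd.right (by positivity) hx).add (hd.left (by positivity) hx')).mono (by nlinarith)
  · have e1 : xmat β κ J D * J * xmat β κ J D -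
        xmat β κ (mn J i) D * mn J i * xmat β κ (mn J i) D =
        (xmat β κ J D - xmat β κ (mn J i) D) * J * xmat β κ J D +
          xmat β κ (mn J i) D * (J - mn J i) * xmat β κ J D +
          xmat β κ (mn J i) D * (mn J i * (xmat β κ J D - xmat β κ (mn J i) D)) := by noncomm_ring
    change Tb (xmat β κ J D * J * xmat β κ J D -
        xmat β κ (mn J i) D * mn J i * xmat β κ (mn J i) D) _
    rw [e1]
    exact ((((hd.right (by positivity) h.hJ3).right (by positivity) hx).add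
      ((hR.left (by norm_num) hx').right (by positivity) hx)).add
      ((hd.left (by positivity) hJ').left (by positivity) hx')).mono (by nlinarith)

/-- The cavity quadratic forms centred with the full traces. -/
noncomputable def eps (β κ : ℝ) (J : Mat n) (D : Vec n) (i : Fin n) (s : Fin 3) : ℝ :=
  colv J i ⬝ᵥ th β κ (mn J i) D s *ᵥ colv J i - β ^ 2 * tr (th β κ J D s)

lemma Hyp.eps_sub (h : Hyp c β κ J D) (i : Fin n) (s : Fin 3) :
    |eps β κ J D i s - cav β J i (th β κ (mn J i) D s)| ≤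
      400 * (31 * (1 / c) ^ 2) ^ 3 * (1 / n) := by
  have hk := (one_le_k h.hc h.hc1).1.trans (one_le_k h.hc h.hc1).2
  have h1 := h.trace_th i s
  have h2 := ((ms_th (δ := 0) (h.cut i) (h.cut i) (by simp) (by simp) s).entry i).1
  have e : eps β κ J D i s - cav β J i (th β κ (mn J i) D s) =
      β ^ 2 * (-((th β κ J D s).trace - (th β κ (mn J i) D s).trace) - th β κ (mn J i) D s i i) *
        (1 / n) := by
    rw [eps, cav, tr]; ring
  generalize 31 * (1 / c) ^ 2 = k at h1 h2 hk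
  have h3 : k ^ 2 ≤ k ^ 3 := pow_le_pow_right₀ hk (by norm_num)
  have h4 : 0 ≤ k ^ 2 := sq_nonneg k
  rw [e, abs_mul, abs_mul, abs_of_nonneg (sq_nonneg β), abs_of_nonneg (by positivity : 0 ≤ 1 / (n : ℝ))]
  refine mul_le_mul_of_nonneg_right ((mul_le_of_le_one_left (abs_nonneg _) h.hβ).trans
    ((abs_sub _ _).trans ?_)) (by positivity)
  rw [abs_neg]
  linarith

/-! ### The cavity identities -/

lemma mulVec_split (hJ : J.IsSymm) (i : Fin n) (v : Vec n) : J *ᵥ v = mn J i *ᵥ v +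
    (colv J i ⬝ᵥ v + J i i * v i) • (Pi.single i 1 : Vec n) + v i • colv J i := by
  have e : J = mn J i + vecMulVec (Pi.single i 1) (colv J i + J i i • (Pi.single i 1 : Vec n)) +
      vecMulVec (colv J i) (Pi.single i 1) := by
    ext j k
    by_cases hj : j = i <;> by_cases hk : k = i <;> simp [mn, colv, vecMulVec, hj, hk, hJ.apply]
  conv_lhs => rw [e]
  simp only [add_mulVec, vecMulVec_mulVec, op_smul_eq_smul]
  simp

lemma diag_mul (M N : Mat n) (i : Fin n) :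
    (M * N) i i = (Mᵀ *ᵥ Pi.single i 1) ⬝ᵥ (N *ᵥ Pi.single i 1) := by
  simp [Matrix.mul_apply, dotProduct]

lemma Hyp.cavity (h : Hyp c β κ J D) (i : Fin n) : ∃ z : Vec n, z i = 0 ∧
    z = xmat β κ (mn J i) D *ᵥ colv J i ∧
    J *ᵥ Pi.single i 1 = colv J i + J i i • (Pi.single i 1 : Vec n) ∧
    z ⬝ᵥ J *ᵥ z = z ⬝ᵥ mn J i *ᵥ z ∧
    (ymat β κ J D)ᵀ *ᵥ Pi.single i 1 = ymat β κ J D i i • ((Pi.single i 1 : Vec n) + κ • z) ∧
    xmat β κ J D *ᵥ J *ᵥ Pi.single i 1 =
      z + (J i i + κ * (colv J i ⬝ᵥ z)) • xmat β κ J D *ᵥ Pi.single i 1 := by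
  obtain ⟨z, hz⟩ : ∃ z, z = xmat β κ (mn J i) D *ᵥ colv J i := ⟨_, rfl⟩
  have hb := (b_mem h.hβ h.hD h.hκ).1
  have hDi := (h.hD i).1
  have ha : colv J i i = 0 := by simp [colv]
  have h1 : am β κ (mn J i) D *ᵥ z = colv J i := by
    rw [hz, mulVec_mulVec, (h.cut i).adm.2.2, one_mulVec]
  have hz0 : z i = 0 := by
    have h2 := congrFun h1 i
    have h3 : (mn J i *ᵥ z) i = 0 := by simp [mulVec, dotProduct, mn]
    rw [am_mulVec, ha] at h2
    simp only [Pi.add_apply, Pi.sub_apply, Pi.smul_apply, mulVec_diagonal, h3, smul_eq_mul,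
      mul_zero, sub_zero] at h2
    rw [← add_mul] at h2
    exact (mul_eq_zero.1 h2).resolve_left (by positivity)
  have hJe : J *ᵥ Pi.single i 1 = colv J i + J i i • (Pi.single i 1 : Vec n) := by
    funext j
    by_cases hj : j = i <;> simp [colv, hj]
  have hJz : J *ᵥ z = mn J i *ᵥ z + (colv J i ⬝ᵥ z) • (Pi.single i 1 : Vec n) := by
    rw [mulVec_split h.hJ i z, hz0]; simp
  have hAz : am β κ J D *ᵥ z = colv J i - (κ * (colv J i ⬝ᵥ z)) • (Pi.single i 1 : Vec n) := by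
    rw [am_mulVec] at h1 ⊢
    rw [hJz, ← h1]
    module
  have hDe : diagonal (fun j => 1 / D j) *ᵥ Pi.single i 1 = (1 / D i) • (Pi.single i 1 : Vec n) := by
    funext j
    by_cases hj : j = i <;> simp [hj]
  have hA : am β κ J D *ᵥ ((Pi.single i 1 : Vec n) + κ • z) =
      (1 / D i + κ ^ 2 * β ^ 2 * avg D - κ * J i i - κ * (κ * (colv J i ⬝ᵥ z))) •
        (Pi.single i 1 : Vec n) := by
    rw [mulVec_add, mulVec_smul, hAz, am_mulVec, hDe, hJe]
    module
  have hζ := congrArg (xmat β κ J D *ᵥ ·) hA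
  simp only [mulVec_mulVec, h.left_inv, one_mulVec, mulVec_smul] at hζ
  have hs := congrFun hζ i
  simp only [Pi.add_apply, Pi.single_eq_same, Pi.smul_apply, hz0, smul_eq_mul, mul_zero, add_zero,
    mulVec_single_one, col_apply] at hs
  have hχ : xmat β κ J D *ᵥ Pi.single i 1 =
      xmat β κ J D i i • ((Pi.single i 1 : Vec n) + κ • z) := by
    rw [hζ, smul_smul, mul_comm, ← hs, one_smul]
  have hχa := congrArg (xmat β κ J D *ᵥ ·) hAz
  simp only [mulVec_mulVec, h.left_inv, one_mulVec, mulVec_smul, mulVec_sub] at hχa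
  refine ⟨z, hz0, hz, hJe, ?_, ?_, ?_⟩
  · rw [hJz]; simp [hz0]
  · have h2 : diagonal D *ᵥ Pi.single i 1 = D i • (Pi.single i 1 : Vec n) := by
      funext j
      by_cases hj : j = i <;> simp [hj]
    have h3 : xmat β κ J D i i = D i * ymat β κ J D i i := by simp [xmat]
    rw [← h.yt, ← mulVec_mulVec, h2, mulVec_smul, h.yt, h3, mul_smul] at hχ
    exact smul_right_injective _ hDi.ne' hχ
  · rw [hJe, mulVec_add, mulVec_smul, hχa]
    rw [← hχa]
    have : xmat β κ J D *ᵥ colv J i =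
        z + (κ * (colv J i ⬝ᵥ z)) • xmat β κ J D *ᵥ Pi.single i 1 := by
      rw [← sub_eq_iff_eq_add]; exact hχa.symm
    rw [this]
    module

/-- The coefficient of the diagonal entry. -/
noncomputable def pc (β κ : ℝ) (J : Mat n) (D : Vec n) (i : Fin n) : Fin 3 → ℝ :=
  ![ymat β κ J D i i, (xmat β κ J D * 1 * (ymat β κ J D)ᵀ) i i,
    (xmat β κ J D * J * (ymat β κ J D)ᵀ) i i]

/-- The coefficients of the centred forms. -/
noncomputable def qc (β κ : ℝ) (J : Mat n) (D : Vec n) (i : Fin n) : Fin 3 → Fin 3 → ℝ :=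
  ![![κ * pc β κ J D i 0, 0, 0], ![κ * pc β κ J D i 1, κ * pc β κ J D i 0, 0],
    ![pc β κ J D i 0 + κ * pc β κ J D i 2, 0, κ * pc β κ J D i 0]]

lemma Hyp.ee_eq (h : Hyp c β κ J D) (i : Fin n) (t : Fin 3) : ee β κ J D (t, i) =
    pc β κ J D i t * J i i + ∑ s, qc β κ J D i t s * eps β κ J D i s := by
  obtain ⟨z, hz0, hz, hJe, hzz, hY, hX⟩ := h.cavity i
  have ha : colv J i i = 0 := by simp [colv]
  have hs := (h.cut i).symm
  have e0 : eps β κ J D i 0 = colv J i ⬝ᵥ z - β ^ 2 * tr (xmat β κ J D) := by rw [hz]; rfl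
  have hzS : ∀ S : Mat n, colv J i ⬝ᵥ (xmat β κ (mn J i) D * S * xmat β κ (mn J i) D) *ᵥ colv J i =
      z ⬝ᵥ S *ᵥ z := fun S => by
    rw [← mulVec_mulVec, ← mulVec_mulVec, dotProduct_mulVec, ← mulVec_transpose, hs, ← hz]
  have e1 : eps β κ J D i 1 = z ⬝ᵥ z - β ^ 2 * tr (xmat β κ J D * 1 * xmat β κ J D) := by
    have := hzS 1
    rw [Matrix.mul_one, one_mulVec] at this
    rw [Matrix.mul_one, ← this]; rfl
  have e2 : eps β κ J D i 2 = z ⬝ᵥ J *ᵥ z - β ^ 2 * tr (xmat β κ J D * J * xmat β κ J D) := by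
    rw [hzz, ← hzS]; rfl
  have hB : ∀ S : Mat n, (J * xmat β κ J D * S * (ymat β κ J D)ᵀ) i i =
      ymat β κ J D i i * (z ⬝ᵥ S *ᵥ Pi.single i 1 + κ * (z ⬝ᵥ S *ᵥ z)) +
        (J i i + κ * (colv J i ⬝ᵥ z)) * (xmat β κ J D * S * (ymat β κ J D)ᵀ) i i := fun S => by
    rw [Matrix.mul_assoc _ S, diag_mul (J * xmat β κ J D), Matrix.mul_assoc _ S,
      diag_mul (xmat β κ J D), transpose_mul, h.symm, h.hJ.eq, ← mulVec_mulVec, hX,
      add_dotProduct, smul_dotProduct, smul_eq_mul]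
    congr 1
    rw [← mulVec_mulVec, hY, mulVec_smul, mulVec_add, mulVec_smul, dotProduct_smul,
      dotProduct_add, dotProduct_smul, smul_eq_mul, smul_eq_mul]
  rw [Fin.sum_univ_three, e0, e1, e2]
  fin_cases t
  · change eA β κ J D i = _
    rw [eA, diag_mul, h.hJ.eq, hJe, hY]
    simp [pc, qc, ha, hz0]
    ring
  · change eB β κ J D 0 1 i = _
    rw [eB, hB, one_mulVec]
    simp [pc, qc, hz0]
    ring
  · change eB β κ J D 1 J i = _
    rw [eB, hB, hJe]
    simp [pc, qc, hz0, dotProduct_comm z (colv J i)]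
    ring

lemma st_coef (h : Hyp c β κ J D) (h' : Hyp c β κ' J D') (hκ : |κ - κ'| ≤ δ)
    (hD : ∀ i, |D i - D' i| ≤ δ) (i : Fin n) (t : Fin 3) :
    St (400 * (31 * (1 / c) ^ 2) ^ 3) δ (pc β κ J D i t) (pc β κ' J D' i t) ∧
      ∀ s, St (400 * (31 * (1 / c) ^ 2) ^ 3) δ (qc β κ J D i t s) (qc β κ' J D' i t s) := by
  have hδ := (abs_nonneg _).trans hκ
  have hx := ms_x h h' hκ hD
  have hk := (one_le_k h.hc h.hc1).1.trans (one_le_k h.hc h.hc1).2
  generalize 31 * (1 / c) ^ 2 = k at hx hk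
  have hy : MS (13 * k) δ (ymat β κ J D) (ymat β κ' J D') := by
    rw [ymat_eq h.adm.1, ymat_eq h'.adm.1]
    exact ((MS.const opn_one_le hδ).add ((ms_l h h' hκ hD).mul hx)).mono hδ (by linarith)
  have h2 : k ≤ k ^ 2 := by nlinarith
  have h3 : k ^ 2 ≤ k ^ 3 := pow_le_pow_right₀ hk (by norm_num)
  have hκκ : St 1 δ κ κ' := ⟨(abs_of_nonneg h.hκ.1).trans_le h.hκ.2,
    (abs_of_nonneg h'.hκ.1).trans_le h'.hκ.2, by simpa⟩
  have p0 : St (13 * k) δ (pc β κ J D i 0) (pc β κ' J D' i 0) := hy.entry i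
  have p1 : St (156 * k ^ 2) δ (pc β κ J D i 1) (pc β κ' J D' i 1) :=
    (((hx.mul (MS.const (opn_one_le.trans (by norm_num : (1 : ℝ) ≤ 3)) hδ)).mul
      hy.transpose).entry i).mono hδ (le_of_eq (by ring))
  have p2 : St (156 * k ^ 2) δ (pc β κ J D i 2) (pc β κ' J D' i 2) :=
    (((hx.mul (MS.const h.hJ3 hδ)).mul hy.transpose).entry i).mono hδ (le_of_eq (by ring))
  have q0 := (hκκ.mul p0).mono hδ (K' := 400 * k ^ 3) (by linarith)
  have q1 := (hκκ.mul p1).mono hδ (K' := 400 * k ^ 3) (by linarith)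
  have q2 := (p0.add (hκκ.mul p2)).mono hδ (K' := 400 * k ^ 3) (by linarith)
  have q3 := St.zero (K := 400 * k ^ 3) hδ (by positivity)
  refine ⟨?_, fun s => ?_⟩
  · fin_cases t
    · exact p0.mono hδ (by linarith)
    · exact p1.mono hδ (by linarith)
    · exact p2.mono hδ (by linarith)
  · fin_cases t <;> fin_cases s
    exacts [q0, q3, q3, q1, q0, q3, q2, q3, q0]

end

lemma cav_sub (β : ℝ) (J : Mat n) (i : Fin n) (Θ Θ' : Mat n) :
    cav β J i (Θ - Θ') = cav β J i Θ - cav β J i Θ' := by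
  simp only [cav, sub_mulVec, dotProduct_sub, trace_sub, Matrix.sub_apply]
  ring

lemma final {K δ r p p' j : ℝ} {q q' E E' w w' : Fin 3 → ℝ} (hK : 1 ≤ K) (hδ : 0 ≤ δ) (hr : 0 ≤ r)
    (hp : St K δ p p') (hq : ∀ s, St K δ (q s) (q' s)) (hE : ∀ s, |E s - w s| ≤ K * r)
    (hE' : ∀ s, |E' s - w' s| ≤ K * r) :
    |p * j + ∑ s, q s * E s| ≤ 6 * K ^ 2 * (|j| + ∑ s, |w s| + r) ∧
    |p * j + ∑ s, q s * E s - (p' * j + ∑ s, q' s * E' s)| ≤
      6 * K ^ 2 * (δ * (|j| + ∑ s, |w s|) + ∑ s, |w s - w' s| + r) := by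
  have hK0 : 0 ≤ K := by linarith
  have hK6 : K ≤ 6 * K ^ 2 := by nlinarith
  have hw : 0 ≤ ∑ s, |w s| := Finset.sum_nonneg fun _ _ => abs_nonneg _
  have hw' : 0 ≤ ∑ s, |w s - w' s| := Finset.sum_nonneg fun _ _ => abs_nonneg _
  have m : ∀ {x y a b : ℝ}, |x| ≤ a → |y| ≤ b → |x * y| ≤ a * b := fun hx hy =>
    (abs_mul _ _).trans_le (mul_le_mul hx hy (abs_nonneg _) ((abs_nonneg _).trans hx))
  constructor
  · have h1 : ∀ s, |q s * E s| ≤ K * |w s| + K * (K * r) := fun s => by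
      have e : q s * E s = q s * w s + q s * (E s - w s) := by ring
      rw [e]
      exact (abs_add_le _ _).trans (add_le_add (m (hq s).1 le_rfl) (m (hq s).1 (hE s)))
    have h2 := (Finset.abs_sum_le_sum_abs _ _).trans (Finset.sum_le_sum fun s (_ : s ∈ Finset.univ) => h1 s)
    rw [Finset.sum_add_distrib, ← Finset.mul_sum] at h2
    simp only [Finset.sum_const, Finset.card_univ, Fintype.card_fin, nsmul_eq_mul] at h2
    have h3 := m hp.1 (le_refl |j|)
    have h4 := mul_le_mul_of_nonneg_right hK6 (add_nonneg (abs_nonneg j) hw)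
    have h5 := mul_nonneg (sq_nonneg K) hr
    refine (abs_add_le _ _).trans ?_
    push_cast at h2
    nlinarith
  · have h1 : ∀ s, |q s * E s - q' s * E' s| ≤
        K * δ * |w s| + K * |w s - w' s| + 2 * (K * (K * r)) := fun s => by
      have e : q s * E s - q' s * E' s = (q s - q' s) * w s + q' s * (w s - w' s) +
        (q s * (E s - w s) - q' s * (E' s - w' s)) := by ring
      rw [e]
      refine (abs_add_le _ _).trans (add_le_add ((abs_add_le _ _).trans (add_le_add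
        (m (hq s).2.2 le_rfl) (m (hq s).2.1 le_rfl))) ((abs_sub _ _).trans ?_))
      linarith [m (hq s).1 (hE s), m (hq s).2.1 (hE' s)]
    have h2 := (Finset.abs_sum_le_sum_abs _ _).trans (Finset.sum_le_sum fun s (_ : s ∈ Finset.univ) => h1 s)
    rw [Finset.sum_add_distrib, Finset.sum_add_distrib, ← Finset.mul_sum, ← Finset.mul_sum,
      Finset.sum_sub_distrib] at h2
    simp only [Finset.sum_const, Finset.card_univ, Fintype.card_fin, nsmul_eq_mul] at h2
    have h3 := m hp.2.2 (le_refl |j|)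
    have h4 := mul_le_mul_of_nonneg_right hK6
      (add_nonneg (mul_nonneg hδ (add_nonneg (abs_nonneg j) hw)) hw')
    have e : p * j + ∑ s, q s * E s - (p' * j + ∑ s, q' s * E' s) =
        (p - p') * j + (∑ s, q s * E s - ∑ s, q' s * E' s) := by ring
    rw [e]
    refine (abs_add_le _ _).trans ?_
    push_cast at h2
    nlinarith

end LLCav

open LLCav

/-- Cavity representation of the error vectors. Let `χ' = xmat β κ (mn J i) D`, `a = colv J i`,
`z = χ' a` (so `z i = 0`), `ζ = e_i + κ z`, `Q = a ⬝ z`. Then `χ e_i = χ_ii ζ`, `Yᵀ e_i = Y_ii ζ`,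
`χ J e_i = z + χ_ii (J_ii + κ Q) ζ`. With `ε1 = Q - β² tr χ`, `ε2 S = z ⬝ S z - β² tr (χ S χ)`:
`eA i = Y_ii (J_ii + κ ε1)` and
`eB a S i = Y_ii (a ε1 + κ ε2 S) + (χ S Yᵀ)_ii (J_ii + κ ε1)` for `(a,S) = (0,1), (1,J)`.
Since `J - mn J i` is a sum of three rank-one matrices, `ε1`, `ε2` differ from the `cav` terms by
`O(1/n)`. The coefficients `Y_ii`, `(χ S Yᵀ)_ii` are bounded and `O(δ)`-stable. -/
theorem cav_two {c : ℝ} (hc : 0 < c) (hc1 : c ≤ 1) : ∃ C : ℝ, 0 < C ∧
    ∀ (n : ℕ) (β κ κ' δ : ℝ) (J : Mat n) (D D' : Vec n), β ^ 2 ≤ 1 → J.IsSymm → opn J ≤ 3 →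
      Dom D → Dom D' → κ ∈ Set.Icc (0 : ℝ) 1 → κ' ∈ Set.Icc (0 : ℝ) 1 → |κ - κ'| ≤ δ →
      (∀ i, |D i - D' i| ≤ δ) → PosK β κ J c D → PosK β κ' J c D' → ∀ (t : Fin 3) (i : Fin n),
      |ee β κ J D (t, i)| ≤ C * (|J i i| + ∑ s, |cav β J i (th β κ (mn J i) D s)| + 1 / n) ∧
      |ee β κ J D (t, i) - ee β κ' J D' (t, i)| ≤
        C * (δ * (|J i i| + ∑ s, |cav β J i (th β κ (mn J i) D s)|) +
          ∑ s, |cav β J i (th β κ (mn J i) D s - th β κ' (mn J i) D' s)| + 1 / n) := by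
  refine ⟨6 * (400 * (31 * (1 / c) ^ 2) ^ 3) ^ 2, by positivity, ?_⟩
  intro n β κ κ' δ J D D' hβ hJ hJ3 hD hD' hκ hκ' h1 h2 hp hp' t i
  have h : Hyp c β κ J D := ⟨hc, hc1, hβ, hJ, hJ3, hD, hκ, hp⟩
  have h' : Hyp c β κ' J D' := ⟨hc, hc1, hβ, hJ, hJ3, hD', hκ', hp'⟩
  have hk := (one_le_k hc hc1).1.trans (one_le_k hc hc1).2
  have hs := st_coef h h' h1 h2 i t
  simp only [cav_sub]
  rw [h.ee_eq, h'.ee_eq]
  exact final (by linarith [one_le_pow₀ (n := 3) hk]) ((abs_nonneg _).trans h1) (by positivity)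
    hs.1 hs.2 (h.eps_sub i) (h'.eps_sub i)

end Vale.Agent.P150
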