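import Vale.Agent.P150.Objs

/-! Resolvent algebra and cavity formulas (deterministic). -/

open MeasureTheory ProbabilityTheory Matrix Filter Topology
open scoped ENNReal NNReal

namespace Vale.Agent.P150

variable {n : ℕ}

namespace LLCav

lemma avg_nonneg {D : Vec n} (hD : Dom D) : 0 ≤ avg D :=
  div_nonneg (Finset.sum_nonneg fun i _ => (hD i).1.le) (Nat.cast_nonneg _)

lemma abs_avg_le {u : Vec n} {δ : ℝ} (hδ : 0 ≤ δ) (h : ∀ i, |u i| ≤ δ) : |avg u| ≤ δ := by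
  rcases n.eq_zero_or_pos with rfl | hn
  · simpa [avg] using hδ
  have hn' : (0 : ℝ) < n := Nat.cast_pos.2 hn
  rw [avg, abs_div, abs_of_pos hn', div_le_iff₀ hn']
  refine (Finset.abs_sum_le_sum_abs _ _).trans ((Finset.sum_le_sum fun i _ => h i).trans ?_)
  simp [mul_comm]

lemma avg_le_one {D : Vec n} (hD : Dom D) : avg D ≤ 1 :=
  (le_abs_self _).trans (abs_avg_le zero_le_one fun i => by
    rw [abs_of_pos (hD i).1]; exact (hD i).2)

lemma avg_sub (u v : Vec n) : avg (u - v) = avg u - avg v := by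
  simp [avg, Finset.sum_sub_distrib, sub_div]

lemma dot_nonneg (u : Vec n) : 0 ≤ u ⬝ᵥ u := by rw [dot_self]; positivity

lemma dot_le_sum {D : Vec n} (hD : Dom D) (u : Vec n) : u ⬝ᵥ u ≤ ∑ i, u i ^ 2 / D i := by
  rw [dotProduct]
  refine Finset.sum_le_sum fun i _ => ?_
  rw [le_div_iff₀ (hD i).1, ← sq]
  exact mul_le_of_le_one_right (sq_nonneg _) (hD i).2

/-- The matrix whose inverse is `xmat`. -/
noncomputable def am (β κ : ℝ) (J : Mat n) (D : Vec n) : Mat n :=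
  diagonal (fun i => 1 / D i) - lmat β κ J D

lemma am_mulVec (β κ : ℝ) (J : Mat n) (D v : Vec n) : am β κ J D *ᵥ v =
    diagonal (fun i => 1 / D i) *ᵥ v - κ • J *ᵥ v + (κ ^ 2 * β ^ 2 * avg D) • v := by
  simp only [am, lmat, sub_mulVec, smul_mulVec, one_mulVec]
  abel

lemma b_mem {β κ : ℝ} {D : Vec n} (hβ : β ^ 2 ≤ 1) (hD : Dom D) (hκ : κ ∈ Set.Icc (0 : ℝ) 1) :
    0 ≤ κ ^ 2 * β ^ 2 * avg D ∧ κ ^ 2 * β ^ 2 * avg D ≤ 1 :=
  ⟨mul_nonneg (by positivity) (avg_nonneg hD), mul_le_one₀ (mul_le_one₀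
    (pow_le_one₀ hκ.1 hκ.2) (sq_nonneg _) hβ) (avg_nonneg hD) (avg_le_one hD)⟩

lemma opn_smul_one_le (r : ℝ) : opn (r • (1 : Mat n)) ≤ |r| := by
  rw [opn_smul]; exact mul_le_of_le_one_right (abs_nonneg _) opn_one_le

lemma opn_lmat_le {β κ : ℝ} {J : Mat n} {D : Vec n} (hβ : β ^ 2 ≤ 1) (hJ3 : opn J ≤ 3)
    (hD : Dom D) (hκ : κ ∈ Set.Icc (0 : ℝ) 1) : opn (lmat β κ J D) ≤ 4 := by
  have h1 := opn_smul_one_le (n := n) (κ ^ 2 * β ^ 2 * avg D)
  have h2 := b_mem hβ hD hκ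
  rw [abs_of_nonneg h2.1] at h1
  have h3 : opn (κ • J) ≤ 3 := by
    rw [opn_smul, abs_of_nonneg hκ.1]
    exact (mul_le_of_le_one_left (opn_nonneg _) hκ.2).trans hJ3
  rw [lmat]
  linarith [opn_sub_le (κ • J) ((κ ^ 2 * β ^ 2 * avg D) • (1 : Mat n)), h2.2]

lemma lmat_symm (β κ : ℝ) {J : Mat n} (hJ : J.IsSymm) (D : Vec n) :
    (lmat β κ J D)ᵀ = lmat β κ J D := by
  simp [lmat, transpose_sub, transpose_smul, hJ.eq]

end LLCav

open LLCav

theorem posK_of_one {β c κ : ℝ} {J : Mat n} {D : Vec n} (hD : Dom D) (hc : c ≤ 1 - β ^ 2)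
    (h : PosK β 1 J c D) (hκ : κ ∈ Set.Icc (0 : ℝ) 1) : PosK β κ J c D := by
  intro u
  have h1 := mul_le_mul_of_nonneg_left (h u) hκ.1
  have h2 := dot_le_sum hD u
  have h3 := dot_nonneg u
  have h4 : κ * avg D ≤ 1 := mul_le_one₀ hκ.2 (avg_nonneg hD) (avg_le_one hD)
  have h5 : κ * avg D * (β ^ 2 * (u ⬝ᵥ u)) ≤ β ^ 2 * (u ⬝ᵥ u) :=
    mul_le_of_le_one_left (by positivity) h4
  have h6 : c * (u ⬝ᵥ u) ≤ ∑ i, u i ^ 2 / D i - κ * avg D * (β ^ 2 * (u ⬝ᵥ u)) := by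
    nlinarith [mul_le_mul_of_nonneg_right hc h3]
  have h7 := mul_le_mul_of_nonneg_left h6 (sub_nonneg.2 hκ.2)
  nlinarith

theorem posK_of_hess (hn : 0 < n) {β c κ : ℝ} {J : Mat n} {H : Vec n}
    (h : ∀ u, c * (u ⬝ᵥ u) ≤ hess β κ J H u) : PosK β κ J c (dd H) := by
  intro u
  have h1 := h u
  have h2 : ∑ i, Real.cosh (H i) ^ 2 * u i ^ 2 = ∑ i, u i ^ 2 / dd H i :=
    Finset.sum_congr rfl fun i _ => by
      rw [eq_div_iff (dom_dd H i).1.ne']
      linear_combination u i ^ 2 * cosh_sq_mul_dd H i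
  have h3 : 0 ≤ 2 * κ ^ 2 * β ^ 2 * (mag H ⬝ᵥ u) ^ 2 / n := by positivity
  rw [hess, h2, ons_mag hn] at h1
  linarith

/-- With `A = diagonal (1/D) - lmat`, positive definite, `xmat = A⁻¹` and `ymat = 1 + lmat * xmat`. -/
theorem adm_of_posK {β c κ : ℝ} {J : Mat n} {D : Vec n} (hβ : β ^ 2 ≤ 1) (hJ : J.IsSymm)
    (hJ3 : opn J ≤ 3) (hD : Dom D) (hc : 0 < c) (hc1 : c ≤ 1) (hκ : κ ∈ Set.Icc (0 : ℝ) 1)
    (h : PosK β κ J c D) :
    Adm β κ J D (5 / c) ∧ opn (xmat β κ J D) ≤ 1 / c ∧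
      (diagonal (fun i => 1 / D i) - lmat β κ J D) * xmat β κ J D = 1 := by
  have h1 : ∀ u, c * vn u ≤ vn (am β κ J D *ᵥ u) := fun u => by
    have h2 : u ⬝ᵥ diagonal (fun i => 1 / D i) *ᵥ u = ∑ i, u i ^ 2 / D i :=
      Finset.sum_congr rfl fun i _ => by rw [mulVec_diagonal]; ring
    have h3 : c * (u ⬝ᵥ u) ≤ u ⬝ᵥ am β κ J D *ᵥ u := by
      rw [am_mulVec, dotProduct_add, dotProduct_sub, dotProduct_smul, dotProduct_smul, h2]
      have := h u
      simp only [smul_eq_mul]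
      linarith
    have h4 := h3.trans (dot_le _ _)
    rw [dot_self] at h4
    rcases (vn_nonneg u).eq_or_lt with h0 | h0
    · rw [← h0, mul_zero]; exact vn_nonneg _
    · nlinarith
  have hA : IsUnit (am β κ J D) := by
    rw [← mulVec_injective_iff_isUnit]
    intro u v huv
    have h2 := h1 (u - v)
    rw [mulVec_sub, huv, sub_self, vn_zero] at h2
    exact sub_eq_zero.1 (vn_eq_zero (le_antisymm (nonpos_of_mul_nonpos_right h2 hc |> fun h => h)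
      (vn_nonneg _)))
  have hAD : 1 - lmat β κ J D * diagonal D = am β κ J D * diagonal D := by
    rw [am, Matrix.sub_mul, diagonal_mul_diagonal, ← diagonal_one]
    congr 2
    funext i
    rw [one_div, inv_mul_cancel₀ (hD i).1.ne']
  have hU : IsUnit (1 - lmat β κ J D * diagonal D).det := by
    rw [hAD, det_mul, det_diagonal]
    exact ((isUnit_iff_isUnit_det _).1 hA).mul
      (isUnit_iff_ne_zero.2 (Finset.prod_ne_zero_iff.2 fun i _ => (hD i).1.ne'))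
  have hY := mul_nonsing_inv _ hU
  have hX : am β κ J D * xmat β κ J D = 1 := by
    rw [xmat, ← Matrix.mul_assoc, ← hAD]; exact hY
  have hXo : opn (xmat β κ J D) ≤ 1 / c := opn_le (by positivity) fun u => by
    have h2 := h1 (xmat β κ J D *ᵥ u)
    rw [mulVec_mulVec, hX, one_mulVec] at h2
    rw [one_div, inv_mul_eq_div, le_div_iff₀ hc]
    linarith
  refine ⟨⟨hU, ?_⟩, hXo, hX⟩
  have e : ymat β κ J D = 1 + lmat β κ J D * xmat β κ J D := by
    rw [xmat, ← Matrix.mul_assoc, ← sub_eq_iff_eq_add]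
    rw [Matrix.sub_mul, Matrix.one_mul] at hY
    exact hY
  have h2 := opn_add_le 1 (lmat β κ J D * xmat β κ J D)
  have h3 := (opn_mul_le (lmat β κ J D) (xmat β κ J D)).trans
    (mul_le_mul (opn_lmat_le hβ hJ3 hD hκ) hXo (opn_nonneg _) (by norm_num))
  have h4 : 1 ≤ 1 / c := by rw [le_div_iff₀ hc]; linarith
  have h5 : 5 / c = 5 * (1 / c) := by ring
  rw [e]
  linarith [opn_one_le (n := n)]

theorem ymat_eq {β κ K : ℝ} {J : Mat n} {D : Vec n} (h : Adm β κ J D K) :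
    ymat β κ J D = 1 + lmat β κ J D * xmat β κ J D := by
  have hY := mul_nonsing_inv _ h.1
  rw [xmat, ← Matrix.mul_assoc, ← sub_eq_iff_eq_add]
  rw [Matrix.sub_mul, Matrix.one_mul] at hY
  exact hY

theorem xmat_symm {β κ K : ℝ} {J : Mat n} {D : Vec n} (hJ : J.IsSymm) (h : Adm β κ J D K) :
    (xmat β κ J D).IsSymm := by
  set M := 1 - lmat β κ J D * diagonal D with hM
  have h1 : M * M⁻¹ = 1 := mul_nonsing_inv _ h.1
  have h2 : M⁻¹ᵀ * Mᵀ = 1 := by rw [← transpose_mul, h1, transpose_one]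
  have h3 : Mᵀ * diagonal D = diagonal D * M := by
    rw [hM, transpose_sub, transpose_mul, transpose_one, diagonal_transpose, lmat_symm β κ hJ,
      Matrix.sub_mul, Matrix.mul_sub, Matrix.one_mul, Matrix.mul_one, Matrix.mul_assoc]
  change (diagonal D * M⁻¹)ᵀ = diagonal D * M⁻¹
  rw [transpose_mul, diagonal_transpose]
  calc M⁻¹ᵀ * diagonal D = M⁻¹ᵀ * (diagonal D * M) * M⁻¹ := by
        rw [Matrix.mul_assoc, Matrix.mul_assoc, h1, Matrix.mul_one]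
    _ = diagonal D * M⁻¹ := by rw [← h3, ← Matrix.mul_assoc, h2, Matrix.one_mul]

theorem mn_symm {J : Mat n} (hJ : J.IsSymm) (i : Fin n) : (mn J i).IsSymm := by
  ext j k
  simp [mn, or_comm, hJ.apply]

theorem opn_mn_le (J : Mat n) (i : Fin n) : opn (mn J i) ≤ opn J := by
  set P : Mat n := diagonal fun j => if j = i then 0 else 1 with hP
  have e : mn J i = P * J * P := by
    ext j k
    by_cases hj : j = i <;> by_cases hk : k = i <;> simp [mn, hP, hj, hk]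
  have h1 : opn P ≤ 1 := opn_diagonal_le zero_le_one fun j => by split_ifs <;> simp
  rw [e]
  exact (opn_mul_le _ _).trans ((mul_le_of_le_one_right (opn_nonneg _) h1).trans
    ((opn_mul_le _ _).trans (mul_le_of_le_one_left (opn_nonneg _) h1)))

theorem posK_mn {β c κ : ℝ} {J : Mat n} {D : Vec n} (hD : Dom D) (hc1 : c ≤ 1) (i : Fin n)
    (h : PosK β κ J c D) : PosK β κ (mn J i) c D := by
  intro u
  set v : Vec n := fun j => if j = i then 0 else u j with hv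
  have h1 : u ⬝ᵥ mn J i *ᵥ u = v ⬝ᵥ J *ᵥ v := by
    simp only [dotProduct, mulVec, Finset.mul_sum]
    refine Finset.sum_congr rfl fun j _ => Finset.sum_congr rfl fun k _ => ?_
    by_cases hj : j = i <;> by_cases hk : k = i <;> simp [mn, hv, hj, hk]
  have h2 : ∀ f : Vec n, ∑ j, u j ^ 2 * f j = ∑ j, v j ^ 2 * f j + u i ^ 2 * f i := fun f => by
    rw [← Finset.sum_ite_eq_of_mem' Finset.univ i (fun j => u j ^ 2 * f j) (Finset.mem_univ i),
      ← Finset.sum_add_distrib]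
    refine Finset.sum_congr rfl fun j _ => ?_
    by_cases hj : j = i <;> simp [hv, hj]
  have h3 : u ⬝ᵥ u = v ⬝ᵥ v + u i ^ 2 := by simpa [dotProduct, sq] using h2 1
  have h4 : ∑ j, u j ^ 2 / D j = ∑ j, v j ^ 2 / D j + u i ^ 2 / D i := by
    simpa [div_eq_mul_inv] using h2 fun j => (D j)⁻¹
  have h5 : u i ^ 2 ≤ u i ^ 2 / D i := by
    rw [le_div_iff₀ (hD i).1]
    exact mul_le_of_le_one_right (sq_nonneg _) (hD i).2
  have h6 : 0 ≤ κ ^ 2 * β ^ 2 * avg D * u i ^ 2 :=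
    mul_nonneg (mul_nonneg (by positivity) (avg_nonneg hD)) (sq_nonneg _)
  have h7 := h v
  rw [h1, h3, h4]
  nlinarith [mul_le_mul_of_nonneg_right hc1 (sq_nonneg (u i))]

namespace LLCav

/-- Bounded and stable pairs of matrices. -/
def MS (K δ : ℝ) (M M' : Mat n) : Prop := opn M ≤ K ∧ opn M' ≤ K ∧ opn (M - M') ≤ K * δ

/-- Bounded and stable pairs of numbers. -/
def St (K δ x x' : ℝ) : Prop := |x| ≤ K ∧ |x'| ≤ K ∧ |x - x'| ≤ K * δ

section
variable {K K' δ : ℝ} {M M' N N' : Mat n} {x x' y y' : ℝ}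

lemma MS.mono (h : MS K δ M M') (hδ : 0 ≤ δ) (hK : K ≤ K') : MS K' δ M M' :=
  ⟨h.1.trans hK, h.2.1.trans hK, h.2.2.trans (mul_le_mul_of_nonneg_right hK hδ)⟩

lemma MS.const (h : opn M ≤ K) (hδ : 0 ≤ δ) : MS K δ M M :=
  ⟨h, h, by rw [sub_self, opn_zero]; exact mul_nonneg ((opn_nonneg _).trans h) hδ⟩

lemma MS.add (h : MS K δ M M') (h' : MS K' δ N N') : MS (K + K') δ (M + N) (M' + N') := by
  refine ⟨(opn_add_le _ _).trans (add_le_add h.1 h'.1),
    (opn_add_le _ _).trans (add_le_add h.2.1 h'.2.1), ?_⟩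
  rw [add_sub_add_comm, add_mul]
  exact (opn_add_le _ _).trans (add_le_add h.2.2 h'.2.2)

lemma MS.mul (h : MS K δ M M') (h' : MS K' δ N N') : MS (2 * K * K') δ (M * N) (M' * N') := by
  have hK := (opn_nonneg _).trans h.1
  have hK' := (opn_nonneg _).trans h'.1
  have h0 := mul_nonneg hK hK'
  have h1 := (opn_mul_le M N).trans (mul_le_mul h.1 h'.1 (opn_nonneg _) hK)
  have h2 := (opn_mul_le M' N').trans (mul_le_mul h.2.1 h'.2.1 (opn_nonneg _) hK)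
  refine ⟨by linarith, by linarith, ?_⟩
  have e : M * N - M' * N' = (M - M') * N + M' * (N - N') := by
    rw [Matrix.sub_mul, Matrix.mul_sub]; abel
  have h3 := (opn_mul_le (M - M') N).trans
    (mul_le_mul h.2.2 h'.1 (opn_nonneg _) ((opn_nonneg _).trans h.2.2))
  have h4 := (opn_mul_le M' (N - N')).trans (mul_le_mul h.2.1 h'.2.2 (opn_nonneg _) hK)
  rw [e]
  linarith [opn_add_le ((M - M') * N) (M' * (N - N'))]

lemma MS.transpose (h : MS K δ M M') : MS K δ Mᵀ M'ᵀ := by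
  simpa only [MS, ← transpose_sub, opn_transpose] using h

lemma MS.entry (h : MS K δ M M') (i : Fin n) : St K δ (M i i) (M' i i) :=
  ⟨(abs_entry_le _ _ _).trans h.1, (abs_entry_le _ _ _).trans h.2.1,
    (abs_entry_le (M - M') i i).trans h.2.2⟩

lemma St.mono (h : St K δ x x') (hδ : 0 ≤ δ) (hK : K ≤ K') : St K' δ x x' :=
  ⟨h.1.trans hK, h.2.1.trans hK, h.2.2.trans (mul_le_mul_of_nonneg_right hK hδ)⟩

lemma St.zero (hδ : 0 ≤ δ) (hK : 0 ≤ K) : St K δ 0 0 :=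
  ⟨by simpa, by simpa, by simpa using mul_nonneg hK hδ⟩

lemma St.add (h : St K δ x x') (h' : St K' δ y y') : St (K + K') δ (x + y) (x' + y') := by
  refine ⟨(abs_add_le _ _).trans (add_le_add h.1 h'.1),
    (abs_add_le _ _).trans (add_le_add h.2.1 h'.2.1), ?_⟩
  rw [add_sub_add_comm, add_mul]
  exact (abs_add_le _ _).trans (add_le_add h.2.2 h'.2.2)

lemma St.mul (h : St K δ x x') (h' : St K' δ y y') : St (2 * K * K') δ (x * y) (x' * y') := by
  have hK := (abs_nonneg _).trans h.1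
  have hK' := (abs_nonneg _).trans h'.1
  have h0 := mul_nonneg hK hK'
  have h1 := (abs_mul x y).trans_le (mul_le_mul h.1 h'.1 (abs_nonneg _) hK)
  have h2 := (abs_mul x' y').trans_le (mul_le_mul h.2.1 h'.2.1 (abs_nonneg _) hK)
  refine ⟨by linarith, by linarith, ?_⟩
  have e : x * y - x' * y' = (x - x') * y + x' * (y - y') := by ring
  have h3 := (abs_mul (x - x') y).trans_le
    (mul_le_mul h.2.2 h'.1 (abs_nonneg _) ((abs_nonneg _).trans h.2.2))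
  have h4 := (abs_mul x' (y - y')).trans_le (mul_le_mul h.2.1 h'.2.2 (abs_nonneg _) hK)
  rw [e]
  linarith [abs_add_le ((x - x') * y) (x' * (y - y'))]

end

/-- The standing hypotheses for one pair of parameters. -/
structure Hyp (c β κ : ℝ) (J : Mat n) (D : Vec n) : Prop where
  hc : 0 < c
  hc1 : c ≤ 1
  hβ : β ^ 2 ≤ 1
  hJ : J.IsSymm
  hJ3 : opn J ≤ 3
  hD : Dom D
  hκ : κ ∈ Set.Icc (0 : ℝ) 1
  pos : PosK β κ J c D

section
variable {c β κ κ' δ : ℝ} {J : Mat n} {D D' : Vec n}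

lemma Hyp.adm (h : Hyp c β κ J D) : Adm β κ J D (5 / c) ∧ opn (xmat β κ J D) ≤ 1 / c ∧
    am β κ J D * xmat β κ J D = 1 :=
  adm_of_posK h.hβ h.hJ h.hJ3 h.hD h.hc h.hc1 h.hκ h.pos

lemma Hyp.cut (h : Hyp c β κ J D) (i : Fin n) : Hyp c β κ (mn J i) D :=
  ⟨h.hc, h.hc1, h.hβ, mn_symm h.hJ i, (opn_mn_le J i).trans h.hJ3, h.hD, h.hκ,
    posK_mn h.hD h.hc1 i h.pos⟩

lemma Hyp.symm (h : Hyp c β κ J D) : (xmat β κ J D)ᵀ = xmat β κ J D := xmat_symm h.hJ h.adm.1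

lemma Hyp.yt (h : Hyp c β κ J D) : (ymat β κ J D)ᵀ * diagonal D = xmat β κ J D := by
  rw [← h.symm, xmat, transpose_mul, diagonal_transpose]

lemma Hyp.yt_eq (h : Hyp c β κ J D) : (ymat β κ J D)ᵀ = 1 + xmat β κ J D * lmat β κ J D := by
  rw [ymat_eq h.adm.1, transpose_add, transpose_mul, transpose_one, h.symm, lmat_symm β κ h.hJ]

lemma one_le_k (hc : 0 < c) (hc1 : c ≤ 1) : 1 ≤ 1 / c ∧ 1 / c ≤ 31 * (1 / c) ^ 2 := by
  have h4 : 1 ≤ 1 / c := by rw [le_div_iff₀ hc]; linarith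
  exact ⟨h4, by nlinarith⟩

lemma Hyp.opn_x (h : Hyp c β κ J D) : opn (xmat β κ J D) ≤ 31 * (1 / c) ^ 2 :=
  h.adm.2.1.trans (one_le_k h.hc h.hc1).2

lemma ms_l (h : Hyp c β κ J D) (h' : Hyp c β κ' J D') (hκ : |κ - κ'| ≤ δ)
    (hD : ∀ i, |D i - D' i| ≤ δ) : MS 6 δ (lmat β κ J D) (lmat β κ' J D') := by
  have hδ := (abs_nonneg _).trans hκ
  refine ⟨(opn_lmat_le h.hβ h.hJ3 h.hD h.hκ).trans (by norm_num),
    (opn_lmat_le h'.hβ h'.hJ3 h'.hD h'.hκ).trans (by norm_num), ?_⟩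
  have e : lmat β κ J D - lmat β κ' J D' = (κ - κ') • J -
      (β ^ 2 * ((κ - κ') * ((κ + κ') * avg D) + κ' ^ 2 * avg (D - D'))) • (1 : Mat n) := by
    rw [avg_sub, lmat, lmat]
    module
  have h1 : opn ((κ - κ') • J) ≤ δ * 3 := by
    rw [opn_smul]; exact mul_le_mul hκ h.hJ3 (opn_nonneg _) hδ
  have h2 : |(κ - κ') * ((κ + κ') * avg D)| ≤ δ * 2 := by
    rw [abs_mul]
    refine mul_le_mul hκ ?_ (abs_nonneg _) hδ
    rw [abs_of_nonneg (mul_nonneg (add_nonneg h.hκ.1 h'.hκ.1) (avg_nonneg h.hD))]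
    exact (mul_le_of_le_one_right (add_nonneg h.hκ.1 h'.hκ.1) (avg_le_one h.hD)).trans
      (by linarith [h.hκ.2, h'.hκ.2])
  have h3 : |κ' ^ 2 * avg (D - D')| ≤ δ := by
    rw [abs_mul, abs_of_nonneg (sq_nonneg κ')]
    exact (mul_le_of_le_one_left (abs_nonneg _) (pow_le_one₀ h'.hκ.1 h'.hκ.2)).trans
      (abs_avg_le hδ hD)
  have h4 : |β ^ 2 * ((κ - κ') * ((κ + κ') * avg D) + κ' ^ 2 * avg (D - D'))| ≤ δ * 2 + δ := by
    rw [abs_mul, abs_of_nonneg (sq_nonneg β)]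
    exact (mul_le_of_le_one_left (abs_nonneg _) h.hβ).trans ((abs_add_le _ _).trans
      (add_le_add h2 h3))
  rw [e]
  refine (opn_sub_le _ _).trans ?_
  linarith [(opn_smul_one_le (n := n) _).trans h4]

lemma ms_x (h : Hyp c β κ J D) (h' : Hyp c β κ' J D') (hκ : |κ - κ'| ≤ δ)
    (hD : ∀ i, |D i - D' i| ≤ δ) : MS (31 * (1 / c) ^ 2) δ (xmat β κ J D) (xmat β κ' J D') := by
  have hδ := (abs_nonneg _).trans hκ
  have hc := h.hc
  refine ⟨h.opn_x, h'.opn_x, ?_⟩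
  have e : xmat β κ J D - xmat β κ' J D' =
      (ymat β κ J D)ᵀ * diagonal (D - D') * ymat β κ' J D' +
        xmat β κ J D * (lmat β κ J D - lmat β κ' J D') * xmat β κ' J D' := by
    have e1 : diagonal (D - D') = diagonal D - diagonal D' := (diagonal_sub D D').symm
    have e2 : diagonal D' * ymat β κ' J D' = xmat β κ' J D' := rfl
    rw [e1, Matrix.mul_sub, Matrix.sub_mul, h.yt, Matrix.mul_assoc _ (diagonal D'), e2,
      h.yt_eq, ymat_eq h'.adm.1]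
    noncomm_ring
  have h1 : opn ((ymat β κ J D)ᵀ * diagonal (D - D') * ymat β κ' J D') ≤ 5 / c * δ * (5 / c) :=
    (opn_mul_le _ _).trans (mul_le_mul ((opn_mul_le _ _).trans (mul_le_mul
      ((opn_transpose _).trans_le h.adm.1.2) (opn_diagonal_le hδ hD) (opn_nonneg _)
      (by positivity))) h'.adm.1.2 (opn_nonneg _) (by positivity))
  have h2 : opn (xmat β κ J D * (lmat β κ J D - lmat β κ' J D') * xmat β κ' J D') ≤
      1 / c * (6 * δ) * (1 / c) :=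
    (opn_mul_le _ _).trans (mul_le_mul ((opn_mul_le _ _).trans (mul_le_mul h.adm.2.1
      (ms_l h h' hκ hD).2.2 (opn_nonneg _) (by positivity))) h'.adm.2.1 (opn_nonneg _)
      (by positivity))
  rw [e]
  refine (opn_add_le _ _).trans ((add_le_add h1 h2).trans (le_of_eq ?_))
  ring

lemma ms_th (h : Hyp c β κ J D) (h' : Hyp c β κ' J D') (hκ : |κ - κ'| ≤ δ)
    (hD : ∀ i, |D i - D' i| ≤ δ) (t : Fin 3) :
    MS (12 * (31 * (1 / c) ^ 2) ^ 2) δ (th β κ J D t) (th β κ' J D' t) := by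
  have hδ := (abs_nonneg _).trans hκ
  have hx := ms_x h h' hκ hD
  have hk := (one_le_k h.hc h.hc1).1.trans (one_le_k h.hc h.hc1).2
  generalize 31 * (1 / c) ^ 2 = k at hx hk
  fin_cases t
  · exact hx.mono hδ (by nlinarith)
  · exact (hx.mul hx).mono hδ (by nlinarith)
  · exact ((hx.mul (MS.const h.hJ3 hδ)).mul hx).mono hδ (by nlinarith)

end

end LLCav

/-- Norm bounds for the cavity matrices. The difference of two resolvents is
`χ - χ' = Yᵀ (D - D') Y' + χ (L - L') χ'`. -/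
theorem th_bound {c : ℝ} (hc : 0 < c) (hc1 : c ≤ 1) : ∃ C : ℝ, 0 < C ∧
    ∀ (n : ℕ) (β κ κ' δ : ℝ) (J : Mat n) (D D' : Vec n), β ^ 2 ≤ 1 → J.IsSymm → opn J ≤ 3 →
      Dom D → Dom D' → κ ∈ Set.Icc (0 : ℝ) 1 → κ' ∈ Set.Icc (0 : ℝ) 1 → |κ - κ'| ≤ δ →
      (∀ i, |D i - D' i| ≤ δ) → PosK β κ J c D → PosK β κ' J c D' →
      ∀ t, opn (th β κ J D t) ≤ C ∧ opn (th β κ J D t - th β κ' J D' t) ≤ C * δ := by
  refine ⟨12 * (31 * (1 / c) ^ 2) ^ 2, by positivity, ?_⟩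
  intro n β κ κ' δ J D D' hβ hJ hJ3 hD hD' hκ hκ' h1 h2 hp hp' t
  have := ms_th ⟨hc, hc1, hβ, hJ, hJ3, hD, hκ, hp⟩ ⟨hc, hc1, hβ, hJ, hJ3, hD', hκ', hp'⟩ h1 h2 t
  exact ⟨this.1, this.2.2⟩

end Vale.Agent.P150
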