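import Vale.Agent.P150.LLCav

/-! Mixed Lipschitz bounds for the error vectors (deterministic). -/

open MeasureTheory ProbabilityTheory Matrix Filter Topology
open scoped ENNReal NNReal

namespace Vale.Agent.P150

variable {n : ℕ}

namespace LLQ

theorem abs_tr_le (A : Mat n) : |tr A| ≤ opn A := by
  rcases Nat.eq_zero_or_pos n with rfl | hn
  · simpa [tr] using opn_nonneg A
  · have h : (0 : ℝ) < n := by exact_mod_cast hn
    rw [tr, abs_div, abs_of_pos h, div_le_iff₀ h, mul_comm]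
    exact abs_trace_le_opn A

theorem tr_diagonal (u : Vec n) : tr (diagonal u) = avg u := by simp [tr, avg]

theorem abs_avg_le' {u : Vec n} {c : ℝ} (hc : 0 ≤ c) (h : ∀ i, |u i| ≤ c) : |avg u| ≤ c := by
  rw [← tr_diagonal]
  exact (abs_tr_le _).trans (opn_diagonal_le hc h)

theorem avg_sub' (u v : Vec n) : avg (u - v) = avg u - avg v := by
  simp [avg, Finset.sum_sub_distrib, sub_div]

theorem dom_abs_le {D : Vec n} (h : Dom D) (i : Fin n) : |D i| ≤ 1 := by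
  rw [abs_of_pos (h i).1]; exact (h i).2

theorem opn_smul_one_le (c : ℝ) : opn (c • (1 : Mat n)) ≤ |c| := by
  rw [opn_smul]
  exact mul_le_of_le_one_right (abs_nonneg c) opn_one_le

theorem opn_sub_comm (A B : Mat n) : opn (A - B) = opn (B - A) := by rw [← opn_neg, neg_sub]

theorem opn_mul_le' {A B : Mat n} {a b : ℝ} (hA : opn A ≤ a) (hB : opn B ≤ b) :
    opn (A * B) ≤ a * b :=
  (opn_mul_le A B).trans (mul_le_mul hA hB (opn_nonneg B) ((opn_nonneg A).trans hA))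

theorem fro_mul_le_left' {A B : Mat n} {a b : ℝ} (hA : opn A ≤ a) (hB : fro B ≤ b) :
    fro (A * B) ≤ a * b :=
  (fro_mul_le_left A B).trans (mul_le_mul hA hB (fro_nonneg B) ((opn_nonneg A).trans hA))

theorem fro_mul_le_right' {A B : Mat n} {a b : ℝ} (hA : fro A ≤ a) (hB : opn B ≤ b) :
    fro (A * B) ≤ a * b :=
  (fro_mul_le_right A B).trans (mul_le_mul hA hB (opn_nonneg B) ((fro_nonneg A).trans hA))

end LLQ

open LLQ

/-- Stability of admissibility: `1 - L' D' = (1 - E Y) (1 - L D)` with `opn E ≤ 10 δ`. -/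
theorem adm_stab {β κ κ' δ K : ℝ} {J : Mat n} {D D' : Vec n} (hβ : β ^ 2 ≤ 1) (hJ3 : opn J ≤ 3)
    (hD : Dom D) (hD' : Dom D') (hκ : κ ∈ Set.Icc (0 : ℝ) 1) (hκ' : κ' ∈ Set.Icc (0 : ℝ) 1)
    (h1 : |κ - κ'| ≤ δ) (h2 : ∀ i, |D i - D' i| ≤ δ) (hK : 20 * K * δ ≤ 1)
    (h : Adm β κ J D K) : Adm β κ' J D' (2 * K) := by
  have hδ : 0 ≤ δ := (abs_nonneg _).trans h1
  have hK0 : 0 ≤ K := (opn_nonneg _).trans h.2
  have ha := abs_le.1 (abs_avg_le' zero_le_one (dom_abs_le hD))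
  have ha' := abs_le.1 (abs_avg_le' zero_le_one (dom_abs_le hD'))
  have hb := abs_avg_le' (u := D - D') hδ h2
  rw [avg_sub'] at hb
  have hβ0 := sq_nonneg β
  have hL : opn (lmat β κ J D) ≤ 4 := by
    refine (opn_sub_le _ _).trans ?_
    have e1 : opn (κ • J) ≤ 1 * 3 := by
      rw [opn_smul, abs_of_nonneg hκ.1]
      exact mul_le_mul hκ.2 hJ3 (opn_nonneg _) zero_le_one
    have e2 := opn_smul_one_le (n := n) (κ ^ 2 * β ^ 2 * avg D)
    have e3 : |κ ^ 2 * β ^ 2 * avg D| ≤ 1 := by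
      rw [abs_mul, abs_of_nonneg (by positivity)]
      exact mul_le_one₀ (mul_le_one₀ (pow_le_one₀ hκ.1 hκ.2) hβ0 hβ) (abs_nonneg _) (abs_le.2 ha)
    linarith
  have hL' : opn (lmat β κ' J D' - lmat β κ J D) ≤ 6 * δ := by
    have e0 : lmat β κ' J D' - lmat β κ J D = (κ' - κ) • J +
        (β ^ 2 * (κ ^ 2 * (avg D - avg D') + (κ - κ') * ((κ + κ') * avg D'))) • (1 : Mat n) := by
      simp only [lmat]
      module
    rw [e0]
    refine (opn_add_le _ _).trans ?_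
    have e1 : opn ((κ' - κ) • J) ≤ δ * 3 := by
      rw [opn_smul, abs_sub_comm]
      exact mul_le_mul h1 hJ3 (opn_nonneg _) hδ
    have e2 := opn_smul_one_le (n := n)
      (β ^ 2 * (κ ^ 2 * (avg D - avg D') + (κ - κ') * ((κ + κ') * avg D')))
    have e3 : |κ ^ 2 * (avg D - avg D')| ≤ 1 * δ := by
      rw [abs_mul, abs_of_nonneg (sq_nonneg κ)]
      exact mul_le_mul (pow_le_one₀ hκ.1 hκ.2) hb (abs_nonneg _) zero_le_one
    have e4 : |(κ - κ') * ((κ + κ') * avg D')| ≤ δ * (2 * 1) := by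
      rw [abs_mul, abs_mul, abs_of_nonneg (add_nonneg hκ.1 hκ'.1)]
      exact mul_le_mul h1 (mul_le_mul (by linarith [hκ.2, hκ'.2]) (abs_le.2 ha') (abs_nonneg _)
        (by norm_num)) (mul_nonneg (add_nonneg hκ.1 hκ'.1) (abs_nonneg _)) hδ
    have e5 : |β ^ 2 * (κ ^ 2 * (avg D - avg D') + (κ - κ') * ((κ + κ') * avg D'))| ≤
        1 * (1 * δ + δ * (2 * 1)) := by
      rw [abs_mul, abs_of_nonneg hβ0]
      exact mul_le_mul hβ ((abs_add_le _ _).trans (add_le_add e3 e4)) (abs_nonneg _) zero_le_one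
    linarith
  set M := 1 - lmat β κ J D * diagonal D with hM
  set M' := 1 - lmat β κ' J D' * diagonal D' with hM'
  have hE : opn (M - M') ≤ 10 * δ := by
    have e0 : M - M' = (lmat β κ' J D' - lmat β κ J D) * diagonal D' -
        lmat β κ J D * diagonal (D - D') := by
      rw [hM, hM', show diagonal (D - D') = diagonal D - diagonal D' from (diagonal_sub _ _).symm]
      noncomm_ring
    rw [e0]
    refine (opn_sub_le _ _).trans ?_
    have e1 := opn_mul_le' hL' (opn_diagonal_le zero_le_one (dom_abs_le hD'))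
    have e2 := opn_mul_le' hL (opn_diagonal_le (d := D - D') hδ h2)
    linarith
  have key : ∀ u, vn u ≤ 2 * K * vn (M' *ᵥ u) := fun u => by
    have e0 : u = M⁻¹ *ᵥ (M' *ᵥ u) + (M⁻¹ * (M - M')) *ᵥ u := by
      rw [mulVec_mulVec, ← add_mulVec, ← Matrix.mul_add, add_sub_cancel,
        nonsing_inv_mul _ h.1, one_mulVec]
    have e1 : vn (M⁻¹ *ᵥ (M' *ᵥ u)) ≤ K * vn (M' *ᵥ u) :=
      (vn_mulVec_le _ _).trans (mul_le_mul_of_nonneg_right h.2 (vn_nonneg _))
    have e2 : vn ((M⁻¹ * (M - M')) *ᵥ u) ≤ K * (10 * δ) * vn u :=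
      (vn_mulVec_le _ _).trans (mul_le_mul_of_nonneg_right (opn_mul_le' h.2 hE) (vn_nonneg _))
    have e3 := vn_add_le (M⁻¹ *ᵥ (M' *ᵥ u)) ((M⁻¹ * (M - M')) *ᵥ u)
    rw [← e0] at e3
    have e4 : K * (10 * δ) * vn u ≤ 1 / 2 * vn u :=
      mul_le_mul_of_nonneg_right (by linarith) (vn_nonneg _)
    linarith
  have hu : IsUnit M'.det := by
    rw [← isUnit_iff_isUnit_det, ← mulVec_injective_iff_isUnit]
    intro u v huv
    have e0 := key (u - v)
    rw [mulVec_sub, huv, sub_self, vn_zero, mul_zero] at e0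
    exact sub_eq_zero.1 (vn_eq_zero (le_antisymm e0 (vn_nonneg _)))
  refine ⟨hu, opn_le (by positivity) fun u => ?_⟩
  have e0 := key (M'⁻¹ *ᵥ u)
  rwa [mulVec_mulVec, mul_nonsing_inv _ hu, one_mulVec] at e0

namespace LLQ

/-- Bounds at four corners. -/
structure Quad (K δ r : ℝ) (a b c d : Mat n) : Prop where
  oa : opn a ≤ K
  ob : opn b ≤ K
  oc : opn c ≤ K
  od : opn d ≤ K
  ab : opn (a - b) ≤ K * δ
  cd : opn (c - d) ≤ K * δ
  ac : fro (a - c) ≤ K * r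
  bd : fro (b - d) ≤ K * r
  all : fro (a - b - c + d) ≤ K * δ * r

namespace Quad

variable {K K' δ r : ℝ} {a b c d a' b' c' d' : Mat n}

theorem mono (h : Quad K δ r a b c d) (hK : K ≤ K') (hδ : 0 ≤ δ) (hr : 0 ≤ r) :
    Quad K' δ r a b c d :=
  ⟨h.oa.trans hK, h.ob.trans hK, h.oc.trans hK, h.od.trans hK,
    h.ab.trans (mul_le_mul_of_nonneg_right hK hδ), h.cd.trans (mul_le_mul_of_nonneg_right hK hδ),
    h.ac.trans (mul_le_mul_of_nonneg_right hK hr), h.bd.trans (mul_le_mul_of_nonneg_right hK hr),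
    h.all.trans (mul_le_mul_of_nonneg_right (mul_le_mul_of_nonneg_right hK hδ) hr)⟩

theorem add (h : Quad K δ r a b c d) (h' : Quad K' δ r a' b' c' d') :
    Quad (K + K') δ r (a + a') (b + b') (c + c') (d + d') := by
  refine ⟨(opn_add_le _ _).trans (add_le_add h.oa h'.oa), (opn_add_le _ _).trans
    (add_le_add h.ob h'.ob), (opn_add_le _ _).trans (add_le_add h.oc h'.oc),
    (opn_add_le _ _).trans (add_le_add h.od h'.od), ?_, ?_, ?_, ?_, ?_⟩
  · rw [add_sub_add_comm, add_mul]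
    exact (opn_add_le _ _).trans (add_le_add h.ab h'.ab)
  · rw [add_sub_add_comm, add_mul]
    exact (opn_add_le _ _).trans (add_le_add h.cd h'.cd)
  · rw [add_sub_add_comm, add_mul]
    exact (fro_add_le _ _).trans (add_le_add h.ac h'.ac)
  · rw [add_sub_add_comm, add_mul]
    exact (fro_add_le _ _).trans (add_le_add h.bd h'.bd)
  · rw [show a + a' - (b + b') - (c + c') + (d + d') = a - b - c + d + (a' - b' - c' + d') by abel,
      add_mul, add_mul]
    exact (fro_add_le _ _).trans (add_le_add h.all h'.all)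

theorem map (T : Mat n →+ Mat n) (h1 : ∀ A, opn (T A) ≤ opn A) (h2 : ∀ A, fro (T A) ≤ fro A)
    (h : Quad K δ r a b c d) : Quad K δ r (T a) (T b) (T c) (T d) := by
  refine ⟨(h1 _).trans h.oa, (h1 _).trans h.ob, (h1 _).trans h.oc, (h1 _).trans h.od,
    ?_, ?_, ?_, ?_, ?_⟩
  · rw [← map_sub]; exact (h1 _).trans h.ab
  · rw [← map_sub]; exact (h1 _).trans h.cd
  · rw [← map_sub]; exact (h2 _).trans h.ac
  · rw [← map_sub]; exact (h2 _).trans h.bd
  · rw [← map_sub, ← map_sub, ← map_add]; exact (h2 _).trans h.all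

theorem mul (h : Quad K δ r a b c d) (h' : Quad K' δ r a' b' c' d') :
    Quad (4 * (K * K')) δ r (a * a') (b * b') (c * c') (d * d') := by
  have hK : 0 ≤ K := (opn_nonneg _).trans h.oa
  have hK' : 0 ≤ K' := (opn_nonneg _).trans h'.oa
  have h0 : 0 ≤ K * K' := mul_nonneg hK hK'
  have e : ∀ x y x' y' : Mat n, x * x' - y * y' = (x - y) * x' + y * (x' - y') := fun _ _ _ _ => by
    noncomm_ring
  have f1 : ∀ {x x' : Mat n}, opn x ≤ K → opn x' ≤ K' → opn (x * x') ≤ 4 * (K * K') :=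
    fun hx hx' => (opn_mul_le' hx hx').trans (by linarith)
  have f2 : ∀ {x y x' y' : Mat n}, opn y ≤ K → opn x' ≤ K' → opn (x - y) ≤ K * δ →
      opn (x' - y') ≤ K' * δ → opn (x * x' - y * y') ≤ 4 * (K * K') * δ := by
    intro x y x' y' g1 g2 g3 g4
    have g5 := opn_mul_le' g3 g2
    have g6 := opn_mul_le' g1 g4
    have g7 := (opn_nonneg _).trans g5
    rw [e]
    refine (opn_add_le _ _).trans ?_
    linarith
  have f3 : ∀ {x y x' y' : Mat n}, opn y ≤ K → opn x' ≤ K' → fro (x - y) ≤ K * r →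
      fro (x' - y') ≤ K' * r → fro (x * x' - y * y') ≤ 4 * (K * K') * r := by
    intro x y x' y' g1 g2 g3 g4
    have g5 := fro_mul_le_right' g3 g2
    have g6 := fro_mul_le_left' g1 g4
    have g7 := (fro_nonneg _).trans g5
    rw [e]
    refine (fro_add_le _ _).trans ?_
    linarith
  refine ⟨f1 h.oa h'.oa, f1 h.ob h'.ob, f1 h.oc h'.oc, f1 h.od h'.od, f2 h.ob h'.oa h.ab h'.ab,
    f2 h.od h'.oc h.cd h'.cd, f3 h.oc h'.oa h.ac h'.ac, f3 h.od h'.ob h.bd h'.bd, ?_⟩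
  have e0 : a * a' - b * b' - c * c' + d * d' = (a - b - c + d) * a' + (b - d) * (a' - b') +
      (c - d) * (a' - c') + d * (a' - b' - c' + d') := by noncomm_ring
  have g1 := fro_mul_le_right' h.all h'.oa
  have g2 := fro_mul_le_right' h.bd h'.ab
  have g3 := fro_mul_le_left' h.cd h'.ac
  have g4 := fro_mul_le_left' h.od h'.all
  rw [e0]
  refine (fro_add_le _ _).trans ((add_le_add ((fro_add_le _ _).trans
    (add_le_add (fro_add_le _ _) le_rfl)) le_rfl).trans ?_)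
  linarith

theorem inv (h : Quad K δ r a b c d) (hK' : 1 ≤ K') (hK : 1 ≤ K) (hδ : 0 ≤ δ) (hr : 0 ≤ r)
    (ua : IsUnit a.det) (ub : IsUnit b.det) (uc : IsUnit c.det) (ud : IsUnit d.det)
    (ia : opn a⁻¹ ≤ K') (ib : opn b⁻¹ ≤ K') (ic : opn c⁻¹ ≤ K') (id : opn d⁻¹ ≤ K') :
    Quad (3 * (K' * K * K' * K * K')) δ r a⁻¹ b⁻¹ c⁻¹ d⁻¹ := by
  have e : ∀ {x y : Mat n}, IsUnit x.det → IsUnit y.det → x⁻¹ - y⁻¹ = -(x⁻¹ * (x - y) * y⁻¹) :=
    fun {x y} hx hy => by
      rw [Matrix.mul_sub, nonsing_inv_mul _ hx, Matrix.sub_mul, Matrix.mul_assoc,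
        mul_nonsing_inv _ hy, Matrix.one_mul, Matrix.mul_one, neg_sub]
  have k1 : 1 ≤ K * K' := one_le_mul_of_one_le_of_one_le hK hK'
  have k2 : K' ≤ K' * K * K' := by nlinarith
  have k3 : K' * K * K' ≤ K' * K * K' * K * K' := by nlinarith
  have f2 : ∀ {x y : Mat n}, IsUnit x.det → IsUnit y.det → opn x⁻¹ ≤ K' → opn y⁻¹ ≤ K' →
      opn (x - y) ≤ K * δ → opn (x⁻¹ - y⁻¹) ≤ K' * K * K' * δ := by
    intro x y g1 g2 g3 g4 g5
    rw [e g1 g2, opn_neg]
    exact (opn_mul_le' (opn_mul_le' g3 g5) g4).trans (le_of_eq (by ring))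
  have f3 : ∀ {x y : Mat n}, IsUnit x.det → IsUnit y.det → opn x⁻¹ ≤ K' → opn y⁻¹ ≤ K' →
      fro (x - y) ≤ K * r → fro (x⁻¹ - y⁻¹) ≤ K' * K * K' * r := by
    intro x y g1 g2 g3 g4 g5
    rw [e g1 g2, fro_neg]
    exact (fro_mul_le_right' (fro_mul_le_left' g3 g5) g4).trans (le_of_eq (by ring))
  have k4 : K' * K * K' ≤ 3 * (K' * K * K' * K * K') := by linarith
  have k5 := mul_le_mul_of_nonneg_right k4 hδ
  have k6 := mul_le_mul_of_nonneg_right k4 hr
  refine ⟨by linarith, by linarith, by linarith, by linarith, (f2 ua ub ia ib h.ab).trans k5,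
    (f2 uc ud ic id h.cd).trans k5, (f3 ua uc ia ic h.ac).trans k6,
    (f3 ub ud ib id h.bd).trans k6, ?_⟩
  have e0 : a⁻¹ - b⁻¹ - c⁻¹ + d⁻¹ = -(a⁻¹ * (a - b - c + d) * b⁻¹ + (a⁻¹ - c⁻¹) * (c - d) * b⁻¹ +
      c⁻¹ * (c - d) * (b⁻¹ - d⁻¹)) := by
    rw [show a⁻¹ - b⁻¹ - c⁻¹ + d⁻¹ = a⁻¹ - b⁻¹ - (c⁻¹ - d⁻¹) by abel, e ua ub, e uc ud]
    noncomm_ring
  have g1 := fro_mul_le_right' (fro_mul_le_left' ia h.all) ib
  have g2 := fro_mul_le_right' (fro_mul_le_right' (f3 ua uc ia ic h.ac) h.cd) ib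
  have g3 := fro_mul_le_left' (opn_mul_le' ic h.cd) (f3 ub ud ib id h.bd)
  have g4 := mul_le_mul_of_nonneg_right k3 (mul_nonneg hδ hr)
  rw [e0, fro_neg]
  refine (fro_add_le _ _).trans ((add_le_add (fro_add_le _ _) le_rfl).trans ?_)
  linarith

theorem par (hr : 0 ≤ r) (ha : opn a ≤ 1) (hb : opn b ≤ 1) (h : opn (a - b) ≤ δ) :
    Quad 1 δ r a b a b := by
  have hδ : 0 ≤ δ := (opn_nonneg _).trans h
  refine ⟨ha, hb, ha, hb, by linarith, by linarith, ?_, ?_, ?_⟩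
  · rw [sub_self, fro_zero]; linarith
  · rw [sub_self, fro_zero]; linarith
  · rw [show a - b - a + b = 0 by abel, fro_zero]; positivity

end Quad

/-- The hypotheses on the four corners. -/
structure QH (K β κ κ' δ : ℝ) (J J₀ : Mat n) (D D' : Vec n) : Prop where
  hβ : β ^ 2 ≤ 1
  hJ : opn J ≤ 3
  hJ₀ : opn J₀ ≤ 3
  hD : Dom D
  hD' : Dom D'
  hκ : κ ∈ Set.Icc (0 : ℝ) 1
  hκ' : κ' ∈ Set.Icc (0 : ℝ) 1
  h1 : |κ - κ'| ≤ δ
  h2 : ∀ i, |D i - D' i| ≤ δ
  a1 : Adm β κ J D K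
  a2 : Adm β κ' J D' K
  a3 : Adm β κ J₀ D K
  a4 : Adm β κ' J₀ D' K

/-- Matrix valued functions of the parameters. -/
abbrev MF : Type := ∀ n : ℕ, ℝ → ℝ → Mat n → Vec n → Mat n

/-- Uniform four-corner bounds. -/
def QF (K : ℝ) (F : MF) : Prop :=
  ∃ C : ℝ, 1 ≤ C ∧ ∀ (n : ℕ) (β κ κ' δ : ℝ) (J J₀ : Mat n) (D D' : Vec n),
    QH K β κ κ' δ J J₀ D D' →
      Quad C δ (fro (J - J₀)) (F n β κ J D) (F n β κ' J D') (F n β κ J₀ D) (F n β κ' J₀ D')

namespace QF

variable {K : ℝ} {F G : MF}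

theorem add (hF : QF K F) (hG : QF K G) : QF K fun n β κ J D => F n β κ J D + G n β κ J D := by
  obtain ⟨C, hC, h⟩ := hF
  obtain ⟨C', hC', h'⟩ := hG
  exact ⟨C + C', by linarith, fun n β κ κ' δ J J₀ D D' H =>
    (h n β κ κ' δ J J₀ D D' H).add (h' n β κ κ' δ J J₀ D D' H)⟩

theorem mul (hF : QF K F) (hG : QF K G) : QF K fun n β κ J D => F n β κ J D * G n β κ J D := by
  obtain ⟨C, hC, h⟩ := hF
  obtain ⟨C', hC', h'⟩ := hG
  exact ⟨4 * (C * C'), by nlinarith, fun n β κ κ' δ J J₀ D D' H =>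
    (h n β κ κ' δ J J₀ D D' H).mul (h' n β κ κ' δ J J₀ D D' H)⟩

theorem map (T : ∀ n, Mat n →+ Mat n) (h1 : ∀ n A, opn (T n A) ≤ opn A)
    (h2 : ∀ n A, fro (T n A) ≤ fro A) (hF : QF K F) :
    QF K fun n β κ J D => T n (F n β κ J D) := by
  obtain ⟨C, hC, h⟩ := hF
  exact ⟨C, hC, fun n β κ κ' δ J J₀ D D' H => (h n β κ κ' δ J J₀ D D' H).map _ (h1 n) (h2 n)⟩

theorem sub (hF : QF K F) (hG : QF K G) : QF K fun n β κ J D => F n β κ J D - G n β κ J D := by
  have := hF.add (hG.map (fun _ => negAddMonoidHom) (fun _ A => (opn_neg A).le)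
    fun _ A => (fro_neg A).le)
  simpa only [negAddMonoidHom_apply, ← sub_eq_add_neg] using this

theorem transpose (hF : QF K F) : QF K fun n β κ J D => (F n β κ J D)ᵀ :=
  hF.map (fun n => (transposeAddEquiv (Fin n) (Fin n) ℝ).toAddMonoidHom)
    (fun _ A => (opn_transpose A).le) fun _ A => (fro_transpose A).le

theorem trace (hF : QF K F) : QF K fun n β κ J D => tr (F n β κ J D) • (1 : Mat n) := by
  refine hF.map (fun n => AddMonoidHom.mk' (fun A => tr A • (1 : Mat n)) fun A B => by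
    rw [← add_smul, tr, tr, tr, trace_add, add_div])
    (fun _ A => (opn_smul_one_le _).trans (abs_tr_le A)) fun n A => ?_
  change fro (tr A • (1 : Mat n)) ≤ fro A
  rcases Nat.eq_zero_or_pos n with rfl | hn
  · simpa [tr, fro_zero] using fro_nonneg A
  · have h : (0 : ℝ) < n := by exact_mod_cast hn
    have h1 : fro (1 : Mat n) ≤ 1 * √(n : ℝ) :=
      (fro_le_opn _).trans (mul_le_mul_of_nonneg_right opn_one_le (Real.sqrt_nonneg _))
    rw [fro_smul, tr, abs_div, abs_of_pos h]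
    refine (mul_le_mul (div_le_div_of_nonneg_right (abs_trace_le A) h.le) h1 (fro_nonneg _)
      (div_nonneg (mul_nonneg (Real.sqrt_nonneg _) (fro_nonneg _)) h.le)).trans (le_of_eq ?_)
    have h2 := Real.mul_self_sqrt h.le
    field_simp
    rw [sq, h2, mul_comm]

theorem one : QF K fun n _ _ _ _ => (1 : Mat n) :=
  ⟨1, le_rfl, fun _ _ _ _ _ _ _ _ _ H => Quad.par (fro_nonneg _) opn_one_le opn_one_le
    (by rw [sub_self, opn_zero]; exact (abs_nonneg _).trans H.h1)⟩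

theorem beta : QF K fun n β _ _ _ => β ^ 2 • (1 : Mat n) :=
  ⟨1, le_rfl, fun n β _ _ _ _ _ _ _ H => by
    have h : opn (β ^ 2 • (1 : Mat n)) ≤ 1 :=
      (opn_smul_one_le _).trans (by rw [abs_of_nonneg (sq_nonneg β)]; exact H.hβ)
    exact Quad.par (fro_nonneg _) h h
      (by rw [sub_self, opn_zero]; exact (abs_nonneg _).trans H.h1)⟩

theorem kappa : QF K fun n _ κ _ _ => κ • (1 : Mat n) :=
  ⟨1, le_rfl, fun _ _ _ _ _ _ _ _ _ H => Quad.par (fro_nonneg _)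
    ((opn_smul_one_le _).trans (by rw [abs_of_nonneg H.hκ.1]; exact H.hκ.2))
    ((opn_smul_one_le _).trans (by rw [abs_of_nonneg H.hκ'.1]; exact H.hκ'.2))
    (by rw [← sub_smul]; exact (opn_smul_one_le _).trans H.h1)⟩

theorem diag : QF K fun _ _ _ _ D => diagonal D :=
  ⟨1, le_rfl, fun _ _ _ _ _ _ _ _ _ H => Quad.par (fro_nonneg _)
    (opn_diagonal_le zero_le_one (dom_abs_le H.hD)) (opn_diagonal_le zero_le_one (dom_abs_le H.hD'))
    (by rw [diagonal_sub]; exact opn_diagonal_le ((abs_nonneg _).trans H.h1) H.h2)⟩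

theorem jmat : QF K fun _ _ _ J _ => J :=
  ⟨3, by norm_num, fun _ _ _ _ δ J J₀ _ _ H => by
    have hδ : 0 ≤ δ := (abs_nonneg _).trans H.h1
    have hr := fro_nonneg (J - J₀)
    refine ⟨H.hJ, H.hJ, H.hJ₀, H.hJ₀, ?_, ?_, by linarith, by linarith, ?_⟩
    · rw [sub_self, opn_zero]; positivity
    · rw [sub_self, opn_zero]; positivity
    · rw [show J - J - J₀ + J₀ = 0 by abel, fro_zero]; positivity⟩

theorem congr (hF : QF K F) (h : ∀ n β κ J D, G n β κ J D = F n β κ J D) : QF K G := by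
  rwa [show G = F from funext fun n => funext fun β => funext fun κ => funext fun J =>
    funext fun D => h n β κ J D]

theorem lmat' : QF K fun _ β κ J D => lmat β κ J D :=
  ((kappa.mul jmat).sub (kappa.mul (kappa.mul (beta.mul diag.trace)))).congr
    fun n β κ J D => by
      simp only [lmat, tr_diagonal, smul_mul_assoc, Matrix.one_mul, smul_smul]
      rw [show κ ^ 2 * β ^ 2 * avg D = κ * (κ * (β ^ 2 * avg D)) by ring]

theorem ymat' (hK : 1 ≤ K) : QF K fun _ β κ J D => ymat β κ J D := by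
  obtain ⟨C, hC, h⟩ := (one (K := K)).sub (lmat'.mul diag)
  refine ⟨3 * (K * C * K * C * K), ?_, fun n β κ κ' δ J J₀ D D' H =>
    (h n β κ κ' δ J J₀ D D' H).inv hK hC ((abs_nonneg _).trans H.h1) (fro_nonneg _) H.a1.1 H.a2.1
      H.a3.1 H.a4.1 H.a1.2 H.a2.2 H.a3.2 H.a4.2⟩
  have := one_le_mul_of_one_le_of_one_le (one_le_mul_of_one_le_of_one_le
    (one_le_mul_of_one_le_of_one_le (one_le_mul_of_one_le_of_one_le hK hC) hK) hC) hK
  linarith

theorem xmat' (hK : 1 ≤ K) : QF K fun _ β κ J D => xmat β κ J D := diag.mul (ymat' hK)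

end QF

/-- The matrix whose diagonal is `eA`. -/
noncomputable def mA : MF := fun _ β κ J D =>
  J * (ymat β κ J D)ᵀ - (κ * β ^ 2 * tr (xmat β κ J D)) • ymat β κ J D

/-- The matrix whose diagonal is `eB`. -/
noncomputable def mB (a : ℝ) (S : MF) : MF := fun n β κ J D =>
  J * xmat β κ J D * S n β κ J D * (ymat β κ J D)ᵀ -
    β ^ 2 • ((κ * tr (xmat β κ J D)) • (xmat β κ J D * S n β κ J D * (ymat β κ J D)ᵀ) +
      (a * tr (xmat β κ J D)) • ymat β κ J D +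
      (κ * tr (xmat β κ J D * S n β κ J D * xmat β κ J D)) • ymat β κ J D)

theorem qf_mA {K : ℝ} (hK : 1 ≤ K) : QF K mA :=
  ((QF.jmat.mul (QF.ymat' hK).transpose).sub
    (QF.kappa.mul (QF.beta.mul ((QF.xmat' hK).trace.mul (QF.ymat' hK))))).congr
    fun n β κ J D => by simp only [mA, smul_mul_assoc, Matrix.one_mul, smul_smul, mul_assoc]

theorem qf_mB {K : ℝ} (hK : 1 ≤ K) {a : ℝ} {S : MF} (hS : QF K S)
    (ha : QF K fun n _ _ _ _ => a • (1 : Mat n)) : QF K (mB a S) := by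
  have hX := QF.xmat' hK
  have hY := QF.ymat' hK
  exact ((((QF.jmat.mul hX).mul hS).mul hY.transpose).sub (QF.beta.mul
    (((QF.kappa.mul (hX.trace.mul ((hX.mul hS).mul hY.transpose))).add
      (ha.mul (hX.trace.mul hY))).add
      (QF.kappa.mul (((hX.mul hS).mul hX).trace.mul hY))))).congr
    fun n β κ J D => by simp only [mB, smul_mul_assoc, Matrix.one_mul, smul_smul]

/-- The three matrices. -/
noncomputable def mE : Fin 3 → MF :=
  ![mA, mB 0 fun _ _ _ _ _ => 1, mB 1 fun _ _ _ J _ => J]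

theorem ee_eq (β κ : ℝ) (J : Mat n) (D : Vec n) (t : Fin 3) (i : Fin n) :
    ee β κ J D (t, i) = mE t n β κ J D i i := by
  have hB : ∀ (a : ℝ) (S : MF), eB β κ J D a (S n β κ J D) i = mB a S n β κ J D i i :=
    fun a S => by
      simp only [mB, eB, Matrix.sub_apply, Matrix.add_apply, Matrix.smul_apply, smul_eq_mul]
  fin_cases t
  · change eA β κ J D i = mA n β κ J D i i
    simp only [mA, eA, Matrix.sub_apply, Matrix.smul_apply, smul_eq_mul]
  · exact hB 0 fun _ _ _ _ _ => 1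
  · exact hB 1 fun _ _ _ J _ => J

theorem qf_mE {K : ℝ} (hK : 1 ≤ K) (t : Fin 3) : QF K (mE t) := by
  fin_cases t
  · exact qf_mA hK
  · exact qf_mB hK QF.one ((QF.one.sub QF.one).congr fun _ _ _ _ _ => by simp)
  · exact qf_mB hK QF.jmat (QF.one.congr fun _ _ _ _ _ => by simp)

theorem vn_three {u : Fin 3 × Fin n → ℝ} {M : Fin 3 → Mat n} {B : ℝ}
    (h : ∀ t i, u (t, i) = M t i i) (hB : ∀ t, fro (M t) ≤ B) : vn u ≤ 2 * B := by
  have hB0 : 0 ≤ B := (fro_nonneg _).trans (hB 0)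
  refine vn_le_of_sq_le (by positivity) ?_
  have h1 : ∀ t, ∑ i, u (t, i) ^ 2 ≤ B ^ 2 := fun t => by
    simp only [h]
    rw [← vn_sq fun i => M t i i]
    exact pow_le_pow_left₀ (vn_nonneg _) ((vn_diag_le _).trans (hB t)) 2
  rw [Fintype.sum_prod_type, Fin.sum_univ_three]
  nlinarith [h1 0, h1 1, h1 2, sq_nonneg B]

end LLQ

/-- Four-corner calculus. For quadruples `(a,b,c,d)` of matrices (values at `(p,J)`, `(p',J)`,
`(p,J₀)`, `(p',J₀)`) consider the predicate: all `opn ≤ K`; `opn (a-b), opn (c-d) ≤ K δ`;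
`fro (a-c), fro (b-d) ≤ K r`; `fro (a-b-c+d) ≤ K δ r`. It is stable under sum, difference, product
(`aa'-bb'-cc'+dd' = (a-b-c+d)a' + (b-d)(a'-b') + (c-d)(a'-c') + d(a'-b'-c'+d')`), transpose,
`A ↦ tr A • 1` (`abs_trace_le`), and inverse with bounded inverses; it holds for `J`, `κ • 1`,
`diagonal D`. Each error vector is the diagonal of such an expression (`vn_diag_le`). -/
theorem ll_quad {K : ℝ} (hK : 1 ≤ K) : ∃ C : ℝ, 0 < C ∧
    ∀ (n : ℕ) (β κ κ' δ : ℝ) (J J₀ : Mat n) (D D' : Vec n), β ^ 2 ≤ 1 → opn J ≤ 3 → opn J₀ ≤ 3 →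
      Dom D → Dom D' → κ ∈ Set.Icc (0 : ℝ) 1 → κ' ∈ Set.Icc (0 : ℝ) 1 → |κ - κ'| ≤ δ →
      (∀ i, |D i - D' i| ≤ δ) → Adm β κ J D K → Adm β κ' J D' K → Adm β κ J₀ D K →
      Adm β κ' J₀ D' K →
      vn (ee β κ J D - ee β κ' J D' - (ee β κ J₀ D - ee β κ' J₀ D')) ≤ C * δ * fro (J - J₀) ∧
      vn (ee β κ J D - ee β κ J₀ D) ≤ C * fro (J - J₀) ∧
      vn (ee β κ J D - ee β κ' J D') ≤ C * δ * √(n : ℝ) := by
  choose C hC h using qf_mE hK
  have h0 : ∀ t, C t ≤ ∑ s, C s := fun t =>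
    Finset.single_le_sum (fun s _ => zero_le_one.trans (hC s)) (Finset.mem_univ t)
  refine ⟨2 * ∑ s, C s, by linarith [h0 0, hC 0], fun n β κ κ' δ J J₀ D D' hβ hJ hJ₀ hD hD' hκ hκ'
    h1 h2 a1 a2 a3 a4 => ?_⟩
  have hq := fun t => (h t n β κ κ' δ J J₀ D D'
    ⟨hβ, hJ, hJ₀, hD, hD', hκ, hκ', h1, h2, a1, a2, a3, a4⟩).mono (h0 t)
    ((abs_nonneg _).trans h1) (fro_nonneg _)
  refine ⟨(vn_three (fun t i => ?_) fun t => (hq t).all).trans (le_of_eq (by ring)),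
    (vn_three (fun t i => ?_) fun t => (hq t).ac).trans (le_of_eq (by ring)),
    (vn_three (fun t i => ?_) fun t => (fro_le_opn _).trans
      (mul_le_mul_of_nonneg_right (hq t).ab (Real.sqrt_nonneg _))).trans (le_of_eq (by ring))⟩
  · simp only [Pi.sub_apply, ee_eq, Matrix.add_apply, Matrix.sub_apply]
    ring
  · simp only [Pi.sub_apply, ee_eq, Matrix.sub_apply]
  · simp only [Pi.sub_apply, ee_eq, Matrix.sub_apply]

end Vale.Agent.P150
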