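import Vale.Agent.P150.LLProb
import Vale.Agent.P150.LLQuad

/-! Chaining over all diagonal matrices. -/

open MeasureTheory ProbabilityTheory Matrix Filter Topology
open scoped ENNReal NNReal

namespace Vale.Agent.P150

variable {n : ℕ}

namespace LLChain

/-- Rounding up to the dyadic grid of level `l`. -/
noncomputable def rnd (l : ℕ) (x : ℝ) : ℝ := (⌈x * 2 ^ l⌉₊ : ℝ) / 2 ^ l

/-- The dyadic grid of level `l` in the unit interval. -/
noncomputable def grid (l : ℕ) : Finset ℝ :=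
  (Finset.range (2 ^ l + 1)).image fun k : ℕ => (k : ℝ) / 2 ^ l

lemma le_rnd (l : ℕ) (x : ℝ) : x ≤ rnd l x := by
  rw [rnd, le_div_iff₀ (by positivity)]
  exact Nat.le_ceil _

lemma rnd_le (l : ℕ) {x : ℝ} (hx : 0 ≤ x) : rnd l x ≤ x + 1 / 2 ^ l := by
  have h := (Nat.ceil_lt_add_one (show 0 ≤ x * 2 ^ l by positivity)).le
  rw [rnd, div_le_iff₀ (by positivity), add_mul, one_div, inv_mul_cancel₀ (by positivity)]
  exact h

lemma ceil_le (l : ℕ) {x : ℝ} (hx : x ≤ 1) : ⌈x * 2 ^ l⌉₊ ≤ 2 ^ l := by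
  rw [Nat.ceil_le]
  push_cast
  exact mul_le_of_le_one_left (by positivity) hx

lemma rnd_le_one (l : ℕ) {x : ℝ} (hx : x ≤ 1) : rnd l x ≤ 1 := by
  rw [rnd, div_le_one (by positivity)]
  exact_mod_cast ceil_le l hx

lemma rnd_mem (l : ℕ) {x : ℝ} (hx : x ≤ 1) : rnd l x ∈ grid l :=
  Finset.mem_image.2 ⟨_, Finset.mem_range.2 (Nat.lt_succ_of_le (ceil_le l hx)), rfl⟩

lemma card_grid (l : ℕ) : ((grid l).card : ℝ) ≤ Real.exp (l + 1) := by
  have h1 : (grid l).card ≤ 2 ^ (l + 1) := by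
    refine Finset.card_image_le.trans ?_
    rw [Finset.card_range, pow_succ]
    have := Nat.one_le_two_pow (n := l)
    omega
  have h2 : (2 : ℝ) ≤ Real.exp 1 := by linarith [Real.add_one_le_exp 1]
  calc ((grid l).card : ℝ) ≤ (2 : ℝ) ^ (l + 1) := by exact_mod_cast h1
    _ ≤ Real.exp 1 ^ (l + 1) := pow_le_pow_left₀ zero_le_two h2 _
    _ = Real.exp (l + 1) := by rw [← Real.exp_nat_mul]; simp

lemma abs_rnd (l : ℕ) {x : ℝ} (hx : 0 ≤ x) : |x - rnd l x| ≤ 1 / 2 ^ l := by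
  have h1 := le_rnd l x
  have h2 := rnd_le l hx
  rw [abs_le]; constructor <;> linarith [show (0 : ℝ) ≤ 1 / 2 ^ l by positivity]

lemma abs_rnd_succ (l : ℕ) {x : ℝ} (hx : 0 ≤ x) : |rnd l x - rnd (l + 1) x| ≤ 1 / 2 ^ l := by
  have h1 := le_rnd l x
  have h2 := rnd_le l hx
  have h3 := le_rnd (l + 1) x
  have h4 := rnd_le (l + 1) hx
  have h5 : (1 : ℝ) / 2 ^ (l + 1) ≤ 1 / 2 ^ l :=
    one_div_le_one_div_of_le (by positivity) (pow_le_pow_right₀ one_le_two l.le_succ)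
  rw [abs_le]; constructor <;> linarith

lemma rnd_Icc (l : ℕ) {x : ℝ} (hx : x ∈ Set.Icc (0 : ℝ) 1) : rnd l x ∈ Set.Icc (0 : ℝ) 1 :=
  ⟨hx.1.trans (le_rnd l x), rnd_le_one l hx.2⟩

/-- Rounding of a vector. -/
noncomputable def rv (l : ℕ) (D : Vec n) : Vec n := fun i => rnd l (D i)

lemma dom_rv (l : ℕ) {D : Vec n} (hD : Dom D) : Dom (rv l D) := fun i =>
  ⟨(hD i).1.trans_le (le_rnd l _), rnd_le_one l (hD i).2⟩

/-- Good matrices for a pair of parameters. -/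
def GS (β c C κ κ' δ : ℝ) (D D' : Vec n) (J : Mat n) : Prop :=
  opn J ≤ 3 ∧ PosK β κ J c D ∧ PosK β κ' J c D' ∧ vn (ee β κ J D) ≤ C ∧
    vn (ee β κ J D - ee β κ' J D') ≤ C * δ

/-- Valid pairs of parameters. -/
def Val (κ κ' δ : ℝ) (D D' : Vec n) : Prop :=
  Dom D ∧ Dom D' ∧ κ ∈ Set.Icc (0 : ℝ) 1 ∧ κ' ∈ Set.Icc (0 : ℝ) 1 ∧ |κ - κ'| ≤ δ ∧
    ∀ i, |D i - D' i| ≤ δ

/-- Every link of level `l` has a good matrix close to `J`. -/
def Near (β c C : ℝ) (l : ℕ) (J : Mat n) : Prop :=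
  ∀ κ ∈ Set.Icc (0 : ℝ) 1, ∀ D, Dom D → ∃ J₀ : Mat n, J₀.IsSymm ∧
    GS β c C (rnd l κ) (rnd (l + 1) κ) (1 / 2 ^ l) (rv l D) (rv (l + 1) D) J₀ ∧
    fro (J - J₀) ≤ 12 * (l + 1)

lemma val_rnd (l : ℕ) {κ : ℝ} (hκ : κ ∈ Set.Icc (0 : ℝ) 1) {D : Vec n} (hD : Dom D) :
    Val (rnd l κ) (rnd (l + 1) κ) (1 / 2 ^ l) (rv l D) (rv (l + 1) D) :=
  ⟨dom_rv l hD, dom_rv _ hD, rnd_Icc l hκ, rnd_Icc _ hκ, abs_rnd_succ l hκ.1,
    fun i => abs_rnd_succ l (hD i).1.le⟩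

lemma gs_prob {β : ℝ} (hβ : 0 < β) (hβ1 : β < 1) : ∃ c C : ℝ, 0 < c ∧ c ≤ 1 ∧ 0 < C ∧
    ∀ᶠ n : ℕ in atTop, ∀ (κ κ' δ : ℝ) (D D' : Vec n), Val κ κ' δ D D' → 1 ≤ δ * √(n : ℝ) →
      gp (Fin n × Fin n) {X | GS β c C κ κ' δ D D' (goe β X)}ᶜ ≤ ENNReal.ofReal (1 - 1 / 2) := by
  obtain ⟨c, hc, hc1, hpos⟩ := rm_pos hβ hβ1
  have hc2 : c ≤ 1 := by nlinarith [sq_nonneg β]
  obtain ⟨C, hC, hprob⟩ := ll_prob hβ hβ1 hc hc2
  refine ⟨c, C, hc, hc2, hC, ?_⟩
  have h8 : (0 : ℝ≥0∞) < ENNReal.ofReal (1 / 8) := by simp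
  filter_upwards [eventually_gt_atTop 0, hpos, (rm_opn hβ hβ1).eventually (ge_mem_nhds h8)]
    with n hn hpn hon κ κ' δ D D' ⟨hD, hD', hκ, hκ', h1, h2⟩ hδ
  have h := add_le_add (add_le_add hon (hpn D hD))
    (add_le_add (hpn D' hD') (hprob n hn κ κ' δ D D' hD hD' hκ hκ' h1 h2 hδ))
  rw [← ENNReal.ofReal_add (by norm_num) (by norm_num),
    ← ENNReal.ofReal_add (by norm_num) (by norm_num)] at h
  refine le_trans (measure_mono fun X hX => ?_) (((measure_union_le _ _).trans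
    (add_le_add (measure_union_le _ _) (measure_union_le _ _))).trans (h.trans (by norm_num)))
  by_contra hc
  simp only [Set.mem_union, Set.mem_ofPred_eq, not_or, not_not, not_and] at hc
  obtain ⟨⟨a1, a2⟩, a3, a4⟩ := hc
  have b2 := posK_of_one hD hc1 a2 hκ
  have b3 := posK_of_one hD' hc1 a3 hκ'
  refine hX ⟨a1, b2, b3, ?_⟩
  by_contra hb
  exact hb (by simpa using a4 a1 b2 b3)

lemma near_prob (hn : 0 < n) {β c C : ℝ} (hβ : 0 < β) (hβ1 : β < 1) (l : ℕ)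
    (hS : ∀ (κ κ' : ℝ) (D D' : Vec n), Val κ κ' (1 / 2 ^ l) D D' →
      gp (Fin n × Fin n) {X | GS β c C κ κ' (1 / 2 ^ l) D D' (goe β X)}ᶜ ≤
        ENNReal.ofReal (1 - 1 / 2)) :
    gp (Fin n × Fin n) {X | ¬ Near β c C l (goe β X)} ≤ ENNReal.ofReal (2 * Real.exp (-n)) := by
  classical
  have hn1 : (1 : ℝ) ≤ n := by exact_mod_cast hn
  have hn' : (0 : ℝ) < n := by linarith
  have hq := Real.sqrt_pos.2 hn'
  set I : Finset ((ℝ × ℝ) × (Vec n × Vec n)) := (grid l ×ˢ grid (l + 1)) ×ˢ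
    (Fintype.piFinset (fun _ => grid l) ×ˢ Fintype.piFinset fun _ => grid (l + 1)) with hI
  have hcard : (I.card : ℝ) ≤ Real.exp (8 * (l + 1) * n) := by
    have h1 := card_grid l
    have h2 := card_grid (l + 1)
    simp only [hI, Finset.card_product, Fintype.card_piFinset, Finset.prod_const,
      Finset.card_univ, Fintype.card_fin]
    push_cast at h2 ⊢
    calc _ ≤ Real.exp (l + 1) * Real.exp (l + 1 + 1) *
          (Real.exp (l + 1) ^ n * Real.exp (l + 1 + 1) ^ n) := by gcongr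
      _ = Real.exp ((2 * l + 3) * (n + 1)) := by
          rw [← Real.exp_nat_mul, ← Real.exp_nat_mul, ← Real.exp_add, ← Real.exp_add,
            ← Real.exp_add]
          congr 1; ring
      _ ≤ _ := by
          refine Real.exp_le_exp.2 ?_
          have : (0 : ℝ) ≤ l := Nat.cast_nonneg l
          nlinarith
  have h := RMEdge.measure_biUnion_le' (gp (Fin n × Fin n))
    (I.filter fun t => Val t.1.1 t.1.2 (1 / 2 ^ l) t.2.1 t.2.2) _ fun t ht =>
    conc_set {X | GS β c C t.1.1 t.1.2 (1 / 2 ^ l) t.2.1 t.2.2 (goe β X)} (p := 1 / 2)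
      (r := 6 * (l + 1) * √(n : ℝ)) (by norm_num) (by norm_num)
      (by positivity) (hS _ _ _ _ (Finset.mem_filter.1 ht).2)
  refine le_trans (measure_mono fun X hX => ?_) (h.trans (ENNReal.ofReal_le_ofReal ?_))
  · simp only [Near, Set.mem_ofPred_eq, not_forall, not_exists, not_and, not_le] at hX
    obtain ⟨κ, hκ, D, hD, hX⟩ := hX
    refine Set.mem_iUnion₂.2 ⟨((rnd l κ, rnd (l + 1) κ), (rv l D, rv (l + 1) D)),
      Finset.mem_filter.2 ⟨?_, val_rnd l hκ hD⟩, fun Y hY => ?_⟩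
    · simp only [hI, Finset.mem_product, Fintype.mem_piFinset]
      exact ⟨⟨rnd_mem _ hκ.2, rnd_mem _ hκ.2⟩, fun i => rnd_mem _ (hD i).2,
        fun i => rnd_mem _ (hD i).2⟩
    by_contra hlt
    have h1 := hX _ (goe_symm β Y) hY
    have h2 := fro_goe_sub_le β X Y
    have h3 : 2 * |β| / √(2 * (n : ℝ)) ≤ 2 / √(n : ℝ) := by
      rw [abs_of_pos hβ]
      exact div_le_div₀ zero_le_two (by linarith) hq (Real.sqrt_le_sqrt (by linarith))
    have h4 := mul_le_mul h3 (not_le.1 hlt).le (vn_nonneg _) (by positivity)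
    have h5 : 2 / √(n : ℝ) * (6 * (l + 1) * √(n : ℝ)) = 12 * (l + 1) := by
      field_simp
      norm_num
    linarith
  · have h1 : ((I.filter fun t => Val t.1.1 t.1.2 (1 / 2 ^ l) t.2.1 t.2.2).card : ℝ) ≤
        Real.exp (8 * (l + 1) * n) :=
      le_trans (by exact_mod_cast Finset.card_filter_le _ _) hcard
    refine (mul_le_mul_of_nonneg_right h1 (by positivity)).trans ?_
    rw [div_eq_mul_inv (Real.exp _), ← mul_assoc, ← Real.exp_add, mul_comm, one_div, inv_inv]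
    refine mul_le_mul_of_nonneg_left (Real.exp_le_exp.2 ?_) zero_le_two
    rw [mul_pow, Real.sq_sqrt hn'.le]
    have h0 : (0 : ℝ) ≤ l := Nat.cast_nonneg l
    nlinarith [mul_nonneg h0 hn'.le, mul_nonneg (mul_nonneg h0 h0) hn'.le]

lemma adm_mono {β κ K K' : ℝ} {J : Mat n} {D : Vec n} (h : Adm β κ J D K) (hK : K ≤ K') :
    Adm β κ J D K' := ⟨h.1, h.2.trans hK⟩

lemma chain {K c C : ℝ} (hK : 1 ≤ K) (hc : 0 < c) (hc1 : c ≤ 1) (hC : 0 < C) :
    ∃ (C' : ℝ) (l₀ : ℕ), 0 < C' ∧ ∀ (n : ℕ) (β : ℝ) (J : Mat n), β ^ 2 ≤ 1 → opn J ≤ 3 →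
      (2 : ℝ) ^ l₀ ≤ √(n : ℝ) → (∀ l : ℕ, (2 : ℝ) ^ l ≤ √(n : ℝ) → Near β c C l J) →
      LLraw β J K C' := by
  have h5 : 0 < 5 / c := by positivity
  obtain ⟨Q, hQ, hquad⟩ := ll_quad (K := 2 * K + 5 / c) (by linarith)
  obtain ⟨l₀, hl₀⟩ := pow_unbounded_of_one_lt (20 * K) (one_lt_two (α := ℝ))
  refine ⟨C + Q * (12 * (l₀ + 1)) + (C + 12 * Q) * ((2 * l₀ + 4) / 2 ^ l₀) + Q, l₀,
    by positivity, fun n β J hβ hJ hn hN κ hκ D hD hA => ?_⟩
  have hadm : ∀ l, l₀ ≤ l → Adm β (rnd l κ) J (rv l D) (2 * K + 5 / c) := fun l hl => by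
    refine adm_mono (adm_stab hβ hJ hD (dom_rv l hD) hκ (rnd_Icc l hκ) (abs_rnd l hκ.1)
      (fun i => abs_rnd l (hD i).1.le) ?_ hA) (by linarith)
    rw [mul_one_div, div_le_one (by positivity)]
    exact hl₀.le.trans (pow_le_pow_right₀ one_le_two hl)
  have hlink : ∀ l, l₀ ≤ l → (2 : ℝ) ^ l ≤ √(n : ℝ) →
      vn (ee β (rnd l κ) J (rv l D)) ≤ C + Q * (12 * (l + 1)) ∧
      vn (ee β (rnd l κ) J (rv l D) - ee β (rnd (l + 1) κ) J (rv (l + 1) D)) ≤
        (C + 12 * Q) * ((l + 1) / 2 ^ l) := fun l hl hl' => by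
    obtain ⟨J₀, hs, ⟨g1, g2, g3, g4, g5⟩, hf⟩ := hN l hl' κ hκ D hD
    obtain ⟨v1, v2, v3, v4, v5, v6⟩ := val_rnd l hκ hD
    obtain ⟨q1, q2, -⟩ := hquad n β _ _ _ J J₀ _ _ hβ hJ g1 v1 v2 v3 v4 v5 v6 (hadm l hl)
      (hadm _ (hl.trans l.le_succ))
      (adm_mono (adm_of_posK hβ hs g1 v1 hc hc1 v3 g2).1 (by linarith))
      (adm_mono (adm_of_posK hβ hs g1 v2 hc hc1 v4 g3).1 (by linarith))
    have hδ : (0 : ℝ) < 1 / 2 ^ l := by positivity
    constructor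
    · have h1 := vn_add_le (ee β (rnd l κ) J (rv l D) - ee β (rnd l κ) J₀ (rv l D))
        (ee β (rnd l κ) J₀ (rv l D))
      rw [sub_add_cancel] at h1
      have h2 := mul_le_mul_of_nonneg_left hf hQ.le
      linarith
    · have h1 := vn_add_le (ee β (rnd l κ) J (rv l D) - ee β (rnd (l + 1) κ) J (rv (l + 1) D) -
        (ee β (rnd l κ) J₀ (rv l D) - ee β (rnd (l + 1) κ) J₀ (rv (l + 1) D)))
        (ee β (rnd l κ) J₀ (rv l D) - ee β (rnd (l + 1) κ) J₀ (rv (l + 1) D))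
      rw [sub_add_cancel] at h1
      have h2 := mul_le_mul_of_nonneg_left hf (mul_pos hQ hδ).le
      have h3 : C * (1 / 2 ^ l) ≤ C * (1 / 2 ^ l) * (l + 1) :=
        le_mul_of_one_le_right (by positivity) (by linarith [(Nat.cast_nonneg l : (0 : ℝ) ≤ l)])
      have h4 : (C + 12 * Q) * (((l : ℝ) + 1) / 2 ^ l) =
          C * (1 / 2 ^ l) * (l + 1) + Q * (1 / 2 ^ l) * (12 * (l + 1)) := by ring
      linarith
  have hex : ∃ L : ℕ, √(n : ℝ) < 2 ^ L := pow_unbounded_of_one_lt _ one_lt_two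
  have hL := Nat.find_spec hex
  have hL' : ∀ l, l < Nat.find hex → (2 : ℝ) ^ l ≤ √(n : ℝ) := fun l hl =>
    not_lt.1 (Nat.find_min hex hl)
  generalize Nat.find hex = L at hL hL'
  have hl : l₀ ≤ L := by
    by_contra hlt
    have := pow_le_pow_right₀ (one_le_two (α := ℝ)) (not_le.1 hlt).le
    linarith
  have hind : ∀ l, l₀ ≤ l → l ≤ L → vn (ee β (rnd l κ) J (rv l D)) ≤
      C + Q * (12 * (l₀ + 1)) + (C + 12 * Q) * ((2 * l₀ + 4) / 2 ^ l₀) -
        (C + 12 * Q) * ((2 * l + 4) / 2 ^ l) := by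
    intro l h1
    induction l, h1 using Nat.le_induction with
    | base => intro _; linarith [(hlink l₀ le_rfl hn).1]
    | succ l h1 ih =>
      intro h2
      have h3 := ih (l.le_succ.trans h2)
      have h4 := (hlink l h1 (hL' l h2)).2
      have h6 := vn_sub_le (ee β (rnd l κ) J (rv l D))
        (ee β (rnd l κ) J (rv l D) - ee β (rnd (l + 1) κ) J (rv (l + 1) D))
      rw [sub_sub_cancel] at h6
      have h7 : (2 * (l : ℝ) + 4) / 2 ^ l =
          (l + 1) / 2 ^ l + (2 * ((l + 1 : ℕ) : ℝ) + 4) / 2 ^ (l + 1) := by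
        push_cast
        field_simp
        ring
      rw [h7] at h3
      linarith
  obtain ⟨-, -, q3⟩ := hquad n β κ (rnd L κ) (1 / 2 ^ L) J J D (rv L D) hβ hJ hJ hD (dom_rv L hD)
    hκ (rnd_Icc L hκ) (abs_rnd L hκ.1) (fun i => abs_rnd L (hD i).1.le)
    (adm_mono hA (by linarith)) (hadm L hl) (adm_mono hA (by linarith)) (hadm L hl)
  have h1 := vn_add_le (ee β κ J D - ee β (rnd L κ) J (rv L D)) (ee β (rnd L κ) J (rv L D))
  rw [sub_add_cancel] at h1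
  have h2 := hind L hl le_rfl
  have h3 : 0 ≤ (C + 12 * Q) * ((2 * (L : ℝ) + 4) / 2 ^ L) := by positivity
  have h4 : Q * (1 / 2 ^ L) * √(n : ℝ) ≤ Q := by
    rw [mul_assoc]
    refine mul_le_of_le_one_right hQ.le ?_
    rw [one_div, inv_mul_le_iff₀ (by positivity), mul_one]
    exact hL.le
  linarith

end LLChain

open LLChain in
/-- Let `c` come from `rm_pos`. Level `l` grid: `D i ∈ {1,…,2^l}/2^l`, `κ ∈ {0,…,2^l}/2^l`
(round up). For a pair `(p,p')` of grid points of levels `l`, `l+1` at distance `≤ 2^-l`, the set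
`S` of `X` with `opn ≤ 3`, `PosK` at both (`posK_of_one`), and both bounds of `ll_prob` has
probability at least `1/2` for large `n`. There are at most `exp (8 (l+1) n)` pairs, so by
`conc_set` with radius `6 (l+1) sqrt n` and a union bound over the levels, with probability
`1 - o(1)` every such `S` has a point `X₀` with `fro (goe X - goe X₀) ≤ 12 (l+1)`. Telescope with
`adm_stab` and `ll_quad`. -/
theorem rm_ll {β K : ℝ} (hβ : 0 < β) (hβ1 : β < 1) (hK : 1 ≤ K) :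
    ∃ C : ℝ, 0 < C ∧ WHP β fun _ J => LLraw β J K C := by
  obtain ⟨c, C, hc, hc1, hC, hS⟩ := gs_prob hβ hβ1
  obtain ⟨C', l₀, hC', hch⟩ := chain hK hc hc1 hC
  have hN : WHP β fun n J => ∀ l : ℕ, (2 : ℝ) ^ l ≤ √(n : ℝ) → Near β c C l J := by
    have ht : Tendsto (fun n : ℕ => (n : ℝ) * (2 * Real.exp (-n))) atTop (𝓝 0) := by
      have := ((Real.tendsto_pow_mul_exp_neg_atTop_nhds_zero 1).comp
        tendsto_natCast_atTop_atTop).const_mul 2
      rw [mul_zero] at this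
      exact this.congr fun n => by simp only [Function.comp]; ring
    refine WHP.of_le ht ?_
    filter_upwards [eventually_gt_atTop 0, hS] with n hn hSn
    classical
    have h := RMEdge.measure_biUnion_le' (gp (Fin n × Fin n))
      ((Finset.range n).filter fun l => (2 : ℝ) ^ l ≤ √(n : ℝ)) _ fun l hl =>
      near_prob hn (c := c) (C := C) hβ hβ1 l fun κ κ' D D' hv => hSn κ κ' _ D D' hv (by
        rw [one_div, le_inv_mul_iff₀ (by positivity), mul_one]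
        exact (Finset.mem_filter.1 hl).2)
    refine le_trans (measure_mono fun X hX => ?_) (h.trans (ENNReal.ofReal_le_ofReal ?_))
    · simp only [Set.mem_ofPred_eq, not_forall] at hX
      obtain ⟨l, hl, hX⟩ := hX
      refine Set.mem_iUnion₂.2 ⟨l, Finset.mem_filter.2 ⟨Finset.mem_range.2 ?_, hl⟩, hX⟩
      have h1 : (1 : ℝ) ≤ n := by exact_mod_cast hn
      have h2 : √(n : ℝ) ≤ n := Real.sqrt_le_iff.2 ⟨by linarith, by nlinarith⟩
      have h3 : (l : ℝ) < 2 ^ l := by exact_mod_cast l.lt_two_pow_self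
      exact_mod_cast h3.trans_le (hl.trans h2)
    · refine mul_le_mul_of_nonneg_right ?_ (by positivity)
      exact_mod_cast (Finset.card_filter_le _ _).trans (Finset.card_range n).le
  refine ⟨C', hC', ((rm_opn hβ hβ1).and hN).mono ?_⟩
  filter_upwards [(Real.tendsto_sqrt_atTop.comp tendsto_natCast_atTop_atTop).eventually_ge_atTop
    ((2 : ℝ) ^ l₀)] with n hn J _ hJ
  exact hch n β J (pow_le_one₀ hβ.le hβ1.le) hJ.1 hn hJ.2

end Vale.Agent.P150
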