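import Vale.Agent.P150.LLCav
import Vale.Agent.P150.RMEdge

/-! Second moments of the local-law errors for fixed parameters. -/

open MeasureTheory ProbabilityTheory Matrix Filter Topology
open scoped ENNReal NNReal

namespace Vale.Agent.P150

variable {n : ℕ}

namespace LLProb

/-- The linear map producing the column. -/
noncomputable def bm (β : ℝ) (i : Fin n) : Matrix (Fin n) (Fin n × Fin n) ℝ :=
  Matrix.of fun j => if j = i then 0 else
    (β / √(2 * (n : ℝ))) • (Pi.single (j, i) 1 + Pi.single (i, j) 1)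

noncomputable def dv (β : ℝ) (i : Fin n) : Vec n := fun j => if j = i then 0 else β / √(n : ℝ)

lemma bm_self (β : ℝ) (i : Fin n) : bm β i i = 0 := if_pos rfl

lemma bm_ne (β : ℝ) {i j : Fin n} (h : j ≠ i) : bm β i j =
    (β / √(2 * (n : ℝ))) • (Pi.single (j, i) 1 + Pi.single (i, j) 1) := if_neg h

lemma bm_mulVec (β : ℝ) (i : Fin n) (X : Fin n × Fin n → ℝ) :
    bm β i *ᵥ X = colv (goe β X) i := by
  funext j
  change bm β i j ⬝ᵥ X = _
  by_cases h : j = i
  · rw [h, bm_self]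
    simp [colv]
  · rw [bm_ne β h, smul_dotProduct, add_dotProduct]
    simp [colv, h, goe]

lemma bm_mul (hn : 0 < n) (β : ℝ) (i : Fin n) :
    bm β i * (bm β i)ᵀ = diagonal (dv β i) * (diagonal (dv β i))ᵀ := by
  have hn' : (0 : ℝ) < n := Nat.cast_pos.2 hn
  have e : β / √(2 * (n : ℝ)) * (β / √(2 * (n : ℝ)) * 2) = β / √(n : ℝ) * (β / √(n : ℝ)) := by
    have h1 : √(2 * (n : ℝ)) ^ 2 = 2 * n := Real.sq_sqrt (by positivity)
    have h2 : √(n : ℝ) ^ 2 = n := Real.sq_sqrt hn'.le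
    have h3 := Real.sqrt_pos.2 hn'
    have h4 : 0 < √(2 * (n : ℝ)) := Real.sqrt_pos.2 (by positivity)
    field_simp
    rw [h1, h2]
    ring
  rw [diagonal_transpose, diagonal_mul_diagonal]
  ext j k
  change bm β i j ⬝ᵥ bm β i k = _
  by_cases hj : j = i
  · rw [hj, bm_self, zero_dotProduct, diagonal_apply]
    simp [dv]
  by_cases hk : k = i
  · rw [hk, bm_self, dotProduct_zero, diagonal_apply_ne _ hj]
  rw [bm_ne β hj, bm_ne β hk]
  simp only [smul_dotProduct, dotProduct_smul, add_dotProduct,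
    single_dotProduct, Pi.add_apply, Pi.single_apply, Prod.mk.injEq, smul_eq_mul, one_mul]
  by_cases h : j = k
  · subst h
    simp only [diagonal_apply_eq, dv, hj, if_false, ← e]
    simp only [Ne.symm hj, and_self, if_true, if_false]
    ring
  · simp [h, hj]

lemma vn_tr {κ ι : Type} [Fintype κ] [Fintype ι] (A : Matrix κ ι ℝ) (z : κ → ℝ) :
    vn (Aᵀ *ᵥ z) = √(z ⬝ᵥ (A * Aᵀ) *ᵥ z) := by
  rw [← mulVec_mulVec, dotProduct_mulVec, ← mulVec_transpose, dot_self,
    Real.sqrt_sq (vn_nonneg _)]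

lemma cav_fixed (hn : 0 < n) (β : ℝ) (i : Fin n) (Θ : Mat n) {M : ℝ} (hM : opn Θ ≤ M) :
    ∫⁻ X, ENNReal.ofReal (cav β (goe β X) i Θ ^ 2) ∂gp (Fin n × Fin n) ≤
      ENNReal.ofReal (2 * β ^ 4 * M ^ 2 / n) := by
  have hn' : (0 : ℝ) < n := Nat.cast_pos.2 hn
  have hl := law_eq (bm β i) (diagonal (dv β i)) fun z => by rw [vn_tr, vn_tr, bm_mul hn]
  set F : Vec n → ℝ≥0∞ := fun a =>
    ENNReal.ofReal ((a ⬝ᵥ Θ *ᵥ a - β ^ 2 / n * (Θ.trace - Θ i i)) ^ 2) with hF
  have hFm : Measurable F := by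
    refine Continuous.measurable ?_
    refine ENNReal.continuous_ofReal.comp ((Continuous.sub ?_ continuous_const).pow 2)
    exact continuous_id.dotProduct (continuous_const.matrix_mulVec continuous_id)
  have h1 : ∫⁻ X, ENNReal.ofReal (cav β (goe β X) i Θ ^ 2) ∂gp (Fin n × Fin n) =
      ∫⁻ x, F (diagonal (dv β i) *ᵥ x) ∂gp (Fin n) := by
    rw [← lintegral_map hFm (continuous_const.matrix_mulVec continuous_id').measurable, ← hl,
      lintegral_map hFm (continuous_const.matrix_mulVec continuous_id').measurable]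
    simp only [bm_mulVec]
    rfl
  set A : Mat n := diagonal (dv β i) * Θ * diagonal (dv β i) with hA
  have hq : (β / √(n : ℝ)) ^ 2 = β ^ 2 / n := by rw [div_pow, Real.sq_sqrt hn'.le]
  have hAe : ∀ j k, A j k = dv β i j * Θ j k * dv β i k := fun j k => by
    simp [hA, mul_diagonal, diagonal_mul]
  have htr : A.trace = β ^ 2 / n * (Θ.trace - Θ i i) := by
    simp only [Matrix.trace, Matrix.diag, hAe]
    rw [← Finset.add_sum_erase _ _ (Finset.mem_univ i),
      ← Finset.add_sum_erase _ (fun j => Θ j j) (Finset.mem_univ i), add_sub_cancel_left,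
      Finset.mul_sum]
    simp only [dv, if_true, mul_zero, zero_add]
    refine Finset.sum_congr rfl fun j hj => ?_
    rw [if_neg (Finset.ne_of_mem_erase hj), ← hq]
    ring
  have h2 : ∀ x, F (diagonal (dv β i) *ᵥ x) = ENNReal.ofReal ((x ⬝ᵥ A *ᵥ x - A.trace) ^ 2) := by
    intro x
    rw [htr, hA, ← mulVec_mulVec, ← mulVec_mulVec, dotProduct_mulVec x, ← mulVec_transpose,
      diagonal_transpose]
  have hP : GaussB.PG fun x : Vec n => (x ⬝ᵥ A *ᵥ x - A.trace) ^ 2 :=
    ((GaussB.PG.sum _ fun j => (GaussB.PG.coord j).mul (GaussB.PG.dot (A j))).add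
      (GaussB.PG.const (-A.trace))).pow 2
  rw [h1]
  simp only [h2]
  rw [← ofReal_integral_eq_lintegral_ofReal hP.integrable
    (Eventually.of_forall fun _ => sq_nonneg _)]
  refine ENNReal.ofReal_le_ofReal ((integral_quad_sq A).trans ?_)
  have hd : ∀ j, dv β i j ^ 2 ≤ β ^ 2 / n := fun j => by
    unfold dv
    split_ifs
    · rw [sq, mul_zero]
      positivity
    · exact hq.le
  have h3 : ∑ j, ∑ k, A j k ^ 2 ≤ (β ^ 2 / n) ^ 2 * fro Θ ^ 2 := by
    rw [fro_sq, Finset.mul_sum]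
    refine Finset.sum_le_sum fun j _ => ?_
    rw [Finset.mul_sum]
    refine Finset.sum_le_sum fun k _ => ?_
    have := mul_le_mul (hd j) (hd k) (sq_nonneg _) (by positivity)
    rw [hAe]
    nlinarith [sq_nonneg (Θ j k)]
  have h4 : fro Θ ^ 2 ≤ M ^ 2 * n := by
    have := pow_le_pow_left₀ (fro_nonneg Θ)
      ((fro_le_opn Θ).trans (mul_le_mul_of_nonneg_right hM (Real.sqrt_nonneg _))) 2
    rwa [mul_pow, Real.sq_sqrt hn'.le] at this
  have h5 : (β ^ 2 / n) ^ 2 * (M ^ 2 * n) = β ^ 4 * M ^ 2 / n := by field_simp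
  have h6 := mul_le_mul_of_nonneg_left h4 (sq_nonneg (β ^ 2 / n))
  rw [h5] at h6
  rw [mul_assoc, mul_div_assoc]
  linarith

lemma measurable_cav (β : ℝ) (i : Fin n) (Θ : (Fin n × Fin n → ℝ) → Mat n)
    (hm : ∀ j k, Measurable fun X => Θ X j k) :
    Measurable fun X => cav β (goe β X) i (Θ X) := by
  have hc : ∀ j, Measurable fun X : Fin n × Fin n → ℝ => colv (goe β X) i j := fun j => by
    simp only [← bm_mulVec]
    exact ((continuous_apply j).comp (continuous_const.matrix_mulVec continuous_id')).measurable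
  unfold cav
  simp only [dotProduct, mulVec, Matrix.trace, Matrix.diag]
  exact (Finset.measurable_sum _ fun j _ => (hc j).mul
    (Finset.measurable_sum _ fun k _ => (hm j k).mul (hc k))).sub
    (((Finset.measurable_sum _ fun j _ => hm j j).sub (hm i i)).const_mul _)

end LLProb

open LLProb in
/-- Conditionally on the entries outside row and column `i` (use `resample` with the finset of pairs
containing `i`), `colv (goe β X) i` is `β / sqrt n` times a standard Gaussian vector with `i`-th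
entry zero (`law_eq`), and `integral_quad_sq` applies with `fro ≤ M sqrt n`. -/
theorem cav_mom (hn : 0 < n) (β : ℝ) (i : Fin n) (Θ : (Fin n × Fin n → ℝ) → Mat n)
    (hm : ∀ j k, Measurable fun X => Θ X j k)
    (hd : ∀ X Y, (∀ j k, j ≠ i → k ≠ i → X (j, k) = Y (j, k)) → Θ X = Θ Y) {M : ℝ}
    (hM : ∀ X, opn (Θ X) ≤ M) :
    ∫⁻ X, ENNReal.ofReal (cav β (goe β X) i (Θ X) ^ 2) ∂gp (Fin n × Fin n) ≤
      ENNReal.ofReal (2 * β ^ 4 * M ^ 2 / n) := by
  set S : Finset (Fin n × Fin n) := Finset.univ.filter fun p => p.1 = i ∨ p.2 = i with hS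
  have hF : Measurable fun X => ENNReal.ofReal (cav β (goe β X) i (Θ X) ^ 2) :=
    ((measurable_cav β i Θ hm).pow_const 2).ennreal_ofReal
  rw [← (resample S).lintegral_comp hF]
  refine (lintegral_prod_le _).trans ?_
  refine (lintegral_mono (g := fun _ => ENNReal.ofReal (2 * β ^ 4 * M ^ 2 / n))
    fun X => ?_).trans (by simp)
  refine le_trans (le_of_eq (lintegral_congr fun Y => ?_)) (cav_fixed hn β i (Θ X) (hM X))
  have h1 : Θ (S.piecewise Y X) = Θ X := hd _ _ fun j k hj hk =>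
    Finset.piecewise_eq_of_notMem _ _ _ (by simp [hS, hj, hk])
  have h2 : colv (goe β (S.piecewise Y X)) i = colv (goe β Y) i := by
    funext j
    simp only [colv, goe, of_apply]
    rw [Finset.piecewise_eq_of_mem _ _ _ (by simp [hS]),
      Finset.piecewise_eq_of_mem _ _ _ (by simp [hS])]
  simp only [cav, h1, h2]

namespace LLProb

/-- Entrywise measurability. -/
def EM {α : Type} [MeasurableSpace α] (A : α → Mat n) : Prop := ∀ j k, Measurable fun X => A X j k

section
variable {α : Type} [MeasurableSpace α] {A B : α → Mat n}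

lemma EM.const (M : Mat n) : EM fun _ : α => M := fun _ _ => measurable_const

lemma EM.mul (hA : EM A) (hB : EM B) : EM fun X => A X * B X := fun j k => by
  simp only [Matrix.mul_apply]
  exact Finset.measurable_sum _ fun l _ => (hA j l).mul (hB l k)

lemma EM.sub (hA : EM A) (hB : EM B) : EM fun X => A X - B X := fun j k => (hA j k).sub (hB j k)

lemma EM.ite {G : Set α} [DecidablePred (· ∈ G)] (hG : MeasurableSet G) (hA : EM A) :
    EM fun X => if X ∈ G then A X else 0 := fun j k => by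
  have : (fun X => (if X ∈ G then A X else 0) j k) = fun X => if X ∈ G then A X j k else 0 := by
    funext X
    split_ifs <;> rfl
  rw [this]
  exact Measurable.ite hG (hA j k) measurable_const

end

section
variable {ι : Type} [Fintype ι] {A : (ι → ℝ) → Mat n}

lemma EM.of_cont (hA : Continuous A) : EM A := fun j k => (hA.matrix_elem j k).measurable

lemma EM.inv (hA : Continuous A) : EM fun X => (A X)⁻¹ := fun j k => by
  simp only [Matrix.inv_def, Ring.inverse_eq_inv', Matrix.smul_apply, smul_eq_mul]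
  exact hA.matrix_det.measurable.inv.mul (hA.matrix_adjugate.matrix_elem j k).measurable

lemma em_xmat (hA : Continuous A) (β κ : ℝ) (D : Vec n) : EM fun X => xmat β κ (A X) D :=
  (EM.const _).mul (EM.inv (continuous_const.sub
    (((hA.const_smul κ).sub continuous_const).matrix_mul continuous_const)))

lemma em_th (hA : Continuous A) (β κ : ℝ) (D : Vec n) (s : Fin 3) :
    EM fun X => th β κ (A X) D s := by
  have h := em_xmat hA β κ D
  fin_cases s
  · exact h
  · exact h.mul h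
  · exact (h.mul (EM.of_cont hA)).mul h

omit [Fintype ι] in
lemma isClosed_posK (hA : Continuous A) (β κ c : ℝ) (D : Vec n) :
    IsClosed {X | PosK β κ (A X) c D} := by
  simp only [PosK, Set.ofPred_forall]
  exact isClosed_iInter fun u => isClosed_le continuous_const (continuous_const.sub
    (continuous_const.mul (continuous_const.dotProduct (hA.matrix_mulVec continuous_const))))

end

lemma continuous_mn (β : ℝ) (i : Fin n) :
    Continuous fun X : Fin n × Fin n → ℝ => mn (goe β X) i := by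
  refine continuous_matrix fun j k => ?_
  simp only [mn, of_apply]
  split_ifs
  · exact continuous_const
  · exact (continuous_goe β).matrix_elem j k

lemma mn_congr (β : ℝ) (i : Fin n) {X Y : Fin n × Fin n → ℝ}
    (h : ∀ j k, j ≠ i → k ≠ i → X (j, k) = Y (j, k)) : mn (goe β X) i = mn (goe β Y) i := by
  ext j k
  simp only [mn, goe, of_apply]
  split_ifs with e
  · rfl
  · rw [not_or] at e
    rw [h j k e.1 e.2, h k j e.2 e.1]

lemma markov (hn : 0 < n) {α : Type} [MeasurableSpace α] (μ : Measure α) (F : Fin n → Fin 3 → α → ℝ)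
    (hF : ∀ i s, Measurable (F i s)) {M : ℝ} (hM : 0 < M)
    (h : ∀ i s, ∫⁻ X, ENNReal.ofReal (F i s X ^ 2) ∂μ ≤ ENNReal.ofReal (2 * M ^ 2 / n)) :
    μ {X | 144 * M ^ 2 < ∑ i, ∑ s, F i s X ^ 2} ≤ ENNReal.ofReal (1 / 24) := by
  have hn' : (0 : ℝ) < n := Nat.cast_pos.2 hn
  have hm : ∀ i s, Measurable fun X => ENNReal.ofReal (F i s X ^ 2) := fun i s =>
    ((hF i s).pow_const 2).ennreal_ofReal
  have h1 : ∫⁻ X, ∑ i, ∑ s, ENNReal.ofReal (F i s X ^ 2) ∂μ ≤ ENNReal.ofReal (6 * M ^ 2) := by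
    rw [lintegral_finsetSum _ fun i _ => Finset.measurable_sum _ fun s _ => hm i s]
    simp only [lintegral_finsetSum _ fun s _ => hm _ s]
    refine (Finset.sum_le_sum fun i _ => Finset.sum_le_sum fun s _ => h i s).trans (le_of_eq ?_)
    simp only [← ENNReal.ofReal_sum_of_nonneg fun _ _ => show 0 ≤ 2 * M ^ 2 / n by positivity]
    rw [← ENNReal.ofReal_sum_of_nonneg fun _ _ => by positivity]
    congr 1
    simp only [Finset.sum_const, Finset.card_univ, Fintype.card_fin, nsmul_eq_mul]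
    field_simp
    norm_num
  have h2 := meas_ge_le_lintegral_div (μ := μ)
    (f := fun X => ∑ i, ∑ s, ENNReal.ofReal (F i s X ^ 2))
    (Finset.measurable_sum _ fun i _ => Finset.measurable_sum _ fun s _ => hm i s).aemeasurable
    (ε := ENNReal.ofReal (144 * M ^ 2)) (ENNReal.ofReal_pos.2 (by positivity)).ne'
    ENNReal.ofReal_ne_top
  refine (measure_mono fun X hX => ?_).trans (h2.trans ((ENNReal.div_le_div_right h1 _).trans
    (le_of_eq ?_)))
  · simp only [Set.mem_ofPred_eq, ← ENNReal.ofReal_sum_of_nonneg fun _ _ => sq_nonneg _]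
    rw [← ENNReal.ofReal_sum_of_nonneg fun _ _ => by positivity]
    exact ENNReal.ofReal_le_ofReal (le_of_lt hX)
  · rw [← ENNReal.ofReal_div_of_pos (by positivity)]
    congr 1
    field_simp
    norm_num

/-- Markov for the cavity fluctuations of a matrix function of the minor. -/
lemma cav_markov (hn : 0 < n) {β : ℝ} (hβ : β ^ 2 ≤ 1) (P : Mat n → Prop)
    (Φ : Mat n → Fin 3 → Mat n) (hP : ∀ i, MeasurableSet {X | P (mn (goe β X) i)})
    (hΦ : ∀ i s, EM fun X => Φ (mn (goe β X) i) s) {M : ℝ} (hM : 0 < M)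
    (hb : ∀ J s, J.IsSymm → P J → opn (Φ J s) ≤ M) :
    gp (Fin n × Fin n) {X | (∀ i, P (mn (goe β X) i)) ∧
      144 * M ^ 2 < ∑ i, ∑ s, cav β (goe β X) i (Φ (mn (goe β X) i) s) ^ 2} ≤
      ENNReal.ofReal (1 / 24) := by
  classical
  have hn' : (0 : ℝ) < n := Nat.cast_pos.2 hn
  let Θ : Fin n → Fin 3 → (Fin n × Fin n → ℝ) → Mat n := fun i s X =>
    if P (mn (goe β X) i) then Φ (mn (goe β X) i) s else 0
  have hm : ∀ i s, EM (Θ i s) := fun i s => EM.ite (hP i) (hΦ i s)
  refine le_trans (measure_mono fun X hX => ?_) (markov hn _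
    (fun i s X => cav β (goe β X) i (Θ i s X)) (fun i s => measurable_cav β i _ (hm i s)) hM
    fun i s => (cav_mom hn β i (Θ i s) (hm i s) (fun X Y h => ?_) (M := M) fun X => ?_).trans
      (ENNReal.ofReal_le_ofReal ?_))
  · simp only [Set.mem_ofPred_eq, Θ, if_pos (hX.1 _)]
    exact hX.2
  · simp only [Θ, mn_congr β i h]
  · simp only [Θ]
    split_ifs with e
    · exact hb _ s (mn_symm (goe_symm β X) i) e
    · rw [opn_zero]
      exact hM.le
  · refine div_le_div_of_nonneg_right ?_ hn'.le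
    have : β ^ 4 ≤ 1 := by nlinarith [sq_nonneg β]
    nlinarith [sq_nonneg M]

lemma vn_le_of_entry {e : Fin 3 × Fin n → ℝ} {w : Vec n} {C K : ℝ} (hC : 0 ≤ C) (hK : 0 ≤ K)
    (h : ∀ t i, |e (t, i)| ≤ C * w i) (hw : 3 * ∑ i, w i ^ 2 ≤ K ^ 2) : vn e ≤ C * K := by
  refine vn_le_of_sq_le (by positivity) ?_
  have h1 : ∑ p, e p ^ 2 ≤ ∑ _t : Fin 3, ∑ i, C ^ 2 * w i ^ 2 := by
    rw [Fintype.sum_prod_type]
    refine Finset.sum_le_sum fun t _ => Finset.sum_le_sum fun i _ => ?_
    rw [← sq_abs, ← mul_pow]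
    exact pow_le_pow_left₀ (abs_nonneg _) (h t i) 2
  rw [Finset.sum_const, ← Finset.mul_sum] at h1
  simp only [Finset.card_univ, Fintype.card_fin, nsmul_eq_mul, Nat.cast_ofNat] at h1
  nlinarith [sq_nonneg C]

lemma sq_abs_sum (b : Fin 3 → ℝ) : (∑ s, |b s|) ^ 2 ≤ 3 * ∑ s, b s ^ 2 := by
  simp only [Fin.sum_univ_three]
  rw [← sq_abs (b 0), ← sq_abs (b 1), ← sq_abs (b 2)]
  nlinarith [sq_nonneg (|b 0| - |b 1|), sq_nonneg (|b 0| - |b 2|), sq_nonneg (|b 1| - |b 2|)]

lemma four_sq (x y z w : ℝ) : (x + y + z + w) ^ 2 ≤ 4 * (x ^ 2 + y ^ 2 + z ^ 2 + w ^ 2) := by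
  nlinarith [sq_nonneg (x - y), sq_nonneg (x - z), sq_nonneg (x - w), sq_nonneg (y - z),
    sq_nonneg (y - w), sq_nonneg (z - w)]

lemma sum_bound (hn : 0 < n) (a : Vec n) (b b' : Fin n → Fin 3 → ℝ) (δ : ℝ) :
    ∑ i, (δ * (|a i| + ∑ s, |b i s|) + ∑ s, |b' i s| + 1 / n) ^ 2 ≤
      4 * (δ ^ 2 * vn a ^ 2 + 3 * δ ^ 2 * ∑ i, ∑ s, b i s ^ 2 + 3 * ∑ i, ∑ s, b' i s ^ 2 +
        1 / n) := by
  have hn' : (0 : ℝ) < n := Nat.cast_pos.2 hn
  have e : (1 : ℝ) / n = ∑ _i : Fin n, (1 / (n : ℝ)) ^ 2 := by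
    simp only [Finset.sum_const, Finset.card_univ, Fintype.card_fin, nsmul_eq_mul]
    field_simp
  conv_rhs => rw [e, vn_sq, Finset.mul_sum, Finset.mul_sum, Finset.mul_sum,
    ← Finset.sum_add_distrib, ← Finset.sum_add_distrib, ← Finset.sum_add_distrib, Finset.mul_sum]
  refine Finset.sum_le_sum fun i _ => ?_
  rw [mul_add]
  refine (four_sq _ _ _ _).trans ?_
  have h1 := mul_le_mul_of_nonneg_left (sq_abs_sum (b i)) (sq_nonneg δ)
  have h2 := sq_abs_sum (b' i)
  rw [mul_pow, mul_pow, sq_abs]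
  linarith

end LLProb

open LLProb in
/-- Apply `cav_mom` to `th` of the minor, replaced by zero outside the closed set where the minor
satisfies `opn ≤ 3` and `PosK` for both parameters; then `cav_two`, `diag_markov` and Markov. -/
theorem ll_prob {β c : ℝ} (hβ : 0 < β) (hβ1 : β < 1) (hc : 0 < c) (hc1 : c ≤ 1) :
    ∃ C : ℝ, 0 < C ∧ ∀ (n : ℕ), 0 < n → ∀ (κ κ' δ : ℝ) (D D' : Vec n), Dom D → Dom D' →
      κ ∈ Set.Icc (0 : ℝ) 1 → κ' ∈ Set.Icc (0 : ℝ) 1 → |κ - κ'| ≤ δ → (∀ i, |D i - D' i| ≤ δ) →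
      1 ≤ δ * √(n : ℝ) →
      gp (Fin n × Fin n) {X | opn (goe β X) ≤ 3 ∧ PosK β κ (goe β X) c D ∧
        PosK β κ' (goe β X) c D' ∧ ¬ (vn (ee β κ (goe β X) D) ≤ C ∧
          vn (ee β κ (goe β X) D - ee β κ' (goe β X) D') ≤ C * δ)} ≤ ENNReal.ofReal (1 / 8) := by
  obtain ⟨C₁, hC₁, h₁⟩ := th_bound hc hc1
  obtain ⟨C₂, hC₂, h₂⟩ := cav_two hc hc1
  refine ⟨C₂ * (25 + 102 * C₁), by positivity, fun n hn κ κ' δ D D' hD hD' hκ hκ' hκδ hDδ hδ => ?_⟩
  have hn' : (1 : ℝ) ≤ n := by exact_mod_cast hn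
  have hb : β ^ 2 ≤ 1 := by nlinarith
  have hδ0 : 0 < δ := by
    by_contra h
    have := mul_nonpos_of_nonpos_of_nonneg (not_lt.1 h) (Real.sqrt_nonneg (n : ℝ))
    linarith
  have hδn : 1 / (n : ℝ) ≤ δ ^ 2 := by
    have := pow_le_pow_left₀ zero_le_one hδ 2
    rw [mul_pow, Real.sq_sqrt (by linarith), one_pow] at this
    rwa [div_le_iff₀ (by linarith)]
  have hn1 : 1 / (n : ℝ) ≤ 1 := by rwa [div_le_one (by linarith)]
  let P : Mat n → Prop := fun J => opn J ≤ 3 ∧ PosK β κ J c D ∧ PosK β κ' J c D'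
  have hP : ∀ i, MeasurableSet {X | P (mn (goe β X) i)} := fun i =>
    ((isClosed_le (continuous_opn.comp (continuous_mn β i)) continuous_const).inter
      ((isClosed_posK (continuous_mn β i) β κ c D).inter
        (isClosed_posK (continuous_mn β i) β κ' c D'))).measurableSet
  have k1 := cav_markov hn hb P (fun J s => th β κ J D s) hP
    (fun i s => em_th (continuous_mn β i) β κ D s) hC₁ fun J s hJ h =>
      (h₁ n β κ κ' δ J D D' hb hJ h.1 hD hD' hκ hκ' hκδ hDδ h.2.1 h.2.2 s).1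
  have k2 := cav_markov hn hb P (fun J s => th β κ J D s - th β κ' J D' s) hP
    (fun i s => (em_th (continuous_mn β i) β κ D s).sub (em_th (continuous_mn β i) β κ' D' s))
    (mul_pos hC₁ hδ0) fun J s hJ h =>
      (h₁ n β κ κ' δ J D D' hb hJ h.1 hD hD' hκ hκ' hκδ hDδ h.2.1 h.2.2 s).2
  have k3 := (diag_markov hn (β := β) (t := 7) (by norm_num)).trans
    (ENNReal.ofReal_le_ofReal (show 2 * β ^ 2 / 7 ^ 2 ≤ 1 / 24 by linarith))
  have k4 := ((measure_union_le _ _).trans (add_le_add ((measure_union_le _ _).trans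
    (add_le_add k1 k2)) k3))
  rw [← ENNReal.ofReal_add (by norm_num) (by norm_num),
    ← ENNReal.ofReal_add (by norm_num) (by norm_num)] at k4
  refine le_trans (measure_mono fun X hX => ?_) (k4.trans (le_of_eq (by norm_num)))
  obtain ⟨g1, g2, g3, g4⟩ := hX
  have hPX : ∀ i, P (mn (goe β X) i) := fun i =>
    ⟨(opn_mn_le _ i).trans g1, posK_mn hD hc1 i g2, posK_mn hD' hc1 i g3⟩
  by_contra hcon
  simp only [Set.mem_union, Set.mem_ofPred_eq, not_or, not_and, not_lt] at hcon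
  obtain ⟨⟨m1, m2⟩, m3⟩ := hcon
  replace m1 := m1 hPX
  replace m2 := m2 hPX
  replace m3 := pow_le_pow_left₀ (vn_nonneg _) m3 2
  have hh := h₂ n β κ κ' δ (goe β X) D D' hb (goe_symm β X) g1 hD hD' hκ hκ' hκδ hDδ g2 g3
  refine g4 ⟨vn_le_of_entry hC₂.le (by positivity) (fun t i => (hh t i).1) ?_, ?_⟩
  · have := sum_bound hn (fun i => goe β X i i)
      (fun i s => cav β (goe β X) i (th β κ (mn (goe β X) i) D s)) (fun _ _ => 0) 1
    simp only [one_mul, abs_zero, Finset.sum_const_zero, add_zero, one_pow, mul_one, ne_eq,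
      OfNat.ofNat_ne_zero, not_false_eq_true, zero_pow, mul_zero] at this
    nlinarith [sq_nonneg C₁]
  · rw [mul_assoc]
    refine vn_le_of_entry hC₂.le (by positivity) (fun t i => (hh t i).2) ?_
    have := sum_bound hn (fun i => goe β X i i)
      (fun i s => cav β (goe β X) i (th β κ (mn (goe β X) i) D s))
      (fun i s => cav β (goe β X) i (th β κ (mn (goe β X) i) D s - th β κ' (mn (goe β X) i) D' s)) δ
    have a1 := mul_le_mul_of_nonneg_left m1 (sq_nonneg δ)
    have a3 := mul_le_mul_of_nonneg_left m3 (sq_nonneg δ)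
    have a4 : 0 ≤ C₁ * δ ^ 2 := by positivity
    have a5 : 0 ≤ C₁ ^ 2 * δ ^ 2 := by positivity
    nlinarith [sq_nonneg δ]

end Vale.Agent.P150
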