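import Vale.Agent.P150.Objs

/-! Discrete localization: Bayes rule, path expectations, label moments. -/

open MeasureTheory ProbabilityTheory Matrix Filter Topology
open scoped ENNReal NNReal

namespace Vale.Agent.P150

variable {n : ℕ}

variable {W : Cube n → ℝ} {ε : ℝ}

namespace LocAux

theorem z_pos (hW : ∀ x, 0 < W x) (θ : Vec n) : 0 < ∑ y, W y * Real.exp (θ ⬝ᵥ sv y) :=
  Finset.sum_pos (fun y _ => mul_pos (hW y) (Real.exp_pos _)) Finset.univ_nonempty

theorem sum_sp (B : Mat n) (a : Vec n) (s : Cube n) :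
    ∑ q, sp (s q) * (ε * (Bᵀ *ᵥ a) q) = (ε • B *ᵥ sv s) ⬝ᵥ a := by
  rw [smul_dotProduct, dotProduct_comm, dotProduct_mulVec, ← mulVec_transpose, dotProduct,
    smul_eq_mul, Finset.mul_sum]
  exact Finset.sum_congr rfl fun q _ => by rw [sv]; ring

theorem half_eq (b : Bool) (t : ℝ) :
    (1 + sp b * Real.tanh t) / 2 = 1 / 2 * Real.exp (sp b * t) * (Real.cosh t)⁻¹ := by
  have h := (Real.cosh_pos t).ne'
  cases b
  · simp only [sp, Bool.false_eq_true, if_false, neg_mul, one_mul, Real.tanh_eq_sinh_div_cosh,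
      ← Real.cosh_sub_sinh]
    field_simp
    ring
  · simp only [sp, if_true, one_mul, Real.tanh_eq_sinh_div_cosh, ← Real.cosh_add_sinh]
    field_simp

theorem lab_eq (B : Mat n) (x s : Cube n) : lab ε B x s = (1 / 2) ^ n *
    Real.exp ((ε • B *ᵥ sv s) ⬝ᵥ sv x) * ∏ k, (Real.cosh (ε * (Bᵀ *ᵥ sv x) k))⁻¹ := by
  simp only [lab, half_eq, Finset.prod_mul_distrib]
  rw [← Real.exp_sum, sum_sp, Finset.prod_const, Finset.card_univ, Fintype.card_fin]

theorem sum_lab_prod (B : Mat n) (x : Cube n) (g : Fin n → Bool → ℝ) :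
    ∑ s, lab ε B x s * ∏ k, g k (s k) =
      ∏ k, ((1 + Real.tanh (ε * (Bᵀ *ᵥ sv x) k)) / 2 * g k true +
        (1 - Real.tanh (ε * (Bᵀ *ᵥ sv x) k)) / 2 * g k false) := by
  have h := Finset.prod_univ_sum (fun _ : Fin n => (Finset.univ : Finset Bool))
    fun k b => (1 + sp b * Real.tanh (ε * (Bᵀ *ᵥ sv x) k)) / 2 * g k b
  rw [Fintype.piFinset_univ] at h
  simp only [lab, ← Finset.prod_mul_distrib]
  rw [← h]
  refine Finset.prod_congr rfl fun k _ => ?_
  rw [Fintype.sum_bool]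
  simp only [sp, if_true, Bool.false_eq_true, if_false]
  ring

theorem lab_one (B : Mat n) (x : Cube n) (k : Fin n) :
    ∑ s, lab ε B x s * sp (s k) = Real.tanh (ε * (Bᵀ *ᵥ sv x) k) := by
  have h := sum_lab_prod (ε := ε) B x fun q b => if q = k then sp b else 1
  simp only [Finset.prod_ite_eq', Finset.mem_univ, if_true] at h
  rw [h, Finset.prod_eq_single k (fun q _ hq => by rw [if_neg hq, if_neg hq]; ring) (by simp)]
  simp only [sp, if_true, Bool.false_eq_true, if_false]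
  ring

theorem lab_two (B : Mat n) (x : Cube n) {k k' : Fin n} (hk : k ≠ k') :
    ∑ s, lab ε B x s * (sp (s k) * sp (s k')) =
      Real.tanh (ε * (Bᵀ *ᵥ sv x) k) * Real.tanh (ε * (Bᵀ *ᵥ sv x) k') := by
  have h := sum_lab_prod (ε := ε) B x
    fun q b => (if q = k then sp b else 1) * if q = k' then sp b else 1
  simp only [Finset.prod_mul_distrib, Finset.prod_ite_eq', Finset.mem_univ, if_true] at h
  rw [h, Finset.prod_eq_mul k k' hk (fun q _ hq => by simp only [if_neg hq.1, if_neg hq.2]; ring)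
    (by simp) (by simp)]
  simp only [sp, if_true, Bool.false_eq_true, if_false, if_neg hk, if_neg hk.symm]
  ring

theorem tilt_shift (hW : ∀ x, 0 < W x) (θ a : Vec n) (x : Cube n) :
    tilt W (θ + a) x ≤ Real.exp (2 * vn a * √(n : ℝ)) * tilt W θ x := by
  have hZ := z_pos hW θ
  have hZ' := z_pos hW (θ + a)
  have h1 : ∀ y, |a ⬝ᵥ sv y| ≤ vn a * √(n : ℝ) := fun y => by
    rw [← vn_sv y]
    exact abs_dot_le _ _
  have h2 : ∑ y, W y * Real.exp (θ ⬝ᵥ sv y) ≤
      Real.exp (vn a * √(n : ℝ)) * ∑ y, W y * Real.exp ((θ + a) ⬝ᵥ sv y) := by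
    rw [Finset.mul_sum]
    refine Finset.sum_le_sum fun y _ => ?_
    rw [mul_left_comm, ← Real.exp_add, add_dotProduct]
    exact mul_le_mul_of_nonneg_left (Real.exp_le_exp.2 (by linarith [(abs_le.1 (h1 y)).1]))
      (hW y).le
  have h3 : W x * Real.exp ((θ + a) ⬝ᵥ sv x) ≤
      Real.exp (vn a * √(n : ℝ)) * (W x * Real.exp (θ ⬝ᵥ sv x)) := by
    rw [mul_left_comm, ← Real.exp_add, add_dotProduct]
    exact mul_le_mul_of_nonneg_left (Real.exp_le_exp.2 (by linarith [(abs_le.1 (h1 x)).2]))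
      (hW x).le
  rw [tilt, tilt, ← mul_div_assoc, div_le_div_iff₀ hZ' hZ,
    show 2 * vn a * √(n : ℝ) = vn a * √(n : ℝ) + vn a * √(n : ℝ) by ring, Real.exp_add]
  refine (mul_le_mul h3 h2 hZ.le
    (mul_pos (Real.exp_pos _) (mul_pos (hW x) (Real.exp_pos _))).le).trans (le_of_eq ?_)
  ring

theorem abs_tanh_sub (t : ℝ) : |Real.tanh t - t| ≤ |t| ^ 3 := by
  have h := Convex.norm_image_sub_le_of_norm_hasDerivWithin_le (f := fun s => Real.tanh s - s)
    (f' := fun s => 1 - Real.tanh s ^ 2 - 1) (s := Metric.closedBall 0 |t|) (C := |t| ^ 2)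
    (fun s _ => ((hasDerivAt_tanh s).sub (hasDerivAt_id s)).hasDerivWithinAt)
    (fun s hs => by
      have h1 : |Real.tanh s| ≤ |t| := by
        have h2 := abs_tanh_sub_le s 0
        rw [Real.tanh_zero, sub_zero, sub_zero] at h2
        exact h2.trans (by simpa using hs)
      rw [show 1 - Real.tanh s ^ 2 - 1 = -Real.tanh s ^ 2 by ring, norm_neg, norm_pow]
      exact pow_le_pow_left₀ (norm_nonneg _) h1 2)
    (convex_closedBall _ _) (Metric.mem_closedBall_self (abs_nonneg t)) (by simp : t ∈ _)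
  simpa [pow_succ] using h

theorem vn_field {B : Mat n} (hB : opn B ≤ 3) (x : Cube n) : vn (Bᵀ *ᵥ sv x) ≤ 3 * √(n : ℝ) := by
  refine (vn_mulVec_le _ _).trans ?_
  rw [opn_transpose, vn_sv]
  exact mul_le_mul_of_nonneg_right hB (Real.sqrt_nonneg _)

theorem opn_sum_le {T : Type} (S : Finset T) (A : T → Mat n) :
    opn (∑ t ∈ S, A t) ≤ ∑ t ∈ S, opn (A t) := by
  simp only [opn, map_sum]
  exact norm_sum_le _ _

theorem abs_mean_le {π : Cube n → ℝ} (hπ : IsP π) (i : Fin n) : |mean π i| ≤ 1 := by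
  rw [← hπ.2]
  exact (Finset.abs_sum_le_sum_abs _ _).trans (Finset.sum_le_sum fun x _ => by
    rw [abs_mul, abs_sp, mul_one, abs_of_pos (hπ.1 x)])

theorem vr_shift {π : Cube n → ℝ} (hπ : IsP π) (u : Vec n) (c : ℝ) :
    ∑ x, π x * (u ⬝ᵥ sv x - c) ^ 2 = vr π u + (u ⬝ᵥ mean π - c) ^ 2 := by
  have h1 : ∑ x, π x * (u ⬝ᵥ sv x) = u ⬝ᵥ mean π := by
    simp only [dotProduct, mean, Finset.mul_sum, sv]
    rw [Finset.sum_comm]
    exact Finset.sum_congr rfl fun i _ => Finset.sum_congr rfl fun x _ => by ring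
  have h2 : ∀ c : ℝ, ∑ x, π x * (u ⬝ᵥ sv x - c) ^ 2 =
      ∑ x, π x * (u ⬝ᵥ sv x) ^ 2 - 2 * c * (u ⬝ᵥ mean π) + c ^ 2 := fun c => by
    rw [← h1, Finset.mul_sum, ← Finset.sum_sub_distrib, ← one_mul (c ^ 2), ← hπ.2, Finset.sum_mul,
      ← Finset.sum_add_distrib]
    exact Finset.sum_congr rfl fun x _ => by ring
  rw [vr, h2, h2]
  ring

end LocAux

theorem tilt_isP (hW : ∀ x, 0 < W x) (θ : Vec n) : IsP (tilt W θ) := by
  have hZ := LocAux.z_pos hW θ
  refine ⟨fun x => div_pos (mul_pos (hW x) (Real.exp_pos _)) hZ, ?_⟩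
  simp only [tilt]
  rw [← Finset.sum_div, div_self hZ.ne']

theorem wts_pos (hW : ∀ x, 0 < W x) (B : ℕ → Mat n) (l : ℕ) (x : Cube n) :
    0 < wts W ε B l x := by
  induction l with
  | zero => exact hW x
  | succ l ih => exact mul_pos ih (Finset.prod_pos fun k _ => inv_pos.2 (Real.cosh_pos _))

theorem wJ_pos (J : Mat n) (x : Cube n) : 0 < wJ J x := Real.exp_pos _

theorem lab_pos (B : Mat n) (x s : Cube n) : 0 < lab ε B x s := by
  rw [LocAux.lab_eq]
  exact mul_pos (mul_pos (by positivity) (Real.exp_pos _))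
    (Finset.prod_pos fun k _ => inv_pos.2 (Real.cosh_pos _))

theorem sum_lab (B : Mat n) (x : Cube n) : ∑ s, lab ε B x s = 1 := by
  have h := LocAux.sum_lab_prod (ε := ε) B x fun _ _ => 1
  simp only [Finset.prod_const_one, mul_one] at h
  rw [h]
  exact Finset.prod_eq_one fun k _ => by ring

theorem lp_isP (hW : ∀ x, 0 < W x) (B : Mat n) (θ : Vec n) : IsP (lp W ε B θ) := by
  have h := tilt_isP hW θ
  refine ⟨fun s => Finset.sum_pos (fun x _ => mul_pos (h.1 x) (lab_pos B x s))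
    Finset.univ_nonempty, ?_⟩
  simp only [lp]
  rw [Finset.sum_comm]
  simp only [← Finset.mul_sum, sum_lab, mul_one, h.2]

/-- Bayes rule, from `lab = 2^-n exp (ε s ⬝ Bᵀ x) / ∏ cosh`. -/
theorem bayes_pt (hW : ∀ x, 0 < W x) (B : Mat n) (θ : Vec n) (x s : Cube n) :
    tilt W θ x * lab ε B x s = lp W ε B θ s * tilt (nxt W ε B) (stp ε B θ s) x := by
  have hZ := LocAux.z_pos hW θ
  have hZ' := LocAux.z_pos (W := nxt W ε B) (wts_pos (ε := ε) hW (fun _ => B) 1) (stp ε B θ s)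
  have key : ∀ y, tilt W θ y * lab ε B y s = (1 / 2) ^ n *
      (nxt W ε B y * Real.exp (stp ε B θ s ⬝ᵥ sv y)) / ∑ y, W y * Real.exp (θ ⬝ᵥ sv y) := by
    intro y
    rw [tilt, LocAux.lab_eq, nxt, stp, add_dotProduct, Real.exp_add]
    ring
  simp only [lp, key]
  rw [← Finset.sum_div, ← Finset.mul_sum, tilt]
  field_simp

theorem ex_step (hW : ∀ x, 0 < W x) (B : Mat n) (θ : Vec n) (f : Cube n → ℝ) :
    ∑ s, lp W ε B θ s * ex (tilt (nxt W ε B) (stp ε B θ s)) f = ex (tilt W θ) f := by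
  simp only [ex, Finset.mul_sum, ← mul_assoc, ← bayes_pt hW]
  rw [Finset.sum_comm]
  refine Finset.sum_congr rfl fun x _ => ?_
  rw [← Finset.sum_mul, ← Finset.mul_sum, sum_lab, mul_one]

theorem tilt_wts_one (hW : ∀ x, 0 < W x) (B : ℕ → Mat n) (l : ℕ) (hB : ∀ j < l, B j = 1)
    (θ : Vec n) : tilt (wts W ε B l) θ = tilt W θ := by
  have key : ∃ c : ℝ, 0 < c ∧ ∀ x, wts W ε B l x = c * W x := by
    induction l with
    | zero => exact ⟨1, one_pos, fun x => (one_mul _).symm⟩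
    | succ l ih =>
      obtain ⟨c, hc, h⟩ := ih fun j hj => hB j (Nat.lt_succ_of_lt hj)
      refine ⟨c * ∏ _k : Fin n, (Real.cosh ε)⁻¹,
        mul_pos hc (Finset.prod_pos fun k _ => inv_pos.2 (Real.cosh_pos _)), fun x => ?_⟩
      have h1 : ∀ k, Real.cosh (ε * sv x k) = Real.cosh ε := fun k => by
        rw [sv]
        cases x k <;> simp [sp]
      simp only [wts, nxt, h, hB l (Nat.lt_succ_self l), transpose_one, one_mulVec, h1]
      ring
  obtain ⟨c, hc, h⟩ := key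
  have hZ := LocAux.z_pos hW θ
  funext x
  simp only [tilt, h, mul_assoc, ← Finset.mul_sum]
  field_simp

theorem fw_mono (B : ℕ → Mat n) (x : Cube n) {g g' : Vec n → ℝ} (h : ∀ θ, g θ ≤ g' θ) (k l : ℕ)
    (θ : Vec n) : fw ε B x g k l θ ≤ fw ε B x g' k l θ := by
  induction k generalizing l θ with
  | zero => exact h θ
  | succ k ih =>
    exact Finset.sum_le_sum fun s _ => mul_le_mul_of_nonneg_left (ih _ _) (lab_pos _ x s).le

theorem fw_add (B : ℕ → Mat n) (x : Cube n) (g g' : Vec n → ℝ) (k l : ℕ) (θ : Vec n) :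
    fw ε B x (fun θ' => g θ' + g' θ') k l θ = fw ε B x g k l θ + fw ε B x g' k l θ := by
  induction k generalizing l θ with
  | zero => rfl
  | succ k ih => simp only [fw, tx, ih, mul_add, Finset.sum_add_distrib]

theorem fw_mul (B : ℕ → Mat n) (x : Cube n) (c : ℝ) (g : Vec n → ℝ) (k l : ℕ) (θ : Vec n) :
    fw ε B x (fun θ' => c * g θ') k l θ = c * fw ε B x g k l θ := by
  induction k generalizing l θ with
  | zero => rfl
  | succ k ih => simp only [fw, tx, ih, Finset.mul_sum, mul_left_comm]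

theorem fw_const (B : ℕ → Mat n) (x : Cube n) (c : ℝ) (k l : ℕ) (θ : Vec n) :
    fw ε B x (fun _ => c) k l θ = c := by
  induction k generalizing l θ with
  | zero => rfl
  | succ k ih => simp only [fw, tx, ih, ← Finset.sum_mul, sum_lab, one_mul]

theorem fw_sum {T : Type} (S : Finset T) (B : ℕ → Mat n) (x : Cube n) (g : T → Vec n → ℝ)
    (k l : ℕ) (θ : Vec n) :
    fw ε B x (fun θ' => ∑ t ∈ S, g t θ') k l θ = ∑ t ∈ S, fw ε B x (g t) k l θ := by
  induction k generalizing l θ with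
  | zero => rfl
  | succ k ih =>
    simp only [fw, tx, ih, Finset.mul_sum]
    exact Finset.sum_comm

theorem fw_comp (B : ℕ → Mat n) (x : Cube n) (g : Vec n → ℝ) (k j l : ℕ) (θ : Vec n) :
    fw ε B x g (k + j) l θ = fw ε B x (fw ε B x g j (l + k)) k l θ := by
  induction k generalizing l θ with
  | zero => rw [Nat.zero_add]; rfl
  | succ k ih =>
    rw [show k + 1 + j = k + j + 1 by omega, show l + (k + 1) = l + 1 + k by omega]
    simp only [fw, tx, ih]

theorem fw_shift (B : ℕ → Mat n) (x : Cube n) (g : Vec n → ℝ) (k l : ℕ) (θ a : Vec n) :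
    fw ε B x g k l (θ + a) = fw ε B x (fun θ' => g (θ' + a)) k l θ := by
  induction k generalizing l θ with
  | zero => rfl
  | succ k ih => simp only [fw, tx, stp, add_right_comm θ a, ih]

theorem fw_congr {B B' : ℕ → Mat n} (x : Cube n) (g : Vec n → ℝ) (k l : ℕ)
    (h : ∀ j < l + k, B j = B' j) (θ : Vec n) : fw ε B x g k l θ = fw ε B' x g k l θ := by
  induction k generalizing l θ with
  | zero => rfl
  | succ k ih =>
    simp only [fw, tx, h l (by omega), ih (l + 1) fun j hj => h j (by omega)]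

/-- `fw` is a finite average of point evaluations, with weights not depending on `g`. -/
theorem fw_repr (B : ℕ → Mat n) (x : Cube n) (k l : ℕ) (θ : Vec n) :
    ∃ (T : Type) (_ : Fintype T) (p : T → ℝ) (y : T → Vec n), (∀ t, 0 ≤ p t) ∧ ∑ t, p t = 1 ∧
      ∀ g : Vec n → ℝ, fw ε B x g k l θ = ∑ t, p t * g (y t) := by
  induction k generalizing l θ with
  | zero => exact ⟨Unit, inferInstance, fun _ => 1, fun _ => θ, fun _ => zero_le_one, by simp,
      fun g => by simp [fw]⟩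
  | succ k ih =>
    choose T hT p y h0 h1 h2 using fun s => ih (l + 1) (stp ε (B l) θ s)
    refine ⟨Σ s, T s, inferInstance, fun t => lab ε (B l) x t.1 * p t.1 t.2, fun t => y t.1 t.2,
      fun t => mul_nonneg (lab_pos _ _ _).le (h0 _ _), ?_, fun g => ?_⟩
    · rw [Fintype.sum_sigma]
      simp only [← Finset.mul_sum, h1, mul_one, sum_lab]
    · rw [Fintype.sum_sigma]
      simp only [fw, tx, h2, Finset.mul_sum, mul_assoc]

/-- Exact exponential moments. -/
theorem fw_exp (B : ℕ → Mat n) (x : Cube n) (a : Vec n) (k l : ℕ) (θ : Vec n) :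
    fw ε B x (fun θ' => Real.exp (a ⬝ᵥ θ')) k l θ = Real.exp (a ⬝ᵥ θ) *
      ∏ j ∈ Finset.range k, ∏ q, (Real.cosh (ε * ((B (l + j))ᵀ *ᵥ a) q) +
        Real.tanh (ε * ((B (l + j))ᵀ *ᵥ sv x) q) * Real.sinh (ε * ((B (l + j))ᵀ *ᵥ a) q)) := by
  induction k generalizing l θ with
  | zero => simp [fw]
  | succ k ih =>
    have h1 : ∀ s, Real.exp (a ⬝ᵥ stp ε (B l) θ s) = Real.exp (a ⬝ᵥ θ) *
        ∏ q, Real.exp (sp (s q) * (ε * ((B l)ᵀ *ᵥ a) q)) := fun s => by
      rw [stp, dotProduct_add, Real.exp_add, ← Real.exp_sum, LocAux.sum_sp,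
        dotProduct_comm _ a]
    have h2 := LocAux.sum_lab_prod (ε := ε) (B l) x
      fun q b => Real.exp (sp b * (ε * ((B l)ᵀ *ᵥ a) q))
    simp only [fw, tx, ih, h1]
    rw [Finset.prod_range_succ']
    simp only [← mul_assoc, ← Finset.sum_mul]
    simp only [mul_assoc, mul_left_comm (lab ε (B l) x _), ← Finset.mul_sum, h2]
    rw [mul_comm (∏ k, _)]
    refine congrArg _ (congrArg₂ _ (Finset.prod_congr rfl fun j _ => ?_)
      (Finset.prod_congr rfl fun q _ => ?_))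
    · rw [show l + 1 + j = l + (j + 1) by omega]
    · simp only [sp, if_true, Bool.false_eq_true, if_false, one_mul, neg_mul, Nat.add_zero,
        Real.cosh_eq, Real.sinh_eq]
      ring

theorem pe_zero (B : ℕ → Mat n) (l : ℕ) (θ : Vec n) (φ : Cube n → Vec n → ℝ) :
    pe W ε B l 0 θ φ = ∑ x, tilt (wts W ε B l) θ x * φ x θ := rfl

theorem pe_first (hW : ∀ x, 0 < W x) (B : ℕ → Mat n) (l k : ℕ) (θ : Vec n)
    (φ : Cube n → Vec n → ℝ) :
    pe W ε B l (k + 1) θ φ =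
      ∑ s, lp (wts W ε B l) ε (B l) θ s * pe W ε B (l + 1) k (stp ε (B l) θ s) φ := by
  simp only [pe, fw, tx, Finset.mul_sum, ← mul_assoc, bayes_pt (wts_pos hW B l)]
  exact Finset.sum_comm

theorem pe_cond (hW : ∀ x, 0 < W x) (B : ℕ → Mat n) (l k : ℕ) (θ : Vec n)
    (φ : Cube n → Vec n → ℝ) :
    pe W ε B l k θ φ =
      pe W ε B l k θ fun _ θ' => ∑ x, tilt (wts W ε B (l + k)) θ' x * φ x θ' := by
  induction k generalizing l θ with
  | zero =>
    rw [pe_zero, pe_zero, ← Finset.sum_mul, (tilt_isP (wts_pos hW B l) θ).2, one_mul]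
    rfl
  | succ k ih =>
    rw [pe_first hW, pe_first hW, show l + (k + 1) = l + 1 + k by omega]
    exact Finset.sum_congr rfl fun s _ => by rw [ih]

theorem pe_tower (hW : ∀ x, 0 < W x) (B : ℕ → Mat n) (l k j : ℕ) (θ : Vec n)
    (φ : Cube n → Vec n → ℝ) :
    pe W ε B l (k + j) θ φ = pe W ε B l k θ fun _ θ' => pe W ε B (l + k) j θ' φ := by
  induction k generalizing l θ with
  | zero =>
    rw [pe_zero, ← Finset.sum_mul, (tilt_isP (wts_pos hW B l) θ).2, one_mul, Nat.zero_add]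
    rfl
  | succ k ih =>
    rw [show k + 1 + j = k + j + 1 by omega, pe_first hW, pe_first hW,
      show l + (k + 1) = l + 1 + k by omega]
    exact Finset.sum_congr rfl fun s _ => by rw [ih]

theorem pe_last (hW : ∀ x, 0 < W x) (B : ℕ → Mat n) (l k : ℕ) (θ : Vec n) (g : Vec n → ℝ) :
    pe W ε B l (k + 1) θ (fun _ => g) = pe W ε B l k θ fun _ θ' =>
      ∑ s, lp (wts W ε B (l + k)) ε (B (l + k)) θ' s * g (stp ε (B (l + k)) θ' s) := by
  rw [pe_tower hW]
  refine congrArg _ (funext fun _ => funext fun θ' => ?_)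
  rw [pe_first hW]
  refine Finset.sum_congr rfl fun s _ => ?_
  rw [pe_zero, ← Finset.sum_mul, (tilt_isP (wts_pos hW B _) _).2, one_mul]

theorem pe_mono (hW : ∀ x, 0 < W x) (B : ℕ → Mat n) (l k : ℕ) (θ : Vec n)
    {φ φ' : Cube n → Vec n → ℝ} (h : ∀ x θ', φ x θ' ≤ φ' x θ') :
    pe W ε B l k θ φ ≤ pe W ε B l k θ φ' := by
  exact Finset.sum_le_sum fun x _ => mul_le_mul_of_nonneg_left (fw_mono B x (h x) k l θ)
    ((tilt_isP (wts_pos hW B l) θ).1 x).le

theorem pe_add (B : ℕ → Mat n) (l k : ℕ) (θ : Vec n) (φ φ' : Cube n → Vec n → ℝ) :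
    pe W ε B l k θ (fun x θ' => φ x θ' + φ' x θ') = pe W ε B l k θ φ + pe W ε B l k θ φ' := by
  simp only [pe, fw_add, mul_add, Finset.sum_add_distrib]

theorem pe_mul (B : ℕ → Mat n) (l k : ℕ) (θ : Vec n) (c : ℝ) (φ : Cube n → Vec n → ℝ) :
    pe W ε B l k θ (fun x θ' => c * φ x θ') = c * pe W ε B l k θ φ := by
  simp only [pe, fw_mul, Finset.mul_sum, mul_left_comm]

theorem pe_fun (B : ℕ → Mat n) (l k : ℕ) (θ : Vec n) (f : Cube n → ℝ) :
    pe W ε B l k θ (fun x _ => f x) = ex (tilt (wts W ε B l) θ) f := by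
  simp only [pe, fw_const, ex]

theorem pe_const (hW : ∀ x, 0 < W x) (B : ℕ → Mat n) (l k : ℕ) (θ : Vec n) (c : ℝ) :
    pe W ε B l k θ (fun _ _ => c) = c := by
  simp only [pe, fw_const, ← Finset.sum_mul, (tilt_isP (wts_pos hW B l) θ).2, one_mul]

theorem pe_ex (hW : ∀ x, 0 < W x) (B : ℕ → Mat n) (l k : ℕ) (θ : Vec n) (f : Cube n → ℝ) :
    pe W ε B l k θ (fun _ θ' => ex (tilt (wts W ε B (l + k)) θ') f) =
      ex (tilt (wts W ε B l) θ) f := by
  rw [← pe_fun B l k θ f, pe_cond hW B l k θ fun x _ => f x]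
  rfl

theorem pe_congr {B B' : ℕ → Mat n} (l k : ℕ) (h : ∀ j < l + k, B j = B' j) (θ : Vec n)
    (φ : Cube n → Vec n → ℝ) : pe W ε B l k θ φ = pe W ε B' l k θ φ := by
  have h1 : ∀ m, m ≤ l → wts W ε B m = wts W ε B' m := fun m hm => by
    induction m with
    | zero => rfl
    | succ m ih => simp only [wts, ih (by omega), h m (by omega)]
  simp only [pe, h1 l le_rfl, fw_congr _ _ k l h]

/-- Change of the initial field: the tilted measures differ by a factor `exp (2 |a| sqrt n)`. -/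
theorem pe_shift (hW : ∀ x, 0 < W x) (B : ℕ → Mat n) (l k : ℕ) (θ a : Vec n) {g g' : Vec n → ℝ}
    (h0 : ∀ θ', 0 ≤ g θ') (h : ∀ θ', g' (θ' + a) ≤ g θ') :
    pe W ε B l k (θ + a) (fun _ => g') ≤
      Real.exp (2 * vn a * √(n : ℝ)) * pe W ε B l k θ fun _ => g := by
  simp only [pe, Finset.mul_sum, fw_shift, ← mul_assoc]
  refine Finset.sum_le_sum fun x _ => ?_
  have h1 : 0 ≤ fw ε B x g k l θ := by
    rw [← fw_const (ε := ε) B x 0 k l θ]
    exact fw_mono B x h0 k l θ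
  exact (mul_le_mul_of_nonneg_left (fw_mono B x h k l θ)
    ((tilt_isP (wts_pos hW B l) _).1 x).le).trans
    (mul_le_mul_of_nonneg_right (LocAux.tilt_shift (wts_pos hW B l) θ a x) h1)

/-- First moment of the label: `|tanh t - t| ≤ |t|³`, `|(Bᵀ x) k| ≤ 3 sqrt n`. -/
theorem lp_mom_one (hW : ∀ x, 0 < W x) {B : Mat n} (hB : opn B ≤ 3) (hε : 0 < ε) (θ : Vec n) :
    vn (∑ s, lp W ε B θ s • sv s - ε • Bᵀ *ᵥ mean (tilt W θ)) ≤ 27 * ε ^ 3 * n ^ 2 := by
  have hp := tilt_isP hW θ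
  have e : ∑ s, lp W ε B θ s • sv s - ε • Bᵀ *ᵥ mean (tilt W θ) = ∑ x, tilt W θ x •
      fun k => Real.tanh (ε * (Bᵀ *ᵥ sv x) k) - ε * (Bᵀ *ᵥ sv x) k := by
    have e1 : mean (tilt W θ) = ∑ x, tilt W θ x • sv x := by
      funext i
      simp only [mean, Finset.sum_apply, Pi.smul_apply, smul_eq_mul, sv]
    funext k
    rw [e1, mulVec_sum]
    simp only [Finset.sum_apply, Pi.smul_apply, Pi.sub_apply, smul_eq_mul, lp, Finset.sum_mul,
      mulVec_smul, mul_sub, Finset.sum_sub_distrib, Finset.mul_sum]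
    rw [Finset.sum_comm]
    refine congrArg₂ _ (Finset.sum_congr rfl fun x _ => ?_) (Finset.sum_congr rfl fun x _ => ?_)
    · simp only [mul_assoc, ← Finset.mul_sum, sv, LocAux.lab_one]
    · ring
  rw [e]
  refine (vn_sum_le _ _).trans ?_
  rw [← one_mul (27 * ε ^ 3 * (n : ℝ) ^ 2), ← hp.2, Finset.sum_mul]
  refine Finset.sum_le_sum fun x _ => ?_
  rw [vn_smul, abs_of_pos (hp.1 x)]
  refine mul_le_mul_of_nonneg_left ?_ (hp.1 x).le
  have h1 : ∀ k, |ε * (Bᵀ *ᵥ sv x) k| ≤ ε * (3 * √(n : ℝ)) := fun k => by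
    rw [abs_mul, abs_of_pos hε]
    exact mul_le_mul_of_nonneg_left ((abs_le_vn _ k).trans (LocAux.vn_field hB x)) hε.le
  refine (vn_le_sqrt (c := (ε * (3 * √(n : ℝ))) ^ 3) (by positivity) fun k =>
    (LocAux.abs_tanh_sub _).trans (pow_le_pow_left₀ (abs_nonneg _) (h1 k) 3)).trans (le_of_eq ?_)
  have h2 : (n : ℝ) ^ 2 = √(n : ℝ) ^ 4 := by
    rw [show 4 = 2 * 2 from rfl, pow_mul, Real.sq_sqrt (Nat.cast_nonneg n)]
  rw [h2]
  ring

/-- Second moment: given `x` it is `1 + τ τᵀ - diagonal τ²` with `|τ|² ≤ 9 ε² n`. -/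
theorem lp_mom_two (hW : ∀ x, 0 < W x) {B : Mat n} (hB : opn B ≤ 3) (θ : Vec n) :
    opn ((Matrix.of fun k k' => ∑ s, lp W ε B θ s * (sp (s k) * sp (s k'))) - 1) ≤
      18 * ε ^ 2 * n := by
  have hp := tilt_isP hW θ
  set τ : Cube n → Vec n := fun x k => Real.tanh (ε * (Bᵀ *ᵥ sv x) k) with hτ
  have e : (Matrix.of fun k k' => ∑ s, lp W ε B θ s * (sp (s k) * sp (s k'))) - 1 =
      ∑ x, tilt W θ x • (vecMulVec (τ x) (τ x) - diagonal fun k => τ x k * τ x k) := by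
    ext k k'
    simp only [Matrix.sub_apply, of_apply, lp, Finset.sum_mul, Matrix.sum_apply, Matrix.smul_apply,
      smul_eq_mul, vecMulVec_apply]
    rw [Finset.sum_comm]
    by_cases h : k = k'
    · subst h
      simp only [← sq, sp_sq, mul_one, ← Finset.mul_sum, sum_lab, hp.2, one_apply_eq,
        diagonal_apply_eq, sub_self, mul_zero, Finset.sum_const_zero]
    · simp only [one_apply_ne h, diagonal_apply_ne _ h, sub_zero, mul_assoc, ← Finset.mul_sum]
      simp only [LocAux.lab_two B _ h, hτ]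
  rw [e]
  refine (LocAux.opn_sum_le _ _).trans ?_
  rw [← one_mul (18 * ε ^ 2 * (n : ℝ)), ← hp.2, Finset.sum_mul]
  refine Finset.sum_le_sum fun x _ => ?_
  rw [opn_smul, abs_of_pos (hp.1 x)]
  refine mul_le_mul_of_nonneg_left ?_ (hp.1 x).le
  have h1 : vn (τ x) ≤ |ε| * (3 * √(n : ℝ)) := by
    refine (vn_mono (v := ε • Bᵀ *ᵥ sv x) fun k => ?_).trans ?_
    · simpa using abs_tanh_sub_le (ε * (Bᵀ *ᵥ sv x) k) 0
    · rw [vn_smul]
      exact mul_le_mul_of_nonneg_left (LocAux.vn_field hB x) (abs_nonneg _)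
  have h2 : vn (τ x) * vn (τ x) ≤ 9 * ε ^ 2 * n := by
    refine (mul_le_mul h1 h1 (vn_nonneg _) (by positivity)).trans (le_of_eq ?_)
    rw [← sq, mul_pow, mul_pow, sq_abs, Real.sq_sqrt (Nat.cast_nonneg n)]
    ring
  have h3 := opn_vecMulVec_le (τ x) (τ x)
  have h4 : opn (diagonal fun k => τ x k * τ x k) ≤ vn (τ x) * vn (τ x) :=
    opn_diagonal_le (mul_self_nonneg _) fun k => by
      rw [abs_mul]
      exact mul_le_mul (abs_le_vn _ k) (abs_le_vn _ k) (abs_nonneg _) (vn_nonneg _)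
  linarith [opn_sub_le (vecMulVec (τ x) (τ x)) (diagonal fun k => τ x k * τ x k)]

theorem vn_mean_le {π : Cube n → ℝ} (hπ : IsP π) : vn (mean π) ≤ √(n : ℝ) := by
  simpa using vn_le_sqrt zero_le_one (LocAux.abs_mean_le hπ)

theorem vn_cov_le {π f : Cube n → ℝ} (hπ : IsP π) (hf : ∀ x, 0 < f x) :
    vn (cov π f) ≤ 2 * ex π f * √(n : ℝ) := by
  have h0 : 0 ≤ ex π f := Finset.sum_nonneg fun x _ => (mul_pos (hπ.1 x) (hf x)).le
  refine vn_le_sqrt (by positivity) fun i => (abs_sub _ _).trans ?_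
  have h1 : |∑ x, π x * f x * sp (x i)| ≤ ex π f :=
    (Finset.abs_sum_le_sum_abs _ _).trans (Finset.sum_le_sum fun x _ => by
      rw [abs_mul, abs_sp, mul_one, abs_of_pos (mul_pos (hπ.1 x) (hf x))])
  have h2 : |ex π f * mean π i| ≤ ex π f := by
    rw [abs_mul, abs_of_nonneg h0]
    exact mul_le_of_le_one_right h0 (LocAux.abs_mean_le hπ i)
  linarith

theorem mean_step (hW : ∀ x, 0 < W x) (B : Mat n) (θ : Vec n) :
    ∑ s, lp W ε B θ s • mean (tilt (nxt W ε B) (stp ε B θ s)) = mean (tilt W θ) := by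
  funext i
  rw [Finset.sum_apply]
  exact ex_step hW B θ fun x => sp (x i)

/-- Law of total variance. -/
theorem vr_step (hW : ∀ x, 0 < W x) (B : Mat n) (θ u : Vec n) :
    vr (tilt W θ) u = ∑ s, lp W ε B θ s * (vr (tilt (nxt W ε B) (stp ε B θ s)) u +
      (u ⬝ᵥ (mean (tilt (nxt W ε B) (stp ε B θ s)) - mean (tilt W θ))) ^ 2) := by
  have h := ex_step (ε := ε) hW B θ fun x => (u ⬝ᵥ sv x - u ⬝ᵥ mean (tilt W θ)) ^ 2
  refine h.symm.trans (Finset.sum_congr rfl fun s _ => ?_)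
  rw [dotProduct_sub, ← LocAux.vr_shift
    (tilt_isP (W := nxt W ε B) (wts_pos (ε := ε) hW (fun _ => B) 1) _)]
  rfl

theorem vr_le {π : Cube n → ℝ} (hπ : IsP π) (u : Vec n) : vr π u ≤ n * (u ⬝ᵥ u) := by
  have h := LocAux.vr_shift hπ u 0
  have h1 : ∑ x, π x * (u ⬝ᵥ sv x - 0) ^ 2 ≤ ∑ x, π x * (n * (u ⬝ᵥ u)) :=
    Finset.sum_le_sum fun x _ => mul_le_mul_of_nonneg_left (by
      rw [sub_zero, ← sq_abs, dot_self, ← Real.sq_sqrt (Nat.cast_nonneg n), ← mul_pow, ← vn_sv x,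
        mul_comm]
      exact pow_le_pow_left₀ (abs_nonneg _) (abs_dot_le _ _) 2) (hπ.1 x).le
  rw [← Finset.sum_mul, hπ.2, one_mul] at h1
  linarith [sq_nonneg (u ⬝ᵥ mean π - 0)]

end Vale.Agent.P150
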