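import Vale.Agent.P150.Semi
import Vale.Agent.P150.TapTaylor

/-! Semigroup interpolation and the pointwise curvature bound. -/

open MeasureTheory ProbabilityTheory Matrix Filter Topology
open scoped ENNReal NNReal

namespace Vale.Agent.P150

namespace Low

open Semi

section Gen

variable {S : Type} [Fintype S] [DecidableEq S]

set_option backward.isDefEq.respectTransparency false in
theorem hd_exp (L : Matrix S S ℝ) (t : ℝ) (x y : S) :
    HasDerivAt (fun u : ℝ => NormedSpace.exp (u • L) x y) ((NormedSpace.exp (t • L) * L) x y) t ∧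
    HasDerivAt (fun u : ℝ => NormedSpace.exp (u • L) x y) ((L * NormedSpace.exp (t • L)) x y) t := by
  open scoped Matrix.Norms.Operator in
  exact ⟨(LinearMap.toContinuousLinearMap
      (Matrix.entryLinearMap ℝ ℝ x y)).hasFDerivAt.comp_hasDerivAt t
      (hasDerivAt_exp_smul_const L t),
    (LinearMap.toContinuousLinearMap
      (Matrix.entryLinearMap ℝ ℝ x y)).hasFDerivAt.comp_hasDerivAt t
      (hasDerivAt_exp_smul_const' L t)⟩

theorem hd_back (L : Matrix S S ℝ) (f : S → ℝ) (t s : ℝ) (y : S) :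
    HasDerivAt (fun s : ℝ => (NormedSpace.exp ((t - s) • L) *ᵥ f) y)
      (-(L *ᵥ (NormedSpace.exp ((t - s) • L) *ᵥ f)) y) s := by
  have h : ∀ z, HasDerivAt (fun s : ℝ => NormedSpace.exp ((t - s) • L) y z * f z)
      (-((L * NormedSpace.exp ((t - s) • L)) y z) * f z) s := fun z =>
    (((hd_exp L (t - s) y z).2.comp_const_sub t s)).mul_const _
  have h2 := HasDerivAt.fun_sum (u := Finset.univ) fun z _ => h z
  rw [mulVec_mulVec]
  simpa only [mulVec, dotProduct, neg_mul, Finset.sum_neg_distrib] using h2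

theorem sg_mono {L : Matrix S S ℝ} (hP : ∀ s : ℝ, 0 ≤ s → ∀ x y, 0 ≤ NormedSpace.exp (s • L) x y)
    {F F' : ℝ → S → ℝ} (hF : ∀ s y, HasDerivAt (fun s => F s y) (F' s y) s) {t : ℝ} (ht : 0 ≤ t)
    (h : ∀ s, 0 ≤ s → s ≤ t → ∀ y, 0 ≤ (L *ᵥ F s) y + F' s y) (x : S) :
    F 0 x ≤ (NormedSpace.exp (t • L) *ᵥ F t) x := by
  have h1 : ∀ s, HasDerivAt (fun s : ℝ => ∑ y, NormedSpace.exp (s • L) x y * F s y)
      (∑ y, NormedSpace.exp (s • L) x y * ((L *ᵥ F s) y + F' s y)) s := fun s => by
    have h2 := HasDerivAt.fun_sum (u := Finset.univ) fun y _ => ((hd_exp L s x y).1.mul (hF s y))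
    refine h2.congr_deriv ?_
    have h3 := congrFun (mulVec_mulVec (F s) (NormedSpace.exp (s • L)) L) x
    simp only [mul_add, Finset.sum_add_distrib]
    congr 1
    exact h3.symm
  have h2 := monotoneOn_of_deriv_nonneg (convex_Icc 0 t)
    (fun s _ => (h1 s).continuousAt.continuousWithinAt)
    (fun s _ => (h1 s).differentiableAt.differentiableWithinAt) (fun s hs => by
      rw [interior_Icc] at hs
      rw [(h1 s).deriv]
      exact Finset.sum_nonneg fun y _ => mul_nonneg (hP s hs.1.le x y) (h s hs.1.le hs.2.le y))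
    ⟨le_rfl, ht⟩ ⟨ht, le_rfl⟩ ht
  simpa [Matrix.one_apply, mulVec, dotProduct] using h2

end Gen

variable {n : ℕ}

/-- Flip of one spin. -/
def fl (i : Fin n) (x : Cube n) : Cube n := Function.update x i (!x i)

/-- Flip difference. -/
def df (i : Fin n) (F : Cube n → ℝ) (x : Cube n) : ℝ := F (fl i x) - F x

/-- Squared gradient. -/
def ng (F : Cube n → ℝ) (x : Cube n) : ℝ := ∑ j, df j F x ^ 2

/-- Flip probability. -/
noncomputable def pp (β : ℝ) (g : Pair n → ℝ) (i : Fin n) (x : Cube n) : ℝ :=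
  (1 - sp (x i) * Real.tanh (field β g x i)) / 2

/-- The coupling matrix. -/
noncomputable def cm (β : ℝ) (g : Pair n → ℝ) : Mat n := Matrix.of fun i j => β / √(n : ℝ) * sym g i j

theorem sp_not (b : Bool) : sp (!b) = -sp b := by cases b <;> simp [sp]

theorem fl_self (i : Fin n) (x : Cube n) : fl i x i = !x i := by simp [fl]

theorem fl_ne {i j : Fin n} (h : j ≠ i) (x : Cube n) : fl i x j = x j := by simp [fl, h]

theorem fl_fl (i : Fin n) (x : Cube n) : fl i (fl i x) = x := by
  funext j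
  by_cases h : j = i
  · subst h; simp [fl]
  · simp [fl, h]

theorem fl_comm (i j : Fin n) (x : Cube n) : fl i (fl j x) = fl j (fl i x) := by
  by_cases h : i = j
  · rw [h]
  · funext k
    by_cases h1 : k = i
    · subst h1; simp [fl, h]
    · by_cases h2 : k = j
      · subst h2; simp [fl, h1]
      · simp [fl, h1, h2]

theorem pp_mem (β : ℝ) (g : Pair n → ℝ) (i : Fin n) (x : Cube n) :
    0 ≤ pp β g i x ∧ pp β g i x ≤ 1 ∧ 1 - Real.tanh (field β g x i) ^ 2 ≤ 4 * pp β g i x := by
  have h := abs_lt.1 (Real.abs_tanh_lt_one (field β g x i))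
  unfold pp
  cases x i <;> simp only [sp, if_true, Bool.false_eq_true, if_false] <;>
    refine ⟨by linarith, by linarith, by nlinarith⟩

theorem gen_fl (β : ℝ) (g : Pair n → ℝ) (F : Cube n → ℝ) (x : Cube n) :
    (gen β g *ᵥ F) x = ∑ i, pp β g i x * df i F x := by
  simp only [gen, Matrix.sum_mulVec, sub_mulVec, one_mulVec, Finset.sum_apply, Pi.sub_apply]
  refine Finset.sum_congr rfl fun i _ => ?_
  simp only [mulVec, dotProduct, heat, of_apply, ite_mul, zero_mul]
  rw [sum_agree x i fun y => Real.exp (sp (y i) * field β g x i) /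
    (2 * Real.cosh (field β g x i)) * F y]
  have h0 := Real.exp_pos (field β g x i)
  have h1 := Real.exp_pos (-field β g x i)
  have hx := Function.update_eq_self i x
  simp only [Function.update_self, pp, df, fl, Real.tanh_eq_sinh_div_cosh, Real.cosh_eq,
    Real.sinh_eq]
  cases hb : x i <;> rw [hb] at hx <;>
    simp only [hx, sp, if_true, Bool.false_eq_true, if_false, one_mul, neg_mul, Bool.not_true,
      Bool.not_false] <;> field_simp <;> ring

theorem field_fl (β : ℝ) (g : Pair n → ℝ) (i j : Fin n) (x : Cube n) :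
    field β g (fl j x) i = field β g x i + -(2 * cm β g i j * sp (x j)) := by
  have h : ∀ y : Cube n, field β g y i = ∑ k, cm β g i k * sp (y k) := fun y => by
    rw [field, Finset.mul_sum, ← Finset.add_sum_erase _ _ (Finset.mem_univ i)]
    simp [cm, sym_self, mul_assoc]
  rw [h, h, ← Finset.add_sum_erase _ _ (Finset.mem_univ j),
    ← Finset.add_sum_erase _ _ (Finset.mem_univ j), fl_self, sp_not,
    Finset.sum_congr rfl fun k hk => by rw [fl_ne (Finset.ne_of_mem_erase hk)]]
  ring

theorem tanh_ratio (h d : ℝ) :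
    |Real.tanh (h + d) - Real.tanh h| ≤ Real.exp (2 * |d|) * (1 - Real.tanh h ^ 2) * |d| := by
  have e : ∀ t, 1 - Real.tanh t ^ 2 = 1 / Real.cosh t ^ 2 := fun t => by
    have := Real.cosh_pos t
    rw [Real.tanh_eq_sinh_div_cosh]
    field_simp
    linarith [Real.cosh_sq t]
  refine tt_mvt (φ := fun s => Real.tanh (h + s) - Real.tanh h)
    (fun s => ((hasDerivAt_tanh (h + s)).comp_const_add h s).sub_const _) (by simp) fun s hs => ?_
  have h1 : Real.cosh h ≤ Real.exp |d| * Real.cosh (h + s) := by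
    have h2 : Real.exp h ≤ Real.exp |d| * Real.exp (h + s) := by
      rw [← Real.exp_add]; exact Real.exp_le_exp.2 (by linarith [neg_abs_le s])
    have h3 : Real.exp (-h) ≤ Real.exp |d| * Real.exp (-(h + s)) := by
      rw [← Real.exp_add]; exact Real.exp_le_exp.2 (by linarith [le_abs_self s])
    rw [Real.cosh_eq, Real.cosh_eq]
    linarith
  have h2 := Real.cosh_pos h
  have h3 := Real.cosh_pos (h + s)
  rw [e, e, abs_of_pos (by positivity), mul_one_div, div_le_div_iff₀ (by positivity) (by positivity),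
    two_mul, Real.exp_add]
  nlinarith [pow_le_pow_left₀ h2.le h1 2]

theorem term_le {p q u v w a σ τ D K : ℝ} (hp : 0 ≤ p) (hp1 : p ≤ 1)
    (h1 : |q - σ * τ * a * D| ≤ 2 * a ^ 2) (h2 : |q| ≤ K * p * |a|) :
    -(K ^ 2 * (a ^ 2 * v ^ 2)) - 2 * (σ * D * u * (a * (τ * v))) - 2 * (a ^ 2 * u ^ 2) -
      2 * (a ^ 2 * v ^ 2) ≤ p * w ^ 2 - 2 * (v * (q * (u + w))) := by
  have h3 : 2 * (v * (q * w)) ≤ p * w ^ 2 + K ^ 2 * (a ^ 2 * v ^ 2) := by
    have h4 : v * (q * w) ≤ |v| * (K * p * |a| * |w|) := by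
      refine (le_abs_self _).trans ?_
      rw [abs_mul, abs_mul]
      gcongr
    have h5 : 0 ≤ p * (|w| - K * |a| * |v|) ^ 2 := by positivity
    have h6 : p * (K ^ 2 * (a ^ 2 * v ^ 2)) ≤ K ^ 2 * (a ^ 2 * v ^ 2) :=
      mul_le_of_le_one_left (by positivity) hp1
    have h7 : p * (|w| - K * |a| * |v|) ^ 2 = p * w ^ 2 - 2 * (|v| * (K * p * |a| * |w|)) +
        p * (K ^ 2 * (a ^ 2 * v ^ 2)) := by
      rw [← sq_abs w, ← sq_abs a, ← sq_abs v]; ring
    linarith
  have h4 : v * ((q - σ * τ * a * D) * u) ≤ a ^ 2 * u ^ 2 + a ^ 2 * v ^ 2 := by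
    have h5 : v * ((q - σ * τ * a * D) * u) ≤ |v| * (2 * a ^ 2 * |u|) := by
      refine (le_abs_self _).trans ?_
      rw [abs_mul, abs_mul]
      gcongr
    have h6 : 0 ≤ a ^ 2 * (|u| - |v|) ^ 2 := by positivity
    nlinarith [sq_abs u, sq_abs v]
  nlinarith

/-- The curvature constant. -/
noncomputable def cc (M : ℝ) : ℝ := (4 * Real.exp (4 * M)) ^ 2 * M ^ 2 + 2 * M + 4 * M ^ 2

theorem curv {β M : ℝ} {g : Pair n → ℝ} (hM : opn (cm β g) ≤ M) (G : Cube n → ℝ) (x : Cube n) :
    0 ≤ (gen β g *ᵥ ng G) x + cc M * ng G x - 2 * ∑ j, df j G x * df j (gen β g *ᵥ G) x := by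
  set A := cm β g with hA
  set u : Vec n := fun j => df j G x with hu
  set w : Fin n → Fin n → ℝ := fun i j => df j G (fl i x) - df j G x with hw
  set K := 4 * Real.exp (4 * M) with hK
  have e1 : (gen β g *ᵥ ng G) x - 2 * ∑ j, df j G x * df j (gen β g *ᵥ G) x =
      ∑ i, ∑ j, (pp β g i x * w i j ^ 2 -
        2 * (u j * ((pp β g i (fl j x) - pp β g i x) * (u i + w i j)))) := by
    have e2 : ∀ j, df j (gen β g *ᵥ G) x =
        ∑ i, (pp β g i (fl j x) * df i G (fl j x) - pp β g i x * df i G x) := fun j => by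
      rw [df, gen_fl, gen_fl, Finset.sum_sub_distrib]
    rw [gen_fl]
    simp only [e2, Finset.mul_sum]
    rw [Finset.sum_comm (γ := Fin n), ← Finset.sum_sub_distrib]
    refine Finset.sum_congr rfl fun i _ => ?_
    rw [df, ng, ng, ← Finset.sum_sub_distrib, Finset.mul_sum, ← Finset.sum_sub_distrib]
    refine Finset.sum_congr rfl fun j _ => ?_
    simp only [hu, hw, df, fl_comm i j]
    ring
  have e2 : ∀ i j, -(K ^ 2 * (A i j ^ 2 * u j ^ 2)) -
      2 * (sp (x i) * (1 - Real.tanh (field β g x i) ^ 2) * u i * (A i j * (sp (x j) * u j))) -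
      2 * (A i j ^ 2 * u i ^ 2) - 2 * (A i j ^ 2 * u j ^ 2) ≤ pp β g i x * w i j ^ 2 -
        2 * (u j * ((pp β g i (fl j x) - pp β g i x) * (u i + w i j))) := fun i j => by
    obtain ⟨p0, p1, p2⟩ := pp_mem β g i x
    by_cases hij : i = j
    · subst hij
      have h1 : A i i = 0 := by simp [hA, cm, sym_self]
      have h2 : pp β g i (fl i x) = 1 - pp β g i x := by
        rw [pp, pp, field_fl, ← hA, h1, fl_self, sp_not]; simp; ring
      have h3 : w i i = -2 * u i := by simp only [hw, hu, df, fl_fl]; ring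
      rw [h1, h2, h3]
      nlinarith [sq_nonneg (u i)]
    · have hq : pp β g i (fl j x) - pp β g i x = -(sp (x i) / 2) *
          (Real.tanh (field β g x i + -(2 * A i j * sp (x j))) - Real.tanh (field β g x i)) := by
        rw [pp, pp, field_fl, fl_ne hij]; ring
      have hd : |-(2 * A i j * sp (x j))| = 2 * |A i j| := by
        rw [abs_neg, abs_mul, abs_mul, abs_sp]; simp
      have hs : |-(sp (x i) / 2)| = 1 / 2 := by rw [abs_neg, abs_div, abs_sp]; simp
      refine term_le p0 p1 ?_ ?_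
      · have h1 := (tanh_taylor (field β g x i) (-(2 * A i j * sp (x j)))).1
        rw [← sq_abs (-(2 * A i j * sp (x j))), hd, mul_pow, sq_abs] at h1
        have h2 : pp β g i (fl j x) - pp β g i x -
            sp (x i) * sp (x j) * A i j * (1 - Real.tanh (field β g x i) ^ 2) = -(sp (x i) / 2) *
            (Real.tanh (field β g x i + -(2 * A i j * sp (x j))) - Real.tanh (field β g x i) -
              (1 - Real.tanh (field β g x i) ^ 2) * -(2 * A i j * sp (x j))) := by
          rw [hq]; ring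
        rw [h2, abs_mul, hs]
        linarith
      · have h1 := tanh_ratio (field β g x i) (-(2 * A i j * sp (x j)))
        rw [hd] at h1
        have h2 : |A i j| ≤ M := (abs_entry_le A i j).trans hM
        have h3 : Real.exp (2 * (2 * |A i j|)) * (1 - Real.tanh (field β g x i) ^ 2) *
            (2 * |A i j|) ≤ Real.exp (4 * M) * (4 * pp β g i x) * (2 * |A i j|) := by
          have := Real.tanh_sq_lt_one (field β g x i)
          exact mul_le_mul_of_nonneg_right (mul_le_mul (Real.exp_le_exp.2 (by linarith)) p2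
            (by linarith) (Real.exp_pos _).le) (by positivity)
        rw [hq, abs_mul, hs, hK]
        linarith
  have hM0 : 0 ≤ M := (opn_nonneg _).trans hM
  have hN : ng G x = vn u ^ 2 := (vn_sq u).symm
  have e3 : ∑ i, ∑ j, A i j ^ 2 * u j ^ 2 ≤ M ^ 2 * ng G x := by
    rw [Finset.sum_comm, ng, Finset.mul_sum]
    refine Finset.sum_le_sum fun j _ => ?_
    rw [← Finset.sum_mul, ← vn_sq fun i => A i j]
    exact mul_le_mul_of_nonneg_right
      (pow_le_pow_left₀ (vn_nonneg _) ((vn_col_le A j).trans hM) 2) (sq_nonneg _)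
  have e4 : ∑ i, ∑ j, A i j ^ 2 * u i ^ 2 ≤ M ^ 2 * ng G x := by
    rw [ng, Finset.mul_sum]
    refine Finset.sum_le_sum fun i _ => ?_
    rw [← Finset.sum_mul, ← vn_sq fun j => A i j]
    exact mul_le_mul_of_nonneg_right
      (pow_le_pow_left₀ (vn_nonneg _) ((vn_row_le A i).trans hM) 2) (sq_nonneg _)
  have e5 : ∑ i, ∑ j, sp (x i) * (1 - Real.tanh (field β g x i) ^ 2) * u i *
      (A i j * (sp (x j) * u j)) ≤ M * ng G x := by
    have h1 := (le_abs_self _).trans (abs_dot_mulVec_le A
      (fun i => sp (x i) * (1 - Real.tanh (field β g x i) ^ 2) * u i) fun j => sp (x j) * u j)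
    have h2 : vn (fun i => sp (x i) * (1 - Real.tanh (field β g x i) ^ 2) * u i) ≤ 1 * vn u :=
      vn_mul_le zero_le_one fun i => by
        have := Real.tanh_sq_lt_one (field β g x i)
        rw [abs_mul, abs_sp, one_mul, abs_le]
        constructor <;> nlinarith [sq_nonneg (Real.tanh (field β g x i))]
    have h3 : vn (fun j => sp (x j) * u j) ≤ 1 * vn u :=
      vn_mul_le zero_le_one fun i => (abs_sp _).le
    simp only [dotProduct, mulVec, Finset.mul_sum] at h1
    refine h1.trans ?_
    rw [hN]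
    calc _ ≤ M * (1 * vn u) * (1 * vn u) := by
          have := vn_nonneg u
          gcongr
          · exact vn_nonneg _
          · exact vn_nonneg _
      _ = _ := by ring
  have e6 := Finset.sum_le_sum fun i (_ : i ∈ Finset.univ) =>
    Finset.sum_le_sum fun j (_ : j ∈ Finset.univ) => e2 i j
  rw [← e1] at e6
  simp only [Finset.sum_sub_distrib, Finset.sum_neg_distrib, ← Finset.mul_sum _ _ (2 : ℝ),
    ← Finset.mul_sum _ _ (K ^ 2)] at e6
  have e7 := mul_le_mul_of_nonneg_left e3 (sq_nonneg K)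
  rw [cc, ← hK]
  linarith

end Low

end Vale.Agent.P150
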