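import Vale.Agent.P150.LowA
import Vale.Agent.P150.CoreD

/-! The logarithmic lower bound on the mixing time. -/

open MeasureTheory ProbabilityTheory Matrix Filter Topology
open scoped ENNReal NNReal

namespace Vale.Agent.P150

namespace Low

open Semi

variable {n : ℕ} {β M : ℝ} {g : Pair n → ℝ}

theorem ker_sum (hn : 0 < n) (s : ℝ) (x y : Cube n) :
    HasSum (fun j : ℕ => Real.exp (-(s * n)) * ((s * n) ^ j / j.factorial) * (qm β g ^ j) x y)
      (NormedSpace.exp (s • gen β g) x y) := by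
  rw [gen_eq hn, smul_smul]
  exact exp_sub_one _ _ x y

theorem ker_nonneg (hn : 0 < n) (s : ℝ) (hs : 0 ≤ s) (x y : Cube n) :
    0 ≤ NormedSpace.exp (s • gen β g) x y :=
  (ker_sum hn s x y).nonneg fun j => mul_nonneg (by positivity)
    (Matrix.pow_apply_nonneg (qm_rev hn β g).nn j x y)

theorem ker_rev (hn : 0 < n) (s : ℝ) (x y : Cube n) :
    gibbs β g x * NormedSpace.exp (s • gen β g) x y =
      gibbs β g y * NormedSpace.exp (s • gen β g) y x := by
  refine ((ker_sum hn s x y).mul_left _).unique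
    (((ker_sum hn s y x).mul_left _).congr_fun fun j => ?_)
  rw [mul_left_comm, (qm_rev hn β g).pow_rev, mul_left_comm]

theorem gen_const (c : ℝ) (x : Cube n) : (gen β g *ᵥ fun _ => c) x = 0 := by
  simp [gen_fl, df]

theorem ker_const (s c : ℝ) (x : Cube n) : (NormedSpace.exp (s • gen β g) *ᵥ fun _ => c) x = c := by
  have h := exp_eigen (L := gen β g) (ψ := fun _ => c) (μ := 0)
    (funext fun x => by rw [gen_const]; simp) s x
  simpa [mulVec, dotProduct] using h

theorem ker_le (hn : 0 < n) {s c : ℝ} (hs : 0 ≤ s) {F : Cube n → ℝ} (h : ∀ y, F y ≤ c)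
    (x : Cube n) : (NormedSpace.exp (s • gen β g) *ᵥ F) x ≤ c := by
  rw [← ker_const (β := β) (g := g) s c x]
  exact Finset.sum_le_sum fun y _ => mul_le_mul_of_nonneg_left (h y) (ker_nonneg hn s hs x y)

theorem cc_nonneg (hM : 0 ≤ M) : 0 ≤ cc M := by unfold cc; positivity

/-- Gradient estimate. -/
theorem grad_le (hn : 0 < n) (hM : opn (cm β g) ≤ M) {f : Cube n → ℝ} {a t : ℝ} (ht : 0 ≤ t)
    (hf : ∀ y, ng f y ≤ a) (x : Cube n) :
    ng (NormedSpace.exp (t • gen β g) *ᵥ f) x ≤ Real.exp (cc M * t) * a := by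
  set G : ℝ → Cube n → ℝ := fun s => NormedSpace.exp ((t - s) • gen β g) *ᵥ f with hG
  have h1 : ∀ s y, HasDerivAt (fun s => G s y) (-(gen β g *ᵥ G s) y) s := fun s y =>
    hd_back _ f t s y
  have h2 : ∀ s y, HasDerivAt (fun s => Real.exp (cc M * s) * ng (G s) y)
      (Real.exp (cc M * s) * (cc M * ng (G s) y -
        2 * ∑ j, df j (G s) y * df j (gen β g *ᵥ G s) y)) s := fun s y => by
    have h3 := HasDerivAt.fun_sum (u := Finset.univ) fun j _ =>
      (((h1 s (fl j y)).fun_sub (h1 s y)).fun_pow 2)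
    have h4 := (((hasDerivAt_id' s).const_mul (cc M)).exp).fun_mul h3
    refine h4.congr_deriv ?_
    simp only [ng, df, Finset.mul_sum, mul_sub (Real.exp _), ← Finset.sum_add_distrib,
      ← Finset.sum_sub_distrib]
    refine Finset.sum_congr rfl fun j _ => ?_
    push_cast
    ring
  have h3 := sg_mono (ker_nonneg (β := β) (g := g) hn) h2 ht (fun s _ _ y => by
    have h4 : (gen β g *ᵥ fun y => Real.exp (cc M * s) * ng (G s) y) y =
        Real.exp (cc M * s) * (gen β g *ᵥ ng (G s)) y :=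
      congrFun (mulVec_smul (gen β g) (Real.exp (cc M * s)) (ng (G s))) y
    rw [h4, ← mul_add]
    exact mul_nonneg (Real.exp_pos _).le (by linarith [curv hM (G s) y])) x
  simp only [hG, mul_zero, Real.exp_zero, one_mul, sub_zero, sub_self, zero_smul,
    NormedSpace.exp_zero, one_mulVec] at h3
  exact h3.trans (ker_le hn ht (fun y => mul_le_mul_of_nonneg_left (hf y) (Real.exp_pos _).le) x)

/-- Variance estimate. -/
theorem var_le (hn : 0 < n) (hM : opn (cm β g) ≤ M) {f : Cube n → ℝ} {a t : ℝ} (ht : 0 ≤ t)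
    (hf : ∀ y, ng f y ≤ a) (x : Cube n) :
    (NormedSpace.exp (t • gen β g) *ᵥ fun y => f y ^ 2) x -
      (NormedSpace.exp (t • gen β g) *ᵥ f) x ^ 2 ≤ Real.exp (cc M * t) * a * t := by
  set G : ℝ → Cube n → ℝ := fun s => NormedSpace.exp ((t - s) • gen β g) *ᵥ f with hG
  set K := Real.exp (cc M * t) * a with hK
  have ha : 0 ≤ a := le_trans (Finset.sum_nonneg fun _ _ => sq_nonneg _) (hf x)
  have hc := cc_nonneg ((opn_nonneg _).trans hM)
  have h1 : ∀ s y, HasDerivAt (fun s => G s y) (-(gen β g *ᵥ G s) y) s := fun s y =>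
    hd_back _ f t s y
  have h2 : ∀ s y, HasDerivAt (fun s => K * s - G s y ^ 2)
      (K + 2 * G s y * (gen β g *ᵥ G s) y) s := fun s y =>
    (((hasDerivAt_id' s).const_mul K).fun_sub ((h1 s y).fun_pow 2)).congr_deriv
      (by push_cast; ring)
  have h3 := sg_mono (ker_nonneg (β := β) (g := g) hn) h2 ht (fun s hs hst y => by
    have h4 : ng (G s) y ≤ K := (grad_le hn hM (by linarith) hf y).trans
      (mul_le_mul_of_nonneg_right (Real.exp_le_exp.2 (by nlinarith)) ha)
    have h5 : (gen β g *ᵥ fun y => K * s - G s y ^ 2) y + 2 * G s y * (gen β g *ᵥ G s) y =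
        -∑ i, pp β g i y * df i (G s) y ^ 2 := by
      rw [gen_fl, gen_fl, Finset.mul_sum, ← Finset.sum_add_distrib, ← Finset.sum_neg_distrib]
      refine Finset.sum_congr rfl fun i _ => ?_
      simp only [df]
      ring
    have h6 : ∑ i, pp β g i y * df i (G s) y ^ 2 ≤ ng (G s) y :=
      Finset.sum_le_sum fun i _ => mul_le_of_le_one_left (sq_nonneg _) (pp_mem β g i y).2.1
    linarith) x
  simp only [hG, mul_zero, sub_zero, sub_self, zero_smul, NormedSpace.exp_zero, one_mulVec,
    zero_sub] at h3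
  have h4 := congrFun (mulVec_sub (NormedSpace.exp (t • gen β g)) (fun _ => K * t)
    fun y => f y ^ 2) x
  rw [Pi.sub_apply, ker_const] at h4
  have h5 : (NormedSpace.exp (t • gen β g) *ᵥ fun y => K * t - f y ^ 2) x = _ := h4
  linarith

theorem df_spin (i j : Fin n) (y : Cube n) :
    df j (fun z => sp (z i)) y = if i = j then -2 * sp (y i) else 0 := by
  simp only [df]
  split_ifs with h
  · subst h; rw [fl_self, sp_not]; ring
  · rw [fl_ne h, sub_self]

/-- Autocorrelation of one spin. -/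
noncomputable def ac (β : ℝ) (g : Pair n → ℝ) (i : Fin n) (t : ℝ) : ℝ :=
  ∑ x, gibbs β g x * (sp (x i) * (NormedSpace.exp (t • gen β g) *ᵥ fun z => sp (z i)) x)

theorem ac_short (hn : 0 < n) (i : Fin n) {t : ℝ} (ht : 0 ≤ t) : 1 - 2 * t ≤ ac β g i t := by
  have hπ := gibbs_isP β g
  have h1 : ∀ x : Cube n, 1 - 2 * t ≤
      sp (x i) * (NormedSpace.exp (t • gen β g) *ᵥ fun z => sp (z i)) x := fun x => by
    have h2 : ∀ (s : ℝ) (y : Cube n), HasDerivAt (fun s => sp (x i) * sp (y i) + 2 * s) 2 s :=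
      fun s y => by simpa using ((hasDerivAt_id' s).const_mul 2).const_add (sp (x i) * sp (y i))
    have h3 := sg_mono (ker_nonneg (β := β) (g := g) hn) h2 ht (fun s _ _ y => by
      have h4 : (gen β g *ᵥ fun y => sp (x i) * sp (y i) + 2 * s) y =
          sp (x i) * (pp β g i y * (-2 * sp (y i))) := by
        rw [gen_fl, Finset.sum_eq_single i (fun j _ hj => by simp [df, fl_ne hj.symm]) (by simp)]
        simp only [df, fl_self, sp_not]
        ring
      obtain ⟨p0, p1, -⟩ := pp_mem β g i y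
      rw [h4]
      cases x i <;> cases y i <;> simp [sp] <;> linarith) x
    have h4 := congrFun (mulVec_add (NormedSpace.exp (t • gen β g))
      (sp (x i) • fun z => sp (z i)) fun _ => 2 * t) x
    rw [Pi.add_apply, ker_const, mulVec_smul] at h4
    have h5 : (NormedSpace.exp (t • gen β g) *ᵥ fun y => sp (x i) * sp (y i) + 2 * t) x =
      sp (x i) * (NormedSpace.exp (t • gen β g) *ᵥ fun z => sp (z i)) x + 2 * t := h4
    rw [h5, ← sq, sp_sq] at h3
    linarith
  calc 1 - 2 * t = ∑ x, gibbs β g x * (1 - 2 * t) := by rw [← Finset.sum_mul, hπ.2, one_mul]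
    _ ≤ _ := Finset.sum_le_sum fun x _ => mul_le_mul_of_nonneg_left (h1 x) (hπ.1 x).le

theorem ac_double (hn : 0 < n) (i : Fin n) (t : ℝ) : ac β g i t ^ 2 ≤ ac β g i (2 * t) := by
  have hπ := gibbs_isP β g
  set F := NormedSpace.exp (t • gen β g) *ᵥ fun z => sp (z i) with hF
  have h1 : ac β g i (2 * t) = ∑ x, gibbs β g x * F x ^ 2 := by
    rw [ac, two_mul, add_smul, Matrix.exp_add_of_commute _ _ (Commute.refl _), ← mulVec_mulVec,
      ← hF]
    calc _ = ∑ x, ∑ y, gibbs β g x * NormedSpace.exp (t • gen β g) x y * (sp (x i) * F y) := by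
          refine Finset.sum_congr rfl fun x _ => ?_
          simp only [mulVec, dotProduct, Finset.mul_sum]
          exact Finset.sum_congr rfl fun y _ => by ring
      _ = _ := by
          rw [Finset.sum_comm]
          refine Finset.sum_congr rfl fun y _ => ?_
          have h2 : F y = ∑ x, NormedSpace.exp (t • gen β g) y x * sp (x i) := rfl
          rw [sq]
          nth_rewrite 2 [h2]
          rw [Finset.sum_mul, Finset.mul_sum]
          exact Finset.sum_congr rfl fun x _ => by rw [ker_rev hn]; ring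
  have h2 := Finset.sum_sq_le_sum_mul_sum_of_sq_le_mul (Finset.univ : Finset (Cube n))
    (r := fun x => gibbs β g x * (sp (x i) * F x)) (f := gibbs β g)
    (g := fun x => gibbs β g x * F x ^ 2) (fun x _ => (hπ.1 x).le)
    (fun x _ => mul_nonneg (hπ.1 x).le (sq_nonneg _))
    (fun x _ => by rw [mul_pow, mul_pow, sp_sq]; exact le_of_eq (by ring))
  rwa [hπ.2, one_mul, ← h1] at h2

theorem ac_ge (hn : 0 < n) (i : Fin n) {t : ℝ} (ht : 0 ≤ t) : Real.exp (-(4 * t)) ≤ ac β g i t := by
  have key : ∀ k : ℕ, ∀ t : ℝ, 0 ≤ t → t ≤ 2 ^ k / 4 → Real.exp (-(4 * t)) ≤ ac β g i t := by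
    intro k
    induction k with
    | zero =>
      intro t ht ht1
      refine le_trans ?_ (ac_short hn i ht)
      have h1 := Real.add_one_le_exp (4 * t)
      rw [Real.exp_neg, inv_le_iff_one_le_mul₀ (Real.exp_pos _)]
      norm_num at ht1
      nlinarith
    | succ k ih =>
      intro t ht ht1
      have h1 := ih (t / 2) (by linarith) (by rw [pow_succ] at ht1; linarith)
      have h2 := ac_double (β := β) (g := g) hn i (t / 2)
      rw [show 2 * (t / 2) = t by ring] at h2
      refine le_trans (le_of_eq ?_) ((pow_le_pow_left₀ (Real.exp_pos _).le h1 2).trans h2)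
      rw [sq, ← Real.exp_add]; congr 1; ring
  obtain ⟨k, hk⟩ := pow_unbounded_of_one_lt (4 * t) (one_lt_two (α := ℝ))
  exact key k t ht (by linarith)

theorem tv_ge (hn : 0 < n) (hM : opn (cm β g) ≤ M) {t : ℝ} (ht : 0 ≤ t) :
    ∃ x, 1 / 2 - 4 * Real.exp ((cc M + 9) * t) / n ≤ tv β g t x := by
  have hπ := gibbs_isP β g
  have hn0 : (0 : ℝ) < n := by positivity
  set P := NormedSpace.exp (t • gen β g) with hP
  set f : Cube n → Cube n → ℝ := fun x y => ∑ i, sp (x i) * sp (y i) with hf
  have h1 : ∑ x, gibbs β g x * (n * Real.exp (-(4 * t))) ≤ ∑ x, gibbs β g x * (P *ᵥ f x) x := by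
    rw [← Finset.sum_mul, hπ.2, one_mul]
    calc n * Real.exp (-(4 * t)) = ∑ _i : Fin n, Real.exp (-(4 * t)) := by simp
      _ ≤ ∑ i, ac β g i t := Finset.sum_le_sum fun i _ => ac_ge hn i ht
      _ = _ := by
          simp only [ac]
          rw [Finset.sum_comm]
          refine Finset.sum_congr rfl fun x _ => ?_
          simp only [hf, mulVec, dotProduct, Finset.mul_sum]
          rw [Finset.sum_comm]
          exact Finset.sum_congr rfl fun y _ => Finset.sum_congr rfl fun i _ => by ring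
  obtain ⟨x, -, hx⟩ := Finset.exists_le_of_sum_le Finset.univ_nonempty h1
  replace hx := le_of_mul_le_mul_left hx (hπ.1 x)
  refine ⟨x, ?_⟩
  set a := (P *ᵥ f x) x with ha
  have ha0 : 0 < a := lt_of_lt_of_le (by positivity) hx
  have h2 : ∀ y, ng (f x) y ≤ 4 * n := fun y => by
    have h3 : ∀ j, df j (f x) y ^ 2 = 4 := fun j => by
      have h4 : df j (f x) y = ∑ i, sp (x i) * df j (fun z => sp (z i)) y := by
        simp only [df, hf, mul_sub, Finset.sum_sub_distrib]
      rw [h4]
      simp only [df_spin, mul_ite, mul_zero, Finset.sum_ite_eq', Finset.mem_univ, if_true, mul_pow,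
        sp_sq]
      norm_num
    simp [ng, h3, mul_comm]
  have h3 := var_le hn hM ht h2 x
  rw [← hP, ← ha] at h3
  have hrow : ∑ y, P x y = 1 := by simpa [mulVec, dotProduct] using ker_const (β := β) (g := g) t 1 x
  have h4 : ∑ y, gibbs β g y * Real.sign (f x y) = 0 := by
    have hi : Function.Involutive fun (x : Cube n) (j : Fin n) => !x j := fun x => by simp
    have h := Equiv.sum_comp hi.toPerm fun y => gibbs β g y * Real.sign (f x y)
    have h5 : ∀ y : Cube n, gibbs β g (fun j => !y j) = gibbs β g y := fun y => by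
      simp only [gibbs, weight, sp_not, mul_neg, neg_mul, neg_neg]
    simp only [Function.Involutive.coe_toPerm, h5, hf, sp_not, mul_neg, Finset.sum_neg_distrib,
      Real.sign_neg] at h
    simp only [hf]
    linarith
  have h5 : ∀ y, 1 - 2 * (f x y - a) ^ 2 / a ^ 2 ≤ Real.sign (f x y) := fun y => by
    by_cases h : 0 < f x y
    · rw [Real.sign_of_pos h]
      exact sub_le_self _ (by positivity)
    · have h6 : -1 ≤ Real.sign (f x y) := by
        rcases Real.sign_apply_eq (f x y) with e | e | e <;> rw [e] <;> norm_num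
      have h7 : 2 ≤ 2 * (f x y - a) ^ 2 / a ^ 2 := by
        rw [le_div_iff₀ (by positivity)]
        nlinarith [not_lt.1 h]
      linarith
  have h6 : ∑ y, P x y * (1 - 2 * (f x y - a) ^ 2 / a ^ 2) =
      1 - 2 * ((P *ᵥ fun y => f x y ^ 2) x - a ^ 2) / a ^ 2 := by
    have h7 : ∀ y, P x y * (1 - 2 * (f x y - a) ^ 2 / a ^ 2) =
        P x y - 2 / a ^ 2 * (P x y * f x y ^ 2) + 4 / a * (P x y * f x y) - 2 * P x y := fun y => by
      field_simp; ring
    have h8 : ∑ y, P x y * f x y = a := rfl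
    have h9 : ∑ y, P x y * f x y ^ 2 = (P *ᵥ fun y => f x y ^ 2) x := rfl
    simp only [h7, Finset.sum_sub_distrib, Finset.sum_add_distrib, ← Finset.mul_sum, hrow, h8, h9]
    field_simp; ring
  have h7 : ∑ y, P x y * Real.sign (f x y) ≤ ∑ y, |P x y - gibbs β g y| := by
    rw [← sub_zero (∑ y, P x y * Real.sign (f x y)), ← h4, ← Finset.sum_sub_distrib]
    refine Finset.sum_le_sum fun y _ => ?_
    rw [← sub_mul]
    refine (le_abs_self _).trans ?_
    rw [abs_mul]
    refine mul_le_of_le_one_right (abs_nonneg _) ?_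
    rcases Real.sign_apply_eq (f x y) with e | e | e <;> rw [e] <;> norm_num
  have h8 := (Finset.sum_le_sum fun y (_ : y ∈ Finset.univ) =>
    mul_le_mul_of_nonneg_left (h5 y) (ker_nonneg (β := β) (g := g) hn t ht x y)).trans h7
  rw [h6] at h8
  have h9 : ((P *ᵥ fun y => f x y ^ 2) x - a ^ 2) / a ^ 2 ≤ 4 * Real.exp ((cc M + 9) * t) / n := by
    have h10 : t ≤ Real.exp t := by linarith [Real.add_one_le_exp t]
    calc _ ≤ Real.exp (cc M * t) * (4 * n) * Real.exp t / (n * Real.exp (-(4 * t))) ^ 2 := by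
          gcongr
          exact h3.trans (by gcongr)
      _ = _ := by
          rw [show (cc M + 9) * t = cc M * t + t + (4 * t + 4 * t) by ring, Real.exp_add,
            Real.exp_add, Real.exp_add, Real.exp_neg]
          field_simp
  rw [mul_div_assoc] at h8
  unfold tv kernel
  linarith

theorem tmix_ge (M : ℝ) : ∃ c : ℝ, 0 < c ∧ ∀ᶠ n : ℕ in atTop, ∀ (β : ℝ) (g : Pair n → ℝ),
    opn (cm β g) ≤ M → ENNReal.ofReal (c * Real.log n) ≤ tmix β g := by
  have h0 : 0 < |cc M| + 9 := by positivity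
  refine ⟨1 / (2 * (|cc M| + 9)), by positivity, ?_⟩
  filter_upwards [ev_ge 400] with n hn β g hM
  have hn0 : (0 : ℝ) < n := by linarith
  refine le_iInf₂ fun t ht => ?_
  rw [← ENNReal.ofReal_coe_nnreal]
  refine ENNReal.ofReal_le_ofReal ?_
  by_contra hc
  rw [not_le] at hc
  obtain ⟨x, hx⟩ := tv_ge (by exact_mod_cast hn0) hM t.2
  have h1 : (cc M + 9) * t ≤ Real.log n / 2 := by
    rw [one_div_mul_eq_div, lt_div_iff₀ (by positivity)] at hc
    have h2 : (cc M + 9) * t ≤ (|cc M| + 9) * t := by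
      gcongr
      exact le_abs_self _
    linarith
  have h2 : Real.exp ((cc M + 9) * t) ≤ √(n : ℝ) := by
    refine (Real.exp_le_exp.2 h1).trans (le_of_eq ?_)
    rw [Real.exp_half, Real.exp_log hn0]
  have h3 : 20 ≤ √(n : ℝ) := Real.le_sqrt_of_sq_le (by linarith)
  have h4 := Real.mul_self_sqrt hn0.le
  have h5 : 4 * Real.exp ((cc M + 9) * t) / n ≤ 1 / 5 := by
    rw [div_le_iff₀ hn0]
    nlinarith
  have h6 := ht x
  have h7 : ((t : ℝ≥0) : ℝ) = t.1 := rfl
  rw [← h7] at hx
  linarith

theorem cm_gX (β : ℝ) (X : Fin n × Fin n → ℝ) : cm β (gX X) = od (goe β X) := by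
  ext i j
  simp only [cm, od, goe, sym, gX, of_apply, Real.sqrt_mul zero_le_two]
  rcases lt_trichotomy i j with h | h | h
  · rw [dif_pos h, if_neg h.ne]; ring
  · simp [h]
  · rw [dif_neg h.not_gt, dif_pos h, if_neg h.ne']; ring

theorem disorder_opn (h0 : 0 < β) (h1 : β < 1) :
    Tendsto (fun n : ℕ => disorder n {g | ¬ opn (cm β g) ≤ 6}) atTop (𝓝 0) := by
  have h : WHP β fun _ J => opn (od J) ≤ 6 :=
    (rm_opn h0 h1).mono (Eventually.of_forall fun n J _ hJ => by linarith [opn_od_le J])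
  refine h.congr fun n => ?_
  have hc : Continuous fun g : Pair n → ℝ => opn (cm β g) := by
    refine continuous_opn.comp (continuous_matrix fun i j => ?_)
    simp only [cm, of_apply, sym]
    split_ifs <;> fun_prop
  have hm := (measurableSet_le hc.measurable (measurable_const (a := (6 : ℝ)))).compl
  have h2 := gX_preserving.measure_preimage hm.nullMeasurableSet
  rw [Set.compl_ofPred] at h2
  rw [← h2]
  congr 1
  ext X
  simp only [Set.mem_ofPred_eq, Set.mem_preimage, cm_gX]

end Low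

end Vale.Agent.P150
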