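import Vale.Agent.P150.Basic

/-! Internal objects of the proof. -/

open MeasureTheory ProbabilityTheory Matrix Filter Topology
open scoped ENNReal NNReal

namespace Vale.Agent.P150

variable {n : ℕ}

/-! ### TAP equations -/

noncomputable def mag (H : Vec n) : Vec n := fun i => Real.tanh (H i)

noncomputable def dd (H : Vec n) : Vec n := fun i => 1 - Real.tanh (H i) ^ 2

/-- Onsager coefficient. -/
noncomputable def ons (β : ℝ) (m : Vec n) : ℝ := β ^ 2 * (1 - m ⬝ᵥ m / n)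

noncomputable def tap (β κ : ℝ) (J : Mat n) (H : Vec n) : Vec n :=
  H - κ • J *ᵥ mag H + (κ ^ 2 * ons β (mag H)) • mag H

/-- TAP map with a frozen Onsager coefficient. -/
noncomputable def tapb (b : ℝ) (J : Mat n) (H : Vec n) : Vec n := H - J *ᵥ mag H + b • mag H

noncomputable def hess (β κ : ℝ) (J : Mat n) (H u : Vec n) : ℝ :=
  ∑ i, Real.cosh (H i) ^ 2 * u i ^ 2 + κ ^ 2 * ons β (mag H) * (u ⬝ᵥ u) - κ * (u ⬝ᵥ J *ᵥ u) -
    2 * κ ^ 2 * β ^ 2 * (mag H ⬝ᵥ u) ^ 2 / n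

/-- The Hessian is positive at all approximate solutions. -/
def HP (β κ : ℝ) (J : Mat n) (c ρ : ℝ) (θ : Vec n) : Prop :=
  ∀ H, vn (tap β κ J H - θ) < ρ * √(n : ℝ) → ∀ u, c * (u ⬝ᵥ u) ≤ hess β κ J H u

def Good (β κ : ℝ) (J : Mat n) (c ρ : ℝ) (θ : Vec n) : Prop :=
  HP β κ J c ρ θ ∧ ∃! H, tap β κ J H = θ

def Edge (β : ℝ) (J : Mat n) (a : ℝ) : Prop := ∀ u, u ⬝ᵥ J *ᵥ u ≤ (2 * β + a) * (u ⬝ᵥ u)

def SubN (J : Mat n) (α : ℝ) : Prop :=
  ∀ u : Vec n, ((Finset.univ.filter fun i => u i ≠ 0).card : ℝ) ≤ α * n →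
    u ⬝ᵥ J *ᵥ u ≤ 1 / 4 * (u ⬝ᵥ u)

/-- Number of sites with a weak field. -/
noncomputable def weak (R : ℝ) (θ : Vec n) : ℝ := (Finset.univ.filter fun i => |θ i| < R).card

/-! ### Local law -/

noncomputable def tr (A : Mat n) : ℝ := A.trace / n

def Dom (D : Vec n) : Prop := ∀ i, 0 < D i ∧ D i ≤ 1

noncomputable def lmat (β κ : ℝ) (J : Mat n) (D : Vec n) : Mat n :=
  κ • J - (κ ^ 2 * β ^ 2 * avg D) • (1 : Mat n)

noncomputable def ymat (β κ : ℝ) (J : Mat n) (D : Vec n) : Mat n :=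
  (1 - lmat β κ J D * diagonal D)⁻¹

noncomputable def xmat (β κ : ℝ) (J : Mat n) (D : Vec n) : Mat n := diagonal D * ymat β κ J D

def Adm (β κ : ℝ) (J : Mat n) (D : Vec n) (K : ℝ) : Prop :=
  IsUnit (1 - lmat β κ J D * diagonal D).det ∧ opn (ymat β κ J D) ≤ K

def PosK (β κ : ℝ) (J : Mat n) (c : ℝ) (D : Vec n) : Prop :=
  ∀ u : Vec n, c * (u ⬝ᵥ u) ≤
    ∑ i, u i ^ 2 / D i + κ ^ 2 * β ^ 2 * avg D * (u ⬝ᵥ u) - κ * (u ⬝ᵥ J *ᵥ u)

noncomputable def eA (β κ : ℝ) (J : Mat n) (D : Vec n) : Vec n := fun i =>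
  (J * (ymat β κ J D)ᵀ) i i - κ * β ^ 2 * tr (xmat β κ J D) * ymat β κ J D i i

noncomputable def eB (β κ : ℝ) (J : Mat n) (D : Vec n) (a : ℝ) (S : Mat n) : Vec n := fun i =>
  (J * xmat β κ J D * S * (ymat β κ J D)ᵀ) i i -
    β ^ 2 * (κ * tr (xmat β κ J D) * (xmat β κ J D * S * (ymat β κ J D)ᵀ) i i +
      a * tr (xmat β κ J D) * ymat β κ J D i i +
      κ * tr (xmat β κ J D * S * xmat β κ J D) * ymat β κ J D i i)

/-- The three Schwinger-Dyson error vectors. -/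
noncomputable def ee (β κ : ℝ) (J : Mat n) (D : Vec n) : Fin 3 × Fin n → ℝ := fun p =>
  ![eA β κ J D, eB β κ J D 0 1, eB β κ J D 1 J] p.1 p.2

def LLraw (β : ℝ) (J : Mat n) (K C : ℝ) : Prop :=
  ∀ κ ∈ Set.Icc (0 : ℝ) 1, ∀ D, Dom D → Adm β κ J D K → vn (ee β κ J D) ≤ C

def LLaw (β : ℝ) (J : Mat n) (K C : ℝ) : Prop :=
  ∀ κ ∈ Set.Icc (0 : ℝ) 1, ∀ D, Dom D → Adm β κ J D K →
    vn (fun i => (ymat β κ J D * (ymat β κ J D)ᵀ) i i -
      (1 + κ ^ 2 * β ^ 2 * tr (xmat β κ J D * xmat β κ J D))) ≤ C ∧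
    vn (fun i => (ymat β κ J D * J * (ymat β κ J D)ᵀ) i i -
      (2 * κ * β ^ 2 * avg D + κ ^ 2 * β ^ 2 * tr (xmat β κ J D * J * xmat β κ J D))) ≤ C ∧
    |tr (xmat β κ J D) - avg D| ≤ C / √(n : ℝ) ∧
    |tr (J * xmat β κ J D) - κ * β ^ 2 * avg D ^ 2| ≤ C / √(n : ℝ)

def DetP (β : ℝ) (J : Mat n) (K δ : ℝ) : Prop :=
  ∀ D, Dom D → ∃ N : Mat n, opn N ≤ K ∧
    fro ((1 - lmat β 1 J D * diagonal D) * N - 1) ≤ δ * √(n : ℝ) ∧
    Real.exp (-(n * (β ^ 2 * avg D ^ 2 / 2 + δ))) ≤ |N.det|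

/-- The matrix with row and column `i` removed. -/
def mn (J : Mat n) (i : Fin n) : Mat n := Matrix.of fun j k => if j = i ∨ k = i then 0 else J j k

/-- Column `i` without its diagonal entry. -/
def colv (J : Mat n) (i : Fin n) : Vec n := fun j => if j = i then 0 else J j i

/-- Fluctuation of the cavity quadratic form. -/
noncomputable def cav (β : ℝ) (J : Mat n) (i : Fin n) (Θ : Mat n) : ℝ :=
  colv J i ⬝ᵥ Θ *ᵥ colv J i - β ^ 2 / n * (Θ.trace - Θ i i)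

noncomputable def th (β κ : ℝ) (J : Mat n) (D : Vec n) : Fin 3 → Mat n :=
  ![xmat β κ J D, xmat β κ J D * xmat β κ J D, xmat β κ J D * J * xmat β κ J D]

/-! ### Wick words -/

noncomputable def wick (β : ℝ) (J : Mat n) : List (Vec n) → Mat n
  | [] => 0
  | [E] => diagonal E
  | E :: F :: r => diagonal E * J * wick β J (F :: r) - (β ^ 2 * avg F) • (diagonal E * wick β J r)

def W1 (β : ℝ) (J : Mat n) (ω : ℝ) : Prop :=
  ∀ l : List (Vec n), 2 ≤ l.length → (l.length : ℝ) ≤ 1 / ω → (∀ E ∈ l, ∀ i, |E i| ≤ 1) →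
    ∀ π : Fin n → Fin n, ∑ r, |wick β J l (π r) r| ≤ ω * n

def kL (D : ℕ → Vec n) : ℕ → List (Vec n)
  | 0 => [1]
  | k + 1 => D k :: kL D k

noncomputable def kA (J : Mat n) (D P : ℕ → Vec n) (b s : ℕ → ℝ) : ℕ → Mat n
  | 0 => diagonal (D 0)
  | 1 => diagonal (P 0) * (J * diagonal (D 0) + s 0 • diagonal (D 0))
  | k + 2 => diagonal (P (k + 1)) *
      (J * kA J D P b s (k + 1) - b (k + 1) • kA J D P b s k + s (k + 1) • kA J D P b s (k + 1))

noncomputable def kY (J : Mat n) (D P : ℕ → Vec n) (b s : ℕ → ℝ) : ℕ → Mat n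
  | 0 => J * diagonal (D 0) + s 0 • diagonal (D 0)
  | k + 1 => J * kA J D P b s (k + 1) - b (k + 1) • kA J D P b s k + s (k + 1) • kA J D P b s (k + 1)

noncomputable def kV (β : ℝ) (D P : ℕ → Vec n) : ℕ → ℝ
  | 0 => β ^ 2 * avg (D 0)
  | k + 1 => β ^ 2 * avg (P k * D k) * kV β D P k

/-! ### Belief propagation iterates and discrete calculus -/

noncomputable def bpM (β : ℝ) (J : Mat n) (y : Vec n) (x : Cube n) : ℕ → Vec n
  | 0 => sv x
  | 1 => mag (y + J *ᵥ sv x)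
  | k + 2 => mag (y + J *ᵥ bpM β J y x (k + 1) - ons β (bpM β J y x (k + 1)) • bpM β J y x k)

noncomputable def bpH (β : ℝ) (J : Mat n) (y : Vec n) (x : Cube n) : ℕ → Vec n
  | 0 => y + J *ᵥ sv x
  | k + 1 => y + J *ᵥ bpM β J y x (k + 1) - ons β (bpM β J y x (k + 1)) • bpM β J y x k

theorem bpM_succ (β : ℝ) (J : Mat n) (y : Vec n) (x : Cube n) (k : ℕ) :
    bpM β J y x (k + 1) = mag (bpH β J y x k) := by
  cases k <;> rfl

noncomputable def grad (g : Cube n → ℝ) (x : Cube n) : Vec n := fun r =>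
  (g (Function.update x r true) - g (Function.update x r false)) / 2

noncomputable def jac (G : Cube n → Vec n) (x : Cube n) : Mat n :=
  Matrix.of fun j r => grad (fun z => G z j) x r

/-- Approximate DLR equations, tested against functions not depending on the site. -/
def DLR (ν : Cube n → ℝ) (J : Mat n) (y : Vec n) (ω : ℝ) : Prop :=
  ∀ g : Cube n → Vec n, (∀ x i b, g (Function.update x i b) i = g x i) →
    (∑ x, ν x * ((sv x - mag (y + J *ᵥ sv x)) ⬝ᵥ g x)) ^ 2 ≤ ω * n * ∑ x, ν x * (g x ⬝ᵥ g x)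

/-- `A` is an approximate Stein kernel of `V` under `ν`. -/
def Ker (ν : Cube n → ℝ) (V : Cube n → Vec n) (A : Cube n → Mat n) (η : ℝ) : Prop :=
  ∀ (G : Cube n → Vec n) (K : ℝ), 0 ≤ K → (∀ x, vn (G x) ≤ K * √(n : ℝ)) →
    (∀ x, fro (jac G x) ≤ K * √(n : ℝ)) →
    |∑ x, ν x * (V x ⬝ᵥ G x - ∑ j, ∑ r, A x j r * jac G x j r)| ≤ η * K * n

/-! ### Entropy and localization -/

open Classical in
noncomputable def ind (P : Prop) : ℝ := if P then 1 else 0

def IsP (π : Cube n → ℝ) : Prop := (∀ x, 0 < π x) ∧ ∑ x, π x = 1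

noncomputable def ex (π f : Cube n → ℝ) : ℝ := ∑ x, π x * f x

noncomputable def ent (π f : Cube n → ℝ) : ℝ :=
  ∑ x, π x * (f x * Real.log (f x)) - ex π f * Real.log (ex π f)

/-- Conditional expectation given the spins other than `i`. -/
noncomputable def cnd (π : Cube n → ℝ) (i : Fin n) (f : Cube n → ℝ) (x : Cube n) : ℝ :=
  (π (Function.update x i true) * f (Function.update x i true) +
      π (Function.update x i false) * f (Function.update x i false)) /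
    (π (Function.update x i true) + π (Function.update x i false))

/-- Sum of the one-site conditional entropies. -/
noncomputable def dir (π f : Cube n → ℝ) : ℝ :=
  ∑ i, ∑ x, π x * (f x * Real.log (f x) - f x * Real.log (cnd π i f x))

noncomputable def qbar (π f : Cube n → ℝ) : Cube n → ℝ := fun x => (∑ i, cnd π i f x) / n

noncomputable def mean (π : Cube n → ℝ) : Vec n := fun i => ∑ x, π x * sp (x i)

noncomputable def cov (π f : Cube n → ℝ) : Vec n := fun i =>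
  ∑ x, π x * f x * sp (x i) - ex π f * mean π i

noncomputable def vr (π : Cube n → ℝ) (u : Vec n) : ℝ :=
  ∑ x, π x * (u ⬝ᵥ sv x - u ⬝ᵥ mean π) ^ 2

noncomputable def tilt (W : Cube n → ℝ) (θ : Vec n) (x : Cube n) : ℝ :=
  W x * Real.exp (θ ⬝ᵥ sv x) / ∑ y, W y * Real.exp (θ ⬝ᵥ sv y)

noncomputable def wJ (J : Mat n) (x : Cube n) : ℝ := Real.exp (sv x ⬝ᵥ J *ᵥ sv x / 2)

/-- Law of the label `s` given the configuration `x`. -/
noncomputable def lab (ε : ℝ) (B : Mat n) (x s : Cube n) : ℝ :=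
  ∏ k, (1 + sp (s k) * Real.tanh (ε * (Bᵀ *ᵥ sv x) k)) / 2

noncomputable def nxt (W : Cube n → ℝ) (ε : ℝ) (B : Mat n) (x : Cube n) : ℝ :=
  W x * ∏ k, (Real.cosh (ε * (Bᵀ *ᵥ sv x) k))⁻¹

noncomputable def wts (W : Cube n → ℝ) (ε : ℝ) (B : ℕ → Mat n) : ℕ → Cube n → ℝ
  | 0 => W
  | l + 1 => nxt (wts W ε B l) ε (B l)

/-- The field after one step with label `s`. -/
noncomputable def stp (ε : ℝ) (B : Mat n) (θ : Vec n) (s : Cube n) : Vec n := θ + ε • B *ᵥ sv s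

noncomputable def tx (ε : ℝ) (B : Mat n) (x : Cube n) (g : Vec n → ℝ) (θ : Vec n) : ℝ :=
  ∑ s, lab ε B x s * g (stp ε B θ s)

/-- Marginal law of the label. -/
noncomputable def lp (W : Cube n → ℝ) (ε : ℝ) (B : Mat n) (θ : Vec n) (s : Cube n) : ℝ :=
  ∑ x, tilt W θ x * lab ε B x s

/-- `fw ε B x g k l θ`: mean of `g` after `k` steps from time `l` and field `θ`, given `x`. -/
noncomputable def fw (ε : ℝ) (B : ℕ → Mat n) (x : Cube n) (g : Vec n → ℝ) : ℕ → ℕ → Vec n → ℝ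
  | 0, _, θ => g θ
  | k + 1, l, θ => tx ε (B l) x (fw ε B x g k (l + 1)) θ

/-- Path expectation of `φ x θ_{l+k}` started from time `l` and field `θ`. -/
noncomputable def pe (W : Cube n → ℝ) (ε : ℝ) (B : ℕ → Mat n) (l k : ℕ) (θ : Vec n)
    (φ : Cube n → Vec n → ℝ) : ℝ :=
  ∑ x, tilt (wts W ε B l) θ x * fw ε B x (φ x) k l θ

/-- Two-stage schedule. -/
def stB (N : ℕ) (B : Mat n) (l : ℕ) : Mat n := if l < N then 1 else B

/-! ### Counting -/

noncomputable def plant (β : ℝ) (x : Cube n) (X : Fin n × Fin n → ℝ) : Mat n :=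
  goe β X + (β ^ 2 / n) • vecMulVec (sv x) (sv x)

noncomputable def prj (M : Vec n) (A : Mat n) : Mat n :=
  (1 - (1 / (M ⬝ᵥ M)) • vecMulVec M M) * A * (1 - (1 / (M ⬝ᵥ M)) • vecMulVec M M)

noncomputable def cform (β : ℝ) (x M W : Vec n) (P : Mat n) (H u : Vec n) : ℝ :=
  u ⬝ᵥ P *ᵥ u + 2 * (M ⬝ᵥ u / (M ⬝ᵥ M)) * (u ⬝ᵥ W) - (M ⬝ᵥ u / (M ⬝ᵥ M)) ^ 2 * (M ⬝ᵥ W) +
    β ^ 2 * (x ⬝ᵥ u) ^ 2 / n + 2 * β ^ 2 * (mag H ⬝ᵥ u) ^ 2 / n -
    ∑ i, Real.cosh (H i) ^ 2 * u i ^ 2 - ons β (mag H) * (u ⬝ᵥ u)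

def badU (β : ℝ) (x H W : Vec n) (c e : ℝ) : Set (Mat n) :=
  {P | ∃ H' u, vn (H' - H) < e * √(n : ℝ) ∧ -(c * (u ⬝ᵥ u)) < cform β x (mag H) W P H' u}

def Typ (τ R : ℝ) (x H V : Vec n) (v : ℝ) : Prop :=
  |avg fun i => x i * dd H i * (V i + 2 * v * mag H i)| ≤ τ ∧
  (avg fun i => dd H i * (V i + 2 * v * mag H i) ^ 2 - v * dd H i - 2 * v ^ 2 * dd H i ^ 2) ≤ τ ∧
  |avg fun i => mag H i * V i - v * dd H i| ≤ τ ∧
  (avg fun i => V i ^ 2) ≤ 3 ∧
  (avg fun i => max (V i ^ 2 - R ^ 2) 0) ≤ τ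

def volO (β : ℝ) (x : Cube n) (y : Vec n) (a q c b η e : ℝ) (X : Fin n × Fin n → ℝ) :
    Set (Vec n) :=
  {H | vn (tapb b (plant β x X) H - y) < 4 * η * √(n : ℝ) ∧
    mag H ⬝ᵥ goe β X *ᵥ mag H < (2 * β + 2 * a) * (mag H ⬝ᵥ mag H) ∧
    -(5 * (mag H ⬝ᵥ mag H)) < mag H ⬝ᵥ goe β X *ᵥ mag H ∧
    ∃ H' u, vn (H' - H) < e * √(n : ℝ) ∧ q < mag H' ⬝ᵥ mag H' / n ∧ |ons β (mag H') - b| < e ∧
      hess β 1 (plant β x X) H' u < c * (u ⬝ᵥ u)}

/-! ### One TAP step -/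

/-- Jacobian of the TAP map. -/
noncomputable def jt (β κ : ℝ) (J : Mat n) (H : Vec n) : Mat n :=
  1 - lmat β κ J (dd H) * diagonal (dd H) -
    (2 * κ ^ 2 * β ^ 2 / n) • vecMulVec (mag H) (mag H * dd H)

/-- Second-order correction, as a function of the first-order field increment `w`. -/
noncomputable def corr (β κ a ε : ℝ) (J : Mat n) (H w : Vec n) : Vec n :=
  -(mag H * w * w) + (κ ^ 2 * β ^ 2 * avg (dd H * w * (dd H * w))) • mag H +
    (2 * κ ^ 2 * β ^ 2 * avg (mag H * (dd H * w))) • (dd H * w) +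
    ε ^ 2 • (-(a • J *ᵥ mag H) + (2 * a * κ * ons β (mag H)) • mag H)

/-- Proxy for the TAP magnetization after a field increment `z`. -/
noncomputable def mhat (β κ a ε : ℝ) (J : Mat n) (H z : Vec n) : Vec n :=
  mag H + dd H * ((jt β κ J H)⁻¹ *ᵥ (z + corr β κ a ε J H ((jt β κ J H)⁻¹ *ᵥ z)))

/-! ### Elementary facts -/

theorem ind_nonneg (P : Prop) : 0 ≤ ind P := by unfold ind; split_ifs <;> norm_num

theorem ind_le_one (P : Prop) : ind P ≤ 1 := by unfold ind; split_ifs <;> norm_num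

theorem ind_pos {P : Prop} (h : P) : ind P = 1 := by simp [ind, h]

theorem ind_neg {P : Prop} (h : ¬ P) : ind P = 0 := by simp [ind, h]

theorem abs_mag_le (H : Vec n) (i : Fin n) : |mag H i| ≤ 1 := (Real.abs_tanh_lt_one _).le

theorem vn_mag_le (H : Vec n) : vn (mag H) ≤ √(n : ℝ) := by
  simpa using vn_le_sqrt zero_le_one (abs_mag_le H)

theorem dom_dd (H : Vec n) : Dom (dd H) := fun i => by
  have := Real.tanh_sq_lt_one (H i)
  constructor <;> simp only [dd] <;> nlinarith [sq_nonneg (Real.tanh (H i))]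

theorem cosh_sq_mul_dd (H : Vec n) (i : Fin n) : Real.cosh (H i) ^ 2 * dd H i = 1 := by
  have h := Real.cosh_pos (H i)
  have h2 := Real.cosh_sq (H i)
  simp only [dd, Real.tanh_eq_sinh_div_cosh]
  field_simp
  linarith

theorem ons_mag (hn : 0 < n) (β : ℝ) (H : Vec n) : ons β (mag H) = β ^ 2 * avg (dd H) := by
  have : (n : ℝ) ≠ 0 := by positivity
  simp only [ons, avg, dd, dotProduct, mag, Finset.sum_sub_distrib, ← sq]
  simp
  left
  field_simp

theorem hasDerivAt_tanh (t : ℝ) : HasDerivAt Real.tanh (1 - Real.tanh t ^ 2) t := by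
  have h := (Real.hasDerivAt_sinh t).div (Real.hasDerivAt_cosh t) (Real.cosh_pos t).ne'
  have e : Real.sinh / Real.cosh = Real.tanh := by
    funext s; simp [Real.tanh_eq_sinh_div_cosh]
  rw [e] at h
  refine h.congr_deriv ?_
  have := Real.cosh_pos t
  rw [Real.tanh_eq_sinh_div_cosh]
  field_simp

theorem abs_tanh_sub_le (s t : ℝ) : |Real.tanh s - Real.tanh t| ≤ |s - t| := by
  have h := Convex.norm_image_sub_le_of_norm_hasDerivWithin_le (f := Real.tanh)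
    (f' := fun t => 1 - Real.tanh t ^ 2) (s := Set.univ) (C := 1)
    (fun x _ => (hasDerivAt_tanh x).hasDerivWithinAt)
    (fun x _ => by
      have := Real.tanh_sq_lt_one x
      rw [Real.norm_eq_abs, abs_le]
      constructor <;> nlinarith [sq_nonneg (Real.tanh x)])
    convex_univ (Set.mem_univ t) (Set.mem_univ s)
  simpa using h

theorem vn_mag_sub_le (H H' : Vec n) : vn (mag H - mag H') ≤ vn (H - H') :=
  vn_mono fun _ => abs_tanh_sub_le _ _

theorem continuous_tanh : Continuous Real.tanh :=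
  continuous_iff_continuousAt.2 fun t => (hasDerivAt_tanh t).continuousAt

theorem continuous_mag : Continuous (mag : Vec n → Vec n) :=
  continuous_pi fun i => continuous_tanh.comp (continuous_apply i)

end Vale.Agent.P150
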