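import Vale.Agent.P150.WickAlg
import Vale.Agent.P150.RMEdge

/-! Second moment of entries of Wick words. -/

open MeasureTheory ProbabilityTheory Matrix Filter Topology
open scoped ENNReal NNReal

namespace Vale.Agent.P150

variable {n : ℕ}

open GaussB

namespace WickMom

/-- Entrywise derivative at zero of a matrix valued function. -/
def MD (F : ℝ → Mat n) (F' : Mat n) : Prop := ∀ p q, HasDerivAt (fun t => F t p q) (F' p q) 0

lemma MD.const (A : Mat n) : MD (fun _ => A) 0 := fun _ _ => hasDerivAt_const _ _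

lemma MD.mul {F G : ℝ → Mat n} {F' G' : Mat n} (hF : MD F F') (hG : MD G G') :
    MD (fun t => F t * G t) (F' * G 0 + F 0 * G') := fun p q => by
  simp only [Matrix.add_apply, Matrix.mul_apply, ← Finset.sum_add_distrib]
  exact HasDerivAt.fun_sum fun k _ => (hF p k).mul (hG k q)

lemma MD.sub {F G : ℝ → Mat n} {F' G' : Mat n} (hF : MD F F') (hG : MD G G') :
    MD (fun t => F t - G t) (F' - G') := fun p q => (hF p q).sub (hG p q)

lemma MD.smul (c : ℝ) {F : ℝ → Mat n} {F' : Mat n} (hF : MD F F') :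
    MD (fun t => c • F t) (c • F') := fun p q => (hF p q).const_mul c

lemma MD.lin (J S : Mat n) : MD (fun t => J + t • S) S := fun p q => by
  simpa using ((hasDerivAt_id (0 : ℝ)).mul_const (S p q)).const_add (J p q)

lemma MD.vec {F : ℝ → Mat n} {F' : Mat n} (hF : MD F F') (b : Vec n) (p : Fin n) :
    HasDerivAt (fun t => (F t *ᵥ b) p) ((F' *ᵥ b) p) 0 := by
  simp only [mulVec, dotProduct]
  exact HasDerivAt.fun_sum fun q _ => (hF p q).mul_const (b q)

lemma MD.dot {F : ℝ → Mat n} {F' : Mat n} (hF : MD F F') (a b : Vec n) :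
    HasDerivAt (fun t => a ⬝ᵥ F t *ᵥ b) (a ⬝ᵥ F' *ᵥ b) 0 :=
  HasDerivAt.fun_sum fun p _ => (hF.vec b p).const_mul (a p)

/-- The directional derivative of a Wick word. -/
noncomputable def dw (β : ℝ) (J S : Mat n) (l : List (Vec n)) : Mat n :=
  ∑ j ∈ Finset.range (l.length - 1), wick β J (l.take (j + 1)) * S * wick β J (l.drop (j + 1))

lemma dw_eq (β : ℝ) (J S : Mat n) (r : List (Vec n)) :
    dw β J S r = ∑ j ∈ Finset.range r.length, wick β J (r.take j) * S * wick β J (r.drop j) := by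
  cases r with
  | nil => simp [dw]
  | cons E r =>
    rw [List.length_cons, Finset.sum_range_succ']
    simp [dw, wick]

lemma md_wick (β : ℝ) (J S : Mat n) :
    ∀ l : List (Vec n), MD (fun t => wick β (J + t • S) l) (dw β J S l)
  | [] => by simpa [wick, dw] using MD.const (0 : Mat n)
  | [E] => by simpa [wick, dw] using MD.const (diagonal E)
  | E :: F :: r => by
    have h := (((MD.const (diagonal E)).mul (MD.lin J S)).mul (md_wick β J S (F :: r))).sub
      (((MD.const (diagonal E)).mul (md_wick β J S r)).smul (β ^ 2 * avg F))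
    have e : dw β J S (E :: F :: r) = diagonal E * S * wick β J (F :: r) +
        diagonal E * J * dw β J S (F :: r) - (β ^ 2 * avg F) • (diagonal E * dw β J S r) := by
      rw [dw_eq β J S r, dw, dw]
      simp only [List.length_cons, Nat.add_sub_cancel]
      rw [Finset.sum_range_succ']
      simp only [List.take_succ_cons, List.drop_succ_cons, List.take_zero, List.drop_zero, wick,
        Finset.mul_sum, Finset.smul_sum, sub_mul, Finset.sum_sub_distrib, smul_mul_assoc,
        Matrix.mul_assoc]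
      abel
    rw [e]
    simpa only [wick, zero_smul, add_zero, zero_mul, zero_add] using h

/-- The symmetrized elementary matrix. -/
def sE (p q : Fin n) : Mat n := Matrix.single p q (1 : ℝ) + Matrix.single q p (1 : ℝ)

lemma sE_comm (p q : Fin n) : sE p q = sE q p := add_comm _ _

lemma goe_update (β : ℝ) (X : Fin n × Fin n → ℝ) (p q : Fin n) (t : ℝ) :
    goe β (Function.update X (p, q) t) =
      goe β X + (β / √(2 * (n : ℝ)) * (t - X (p, q))) • sE p q := by
  have h : ∀ i j, Function.update X (p, q) t (i, j) =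
      X (i, j) + (t - X (p, q)) * Matrix.single p q (1 : ℝ) i j := by
    intro i j
    by_cases h : (i, j) = (p, q)
    · cases h
      simp
    · rw [Function.update_of_ne h, Matrix.single_apply_of_ne]
      · simp
      · rintro ⟨rfl, rfl⟩
        exact h rfl
  ext i j
  have h2 : Matrix.single q p (1 : ℝ) i j = Matrix.single p q (1 : ℝ) j i := by
    simp [Matrix.single_apply, and_comm]
  simp only [goe, sE, of_apply, h, Matrix.add_apply, Matrix.smul_apply, smul_eq_mul, h2]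
  ring

/-- Matrix valued functions with entries of polynomial growth. -/
def PM (A : (Fin n × Fin n → ℝ) → Mat n) : Prop := ∀ p q, PG fun X => A X p q

lemma PM.const (A : Mat n) : PM fun _ => A := fun _ _ => PG.const _

lemma PM.goe (β : ℝ) : PM (goe β : _ → Mat n) := fun p q =>
  (PG.const _).mul ((PG.coord (p, q)).add (PG.coord (q, p)))

lemma PM.mul {A B : (Fin n × Fin n → ℝ) → Mat n} (hA : PM A) (hB : PM B) :
    PM fun X => A X * B X := fun p q => by
  simp only [Matrix.mul_apply]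
  exact PG.sum _ fun k => (hA p k).mul (hB k q)

lemma pg_sub {ι : Type} [Fintype ι] {F G : (ι → ℝ) → ℝ} (hF : PG F) (hG : PG G) :
    PG fun x => F x - G x := by
  simpa [sub_eq_add_neg] using hF.add ((PG.const (-1)).mul hG)

lemma pm_wick (β : ℝ) : ∀ l : List (Vec n), PM fun X => wick β (goe β X) l
  | [] => PM.const _
  | [_] => PM.const _
  | E :: F :: r => fun p q =>
    pg_sub ((((PM.const (diagonal E)).mul (PM.goe β)).mul (pm_wick β (F :: r))) p q)
      ((PG.const (β ^ 2 * avg F)).mul (((PM.const (diagonal E)).mul (pm_wick β r)) p q))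

lemma pm_dw (β : ℝ) (S : Mat n) (l : List (Vec n)) : PM fun X => dw β (goe β X) S l :=
  fun p q => by
  simp only [dw, Matrix.sum_apply]
  exact PG.sum _ fun j => ((pm_wick β _).mul (PM.const S)).mul (pm_wick β _) p q

lemma PM.vec {A : (Fin n × Fin n → ℝ) → Mat n} (hA : PM A) (b : Vec n) (p : Fin n) :
    PG fun X => (A X *ᵥ b) p := by
  simp only [mulVec, dotProduct]
  exact PG.sum _ fun q => (hA p q).mul (PG.const _)

lemma PM.dot {A : (Fin n × Fin n → ℝ) → Mat n} (hA : PM A) (a b : Vec n) :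
    PG fun X => a ⬝ᵥ A X *ᵥ b := PG.sum _ fun p => (PG.const _).mul (hA.vec b p)

lemma pg_of_opn (β : ℝ) {F : Mat n → ℝ} (hF : Continuous F) {C : ℝ} {m : ℕ}
    (h : ∀ J, |F J| ≤ C * (1 + opn J) ^ m) : PG fun X => F (goe β X) := by
  obtain ⟨K, hK⟩ : ∃ K, K = 2 * |β| / √(2 * (n : ℝ)) := ⟨_, rfl⟩
  have hK0 : 0 ≤ K := hK ▸ by positivity
  refine ⟨hF.comp (continuous_goe β), C * (1 + K) ^ m, m, fun X => (h _).trans ?_⟩
  have h1 := fro_goe_sub_le β X 0
  have e : goe β (0 : Fin n × Fin n → ℝ) = 0 := by ext i j; simp [goe]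
  rw [e, sub_zero, sub_zero, ← hK] at h1
  have h2 := (opn_le_fro _).trans h1
  have h3 := vn_nonneg X
  have h4 := opn_nonneg (goe β X)
  rw [mul_assoc, ← mul_pow]
  exact mul_le_mul_of_nonneg_left (pow_le_pow_left₀ (by linarith) (by nlinarith) m)
    (nonneg_of_bound (opn_nonneg 0) (h 0))

lemma goe_ibp' (β : ℝ) (G G' : Mat n → Mat n) (hG : PM fun X => G (goe β X))
    (hG' : PM fun X => G' (goe β X))
    (hd : ∀ (J : Mat n) (p q : Fin n),
      HasDerivAt (fun t : ℝ => G (J + t • sE p q) p q) (G' J p q) 0) :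
    ∫ X, ∑ p, ∑ q, goe β X p q * G (goe β X) p q ∂gp (Fin n × Fin n) =
      β ^ 2 / n * ∫ X, ∑ p, ∑ q, G' (goe β X) p q ∂gp (Fin n × Fin n) := by
  obtain ⟨c, hc⟩ : ∃ c, c = β / √(2 * (n : ℝ)) := ⟨_, rfl⟩
  have hc2 : β ^ 2 / n = 2 * c ^ 2 := by
    rw [hc, div_pow, Real.sq_sqrt (by positivity)]
    ring
  have key : ∀ p q p' q', sE p' q' = sE p q → ∫ X, X (p', q') * G (goe β X) p q ∂gp _ =
      c * ∫ X, G' (goe β X) p q ∂gp (Fin n × Fin n) := by
    intro p q p' q' hs
    rw [← integral_const_mul]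
    refine ibp_poly (p', q') (hG p q) ((PG.const c).mul (hG' p q)) fun X => ?_
    simp only [goe_update, ← hc, hs]
    have h1 : HasDerivAt (fun t : ℝ => c * (t - X (p', q'))) c (X (p', q')) := by
      simpa using ((hasDerivAt_id (X (p', q'))).sub_const (X (p', q'))).const_mul c
    have h2 := (hd (goe β X) p q).comp_of_eq (X (p', q')) h1 (by simp)
    rw [mul_comm] at h2
    exact h2
  rw [integral_finsetSum _ fun p _ =>
      (PG.sum _ fun q => (PM.goe β p q).mul (hG p q)).integrable,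
    integral_finsetSum _ fun p _ => (PG.sum _ fun q => hG' p q).integrable, Finset.mul_sum]
  refine Finset.sum_congr rfl fun p _ => ?_
  rw [integral_finsetSum _ fun q _ => ((PM.goe β p q).mul (hG p q)).integrable,
    integral_finsetSum _ fun q _ => (hG' p q).integrable, Finset.mul_sum]
  refine Finset.sum_congr rfl fun q _ => ?_
  have e : ∀ X : Fin n × Fin n → ℝ, goe β X p q * G (goe β X) p q =
      c * (X (p, q) * G (goe β X) p q + X (q, p) * G (goe β X) p q) := fun X => by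
    simp only [goe, of_apply, ← hc]
    ring
  simp only [e]
  rw [integral_const_mul, integral_add ((PG.coord _).mul (hG p q)).integrable
    ((PG.coord _).mul (hG p q)).integrable, key p q p q rfl, key p q q p (sE_comm _ _), hc2]
  ring

lemma dot_sE (x y : Vec n) (p q : Fin n) : x ⬝ᵥ sE p q *ᵥ y = x p * y q + x q * y p := by
  simp [sE, add_mulVec, Matrix.single_mulVec, Function.update_apply, dotProduct, mul_add,
    Finset.sum_add_distrib]

lemma sum_one (W W' : Mat n) (a b : Vec n) :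
    ∑ p, ∑ q, a p * ((W * sE p q * W') *ᵥ b) q =
      W.trace * (a ⬝ᵥ W' *ᵥ b) + (W' *ᵥ b) ⬝ᵥ W *ᵥ a := by
  have h : ∀ p q, ((W * sE p q * W') *ᵥ b) q = W q p * (W' *ᵥ b) q + W q q * (W' *ᵥ b) p := by
    intro p q
    rw [← mulVec_mulVec, ← mulVec_mulVec]
    exact dot_sE (W q) _ p q
  simp only [h]
  generalize W' *ᵥ b = w
  simp only [mul_add, Finset.sum_add_distrib, Matrix.trace, Matrix.diag, dotProduct, mulVec]
  rw [add_comm, Finset.sum_mul_sum, Finset.sum_comm,
    Finset.sum_comm (f := fun p q => a p * (W q p * w q))]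
  simp only [Finset.mul_sum]
  congr 1 <;> exact Finset.sum_congr rfl fun _ _ => Finset.sum_congr rfl fun _ _ => by ring

lemma sum_two (V V' : Mat n) (a a' b v : Vec n) :
    ∑ p, ∑ q, a' p * (v q * (a ⬝ᵥ (V * sE p q * V') *ᵥ b)) =
      (a ⬝ᵥ V *ᵥ a') * (v ⬝ᵥ V' *ᵥ b) + (a' ⬝ᵥ V' *ᵥ b) * (a ⬝ᵥ V *ᵥ v) := by
  have h : ∀ p q, a ⬝ᵥ (V * sE p q * V') *ᵥ b =
      (a ᵥ* V) p * (V' *ᵥ b) q + (a ᵥ* V) q * (V' *ᵥ b) p := by
    intro p q
    rw [← mulVec_mulVec, ← mulVec_mulVec, dotProduct_mulVec, dot_sE]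
  simp only [h, dotProduct_mulVec a V]
  generalize V' *ᵥ b = y
  generalize a ᵥ* V = x
  simp only [mul_add, Finset.sum_add_distrib, dotProduct, Finset.sum_mul_sum]
  congr 1 <;> exact Finset.sum_congr rfl fun _ _ => Finset.sum_congr rfl fun _ _ => by ring

lemma abs_bil {A : Mat n} {x y : Vec n} {P s t : ℝ} (hA : opn A ≤ P) (hx : vn x ≤ s)
    (hy : vn y ≤ t) : |x ⬝ᵥ A *ᵥ y| ≤ P * s * t :=
  (abs_dot_mulVec_le A x y).trans (mul_le_mul (mul_le_mul hA hx (vn_nonneg _)
    ((opn_nonneg _).trans hA)) hy (vn_nonneg _)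
      (mul_nonneg ((opn_nonneg _).trans hA) ((vn_nonneg _).trans hx)))

lemma vn_mv {A : Mat n} {y : Vec n} {P : ℝ} (hA : opn A ≤ P) (hy : vn y ≤ 1) : vn (A *ᵥ y) ≤ P :=
  (vn_mulVec_le A y).trans (by
    have := mul_le_mul hA hy (vn_nonneg _) ((opn_nonneg _).trans hA)
    rwa [mul_one] at this)

lemma trace_sq_le (W : Mat n) : (W.trace / n) ^ 2 ≤ (∑ i, W i i ^ 2) / n := by
  rcases n.eq_zero_or_pos with rfl | hn
  · simp
  have hn' : (0 : ℝ) < n := Nat.cast_pos.2 hn
  have h := sq_sum_le_card_mul_sum_sq (s := Finset.univ) (f := fun i => W i i)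
  rw [Finset.card_univ, Fintype.card_fin] at h
  rw [div_pow, div_le_div_iff₀ (by positivity) hn']
  have := mul_le_mul_of_nonneg_right h hn'.le
  simp only [Matrix.trace, Matrix.diag]
  nlinarith

/-- The function to which integration by parts is applied. -/
noncomputable def gg (β : ℝ) (E F : Vec n) (r : List (Vec n)) (a b : Vec n) (J : Mat n) : Mat n :=
  Matrix.of fun p q => (E * a) p * ((wick β J (F :: r) *ᵥ b) q * (a ⬝ᵥ wick β J (E :: F :: r) *ᵥ b))

/-- Its derivative. -/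
noncomputable def gg' (β : ℝ) (E F : Vec n) (r : List (Vec n)) (a b : Vec n) (J : Mat n) : Mat n :=
  Matrix.of fun p q => (E * a) p *
    ((dw β J (sE p q) (F :: r) *ᵥ b) q * (a ⬝ᵥ wick β J (E :: F :: r) *ᵥ b) +
      (wick β J (F :: r) *ᵥ b) q * (a ⬝ᵥ dw β J (sE p q) (E :: F :: r) *ᵥ b))

lemma dot_diag (E a w : Vec n) : a ⬝ᵥ diagonal E *ᵥ w = (E * a) ⬝ᵥ w :=
  Finset.sum_congr rfl fun i _ => by rw [mulVec_diagonal, Pi.mul_apply]; ring

lemma sq_eq (β : ℝ) (E F : Vec n) (r : List (Vec n)) (a b : Vec n) (J : Mat n) :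
    (a ⬝ᵥ wick β J (E :: F :: r) *ᵥ b) ^ 2 = ∑ p, ∑ q, J p q * gg β E F r a b J p q -
      β ^ 2 * avg F * (((E * a) ⬝ᵥ wick β J r *ᵥ b) * (a ⬝ᵥ wick β J (E :: F :: r) *ᵥ b)) := by
  simp only [gg, of_apply]
  obtain ⟨U, hU⟩ : ∃ U, U = a ⬝ᵥ wick β J (E :: F :: r) *ᵥ b := ⟨_, rfl⟩
  rw [← hU]
  rw [wick, sub_mulVec, dotProduct_sub, smul_mulVec, dotProduct_smul, ← mulVec_mulVec,
    ← mulVec_mulVec, ← mulVec_mulVec, dot_diag, dot_diag, smul_eq_mul] at hU
  generalize wick β J (F :: r) *ᵥ b = v at hU ⊢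
  have h : ∑ p, ∑ q, J p q * ((E * a) p * (v q * U)) = ((E * a) ⬝ᵥ J *ᵥ v) * U := by
    simp only [dotProduct, mulVec, Finset.sum_mul, Finset.mul_sum]
    exact Finset.sum_congr rfl fun _ _ => Finset.sum_congr rfl fun _ _ => by ring
  rw [h, sq]
  nth_rewrite 1 [hU]
  ring

lemma sum_gg' (β : ℝ) (E F : Vec n) (r : List (Vec n)) (a b : Vec n) (J : Mat n) :
    ∑ p, ∑ q, gg' β E F r a b J p q =
      (∑ j ∈ Finset.range r.length,
        ((wick β J ((F :: r).take (j + 1))).trace * ((E * a) ⬝ᵥ wick β J (r.drop j) *ᵥ b) +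
          (wick β J (r.drop j) *ᵥ b) ⬝ᵥ wick β J ((F :: r).take (j + 1)) *ᵥ (E * a))) *
        (a ⬝ᵥ wick β J (E :: F :: r) *ᵥ b) +
      ∑ j ∈ Finset.range (r.length + 1),
        ((a ⬝ᵥ wick β J ((E :: F :: r).take (j + 1)) *ᵥ (E * a)) *
            ((wick β J (F :: r) *ᵥ b) ⬝ᵥ wick β J ((F :: r).drop j) *ᵥ b) +
          ((E * a) ⬝ᵥ wick β J ((F :: r).drop j) *ᵥ b) *
            (a ⬝ᵥ wick β J ((E :: F :: r).take (j + 1)) *ᵥ (wick β J (F :: r) *ᵥ b))) := by
  simp only [← sum_one, ← sum_two, gg', of_apply, dw, List.length_cons, Nat.add_sub_cancel,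
    List.drop_succ_cons, Matrix.sum_mulVec, Finset.sum_apply, dotProduct_sum, mul_add,
    Finset.sum_add_distrib, Finset.sum_mul, Finset.mul_sum]
  congr 1
  · rw [Finset.sum_comm (s := Finset.range _)]
    refine Finset.sum_congr rfl fun p _ => ?_
    rw [Finset.sum_comm (s := Finset.range _)]
    exact Finset.sum_congr rfl fun _ _ => Finset.sum_congr rfl fun _ _ => by ring
  · rw [Finset.sum_comm (s := Finset.range _)]
    refine Finset.sum_congr rfl fun p _ => ?_
    rw [Finset.sum_comm (s := Finset.range _)]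

lemma det_bound {β δ P : ℝ} (hβ : β ^ 2 ≤ 1) (hδ : 0 < δ) (hP : 1 ≤ P) (E F : Vec n)
    (r : List (Vec n)) (a b : Vec n) (J : Mat n) (hE : ∀ i, |E i| ≤ 1) (ha : vn a ≤ 1)
    (hb : vn b ≤ 1) (hw : ∀ l : List (Vec n), l.Sublist (E :: F :: r) → opn (wick β J l) ≤ P) :
    β ^ 2 / n * ∑ p, ∑ q, gg' β E F r a b J p q -
      β ^ 2 * avg F * (((E * a) ⬝ᵥ wick β J r *ᵥ b) * (a ⬝ᵥ wick β J (E :: F :: r) *ᵥ b)) ≤
      (∑ j ∈ Finset.range r.length, ∑ i, wick β J ((F :: r).take (j + 2)) i i ^ 2) / n / δ +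
        (r.length * δ + (3 * r.length + 2) / n) * P ^ 4 := by
  rw [sum_gg']
  obtain ⟨U, hU⟩ : ∃ U, U = a ⬝ᵥ wick β J (E :: F :: r) *ᵥ b := ⟨_, rfl⟩
  have hU1 : |U| ≤ P := by simpa [hU] using abs_bil (hw _ (List.Sublist.refl _)) ha hb
  rw [← hU]
  have ha' : vn (E * a) ≤ 1 := (vn_mul_le zero_le_one hE).trans (by rwa [one_mul])
  have s1 : (F :: r).Sublist (E :: F :: r) := List.sublist_cons_self _ _
  have s2 : r.Sublist (E :: F :: r) := (List.sublist_cons_self _ _).trans s1
  have hv := vn_mv (hw _ s1) hb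
  have hP3 : P ^ 3 ≤ P ^ 4 := pow_le_pow_right₀ hP (by norm_num)
  have hn : (0 : ℝ) ≤ β ^ 2 / n := by positivity
  have hn1 : β ^ 2 / n ≤ 1 / n := by gcongr
  -- the trace terms
  have e1 : ∑ j ∈ Finset.range r.length,
      (wick β J ((F :: r).take (j + 1))).trace * ((E * a) ⬝ᵥ wick β J (r.drop j) *ᵥ b) =
      (∑ i, F i) * ((E * a) ⬝ᵥ wick β J r *ᵥ b) + ∑ j ∈ Finset.range r.length,
        (wick β J ((F :: r).take (j + 2))).trace * ((E * a) ⬝ᵥ wick β J (r.drop (j + 1)) *ᵥ b) := by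
    have h1 := Finset.sum_range_succ (fun j =>
      (wick β J ((F :: r).take (j + 1))).trace * ((E * a) ⬝ᵥ wick β J (r.drop j) *ᵥ b)) r.length
    rw [Finset.sum_range_succ'] at h1
    simp only [List.drop_length, wick, zero_mulVec, dotProduct_zero, mul_zero, add_zero, zero_add,
      List.take_succ_cons, List.take_zero, List.drop_zero, trace_diagonal] at h1 ⊢
    rw [← h1, add_comm]
  have b1 : ∀ j ∈ Finset.range r.length, β ^ 2 / n * ((wick β J ((F :: r).take (j + 2))).trace *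
      ((E * a) ⬝ᵥ wick β J (r.drop (j + 1)) *ᵥ b) * U) ≤
      (∑ i, wick β J ((F :: r).take (j + 2)) i i ^ 2) / n / δ + δ * P ^ 4 := by
    intro j _
    have h1 := trace_sq_le (wick β J ((F :: r).take (j + 2)))
    have h2 := abs_bil (hw _ ((List.drop_sublist (j + 1) r).trans s2)) ha' hb
    generalize (E * a) ⬝ᵥ wick β J (r.drop (j + 1)) *ᵥ b = y at h2 ⊢
    generalize (∑ i, wick β J ((F :: r).take (j + 2)) i i ^ 2) / n = z at h1 ⊢
    generalize (wick β J ((F :: r).take (j + 2))).trace = t at h1 ⊢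
    have h3 : |β ^ 2 * (y * U)| ≤ P ^ 2 := by
      rw [abs_mul, abs_mul, abs_of_nonneg (sq_nonneg β)]
      have := mul_le_mul h2 hU1 (abs_nonneg _) (by positivity)
      nlinarith [mul_nonneg (abs_nonneg y) (abs_nonneg U)]
    have h4 : (β ^ 2 * (y * U)) ^ 2 ≤ P ^ 4 := by
      have := pow_le_pow_left₀ (abs_nonneg _) h3 2
      rwa [sq_abs, ← pow_mul] at this
    have h5 : β ^ 2 / n * (t * y * U) = t / n * (β ^ 2 * (y * U)) := by ring
    rw [h5]
    generalize β ^ 2 * (y * U) = w at h4 ⊢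
    generalize t / n = s at h1 ⊢
    rw [div_add' _ _ _ hδ.ne', le_div_iff₀ hδ]
    nlinarith [sq_nonneg (s - δ * w), sq_nonneg s, mul_le_mul_of_nonneg_left h4 (sq_nonneg δ),
      sq_nonneg (δ * w)]
  have b2 : ∀ j ∈ Finset.range r.length,
      ((wick β J (r.drop j) *ᵥ b) ⬝ᵥ wick β J ((F :: r).take (j + 1)) *ᵥ (E * a)) * U ≤ P ^ 4 := by
    intro j _
    have h2 := abs_bil (hw _ ((List.take_sublist (j + 1) _).trans s1))
      (vn_mv (hw _ ((List.drop_sublist j r).trans s2)) hb) ha'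
    refine (le_abs_self _).trans (le_trans ?_ hP3)
    rw [abs_mul]
    refine (mul_le_mul h2 hU1 (abs_nonneg _) (by positivity)).trans (le_of_eq (by ring))
  have b3 : ∀ j ∈ Finset.range (r.length + 1),
      (a ⬝ᵥ wick β J ((E :: F :: r).take (j + 1)) *ᵥ (E * a)) *
          ((wick β J (F :: r) *ᵥ b) ⬝ᵥ wick β J ((F :: r).drop j) *ᵥ b) +
        ((E * a) ⬝ᵥ wick β J ((F :: r).drop j) *ᵥ b) *
          (a ⬝ᵥ wick β J ((E :: F :: r).take (j + 1)) *ᵥ (wick β J (F :: r) *ᵥ b)) ≤
      2 * P ^ 4 := by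
    intro j _
    have t1 := hw _ (List.take_sublist (j + 1) _)
    have t2 := hw _ ((List.drop_sublist j _).trans s1)
    have h1 := mul_le_mul (abs_bil t1 ha ha') (abs_bil t2 hv hb) (abs_nonneg _) (by positivity)
    have h2 := mul_le_mul (abs_bil t2 ha' hb) (abs_bil t1 ha hv) (abs_nonneg _) (by positivity)
    rw [← abs_mul] at h1 h2
    nlinarith [le_of_abs_le h1, le_of_abs_le h2]
  have c1 := Finset.sum_le_sum b1
  have c2 := Finset.sum_le_sum b2
  have c3 := Finset.sum_le_sum b3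
  rw [Finset.sum_add_distrib, ← Finset.sum_div, ← Finset.sum_div, ← Finset.mul_sum,
    ← Finset.sum_mul] at c1
  rw [← Finset.sum_mul] at c2
  simp only [Finset.sum_const, Finset.card_range, nsmul_eq_mul, Nat.cast_add, Nat.cast_one]
    at c1 c2 c3
  rw [Finset.sum_add_distrib, e1, avg]
  have c4 := (mul_le_mul_of_nonneg_left (add_le_add c2 c3) hn).trans
    (mul_le_mul_of_nonneg_right hn1 (by positivity))
  refine le_trans (le_of_eq ?_) ((add_le_add c1 c4).trans (le_of_eq ?_))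
  · ring
  · ring

lemma int_bound {β δ : ℝ} (hβ : β ^ 2 ≤ 1) (hδ : 0 < δ) (E F : Vec n) (r : List (Vec n))
    (a b : Vec n) (hl : ∀ G ∈ E :: F :: r, ∀ i, |G i| ≤ 1) (ha : vn a ≤ 1) (hb : vn b ≤ 1) :
    ∫ X, (a ⬝ᵥ wick β (goe β X) (E :: F :: r) *ᵥ b) ^ 2 ∂gp (Fin n × Fin n) ≤
      (∑ j ∈ Finset.range r.length, ∑ i,
        ∫ X, wick β (goe β X) ((F :: r).take (j + 2)) i i ^ 2 ∂gp (Fin n × Fin n)) / n / δ +
      (r.length * δ + (3 * r.length + 2) / n) *
        ∫ X, (1 + opn (goe β X : Mat n)) ^ ((r.length + 2) * 4) ∂gp (Fin n × Fin n) := by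
  have hU := (pm_wick β (E :: F :: r)).dot a b
  have hG : PM fun X => gg β E F r a b (goe β X) := fun p q =>
    (PG.const _).mul (((pm_wick β _).vec b q).mul hU)
  have hG' : PM fun X => gg' β E F r a b (goe β X) := fun p q =>
    (PG.const _).mul ((((pm_dw β _ _).vec b q).mul hU).add
      (((pm_wick β _).vec b q).mul ((pm_dw β _ _).dot a b)))
  have hd : ∀ (J : Mat n) (p q : Fin n),
      HasDerivAt (fun t : ℝ => gg β E F r a b (J + t • sE p q) p q) (gg' β E F r a b J p q) 0 := by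
    intro J p q
    have h := (((md_wick β J (sE p q) (F :: r)).vec b q).mul
      ((md_wick β J (sE p q) (E :: F :: r)).dot a b)).const_mul ((E * a) p)
    simp only [zero_smul, add_zero] at h
    exact h
  have i1 := (PG.sum Finset.univ fun p => PG.sum Finset.univ fun q =>
    (PM.goe β p q).mul (hG p q)).integrable
  have i2 := ((PG.const (β ^ 2 * avg F)).mul (((pm_wick β r).dot (E * a) b).mul hU)).integrable
  have i3 := (PG.sum Finset.univ fun p => PG.sum Finset.univ fun q => hG' p q).integrable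
  have i4 : ∀ j i, PG fun X => wick β (goe β X) ((F :: r).take (j + 2)) i i ^ 2 :=
    fun j i => (pm_wick β _ i i).pow 2
  have i5 := (PG.sum (Finset.range r.length) fun j => PG.sum Finset.univ (i4 j)).integrable
  have i6 : Integrable (fun X => (1 + opn (goe β X : Mat n)) ^ ((r.length + 2) * 4))
      (gp (Fin n × Fin n)) :=
    (pg_of_opn β (F := fun J => (1 + opn J) ^ ((r.length + 2) * 4)) (C := 1)
      ((continuous_const.add continuous_opn).pow _) fun J => by
        rw [one_mul, abs_of_nonneg (pow_nonneg (by linarith [opn_nonneg J]) _)]).integrable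
  simp only [sq_eq]
  rw [integral_sub i1 i2, goe_ibp' β _ _ hG hG' hd, ← integral_const_mul,
    ← integral_sub (i3.const_mul _) i2, ← integral_const_mul]
  have e : ∑ j ∈ Finset.range r.length, ∑ i,
      ∫ X, wick β (goe β X) ((F :: r).take (j + 2)) i i ^ 2 ∂gp (Fin n × Fin n) =
      ∫ X, ∑ j ∈ Finset.range r.length, ∑ i,
        wick β (goe β X) ((F :: r).take (j + 2)) i i ^ 2 ∂gp (Fin n × Fin n) := by
    rw [integral_finsetSum _ fun j _ => (PG.sum Finset.univ (i4 j)).integrable]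
    exact Finset.sum_congr rfl fun j _ => (integral_finsetSum _ fun i _ => (i4 j i).integrable).symm
  rw [e, ← integral_div, ← integral_div,
    ← integral_add ((i5.div_const _).div_const _) (i6.const_mul _)]
  refine integral_mono ((i3.const_mul _).sub i2)
    (((i5.div_const _).div_const _).add (i6.const_mul _)) fun X => ?_
  have h1 : 1 ≤ 1 + opn (goe β X : Mat n) := by linarith [opn_nonneg (goe β X : Mat n)]
  beta_reduce
  rw [pow_mul]
  refine det_bound hβ hδ (one_le_pow₀ h1) E F r a b _ (hl E List.mem_cons_self) ha hb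
    fun l h => (opn_wick_le hβ _ l fun G hG => hl G (h.subset hG)).trans ?_
  exact pow_le_pow_right₀ h1 h.length_le

end WickMom

open WickMom

/-- Derivative of a Wick word in the direction `S`. -/
theorem hasDerivAt_wick (β : ℝ) (J S : Mat n) (l : List (Vec n)) (p q : Fin n) :
    HasDerivAt (fun t : ℝ => wick β (J + t • S) l p q)
      ((∑ j ∈ Finset.range (l.length - 1),
        wick β J (l.take (j + 1)) * S * wick β J (l.drop (j + 1))) p q) 0 := by
  exact md_wick β J S l p q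

/-- Integration by parts for the GOE: `E ∑ J_pq G_pq = (β²/n) E ∑ G'_pq`, where `G'_pq` is the
derivative of `G_pq` in the direction `single p q 1 + single q p 1`. -/
theorem goe_ibp (β : ℝ) (G G' : Mat n → Mat n) (hG : Continuous G) (hG' : Continuous G')
    (hd : ∀ (J : Mat n) (p q : Fin n), HasDerivAt
      (fun t : ℝ => G (J + t • (Matrix.single p q (1 : ℝ) + Matrix.single q p (1 : ℝ))) p q)
      (G' J p q) 0) {C : ℝ} {m : ℕ}
    (h1 : ∀ J p q, |G J p q| ≤ C * (1 + opn J) ^ m) (h2 : ∀ J p q, |G' J p q| ≤ C * (1 + opn J) ^ m) :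
    ∫ X, ∑ p, ∑ q, goe β X p q * G (goe β X) p q ∂gp (Fin n × Fin n) =
      β ^ 2 / n * ∫ X, ∑ p, ∑ q, G' (goe β X) p q ∂gp (Fin n × Fin n) := by
  refine goe_ibp' β G G' (fun p q => ?_) (fun p q => ?_) hd
  · exact pg_of_opn β (F := fun J => G J p q) (hG.matrix_elem p q) fun J => h1 J p q
  · exact pg_of_opn β (F := fun J => G' J p q) (hG'.matrix_elem p q) fun J => h2 J p q

/-- Induction on the length. For `l = E :: η`, `U = a ⬝ wick l b`, apply `goe_ibp` to
`G_pq = (E a)_p (wick η b)_q U`. With `W_j = wick (take (j+1) η)`, `W'_j = wick (drop (j+1) η)` the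
derivative sums to `U ∑_j (trace W_j * (E a) ⬝ W'_j b + (W'_j b) ⬝ W_j (E a))` plus a term from the
derivative of `U` bounded by `C (1 + opn J)^m`. The term `j = 0` cancels the subtraction in the
definition of `wick`; for `j ≥ 1`, `E (tr W_j)² ≤ avg_r E (W_j r r)²` is small by induction; use
Cauchy-Schwarz, `opn_wick_le` and `opn_mom`. -/
theorem wick_mom {β : ℝ} (hβ : 0 < β) (hβ1 : β < 1) (k : ℕ) {η : ℝ} (hη : 0 < η) :
    ∀ᶠ n : ℕ in atTop, ∀ (l : List (Vec n)) (a b : Vec n), l.length = k + 2 →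
      (∀ E ∈ l, ∀ i, |E i| ≤ 1) → vn a ≤ 1 → vn b ≤ 1 →
      ∫ X, (a ⬝ᵥ wick β (goe β X) l *ᵥ b) ^ 2 ∂gp (Fin n × Fin n) ≤ η := by
  induction k using Nat.strong_induction_on generalizing η with
  | _ k ih =>
  obtain ⟨C, hC⟩ := opn_mom hβ hβ1 ((k + 2) * 4)
  have hC0 : 0 ≤ C := le_trans (integral_nonneg fun X =>
    pow_nonneg (add_nonneg zero_le_one (opn_nonneg _)) _) (hC 0)
  obtain ⟨δ, hδ⟩ : ∃ δ : ℝ, δ = η / (3 * (k + 1) * (C + 1)) := ⟨_, rfl⟩
  have hδ0 : 0 < δ := hδ ▸ by positivity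
  obtain ⟨e, he⟩ : ∃ e : ℝ, e = δ * η / (3 * (k + 1)) := ⟨_, rfl⟩
  have he0 : 0 < e := he ▸ by positivity
  have h1 := (Finset.range k).eventually_all.2 fun j hj => ih j (Finset.mem_range.1 hj) he0
  have h2 := (tendsto_const_div_atTop_nhds_zero_nat ((3 * (k : ℝ) + 2) * C)).eventually
    (ge_mem_nhds (by positivity : (0 : ℝ) < η / 3))
  filter_upwards [h1, h2, eventually_gt_atTop 0] with n h1 h2 hn l a b hl hE ha hb
  have hn' : (0 : ℝ) < n := Nat.cast_pos.2 hn
  match l, hl, hE with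
  | E :: F :: r, hl, hE =>
    obtain rfl : r.length = k := by simpa using hl
    refine (int_bound (pow_le_one₀ hβ.le hβ1.le) hδ0 E F r a b hE ha hb).trans ?_
    have h3 : ∑ j ∈ Finset.range r.length, ∑ i,
        ∫ X, wick β (goe β X) ((F :: r).take (j + 2)) i i ^ 2 ∂gp (Fin n × Fin n) ≤
        ∑ _j ∈ Finset.range r.length, ∑ _i : Fin n, e := by
      refine Finset.sum_le_sum fun j hj => Finset.sum_le_sum fun i _ => ?_
      have hs : vn (Pi.single i 1 : Vec n) ≤ 1 := by simp [vn, Pi.single_apply]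
      have h4 := h1 j hj ((F :: r).take (j + 2)) _ _
        (by have := Finset.mem_range.1 hj; simp; omega)
        (fun G hG => hE G (List.mem_cons_of_mem _ (List.mem_of_mem_take hG))) hs hs
      simpa only [mulVec_single_one, single_one_dotProduct, Matrix.col_apply] using h4
    simp only [Finset.sum_const, Finset.card_range, Finset.card_univ, Fintype.card_fin,
      nsmul_eq_mul] at h3
    generalize r.length = k at *
    have h5 : (k : ℝ) * (n * e) / n / δ ≤ η / 3 := by
      rw [he]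
      field_simp
      linarith
    have h6 : k * δ * C ≤ η / 3 := by
      rw [hδ]
      field_simp
      nlinarith [(Nat.cast_nonneg k : (0 : ℝ) ≤ k)]
    have h7 := mul_le_mul_of_nonneg_left (hC n)
      (by positivity : (0 : ℝ) ≤ k * δ + (3 * k + 2) / n)
    have h8 := div_le_div_of_nonneg_right (div_le_div_of_nonneg_right h3 hn'.le) hδ0.le
    have h9 : (k * δ + (3 * k + 2) / n) * C = k * δ * C + (3 * k + 2) * C / n := by ring
    linarith

end Vale.Agent.P150
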